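import Vale.Agent.P139.MBEDefs

/-! P139 part MB: the flux at high frequency. -/

open Complex Set Filter Topology MeasureTheory
open scoped ContDiff ComplexConjugate

noncomputable section
namespace P139
namespace MBEJb

theorem sq_aux (a b : ℂ) (x s : ℝ) (n : ℕ) (hx : |x| ≤ ‖conj a * b‖) :
    (s ^ (n + 1) * x) ^ 2 ≤ s * ((‖a‖ ^ 2 * s ^ (n + 1)) * (‖b‖ ^ 2 * s ^ n)) := by
  rw [norm_mul, norm_conj] at hx
  have h2 := pow_le_pow_left₀ (abs_nonneg _) hx 2
  rw [sq_abs] at h2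
  have h3 := mul_le_mul_of_nonneg_left h2 (sq_nonneg (s ^ (n + 1)))
  calc _ = (s ^ (n + 1)) ^ 2 * x ^ 2 := by ring
    _ ≤ _ := h3
    _ = _ := by ring

theorem abs_le_of {x b : ℝ} (hb : 0 ≤ b) (h : x ^ 2 ≤ b ^ 2) : |x| ≤ b :=
  abs_le.2 (abs_le_of_sq_le_sq' h hb)

theorem err (h : Lev) (hc : h.c = 0) (hε : h.ε ≤ 1) {K o s Z w : ℝ} (hK : 1 ≤ K) (i : Bool)
    (ho : 1 ≤ o) (hw : |h.w i - w| ≤ 1) (hl : ((h.l : ℝ) + 54) ^ 2 ≤ K * o) (hη : h.η ≤ K)
    (hs : h.s₁ ≤ s) (hsK : s ≤ K) {k : ℕ} (hk : k ≤ 8) (hZ : 0 ≤ Z)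
    (h1 : ∀ j ≤ k, o * h.M j s ≤ Z) (h2 : h.M (k + 1) s ≤ Z) :
    |4 * h.J i (k + 1) s + w * h.J i k s| ≤ 7 * K ^ 2 * Z := by
  have hs1 : 1 ≤ s := h.s1.trans hs
  have hs0 : 0 ≤ s := by linarith
  have h3 : ∀ j ≤ k, h.M j s ≤ Z := fun j hj =>
    (le_mul_of_one_le_left (h.M0 j hs0) ho).trans (h1 j hj)
  have a0 := h.m0 i k hs0
  have a1 := h.m0 i (k + 1) hs0
  have b0 : h.m i k s ≤ Z := (h.m_le_M i k hs0).trans (h3 k le_rfl)
  have b1 : h.m i (k + 1) s ≤ Z := (h.m_le_M i (k + 1) hs0).trans h2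
  have b2 : o * h.m i k s ≤ Z :=
    (mul_le_mul_of_nonneg_left (h.m_le_M i k hs0) (by linarith)).trans (h1 k le_rfl)
  have hK2 : K ≤ K ^ 2 := by nlinarith
  have t0 := h.tT0 i k hs0
  have t1 : h.tT i k s ≤ 9 * Z := by
    have e := h.tT_le i (k := k) (by omega) hs
    rw [hc, zero_mul, zero_div, add_zero] at e
    have e1 : ∑ j ∈ Finset.range (k + 1), h.M j s / s ^ (k - j + 2) ≤ (k + 1 : ℕ) * Z := by
      have := Finset.sum_le_card_nsmul (Finset.range (k + 1))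
        (fun j => h.M j s / s ^ (k - j + 2)) Z fun j hj =>
          (div_le_self (h.M0 j hs0) (one_le_pow₀ hs1)).trans
            (h3 j (by have := Finset.mem_range.1 hj; omega))
      simpa using this
    have e2 : 0 ≤ ∑ j ∈ Finset.range (k + 1), h.M j s / s ^ (k - j + 2) :=
      Finset.sum_nonneg fun j _ => div_nonneg (h.M0 j hs0) (by positivity)
    have e3 : ((k + 1 : ℕ) : ℝ) ≤ 9 := by exact_mod_cast (by omega : k + 1 ≤ 9)
    have e4 := mul_le_mul_of_nonneg_right hε e2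
    have e5 := mul_le_mul_of_nonneg_right e3 hZ
    linarith
  have j1 : |h.J i k s| ≤ K * Z := by
    refine abs_le_of (by positivity) ((h.J_sq_le i k hs0).trans ?_)
    calc s * (h.m i k s * h.m i (k + 1) s) ≤ K ^ 2 * (Z * Z) := by gcongr; linarith
      _ = _ := by ring
  have j2 : |(w - h.w i) * h.J i k s| ≤ K * Z := by
    rw [abs_mul, abs_sub_comm]
    simpa using mul_le_mul hw j1 (abs_nonneg _) zero_le_one
  have j3 : s * h.m i (k + 1) s ≤ K * Z := by gcongr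
  have j3' : 0 ≤ s * h.m i (k + 1) s := by positivity
  have x1 := sq_aux (h.X i (k + 1) s) (h.X i k s) _ s (h.l + k + 5) (abs_re_le_norm _)
  have x2 := sq_aux (h.X i (k + 1) s) (h.T i k s) _ s (h.l + k + 5) (abs_im_le_norm _)
  change (s ^ (h.l + k + 6) * _) ^ 2 ≤ s * (h.m i (k + 1) s * h.m i k s) at x1
  change (s ^ (h.l + k + 6) * _) ^ 2 ≤ s * (h.m i (k + 1) s * h.tT i k s) at x2
  have c1 : (h.η + h.l / 2 + k) ^ 2 ≤ 4 * K ^ 2 * o := by
    have e1 : (k : ℝ) ≤ 8 := by exact_mod_cast hk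
    have e2 : (0 : ℝ) ≤ h.l := by positivity
    have e3 := h.η0
    have e4 : (h.η + h.l / 2 + k) ^ 2 ≤ (K + (h.l + 54)) ^ 2 :=
      pow_le_pow_left₀ (by positivity) (by linarith) 2
    have e5 : K * o ≤ K ^ 2 * o := by gcongr
    have e6 : K ^ 2 ≤ K ^ 2 * o := le_mul_of_one_le_right (by positivity) ho
    nlinarith [sq_nonneg (K - (h.l + 54))]
  have j4 : |(h.η + h.l / 2 + k)
      * (s ^ (h.l + k + 6) * (conj (h.X i (k + 1) s) * h.X i k s).re)| ≤ 2 * K ^ 2 * Z := by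
    refine abs_le_of (by positivity) ?_
    rw [mul_pow]
    calc _ ≤ 4 * K ^ 2 * o * (s * (h.m i (k + 1) s * h.m i k s)) := by gcongr
      _ = 4 * K ^ 2 * (s * (h.m i (k + 1) s * (o * h.m i k s))) := by ring
      _ ≤ 4 * K ^ 2 * (K ^ 2 * (Z * Z)) := by gcongr; linarith
      _ = _ := by ring
  have j5 : |s ^ (h.l + k + 6) * (conj (h.X i (k + 1) s) * h.T i k s).im| ≤ 3 * K * Z := by
    refine abs_le_of (by positivity) (x2.trans ?_)
    calc s * (h.m i (k + 1) s * h.tT i k s) ≤ K ^ 2 * (Z * (9 * Z)) := by gcongr; linarith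
      _ = _ := by ring
  have e := h.J_succ i k s
  have hKZ : K * Z ≤ K ^ 2 * Z := by gcongr
  have j2' := abs_le.1 j2
  have j4' := abs_le.1 j4
  have j5' := abs_le.1 j5
  have hz : 0 ≤ K * Z := by positivity
  rw [abs_le]
  constructor <;> linarith [j2'.1, j2'.2, j4'.1, j4'.2, j5'.1, j5'.2]

end MBEJb

open MBEJb in
theorem s_Jb (h2 : S_fwd) : S_Jb := by
  intro K hK
  obtain ⟨C, hC, h2⟩ := h2
  obtain ⟨C₁, hC₁⟩ : ∃ C₁, C₁ = C * (K + 2) ^ 10 := ⟨_, rfl⟩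
  have hC₁0 : 0 ≤ C₁ := by rw [hC₁]; positivity
  refine ⟨3 * K ^ 2 * C₁, by positivity, ?_⟩
  intro h hc hε om s Y i w ho hw hwi hw2 hl hη hs hsK hY
  obtain ⟨o, hoo⟩ : ∃ o, o = |om| := ⟨_, rfl⟩
  rw [← hoo] at ho hw hw2 hl hY ⊢
  have hs0 : 0 ≤ s := by linarith [h.s1]
  have m0 := h.M0 0 hs0
  have m1 := h.M0 1 hs0
  have hY0 : 0 ≤ Y := le_trans (by positivity) hY
  have hKo : K ≤ K * o := le_mul_of_one_le_right (by linarith) ho
  have f : ∀ k ≤ 9, o * h.M k s ≤ C₁ * o ^ k * Y := by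
    intro k hk
    have e := h2 h hε s ((K + 2) * o) hs (by nlinarith) (by nlinarith)
      (fun i => by have := hw2 i; nlinarith) k (by omega)
    rw [hc, zero_mul, add_zero] at e
    have mk := h.M0 k hs0
    have e1 : (K + 2) * o * h.M 0 s + h.M 1 s ≤ (K + 2) * Y := by
      have := mul_le_mul_of_nonneg_left hY (by linarith : 0 ≤ K + 2)
      nlinarith
    have e2 : (K + 2) ^ (k + 1) ≤ (K + 2) ^ 10 := pow_le_pow_right₀ (by linarith) (by omega)
    calc o * h.M k s ≤ (K + 2) * o * h.M k s := by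
          rw [mul_assoc]
          exact le_mul_of_one_le_left (by positivity) (by linarith)
      _ ≤ C * ((K + 2) * o) ^ k * ((K + 2) * Y) := e.trans (by gcongr)
      _ = C * (K + 2) ^ (k + 1) * o ^ k * Y := by rw [mul_pow]; ring
      _ ≤ C * (K + 2) ^ 10 * o ^ k * Y := by gcongr
      _ = _ := by rw [hC₁]
  have hK3 : 1 ≤ 3 * K ^ 2 := by nlinarith
  intro k hk
  refine ⟨(f k (by omega)).trans ?_, ?_⟩
  · have : C₁ * o ^ k * Y ≤ 3 * K ^ 2 * (C₁ * o ^ k * Y) :=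
      le_mul_of_one_le_left (by positivity) hK3
    linarith
  induction k with
  | zero => simp only [pow_zero, one_mul, sub_self, abs_zero, mul_zero]; positivity
  | succ k ih =>
    have ih' := ih (by omega)
    have e := err h hc hε hK i ho hwi hl hη hs hsK (k := k) (Z := C₁ * o ^ k * Y) (by omega)
      (by positivity)
      (fun j hj => (f j (by omega)).trans (by gcongr))
      (le_of_mul_le_mul_left ((f (k + 1) (by omega)).trans (le_of_eq (by ring)))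
        (by linarith : 0 < o))
    have e1 : h.J i (k + 1) s - (-w / 4) ^ (k + 1) * h.J i 0 s
        = (-w / 4) * (h.J i k s - (-w / 4) ^ k * h.J i 0 s)
          + (4 * h.J i (k + 1) s + w * h.J i k s) / 4 := by ring
    have e2 : |h.J i (k + 1) s - (-w / 4) ^ (k + 1) * h.J i 0 s| ≤ 3 * K ^ 2 * (C₁ * o ^ k * Y) := by
      rw [e1]
      refine (abs_add_le _ _).trans ?_
      rw [abs_mul, abs_div, abs_div, abs_neg, hw, abs_of_pos (by norm_num : (0 : ℝ) < 4)]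
      have : 0 ≤ K ^ 2 * (C₁ * o ^ k * Y) := by positivity
      linarith
    calc o * |h.J i (k + 1) s - (-w / 4) ^ (k + 1) * h.J i 0 s|
        ≤ o * (3 * K ^ 2 * (C₁ * o ^ k * Y)) := by gcongr
      _ = _ := by ring

end P139
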