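import Vale.Agent.P139.MBEDefs

/-! P139 part MB: finiteness of the weighted norms of the exterior hierarchy. -/

open Complex Set Filter Topology MeasureTheory
open scoped ContDiff ComplexConjugate

noncomputable section
namespace P139
namespace MBEe0

theorem young {x a b t : ℝ} (h : x ^ 2 ≤ a * b) (ha : 0 ≤ a) (hb : 0 ≤ b) (ht : 0 < t) :
    |x| ≤ t * a + b / (4 * t) := by
  refine abs_le_of_sq_le_sq (h.trans ?_) (by positivity)
  have e : (t * a + b / (4 * t)) ^ 2 = a * b + (t * a - b / (4 * t)) ^ 2 := by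
    field_simp
    ring
  rw [e]
  exact le_add_of_nonneg_right (sq_nonneg _)

theorem d_invpow (q : ℕ) {s : ℝ} (hs : 0 < s) :
    HasDerivAt (fun s : ℝ => (s ^ q)⁻¹) (-(q : ℝ) / s ^ (q + 1)) s := by
  have h := (hasDerivAt_pow q s).fun_inv (pow_ne_zero q hs.ne')
  refine h.congr_deriv ?_
  cases q with
  | zero => simp
  | succ n =>
    simp only [Nat.add_succ_sub_one]
    field_simp
    ring

theorem integ {φ G g ρ : ℝ → ℝ} {x A : ℝ} (hx : 0 < x) (hc : ContinuousOn φ (Ioi 0))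
    (h0 : ∀ s, 0 < s → 0 ≤ φ s) (hG : ∀ s, 0 < s → HasDerivAt G (g s) s)
    (hρ : IntegrableOn ρ (Ioi x)) (hρ0 : ∀ s, x < s → 0 ≤ ρ s)
    (hle : ∀ s, x < s → φ s ≤ -g s + ρ s) (hS : ∀ y, ∃ S, y ≤ S ∧ -G S ≤ A) :
    IntegrableOn φ (Ioi x) := by
  choose S hS1 hS2 using hS
  have hxS : ∀ n : ℕ, x ≤ S (x + n) := fun n =>
    (le_add_of_nonneg_right (Nat.cast_nonneg n)).trans (hS1 _)
  have hci : ∀ n : ℕ, ContinuousOn φ (Icc x (S (x + n))) := fun n =>
    hc.mono fun s hs => lt_of_lt_of_le hx hs.1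
  refine integrableOn_Ioi_of_intervalIntegral_norm_bounded (l := atTop)
    (b := fun n : ℕ => S (x + n)) (A + G x + ∫ s in Ioi x, ρ s) x
    (fun n => (hci n).integrableOn_Icc.mono_set Ioc_subset_Icc_self) ?_
    (Eventually.of_forall fun n => ?_)
  · exact tendsto_atTop_mono (fun n => hS1 _)
      (tendsto_atTop_add_const_left _ _ tendsto_natCast_atTop_atTop)
  · have hφi : IntervalIntegrable φ volume x (S (x + n)) :=
      ContinuousOn.intervalIntegrable_of_Icc (hxS n) (hci n)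
    have hρi : IntervalIntegrable ρ volume x (S (x + n)) :=
      (intervalIntegrable_iff_integrableOn_Ioc_of_le (hxS n)).2 (hρ.mono_set Ioc_subset_Ioi_self)
    have key := ftc_le (F := fun s => -G s) (f := fun s => -g s) (φ := fun s => φ s - ρ s) (hxS n)
      (fun s hs => (hG s (lt_of_lt_of_le hx hs.1)).fun_neg) (hφi.sub hρi)
      (fun s hs => by have := hle s hs.1; linarith)
    rw [intervalIntegral.integral_sub hφi hρi] at key
    have e1 : ∫ s in x..S (x + n), ‖φ s‖ = ∫ s in x..S (x + n), φ s := by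
      refine intervalIntegral.integral_congr fun s hs => ?_
      rw [uIcc_of_le (hxS n)] at hs
      exact Real.norm_of_nonneg (h0 s (lt_of_lt_of_le hx hs.1))
    have e2 : ∫ s in x..S (x + n), ρ s ≤ ∫ s in Ioi x, ρ s := by
      rw [intervalIntegral.integral_of_le (hxS n)]
      refine setIntegral_mono_set hρ ?_ (LE.le.eventuallyLE Ioc_subset_Ioi_self)
      filter_upwards [ae_restrict_mem measurableSet_Ioi] with t ht using hρ0 t ht
    have := hS2 (x + n)
    rw [e1]
    linarith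

theorem c_div {φ : ℝ → ℝ} (hc : ContinuousOn φ (Ioi 0)) (q : ℕ) :
    ContinuousOn (fun s => φ s / s ^ q) (Ioi 0) :=
  hc.div (continuousOn_pow q) fun _ hs => pow_ne_zero q (ne_of_gt hs)

theorem of_le {φ ψ : ℝ → ℝ} {x : ℝ} (hx : 0 < x) (hc : ContinuousOn φ (Ioi 0))
    (h0 : ∀ s, x < s → 0 ≤ φ s) (hψ : IntegrableOn ψ (Ioi x)) (hle : ∀ s, x < s → φ s ≤ ψ s) :
    IntegrableOn φ (Ioi x) := by
  refine Integrable.mono' hψ
    ((hc.mono (Ioi_subset_Ioi hx.le)).aestronglyMeasurable measurableSet_Ioi) ?_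
  filter_upwards [ae_restrict_mem measurableSet_Ioi] with s hs
  rw [Real.norm_of_nonneg (h0 s hs)]
  exact hle s hs

theorem int_inv_sq {x : ℝ} (hx : 0 < x) (c : ℝ) :
    IntegrableOn (fun s : ℝ => c / s ^ 2) (Ioi x) := by
  have h := (integrableOn_Ioi_rpow_of_lt (a := -2) (by norm_num) hx).const_mul c
  refine IntegrableOn.congr_fun h (fun s hs => ?_) measurableSet_Ioi
  have hs0 : 0 < s := hx.trans hs
  rw [Real.rpow_neg hs0.le, div_eq_mul_inv]
  norm_num

theorem crude (h : Lev) {q k : ℕ} (hq : 7 ≤ q) (hk : k ≤ 48) :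
    IntegrableOn (fun s => h.M k s / s ^ q) (Ioi h.s₁) := by
  obtain ⟨B, hB⟩ := h.crude
  have hx : 0 < h.s₁ := one_pos.trans_le h.s1
  refine of_le hx (c_div (h.c_M k) q)
    (fun s hs => div_nonneg (h.M0 k (hx.trans hs).le) (pow_pos (hx.trans hs) q).le)
    (int_inv_sq hx (2 * B)) fun s hs => ?_
  have hs0 : 0 < s := hx.trans hs
  have hs1 : 1 ≤ s := h.s1.trans hs.le
  have hm : ∀ i, h.m i k s ≤ B * s ^ 5 := fun i => by
    have := mul_le_mul_of_nonneg_right (hB i k hk s hs.le) (pow_pos hs0 5).le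
    unfold Lev.m levm
    calc _ = ‖h.X i k s‖ ^ 2 * s ^ (h.l + k) * s ^ 5 := by ring
      _ ≤ _ := this
  have hM : h.M k s ≤ 2 * B * s ^ 5 := by
    have h1 := hm false
    have h2 := hm true
    unfold Lev.M
    linarith
  calc h.M k s / s ^ q ≤ h.M k s / s ^ 7 :=
        div_le_div_of_nonneg_left (h.M0 k hs0.le) (pow_pos hs0 7) (pow_le_pow_right₀ hs1 hq)
    _ ≤ 2 * B * s ^ 5 / s ^ 7 := div_le_div_of_nonneg_right hM (pow_pos hs0 7).le
    _ = 2 * B / s ^ 2 := by field_simp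

theorem negB (h : Lev) (i : Bool) (k : ℕ) {s : ℝ} (hs : 0 < s) :
    -h.B i k s ≤ 8 * h.m i (k + 1) s := by
  have h1 : h.J i k s ^ 2 ≤ (s * h.m i k s) * h.m i (k + 1) s := by
    have := h.J_sq_le i k hs.le
    linarith
  have h2 := young h1 (mul_nonneg hs.le (h.m0 i k hs.le)) (h.m0 i (k + 1) hs.le)
    (t := 1 / 8) (by norm_num)
  have h3 := neg_abs_le (h.J i k s)
  have e : h.m i (k + 1) s / (4 * (1 / 8)) = 2 * h.m i (k + 1) s := by ring
  rw [e] at h2
  unfold Lev.B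
  linarith

theorem pt (h : Lev) (i : Bool) (q k : ℕ) {κ s : ℝ} (hκ : κ = h.η + k / 2 - 3 + q / 2)
    (hκ0 : 0 < κ) (hs : 0 < s) :
    κ / 2 * (h.m i k s / s ^ q) ≤
      -((-(h.η + k / 2 - 3) * h.m i k s + h.Q i k s) * (s ^ q)⁻¹
        + h.B i k s * (-(q : ℝ) / s ^ (q + 1)))
      + (16 * q ^ 2 / κ * (h.m i (k + 1) s / s ^ (q + 1)) + 1 / κ * (h.tT i k s / s ^ q)) := by
  have m0 := h.m0 i k hs.le
  have m1 := h.m0 i (k + 1) hs.le
  have h1 := young (h.Q_sq_le i k s) m0 (h.tT0 i k hs.le) (t := κ / 4) (by positivity)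
  have h2 : (4 * q * h.J i k s / s) ^ 2 ≤ h.m i k s * (16 * q ^ 2 * h.m i (k + 1) s / s) := by
    have h3 := mul_le_mul_of_nonneg_left (h.J_sq_le i k hs.le)
      (show (0 : ℝ) ≤ 16 * q ^ 2 / s ^ 2 by positivity)
    calc _ = 16 * (q : ℝ) ^ 2 / s ^ 2 * h.J i k s ^ 2 := by field_simp; ring
      _ ≤ _ := h3
      _ = _ := by field_simp
  have h4 := young h2 m0 (by positivity) (t := κ / 4) (by positivity)
  have h5 := le_abs_self (h.Q i k s)
  have h6 := neg_abs_le (4 * q * h.J i k s / s)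
  have h7 : κ / 2 * h.m i k s ≤ κ * h.m i k s + 4 * q * h.J i k s / s - h.Q i k s
      + (16 * q ^ 2 * h.m i (k + 1) s / s / (4 * (κ / 4)) + h.tT i k s / (4 * (κ / 4))) := by
    linarith
  have h8 := mul_le_mul_of_nonneg_right h7 (inv_nonneg.2 (pow_pos hs q).le)
  calc _ = κ / 2 * h.m i k s * (s ^ q)⁻¹ := by ring
    _ ≤ _ := h8
    _ = _ := by
      unfold Lev.B
      have e : h.η + k / 2 - 3 = κ - q / 2 := by linarith
      rw [e]
      field_simp
      ring

theorem step (h : Lev) {q k : ℕ} (hk : k ≤ 48) (hη : 6 < (k : ℝ) + q + 2 * h.η)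
    (hc : h.c = 0 ∨ 7 ≤ k + q)
    (h1 : IntegrableOn (fun s => h.M (k + 1) s / s ^ (q + 1)) (Ioi h.s₁))
    (h2 : ∀ j ≤ k, IntegrableOn (fun s => h.M j s / s ^ (k - j + 2 + q)) (Ioi h.s₁)) (i : Bool) :
    IntegrableOn (fun s => h.m i k s / s ^ q) (Ioi h.s₁) := by
  have hx : 0 < h.s₁ := one_pos.trans_le h.s1
  obtain ⟨κ, hκ⟩ : ∃ κ, κ = h.η + k / 2 - 3 + q / 2 := ⟨_, rfl⟩
  have hκ0 : 0 < κ := by linarith
  have a1 : IntegrableOn (fun s => h.m i (k + 1) s / s ^ (q + 1)) (Ioi h.s₁) :=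
    of_le hx (c_div (h.c_m i (k + 1)) _)
      (fun s hs => div_nonneg (h.m0 i _ (hx.trans hs).le) (pow_pos (hx.trans hs) _).le) h1
      fun s hs => div_le_div_of_nonneg_right (h.m_le_M i _ (hx.trans hs).le)
        (pow_pos (hx.trans hs) _).le
  have a2 : IntegrableOn (fun s => h.tT i k s / s ^ q) (Ioi h.s₁) := by
    have b1 : IntegrableOn (fun s => h.ε * (∑ j ∈ Finset.range (k + 1),
        h.M j s / s ^ (k - j + 2 + q)) + h.c / s ^ 2) (Ioi h.s₁) :=
      ((integrable_finsetSum _ fun j hj =>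
        h2 j (Nat.lt_succ_iff.1 (Finset.mem_range.1 hj))).const_mul _).add (int_inv_sq hx _)
    refine of_le hx (c_div (h.c_tT i k) _)
      (fun s hs => div_nonneg (h.tT0 i _ (hx.trans hs).le) (pow_pos (hx.trans hs) _).le) b1
      fun s hs => ?_
    have hs0 : 0 < s := hx.trans hs
    have hs1 : 1 ≤ s := h.s1.trans hs.le
    have b2 := div_le_div_of_nonneg_right (h.tT_le i hk hs.le) (pow_pos hs0 q).le
    refine b2.trans ?_
    rw [add_div, mul_div_assoc, Finset.sum_div]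
    refine add_le_add (le_of_eq ?_) ?_
    · congr 1
      refine Finset.sum_congr rfl fun j _ => ?_
      rw [div_div, ← pow_add]
    · rcases hc with hc | hc
      · simp [hc]
      · rw [div_div, ← pow_add]
        calc h.c * s ^ 5 / s ^ (k + q) ≤ h.c * s ^ 5 / s ^ 7 :=
              div_le_div_of_nonneg_left (mul_nonneg h.c0 (pow_pos hs0 5).le) (pow_pos hs0 7)
                (pow_le_pow_right₀ hs1 hc)
          _ = h.c / s ^ 2 := by field_simp
  have a3 : IntegrableOn (fun s => κ / 2 * (h.m i k s / s ^ q)) (Ioi h.s₁) := by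
    refine integ (A := 8) (G := fun s => h.B i k s * (s ^ q)⁻¹) hx
      (continuousOn_const.mul (c_div (h.c_m i k) q))
      (fun s hs => mul_nonneg (by positivity) (div_nonneg (h.m0 i _ hs.le) (pow_pos hs _).le))
      (fun s hs => (h.dB i k hs).fun_mul (d_invpow q hs))
      ((a1.const_mul (16 * q ^ 2 / κ)).add (a2.const_mul (1 / κ))) (fun s hs => ?_)
      (fun s hs => pt h i q k hκ hκ0 (hx.trans hs)) fun y => ?_
    · have hs0 : 0 < s := hx.trans hs
      have := h.m0 i (k + 1) hs0.le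
      have := h.tT0 i k hs0.le
      simp only [Pi.add_apply]
      positivity
    · obtain ⟨S, hS1, hS0, hS2⟩ := exists_small hx (c_div (h.c_m i (k + 1)) (q + 1))
        (fun s hs => div_nonneg (h.m0 i _ hs.le) (pow_pos hs _).le) a1 y one_pos
      refine ⟨S, hS1, ?_⟩
      have b1 := mul_le_mul_of_nonneg_right (negB h i k hS0) (inv_nonneg.2 (pow_pos hS0 q).le)
      have e : 8 * h.m i (k + 1) S * (S ^ q)⁻¹ = 8 * (S * (h.m i (k + 1) S / S ^ (q + 1))) := by
        field_simp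
        ring
      rw [e] at b1
      linarith
  have a4 := a3.const_mul (2 / κ)
  refine IntegrableOn.congr_fun a4 (fun s _ => ?_) measurableSet_Ioi
  field_simp

theorem ind (h : Lev) (n : ℕ) : ∀ q k : ℕ, 7 ≤ q + n → k ≤ 41 + q → k ≤ 48 →
    6 < (k : ℝ) + q + 2 * h.η → (h.c = 0 ∨ 7 ≤ k + q) →
    IntegrableOn (fun s => h.M k s / s ^ q) (Ioi h.s₁) := by
  induction n with
  | zero => exact fun q k hq _ hk _ _ => crude h hq hk
  | succ n ih =>
    intro q k hq hkq hk hη hc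
    by_cases hq7 : 7 ≤ q
    · exact crude h hq7 hk
    have h1 := ih (q + 1) (k + 1) (by omega) (by omega) (by omega) (by push_cast; linarith)
      (hc.imp_right fun _ => by omega)
    have h2 : ∀ j ≤ k, IntegrableOn (fun s => h.M j s / s ^ (k - j + 2 + q)) (Ioi h.s₁) :=
      fun j hj => ih (k - j + 2 + q) j (by omega) (by omega) (by omega)
        (by push_cast [Nat.cast_sub hj]; linarith) (hc.imp_right fun _ => by omega)
    have h3 := (step h hk hη hc h1 h2 false).add (step h hk hη hc h1 h2 true)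
    refine IntegrableOn.congr_fun h3 (fun s _ => ?_) measurableSet_Ioi
    simp only [Pi.add_apply, Lev.M, add_div]

end MBEe0

theorem s_e0 : S_e0 := fun h q k => MBEe0.ind h 7 q k (Nat.le_add_left _ _)

end P139
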