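import Vale.Agent.P139.MBEe0

/-! P139 part MB: the flux controls the weighted norms of the exterior hierarchy. -/

open Complex Set Filter Topology MeasureTheory
open scoped ContDiff ComplexConjugate

noncomputable section
namespace P139
namespace MBEe1

open MBEe0

theorem lim_le {F f ψ : ℝ → ℝ} {x : ℝ} (hx : 0 < x) (hF : ∀ s, 0 < s → HasDerivAt F (f s) s)
    (hψ : IntegrableOn ψ (Ioi x)) (hle : ∀ s, x < s → ψ s ≤ f s)
    (hS : ∀ ε, 0 < ε → ∀ y, ∃ S, y ≤ S ∧ F S ≤ ε) : ∫ s in Ioi x, ψ s ≤ -F x := by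
  refine le_of_forall_pos_le_add fun ε hε => ?_
  choose S hS1 hS2 using hS ε hε
  have hxS : ∀ n : ℕ, x ≤ S (x + n) := fun n =>
    (le_add_of_nonneg_right (Nat.cast_nonneg n)).trans (hS1 _)
  have ht : Tendsto (fun n : ℕ => S (x + n)) atTop atTop :=
    tendsto_atTop_mono (fun n => hS1 _)
      (tendsto_atTop_add_const_left _ _ tendsto_natCast_atTop_atTop)
  refine le_of_tendsto' (intervalIntegral_tendsto_integral_Ioi x hψ ht) fun n => ?_
  have key := ftc_le (F := F) (f := f) (φ := ψ) (hxS n)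
    (fun s hs => hF s (lt_of_lt_of_le hx hs.1))
    ((intervalIntegrable_iff_integrableOn_Ioc_of_le (hxS n)).2 (hψ.mono_set Ioc_subset_Ioi_self))
    (fun s hs => hle s hs.1)
  have := hS2 (x + n)
  linarith

theorem absB (h : Lev) (i : Bool) (k : ℕ) {s : ℝ} (hs : 0 < s) :
    |h.B i k s| ≤ s * (3 * h.m i k s + 2 * (h.m i (k + 1) s / s ^ 1)) := by
  have h1 : h.J i k s ^ 2 ≤ (s * h.m i k s) * h.m i (k + 1) s := by
    have := h.J_sq_le i k hs.le
    linarith
  have m0 := mul_nonneg hs.le (h.m0 i k hs.le)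
  have h2 := young h1 m0 (h.m0 i (k + 1) hs.le) (t := 1 / 2) (by norm_num)
  have e : h.m i (k + 1) s / (4 * (1 / 2)) = h.m i (k + 1) s / 2 := by ring
  rw [e] at h2
  have e2 : s * (3 * h.m i k s + 2 * (h.m i (k + 1) s / s ^ 1)) =
      3 * (s * h.m i k s) + 2 * h.m i (k + 1) s := by field_simp
  have h3 := neg_abs_le (h.J i k s)
  have h4 := le_abs_self (h.J i k s)
  rw [e2, abs_le]
  unfold Lev.B
  constructor <;> linarith

theorem int_inv {x : ℝ} (hx : 1 ≤ x) {c : ℝ} (hc : 0 ≤ c) : ∫ s in Ioi x, c / s ^ 2 ≤ c := by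
  have hx0 : 0 < x := one_pos.trans_le hx
  have h := lim_le (F := fun s => -(c * s⁻¹)) (f := fun s => c / s ^ 2) (ψ := fun s => c / s ^ 2)
    hx0 (fun s hs => (((hasDerivAt_inv hs.ne').const_mul c).fun_neg).congr_deriv (by ring))
    (int_inv_sq hx0 c) (fun _ _ => le_rfl) fun ε hε y => ⟨max y 1, le_max_left _ _, by
      have : 0 ≤ c * (max y 1)⁻¹ :=
        mul_nonneg hc (inv_nonneg.2 (zero_le_one.trans (le_max_right _ _)))
      linarith⟩
  have h2 : c * x⁻¹ ≤ c := mul_le_of_le_one_right hc (inv_le_one_of_one_le₀ hx)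
  simp only [neg_neg] at h
  linarith

theorem tT (h1 : S_har) (h : Lev) {k : ℕ} (hk7 : 7 ≤ k) (hk : k ≤ 41) {s₀ : ℝ} (hs₀ : h.s₁ ≤ s₀)
    (hM : 0 ≤ (∫ s in Ioi s₀, h.M k s) + h.dt k s₀) (i : Bool) :
    IntegrableOn (h.tT i k) (Ioi s₀) ∧ ∫ s in Ioi s₀, h.tT i k s ≤
      h.ε * (42 * 4 ^ 41 * ((∫ s in Ioi s₀, h.M k s) + h.dt k s₀)) + h.c := by
  have h1s : 1 ≤ s₀ := h.s1.trans hs₀
  have hx : 0 < s₀ := one_pos.trans_le h1s
  have H := h1 h k hk7 hk s₀ hs₀
  have hI : ∀ j ∈ Finset.range (k + 1),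
      IntegrableOn (fun s => h.M j s / s ^ (k - j + 2)) (Ioi s₀) := fun j hj =>
    (H j (Nat.lt_succ_iff.1 (Finset.mem_range.1 hj))).1
  have b0 : IntegrableOn (fun s => h.ε * (∑ j ∈ Finset.range (k + 1),
      h.M j s / s ^ (k - j + 2))) (Ioi s₀) := (integrable_finsetSum _ hI).const_mul _
  have b1 : IntegrableOn (fun s => h.ε * (∑ j ∈ Finset.range (k + 1),
      h.M j s / s ^ (k - j + 2)) + h.c / s ^ 2) (Ioi s₀) := b0.add (int_inv_sq hx _)
  have b2 : ∀ s, s₀ < s → h.tT i k s ≤ h.ε * (∑ j ∈ Finset.range (k + 1),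
      h.M j s / s ^ (k - j + 2)) + h.c / s ^ 2 := fun s hs => by
    have hs0 : 0 < s := hx.trans hs
    have hs1 : 1 ≤ s := h1s.trans hs.le
    refine (h.tT_le i (by omega) (hs₀.trans hs.le)).trans (add_le_add le_rfl ?_)
    calc h.c * s ^ 5 / s ^ k ≤ h.c * s ^ 5 / s ^ 7 :=
          div_le_div_of_nonneg_left (mul_nonneg h.c0 (pow_pos hs0 5).le) (pow_pos hs0 7)
            (pow_le_pow_right₀ hs1 hk7)
      _ = h.c / s ^ 2 := by field_simp
  have b3 : IntegrableOn (h.tT i k) (Ioi s₀) :=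
    of_le hx (h.c_tT i k) (fun s hs => h.tT0 i k (hx.trans hs).le) b1 b2
  refine ⟨b3, (setIntegral_mono_on b3 b1 measurableSet_Ioi b2).trans ?_⟩
  rw [integral_add b0 (int_inv_sq hx _), integral_const_mul, integral_finsetSum _ hI]
  refine add_le_add (mul_le_mul_of_nonneg_left ?_ h.ε0) (int_inv h1s h.c0)
  calc _ ≤ ∑ _j ∈ Finset.range (k + 1), 4 ^ 41 * ((∫ s in Ioi s₀, h.M k s) + h.dt k s₀) :=
        Finset.sum_le_sum fun j hj => (H j (Nat.lt_succ_iff.1 (Finset.mem_range.1 hj))).2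
    _ = ((k + 1 : ℕ) : ℝ) * (4 ^ 41 * ((∫ s in Ioi s₀, h.M k s) + h.dt k s₀)) := by
        rw [Finset.sum_const, Finset.card_range, nsmul_eq_mul]
    _ ≤ 42 * (4 ^ 41 * ((∫ s in Ioi s₀, h.M k s) + h.dt k s₀)) :=
        mul_le_mul_of_nonneg_right (by exact_mod_cast Nat.succ_le_succ hk)
          (mul_nonneg (by positivity) hM)
    _ = _ := by rw [mul_assoc]

theorem flux (h : Lev) (i : Bool) {k : ℕ} {s₀ : ℝ} (hx : 0 < s₀)
    (a0 : IntegrableOn (h.m i k) (Ioi s₀))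
    (a1 : IntegrableOn (fun s => h.m i (k + 1) s / s ^ 1) (Ioi s₀))
    (a2 : IntegrableOn (h.tT i k) (Ioi s₀)) :
    |h.B i k s₀ - (h.η + k / 2 - 3) * ∫ s in Ioi s₀, h.m i k s| ≤
      (∫ s in Ioi s₀, h.m i k s) / 8 + 2 * ∫ s in Ioi s₀, h.tT i k s := by
  have hQ : ∀ s, 0 < s → |h.Q i k s| ≤ 1 / 8 * h.m i k s + 2 * h.tT i k s := fun s hs => by
    have := young (h.Q_sq_le i k s) (h.m0 i k hs.le) (h.tT0 i k hs.le) (t := 1 / 8) (by norm_num)
    have e : h.tT i k s / (4 * (1 / 8)) = 2 * h.tT i k s := by ring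
    rwa [e] at this
  have hS : ∀ ε, 0 < ε → ∀ y, ∃ S, y ≤ S ∧ |h.B i k S| ≤ ε := fun ε hε y => by
    obtain ⟨S, hS1, hS0, hS2⟩ := exists_small
      (φ := fun s => 3 * h.m i k s + 2 * (h.m i (k + 1) s / s ^ 1)) hx
      ((continuousOn_const.mul (h.c_m i k)).add
        (continuousOn_const.mul (c_div (h.c_m i (k + 1)) 1)))
      (fun s hs => by
        have := h.m0 i k hs.le
        have := h.m0 i (k + 1) hs.le
        positivity)
      (IntegrableOn.add (f := fun s => 3 * h.m i k s) (g := fun s => 2 * (h.m i (k + 1) s / s ^ 1))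
        (a0.const_mul 3) (a1.const_mul 2)) y hε
    exact ⟨S, hS1, (absB h i k hS0).trans hS2⟩
  have e : ∀ a : ℝ, ∫ s in Ioi s₀, (a * h.m i k s - 2 * h.tT i k s) =
      a * (∫ s in Ioi s₀, h.m i k s) - 2 * ∫ s in Ioi s₀, h.tT i k s := fun a => by
    rw [integral_sub (a0.const_mul a) (a2.const_mul 2), integral_const_mul, integral_const_mul]
  have k1 := lim_le (F := h.B i k)
    (ψ := fun s => (-(h.η + k / 2 - 3) - 1 / 8) * h.m i k s - 2 * h.tT i k s) hx
    (fun s hs => h.dB i k hs) ((a0.const_mul _).sub (a2.const_mul 2))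
    (fun s hs => by
      have := hQ s (hx.trans hs)
      have := neg_abs_le (h.Q i k s)
      linarith)
    fun ε hε y => (hS ε hε y).imp fun S hS => ⟨hS.1, (le_abs_self _).trans hS.2⟩
  have k2 := lim_le (F := fun s => -h.B i k s)
    (ψ := fun s => ((h.η + k / 2 - 3) - 1 / 8) * h.m i k s - 2 * h.tT i k s) hx
    (fun s hs => (h.dB i k hs).fun_neg) ((a0.const_mul _).sub (a2.const_mul 2))
    (fun s hs => by
      have := hQ s (hx.trans hs)
      have := le_abs_self (h.Q i k s)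
      linarith)
    fun ε hε y => (hS ε hε y).imp fun S hS => ⟨hS.1, (neg_le_abs _).trans hS.2⟩
  rw [e] at k1 k2
  rw [abs_le]
  constructor <;> linarith

end MBEe1

open MBEe0 MBEe1 in
theorem s_e1 (h0 : S_e0) (h1 : S_har) : S_e1 := by
  refine ⟨1 / (32 * (42 * 4 ^ 41)), 16, by positivity, by norm_num, ?_⟩
  intro h hε k hk7 hk s₀ hs₀
  have h1s : 1 ≤ s₀ := h.s1.trans hs₀
  have hx : 0 < s₀ := one_pos.trans_le h1s
  have hk7' : (7 : ℝ) ≤ k := by exact_mod_cast hk7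
  have hk' : (k : ℝ) ≤ 41 := by exact_mod_cast hk
  have hη := h.η0
  have hM : IntegrableOn (h.M k) (Ioi s₀) := by
    have := (h0 h 0 k (by omega) (by omega) (by push_cast; linarith)
      (Or.inr (by omega))).mono_set (Ioi_subset_Ioi hs₀)
    simpa using this
  have hM1 : IntegrableOn (fun s => h.M (k + 1) s / s ^ 1) (Ioi s₀) :=
    (h0 h 1 (k + 1) (by omega) (by omega) (by push_cast; linarith)
      (Or.inr (by omega))).mono_set (Ioi_subset_Ioi hs₀)
  have a0 : ∀ i, IntegrableOn (h.m i k) (Ioi s₀) := fun i =>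
    of_le hx (h.c_m i k) (fun s hs => h.m0 i k (hx.trans hs).le) hM
      fun s hs => h.m_le_M i k (hx.trans hs).le
  have a1 : ∀ i, IntegrableOn (fun s => h.m i (k + 1) s / s ^ 1) (Ioi s₀) := fun i =>
    of_le hx (c_div (h.c_m i (k + 1)) 1)
      (fun s hs => div_nonneg (h.m0 i _ (hx.trans hs).le) (pow_pos (hx.trans hs) _).le) hM1
      fun s hs => div_le_div_of_nonneg_right (h.m_le_M i _ (hx.trans hs).le)
        (pow_pos (hx.trans hs) _).le
  have n0 : ∀ i, 0 ≤ ∫ s in Ioi s₀, h.m i k s := fun i =>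
    setIntegral_nonneg measurableSet_Ioi fun s hs => h.m0 i k (hx.trans hs).le
  have eM : ∫ s in Ioi s₀, h.M k s =
      (∫ s in Ioi s₀, h.m false k s) + ∫ s in Ioi s₀, h.m true k s :=
    integral_add (a0 false) (a0 true)
  have d0 := h.dt0 k hx.le
  have c0 := h.c0
  have hP : 0 ≤ (∫ s in Ioi s₀, h.M k s) + h.dt k s₀ := by
    have := n0 false
    have := n0 true
    linarith
  have key : ∀ i, |h.B i k s₀ - (h.η + k / 2 - 3) * ∫ s in Ioi s₀, h.m i k s| ≤
      (∫ s in Ioi s₀, h.m i k s) / 8 +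
        (((∫ s in Ioi s₀, h.M k s) + h.dt k s₀) / 16 + 2 * h.c) := fun i => by
    obtain ⟨t1, t2⟩ := tT h1 h hk7 hk hs₀ hP i
    refine (flux h i hx (a0 i) (a1 i) t1).trans (add_le_add le_rfl ?_)
    have t3 := mul_le_mul_of_nonneg_right hε
      (mul_nonneg (show (0 : ℝ) ≤ 42 * 4 ^ 41 by positivity) hP)
    have e : 1 / (32 * (42 * 4 ^ 41)) *
        (42 * 4 ^ 41 * ((∫ s in Ioi s₀, h.M k s) + h.dt k s₀)) =
        ((∫ s in Ioi s₀, h.M k s) + h.dt k s₀) / 32 := by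
      generalize (∫ s in Ioi s₀, h.M k s) + h.dt k s₀ = P
      field_simp
    rw [e] at t3
    linarith
  have lo : ∀ i, 1 / 2 * ∫ s in Ioi s₀, h.m i k s ≤
      (h.η + k / 2 - 3) * ∫ s in Ioi s₀, h.m i k s := fun i =>
    mul_le_mul_of_nonneg_right (by linarith) (n0 i)
  have hi : ∀ i, (h.η + k / 2 - 3) * ∫ s in Ioi s₀, h.m i k s ≤
      (h.η + 18) * ∫ s in Ioi s₀, h.m i k s := fun i =>
    mul_le_mul_of_nonneg_right (by linarith) (n0 i)
  refine ⟨hM, ?_, fun i => ?_⟩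
  · have k1 := (abs_le.1 (key false)).1
    have k2 := (abs_le.1 (key true)).1
    have := lo false
    have := lo true
    linarith
  · have k1 := abs_le.1 (key i)
    have mi : ∫ s in Ioi s₀, h.m i k s ≤ ∫ s in Ioi s₀, h.M k s := by
      have := n0 false
      have := n0 true
      cases i <;> linarith
    have mi' := mul_le_mul_of_nonneg_left mi hη
    have := lo i
    have := hi i
    have := n0 i
    have := mul_nonneg hη (n0 i)
    rw [abs_le]
    constructor <;> linarith [k1.1, k1.2]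

end P139
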