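import Vale.Agent.P139.MBEDefs

/-! P139 part MB: the exterior estimate for bounded parameters and polynomial growth. -/

open Complex Set Filter Topology MeasureTheory
open scoped ContDiff ComplexConjugate

noncomputable section
namespace P139
namespace MBEea

lemma B_le (h : Lev) (i : Bool) (k : ℕ) {s : ℝ} (hs : 0 ≤ s) :
    h.B i k s ≤ 3 * s * h.m i k s + 2 * h.m i (k + 1) s := by
  have h1 := h.J_sq_le i k hs
  have h2 := h.m0 i k hs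
  have h3 := h.m0 i (k + 1) hs
  have h4 : 0 ≤ s * h.m i k s := mul_nonneg hs h2
  have h5 : h.J i k s ≤ (s * h.m i k s + h.m i (k + 1) s) / 2 := by
    refine (abs_le_of_sq_le_sq' ?_ (by positivity)).2
    nlinarith [sq_nonneg (s * h.m i k s - h.m i (k + 1) s)]
  unfold Lev.B
  nlinarith

lemma core (h : Lev) {k : ℕ} (hk : k ≤ 41) {s K Y : ℝ} (hs : 0 ≤ s) (hK : s ≤ K)
    (hY : ∀ j ≤ k + 1, h.M j s ≤ Y) :
    4 * (h.B false k s + h.B true k s) + h.dt k s ≤ (12 * K + 49) * Y := by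
  have h1 := B_le h false k hs
  have h2 := B_le h true k hs
  have h3 := hY k (by omega)
  have h4 := hY (k + 1) le_rfl
  have h5 := h.M0 k hs
  have hY0 : 0 ≤ Y := h5.trans h3
  have h6 : h.dt k s ≤ 41 * Y := by
    unfold Lev.dt
    calc _ ≤ ∑ _j ∈ Finset.range k, Y :=
          Finset.sum_le_sum fun j hj => hY j (by have := Finset.mem_range.1 hj; omega)
      _ = k * Y := by simp
      _ ≤ 41 * Y := mul_le_mul_of_nonneg_right (by exact_mod_cast hk) hY0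
  have h7 : s * h.M k s ≤ K * Y := mul_le_mul hK h3 h5 (hs.trans hK)
  unfold Lev.M at h3 h4 h5 h7
  nlinarith

lemma fwd_le (h : Lev) {C s Λ : ℝ} {j n : ℕ} (hC : 1 ≤ C) (hΛ : 1 ≤ Λ) (hs : 0 ≤ s) (hj : j ≤ n)
    (H : Λ * h.M j s ≤ C * Λ ^ j * (Λ * h.M 0 s + h.M 1 s + h.c * s ^ 5)) :
    h.M j s ≤ C * Λ ^ (n + 1) * (h.M 0 s + h.M 1 s + h.c * s ^ 5) := by
  have h0 := h.M0 0 hs
  have h1 := h.M0 1 hs
  have h2 := h.M0 j hs
  have h3 : 0 ≤ h.c * s ^ 5 := mul_nonneg h.c0 (by positivity)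
  have h4 : Λ * h.M 0 s + h.M 1 s + h.c * s ^ 5 ≤ Λ * (h.M 0 s + h.M 1 s + h.c * s ^ 5) := by
    nlinarith
  calc h.M j s ≤ Λ * h.M j s := le_mul_of_one_le_left h2 hΛ
    _ ≤ _ := H
    _ ≤ C * Λ ^ n * (Λ * (h.M 0 s + h.M 1 s + h.c * s ^ 5)) :=
        mul_le_mul (mul_le_mul_of_nonneg_left (pow_le_pow_right₀ hΛ hj) (by linarith)) h4
          (by positivity) (by positivity)
    _ = _ := by ring

end MBEea

open MBEea

theorem s_ea (h1 : S_e1) (h2 : S_fwd) : S_ea := by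
  intro K₀
  obtain ⟨ε₁, C₁, hε₁, hC₁, H1⟩ := h1
  obtain ⟨C₂, hC₂, H2⟩ := h2
  obtain ⟨K, hK1, hK⟩ : ∃ K : ℝ, 1 ≤ K ∧ K₀ ≤ K := ⟨max K₀ 1, le_max_right _ _, le_max_left _ _⟩
  obtain ⟨Λ, hΛ⟩ : ∃ Λ : ℝ, Λ = (K + 54) ^ 2 + 2 * K := ⟨_, rfl⟩
  have hΛ1 : 1 ≤ Λ := by nlinarith
  refine ⟨min ε₁ 1, (12 * K + 49) * (C₂ * Λ ^ 43 * K ^ 5) + C₁, lt_min hε₁ one_pos,
    by positivity, fun h hε hl hη hw hs k hk7 hk => ?_⟩
  obtain ⟨a1, a2, -⟩ := H1 h (hε.trans (min_le_left _ _)) k hk7 hk h.s₁ le_rfl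
  refine ⟨a1, a2.trans ?_⟩
  have hs0 : 0 ≤ h.s₁ := zero_le_one.trans h.s1
  have hl0 : (0 : ℝ) ≤ h.l := Nat.cast_nonneg _
  have hf := H2 h (hε.trans (min_le_right _ _)) h.s₁ Λ le_rfl (by nlinarith)
    (by rw [hΛ]; nlinarith) (fun i => by have := hw i; nlinarith)
  have h0 := h.M0 0 hs0
  have h1 := h.M0 1 hs0
  have hc := h.c0
  have hK5 : 1 ≤ K ^ 5 := one_le_pow₀ hK1
  have hs5 : h.s₁ ^ 5 ≤ K ^ 5 := pow_le_pow_left₀ hs0 (hs.trans hK) 5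
  have hb : h.M 0 h.s₁ + h.M 1 h.s₁ + h.c * h.s₁ ^ 5
      ≤ K ^ 5 * (h.M 0 h.s₁ + h.M 1 h.s₁ + h.c) := by nlinarith
  have hY : ∀ j ≤ k + 1, h.M j h.s₁
      ≤ C₂ * Λ ^ 43 * K ^ 5 * (h.M 0 h.s₁ + h.M 1 h.s₁ + h.c) := by
    intro j hj
    refine (fwd_le h (n := 42) hC₂ hΛ1 hs0 (by omega) (hf j (by omega))).trans ?_
    rw [mul_assoc (C₂ * Λ ^ 43)]
    exact mul_le_mul_of_nonneg_left hb (by positivity)
  have hcore := core h hk hs0 (hs.trans hK) hY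
  have : C₁ * h.c ≤ C₁ * (h.M 0 h.s₁ + h.M 1 h.s₁ + h.c) :=
    mul_le_mul_of_nonneg_left (by linarith) hC₁
  linarith

theorem s_o1a (h1 : S_e1) (h2 : S_fwd) (h3 : S_bwd) : S_o1a := by
  intro K₀
  obtain ⟨ε₁, C₁, hε₁, hC₁, H1⟩ := h1
  obtain ⟨C₂, hC₂, H2⟩ := h2
  obtain ⟨K, hK1, hK⟩ : ∃ K : ℝ, 1 ≤ K ∧ K₀ ≤ K := ⟨max K₀ 1, le_max_right _ _, le_max_left _ _⟩
  obtain ⟨K', hK'⟩ : ∃ K' : ℝ, K' = 55 ^ 2 + 2 * K := ⟨_, rfl⟩
  have hK'1 : 1 ≤ K' := by nlinarith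
  obtain ⟨ε₃, C₃, hε₃, hC₃, H3⟩ := h3 (4 * K') (by linarith)
  refine ⟨min (min ε₁ 1) ε₃, C₃ * (2 * ((12 * K + 49) * (C₂ * K' ^ 10))), 20,
    lt_min (lt_min hε₁ one_pos) hε₃, by positivity,
    fun h hc hε hl hη hw s₂ s₃ hs₂ h23 hs₃ => ?_⟩
  have hl1 : (1 : ℝ) ≤ h.l := by exact_mod_cast hl
  have hl2 : (1 : ℝ) ≤ (h.l : ℝ) ^ 2 := one_le_pow₀ hl1
  obtain ⟨Λ, hΛ⟩ : ∃ Λ : ℝ, Λ = K' * (h.l : ℝ) ^ 2 := ⟨_, rfl⟩
  have hKl : K ≤ K * (h.l : ℝ) ^ 2 := le_mul_of_one_le_right (by linarith) hl2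
  have hΛ' : Λ = 55 ^ 2 * (h.l : ℝ) ^ 2 + 2 * (K * (h.l : ℝ) ^ 2) := by rw [hΛ, hK']; ring
  have hΛK : K ≤ Λ := by nlinarith
  have hΛ1 : 1 ≤ Λ := hK1.trans hΛK
  have hΛl : ((h.l : ℝ) + 54) ^ 2 ≤ Λ := by nlinarith
  have hs0 : 0 < s₂ := lt_of_lt_of_le one_pos (h.s1.trans hs₂)
  have he1 : h.ε ≤ ε₁ := hε.trans ((min_le_left _ _).trans (min_le_left _ _))
  have he2 : h.ε ≤ 1 := hε.trans ((min_le_left _ _).trans (min_le_right _ _))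
  have hf := H2 h he2 s₂ Λ hs₂ (by linarith) hΛl (fun i => by
    have h1 := hw i
    have h2 : K₀ * (h.l : ℝ) ^ 2 ≤ K * (h.l : ℝ) ^ 2 :=
      mul_le_mul_of_nonneg_right hK (by positivity)
    nlinarith)
  have hY : ∀ j ≤ 9, h.M j s₂ ≤ C₂ * Λ ^ 10 * (h.M 0 s₂ + h.M 1 s₂) := by
    intro j hj
    have := fwd_le h (n := 9) hC₂ hΛ1 hs0.le hj (hf j (by omega))
    simpa [hc] using this
  have hI : ∀ k, 7 ≤ k → k ≤ 8 → IntervalIntegrable (h.M k) volume s₂ s₃ ∧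
      ∫ s in s₂..s₃, h.M k s ≤ (12 * K + 49) * (C₂ * Λ ^ 10 * (h.M 0 s₂ + h.M 1 s₂)) := by
    intro k k7 k8
    obtain ⟨a1, a2, -⟩ := H1 h he1 k k7 (by omega) s₂ hs₂
    refine ⟨(intervalIntegrable_iff_integrableOn_Ioc_of_le h23).2
      (a1.mono_set Ioc_subset_Ioi_self), ?_⟩
    rw [intervalIntegral.integral_of_le h23]
    have b1 : ∫ s in Ioc s₂ s₃, h.M k s ≤ ∫ s in Ioi s₂, h.M k s := by
      refine setIntegral_mono_set a1 ?_ Ioc_subset_Ioi_self.eventuallyLE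
      filter_upwards [ae_restrict_mem measurableSet_Ioi] with x hx
      exact h.M0 k (hs0.le.trans (le_of_lt hx))
    have b2 := core h (k := k) (by omega) hs0.le (K := K) (by linarith)
      (fun j hj => hY j (by omega))
    rw [hc, mul_zero, add_zero] at a2
    linarith
  obtain ⟨i7, j7⟩ := hI 7 le_rfl (by norm_num)
  obtain ⟨i8, j8⟩ := hI 8 (by norm_num) le_rfl
  have i0 : IntervalIntegrable (h.M 0) volume s₂ s₃ := by
    refine ContinuousOn.intervalIntegrable ((h.c_M 0).mono ?_)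
    rw [uIcc_of_le h23]
    exact fun x hx => lt_of_lt_of_le hs0 hx.1
  have hle : ∫ s in s₂..s₃, h.M 0 s ≤ ∫ s in s₂..s₃, C₃ * (h.M 7 s + h.M 8 s) := by
    refine intervalIntegral.integral_mono_on h23 i0 ((i7.add i8).const_mul C₃) fun s hs => ?_
    have hb := H3 h hc (hε.trans (min_le_right _ _)) s 1 Λ (hs₂.trans hs.1)
      (by linarith [hs.2]) le_rfl hΛl (fun i => by
        have h1 : 0 ≤ K' * h.w i ^ 2 := by positivity
        have h2 : 4 * K' * (((h.l : ℝ) / 2) ^ 2 + h.w i ^ 2) = Λ + 4 * (K' * h.w i ^ 2) := by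
          rw [hΛ]; ring
        rw [h2]
        constructor <;> linarith)
    have := h.M0 1 (hs0.le.trans hs.1)
    simp only [one_mul, one_pow, div_one] at hb
    linarith
  rw [intervalIntegral.integral_const_mul, intervalIntegral.integral_add i7 i8] at hle
  refine hle.trans ?_
  calc _ ≤ C₃ * (2 * ((12 * K + 49) * (C₂ * Λ ^ 10 * (h.M 0 s₂ + h.M 1 s₂)))) :=
        mul_le_mul_of_nonneg_left (by linarith) hC₃
    _ = _ := by rw [hΛ]; ring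

end P139
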