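import Vale.Agent.P139.MBEDefs

/-! P139 part MB: forward and backward recursions for the levels. -/

open Complex Set Filter Topology MeasureTheory

noncomputable section
namespace P139
namespace MBEfwd

theorem three (A B C T : ℂ) (e : T = A + B + C) :
    ‖A‖ ^ 2 ≤ 3 * (‖B‖ ^ 2 + ‖C‖ ^ 2 + ‖T‖ ^ 2) ∧ ‖C‖ ^ 2 ≤ 3 * (‖A‖ ^ 2 + ‖B‖ ^ 2 + ‖T‖ ^ 2) := by
  have h1 : ‖A‖ ≤ ‖B‖ + ‖C‖ + ‖T‖ := by
    have : A = T - B - C := by rw [e]; ring
    calc ‖A‖ = ‖T - B - C‖ := by rw [← this]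
      _ ≤ ‖T‖ + ‖B‖ + ‖C‖ := (norm_sub_le _ _).trans (by linarith [norm_sub_le T B])
      _ = _ := by ring
  have h2 : ‖C‖ ≤ ‖A‖ + ‖B‖ + ‖T‖ := by
    have : C = T - A - B := by rw [e]; ring
    calc ‖C‖ = ‖T - A - B‖ := by rw [← this]
      _ ≤ ‖T‖ + ‖A‖ + ‖B‖ := (norm_sub_le _ _).trans (by linarith [norm_sub_le T A])
      _ = _ := by ring
  have h3 := pow_le_pow_left₀ (norm_nonneg _) h1 2
  have h4 := pow_le_pow_left₀ (norm_nonneg _) h2 2
  constructor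
  · nlinarith [sq_nonneg (‖B‖ - ‖C‖), sq_nonneg (‖B‖ - ‖T‖), sq_nonneg (‖C‖ - ‖T‖)]
  · nlinarith [sq_nonneg (‖B‖ - ‖A‖), sq_nonneg (‖B‖ - ‖T‖), sq_nonneg (‖A‖ - ‖T‖)]

/-- the two pointwise inequalities -/
theorem pt (h : Lev) (i : Bool) {k : ℕ} (hk : k ≤ 48) {s Λ : ℝ} (hs : h.s₁ ≤ s) (hΛ : s ≤ Λ)
    (hl : ((h.l : ℝ) + 54) ^ 2 ≤ Λ) :
    16 * h.m i (k + 2) s ≤ 3 * (17 * Λ * h.m i (k + 1) s +
      ((h.η + h.l / 2 + k) ^ 2 + h.w i ^ 2) * h.m i k s + h.tT i k s) ∧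
    ((h.η + h.l / 2 + k) ^ 2 + h.w i ^ 2) * h.m i k s ≤
      3 * (16 * h.m i (k + 2) s + 17 * Λ * h.m i (k + 1) s + h.tT i k s) := by
  have hs1 : 1 ≤ s := h.s1.trans hs
  obtain ⟨h1, h2⟩ := three (4 * s * h.X i (k + 2) s)
    ((4 * ((h.l : ℂ) + 6 + k) + I * s) * h.X i (k + 1) s)
    (I * ((h.η : ℂ) + (h.l : ℂ) / 2 + k + I * h.w i) * h.X i k s) (h.T i k s) rfl
  have e1 : ‖4 * s * h.X i (k + 2) s‖ ^ 2 = 16 * s ^ 2 * ‖h.X i (k + 2) s‖ ^ 2 := by
    rw [norm_mul, norm_mul, Complex.norm_real, Real.norm_of_nonneg (by linarith)]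
    simp only [Complex.norm_ofNat]
    ring
  have e2 : ‖(4 * ((h.l : ℂ) + 6 + k) + I * s) * h.X i (k + 1) s‖ ^ 2 =
      (16 * ((h.l : ℝ) + 6 + k) ^ 2 + s ^ 2) * ‖h.X i (k + 1) s‖ ^ 2 := by
    rw [norm_mul, mul_pow, Complex.sq_norm (4 * _ + _), normSq_apply]
    simp
    left
    ring
  have e3 : ‖I * ((h.η : ℂ) + (h.l : ℂ) / 2 + k + I * h.w i) * h.X i k s‖ ^ 2 =
      ((h.η + h.l / 2 + k) ^ 2 + h.w i ^ 2) * ‖h.X i k s‖ ^ 2 := by
    rw [norm_mul, norm_mul, norm_I, one_mul, mul_pow, Complex.sq_norm (_ + _), normSq_apply]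
    simp
    left
    ring
  have hk' : (k : ℝ) ≤ 48 := by exact_mod_cast hk
  have hk0 : (0 : ℝ) ≤ k := Nat.cast_nonneg k
  have hl0 : (0 : ℝ) ≤ h.l := Nat.cast_nonneg h.l
  have b1 : ((h.l : ℝ) + 6 + k) ^ 2 ≤ Λ :=
    (pow_le_pow_left₀ (by positivity) (by linarith) 2).trans hl
  have b2 : 16 * ((h.l : ℝ) + 6 + k) ^ 2 + s ^ 2 ≤ 17 * Λ * s := by nlinarith
  have b3 := mul_le_mul_of_nonneg_right b2 (sq_nonneg ‖h.X i (k + 1) s‖)
  rw [e1, e2, e3] at h1 h2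
  have hp : 0 ≤ s ^ (h.l + k + 5) := by positivity
  have f0 : h.m i k s = ‖h.X i k s‖ ^ 2 * s ^ (h.l + k + 5) := rfl
  have f1 : h.m i (k + 1) s = s * ‖h.X i (k + 1) s‖ ^ 2 * s ^ (h.l + k + 5) := by
    simp only [Lev.m, levm]; ring
  have f2 : h.m i (k + 2) s = s ^ 2 * ‖h.X i (k + 2) s‖ ^ 2 * s ^ (h.l + k + 5) := by
    simp only [Lev.m, levm]; ring
  have f3 : h.tT i k s = ‖h.T i k s‖ ^ 2 * s ^ (h.l + k + 5) := rfl
  rw [f0, f1, f2, f3]
  constructor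
  · have := mul_le_mul_of_nonneg_right (show 16 * s ^ 2 * ‖h.X i (k + 2) s‖ ^ 2 ≤
      3 * (17 * Λ * s * ‖h.X i (k + 1) s‖ ^ 2 + ((h.η + h.l / 2 + k) ^ 2 + h.w i ^ 2) *
        ‖h.X i k s‖ ^ 2 + ‖h.T i k s‖ ^ 2) by linarith) hp
    linarith
  · have := mul_le_mul_of_nonneg_right (show ((h.η + h.l / 2 + k) ^ 2 + h.w i ^ 2) *
        ‖h.X i k s‖ ^ 2 ≤ 3 * (16 * s ^ 2 * ‖h.X i (k + 2) s‖ ^ 2 +
      17 * Λ * s * ‖h.X i (k + 1) s‖ ^ 2 + ‖h.T i k s‖ ^ 2) by linarith) hp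
    linarith

theorem tT_le' (h : Lev) (i : Bool) {k : ℕ} (hk : k ≤ 48) {s : ℝ} (hs : h.s₁ ≤ s) :
    h.tT i k s ≤ h.ε * ∑ j ∈ Finset.range (k + 1), h.M j s + h.c * s ^ 5 := by
  have hs1 : 1 ≤ s := h.s1.trans hs
  refine (h.tT_le i hk hs).trans (add_le_add (mul_le_mul_of_nonneg_left
    (Finset.sum_le_sum fun j _ => ?_) h.ε0) ?_)
  · exact div_le_self (h.M0 j (by linarith)) (one_le_pow₀ hs1)
  · exact div_le_self (mul_nonneg h.c0 (by positivity)) (one_le_pow₀ hs1)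

theorem fwd_abs (M : ℕ → ℝ) (Λ c : ℝ) (h0 : ∀ k, 0 ≤ M k) (hΛ : 1 ≤ Λ) (hc : 0 ≤ c)
    (hr : ∀ k ≤ 48, 16 * M (k + 2) ≤ 51 * Λ * M (k + 1) + 12 * Λ ^ 2 * M k +
      6 * (∑ j ∈ Finset.range (k + 1), M j + c)) :
    ∀ k ≤ 48, Λ * M k ≤ (23 * Λ) ^ k * (Λ * M 0 + M 1 + c) := by
  obtain ⟨Y, hY⟩ : ∃ Y, Y = Λ * M 0 + M 1 + c := ⟨_, rfl⟩
  have p0 : 0 ≤ Λ * M 0 := mul_nonneg (by linarith) (h0 0)
  have hY0 : 0 ≤ Y := by linarith [h0 1]
  have hL : 1 ≤ 23 * Λ := by linarith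
  rw [← hY]
  intro k
  induction k using Nat.strong_induction_on with
  | _ k ih =>
    intro hk
    match k, ih, hk with
    | 0, _, _ => simp only [pow_zero, one_mul]; linarith [h0 1]
    | 1, _, _ =>
      have : M 1 ≤ Y := by linarith
      nlinarith [mul_le_mul_of_nonneg_left this (by linarith : 0 ≤ Λ), mul_nonneg (by linarith : 0 ≤ Λ) hY0]
    | k + 2, ih, hk =>
      have a1 := ih (k + 1) (by omega) (by omega)
      have a0 := ih k (by omega) (by omega)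
      obtain ⟨P, hP⟩ : ∃ P, P = (23 * Λ) ^ k * Y := ⟨_, rfl⟩
      have hYP : Y ≤ P := hP ▸ le_mul_of_one_le_left hY0 (one_le_pow₀ hL)
      have a2 : Λ * ∑ j ∈ Finset.range (k + 1), M j ≤ 49 * P := by
        rw [Finset.mul_sum]
        calc _ ≤ ∑ _j ∈ Finset.range (k + 1), P := Finset.sum_le_sum fun j hj => by
              have hj' := Finset.mem_range.1 hj
              refine (ih j (by omega) (by omega)).trans ?_
              rw [hP]
              exact mul_le_mul_of_nonneg_right (pow_le_pow_right₀ hL (by omega)) hY0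
          _ = (k + 1 : ℕ) * P := by rw [Finset.sum_const, Finset.card_range, nsmul_eq_mul]
          _ ≤ 49 * P := mul_le_mul_of_nonneg_right (by exact_mod_cast (by omega : k + 1 ≤ 49))
              (by linarith)
      have e1 : (23 * Λ) ^ (k + 1) * Y = 23 * Λ * P := by rw [hP]; ring
      have e2 : (23 * Λ) ^ (k + 2) * Y = 529 * (Λ ^ 2 * P) := by rw [hP]; ring
      rw [e1] at a1
      rw [← hP] at a0
      rw [e2]
      have hΛ0 : 0 ≤ Λ := by linarith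
      have hP0 : 0 ≤ P := by linarith
      have b0 := mul_le_mul_of_nonneg_left (hr k (by omega)) hΛ0
      have b1 := mul_le_mul_of_nonneg_left a1 hΛ0
      have b2 := mul_le_mul_of_nonneg_left a0 (sq_nonneg Λ)
      have b3 : P ≤ Λ ^ 2 * P := le_mul_of_one_le_left hP0 (one_le_pow₀ hΛ)
      have b4 : Λ * c ≤ Λ ^ 2 * P :=
        mul_le_mul (by nlinarith) (by linarith [h0 1]) hc (sq_nonneg Λ)
      nlinarith

theorem bwd_abs (n : ℕ → ℝ) (D u : ℝ) (h0 : ∀ k, 0 ≤ n k) (hD : 1 ≤ D) (hu : 0 ≤ u)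
    (hr : ∀ k ≤ 6, n k ≤ 51 * D * (n (k + 1) + n (k + 2)) + u) :
    ∀ d k : ℕ, k ≤ 8 → 7 ≤ k + d → n k ≤ (102 * D + 1) ^ d * (n 7 + n 8 + u) := by
  have hZ : 0 ≤ n 7 + n 8 + u := by linarith [h0 7, h0 8]
  have hE : 1 ≤ 102 * D + 1 := by linarith
  intro d
  induction d with
  | zero =>
    intro k h8 h7
    obtain rfl | rfl : k = 7 ∨ k = 8 := by omega
    · simp only [pow_zero, one_mul]; linarith [h0 8]
    · simp only [pow_zero, one_mul]; linarith [h0 7]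
  | succ d ih =>
    intro k h8 h7
    by_cases hk : 7 ≤ k + d
    · exact (ih k h8 hk).trans
        (mul_le_mul_of_nonneg_right (pow_le_pow_right₀ hE (Nat.le_succ d)) hZ)
    · have a1 := ih (k + 1) (by omega) (by omega)
      have a2 := ih (k + 2) (by omega) (by omega)
      have a3 : n 7 + n 8 + u ≤ (102 * D + 1) ^ d * (n 7 + n 8 + u) :=
        le_mul_of_one_le_left hZ (one_le_pow₀ hE)
      have a4 := mul_le_mul_of_nonneg_left (add_le_add a1 a2) (by linarith : 0 ≤ 51 * D)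
      have a5 := hr k (by omega)
      rw [pow_succ]
      nlinarith [h0 7, h0 8]

end MBEfwd

open MBEfwd in
theorem s_fwd : S_fwd := by
  refine ⟨23 ^ 48, one_le_pow₀ (by norm_num), fun h hε s Λ hs hΛ hl hw k hk => ?_⟩
  have hs1 : 1 ≤ s := h.s1.trans hs
  have hs0 : 0 ≤ s := by linarith
  have hc : 0 ≤ h.c * s ^ 5 := mul_nonneg h.c0 (by positivity)
  have hl0 : (0 : ℝ) ≤ h.l := Nat.cast_nonneg h.l
  have key := fwd_abs (fun k => h.M k s) Λ (h.c * s ^ 5) (fun k => h.M0 k hs0) (by linarith) hc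
    (fun k hk => ?_) k hk
  · refine key.trans ?_
    rw [mul_pow]
    refine mul_le_mul_of_nonneg_right (mul_le_mul_of_nonneg_right
      (pow_le_pow_right₀ (by norm_num) hk) (pow_nonneg (by linarith) k)) ?_
    have := mul_nonneg (by linarith : 0 ≤ Λ) (h.M0 0 hs0)
    linarith [h.M0 1 hs0]
  · have hk' : (k : ℝ) ≤ 48 := by exact_mod_cast hk
    have hk0 : (0 : ℝ) ≤ k := Nat.cast_nonneg k
    have hS : 0 ≤ ∑ j ∈ Finset.range (k + 1), h.M j s := h.dt0 (k + 1) hs0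
    have one : ∀ i, 16 * h.m i (k + 2) s ≤ 51 * Λ * h.m i (k + 1) s + 12 * Λ ^ 2 * h.m i k s +
        3 * (∑ j ∈ Finset.range (k + 1), h.M j s + h.c * s ^ 5) := fun i => by
      have a1 := (pt h i hk hs hΛ hl).1
      have a2 := tT_le' h i hk hs
      have a3 : h.ε * ∑ j ∈ Finset.range (k + 1), h.M j s ≤ ∑ j ∈ Finset.range (k + 1), h.M j s :=
        mul_le_of_le_one_left hS hε
      have a4 : (h.l : ℝ) / 2 + k ≤ Λ := by nlinarith
      have a5 : (h.η + h.l / 2 + k) ^ 2 + h.w i ^ 2 ≤ 4 * Λ ^ 2 := by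
        have b1 : h.η + h.l / 2 + k + |h.w i| ≤ 2 * Λ := by linarith [hw i]
        have b2 : 0 ≤ h.η + h.l / 2 + k := by linarith [h.η0]
        have b3 := pow_le_pow_left₀ (by positivity) b1 2
        nlinarith [sq_abs (h.w i), mul_nonneg b2 (abs_nonneg (h.w i))]
      have a6 := mul_le_mul_of_nonneg_right a5 (h.m0 i k hs0)
      linarith
    have := one false
    have := one true
    simp only [Lev.M] at *
    linarith

open MBEfwd in
theorem s_bwd : S_bwd := by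
  intro D hD
  obtain ⟨E, hE⟩ : ∃ E : ℝ, E = (102 * D + 1) ^ 7 := ⟨_, rfl⟩
  have hE1 : 1 ≤ E := hE ▸ one_le_pow₀ (by linarith)
  refine ⟨1 / (84 * D * E), 14 * E, by positivity, by positivity,
    fun h hc hε s θ Λ hs hΛ hθ hl hw => ?_⟩
  have hs1 : 1 ≤ s := h.s1.trans hs
  have hs0 : 0 ≤ s := by linarith
  have hθ0 : 0 < θ := by linarith
  have hl0 : (0 : ℝ) ≤ h.l := Nat.cast_nonneg h.l
  obtain ⟨n, hn⟩ : ∃ n : ℕ → ℝ, n = fun k => h.M k s / θ ^ k := ⟨_, rfl⟩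
  have hM : ∀ k, h.M k s = θ ^ k * n k := fun k => by rw [hn]; field_simp
  have hn0 : ∀ k, 0 ≤ n k := fun k => by
    rw [hn]; exact div_nonneg (h.M0 k hs0) (by positivity)
  obtain ⟨G, hG⟩ : ∃ G, G = ∑ j ∈ Finset.range 7, n j := ⟨_, rfl⟩
  have hG0 : 0 ≤ G := hG ▸ Finset.sum_nonneg fun j _ => hn0 j
  have hu : 0 ≤ 6 * D * h.ε * G := by have := h.ε0; positivity
  have key := bwd_abs n D (6 * D * h.ε * G) hn0 hD hu (fun k hk => ?_) 7
  · rw [← hE] at key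
    have a1 : G ≤ 7 * (E * (n 7 + n 8 + 6 * D * h.ε * G)) := by
      calc G = ∑ j ∈ Finset.range 7, n j := hG
        _ ≤ ∑ _j ∈ Finset.range 7, E * (n 7 + n 8 + 6 * D * h.ε * G) :=
            Finset.sum_le_sum fun j hj => key j (by have := Finset.mem_range.1 hj; omega) (by omega)
        _ = _ := by rw [Finset.sum_const, Finset.card_range, nsmul_eq_mul]; norm_num
    have a2 : 84 * D * E * h.ε ≤ 1 := by
      rw [le_div_iff₀ (by positivity)] at hε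
      linarith
    have a3 := mul_le_mul_of_nonneg_right a2 hG0
    have a4 : G ≤ 14 * E * (n 7 + n 8) := by nlinarith
    have a5 : n 0 + n 1 ≤ G := by
      rw [hG]
      simp only [Finset.sum_range_succ, Finset.sum_range_zero]
      linarith [hn0 2, hn0 3, hn0 4, hn0 5, hn0 6]
    have e1 : θ * h.M 0 s + h.M 1 s = θ * (n 0 + n 1) := by rw [hM 0, hM 1]; ring
    have e2 : 14 * E * (h.M 7 s / θ ^ 6 + h.M 8 s / θ ^ 7) = θ * (14 * E * (n 7 + n 8)) := by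
      rw [hM 7, hM 8]; field_simp
    rw [e1, e2]
    exact mul_le_mul_of_nonneg_left (a5.trans a4) hθ0.le
  · have hk0 : (0 : ℝ) ≤ k := Nat.cast_nonneg k
    have hS : ∑ j ∈ Finset.range (k + 1), h.M j s ≤ θ ^ (k + 2) * G := by
      rw [hG, Finset.mul_sum]
      calc _ ≤ ∑ j ∈ Finset.range (k + 1), θ ^ (k + 2) * n j := Finset.sum_le_sum fun j hj => by
            have hj' := Finset.mem_range.1 hj
            rw [hM j]
            exact mul_le_mul_of_nonneg_right (pow_le_pow_right₀ hθ (by omega)) (hn0 j)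
        _ ≤ _ := Finset.sum_le_sum_of_subset_of_nonneg (Finset.range_mono (by omega))
            fun j _ _ => mul_nonneg (by positivity) (hn0 j)
    have one : ∀ i, θ ^ 2 * h.m i k s ≤ 51 * D * (θ * h.m i (k + 1) s + h.m i (k + 2) s) +
        3 * D * h.ε * (θ ^ (k + 2) * G) := fun i => by
      have a1 := (pt h i (by omega : k ≤ 48) hs hΛ hl).2
      have a2 := tT_le' h i (by omega : k ≤ 48) hs
      rw [hc, zero_mul, add_zero] at a2
      have a3 := a2.trans (mul_le_mul_of_nonneg_left hS h.ε0)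
      obtain ⟨α, hα⟩ : ∃ α : ℝ, α = ((h.l : ℝ) / 2) ^ 2 + h.w i ^ 2 := ⟨_, rfl⟩
      obtain ⟨w1, w2⟩ := hw i
      rw [← hα] at w1 w2
      have hα0 : 0 < α := by
        by_contra hn
        nlinarith [mul_nonneg (by linarith : 0 ≤ D) (neg_nonneg.2 (not_lt.1 hn))]
      have a4 : α ≤ (h.η + h.l / 2 + k) ^ 2 + h.w i ^ 2 := by
        rw [hα]
        have := pow_le_pow_left₀ (by positivity)
          (by linarith [h.η0] : (h.l : ℝ) / 2 ≤ h.η + h.l / 2 + k) 2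
        linarith
      have m0 := h.m0 i k hs0
      have m1 := h.m0 i (k + 1) hs0
      have m2 := h.m0 i (k + 2) hs0
      obtain ⟨t, ht⟩ : ∃ t, t = h.ε * (θ ^ (k + 2) * G) := ⟨_, rfl⟩
      have ht0 : 0 ≤ t := by rw [ht]; have := h.ε0; positivity
      rw [← ht] at a3
      have a5 : α * h.m i k s ≤ 48 * h.m i (k + 2) s + 51 * Λ * h.m i (k + 1) s + 3 * t := by
        linarith [mul_le_mul_of_nonneg_right a4 m0]
      have a6 := mul_le_mul_of_nonneg_left a5 (sq_nonneg θ)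
      have a7 := mul_le_mul_of_nonneg_right w1 m2
      have a8 := mul_le_mul_of_nonneg_right w2 (mul_nonneg hθ0.le m1)
      have a9 := mul_le_mul_of_nonneg_right w1 ht0
      have b0 : 0 ≤ D * α * h.m i (k + 2) s := by positivity
      rw [mul_assoc (3 * D), ← ht]
      refine le_of_mul_le_mul_left ?_ hα0
      nlinarith
    have b1 := one false
    have b2 := one true
    have b3 : θ ^ 2 * h.M k s ≤ 51 * D * (θ * h.M (k + 1) s + h.M (k + 2) s) +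
        6 * D * h.ε * (θ ^ (k + 2) * G) := by
      simp only [Lev.M]
      linarith
    rw [hM k, hM (k + 1), hM (k + 2)] at b3
    refine le_of_mul_le_mul_left ?_ (pow_pos hθ0 (k + 2))
    calc θ ^ (k + 2) * n k = θ ^ 2 * (θ ^ k * n k) := by ring
      _ ≤ _ := b3
      _ = _ := by ring

end P139
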