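import Vale.Agent.P139.MBEDefs

/-! P139 part MB: the Hardy chain. -/

open Complex Set Filter Topology MeasureTheory
open scoped ComplexConjugate

noncomputable section
namespace P139

namespace MBEhar

theorem up {φ g F F' : ℝ → ℝ} {s₀ : ℝ} (h0 : 0 < s₀) (hF : ∀ s, 0 < s → HasDerivAt F (F' s) s)
    (hc : ContinuousOn φ (Ioi 0)) (hφ : ∀ s, 0 < s → 0 ≤ φ s) (iφ : IntegrableOn φ (Ioi s₀))
    (ig : IntegrableOn g (Ioi s₀)) (e : ∀ s, F s = s * φ s) (hle : ∀ s, 0 < s → g s ≤ F' s) :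
    ∫ s in Ioi s₀, g s ≤ 0 := by
  by_contra hI
  have hI := not_le.1 hI
  have h1 := (intervalIntegral_tendsto_integral_Ioi s₀ ig tendsto_id).eventually
    (lt_mem_nhds (half_lt_self hI))
  obtain ⟨y, hy⟩ := eventually_atTop.1 (h1.and (eventually_ge_atTop s₀))
  obtain ⟨S, hS, -, hS2⟩ := exists_small h0 hc hφ iφ y (half_pos hI)
  obtain ⟨h2, h3⟩ := hy S hS
  have h4 := ftc_le h3 (fun r hr => hF r (h0.trans_le hr.1))
    ((intervalIntegrable_iff_integrableOn_Ioc_of_le h3).2 (ig.mono_set Ioc_subset_Ioi_self))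
    fun r hr => hle r (h0.trans hr.1)
  have h5 := mul_nonneg h0.le (hφ s₀ h0)
  rw [e, e] at h4
  simp only [id] at h2
  linarith

theorem down {g F F' : ℝ → ℝ} {s₀ : ℝ} (h0 : 0 < s₀) (hF : ∀ s, 0 < s → HasDerivAt F (F' s) s)
    (hF0 : ∀ s, 0 < s → 0 ≤ F s) (ig : IntegrableOn g (Ioi s₀))
    (hle : ∀ s, 0 < s → g s ≤ -F' s) : ∫ s in Ioi s₀, g s ≤ F s₀ := by
  refine le_of_tendsto (intervalIntegral_tendsto_integral_Ioi s₀ ig tendsto_id) ?_
  filter_upwards [eventually_ge_atTop s₀] with S h3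
  have h4 := ftc_le (F := fun s => -F s) h3 (fun r hr => (hF r (h0.trans_le hr.1)).fun_neg)
    ((intervalIntegrable_iff_integrableOn_Ioc_of_le h3).2 (ig.mono_set Ioc_subset_Ioi_self))
    fun r hr => hle r (h0.trans hr.1)
  have := hF0 S (h0.trans_le h3)
  simp only [id]
  linarith

variable (h : Lev)

/-- unweighted squares -/
def Z (k : ℕ) (s : ℝ) : ℝ := ‖h.X false k s‖ ^ 2 + ‖h.X true k s‖ ^ 2
def P (k : ℕ) (s : ℝ) : ℝ := (conj (h.X false k s) * h.X false (k + 1) s).re +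
  (conj (h.X true k s) * h.X true (k + 1) s).re

theorem M_eq (k : ℕ) (s : ℝ) : h.M k s = Z h k s * s ^ (h.l + k + 5) := by
  unfold Lev.M Lev.m levm Z; ring

theorem dZ (k : ℕ) {s : ℝ} (hs : 0 < s) : HasDerivAt (Z h k) (2 * P h k s) s :=
  ((h.d_nsq false k hs).fun_add (h.d_nsq true k hs)).congr_deriv (by unfold P; ring)

theorem re_le (x y : ℂ) (s : ℝ) : |2 * s * (conj x * y).re| ≤ ‖x‖ ^ 2 / 2 + 2 * (s ^ 2 * ‖y‖ ^ 2) := by
  simp only [Complex.sq_norm, normSq_apply, mul_re, conj_re, conj_im]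
  rw [abs_le]
  constructor
  · nlinarith [sq_nonneg (x.re + 2 * s * y.re), sq_nonneg (x.im + 2 * s * y.im)]
  · nlinarith [sq_nonneg (x.re - 2 * s * y.re), sq_nonneg (x.im - 2 * s * y.im)]

theorem P_le (k : ℕ) (s : ℝ) : |2 * s * P h k s| ≤ Z h k s / 2 + 2 * (s ^ 2 * Z h (k + 1) s) := by
  have h1 := re_le (h.X false k s) (h.X false (k + 1) s) s
  have h2 := re_le (h.X true k s) (h.X true (k + 1) s) s
  unfold P Z
  rw [abs_le] at h1 h2 ⊢
  constructor <;> linarith [h1.1, h1.2, h2.1, h2.2]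

theorem cq (k p : ℕ) : ContinuousOn (fun s => h.M k s / s ^ p) (Ioi 0) :=
  (h.c_M k).div (continuousOn_pow _) fun _ hs => pow_ne_zero _ (ne_of_gt hs)

/-- one step of the chain -/
theorem step (i p : ℕ) (ha : h.l + i + 5 ≠ p) {s₀ : ℝ} (h1 : 1 ≤ s₀)
    (iφ : IntegrableOn (fun s => h.M i s / s ^ (p + 1)) (Ioi s₀))
    (iψ : IntegrableOn (fun s => h.M (i + 1) s / s ^ p) (Ioi s₀)) :
    ∫ s in Ioi s₀, h.M i s / s ^ (p + 1) ≤
      4 * (∫ s in Ioi s₀, h.M (i + 1) s / s ^ p) + 2 * h.M i s₀ := by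
  have h0 : 0 < s₀ := by linarith
  obtain ⟨n, hn⟩ : ∃ n, n = h.l + i + 5 := ⟨_, rfl⟩
  have hF : ∀ s, 0 < s → HasDerivAt (fun s => s * (h.M i s / s ^ (p + 1)))
      (s ^ n / s ^ (p + 1) * (((n : ℝ) - p) * Z h i s + 2 * s * P h i s)) s := by
    intro s hs
    have := (hasDerivAt_id' s).fun_mul (((dZ h i hs).fun_mul (hasDerivAt_pow n s)).fun_div
      (hasDerivAt_pow (p + 1) s) (pow_ne_zero _ hs.ne'))
    simp only [M_eq, ← hn]
    refine this.congr_deriv ?_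
    obtain ⟨n', rfl⟩ : ∃ n', n = n' + 1 := ⟨h.l + i + 4, hn⟩
    simp only [Nat.add_sub_cancel]
    push_cast
    field_simp
    ring
  have hg : ∀ s, 0 < s → h.M i s / s ^ (p + 1) / 2 - 2 * (h.M (i + 1) s / s ^ p) =
      s ^ n / s ^ (p + 1) * (Z h i s / 2 - 2 * (s ^ 2 * Z h (i + 1) s)) := by
    intro s hs
    rw [M_eq, M_eq, show h.l + (i + 1) + 5 = n + 1 by omega, ← hn]
    field_simp
    ring
  have hφ : ∀ s, 0 < s → 0 ≤ h.M i s / s ^ (p + 1) := fun s hs =>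
    div_nonneg (h.M0 i hs.le) (by positivity)
  have ig := (iφ.div_const 2).sub (iψ.const_mul 2)
  have eI : ∫ s in Ioi s₀, (h.M i s / s ^ (p + 1) / 2 - 2 * (h.M (i + 1) s / s ^ p)) =
      (∫ s in Ioi s₀, h.M i s / s ^ (p + 1)) / 2 - 2 * ∫ s in Ioi s₀, h.M (i + 1) s / s ^ p := by
    rw [integral_sub (iφ.div_const 2) (iψ.const_mul 2), integral_div, integral_const_mul]
  have hZ : ∀ s, 0 ≤ Z h i s := fun s => by unfold Z; positivity
  have hM := h.M0 i h0.le
  rcases lt_or_gt_of_ne (hn ▸ ha : n ≠ p) with hlt | hgt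
  · have hlt' : (n : ℝ) + 1 ≤ p := by exact_mod_cast hlt
    have h2 := down (g := fun s => h.M i s / s ^ (p + 1) / 2 - 2 * (h.M (i + 1) s / s ^ p)) h0 hF
      (fun s hs => mul_nonneg hs.le (hφ s hs)) ig fun s hs => by
        rw [hg s hs, ← mul_neg]
        refine mul_le_mul_of_nonneg_left ?_ (by positivity)
        have := mul_le_mul_of_nonneg_right hlt' (hZ s)
        linarith [(abs_le.1 (P_le h i s)).2]
    have h3 : s₀ * (h.M i s₀ / s₀ ^ (p + 1)) ≤ h.M i s₀ := by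
      rw [show s₀ * (h.M i s₀ / s₀ ^ (p + 1)) = h.M i s₀ / s₀ ^ p by field_simp; ring]
      exact div_le_self hM (one_le_pow₀ h1)
    rw [eI] at h2
    linarith
  · have hgt' : (p : ℝ) + 1 ≤ n := by exact_mod_cast hgt
    have h2 := up (g := fun s => h.M i s / s ^ (p + 1) / 2 - 2 * (h.M (i + 1) s / s ^ p)) h0 hF
      (cq h i _) hφ iφ ig (fun _ => rfl) fun s hs => by
        rw [hg s hs]
        refine mul_le_mul_of_nonneg_left ?_ (by positivity)
        have := mul_le_mul_of_nonneg_right hgt' (hZ s)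
        linarith [(abs_le.1 (P_le h i s)).1]
    rw [eI] at h2
    linarith

theorem int_anti (j : ℕ) {p q : ℕ} (hpq : p ≤ q) {s₀ : ℝ} (h1 : 1 ≤ s₀)
    (ip : IntegrableOn (fun s => h.M j s / s ^ p) (Ioi s₀))
    (iq : IntegrableOn (fun s => h.M j s / s ^ q) (Ioi s₀)) :
    ∫ s in Ioi s₀, h.M j s / s ^ q ≤ ∫ s in Ioi s₀, h.M j s / s ^ p := by
  refine setIntegral_mono_on iq ip measurableSet_Ioi fun s hs => ?_
  have hs1 : 1 ≤ s := h1.trans (le_of_lt hs)
  exact div_le_div_of_nonneg_left (h.M0 j (by linarith)) (by positivity) (pow_le_pow_right₀ hs1 hpq)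

end MBEhar

open MBEhar in
theorem s_har (h0 : S_e0) : S_har := by
  intro h k hk7 hk41 s₀ hs₀
  have h1 : 1 ≤ s₀ := h.s1.trans hs₀
  have hi : ∀ j q, j ≤ k → k ≤ j + q → IntegrableOn (fun s => h.M j s / s ^ q) (Ioi s₀) := by
    intro j q hj hq
    refine (h0 h q j (by omega) (by omega) ?_ (Or.inr (by omega))).mono_set (Ioi_subset_Ioi hs₀)
    have : (7 : ℝ) ≤ j + q := by exact_mod_cast hk7.trans hq
    linarith [h.η0]
  obtain ⟨c, hc1, hc2⟩ : ∃ c, c ≤ 1 ∧ (h.l + k + c) % 2 = 1 := by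
    rcases Nat.mod_two_eq_zero_or_one (h.l + k) with e | e
    · exact ⟨1, le_rfl, by omega⟩
    · exact ⟨0, by omega, e⟩
  obtain ⟨I, hI⟩ : ∃ I, I = ∫ s in Ioi s₀, h.M k s := ⟨_, rfl⟩
  have hI0 : 0 ≤ I := hI ▸ setIntegral_nonneg measurableSet_Ioi fun s hs =>
    h.M0 k (by linarith [mem_Ioi.1 hs])
  have hM : ∀ j, 0 ≤ h.M j s₀ := fun j => h.M0 j (by linarith)
  have key : ∀ d j, j + d = k → ∫ s in Ioi s₀, h.M j s / s ^ (d + c) ≤
      4 ^ d * (I + ∑ i ∈ Finset.Ico j k, h.M i s₀) := by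
    intro d
    induction d with
    | zero =>
      rintro j rfl
      have := int_anti h j (Nat.zero_le (0 + c)) h1 (hi j 0 le_rfl le_rfl) (hi j _ le_rfl (by omega))
      simp only [pow_zero, div_one] at this
      simpa [hI] using this
    | succ d ih =>
      intro j hj
      have h2 := step h j (d + c) (by omega) h1 (hi j _ (by omega) (by omega))
        (hi (j + 1) _ (by omega) (by omega))
      have h3 := ih (j + 1) (by omega)
      rw [show d + 1 + c = d + c + 1 by ring, Finset.sum_eq_sum_Ico_succ_bot (by omega)]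
      have h4 : (1 : ℝ) ≤ 4 ^ d := one_le_pow₀ (by norm_num)
      have h5 := mul_le_mul_of_nonneg_right h4 (hM j)
      rw [pow_succ]
      linarith [hM j]
  intro j hj
  refine ⟨hi j _ hj (by omega), ?_⟩
  refine (int_anti h j (p := k - j + c) (by omega) h1 (hi j _ hj (by omega))
    (hi j _ hj (by omega))).trans ((key (k - j) j (by omega)).trans ?_)
  rw [← hI]
  refine mul_le_mul (pow_le_pow_right₀ (by norm_num) (by omega)) (add_le_add le_rfl ?_)
    (add_nonneg hI0 (Finset.sum_nonneg fun i _ => hM i)) (by positivity)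
  exact Finset.sum_le_sum_of_subset_of_nonneg
    (fun i hi => Finset.mem_range.2 (Finset.mem_Ico.1 hi).2) fun i _ _ => hM i

end P139
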