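import Vale.Agent.P139.MBEDefs

/-! P139 part MB: the differentiated equation and the Leibniz bound. -/

open Complex Set Filter Topology MeasureTheory
open scoped ContDiff ComplexConjugate

noncomputable section
namespace P139

namespace MBEleib

theorem cda {F : ℝ → ℂ} (hF : ContDiffOn ℝ ∞ F (Ioi 0)) (k : ℕ) {s : ℝ} (hs : 0 < s) :
    ContDiffAt ℝ k F s :=
  (hF.contDiffAt (Ioi_mem_nhds hs)).of_le (by exact_mod_cast le_top)

theorem der {F : ℝ → ℂ} (hF : ContDiffOn ℝ ∞ F (Ioi 0)) (k : ℕ) {s : ℝ} (hs : 0 < s) :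
    HasDerivAt (iteratedDeriv k F) (iteratedDeriv (k + 1) F s) s := by
  have h : ∀ k : ℕ, ContDiffOn ℝ ∞ (iteratedDeriv k F) (Ioi 0) := fun k => by
    induction k with
    | zero => simpa using hF
    | succ k ih =>
      rw [iteratedDeriv_succ]
      exact ih.deriv_of_isOpen isOpen_Ioi (by simp)
  rw [iteratedDeriv_succ]
  exact (((h k).contDiffAt (Ioi_mem_nhds hs)).differentiableAt (by simp)).hasDerivAt

theorem lev_eq {l : ℕ} {η w : ℝ} {F H : ℝ → ℂ} (hF : ContDiffOn ℝ ∞ F (Ioi 0))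
    (h0 : ∀ s, 0 < s → levT l η w (fun k => iteratedDeriv k F) 0 s = H s) (k : ℕ) :
    ∀ s, 0 < s → levT l η w (fun k => iteratedDeriv k F) k s = iteratedDeriv k H s := by
  induction k with
  | zero => simpa using h0
  | succ k ih =>
    intro s hs
    have e : iteratedDeriv k H =ᶠ[𝓝 s] levT l η w (fun k => iteratedDeriv k F) k := by
      filter_upwards [Ioi_mem_nhds hs] with x hx using (ih x hx).symm
    rw [iteratedDeriv_succ, e.deriv_eq]
    have hi : HasDerivAt (fun x : ℝ => (x : ℂ)) 1 s := by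
      simpa using (hasDerivAt_id s).ofReal_comp
    have d := (((hi.const_mul 4).fun_mul (der hF (k + 2) hs)).fun_add
      (((hi.const_mul I).const_add (4 * ((l : ℂ) + 6 + k))).fun_mul (der hF (k + 1) hs))).fun_add
      ((der hF k hs).const_mul (I * ((η : ℂ) + (l : ℂ) / 2 + k + I * w)))
    have d' : deriv (levT l η w (fun k => iteratedDeriv k F) k) s = _ := d.deriv
    rw [d']
    unfold levT
    push_cast
    ring

theorem leib {F V : ℝ → ℂ} (hF : ContDiffOn ℝ ∞ F (Ioi 0)) (hV : ContDiffOn ℝ ∞ V (Ioi 0))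
    {k : ℕ} (hk : k ≤ 48) {s ε : ℝ} (hs : 1 ≤ s)
    (h : ∀ i ≤ k, ‖iteratedDeriv i V s‖ ≤ ε * s ^ (-1 - (i : ℝ))) :
    ‖iteratedDeriv k (F * V) s‖ ≤ ∑ j ∈ Finset.range (k + 1),
      2 ^ 48 * (ε / s ^ (k - j + 1)) * ‖iteratedDeriv j F s‖ := by
  have hs0 : 0 < s := by linarith
  rw [iteratedDeriv_mul (cda hF k hs0) (cda hV k hs0)]
  refine (norm_sum_le _ _).trans (Finset.sum_le_sum fun j _ => ?_)
  have h1 := h (k - j) (Nat.sub_le _ _)
  rw [show -1 - ((k - j : ℕ) : ℝ) = -((k - j + 1 : ℕ) : ℝ) by push_cast; ring, Real.rpow_neg hs0.le,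
    Real.rpow_natCast, ← div_eq_mul_inv] at h1
  have h2 : ((k.choose j : ℕ) : ℝ) ≤ 2 ^ 48 := by
    exact_mod_cast (Nat.choose_le_two_pow k j).trans (Nat.pow_le_pow_right (by norm_num) hk)
  rw [norm_mul, norm_mul, Complex.norm_natCast]
  calc _ = (k.choose j : ℝ) * ‖iteratedDeriv (k - j) V s‖ * ‖iteratedDeriv j F s‖ := by ring
    _ ≤ _ := by gcongr

end MBEleib

open MBEleib in
theorem s_leib : S_leib := by
  refine ⟨4 * 49 * (2 ^ 48) ^ 2, by positivity, ?_⟩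
  intro l η w ε c F G V₁ V₂ S hF hG h1 h2 hS h0 k hk s hs hV hc
  have hs0 : 0 < s := by linarith
  rw [lev_eq (H := F * V₁ + G * V₂ + S) hF (fun s hs => by
    rw [h0 s hs]
    simp only [Pi.add_apply, Pi.mul_apply]
    ring) k s hs0]
  have a1 : ContDiffAt ℝ k (F * V₁) s := (cda hF k hs0).mul (cda h1 k hs0)
  have a2 : ContDiffAt ℝ k (G * V₂) s := (cda hG k hs0).mul (cda h2 k hs0)
  have a3 : ContDiffAt ℝ k (F * V₁ + G * V₂) s := a1.add a2
  rw [iteratedDeriv_add a3 (cda hS k hs0), iteratedDeriv_add a1 a2]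
  set a : ℕ → ℝ := fun j => 2 ^ 48 * (ε / s ^ (k - j + 1)) *
    (‖iteratedDeriv j F s‖ + ‖iteratedDeriv j G s‖) with ha
  have b1 : ‖iteratedDeriv k (F * V₁) s + iteratedDeriv k (G * V₂) s + iteratedDeriv k S s‖
      ≤ ∑ j ∈ Finset.range (k + 1), a j + ‖iteratedDeriv k S s‖ := by
    refine (norm_add_le _ _).trans (add_le_add ((norm_add_le _ _).trans ?_) le_rfl)
    refine (add_le_add (leib hF h1 hk hs fun i hi => (hV i hi).1)
      (leib hG h2 hk hs fun i hi => (hV i hi).2)).trans (le_of_eq ?_)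
    rw [← Finset.sum_add_distrib]
    exact Finset.sum_congr rfl fun j _ => by rw [ha]; ring
  have b2 : (∑ j ∈ Finset.range (k + 1), a j) ^ 2 ≤ 49 * ∑ j ∈ Finset.range (k + 1), a j ^ 2 := by
    refine (sq_sum_le_card_mul_sum_sq (s := Finset.range (k + 1)) (f := a)).trans ?_
    rw [Finset.card_range]
    refine mul_le_mul_of_nonneg_right ?_ (Finset.sum_nonneg fun _ _ => sq_nonneg _)
    exact_mod_cast (by omega : k + 1 ≤ 49)
  have b3 : (∑ j ∈ Finset.range (k + 1), a j ^ 2) * s ^ (l + k + 5) ≤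
      2 * (2 ^ 48) ^ 2 * ε ^ 2 * ∑ j ∈ Finset.range (k + 1),
        (levm l (fun k => iteratedDeriv k F) j s + levm l (fun k => iteratedDeriv k G) j s)
          / s ^ (k - j + 2) := by
    rw [Finset.sum_mul, Finset.mul_sum]
    refine Finset.sum_le_sum fun j hj => ?_
    obtain ⟨i, rfl⟩ := Nat.exists_eq_add_of_le (Nat.lt_succ_iff.1 (Finset.mem_range.1 hj))
    simp only [ha, levm, Nat.add_sub_cancel_left]
    have e : (‖iteratedDeriv j F s‖ + ‖iteratedDeriv j G s‖) ^ 2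
        ≤ 2 * (‖iteratedDeriv j F s‖ ^ 2 + ‖iteratedDeriv j G s‖ ^ 2) := by
      nlinarith [sq_nonneg (‖iteratedDeriv j F s‖ - ‖iteratedDeriv j G s‖)]
    calc _ = (2 ^ 48) ^ 2 * ε ^ 2 * (s ^ (l + j + 5) / s ^ (i + 2)) *
          (‖iteratedDeriv j F s‖ + ‖iteratedDeriv j G s‖) ^ 2 := by
          field_simp
          ring
      _ ≤ (2 ^ 48) ^ 2 * ε ^ 2 * (s ^ (l + j + 5) / s ^ (i + 2)) *
          (2 * (‖iteratedDeriv j F s‖ ^ 2 + ‖iteratedDeriv j G s‖ ^ 2)) := by gcongr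
      _ = _ := by ring
  have b4 : ‖iteratedDeriv k S s‖ ^ 2 * s ^ (l + k + 5) ≤ c * s ^ 5 / s ^ k := by
    rw [le_div_iff₀ (by positivity)]
    calc _ = ‖iteratedDeriv k S s‖ ^ 2 * s ^ (l + 2 * k) * s ^ 5 := by ring
      _ ≤ _ := by gcongr
  have b5 := pow_le_pow_left₀ (norm_nonneg _) b1 2
  have b6 : (∑ j ∈ Finset.range (k + 1), a j + ‖iteratedDeriv k S s‖) ^ 2 ≤
      2 * (49 * ∑ j ∈ Finset.range (k + 1), a j ^ 2) + 2 * ‖iteratedDeriv k S s‖ ^ 2 := by
    nlinarith [sq_nonneg (∑ j ∈ Finset.range (k + 1), a j - ‖iteratedDeriv k S s‖)]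
  have b7 := mul_le_mul_of_nonneg_right (b5.trans b6) (by positivity : 0 ≤ s ^ (l + k + 5))
  refine b7.trans ?_
  have e : 2 * c * s ^ 5 / s ^ k = 2 * (c * s ^ 5 / s ^ k) := by ring
  rw [e]
  linarith

end P139
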