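import Vale.Agent.P139.MBEDefs

/-! P139 part MB: the outgoing estimates O1, O2 in the variable `r`. -/

open Complex Set Filter Topology MeasureTheory
open scoped ContDiff ComplexConjugate

noncomputable section
namespace P139

namespace MBEo

theorem cov {φ ψ : ℝ → ℝ} {a b c : ℝ} (ha : 0 < a) (hab : a ≤ b) (hφ : ContinuousOn φ (Ioi 0))
    (hψ : ContinuousOn ψ (Ioi 0)) (hle : ∀ r ∈ Icc a b, ψ r ≤ c * (φ (r ^ 2) * (2 * r))) :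
    ∫ r in a..b, ψ r ≤ c * ∫ s in (a ^ 2)..(b ^ 2), φ s := by
  have hsub : uIcc a b ⊆ Ioi 0 := by
    rw [uIcc_of_le hab]; exact fun r hr => lt_of_lt_of_le ha hr.1
  have hsq : ContinuousOn (fun r : ℝ => φ (r ^ 2)) (uIcc a b) :=
    hφ.comp (continuousOn_pow 2) (fun r hr => pow_pos (mem_Ioi.1 (hsub hr)) 2)
  have h1 : ∫ r in a..b, (φ ∘ fun r : ℝ => r ^ 2) r * (2 * r) = ∫ s in (a ^ 2)..(b ^ 2), φ s := by
    refine intervalIntegral.integral_comp_mul_deriv'' (f := fun r : ℝ => r ^ 2)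
      (f' := fun r => 2 * r) (continuousOn_pow 2) (fun x _ => ?_) (by fun_prop) ?_
    · have h := (hasDerivAt_pow 2 x).hasDerivWithinAt (s := Ioi x)
      simpa using h
    · refine hφ.mono ?_
      rintro _ ⟨r, hr, rfl⟩
      exact pow_pos (mem_Ioi.1 (hsub hr)) 2
  rw [← h1, ← intervalIntegral.integral_const_mul]
  refine intervalIntegral.integral_mono_on hab (hψ.mono hsub).intervalIntegrable ?_ hle
  exact (continuousOn_const.mul (hsq.mul (by fun_prop))).intervalIntegrable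

theorem beta_le (D : FreeData) (L : Lim D) : ∀ᶠ j in atTop, |(L.P j).β| ≤ 1 := by
  have h1 := L.hβ.1
  have h2 := L.hβ.2
  have h3 := D.hβ
  have h4 := L.β_lim.eventually (Icc_mem_nhds (a := (-1 : ℝ)) (b := 1) (by linarith [h3.1])
    (by linarith [h3.2.2]))
  filter_upwards [h4] with j hj
  exact abs_le.2 hj

theorem gam_le {m : ℕ} (hm : 1 ≤ m) : gam m ≤ 1 / 2 := by
  have h : (1 : ℝ) ≤ m := by exact_mod_cast hm
  unfold gam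
  exact one_div_le_one_div_of_le (by norm_num) (by linarith)

theorem ZZ0 (f g : ℝ → ℂ) (r : ℝ) : 0 ≤ ZZ f g r := by unfold ZZ; positivity
theorem GG0 (f g : ℝ → ℂ) (r : ℝ) : 0 ≤ GG f g r := by unfold GG; positivity

theorem div_le {x r : ℝ} (hx : 0 ≤ x) (hr : 1 ≤ r) : x / r ^ 2 ≤ x :=
  div_le_self hx (one_le_pow₀ hr)

theorem al1 {l w β K : ℝ} (hl : 1 ≤ l) (hw : w ≤ l * (l + 10)) (hβ : β ≤ 1) (hK : 12 ≤ K) :
    w + β ≤ K * l ^ 2 := by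
  have h3 : w + β ≤ 12 * l ^ 2 := by nlinarith
  exact h3.trans (mul_le_mul_of_nonneg_right hK (sq_nonneg _))

theorem al2 {r Z : ℝ} (h1 : 1 ≤ r) (h4 : 0 ≤ Z) : Z ≤ 1 * (r ^ 10 * Z * (2 * r)) := by
  have h3 : 1 ≤ r ^ 10 := one_le_pow₀ h1
  have h5 : Z ≤ r ^ 10 * Z := by nlinarith
  nlinarith

theorem al3 {M0 M1 G q L : ℝ} (hL : 1 ≤ L) (h0 : 0 ≤ M0) (hG : 0 ≤ G) (hq : q ≤ 2 * L * M0)
    (e3 : 4 * M1 ≤ 2 * G + q) : M0 + M1 ≤ 2 * L * (M0 + G) := by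
  nlinarith

theorem al4 {l a o K : ℝ} (ho : 2 ≤ o) (hl : l ^ 2 ≤ a * o) (hK : 2 * a + 2 * 54 ^ 2 ≤ K) :
    (l + 54) ^ 2 ≤ K * o := by
  have h1 : (l + 54) ^ 2 ≤ 2 * l ^ 2 + 2 * 54 ^ 2 := by nlinarith [sq_nonneg (l - 54)]
  have h2 : (2 * a + 2 * 54 ^ 2) * o ≤ K * o := mul_le_mul_of_nonneg_right hK (by linarith)
  nlinarith

theorem al5 {G q a o M0 M1 : ℝ} (ha : 0 ≤ a) (ho : 0 ≤ o) (h0 : 0 ≤ M0) (h1 : 0 ≤ M1)
    (a2 : G ≤ q + 8 * M1) (b2 : q ≤ 2 * (a * o) * M0) :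
    G + o * M0 ≤ (a + 4) * 2 * (o * M0 + M1) := by
  have b3 : 0 ≤ o * M0 := by positivity
  have b4 : 0 ≤ a * M1 := by positivity
  nlinarith

theorem al6 {l A o : ℝ} (hl : 0 ≤ l) (ho : 0 ≤ o) (h : l * (l + 10) ≤ A * o) :
    l ^ 2 ≤ |A| * o := by
  have h1 : A * o ≤ |A| * o := mul_le_mul_of_nonneg_right (le_abs_self A) ho
  nlinarith

end MBEo

open MBEo

theorem s_O1 (h2 : S_toL) (h5 : S_rs) (h6 : S_o1a) : S_O1 := by
  intro D L σ₀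
  have hR := L.R_pos
  obtain ⟨ε₀, C, N, hε₀, hC, h6'⟩ := h6 (|σ₀| + 12 + (L.R + 4) ^ 2)
  obtain ⟨C₂, -, h2'⟩ := h2 D L
  refine ⟨2 * C * (L.R + 4) ^ 10, N + 2, ?_⟩
  filter_upwards [h2' ε₀ hε₀, beta_le D L] with j hj hβ l lam hl hre hσ him f g hS r₁ hr₁
  obtain ⟨h, hl', hη, hs₁, hε, hc, hw0, hw1, hX⟩ := hj l lam 0 0 f g hre hS
  subst hl'
  obtain ⟨cZ, -, hrs⟩ := h5 _ (L.P j) h f g hS.af hS.ag hX
  have hl1 : (1 : ℝ) ≤ h.l := by exact_mod_cast hl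
  have hg := gam_le (L.m_pos j)
  have hσ' := le_abs_self σ₀
  have hr1 : 1 ≤ r₁ := by linarith [hr₁.1]
  have hw : ∀ i, |h.w i| ≤ (|σ₀| + 12 + (L.R + 4) ^ 2) * (h.l : ℝ) ^ 2 := by
    intro i
    have h1 : |h.w i| ≤ |lam.im| + |(L.P j).β| := by
      cases i
      · rw [hw0]; exact abs_sub _ _
      · rw [hw1]
        have h3 := abs_sub (-lam.im) (L.P j).β
        rwa [abs_neg] at h3
    exact h1.trans (al1 hl1 him hβ (by linarith [abs_nonneg σ₀, sq_nonneg (L.R + 4)]))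
  have hmain := h6' h (by rw [hc]; simp) hε.le hl
    (by rw [hη]; linarith [sq_nonneg (L.R + 4)]) hw (r₁ ^ 2) ((L.R + 4) ^ 2)
    (by rw [hs₁]; exact pow_le_pow_left₀ (by linarith) hr₁.1 2)
    (pow_le_pow_left₀ (by linarith) hr₁.2 2) (by linarith [abs_nonneg σ₀])
  have hcov := cov (φ := h.M 0) (ψ := ZZ f g) (c := 1) (by linarith : 0 < r₁) hr₁.2 (h.c_M 0) cZ
    (fun r hr => by
      have h1 : 1 ≤ r := hr1.trans hr.1
      rw [← (hrs r (by linarith)).1]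
      exact al2 h1 (ZZ0 f g r))
  obtain ⟨e1, -, e3, -⟩ := hrs r₁ (by linarith)
  have hZ := ZZ0 f g r₁
  have hG := GG0 f g r₁
  have hp : r₁ ^ 10 ≤ (L.R + 4) ^ 10 := pow_le_pow_left₀ (by linarith) hr₁.2 10
  have hp0 : 0 ≤ r₁ ^ 10 := by positivity
  have hM0 : 0 ≤ h.M 0 (r₁ ^ 2) := h.M0 0 (sq_nonneg _)
  have hl2 : (1 : ℝ) ≤ (h.l : ℝ) ^ 2 := one_le_pow₀ hl1
  have e4 : 2 * (h.l : ℝ) ^ 2 / r₁ ^ 2 * h.M 0 (r₁ ^ 2) ≤ 2 * (h.l : ℝ) ^ 2 * h.M 0 (r₁ ^ 2) :=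
    mul_le_mul_of_nonneg_right (div_le (by positivity) hr1) hM0
  have e5 : h.M 0 (r₁ ^ 2) + h.M 1 (r₁ ^ 2) ≤
      2 * (h.l : ℝ) ^ 2 * (r₁ ^ 10 * (ZZ f g r₁ + GG f g r₁)) := by
    rw [mul_add (r₁ ^ 10), e1]
    exact al3 hl2 hM0 (mul_nonneg hp0 hG) e4 e3
  have e6 : r₁ ^ 10 * (ZZ f g r₁ + GG f g r₁) ≤ (L.R + 4) ^ 10 * (ZZ f g r₁ + GG f g r₁) :=
    mul_le_mul_of_nonneg_right hp (by linarith)
  have e7 : h.M 0 (r₁ ^ 2) + h.M 1 (r₁ ^ 2) ≤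
      2 * (h.l : ℝ) ^ 2 * ((L.R + 4) ^ 10 * (ZZ f g r₁ + GG f g r₁)) :=
    e5.trans (mul_le_mul_of_nonneg_left e6 (by positivity))
  have e8 := mul_le_mul_of_nonneg_left e7 (by positivity : 0 ≤ C * (h.l : ℝ) ^ N)
  calc _ ≤ _ := hcov
    _ ≤ _ := by rw [one_mul]; exact hmain
    _ ≤ _ := e8
    _ = _ := by ring

theorem s_O2 (h2 : S_toL) (h5 : S_rs) (h7 : S_o2a) : S_O2 := by
  intro D L σ₀ A
  have hR := L.R_pos
  have hA0 := abs_nonneg A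
  have hσ0 := abs_nonneg σ₀
  have hR2 := sq_nonneg (L.R + 2)
  obtain ⟨ε₀, C, hε₀, hC, h7'⟩ := h7 (|σ₀| + 1 + (L.R + 2) ^ 2 + 2 * |A| + 2 * 54 ^ 2)
    (by linarith)
  obtain ⟨C₂, -, h2'⟩ := h2 D L
  refine ⟨(|A| + 4) * (C * ((L.R + 2) ^ 11 * (2 + |A|))), fun R₃ => ⟨2 + R₃ ^ 2, ?_⟩⟩
  filter_upwards [h2' ε₀ hε₀, beta_le D L] with j hj hβ l lam hre hσ him hA f g hS r₂ hr₂ hr₃ Y
    hY1 hY2
  obtain ⟨h, hl', hη, hs₁, hε, hc, hw0, hw1, hX⟩ := hj l lam 0 0 f g hre hS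
  subst hl'
  obtain ⟨cZ, cG, hrs⟩ := h5 _ (L.P j) h f g hS.af hS.ag hX
  have hl0 : (0 : ℝ) ≤ h.l := Nat.cast_nonneg _
  have hg := gam_le (L.m_pos j)
  have hσ' := le_abs_self σ₀
  have hr1 : 1 ≤ r₂ := by linarith [hr₂.1]
  have hom : 2 ≤ |lam.im| := by linarith [sq_nonneg R₃]
  have hl2 : (h.l : ℝ) ^ 2 ≤ |A| * |lam.im| := al6 hl0 (abs_nonneg _) hA
  have hZ := ZZ0 f g r₂
  have hG := GG0 f g r₂
  have hZ' : 0 ≤ |lam.im| * ZZ f g r₂ := by positivity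
  have hY0 : 0 ≤ Y := by linarith
  have hp : r₂ ^ 11 ≤ (L.R + 2) ^ 11 := pow_le_pow_left₀ (by linarith) hr₂.2 11
  have hp' : r₂ ^ 10 ≤ r₂ ^ 11 := pow_le_pow_right₀ hr1 (by norm_num)
  have hp0 : 0 ≤ r₂ ^ 10 := by positivity
  obtain ⟨e1, -, e3, e4⟩ := hrs r₂ (by linarith)
  have hM0 : 0 ≤ h.M 0 (r₂ ^ 2) := h.M0 0 (sq_nonneg _)
  have hbig : r₂ ^ 11 * ((2 + |A|) * Y) ≤ (L.R + 2) ^ 11 * (2 + |A|) * Y := by
    rw [mul_assoc]; exact mul_le_mul_of_nonneg_right hp (by positivity)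
  have hmain := h7' h (by rw [hc]; simp) hε.le lam.im (L.P j).β hw0 hw1 hβ hom
    (al4 hom hl2 (by linarith))
    (by rw [hη]; linarith) (r₂ ^ 2) (R₃ ^ 2) ((L.R + 2) ^ 11 * (2 + |A|) * Y)
    (by rw [hs₁]; exact pow_le_pow_left₀ (by linarith) hr₂.1 2)
    (by
      have h1 : r₂ ^ 2 ≤ (L.R + 2) ^ 2 := pow_le_pow_left₀ (by linarith) hr₂.2 2
      linarith)
    (pow_le_pow_left₀ (by linarith) hr₃ 2) (by linarith)
    (by
      have h1 : -lam.im * (h.J false 0 (r₂ ^ 2) - h.J true 0 (r₂ ^ 2)) =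
          r₂ ^ 11 * (-lam.im * FL f g r₂) / 2 := by linear_combination (lam.im / 2) * e4
      have h3 : 0 ≤ r₂ ^ 11 := by positivity
      have h4 : r₂ ^ 11 * (-lam.im * FL f g r₂) ≤ r₂ ^ 11 * Y := mul_le_mul_of_nonneg_left hY1 h3
      have h6 : r₂ ^ 11 * Y ≤ r₂ ^ 11 * ((2 + |A|) * Y) :=
        mul_le_mul_of_nonneg_left (le_mul_of_one_le_left hY0 (by linarith)) h3
      have h8 : 0 ≤ r₂ ^ 11 * Y := by positivity
      linarith)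
    (by
      have h1 : 2 * (h.l : ℝ) ^ 2 / r₂ ^ 2 * h.M 0 (r₂ ^ 2) ≤
          2 * (|A| * |lam.im|) * h.M 0 (r₂ ^ 2) :=
        mul_le_mul_of_nonneg_right ((div_le (by positivity) hr1).trans (by linarith)) hM0
      have h3 : GG f g r₂ + |lam.im| * ZZ f g r₂ + |A| * (|lam.im| * ZZ f g r₂) ≤
          (2 + |A|) * Y := by
        have h4 : |A| * (|lam.im| * ZZ f g r₂) ≤ |A| * Y :=
          mul_le_mul_of_nonneg_left (by linarith) hA0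
        linarith
      have h4 := mul_le_mul_of_nonneg_left h3 hp0
      have h6 : r₂ ^ 10 * ((2 + |A|) * Y) ≤ r₂ ^ 11 * ((2 + |A|) * Y) :=
        mul_le_mul_of_nonneg_right hp' (by positivity)
      have h8 : 0 ≤ r₂ ^ 10 * GG f g r₂ := mul_nonneg hp0 hG
      have h9 : 0 ≤ |A| * |lam.im| * h.M 0 (r₂ ^ 2) := by positivity
      have h10 : r₂ ^ 10 * (GG f g r₂ + |lam.im| * ZZ f g r₂ + |A| * (|lam.im| * ZZ f g r₂)) =
          r₂ ^ 10 * GG f g r₂ + |lam.im| * h.M 0 (r₂ ^ 2) + |A| * |lam.im| * h.M 0 (r₂ ^ 2) := by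
        rw [← e1]; ring
      linarith)
  have hcov := cov (φ := fun s => |lam.im| * h.M 0 s + h.M 1 s)
    (ψ := fun r => r ^ 11 * (GG f g r + |lam.im| * ZZ f g r)) (c := |A| + 4)
    (by linarith : 0 < r₂) hr₃ ((continuousOn_const.mul (h.c_M 0)).add (h.c_M 1))
    ((continuousOn_pow 11).mul (cG.add (continuousOn_const.mul cZ)))
    (fun r hr => by
      have h1 : 1 ≤ r := hr1.trans hr.1
      obtain ⟨a1, a2, -, -⟩ := hrs r (by linarith)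
      have b0 : 0 ≤ h.M 0 (r ^ 2) := h.M0 0 (sq_nonneg _)
      have b1 : 0 ≤ h.M 1 (r ^ 2) := h.M0 1 (sq_nonneg _)
      have b2 : 2 * (h.l : ℝ) ^ 2 / r ^ 2 * h.M 0 (r ^ 2) ≤
          2 * (|A| * |lam.im|) * h.M 0 (r ^ 2) :=
        mul_le_mul_of_nonneg_right ((div_le (by positivity) h1).trans (by linarith)) b0
      have b5 : r ^ 10 * GG f g r + |lam.im| * h.M 0 (r ^ 2) ≤
          (|A| + 4) * 2 * (|lam.im| * h.M 0 (r ^ 2) + h.M 1 (r ^ 2)) :=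
        al5 hA0 (abs_nonneg _) b0 b1 a2 b2
      have b6 := mul_le_mul_of_nonneg_left b5 (by linarith : 0 ≤ r)
      calc r ^ 11 * (GG f g r + |lam.im| * ZZ f g r)
          = r * (r ^ 10 * GG f g r + |lam.im| * h.M 0 (r ^ 2)) := by rw [← a1]; ring
        _ ≤ _ := b6
        _ = _ := by ring)
  calc _ ≤ _ := hcov
    _ ≤ (|A| + 4) * (C * ((L.R + 2) ^ 11 * (2 + |A|) * Y)) :=
        mul_le_mul_of_nonneg_left hmain (by positivity)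
    _ = _ := by ring

end P139
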