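import Vale.Agent.P139.MBEDefs

/-! P139 part MB: the tail estimate at high frequency. -/

open Set Filter Topology MeasureTheory

noncomputable section
namespace P139

namespace MBEo2a

theorem div_o {o x C Y : ℝ} {k n : ℕ} (ho : 1 ≤ o) (hC : 0 ≤ C) (hY : 0 ≤ Y) (hk : k ≤ n + 1)
    (h : o * x ≤ C * o ^ k * Y) : x ≤ C * (o ^ n * Y) := by
  have h1 : o ^ k ≤ o ^ (n + 1) := pow_le_pow_right₀ ho hk
  have h2 : C * o ^ k * Y ≤ C * o ^ (n + 1) * Y :=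
    mul_le_mul_of_nonneg_right (mul_le_mul_of_nonneg_left h1 hC) hY
  refine le_of_mul_le_mul_left (h.trans (h2.trans (le_of_eq ?_))) (by linarith)
  ring

theorem dt_le (h : Lev) {k : ℕ} {s x : ℝ} (hM : ∀ j < k, h.M j s ≤ x) : h.dt k s ≤ k * x := by
  have := Finset.sum_le_card_nsmul (Finset.range k) (fun j => h.M j s) x
    fun j hj => hM j (Finset.mem_range.1 hj)
  rwa [Finset.card_range, nsmul_eq_mul] at this

theorem int_le (h : Lev) {k : ℕ} {a b : ℝ} (ha : 0 ≤ a) (hab : a ≤ b)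
    (hi : IntegrableOn (h.M k) (Ioi a)) : ∫ s in a..b, h.M k s ≤ ∫ s in Ioi a, h.M k s := by
  rw [intervalIntegral.integral_of_le hab]
  refine setIntegral_mono_set hi ?_ (HasSubset.Subset.eventuallyLE Ioc_subset_Ioi_self)
  filter_upwards [ae_restrict_mem measurableSet_Ioi] with t ht using h.M0 k (ha.trans (le_of_lt ht))

/-- from level seven to level eight -/
theorem lev8 {o w J0 J7 J8 B sm u C A : ℝ} (ho : 0 ≤ o) (hw : |w| = o) (hB : B = 4 * J7 + sm / 2)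
    (hsm0 : 0 ≤ sm) (hu : 0 ≤ u) (hC : 0 ≤ C) (hA : |B| ≤ A * u) (hsm : sm ≤ C * u)
    (h7 : |J7 - (-w / 4) ^ 7 * J0| ≤ C * u) (h8 : |J8 - (-w / 4) ^ 8 * J0| ≤ C * (o * u)) :
    J8 ≤ (A + 3 * C) * (o * u) := by
  have hCu := mul_nonneg hC hu
  have h1 : |(-w / 4) ^ 7 * J0| ≤ (A + 2 * C) * u := by
    rw [abs_le] at hA h7 ⊢
    constructor <;> linarith [hA.1, hA.2, h7.1, h7.2]
  have h2 : |(-w / 4) ^ 8 * J0| = o / 4 * |(-w / 4) ^ 7 * J0| := by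
    rw [show (-w / 4) ^ 8 * J0 = -w / 4 * ((-w / 4) ^ 7 * J0) by ring, abs_mul, abs_div, abs_neg, hw]
    norm_num
  have h3 : o / 4 * |(-w / 4) ^ 7 * J0| ≤ o * ((A + 2 * C) * u) :=
    mul_le_mul (by linarith) h1 (abs_nonneg _) ho
  have h4 := le_abs_self ((-w / 4) ^ 8 * J0)
  have h5 := (abs_le.1 h8).2
  linarith

theorem lev7 {om Jf0 Jt0 Jf Jt Y C : ℝ} (hY0 : 0 ≤ Y) (hY : -om * (Jf0 - Jt0) ≤ Y)
    (hf : |Jf - (-om / 4) ^ 7 * Jf0| ≤ C * (|om| ^ 6 * Y))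
    (ht : |Jt - (- -om / 4) ^ 7 * Jt0| ≤ C * (|om| ^ 6 * Y)) :
    Jf + Jt ≤ (1 + 2 * C) * (|om| ^ 6 * Y) := by
  have e : |om| ^ 6 = om ^ 6 := Even.pow_abs (by decide) om
  have h0 : 0 ≤ om ^ 6 := by positivity
  have h1 := mul_le_mul_of_nonneg_left hY h0
  have h2 := mul_nonneg h0 hY0
  rw [e] at hf ht ⊢
  linarith [(abs_le.1 hf).2, (abs_le.1 ht).2]

theorem w_sq {w w' o : ℝ} (ho : 2 ≤ o) (hw : |w| = o) (h : |w' - w| ≤ 1) : o ^ 2 ≤ 4 * w' ^ 2 := by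
  have h1 : o ≤ 2 * |w'| := by
    have := abs_sub_abs_le_abs_sub w w'
    rw [abs_sub_comm] at this
    linarith
  have h2 := pow_le_pow_left₀ (by linarith) h1 2
  rw [mul_pow, sq_abs] at h2
  linarith

end MBEo2a

open MBEo2a in
theorem s_o2a (h1 : S_e1) (h3 : S_bwd) (h4 : S_Jb) : S_o2a := by
  intro K hK
  obtain ⟨ε₁, C₁, hε₁, -, h1⟩ := h1
  obtain ⟨ε₃, C₃, hε₃, hC₃, h3⟩ := h3 (4 * K) (by linarith)
  obtain ⟨C, hC, h4⟩ := h4 K hK
  obtain ⟨A₇, hA₇⟩ : ∃ A₇, A₇ = 16 * (1 + 2 * C) + 2 * (K * C) + 7 * C := ⟨_, rfl⟩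
  have hA₇0 : 0 ≤ A₇ := by rw [hA₇]; positivity
  obtain ⟨A₈, hA₈⟩ : ∃ A₈, A₈ = 32 * ((K + 20) * A₇ + 7 * C + 3 * (K * C)) + 2 * (K * C) + 8 * C :=
    ⟨_, rfl⟩
  have hA₈0 : 0 ≤ A₈ := by rw [hA₈]; positivity
  refine ⟨min (min ε₁ ε₃) 1, C₃ * (A₇ + A₈), lt_min (lt_min hε₁ hε₃) one_pos, by positivity, ?_⟩
  intro h hc hε om β hwf hwt hβ hom hl hη s₂ s₃ Y hs₁ hsK hs₂₃ hs₃ hY1 hY2
  have e1 : h.ε ≤ ε₁ := hε.trans ((min_le_left _ _).trans (min_le_left _ _))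
  have e3 : h.ε ≤ ε₃ := hε.trans ((min_le_left _ _).trans (min_le_right _ _))
  have e4 : h.ε ≤ 1 := hε.trans (min_le_right _ _)
  have ho1 : 1 ≤ |om| := by linarith only [hom]
  have ho0 : 0 ≤ |om| := abs_nonneg _
  have hs0 : 0 ≤ s₂ := by linarith only [h.s1, hs₁]
  have hY0 : 0 ≤ Y :=
    le_trans (add_nonneg (mul_nonneg ho0 (h.M0 0 hs0)) (h.M0 1 hs0)) hY2
  obtain ⟨w, hw⟩ : ∃ w : Bool → ℝ, w = fun i => cond i (-om) om := ⟨_, rfl⟩
  have hw1 : ∀ i, |w i| = |om| := by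
    rintro (_ | _) <;> simp [hw]
  have hw2 : ∀ i, |h.w i - w i| ≤ 1 := by
    rintro (_ | _)
    · simp [hw, hwf, hβ]
    · rw [hwt, hw, show -om - β - (fun i => cond i (-om) om) true = -β by simp; ring, abs_neg]
      exact hβ
  have hw3 : ∀ i, |h.w i| ≤ 2 * |om| := fun i => by
    have := abs_sub_abs_le_abs_sub (h.w i) (w i)
    linarith only [this, hw1 i, hw2 i, ho1]
  have H := fun i => h4 h hc e4 om s₂ Y i (w i) ho1 (hw1 i) (hw2 i) hw3 hl hη hs₁ hsK hY2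
  obtain ⟨u, hu⟩ : ∃ u, u = |om| ^ 6 * Y := ⟨_, rfl⟩
  have hu0 : 0 ≤ u := by rw [hu]; positivity
  have hu7 : |om| ^ 7 * Y = |om| * u := by rw [hu]; ring
  have hM7 : ∀ j ≤ 7, h.M j s₂ ≤ C * u := fun j hj =>
    hu ▸ div_o ho1 hC hY0 (n := 6) hj (H false j (by omega)).1
  have hM8 : ∀ j ≤ 8, h.M j s₂ ≤ C * (|om| * u) := fun j hj =>
    hu7 ▸ div_o ho1 hC hY0 (n := 7) hj (H false j hj).1
  have hJ7 : ∀ i, |h.J i 7 s₂ - (-w i / 4) ^ 7 * h.J i 0 s₂| ≤ C * u := fun i =>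
    hu ▸ div_o ho1 hC hY0 (n := 6) le_rfl (H i 7 (by omega)).2
  have hJ8 : ∀ i, |h.J i 8 s₂ - (-w i / 4) ^ 8 * h.J i 0 s₂| ≤ C * (|om| * u) := fun i =>
    hu7 ▸ div_o ho1 hC hY0 (n := 7) le_rfl (H i 8 le_rfl).2
  have hd7 : h.dt 7 s₂ ≤ 7 * (C * u) := by
    exact_mod_cast dt_le h (k := 7) fun j hj => hM7 j hj.le
  have hd8 : h.dt 8 s₂ ≤ 8 * (C * (|om| * u)) := by
    exact_mod_cast dt_le h (k := 8) fun j hj => hM8 j hj.le
  have hsM : ∀ {k x}, h.M k s₂ ≤ C * x → s₂ * h.M k s₂ ≤ K * C * x := fun {k x} hx => by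
    rw [mul_assoc]
    exact mul_le_mul hsK hx (h.M0 k hs0) (by linarith only [hK])
  have hBB : ∀ k, h.B false k s₂ + h.B true k s₂ =
      4 * (h.J false k s₂ + h.J true k s₂) + s₂ * h.M k s₂ / 2 := fun k => by
    unfold Lev.B Lev.M; ring
  obtain ⟨i7, a7, b7⟩ := h1 h e1 7 le_rfl (by norm_num) s₂ hs₁
  obtain ⟨i8, a8, -⟩ := h1 h e1 8 (by norm_num) (by norm_num) s₂ hs₁
  rw [hc, mul_zero, add_zero, hBB] at a7 a8
  have hI7 : ∫ s in Ioi s₂, h.M 7 s ≤ A₇ * u := by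
    have t1 := hJ7 false
    have t2 := hJ7 true
    simp only [hw, hu, cond_true, cond_false] at t1 t2
    have t3 := lev7 hY0 hY1 t1 t2
    rw [← hu] at t3
    have t4 := hsM (hM7 7 le_rfl)
    rw [hA₇]
    linarith only [a7, t3, t4, hd7]
  have hI70 : 0 ≤ ∫ s in Ioi s₂, h.M 7 s :=
    setIntegral_nonneg measurableSet_Ioi fun s hs => h.M0 7 (hs0.trans (le_of_lt hs))
  have hKC : C ≤ K * C := le_mul_of_one_le_left hC hK
  have hJ8' : ∀ i, h.J i 8 s₂ ≤ ((K + 20) * A₇ + 7 * C + 3 * (K * C)) * (|om| * u) := fun i => by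
    refine lev8 (J0 := h.J i 0 s₂) (J7 := h.J i 7 s₂) (B := h.B i 7 s₂) (sm := s₂ * h.m i 7 s₂)
      ho0 (hw1 i) rfl (mul_nonneg hs0 (h.m0 i 7 hs0)) hu0 (by positivity) ?_ ?_
      ((hJ7 i).trans (mul_le_mul_of_nonneg_right hKC hu0))
      ((hJ8 i).trans (mul_le_mul_of_nonneg_right hKC (mul_nonneg ho0 hu0)))
    · have t1 := b7 i
      rw [hc, mul_zero, add_zero] at t1
      have t2 : (h.η + 20) * ∫ s in Ioi s₂, h.M 7 s ≤ (K + 20) * (A₇ * u) :=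
        mul_le_mul (by linarith only [hη]) hI7 hI70 (by linarith only [hK])
      linarith only [t1, t2, hd7]
    · exact (mul_le_mul_of_nonneg_left (h.m_le_M i 7 hs0) hs0).trans (hsM (hM7 7 le_rfl))
  have hI8 : ∫ s in Ioi s₂, h.M 8 s ≤ A₈ * (|om| * u) := by
    have t4 := hsM (hM8 8 le_rfl)
    rw [hA₈]
    linarith only [a8, hJ8' false, hJ8' true, t4, hd8]
  have hpos : ∀ s ∈ uIcc s₂ s₃, s ∈ Ioi (0 : ℝ) := fun s hs => by
    rw [uIcc_of_le hs₂₃] at hs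
    exact lt_of_lt_of_le (by linarith only [h.s1, hs₁]) hs.1
  have ii : ∀ k, IntervalIntegrable (h.M k) volume s₂ s₃ := fun k =>
    ((h.c_M k).mono hpos).intervalIntegrable
  have hp : ∀ s ∈ Icc s₂ s₃, |om| * h.M 0 s + h.M 1 s ≤
      C₃ * (h.M 7 s / |om| ^ 6 + h.M 8 s / |om| ^ 7) := fun s hs => by
    refine h3 h hc e3 s |om| (K * |om|) (hs₁.trans hs.1)
      (hs.2.trans (hs₃.trans (le_mul_of_one_le_left ho0 hK))) ho1 hl fun i => ?_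
    have t1 := w_sq hom (hw1 i) (hw2 i)
    have t2 : K * |om| ^ 2 ≤ K * (4 * h.w i ^ 2) :=
      mul_le_mul_of_nonneg_left t1 (by linarith only [hK])
    have t3 : |om| ^ 2 ≤ K * |om| ^ 2 := le_mul_of_one_le_left (by positivity) hK
    have t4 : 0 ≤ K * ((h.l : ℝ) / 2) ^ 2 := by positivity
    constructor <;> linarith only [t2, t3, t4]
  refine (intervalIntegral.integral_mono_on hs₂₃ (((ii 0).const_mul _).add (ii 1))
    ((((ii 7).div_const _).add ((ii 8).div_const _)).const_mul _) hp).trans ?_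
  rw [intervalIntegral.integral_const_mul,
    intervalIntegral.integral_add ((ii 7).div_const _) ((ii 8).div_const _),
    intervalIntegral.integral_div, intervalIntegral.integral_div, mul_assoc]
  refine mul_le_mul_of_nonneg_left ?_ hC₃
  have t7 : (∫ s in s₂..s₃, h.M 7 s) / |om| ^ 6 ≤ A₇ * Y := by
    rw [div_le_iff₀ (by positivity)]
    refine ((int_le h hs0 hs₂₃ i7).trans hI7).trans (le_of_eq ?_)
    rw [hu]; ring
  have t8 : (∫ s in s₂..s₃, h.M 8 s) / |om| ^ 7 ≤ A₈ * Y := by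
    rw [div_le_iff₀ (by positivity)]
    refine ((int_le h hs0 hs₂₃ i8).trans hI8).trans (le_of_eq ?_)
    rw [hu]; ring
  linarith only [t7, t8]

end P139
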