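import Vale.Agent.P139.MBEDefs

/-! P139 part MB: dictionary `r ↔ s`, and the statements `S_E`, `S_E0`. -/

open Complex Set Filter Topology MeasureTheory
open scoped ContDiff ComplexConjugate

noncomputable section
namespace P139
namespace MBErs

lemma one (l : ℕ) {r : ℝ} (hr : 0 < r) {u u' a a' : ℂ} (h0 : u = (r : ℂ) ^ l * a)
    (h1 : u' = (l : ℂ) / r * u + 2 * (r : ℂ) ^ (l + 1) * a') :
    r ^ 10 * ‖u‖ ^ 2 = ‖a‖ ^ 2 * (r ^ 2) ^ (l + 0 + 5) ∧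
    r ^ 10 * ‖u'‖ ^ 2 ≤ 2 * (l : ℝ) ^ 2 / r ^ 2 * (‖a‖ ^ 2 * (r ^ 2) ^ (l + 0 + 5)) +
      8 * (‖a'‖ ^ 2 * (r ^ 2) ^ (l + 1 + 5)) ∧
    4 * (‖a'‖ ^ 2 * (r ^ 2) ^ (l + 1 + 5)) ≤ 2 * (r ^ 10 * ‖u'‖ ^ 2) +
      2 * (l : ℝ) ^ 2 / r ^ 2 * (‖a‖ ^ 2 * (r ^ 2) ^ (l + 0 + 5)) ∧
    r ^ 11 * (conj u * u').im = 2 * ((r ^ 2) ^ (l + 0 + 6) * (conj a * a').im) := by
  have e0 : r ^ 10 * ‖u‖ ^ 2 = ‖a‖ ^ 2 * (r ^ 2) ^ (l + 0 + 5) := by
    rw [h0, norm_mul, norm_pow, Complex.norm_real, Real.norm_eq_abs, abs_of_pos hr]; ring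
  have n1 : ‖(l : ℂ) / r * u‖ = l / r * ‖u‖ := by
    rw [norm_mul, norm_div, Complex.norm_real, Real.norm_eq_abs, abs_of_pos hr, norm_natCast]
  have n2 : ‖2 * (r : ℂ) ^ (l + 1) * a'‖ = 2 * r ^ (l + 1) * ‖a'‖ := by
    rw [norm_mul, norm_mul, norm_pow, Complex.norm_real, Real.norm_eq_abs, abs_of_pos hr,
      Complex.norm_two]
  have e1 : 4 * (‖a'‖ ^ 2 * (r ^ 2) ^ (l + 1 + 5)) = r ^ 10 * (2 * r ^ (l + 1) * ‖a'‖) ^ 2 := by
    ring
  have e2 : 2 * (l : ℝ) ^ 2 / r ^ 2 * (r ^ 10 * ‖u‖ ^ 2) = r ^ 10 * (2 * (l / r * ‖u‖) ^ 2) := by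
    field_simp
  have p : 0 < r ^ 10 := by positivity
  have t1 : ‖u'‖ ≤ l / r * ‖u‖ + 2 * r ^ (l + 1) * ‖a'‖ := by
    rw [← n1, ← n2, h1]; exact norm_add_le _ _
  have t2 : 2 * r ^ (l + 1) * ‖a'‖ ≤ ‖u'‖ + l / r * ‖u‖ := by
    rw [← n1, ← n2]
    have : 2 * (r : ℂ) ^ (l + 1) * a' = u' - (l : ℂ) / r * u := by rw [h1]; ring
    rw [this]; exact norm_sub_le _ _
  set x := l / r * ‖u‖
  set y := 2 * r ^ (l + 1) * ‖a'‖
  have hx : 0 ≤ x := by positivity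
  have hy : 0 ≤ y := by positivity
  refine ⟨e0, ?_, ?_, ?_⟩
  · rw [← e0, e2]
    have : ‖u'‖ ^ 2 ≤ 2 * x ^ 2 + 2 * y ^ 2 := by
      nlinarith [pow_le_pow_left₀ (norm_nonneg _) t1 2, sq_nonneg (x - y)]
    nlinarith [mul_le_mul_of_nonneg_left this p.le]
  · rw [← e0, e2, e1]
    have : y ^ 2 ≤ 2 * ‖u'‖ ^ 2 + 2 * x ^ 2 := by
      nlinarith [pow_le_pow_left₀ hy t2 2, sq_nonneg (x - ‖u'‖)]
    nlinarith [mul_le_mul_of_nonneg_left this p.le]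
  · have e3 : conj u * u' = ((l / r * r ^ (2 * l) : ℝ) : ℂ) * (conj a * a) +
        ((2 * r ^ (2 * l + 1) : ℝ) : ℂ) * (conj a * a') := by
      rw [h1, h0]
      simp only [map_mul, map_pow, conj_ofReal]
      push_cast
      ring
    have e4 : (conj a * a).im = 0 := by simp [mul_comm]
    rw [e3, add_im, im_ofReal_mul, im_ofReal_mul, e4]
    ring

lemma gam_le (m : ℕ) : 0 ≤ gam m ∧ gam m ≤ 1 := by
  unfold gam
  refine ⟨by positivity, ?_⟩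
  rcases Nat.eq_zero_or_pos m with h | h
  · simp [h]
  · have : (1 : ℝ) ≤ m := by exact_mod_cast h
    rw [div_le_one (by positivity)]; linarith

lemma int_m (h : Lev) (i : Bool) {k : ℕ} (hM : IntegrableOn (h.M k) (Ioi h.s₁)) :
    IntegrableOn (h.m i k) (Ioi h.s₁) := by
  have hs : ∀ s ∈ Ioi h.s₁, 0 < s := fun s hs => by
    have := h.s1; have : h.s₁ < s := hs; linarith
  refine Integrable.mono' hM (((h.c_m i k).mono hs).aestronglyMeasurable measurableSet_Ioi) ?_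
  filter_upwards [ae_restrict_mem measurableSet_Ioi] with s hs'
  rw [Real.norm_eq_abs, abs_of_nonneg (h.m0 _ _ (hs s hs').le)]
  exact h.m_le_M _ _ (hs s hs').le

end MBErs

open MBErs

theorem s_rs (h1 : S_seq) : S_rs := by
  intro m P h f g hf hg hX
  obtain ⟨-, hs, -⟩ := h1 m P h.l
  have cf := hf.1.continuousOn
  have cg := hg.1.continuousOn
  have cf' := hf.1.continuousOn_deriv_of_isOpen isOpen_Ioi (by norm_num)
  have cg' := hg.1.continuousOn_deriv_of_isOpen isOpen_Ioi (by norm_num)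
  refine ⟨(cf.norm.pow 2).add (cg.norm.pow 2), (cf'.norm.pow 2).add (cg'.norm.pow 2),
    fun r hr => ?_⟩
  obtain ⟨a1, a2, a3, a4⟩ := one h.l hr (hs f hf.1 r hr).1 (hs f hf.1 r hr).2
  obtain ⟨b1, b2, b3, b4⟩ := one h.l hr (hs g hg.1 r hr).1 (hs g hg.1 r hr).2
  have e : ∀ z w : ℂ, (z * conj w).im = -(conj z * w).im := fun z w => by simp; ring
  simp only [ZZ, GG, FL, Lev.M, Lev.m, levm, Lev.J, (hX _ _).1, (hX _ _).2, norm_conj,
    iteratedDeriv_zero, zero_add, iteratedDeriv_one, conj_conj, e]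
  refine ⟨by linarith, by linarith, by linarith, by linarith⟩

theorem s_E (h2 : S_toL) (h3 : S_ea) : S_E := by
  intro D L l K
  obtain ⟨C, hC, hL⟩ := h2 D L
  obtain ⟨ε₀, C', hε, hC', hE⟩ := h3 (l + |K| + |L.β| + 2 + (L.R + 1) ^ 2)
  refine ⟨C' * (((L.R + 1) ^ 2) ^ (l + 6) + C), ?_⟩
  have hβ : ∀ᶠ j in atTop, |(L.P j).β| < |L.β| + 1 :=
    (L.β_lim.abs).eventually (gt_mem_nhds (lt_add_one _))
  filter_upwards [hL ε₀ hε, hβ] with j hj hb lam c₀ c₁ hre hK f g hS k hk hk'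
  obtain ⟨h, hl, hη, hs, he, hc, w1, w2, hX⟩ := hj l lam c₀ c₁ f g hre hS
  subst hl
  have r1 : lam.re ≤ |K| := (re_le_norm lam).trans (hK.trans (le_abs_self K))
  have r2 : |lam.im| ≤ |K| := (abs_im_le_norm lam).trans (hK.trans (le_abs_self K))
  have g1 := (gam_le (L.m j)).2
  have p0 : (0 : ℝ) ≤ h.l := Nat.cast_nonneg _
  have p1 := abs_nonneg K
  have p2 := abs_nonneg L.β
  have p3 := sq_nonneg (L.R + 1)
  obtain ⟨i1, i2⟩ := hE h he.le (by linarith) (by linarith) (fun i => by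
    cases i
    · rw [w1]; linarith [abs_sub lam.im (L.P j).β]
    · rw [w2]
      have := abs_sub (-lam.im) (L.P j).β
      rw [abs_neg] at this
      linarith) (by linarith) k hk hk'
  have m1 : mk h.l k (toS h.l f) = h.m false k := by
    funext s; simp only [mk, Lev.m, levm, (hX _ _).1]
  have m2 : mk h.l k (toS h.l g) = h.m true k := by
    funext s; simp only [mk, Lev.m, levm, (hX _ _).2, norm_conj]
  rw [m1, m2, ← hs]
  refine ⟨int_m h _ i1, int_m h _ i1, ?_⟩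
  rw [← integral_add (int_m h _ i1) (int_m h _ i1)]
  refine i2.trans ?_
  rw [mul_assoc]
  refine mul_le_mul_of_nonneg_left ?_ hC'
  have q1 : h.s₁ ^ (h.l + 0 + 5) ≤ h.s₁ ^ (h.l + 6) := pow_le_pow_right₀ h.s1 (by omega)
  have q0 : 0 ≤ h.s₁ ^ (h.l + 6) := pow_nonneg (by linarith [h.s1]) _
  have q2 : h.M 0 h.s₁ + h.M 1 h.s₁ ≤
      h.s₁ ^ (h.l + 6) * dat (toS h.l f) (toS h.l g) h.s₁ := by
    simp only [Lev.M, Lev.m, levm, (hX _ _).1, (hX _ _).2, norm_conj, iteratedDeriv_zero,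
      iteratedDeriv_one, dat]
    have := mul_le_mul_of_nonneg_left q1 (sq_nonneg ‖toS h.l f h.s₁‖)
    have := mul_le_mul_of_nonneg_left q1 (sq_nonneg ‖toS h.l g h.s₁‖)
    have e : h.l + 1 + 5 = h.l + 6 := rfl
    rw [e]
    linarith
  have q3 : 0 ≤ dat (toS h.l f) (toS h.l g) h.s₁ := by unfold dat; positivity
  have q4 : 0 ≤ ‖c₀‖ ^ 2 + ‖c₁‖ ^ 2 := by positivity
  rw [hc]
  nlinarith [mul_nonneg hC q3, mul_nonneg q0 q4]

theorem s_E0 (h2 : S_toL) (h4 : S_e0) (h5 : S_rs) : S_E0 := by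
  intro D L
  obtain ⟨C, hC, hL⟩ := h2 D L
  filter_upwards [hL 1 one_pos] with j hj l lam hre f g hS
  obtain ⟨h, hl, hη, hs, -, hc, -, -, hX⟩ := hj l lam 0 0 f g (by linarith) hS
  subst hl
  have g0 := (gam_le (L.m j)).1
  have hc0 : h.c = 0 := by simp [hc]
  have i0 := h4 h 0 0 (by omega) (by omega) (by push_cast; linarith) (Or.inl hc0)
  have i1 := h4 h 0 1 (by omega) (by omega) (by push_cast; linarith) (Or.inl hc0)
  simp only [pow_zero, div_one] at i0 i1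
  obtain ⟨cZ, cG, hr⟩ := h5 _ (L.P j) h f g hS.af hS.ag hX
  have hR := L.R_pos
  have hpos : ∀ r ∈ Ioi (L.R + 1), 1 < r := fun r hr => by
    have : L.R + 1 < r := hr
    linarith
  have i2 : IntegrableOn (fun s => h.M 0 s + h.M 1 s) ((fun r : ℝ => r ^ 2) '' Ioi (L.R + 1)) := by
    refine IntegrableOn.mono_set (i0.add i1) ?_
    rintro _ ⟨r, hr, rfl⟩
    rw [hs]
    exact pow_lt_pow_left₀ (mem_Ioi.1 hr) (by linarith) two_ne_zero
  rw [integrableOn_image_iff_integrableOn_abs_deriv_smul measurableSet_Ioi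
    (f' := fun r => 2 * r) (fun x _ => by simpa using (hasDerivAt_pow 2 x).hasDerivWithinAt)
    (fun x hx y hy hxy => (pow_left_inj₀ (by linarith [hpos x hx]) (by linarith [hpos y hy])
      two_ne_zero).1 hxy)] at i2
  have hsub : Ioi (L.R + 1) ⊆ Ioi 0 := fun r hr => lt_trans one_pos (hpos r hr)
  refine Integrable.mono' (i2.const_mul ((h.l : ℝ) ^ 2 + 5))
    (((((continuousOn_pow 11).mul cG).add ((continuousOn_pow 9).mul cZ)).mono
      hsub).aestronglyMeasurable measurableSet_Ioi) ?_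
  filter_upwards [ae_restrict_mem measurableSet_Ioi] with r hr'
  have r1 := hpos r hr'
  have r0 : 0 < r := by linarith
  obtain ⟨e1, e2, -, -⟩ := hr r r0
  have z0 : 0 ≤ ZZ f g r := by unfold ZZ; positivity
  have z1 : 0 ≤ GG f g r := by unfold GG; positivity
  have M0 := h.M0 0 (sq_nonneg r)
  have M1 := h.M0 1 (sq_nonneg r)
  rw [Real.norm_eq_abs, abs_of_nonneg (by positivity), smul_eq_mul, abs_of_pos (by linarith)]
  have u1 : r ^ 9 * ZZ f g r ≤ r * h.M 0 (r ^ 2) := by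
    rw [← e1, ← mul_assoc]
    refine mul_le_mul_of_nonneg_right ?_ z0
    calc r ^ 9 ≤ r ^ 11 := pow_le_pow_right₀ r1.le (by norm_num)
      _ = _ := by ring
  have u2 : 2 * (h.l : ℝ) ^ 2 / r ^ 2 ≤ 2 * (h.l : ℝ) ^ 2 :=
    div_le_self (by positivity) (one_le_pow₀ r1.le)
  have u3 : r ^ 10 * GG f g r ≤ 2 * (h.l : ℝ) ^ 2 * h.M 0 (r ^ 2) + 8 * h.M 1 (r ^ 2) := by
    linarith [mul_le_mul_of_nonneg_right u2 M0]
  have u4 : r ^ 11 * GG f g r ≤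
      r * (2 * (h.l : ℝ) ^ 2 * h.M 0 (r ^ 2) + 8 * h.M 1 (r ^ 2)) := by
    calc r ^ 11 * GG f g r = r * (r ^ 10 * GG f g r) := by ring
      _ ≤ _ := mul_le_mul_of_nonneg_left u3 r0.le
  have u5 : 0 ≤ r * h.M 0 (r ^ 2) := by positivity
  have u6 : 0 ≤ r * h.M 1 (r ^ 2) := by positivity
  have u7 : 0 ≤ (h.l : ℝ) ^ 2 * (r * h.M 1 (r ^ 2)) := by positivity
  nlinarith

end P139
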