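import Vale.Agent.P139.MBEDefs

/-! P139 part MB: smoothness bootstrap and a priori bounds in the variable `s`. -/

open Complex Set Filter Topology MeasureTheory
open scoped ContDiff ComplexConjugate

noncomputable section
namespace P139
namespace MBEsmo

theorem step {F H : ℝ → ℂ} {n : ℕ} (hF : ContDiffOn ℝ 2 F (Ioi 0))
    (hH : ContDiffOn ℝ n H (Ioi 0)) (e : ∀ s : ℝ, 0 < s → deriv (deriv F) s = H s) :
    ContDiffOn ℝ (n + 2 : ℕ) F (Ioi 0) := by
  have h1 : ContDiffOn ℝ 1 (deriv F) (Ioi 0) := hF.deriv_of_isOpen isOpen_Ioi (by norm_num)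
  have h2 : ContDiffOn ℝ (n + 1 : ℕ) (deriv F) (Ioi 0) := by
    rw [Nat.cast_add_one, contDiffOn_succ_iff_deriv_of_isOpen isOpen_Ioi]
    exact ⟨h1.differentiableOn (by norm_num), by simp, hH.congr e⟩
  rw [show n + 2 = (n + 1) + 1 from rfl, Nat.cast_add_one,
    contDiffOn_succ_iff_deriv_of_isOpen isOpen_Ioi]
  exact ⟨hF.differentiableOn (by norm_num), by simp, h2⟩

theorem cconj {F : ℝ → ℂ} {n : WithTop ℕ∞} (hF : ContDiffOn ℝ n F (Ioi 0)) :
    ContDiffOn ℝ n (fun s => conj (F s)) (Ioi 0) :=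
  conjCLE.contDiff.comp_contDiffOn hF

theorem iter {f : ℝ → ℂ} (hf : ContDiffOn ℝ 48 f (Ioi 0)) :
    ∀ j k : ℕ, j + k ≤ 48 → ContDiffOn ℝ k (iteratedDeriv j f) (Ioi 0) := by
  intro j
  induction j with
  | zero =>
    intro k hk
    rw [iteratedDeriv_zero]
    exact hf.of_le (by exact_mod_cast (by omega : k ≤ 48))
  | succ j ih =>
    intro k hk
    rw [iteratedDeriv_succ]
    exact (ih (k + 1) (by omega)).deriv_of_isOpen isOpen_Ioi (by push_cast; exact le_rfl)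

def hh (f : ℝ → ℂ) (j p : ℕ) (s : ℝ) : ℂ := iteratedDeriv j f (√s) / ((√s : ℝ) : ℂ) ^ p

theorem hh_cd {f : ℝ → ℂ} (hf : ContDiffOn ℝ 48 f (Ioi 0)) {j k : ℕ} (h : j + k ≤ 48) (p : ℕ)
    {s : ℝ} (hs : 0 < s) : ContDiffAt ℝ k (hh f j p) s := by
  have h0 : 0 < √s := Real.sqrt_pos.2 hs
  have h1 : ContDiffAt ℝ k (fun s : ℝ => √s) s := Real.contDiffAt_sqrt hs.ne'
  have h2 : ContDiffAt ℝ k (fun s : ℝ => ((√s : ℝ) : ℂ)) s :=
    ofRealCLM.contDiff.contDiffAt.comp s h1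
  have h3 : ContDiffAt ℝ k (fun s : ℝ => iteratedDeriv j f (√s)) s :=
    ((iter hf j k h).contDiffAt (Ioi_mem_nhds h0)).comp s h1
  have h4 := h3.mul ((h2.pow p).inv (pow_ne_zero _ (by exact_mod_cast h0.ne')))
  exact h4.congr_of_eventuallyEq (Eventually.of_forall fun t => div_eq_mul_inv _ _)

theorem hh_deriv {f : ℝ → ℂ} (hf : ContDiffOn ℝ 48 f (Ioi 0)) {j : ℕ} (h : j + 1 ≤ 48) (p : ℕ)
    {s : ℝ} (hs : 0 < s) :
    deriv (hh f j p) s = -((p : ℂ) / 2) * hh f j (p + 2) s + 1 / 2 * hh f (j + 1) (p + 1) s := by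
  have h0 : 0 < √s := Real.sqrt_pos.2 hs
  have h0' : ((√s : ℝ) : ℂ) ≠ 0 := by exact_mod_cast h0.ne'
  have h1 := Real.hasDerivAt_sqrt hs.ne'
  have h2 : HasDerivAt (iteratedDeriv j f) (iteratedDeriv (j + 1) f (√s)) (√s) := by
    rw [iteratedDeriv_succ]
    exact (((iter hf j 1 h).contDiffAt (Ioi_mem_nhds h0)).differentiableAt (by simp)).hasDerivAt
  have h3 := h2.scomp s h1
  have h4 := (h1.ofReal_comp.pow p)
  have h5 := h3.div h4 (pow_ne_zero _ h0')
  have h6 : deriv (hh f j p) s = _ := h5.deriv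
  rw [h6]
  simp only [hh, Function.comp, real_smul, Pi.pow_apply]
  push_cast
  rcases p with _ | p
  · simp
    field_simp
  · simp only [Nat.add_sub_cancel]
    push_cast
    field_simp
    ring

theorem hh_bd {f : ℝ → ℂ} (hf : Adm f) : ∀ k j p : ℕ, j + k ≤ 48 → ∃ B : ℝ, ∀ s : ℝ, 1 ≤ s →
    ‖iteratedDeriv k (hh f j p) s‖ * √s ^ (p + k) ≤ B := by
  intro k
  induction k with
  | zero =>
    intro j p h
    obtain ⟨C, hC⟩ := hf.2 j h
    refine ⟨C, fun s hs => ?_⟩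
    have h0 : 0 < √s := Real.sqrt_pos.2 (by linarith)
    rw [iteratedDeriv_zero, hh, norm_div, norm_pow, Complex.norm_real, Real.norm_of_nonneg h0.le,
      add_zero, div_mul_cancel₀ _ (by positivity)]
    exact hC _ h0
  | succ k ih =>
    intro j p h
    obtain ⟨B₁, h1⟩ := ih j (p + 2) (by omega)
    obtain ⟨B₂, h2⟩ := ih (j + 1) (p + 1) (by omega)
    refine ⟨p / 2 * B₁ + 1 / 2 * B₂, fun s hs => ?_⟩
    have hs0 : 0 < s := by linarith
    have h0 : 1 ≤ √s := Real.one_le_sqrt.2 hs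
    have e : deriv (hh f j p) =ᶠ[𝓝 s]
        fun s => -((p : ℂ) / 2) * hh f j (p + 2) s + 1 / 2 * hh f (j + 1) (p + 1) s := by
      filter_upwards [Ioi_mem_nhds hs0] with t ht
      exact hh_deriv hf.1 (by omega) p ht
    have c1 := hh_cd hf.1 (j := j) (k := k) (by omega) (p + 2) hs0
    have c2 := hh_cd hf.1 (j := j + 1) (k := k) (by omega) (p + 1) hs0
    rw [iteratedDeriv_succ', e.iteratedDeriv_eq,
      iteratedDeriv_fun_add (contDiffAt_const.mul c1) (contDiffAt_const.mul c2),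
      iteratedDeriv_const_mul _ c1, iteratedDeriv_const_mul _ c2]
    have h3 := h1 s hs
    have h4 := h2 s hs
    have h5 : √s ^ (p + (k + 1)) ≤ √s ^ (p + 2 + k) := pow_le_pow_right₀ h0 (by omega)
    rw [show p + 1 + k = p + (k + 1) by omega] at h4
    have h6 : ‖-((p : ℂ) / 2) * iteratedDeriv k (hh f j (p + 2)) s
        + 1 / 2 * iteratedDeriv k (hh f (j + 1) (p + 1)) s‖
        ≤ p / 2 * ‖iteratedDeriv k (hh f j (p + 2)) s‖
          + 1 / 2 * ‖iteratedDeriv k (hh f (j + 1) (p + 1)) s‖ := by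
      refine (norm_add_le _ _).trans (le_of_eq ?_)
      simp
    have h7 : ‖iteratedDeriv k (hh f j (p + 2)) s‖ * √s ^ (p + (k + 1)) ≤ B₁ :=
      le_trans (by gcongr) h3
    have h8 : (0 : ℝ) ≤ p / 2 := by positivity
    calc _ ≤ (p / 2 * ‖iteratedDeriv k (hh f j (p + 2)) s‖
          + 1 / 2 * ‖iteratedDeriv k (hh f (j + 1) (p + 1)) s‖) * √s ^ (p + (k + 1)) := by gcongr
      _ = p / 2 * (‖iteratedDeriv k (hh f j (p + 2)) s‖ * √s ^ (p + (k + 1)))
          + 1 / 2 * (‖iteratedDeriv k (hh f (j + 1) (p + 1)) s‖ * √s ^ (p + (k + 1))) := by ring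
      _ ≤ _ := by gcongr

end MBEsmo

open MBEsmo

theorem s_smo (h1 : S_seq) : S_smo := by
  intro m P l lam c₀ c₁ F G h
  obtain ⟨-, -, -, hV1, hV2, hY0, hY1⟩ := h1 m P l
  have F2 : ContDiffOn ℝ 2 F (Ioi 0) := h.sF.of_le (by norm_num)
  have G2 : ContDiffOn ℝ 2 G (Ioi 0) := h.sG.of_le (by norm_num)
  have key : ∀ n : ℕ, ContDiffOn ℝ (n + 1 : ℕ) F (Ioi 0) ∧ ContDiffOn ℝ (n + 1 : ℕ) G (Ioi 0) := by
    intro n
    induction n with
    | zero => exact ⟨F2.of_le (by norm_num), G2.of_le (by norm_num)⟩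
    | succ n ih =>
      have le : ((n : ℕ) : WithTop ℕ∞) ≤ ∞ := by exact_mod_cast le_top
      have F0 : ContDiffOn ℝ n F (Ioi 0) := ih.1.of_le (by exact_mod_cast Nat.le_succ n)
      have G0 : ContDiffOn ℝ n G (Ioi 0) := ih.2.of_le (by exact_mod_cast Nat.le_succ n)
      have F1 : ContDiffOn ℝ n (deriv F) (Ioi 0) :=
        ih.1.deriv_of_isOpen isOpen_Ioi (by push_cast; exact le_rfl)
      have G1 : ContDiffOn ℝ n (deriv G) (Ioi 0) :=
        ih.2.deriv_of_isOpen isOpen_Ioi (by push_cast; exact le_rfl)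
      have v1 := hV1.of_le le
      have v2 := hV2.of_le le
      have y0 := hY0.of_le le
      have y1 := hY1.of_le le
      have s0 : ContDiffOn ℝ n (fun s : ℝ => (s : ℂ)) (Ioi 0) := ofRealCLM.contDiff.contDiffOn
      have s1 : ∀ s ∈ Ioi (0 : ℝ), 4 * (s : ℂ) ≠ 0 := fun s hs =>
        mul_ne_zero (by norm_num) (by exact_mod_cast (ne_of_gt hs))
      constructor
      · refine step F2 (H := fun s => (-I * (c₀ * P.Y0 l s + c₁ * P.Y1 l s
          + I * (P.V1s s * F s + P.V2s s * G s) + s * deriv F s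
          + (lam + gam m - I * P.β + (l : ℂ) / 2) * F s) - (24 + 4 * (l : ℂ)) * deriv F s)
          * (4 * (s : ℂ))⁻¹) ?_ fun s hs => ?_
        · exact ((contDiffOn_const.mul (((((contDiffOn_const.mul y0).add
            (contDiffOn_const.mul y1)).add (contDiffOn_const.mul ((v1.mul F0).add
            (v2.mul G0)))).add (s0.mul F1)).add (contDiffOn_const.mul F0))).sub
            (contDiffOn_const.mul F1)).mul ((contDiffOn_const.mul s0).inv s1)
        · rw [← div_eq_mul_inv, eq_div_iff (s1 s hs), ← h.eF s hs, FreeF]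
          linear_combination (4 * s * deriv (deriv F) s + (24 + 4 * (l : ℂ)) * deriv F s) * I_sq
      · refine step G2 (H := fun s => (I * (c₀ * conj (P.Y0 l s) + c₁ * conj (P.Y1 l s)
          - I * (P.V1s s * G s + conj (P.V2s s) * F s) + s * deriv G s
          + (lam + gam m + I * P.β + (l : ℂ) / 2) * G s) - (24 + 4 * (l : ℂ)) * deriv G s)
          * (4 * (s : ℂ))⁻¹) ?_ fun s hs => ?_
        · exact ((contDiffOn_const.mul (((((contDiffOn_const.mul (cconj y0)).add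
            (contDiffOn_const.mul (cconj y1))).sub (contDiffOn_const.mul ((v1.mul G0).add
            ((cconj v2).mul F0)))).add (s0.mul G1)).add (contDiffOn_const.mul G0))).sub
            (contDiffOn_const.mul G1)).mul ((contDiffOn_const.mul s0).inv s1)
        · rw [← div_eq_mul_inv, eq_div_iff (s1 s hs), ← h.eG s hs, FreeG]
          linear_combination (4 * s * deriv (deriv G) s + (24 + 4 * (l : ℂ)) * deriv G s) * I_sq
  exact ⟨contDiffOn_infty.2 fun n => (key n).1.of_le (by exact_mod_cast Nat.le_succ n),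
    contDiffOn_infty.2 fun n => (key n).2.of_le (by exact_mod_cast Nat.le_succ n)⟩

theorem s_crude : S_crude := by
  intro l f hf
  have h : ∀ k : Fin 49, ∃ B : ℝ, ∀ s : ℝ, 1 ≤ s →
      ‖iteratedDeriv k (hh f 0 l) s‖ * √s ^ (l + k) ≤ B := fun k => hh_bd hf k 0 l (by omega)
  choose B hB using h
  refine ⟨∑ k, B k ^ 2, fun k hk s hs => ?_⟩
  have e : toS l f = hh f 0 l := by
    funext s
    simp [toS, hh]
  have h1 := hB ⟨k, by omega⟩ s hs
  have h2 : (‖iteratedDeriv k (hh f 0 l) s‖ * √s ^ (l + k)) ^ 2 ≤ B ⟨k, by omega⟩ ^ 2 := by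
    gcongr
  rw [mul_pow, ← pow_mul, mul_comm (l + k), pow_mul, Real.sq_sqrt (by linarith)] at h2
  rw [e]
  exact h2.trans (Finset.single_le_sum (f := fun k => B k ^ 2) (fun _ _ => sq_nonneg _)
    (Finset.mem_univ _))

end P139
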