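import Vale.Agent.P139.MBEDefs

/-! P139 part MB: uniform symbol bounds on the sources. -/

open Complex Set Filter Topology MeasureTheory
open scoped ContDiff ComplexConjugate

noncomputable section
namespace P139
namespace MBEsrc

theorem smooth_iter {Θ : ℝ → ℂ} (h : ContDiffOn ℝ ∞ Θ (Ioi 0)) (k : ℕ) :
    ContDiffOn ℝ ∞ (iteratedDeriv k Θ) (Ioi 0) := by
  induction k with
  | zero => simpa using h
  | succ k ih =>
    rw [iteratedDeriv_succ]
    exact ih.deriv_of_isOpen isOpen_Ioi (by simp)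

theorem hasD {Θ : ℝ → ℂ} (h : ContDiffOn ℝ ∞ Θ (Ioi 0)) (k : ℕ) {s : ℝ} (hs : 0 < s) :
    HasDerivAt (iteratedDeriv k Θ) (iteratedDeriv (k + 1) Θ s) s := by
  rw [iteratedDeriv_succ]
  exact (((smooth_iter h k).contDiffAt (Ioi_mem_nhds hs)).differentiableAt (by simp)).hasDerivAt

theorem iter_eq {Θ : ℝ → ℂ} (h : ContDiffOn ℝ ∞ Θ (Ioi 0)) (a : ℂ) (k : ℕ) : ∀ s : ℝ, 0 < s →
    iteratedDeriv k (fun s : ℝ => a * Θ s + s * deriv Θ s) s =
      (a + k) * iteratedDeriv k Θ s + s * iteratedDeriv (k + 1) Θ s := by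
  induction k with
  | zero =>
    intro s _
    simp
  | succ k ih =>
    intro s hs
    have d0 : HasDerivAt (fun t : ℝ => (t : ℂ)) 1 s := Complex.ofRealCLM.hasDerivAt
    have d1 := ((hasD h k hs).const_mul (a + k)).fun_add (d0.fun_mul (hasD h (k + 1) hs))
    have e : iteratedDeriv k (fun s : ℝ => a * Θ s + s * deriv Θ s) =ᶠ[𝓝 s]
        fun s : ℝ => (a + k) * iteratedDeriv k Θ s + s * iteratedDeriv (k + 1) Θ s := by
      filter_upwards [Ioi_mem_nhds hs] with t ht
      exact ih t ht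
    rw [iteratedDeriv_succ, e.deriv_eq, d1.deriv]
    push_cast
    ring

theorem unif (D : FreeData) (L : Lim D) : ∃ K : ℝ, 0 ≤ K ∧ ∀ᶠ j in atTop, ∀ k ≤ 49, ∀ s : ℝ,
    (L.R + 1) ^ 2 ≤ s → ‖iteratedDeriv k (L.P j).Θ s‖ * s ^ k ≤ K := by
  choose C hC using L.ext_symb 1 one_pos
  refine ⟨∑ k ∈ Finset.range 50, |C k|, Finset.sum_nonneg fun _ _ => abs_nonneg _, ?_⟩
  filter_upwards [(eventually_all_finset (Finset.range 50)).2 fun k _ => hC k] with j hj k hk s hs
  have hk' : k ∈ Finset.range 50 := Finset.mem_range.2 (by omega)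
  have hs1 : 1 ≤ s := by nlinarith [L.R_pos]
  have hs0 : 0 < s := by linarith
  have hg : 0 ≤ gam (L.m j) := by
    unfold gam
    positivity
  have h1 : s ^ (-(gam (L.m j)) - (k : ℝ)) * s ^ k ≤ 1 := by
    rw [← Real.rpow_natCast, ← Real.rpow_add hs0]
    exact Real.rpow_le_one_of_one_le_of_nonpos hs1 (by linarith)
  have h2 := (hj k hk' s hs).trans
    (mul_le_mul_of_nonneg_right (le_abs_self _) (Real.rpow_nonneg hs0.le _))
  calc _ ≤ |C k| * s ^ (-(gam (L.m j)) - (k : ℝ)) * s ^ k := by gcongr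
    _ ≤ |C k| := by
        rw [mul_assoc]
        exact mul_le_of_le_one_right (abs_nonneg _) h1
    _ ≤ _ := Finset.single_le_sum (f := fun k => |C k|) (fun _ _ => abs_nonneg _) hk'

theorem sq_bd {x s B : ℝ} {k : ℕ} (hx : 0 ≤ x) (hs : 0 ≤ s) (h : x * s ^ k ≤ B) :
    x ^ 2 * s ^ (2 * k) ≤ B ^ 2 := by
  rw [pow_mul', ← mul_pow]
  exact pow_le_pow_left₀ (by positivity) h 2

end MBEsrc

open MBEsrc in
theorem s_src : S_src := by
  intro D L
  obtain ⟨K, hK, h⟩ := unif D L
  refine ⟨(51 * K) ^ 2, by positivity, ?_⟩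
  have hb : ∀ᶠ j in atTop, |(L.P j).β| < 1 := by
    refine L.β_lim.abs.eventually (gt_mem_nhds ?_)
    have h1 := L.hβ.1
    have h2 := L.hβ.2
    obtain ⟨h3, _, h4⟩ := D.hβ
    rw [abs_lt]
    constructor <;> linarith
  filter_upwards [h, hb] with j hj hb l k hk s hs
  have hs1 : 1 ≤ s := by nlinarith [L.R_pos]
  have hs0 : 0 < s := by linarith
  have hsm : ContDiffOn ℝ ∞ (L.P j).Θ (Ioi 0) :=
    (L.P j).smooth.mono (Ioi_subset_Ioi (by linarith [(L.P j).hε]))
  have b0 := hj k (by omega) s hs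
  have b1 := hj (k + 1) (by omega) s hs
  have hz : ‖iteratedDeriv k (fun _ : ℝ => (0 : ℂ)) s‖ ^ 2 * s ^ (l + 2 * k) ≤ (51 * K) ^ 2 := by
    rw [iteratedDeriv_fun_const_zero]
    simp only [norm_zero, ne_eq, OfNat.ofNat_ne_zero, not_false_eq_true, zero_pow, zero_mul]
    positivity
  unfold Prof.Y0 Prof.Y1 y0
  by_cases h0 : l = 0
  · subst h0
    simp only [if_true, zero_add]
    refine ⟨sq_bd (norm_nonneg _) hs0.le ?_, sq_bd (norm_nonneg _) hs0.le ?_⟩
    · rw [show (fun t => I * (L.P j).Θ t) = fun t => I • (L.P j).Θ t from rfl,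
        iteratedDeriv_fun_const_smul_field, norm_smul, norm_I, one_mul]
      linarith
    · rw [iter_eq hsm _ k s hs0]
      have hg : |gam (L.m j)| ≤ 1 := by
        have : (1 : ℝ) ≤ L.m j := by exact_mod_cast L.m_pos j
        unfold gam
        rw [abs_of_nonneg (by positivity), div_le_one (by positivity)]
        linarith
      have ha : ‖(gam (L.m j) : ℂ) - I * (L.P j).β + k‖ ≤ 50 := by
        have a1 := norm_add_le ((gam (L.m j) : ℂ) - I * (L.P j).β) k
        have a2 := norm_sub_le (gam (L.m j) : ℂ) (I * (L.P j).β)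
        have a3 : (k : ℝ) ≤ 48 := by exact_mod_cast hk
        rw [norm_mul, norm_I, one_mul, norm_real, norm_real, Real.norm_eq_abs,
          Real.norm_eq_abs] at a2
        rw [Complex.norm_natCast] at a1
        linarith
      have a4 := norm_add_le (((gam (L.m j) : ℂ) - I * (L.P j).β + k) * iteratedDeriv k (L.P j).Θ s)
        (s * iteratedDeriv (k + 1) (L.P j).Θ s)
      rw [norm_mul, norm_mul, norm_real, Real.norm_of_nonneg hs0.le] at a4
      have a5 := mul_le_mul_of_nonneg_right a4 (pow_pos hs0 k).le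
      have a6 := mul_le_mul ha b0 (by positivity) (by norm_num)
      rw [pow_succ] at b1
      nlinarith
  · simp only [if_neg h0]
    refine ⟨?_, hz⟩
    by_cases h1 : l = 1
    · subst h1
      simp only [if_true]
      rw [show (fun t => 2 * deriv (L.P j).Θ t) = fun t => (2 : ℂ) • deriv (L.P j).Θ t from rfl,
        iteratedDeriv_fun_const_smul_field, norm_smul, ← iteratedDeriv_succ']
      refine le_trans (mul_le_mul_of_nonneg_left (pow_le_pow_right₀ hs1
        (by omega : 1 + 2 * k ≤ 2 * (k + 1))) (by positivity)) (sq_bd (by positivity) hs0.le ?_)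
      rw [mul_assoc, Complex.norm_two]
      linarith
    · simp only [if_neg h1]
      exact hz

end P139
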