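import Vale.Agent.P139.MBEDefs

/-! P139 part MB: the level system of an admissible solution. -/

open Complex Set Filter Topology MeasureTheory
open scoped ContDiff ComplexConjugate

noncomputable section
namespace P139
namespace MBEtoL

theorem it_conj (u : ℝ → ℂ) (k : ℕ) :
    iteratedDeriv k (fun s => conj (u s)) = fun s => conj (iteratedDeriv k u s) := by
  induction k with
  | zero => simp
  | succ k ih =>
    rw [iteratedDeriv_succ, iteratedDeriv_succ, ih]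
    exact deriv.star' (f := iteratedDeriv k u)

theorem sm_conj {u : ℝ → ℂ} (h : ContDiffOn ℝ ∞ u (Ioi 0)) :
    ContDiffOn ℝ ∞ (fun s => conj (u s)) (Ioi 0) :=
  conjCLE.contDiff.comp_contDiffOn h

theorem hd {u : ℝ → ℂ} (h : ContDiffOn ℝ ∞ u (Ioi 0)) (k : ℕ) {x : ℝ} (hx : 0 < x) :
    HasDerivAt (iteratedDeriv k u) (iteratedDeriv (k + 1) u x) x := by
  have h1 := h.differentiableOn_iteratedDerivWithin (m := k)
    (by exact_mod_cast ENat.natCast_lt_top k) isOpen_Ioi.uniqueDiffOn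
  have h2 : DifferentiableOn ℝ (iteratedDeriv k u) (Ioi 0) :=
    h1.congr fun y hy => (iteratedDerivWithin_of_isOpen isOpen_Ioi hy).symm
  rw [iteratedDeriv_succ]
  exact (h2.differentiableAt (Ioi_mem_nhds hx)).hasDerivAt

theorem src {Y₀ Y₁ : ℝ → ℂ} (h0 : ContDiffOn ℝ ∞ Y₀ (Ioi 0)) (h1 : ContDiffOn ℝ ∞ Y₁ (Ioi 0))
    (a b : ℂ) (k : ℕ) {s p C : ℝ} (hs : 0 < s) (hp : 0 ≤ p)
    (e0 : ‖iteratedDeriv k Y₀ s‖ ^ 2 * p ≤ C) (e1 : ‖iteratedDeriv k Y₁ s‖ ^ 2 * p ≤ C) :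
    ‖iteratedDeriv k (fun s => -I * a * Y₀ s + -I * b * Y₁ s) s‖ ^ 2 * p ≤
      2 * C * (‖a‖ ^ 2 + ‖b‖ ^ 2) := by
  have c0 : ContDiffAt ℝ k Y₀ s := (h0.contDiffAt (Ioi_mem_nhds hs)).of_le (by exact_mod_cast le_top)
  have c1 : ContDiffAt ℝ k Y₁ s := (h1.contDiffAt (Ioi_mem_nhds hs)).of_le (by exact_mod_cast le_top)
  rw [iteratedDeriv_fun_add (contDiffAt_const.mul c0) (contDiffAt_const.mul c1),
    iteratedDeriv_const_mul _ c0, iteratedDeriv_const_mul _ c1]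
  generalize iteratedDeriv k Y₀ s = x at e0 ⊢
  generalize iteratedDeriv k Y₁ s = y at e1 ⊢
  have n1 : ‖-I * a * x + -I * b * y‖ ≤ ‖a‖ * ‖x‖ + ‖b‖ * ‖y‖ :=
    (norm_add_le _ _).trans (by simp)
  have n2 : ‖-I * a * x + -I * b * y‖ ^ 2 ≤ 2 * (‖a‖ ^ 2 * ‖x‖ ^ 2 + ‖b‖ ^ 2 * ‖y‖ ^ 2) := by
    refine (pow_le_pow_left₀ (norm_nonneg _) n1 2).trans ?_
    nlinarith [sq_nonneg (‖a‖ * ‖x‖ - ‖b‖ * ‖y‖)]
  have n3 := mul_le_mul_of_nonneg_right n2 hp
  have n4 := mul_le_mul_of_nonneg_left e0 (sq_nonneg ‖a‖)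
  have n5 := mul_le_mul_of_nonneg_left e1 (sq_nonneg ‖b‖)
  nlinarith

theorem levm_conj (l : ℕ) (u : ℝ → ℂ) (j : ℕ) (s : ℝ) :
    levm l (fun k => iteratedDeriv k fun s => conj (u s)) j s =
      levm l (fun k => iteratedDeriv k u) j s := by
  simp only [levm, it_conj, norm_conj]

theorem levm0 (l : ℕ) (X : ℕ → ℝ → ℂ) (j : ℕ) {s : ℝ} (hs : 0 ≤ s) : 0 ≤ levm l X j s := by
  unfold levm
  positivity

theorem free_eq (β γ : ℝ) (l : ℕ) (lam : ℂ) (F : ℝ → ℂ) (s : ℝ) :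
    FreeF β l (lam + γ) F s =
      I * levT l (lam.re + γ) (lam.im - β) (fun k => iteratedDeriv k F) 0 s := by
  have e2 : iteratedDeriv (0 + 2) F = deriv (deriv F) := by
    rw [zero_add, iteratedDeriv_succ, iteratedDeriv_one]
  have e1 : iteratedDeriv (0 + 1) F = deriv F := iteratedDeriv_one
  simp only [FreeF, levT, e2, e1, iteratedDeriv_zero]
  push_cast
  have h := re_add_im lam
  linear_combination (F s) * h + (-(s * deriv F s) -
    ((lam.re : ℂ) + γ + l / 2 + I * (lam.im - β)) * F s) * I_mul_I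

theorem free_conj (β γ : ℝ) (l : ℕ) (lam : ℂ) (G : ℝ → ℂ) (s : ℝ) :
    conj (FreeG β l (lam + γ) G s) = FreeF β l (conj lam + γ) (fun s => conj (G s)) s := by
  have e1 : deriv (fun s => conj (G s)) = fun s => conj (deriv G s) := deriv.star' (f := G)
  have e2 : deriv (fun s => conj (deriv G s)) = fun s => conj (deriv (deriv G) s) :=
    deriv.star' (f := deriv G)
  simp only [FreeF, FreeG, e1, e2, map_sub, map_mul, map_add, map_neg, conj_I, conj_ofReal,
    map_ofNat, map_natCast, map_div₀]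
  ring

theorem V1_conj {m : ℕ} (P : Prof m) (s : ℝ) : conj (P.V1s s) = P.V1s s := by
  simp only [Prof.V1s, map_mul, map_add, map_pow, map_natCast, map_one, conj_conj]
  rw [mul_comm (conj (P.Θ s))]

end MBEtoL

open MBEtoL in
theorem s_toL (h1 : S_seq) (h2 : S_ext) (h3 : S_smo) (h4 : S_crude) (h5 : S_src) (h6 : S_leib) :
    S_toL := by
  intro D L
  obtain ⟨C₅, hC₅, e5⟩ := h5 D L
  obtain ⟨C₆, hC₆, e6⟩ := h6
  refine ⟨4 * C₅, by positivity, fun ε hε => ?_⟩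
  obtain ⟨ε', hε', hεε⟩ : ∃ ε' : ℝ, 0 < ε' ∧ C₆ * ε' ^ 2 ≤ ε := by
    refine ⟨√(ε / (C₆ + 1)), Real.sqrt_pos.2 (by positivity), ?_⟩
    rw [Real.sq_sqrt (by positivity), ← mul_div_assoc, div_le_iff₀ (by positivity)]
    nlinarith
  have hR := L.R_pos
  have hs1 : (1 : ℝ) ≤ (L.R + 1) ^ 2 := by nlinarith
  filter_upwards [e5, h2 D L 1 one_pos 48 ε' hε'] with j e5 e2 l lam c₀ c₁ f g hre hS
  obtain ⟨q1, -, -, sV1, sV2, sY0, sY1⟩ := h1 _ (L.P j) l
  have hE := q1 lam c₀ c₁ f g hS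
  obtain ⟨sF, sG⟩ := h3 _ _ l lam c₀ c₁ _ _ hE
  obtain ⟨B₁, hB₁⟩ := h4 l f hS.af
  obtain ⟨B₂, hB₂⟩ := h4 l g hS.ag
  generalize toS l f = F at *
  generalize toS l g = G at *
  have key : ∀ (w : ℝ) (a b : ℂ) (U W : ℝ → ℂ), ContDiffOn ℝ ∞ U (Ioi 0) →
      ContDiffOn ℝ ∞ W (Ioi 0) → ‖a‖ = ‖c₀‖ → ‖b‖ = ‖c₁‖ →
      (∀ s, 0 < s → I * levT l (lam.re + gam (L.m j)) w (fun k => iteratedDeriv k U) 0 s -
        I * ((L.P j).V1s s * U s + (L.P j).V2s s * W s) =
          a * (L.P j).Y0 l s + b * (L.P j).Y1 l s) →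
      ∀ k ≤ 48, ∀ s, (L.R + 1) ^ 2 ≤ s →
        ‖levT l (lam.re + gam (L.m j)) w (fun k => iteratedDeriv k U) k s‖ ^ 2 * s ^ (l + k + 5) ≤
          ε * ∑ i ∈ Finset.range (k + 1), (levm l (fun k => iteratedDeriv k U) i s +
            levm l (fun k => iteratedDeriv k W) i s) / s ^ (k - i + 2) +
            4 * C₅ * (‖c₀‖ ^ 2 + ‖c₁‖ ^ 2) * s ^ 5 / s ^ k := by
    intro w a b U W sU sW ha hb he k hk s hs
    have hs0 : 0 < s := by linarith
    have r := e6 l _ w ε' (2 * C₅ * (‖a‖ ^ 2 + ‖b‖ ^ 2)) U W _ _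
      (fun s => -I * a * (L.P j).Y0 l s + -I * b * (L.P j).Y1 l s) sU sW sV1 sV2
      ((contDiffOn_const.mul sY0).add (contDiffOn_const.mul sY1))
      (fun s hs => by
        linear_combination (-I) * he s hs + (levT l (lam.re + gam (L.m j)) w
          (fun k => iteratedDeriv k U) 0 s - ((L.P j).V1s s * U s + (L.P j).V2s s * W s)) * I_mul_I)
      k hk s (hs1.trans hs) (fun i hi => e2 i (hi.trans hk) s hs)
      (src sY0 sY1 a b k hs0 (by positivity) (e5 l k hk s hs).1 (e5 l k hk s hs).2)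
    refine r.trans (add_le_add (mul_le_mul_of_nonneg_right hεε (Finset.sum_nonneg fun i _ =>
      div_nonneg (add_nonneg (levm0 _ _ _ hs0.le) (levm0 _ _ _ hs0.le)) (by positivity)))
      (le_of_eq ?_))
    rw [ha, hb]
    ring
  refine ⟨⟨l, lam.re + gam (L.m j), (L.R + 1) ^ 2, ε, 4 * C₅ * (‖c₀‖ ^ 2 + ‖c₁‖ ^ 2),
    fun i => cond i (-lam.im - (L.P j).β) (lam.im - (L.P j).β),
    fun i => cond i (fun k => iteratedDeriv k fun s => conj (G s)) (fun k => iteratedDeriv k F),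
    add_nonneg hre (by unfold gam; positivity), hs1, hε.le, by positivity, ?_, ?_, ?_⟩,
    rfl, rfl, rfl, rfl, rfl, rfl, rfl, fun k s => ⟨rfl, congrFun (it_conj G k) s⟩⟩
  · intro i k s hs
    cases i
    · exact hd sF k hs
    · exact hd (sm_conj sG) k hs
  · intro i k hk s hs
    cases i
    · simp only [cond_true, cond_false, levm_conj]
      exact key _ c₀ c₁ F G sF sG rfl rfl (fun s hs => free_eq _ _ l lam F s ▸ hE.eF s hs) k hk s hs
    · have r := key (-lam.im - (L.P j).β) (conj c₀) (conj c₁) (fun s => conj (G s))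
        (fun s => conj (F s)) (sm_conj sG) (sm_conj sF) (norm_conj _) (norm_conj _)
        (fun s hs => by
          have e := congrArg conj (hE.eG s hs)
          rw [map_add, free_conj, free_eq] at e
          simp only [map_mul, map_add, conj_I, conj_conj, V1_conj, conj_re, conj_im] at e
          linear_combination e) k hk s hs
      simp only [cond_true, cond_false, levm_conj] at r ⊢
      simpa only [add_comm (levm l (fun k => iteratedDeriv k G) _ s)] using r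
  · refine ⟨max B₁ B₂, fun i k hk s hs => ?_⟩
    cases i
    · exact (hB₁ k hk s (hs1.trans hs)).trans (le_max_left _ _)
    · simp only [cond_true, it_conj, norm_conj]
      exact (hB₂ k hk s (hs1.trans hs)).trans (le_max_right _ _)

end P139
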