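import Vale.Agent.P139.MB
import Vale.Agent.P139.MBEe0
import Vale.Agent.P139.MBEhar
import Vale.Agent.P139.MBEe1
import Vale.Agent.P139.MBEfwd
import Vale.Agent.P139.MBEea
import Vale.Agent.P139.MBEJb
import Vale.Agent.P139.MBEo2a
import Vale.Agent.P139.MBEsmo
import Vale.Agent.P139.MBEsrc
import Vale.Agent.P139.MBEleib
import Vale.Agent.P139.MBEtoL
import Vale.Agent.P139.MBErs
import Vale.Agent.P139.MBEo

/-! P139 part M: mode stability along the sequence of profiles. -/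

namespace P139

theorem mb_toL : S_toL := s_toL s_seq s_ext (s_smo s_seq) s_crude s_src s_leib

theorem mb_e1 : S_e1 := s_e1 s_e0 (s_har s_e0)

theorem s_partM : PartM :=
  ma_partM
    (mb_B (s_E0 mb_toL s_e0 (s_rs s_seq)) (s_O1 mb_toL (s_rs s_seq) (s_o1a mb_e1 s_fwd s_bwd))
      (s_O2 mb_toL (s_rs s_seq) (s_o2a mb_e1 s_bwd (s_Jb s_fwd))))
    (s_E mb_toL (s_ea mb_e1 s_fwd))

end P139
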