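import Vale.Agent.P139.Defs

/-! P139 part MI: the numerical statements, at the level of the towers of boundary data. -/

open Complex Set
open scoped ComplexConjugate

noncomputable section
namespace P139

/-- the outer box for `β` and `s₀` -/
def Bx (β s : ℝ) : Prop :=
  33476 / 100000 ≤ β ∧ β ≤ 33479 / 100000 ∧ 108200 / 10000 ≤ s ∧ s ≤ 108206 / 10000

/-- the flux form -/
def fl (s : ℝ) (p q : ℂ) : ℝ := (conj p * q).im + s / 8 * ‖p‖ ^ 2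

/-- tower of data `u_k`, `s u_k'` at `s` of a good solution with parameter `a` -/
structure Tow (a : ℂ) (l : ℕ) (s : ℝ) (p q : ℕ → ℂ) : Prop where
  hp : ∀ k : ℕ, p (k + 1) = q k + (a + k) * p k
  hq : ∀ k : ℕ, q (k + 1) = (a + k - (l + 5) - I * s / 4) * p (k + 1)
    - (a + k) * (a + k - (l + 5)) * p k
  hf : ∀ K : ℕ, 7 ≤ K → K ≤ 20 → 0 ≤ fl s (p K) (q K) ∧ (p K = 0 → q K = 0)

/-- tower of a good solution with a source whose tower is `P`, `Q`, parameter `a₀` -/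
structure TowS (a a₀ : ℂ) (l : ℕ) (s : ℝ) (p q P Q : ℕ → ℂ) : Prop where
  h0 : Tow a₀ l s P Q
  hp : ∀ k : ℕ, p (k + 1) = P k + q k + (a + k) * p k
  hq : ∀ k : ℕ, q (k + 1) = (a + k - (l + 5) - I * s / 4) * p (k + 1)
    - (a + k) * (a + k - (l + 5)) * p k + Q k - (a + k - (l + 5)) * P k
  hf : ∀ K : ℕ, 7 ≤ K → K ≤ 20 → 0 ≤ 4 * (a.re - l / 2 + K - 3) * (a₀.re - l / 2 + K - 3) *
    fl s (p K) (q K) + fl s (P K) (Q K)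

/-- the closed square of half-width `1/8` around the real point `c` -/
def Sq (c : ℝ) (lam : ℂ) : Prop := |lam.re - c| ≤ 1 / 8 ∧ |lam.im| ≤ 1 / 8

/-- the squares around the three roots -/
def Near (l : ℕ) (lam : ℂ) : Prop :=
  (l = 0 ∧ (Sq 0 lam ∨ Sq 1 lam)) ∨ (l = 1 ∧ Sq (1 / 2) lam)

/-- disc certificate: no eigenvalue in the compact region away from the roots
(by the symmetry `lam ↦ conj lam` only `0 ≤ lam.im` is needed) -/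
def S_far : Prop := ∀ β s : ℝ, Bx β s → ∀ l : ℕ, l ≤ 4 → ∀ lam : ℂ, 0 ≤ lam.re → lam.re ≤ 5 / 2 →
  0 ≤ lam.im → lam.im ≤ 5 → ¬ Near l lam → ∀ p q p' q' : ℕ → ℂ,
    Tow (lam - I * β + (l : ℂ) / 2) l s p q → Tow (conj lam - I * β + (l : ℂ) / 2) l s p' q' →
    p 0 + conj (p' 0) = 0 → q 0 = conj (q' 0) → p 0 = 0 ∧ q 0 = 0

/-- Miranda certificate -/
def S_mir : Prop := ∃ x₁ x₂ β₁ β₂ μ : ℝ, x₁ < x₂ ∧ β₁ < β₂ ∧ Bx β₁ (4 * x₁) ∧ Bx β₂ (4 * x₂) ∧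
  ∀ β ∈ Icc β₁ β₂, ∀ x ∈ Icc x₁ x₂, ∀ p q : ℕ → ℂ, Tow (-(I * β)) 0 (4 * x) p q →
    (p 0 = 0 → q 0 = 0) ∧ (p 0 ≠ 0 →
      (x = x₁ → 0 < (q 0 / p 0).re - μ * (q 0 / p 0).im) ∧
      (x = x₂ → (q 0 / p 0).re - μ * (q 0 / p 0).im < 0) ∧
      (β = β₁ → 0 < (q 0 / p 0).im) ∧ (β = β₂ → (q 0 / p 0).im < 0))

/-- near the roots with `l = 0` -/
def S_near0 : Prop := ∀ β s : ℝ, Bx β s → ∀ c : ℝ, c = 0 ∨ c = 1 → ∀ lam : ℂ, 0 ≤ lam.re →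
  Sq c lam →
  (∀ p q : ℕ → ℂ, Tow (lam - I * β) 0 s p q → p 0 = 0 → q 0 = 0) ∧
  ∀ p q P Q : ℕ → ℂ, TowS (lam - I * β) (c - I * β) 0 s p q P Q → p 0 = 0 →
    ∃ d : ℂ, 0 < (1 - 2 * c) * d.re ∧ q 0 = d * P 0

/-- near the root with `l = 1` -/
def S_near1 : Prop := ∀ β s : ℝ, Bx β s → ∀ lam : ℂ, Sq (1 / 2) lam →
  (∀ p q : ℕ → ℂ, Tow (lam - I * β + 1 / 2) 1 s p q → q 0 = 0 → p 0 = 0) ∧
  ∀ p q P Q : ℕ → ℂ, TowS (lam - I * β + 1 / 2) (1 - I * β) 1 s p q P Q → P 0 = 0 → q 0 = 0 →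
    ∃ d : ℂ, d.re < 0 ∧ p 0 = d * Q 0

end P139
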