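import Mathlib

/-! P139 part MI: polynomial inequalities on the lines. -/

noncomputable section
namespace P139
namespace MIL

/-- `Re (m V(r))`, `r = X + iY`, `m = m₁ + i m₂` -/
def POT (ν m₁ m₂ ω η X Y : ℝ) : ℝ :=
  ν * (m₁ * (X ^ 2 - Y ^ 2) + m₂ * (2 * X * Y)) / (X ^ 2 + Y ^ 2) ^ 2
    + (-(m₁ * (X ^ 2 - Y ^ 2) - m₂ * (2 * X * Y)) / 16 + ω * m₁ - η * m₂)

theorem div_lb {ν ν₀ Q Q' N N₂ Z Z' : ℝ} (hν : ν₀ ≤ ν) (h0 : 0 ≤ ν₀) (hQ : Q' ≤ Q) (hQ0 : 0 ≤ Q')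
    (hN : 0 < N) (hN2 : N ≤ N₂) (hZ : Z' ≤ Z) (h : 0 ≤ ν₀ * Q' + N₂ ^ 2 * Z') :
    0 ≤ ν * Q / N ^ 2 + Z := by
  have h1 : ν₀ * Q' / N₂ ^ 2 ≤ ν * Q / N ^ 2 := by
    have := h0.trans hν
    have := hQ0.trans hQ
    gcongr
  have h2 : 0 < N₂ ^ 2 := pow_pos (hN.trans_le hN2) 2
  have h3 : -Z' ≤ ν₀ * Q' / N₂ ^ 2 := by rw [le_div_iff₀ h2]; linarith
  linarith

theorem div_lb' {ν ν₁ Q Q' N N₁ Z Z' : ℝ} (hν : ν ≤ ν₁) (h0 : 0 ≤ ν) (hQ : Q' ≤ Q) (hQ0 : Q' ≤ 0)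
    (hN : 0 < N₁) (hN2 : N₁ ≤ N) (hZ : Z' ≤ Z) (h : 0 ≤ ν₁ * Q' + N₁ ^ 2 * Z') :
    0 ≤ ν * Q / N ^ 2 + Z := by
  have h1 : ν * (-Q') / N ^ 2 ≤ ν₁ * (-Q') / N₁ ^ 2 := by
    have := h0.trans hν
    have := neg_nonneg.2 hQ0
    gcongr
  have h2 : 0 < N₁ ^ 2 := pow_pos hN 2
  have h3 : ν₁ * (-Q') / N₁ ^ 2 ≤ Z' := by rw [div_le_iff₀ h2]; linarith
  have h4 : ν * Q' / N ^ 2 ≤ ν * Q / N ^ 2 := by gcongr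
  have h5 : ν * (-Q') / N ^ 2 = -(ν * Q' / N ^ 2) := by ring
  linarith

theorem bern {a b t : ℝ} (h1 : a ≤ t) (h2 : t ≤ b) : 0 ≤ (b - t) ^ 6 ∧ 0 ≤ (t - a) * (b - t) ^ 5 ∧
    0 ≤ (t - a) ^ 2 * (b - t) ^ 4 ∧ 0 ≤ (t - a) ^ 3 * (b - t) ^ 3 ∧ 0 ≤ (t - a) ^ 4 * (b - t) ^ 2 ∧
    0 ≤ (t - a) ^ 5 * (b - t) ∧ 0 ≤ (t - a) ^ 6 := by
  have := sub_nonneg.2 h1
  have := sub_nonneg.2 h2
  refine ⟨?_, ?_, ?_, ?_, ?_, ?_, ?_⟩ <;> positivity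

theorem tail {a t : ℝ} (h1 : a ≤ t) : 0 ≤ t - a ∧ 0 ≤ (t - a) ^ 2 ∧ 0 ≤ (t - a) ^ 3 ∧
    0 ≤ (t - a) ^ 4 ∧ 0 ≤ (t - a) ^ 5 ∧ 0 ≤ (t - a) ^ 6 := by
  have := sub_nonneg.2 h1
  refine ⟨?_, ?_, ?_, ?_, ?_, ?_⟩ <;> positivity

variable {R t ν ω η : ℝ}

/-- reduction on the line `p = (7+24i)/25`, `m = i` -/
theorem redF (h1 : 328 / 100 ≤ R) (h2 : R ≤ 33 / 10) (ht : 0 ≤ t) {ν₀ η₀ e : ℝ} (hν : ν₀ ≤ ν)
    (h0 : 0 ≤ ν₀) (hη : η ≤ η₀)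
    (h : 0 ≤ ν₀ * (2 * (328 / 100 + 7 / 25 * t) * (24 / 25 * t)) +
      (1089 / 100 + 231 / 125 * t + t ^ 2) ^ 2 *
        (2 * (328 / 100 + 7 / 25 * t) * (24 / 25 * t) / 16 - η₀ + e)) :
    0 ≤ POT ν 0 1 ω η (R + 7 / 25 * t) (24 / 25 * t) + e := by
  have a1 := mul_le_mul_of_nonneg_right h1 ht
  have a2 := mul_le_mul_of_nonneg_right h2 ht
  rw [POT, add_assoc]
  refine div_lb hν h0 (by nlinarith) (by positivity) (by positivity) (by nlinarith)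
    (by nlinarith) h

theorem potF1a (h1 : 328 / 100 ≤ R) (h2 : R ≤ 33 / 10) (ht : 0 ≤ t) (ht' : t ≤ 33 / 50)
    (hν : 399 / 4 ≤ ν) (hη : η ≤ 3) :
    0 ≤ POT ν 0 1 ω η (R + 7 / 25 * t) (24 / 25 * t) + 2 * (23 / 10) * (33 / 50 - t) := by
  refine redF h1 h2 ht hν (by norm_num) hη ?_
  obtain ⟨b0, b1, b2, b3, b4, b5, b6⟩ := bern ht ht'
  linarith

theorem potF1b (h1 : 328 / 100 ≤ R) (h2 : R ≤ 33 / 10) (ht : 33 / 50 ≤ t)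
    (hν : 399 / 4 ≤ ν) (hη : η ≤ 3) : 0 ≤ POT ν 0 1 ω η (R + 7 / 25 * t) (24 / 25 * t) := by
  have := redF (ω := ω) (e := 0) h1 h2 (by linarith : 0 ≤ t) hν (by norm_num) hη (by
    rcases le_total t (53 / 50) with h | h
    · obtain ⟨b0, b1, b2, b3, b4, b5, b6⟩ := bern ht h
      linarith
    · obtain ⟨b1, b2, b3, b4, b5, b6⟩ := tail h
      linarith)
  linarith

theorem potF3a (h1 : 328 / 100 ≤ R) (h2 : R ≤ 33 / 10) (ht : 0 ≤ t) (ht' : t ≤ 7 / 20)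
    (hν : 99 / 4 ≤ ν) (hη : η ≤ 1 / 2) :
    0 ≤ POT ν 0 1 ω η (R + 7 / 25 * t) (24 / 25 * t) + 2 * (3 / 4) * (7 / 20 - t) := by
  refine redF h1 h2 ht hν (by norm_num) hη ?_
  obtain ⟨b0, b1, b2, b3, b4, b5, b6⟩ := bern ht ht'
  linarith

theorem potF3b (h1 : 328 / 100 ≤ R) (h2 : R ≤ 33 / 10) (ht : 7 / 20 ≤ t)
    (hν : 99 / 4 ≤ ν) (hη : η ≤ 1 / 2) : 0 ≤ POT ν 0 1 ω η (R + 7 / 25 * t) (24 / 25 * t) := by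
  have := redF (ω := ω) (e := 0) h1 h2 (by linarith : 0 ≤ t) hν (by norm_num) hη (by
    obtain ⟨b1, b2, b3, b4, b5, b6⟩ := tail ht
    linarith)
  linarith

/-- reduction on the line `p = (3+4i)/5`, `m = (4+3i)/5` -/
theorem redG (h1 : 328 / 100 ≤ R) (h2 : R ≤ 33 / 10) (ht : 0 ≤ t) {ν₀ η₀ : ℝ} (hν : ν₀ ≤ ν)
    (h0 : 0 ≤ ν₀) (hη : η ≤ η₀) (hω : -(34 / 100) ≤ ω)
    (h : 0 ≤ ν₀ * (4 / 5 * (328 / 100) ^ 2 + 48 / 25 * (328 / 100) * t + 44 / 125 * t ^ 2) +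
      (1089 / 100 + 99 / 25 * t + t ^ 2) ^ 2 *
        (t ^ 2 / 20 - 1089 / 2000 - 34 / 125 - 3 / 5 * η₀)) :
    0 ≤ POT ν (4 / 5) (3 / 5) ω η (R + 3 / 5 * t) (4 / 5 * t) := by
  have a1 := mul_le_mul_of_nonneg_right h1 ht
  have a2 := mul_le_mul_of_nonneg_right h2 ht
  rw [POT]
  refine div_lb hν h0 (by nlinarith) (by positivity) (by positivity) (by nlinarith)
    (by nlinarith) h

theorem potG1 (h1 : 328 / 100 ≤ R) (h2 : R ≤ 33 / 10) (ht : 0 ≤ t)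
    (hν : 399 / 4 ≤ ν) (hη : η ≤ 3) (hω : -(34 / 100) ≤ ω) :
    0 ≤ POT ν (4 / 5) (3 / 5) ω η (R + 3 / 5 * t) (4 / 5 * t) := by
  refine redG h1 h2 ht hν (by norm_num) hη hω ?_
  rcases le_total t 5 with h | h
  · obtain ⟨b0, b1, b2, b3, b4, b5, b6⟩ := bern ht h
    linarith
  · obtain ⟨b1, b2, b3, b4, b5, b6⟩ := tail h
    linarith

theorem potG3 (h1 : 328 / 100 ≤ R) (h2 : R ≤ 33 / 10) (ht : 0 ≤ t)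
    (hν : 99 / 4 ≤ ν) (hη : η ≤ 1 / 2) (hω : -(34 / 100) ≤ ω) :
    0 ≤ POT ν (4 / 5) (3 / 5) ω η (R + 3 / 5 * t) (4 / 5 * t) := by
  refine redG h1 h2 ht hν (by norm_num) hη hω ?_
  rcases le_total t 3 with h | h
  · obtain ⟨b0, b1, b2, b3, b4, b5, b6⟩ := bern ht h
    linarith
  · obtain ⟨b1, b2, b3, b4, b5, b6⟩ := tail h
    linarith

theorem potG2 (h1 : 328 / 100 ≤ R) (h2 : R ≤ 33 / 10) (ht : 0 ≤ t)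
    (hν : 0 ≤ ν) (hη : η ≤ 3) (hω : 466 / 100 ≤ ω) :
    0 ≤ POT ν (24 / 25) (7 / 25) ω η (R + 3 / 5 * t) (4 / 5 * t) := by
  have a1 := mul_le_mul_of_nonneg_right h1 ht
  have a2 := mul_le_mul_of_nonneg_right h2 ht
  rw [POT]
  refine div_lb (Q' := 0) (Z' := 0) hν le_rfl (by nlinarith) le_rfl (by positivity) le_rfl
    (by nlinarith [sq_nonneg (t - 2)]) (by simp)

theorem potF2 (h1 : 328 / 100 ≤ R) (h2 : R ≤ 33 / 10) (ht : 0 ≤ t) (hν0 : 0 ≤ ν)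
    (hν : ν ≤ 323 / 4) (hη : η ≤ 3) (hω : ω ≤ -(533 / 100)) {e : ℝ}
    (he : (t ≤ 77 / 100 ∧ e = 2 * (9 / 4) * (77 / 100 - t)) ∨ (77 / 100 ≤ t ∧ e = 0)) :
    0 ≤ POT ν (-84 / 205) (187 / 205) ω η (R + 9 / 41 * t) (40 / 41 * t) + e := by
  have a1 := mul_le_mul_of_nonneg_right h1 ht
  have a2 := mul_le_mul_of_nonneg_right h2 ht
  have a3 : (328 / 100) ^ 2 ≤ R ^ 2 := by gcongr
  have a4 : R ^ 2 ≤ (33 / 10) ^ 2 := by gcongr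
  have a5 := sq_nonneg t
  rw [POT, add_assoc]
  rcases le_total 0 (-84 / 205 * (33 / 10) ^ 2 + 8 / 5 * (328 / 100) * t + 156 / 205 * t ^ 2)
    with hQ | hQ
  · refine div_lb (Z' := 0) hν0 le_rfl (by linarith) hQ (by positivity) le_rfl ?_ (by simp)
    rcases he with ⟨h, rfl⟩ | ⟨h, rfl⟩ <;> linarith
  · rcases he with ⟨h, rfl⟩ | ⟨h, rfl⟩
    · refine div_lb' (N₁ := (328 / 100) ^ 2 + 18 / 41 * (328 / 100) * t + t ^ 2)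
        (Z' := 84 / 205 * (328 / 100) ^ 2 / 16 + 8236 / 8405 * (328 / 100) / 8 * t
          + 533 / 100 * (84 / 205) - 3 * (187 / 205) + 2 * (9 / 4) * (77 / 100 - t))
        hν hν0 (by linarith) hQ (by positivity) (by linarith) (by linarith) ?_
      obtain ⟨b0, b1, b2, b3, b4, b5, b6⟩ := bern ht h
      linarith
    · nlinarith

end MIL
end P139
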