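import Vale.Agent.P139.MILa
import Vale.Agent.P139.MILb

/-! P139 part MI: no limit eigenvalues for `l ≥ 5`, `Re λ ≥ 5/2` or `|Im λ| ≥ 5`. -/

open Complex Set Filter Topology MeasureTheory
open scoped ContDiff ComplexConjugate

noncomputable section
namespace P139
namespace MIL
open MIJ

theorem pot_eq (m a : ℂ) (n : ℝ) {r : ℂ} (hr : r ≠ 0) : (m * VV a n r).re =
    POT (n * (n - 1)) m.re m.im a.im (n / 2 + 1 / 4 - a.re) r.re r.im := by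
  have h1 : (n : ℂ) * (n - 1) / r ^ 2 = ((n * (n - 1) / normSq r ^ 2 : ℝ) : ℂ) * conj r ^ 2 := by
    have h2 : conj r ≠ 0 := (map_ne_zero _).2 hr
    push_cast
    rw [← mul_conj]
    field_simp
  have h3 : normSq r = r.re ^ 2 + r.im ^ 2 := by rw [normSq_apply]; ring
  rw [VV, h1, POT, h3]
  generalize (r.re ^ 2 + r.im ^ 2) ^ 2 = N
  simp only [add_re, add_im, mul_re, mul_im, sub_re, sub_im, ofReal_re, ofReal_im, conj_re, conj_im,
    div_ofNat_re, div_ofNat_im, pow_two, I_re, I_im, one_re, one_im]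
  ring

theorem pot_pt (μ a : ℂ) (n : ℝ) {R t : ℝ} {p : ℂ} (hR : 0 < R) (h0 : 0 ≤ p.re) (ht : 0 ≤ t) :
    (μ * p * VV a n (R + p * t)).re = POT (n * (n - 1)) (μ * p).re (μ * p).im a.im
      (n / 2 + 1 / 4 - a.re) (R + p.re * t) (p.im * t) := by
  have : (R + p * t : ℂ) ≠ 0 := fun h => by
    have h1 := pt_re R t p
    rw [h, zero_re] at h1
    nlinarith [mul_nonneg h0 ht]
  rw [pot_eq _ _ _ this, pt_re, pt_im]

theorem norm_one {x y : ℝ} (h : x ^ 2 + y ^ 2 = 1) : ‖(⟨x, y⟩ : ℂ)‖ = 1 := by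
  rw [← sq_eq_sq₀ (norm_nonneg _) zero_le_one, ← normSq_eq_norm_sq, normSq_mk]
  linarith

variable {a : ℂ} {n R : ℝ}

theorem lineF1 (ha : 0 ≤ a.re) (h1 : 328 / 100 ≤ R) (h2 : R ≤ 33 / 10)
    (hν : 399 / 4 ≤ n * (n - 1)) (hη : n / 2 + 1 / 4 - a.re ≤ 3) :
    ((⟨24 / 25, 7 / 25⟩ : ℂ) * vv a n R * conj (uu a n R)).re < 2 * ‖uu a n R‖ ^ 2 := by
  have m1 : ((⟨24 / 25, 7 / 25⟩ : ℂ) * ⟨7 / 25, 24 / 25⟩).re = 0 := by norm_num [mul_re]
  have m2 : ((⟨24 / 25, 7 / 25⟩ : ℂ) * ⟨7 / 25, 24 / 25⟩).im = 1 := by norm_num [mul_im]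
  have m3 : ((⟨24 / 25, 7 / 25⟩ : ℂ) * conj ⟨7 / 25, 24 / 25⟩).re = 336 / 625 := by
    norm_num [mul_re]
  refine (line_key (p := ⟨7 / 25, 24 / 25⟩) (t₀ := 33 / 50) (α := 23 / 10) (β := 2) (δ := 6) ha n
    (by linarith) (norm_one (by norm_num)) (by norm_num) (by norm_num) (by norm_num)
    (by rw [m2]; norm_num) (by rw [m3]; norm_num) (by norm_num) (by norm_num) (by norm_num)
    (by norm_num) (by rw [m3]; norm_num) (by rw [m3]; norm_num) (fun t ht ht' => ?_)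
    fun t ht => ?_).trans_le (by gcongr; norm_num)
  · rw [pot_pt _ _ _ (by linarith) (by norm_num) ht, m1, m2]
    exact potF1a h1 h2 ht ht' hν hη
  · rw [pot_pt _ _ _ (by linarith) (by norm_num) (by linarith), m1, m2]
    exact potF1b h1 h2 ht hν hη

theorem lineF3 (ha : 0 ≤ a.re) (h1 : 328 / 100 ≤ R) (h2 : R ≤ 33 / 10)
    (hν : 99 / 4 ≤ n * (n - 1)) (hη : n / 2 + 1 / 4 - a.re ≤ 1 / 2) :
    ((⟨24 / 25, 7 / 25⟩ : ℂ) * vv a n R * conj (uu a n R)).re < 2 * ‖uu a n R‖ ^ 2 := by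
  have m1 : ((⟨24 / 25, 7 / 25⟩ : ℂ) * ⟨7 / 25, 24 / 25⟩).re = 0 := by norm_num [mul_re]
  have m2 : ((⟨24 / 25, 7 / 25⟩ : ℂ) * ⟨7 / 25, 24 / 25⟩).im = 1 := by norm_num [mul_im]
  have m3 : ((⟨24 / 25, 7 / 25⟩ : ℂ) * conj ⟨7 / 25, 24 / 25⟩).re = 336 / 625 := by
    norm_num [mul_re]
  refine (line_key (p := ⟨7 / 25, 24 / 25⟩) (t₀ := 7 / 20) (α := 3 / 4) (β := 1) (δ := 0) ha n
    (by linarith) (norm_one (by norm_num)) (by norm_num) (by norm_num) (by norm_num)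
    (by rw [m2]; norm_num) (by rw [m3]; norm_num) (by norm_num) (by norm_num) (by norm_num)
    (by norm_num) (by rw [m3]; norm_num) (by rw [m3]; norm_num) (fun t ht ht' => ?_)
    fun t ht => ?_).trans_le (by gcongr; norm_num)
  · rw [pot_pt _ _ _ (by linarith) (by norm_num) ht, m1, m2]
    exact potF3a h1 h2 ht ht' hν hη
  · rw [pot_pt _ _ _ (by linarith) (by norm_num) (by linarith), m1, m2]
    exact potF3b h1 h2 ht hν hη

theorem lineF2 (ha : 0 ≤ a.re) (h1 : 328 / 100 ≤ R) (h2 : R ≤ 33 / 10) (hν0 : 0 ≤ n * (n - 1))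
    (hν : n * (n - 1) ≤ 323 / 4) (hη : n / 2 + 1 / 4 - a.re ≤ 3) (hω : a.im ≤ -(533 / 100)) :
    ((⟨4 / 5, 3 / 5⟩ : ℂ) * vv a n R * conj (uu a n R)).re < 5 / 2 * ‖uu a n R‖ ^ 2 := by
  have m1 : ((⟨4 / 5, 3 / 5⟩ : ℂ) * ⟨9 / 41, 40 / 41⟩).re = -84 / 205 := by norm_num [mul_re]
  have m2 : ((⟨4 / 5, 3 / 5⟩ : ℂ) * ⟨9 / 41, 40 / 41⟩).im = 187 / 205 := by norm_num [mul_im]
  have m3 : ((⟨4 / 5, 3 / 5⟩ : ℂ) * conj ⟨9 / 41, 40 / 41⟩).re = 156 / 205 := by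
    norm_num [mul_re]
  refine (line_key (p := ⟨9 / 41, 40 / 41⟩) (t₀ := 77 / 100) (α := 9 / 4) (β := 3 / 2) (δ := 3) ha n
    (by linarith) (norm_one (by norm_num)) (by norm_num) (by norm_num) (by norm_num)
    (by rw [m2]; norm_num) (by rw [m3]; norm_num) (by norm_num) (by norm_num) (by norm_num)
    (by norm_num) (by rw [m3]; norm_num) (by rw [m3]; norm_num) (fun t ht ht' => ?_)
    fun t ht => ?_).trans_le (by gcongr; norm_num)
  · rw [pot_pt _ _ _ (by linarith) (by norm_num) ht, m1, m2]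
    exact potF2 h1 h2 ht hν0 hν hη hω (Or.inl ⟨ht', rfl⟩)
  · rw [pot_pt _ _ _ (by linarith) (by norm_num) (by linarith), m1, m2]
    simpa using potF2 h1 h2 (by linarith) hν0 hν hη hω (Or.inr ⟨ht, rfl⟩)

theorem lineG {μ : ℂ} (ha : 0 ≤ a.re) (h1 : 328 / 100 ≤ R)
    (hm : 0 < (μ * ⟨3 / 5, 4 / 5⟩).im) (hc : 0 ≤ (μ * conj ⟨3 / 5, 4 / 5⟩).re)
    (hP : ∀ t : ℝ, 0 ≤ t → 0 ≤ POT (n * (n - 1)) (μ * ⟨3 / 5, 4 / 5⟩).re (μ * ⟨3 / 5, 4 / 5⟩).im a.im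
      (n / 2 + 1 / 4 - a.re) (R + 3 / 5 * t) (4 / 5 * t)) :
    (μ * vv a n R * conj (uu a n R)).re < 0 := by
  refine (line_key (p := ⟨3 / 5, 4 / 5⟩) (t₀ := 1) (α := 0) (β := 0) (δ := 0) ha n
    (by linarith) (norm_one (by norm_num)) (by norm_num) (by norm_num) (by norm_num)
    hm hc one_pos le_rfl le_rfl le_rfl (by simp) (by simp) (fun t ht _ => ?_)
    fun t ht => ?_).trans_le (by simp)
  · rw [pot_pt _ _ _ (by linarith) (by norm_num) ht]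
    simpa using hP t ht
  · rw [pot_pt _ _ _ (by linarith) (by norm_num) (by linarith)]
    exact hP t (by linarith)

theorem combine {μ uf vf ug vg : ℂ} {A k : ℝ} (hf : (μ * vf * conj uf).re < A * ‖uf‖ ^ 2)
    (hg : (conj μ * vg * conj ug).re < 0) (hA : A ≤ k * μ.re) :
    uf * conj vg + conj ug * vf ≠ k * (uf * conj ug) := by
  intro h
  have hug : ug ≠ 0 := fun h0 => by simp [h0] at hg
  have hp : 0 < ‖ug‖ ^ 2 := pow_pos (norm_pos_iff.2 hug) 2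
  have h1 := congrArg (fun z => (μ * conj uf * ug * z).re) h
  have e1 : (μ * conj uf * ug * (uf * conj vg + conj ug * vf)).re =
      ‖uf‖ ^ 2 * (conj μ * vg * conj ug).re + ‖ug‖ ^ 2 * (μ * vf * conj uf).re := by
    simp only [nsq_eq, add_re, add_im, mul_re, mul_im, conj_re, conj_im]
    ring
  have e2 : (μ * conj uf * ug * (k * (uf * conj ug))).re = k * μ.re * (‖uf‖ ^ 2 * ‖ug‖ ^ 2) := by
    simp only [nsq_eq, mul_re, mul_im, conj_re, conj_im, ofReal_re, ofReal_im]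
    ring
  simp only [e1, e2] at h1
  have h2 := mul_lt_mul_of_pos_left hf hp
  have h3 := mul_nonpos_of_nonneg_of_nonpos (sq_nonneg ‖uf‖) hg.le
  have h4 := mul_le_mul_of_nonneg_right hA (mul_nonneg (sq_nonneg ‖uf‖) hp.le)
  linarith

theorem can_uv (β : ℝ) (l : ℕ) {lam : ℂ} (h : 0 ≤ lam.re) (hR : 0 < R) :
    uu (aa β l lam) ((l + 11 / 2 : ℝ) : ℂ) R = Can β l lam (R ^ 2) ∧
    vv (aa β l lam) ((l + 11 / 2 : ℝ) : ℂ) R = 2 * R * deriv (Can β l lam) (R ^ 2)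
      + ee ((l + 11 / 2 : ℝ) : ℂ) R * Can β l lam (R ^ 2) := by
  have e1 : ((l + 11 / 2 : ℝ) : ℂ) + 1 / 2 = 6 + l := by push_cast; ring
  have e2 : (R : ℂ) ^ 2 / 4 = ((R ^ 2 / 4 : ℝ) : ℂ) := by push_cast; ring
  have h1 : uu (aa β l lam) ((l + 11 / 2 : ℝ) : ℂ) R = Can β l lam (R ^ 2) := by
    rw [uu, e1, e2]; rfl
  refine ⟨h1, ?_⟩
  rw [vv, h1, e1, e2, can_deriv β l h (pow_pos hR 2)]
  simp only [GG]
  ring

theorem aux {β : ℝ} (hβ : β ∈ Icc (33 / 100 : ℝ) (34 / 100)) (h1 : 328 / 100 ≤ R)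
    (h2 : R ≤ 33 / 10) {l : ℕ} {lam : ℂ} (h : 0 ≤ lam.re) (hω : lam.im ≤ 0)
    (hc : 5 ≤ l ∨ 5 / 2 ≤ lam.re ∨ lam.im ≤ -5) :
    Can β l lam (R ^ 2) * conj (deriv (Can β l (conj lam)) (R ^ 2))
      + conj (Can β l (conj lam) (R ^ 2)) * deriv (Can β l lam) (R ^ 2) ≠ 0 := by
  intro hD
  have hR : 0 < R := by linarith
  have h' : 0 ≤ (conj lam).re := h
  have l0 : (0 : ℝ) ≤ l := Nat.cast_nonneg l
  obtain ⟨uf, vf⟩ := can_uv β l h hR
  obtain ⟨ug, vg⟩ := can_uv β l h' hR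
  have af := aa_nn β l h
  have ag := aa_nn β l h'
  have ηf : (l + 11 / 2 : ℝ) / 2 + 1 / 4 - (aa β l lam).re = 3 - lam.re := by rw [aa_re]; ring
  have ηg : (l + 11 / 2 : ℝ) / 2 + 1 / 4 - (aa β l (conj lam)).re = 3 - lam.re := by
    rw [aa_re, conj_re]; ring
  have ωf : (aa β l lam).im = lam.im - β := aa_im _ _ _
  have ωg : (aa β l (conj lam)).im = -lam.im - β := by rw [aa_im, conj_im]
  have key : uu (aa β l lam) ((l + 11 / 2 : ℝ) : ℂ) R *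
      conj (vv (aa β l (conj lam)) ((l + 11 / 2 : ℝ) : ℂ) R)
      + conj (uu (aa β l (conj lam)) ((l + 11 / 2 : ℝ) : ℂ) R) *
        vv (aa β l lam) ((l + 11 / 2 : ℝ) : ℂ) R = ((2 * (l + 11 / 2) / R : ℝ) : ℂ) *
      (uu (aa β l lam) ((l + 11 / 2 : ℝ) : ℂ) R *
        conj (uu (aa β l (conj lam)) ((l + 11 / 2 : ℝ) : ℂ) R)) := by
    rw [uf, vf, ug, vg, ee]
    simp only [map_add, map_mul, map_div₀, conj_ofReal, conj_I, map_ofNat]
    push_cast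
    linear_combination 2 * R * hD
  have hk : ∀ A c : ℝ, 0 ≤ A → A * (33 / 10) ≤ 11 * c → 0 ≤ c → A ≤ 2 * (l + 11 / 2) / R * c :=
    fun A c hA hAc hc => by
      rw [div_mul_eq_mul_div, le_div_iff₀ hR]
      nlinarith [mul_nonneg l0 hc, mul_le_mul_of_nonneg_left h2 hA]
  have g1 : (conj (⟨24 / 25, 7 / 25⟩ : ℂ) * ⟨3 / 5, 4 / 5⟩).re = 4 / 5 := by norm_num [mul_re]
  have g2 : (conj (⟨24 / 25, 7 / 25⟩ : ℂ) * ⟨3 / 5, 4 / 5⟩).im = 3 / 5 := by norm_num [mul_im]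
  have g3 : 0 ≤ (conj (⟨24 / 25, 7 / 25⟩ : ℂ) * conj ⟨3 / 5, 4 / 5⟩).re := by norm_num [mul_re]
  have g4 : (conj (⟨4 / 5, 3 / 5⟩ : ℂ) * ⟨3 / 5, 4 / 5⟩).re = 24 / 25 := by norm_num [mul_re]
  have g5 : (conj (⟨4 / 5, 3 / 5⟩ : ℂ) * ⟨3 / 5, 4 / 5⟩).im = 7 / 25 := by norm_num [mul_im]
  have g6 : 0 ≤ (conj (⟨4 / 5, 3 / 5⟩ : ℂ) * conj ⟨3 / 5, 4 / 5⟩).re := by norm_num [mul_re]
  by_cases hl : 5 ≤ l
  · have l5 : (5 : ℝ) ≤ l := by exact_mod_cast hl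
    have hν : (399 / 4 : ℝ) ≤ (l + 11 / 2) * (l + 11 / 2 - 1) := by nlinarith
    refine combine (lineF1 af h1 h2 hν (by rw [ηf]; linarith))
      (lineG ag h1 (by rw [g2]; norm_num) g3 fun t ht => ?_)
      (hk _ _ (by norm_num) (by norm_num) (by norm_num)) key
    rw [g1, g2, ηg, ωg]
    exact potG1 h1 h2 ht hν (by linarith) (by linarith [hβ.2])
  by_cases hσ : 5 / 2 ≤ lam.re
  · have hν : (99 / 4 : ℝ) ≤ (l + 11 / 2) * (l + 11 / 2 - 1) := by nlinarith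
    refine combine (lineF3 af h1 h2 hν (by rw [ηf]; linarith))
      (lineG ag h1 (by rw [g2]; norm_num) g3 fun t ht => ?_)
      (hk _ _ (by norm_num) (by norm_num) (by norm_num)) key
    rw [g1, g2, ηg, ωg]
    exact potG3 h1 h2 ht hν (by linarith) (by linarith [hβ.2])
  have hω5 : lam.im ≤ -5 := (hc.resolve_left hl).resolve_left hσ
  have l4 : (l : ℝ) ≤ 4 := by exact_mod_cast (by omega : l ≤ 4)
  have hν0 : (0 : ℝ) ≤ (l + 11 / 2) * (l + 11 / 2 - 1) := by nlinarith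
  refine combine (lineF2 af h1 h2 hν0 (by nlinarith) (by rw [ηf]; linarith)
      (by rw [ωf]; linarith [hβ.1]))
    (lineG ag h1 (by rw [g5]; norm_num) g6 fun t ht => ?_)
    (hk _ _ (by norm_num) (by norm_num) (by norm_num)) key
  rw [g4, g5, ηg, ωg]
  exact potG2 h1 h2 ht hν0 (by linarith) (by linarith [hβ.2])

end MIL

theorem can_line {β s₀ : ℝ} (hβ : β ∈ Icc (33 / 100 : ℝ) (34 / 100))
    (hs : s₀ ∈ Icc (1076 / 100 : ℝ) (1089 / 100)) (l : ℕ) (lam : ℂ) (h : 0 ≤ lam.re)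
    (hc : 5 ≤ l ∨ 5 / 2 ≤ lam.re ∨ 5 ≤ |lam.im|) :
    Can β l lam s₀ * conj (deriv (Can β l (conj lam)) s₀)
      + conj (Can β l (conj lam) s₀) * deriv (Can β l lam) s₀ ≠ 0 := by
  have e : √s₀ ^ 2 = s₀ := Real.sq_sqrt (by linarith [hs.1])
  have h1 : 328 / 100 ≤ √s₀ := Real.le_sqrt_of_sq_le (by linarith [hs.1])
  have h2 : √s₀ ≤ 33 / 10 := Real.sqrt_le_iff.2 ⟨by norm_num, by linarith [hs.2]⟩
  rcases le_total lam.im 0 with hω | hω
  · have := MIL.aux hβ h1 h2 (l := l) h hω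
      (hc.imp_right fun h => h.imp_right fun h => by rw [abs_of_nonpos hω] at h; linarith)
    rwa [e] at this
  · have := MIL.aux hβ h1 h2 (l := l) (lam := conj lam) h (by rw [conj_im]; linarith)
      (hc.imp_right fun h => h.imp_right fun h => by
        rw [abs_of_nonneg hω] at h; rw [conj_im]; linarith)
    rw [e, conj_conj] at this
    intro hD
    refine this ?_
    have h3 := congrArg conj hD
    simp only [map_add, map_mul, conj_conj, map_zero] at h3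
    linear_combination h3

end P139
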