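import Vale.Agent.P139.MIMode
import Vale.Agent.P139.MIDefs
import Vale.Agent.P139.MIL

/-! P139 part MI: assembly of `FreeData` from the certificates. -/

open Complex Set Filter Topology MeasureTheory
open scoped ContDiff ComplexConjugate

noncomputable section
namespace P139

def S_line : Prop := ∀ β s : ℝ, Bx β s → ∀ (l : ℕ) (lam : ℂ), 0 ≤ lam.re →
  (5 ≤ l ∨ 5 / 2 ≤ lam.re ∨ 5 ≤ |lam.im|) →
  Can β l lam s * conj (deriv (Can β l (conj lam)) s)
    + conj (Can β l (conj lam) s) * deriv (Can β l lam) s ≠ 0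

theorem s_line : S_line := fun _ _ hb l lam h hc =>
  can_line ⟨by linarith [hb.1], by linarith [hb.2.1]⟩
    ⟨by linarith [hb.2.2.1], by linarith [hb.2.2.2]⟩ l lam h hc

namespace MIMain
open MIT

variable {β : ℝ} {l : ℕ} {lam : ℂ} {s₀ : ℝ} {F H f h y : ℝ → ℂ}

theorem Bx.pos (hb : Bx β s₀) : 0 < s₀ := by linarith [hb.2.2.1]

theorem tow (hσ : 0 ≤ lam.re) (h0 : 0 < s₀) (hF : ContDiffOn ℝ ∞ F (Ioi 0))
    (he : ∀ s, 0 < s → FreeF β l lam F s = 0) (hG : Good l s₀ F) :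
    ∃ p q : ℕ → ℂ, Tow (miA β l lam) l s₀ p q ∧ p 0 = F s₀ ∧ q 0 = s₀ * deriv F s₀ := by
  obtain ⟨p, q, p0, q0, hp, hq, hf⟩ := mi_tower β l lam hσ le_rfl h0 hF he hG
  exact ⟨p, q, ⟨hp, hq, hf⟩, p0, q0⟩

theorem towS {ev : ℝ} (hσ : 0 ≤ lam.re) (hev : 0 ≤ ev) (h0 : 0 < s₀)
    (hF : ContDiffOn ℝ ∞ F (Ioi 0)) (he : ∀ s, 0 < s → FreeF β l lam F s = y s)
    (hG : Good l s₀ F) (M : Md β l s₀ ev y) :
    ∃ p q P Q : ℕ → ℂ, TowS (miA β l lam) (miA β l ev) l s₀ p q P Q ∧ p 0 = F s₀ ∧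
      q 0 = s₀ * deriv F s₀ ∧ P 0 = y s₀ ∧ Q 0 = s₀ * deriv y s₀ := by
  obtain ⟨p, q, P, Q, p0, q0, P0, Q0, hP, hQ, hp, hq, hf⟩ :=
    mi_tower_src β l lam ev hσ (by simpa using hev) le_rfl h0 hF M.sm M.eq he hG M.gd
  refine ⟨p, q, P, Q, ⟨⟨hP, hQ, fun K a b => ⟨(hf K a b).1, (hf K a b).2.1⟩⟩, hp, hq,
    fun K a b => ?_⟩, p0, q0, P0, Q0⟩
  have := (hf K a b).2.2
  simp only [miA_re, add_sub_cancel_right]
  exact this

theorem Sq.conj {c : ℝ} (h : Sq c lam) : Sq c (conj lam) := by simpa [Sq] using h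

theorem near_conj (h : Near l (conj lam)) : Near l lam := by simpa [Near, Sq] using h

theorem hom_line (hline : S_line) (hb : Bx β s₀) (hσ : 0 ≤ lam.re)
    (hc : 5 ≤ l ∨ 5 / 2 ≤ lam.re ∨ 5 ≤ |lam.im|) (S : Sol β l lam s₀ F H 0 0) :
    F s₀ = 0 ∧ deriv F s₀ = 0 := by
  have h0 := Bx.pos hb
  have key : ∀ (μ : ℂ) (W : ℝ → ℂ), 0 ≤ μ.re → (5 ≤ l ∨ 5 / 2 ≤ μ.re ∨ 5 ≤ |μ.im|) →
      ContDiffOn ℝ ∞ W (Ioi 0) → (∀ s, 0 < s → FreeF β l μ W s = 0) → Good l s₀ W →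
      ∃ c : ℂ, W s₀ = c * Can β l μ s₀ ∧ deriv W s₀ = c * deriv (Can β l μ) s₀ := by
    intro μ W hμ hc hW he hG
    have ha : miA β l μ ≠ 0 := fun h => by
      have h1 := miA_re β l μ
      have h2 := miA_im β l μ
      rw [h] at h1 h2
      simp only [Complex.zero_re, Complex.zero_im] at h1 h2
      have h3 : (0 : ℝ) ≤ l := by positivity
      rcases hc with hc | hc | hc
      · have : (5 : ℝ) ≤ l := by exact_mod_cast hc
        linarith
      · linarith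
      · rw [abs_of_nonneg (by linarith [hb.1])] at hc
        linarith [hb.2.1]
    obtain ⟨c, hc⟩ := mi_uniq hμ ha le_rfl h0 hW (can_smooth β l hμ) he (can_ode β l hμ) hG
      (can_good β l hμ h0) (((eventually_gt_atTop 0).and (can_ne β l hμ)).exists)
    refine ⟨c, hc s₀ h0, ?_⟩
    rw [← deriv_const_mul_field]
    refine Filter.EventuallyEq.deriv_eq ?_
    filter_upwards [Ioi_mem_nhds h0] with t ht
    exact hc t ht
  obtain ⟨c, c0, c1⟩ := key lam F hσ hc S.sF S.eF S.gF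
  obtain ⟨d, d0, d1⟩ := key (conj lam) H (by simpa using hσ) (by simpa using hc) S.sH S.eH S.gH
  have b0 := S.b0
  have b1 := S.b1
  rw [c0, d0, map_mul] at b0
  rw [c1, d1, map_mul] at b1
  have : c = 0 := by
    refine (mul_eq_zero.1 ?_).resolve_right (hline β s₀ hb l lam hσ hc)
    linear_combination conj (deriv (Can β l (conj lam)) s₀) * b0
      + conj (Can β l (conj lam) s₀) * b1
  simp [c0, c1, this]

theorem hom_far (hfar : S_far) (hb : Bx β s₀) (hσ : 0 ≤ lam.re) (hl : l ≤ 4)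
    (h1 : lam.re ≤ 5 / 2) (h2 : 0 ≤ lam.im) (h3 : lam.im ≤ 5) (hn : ¬ Near l lam)
    (S : Sol β l lam s₀ F H 0 0) : F s₀ = 0 ∧ deriv F s₀ = 0 := by
  have h0 := Bx.pos hb
  obtain ⟨p, q, T, p0, q0⟩ := tow hσ h0 S.sF S.eF S.gF
  obtain ⟨p', q', T', p0', q0'⟩ := tow (lam := conj lam) (by simpa using hσ) h0 S.sH S.eH S.gH
  obtain ⟨a, b⟩ := hfar β s₀ hb l hl lam hσ h1 h2 h3 hn p q p' q' T T'
    (by rw [p0, p0']; exact S.b0) (by rw [q0, q0', S.b1]; simp)
  refine ⟨p0 ▸ a, ?_⟩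
  rw [q0] at b
  simpa [h0.ne'] using b

theorem hom (hline : S_line) (hfar : S_far) (hb : Bx β s₀) (hσ : 0 ≤ lam.re) (hn : ¬ Near l lam)
    (S : Sol β l lam s₀ F H 0 0) (s : ℝ) (hs : 0 < s) : F s = 0 ∧ H s = 0 := by
  have h0 := Bx.pos hb
  by_cases hc : 5 ≤ l ∨ 5 / 2 ≤ lam.re ∨ 5 ≤ |lam.im|
  · obtain ⟨a, b⟩ := hom_line hline hb hσ hc S
    exact S.zero h0 a b s hs
  push Not at hc
  obtain ⟨c1, c2, c3⟩ := hc
  rw [abs_lt] at c3
  rcases le_total 0 lam.im with h | h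
  · obtain ⟨a, b⟩ := hom_far hfar hb hσ (by omega) c2.le h c3.2.le hn S
    exact S.zero h0 a b s hs
  · obtain ⟨a, b⟩ := hom_far (lam := conj lam) hfar hb (by simpa using hσ) (by omega)
      (by simpa using c2.le) (by simpa using h) (by simp; linarith) (fun h => hn (near_conj h))
      S.swap
    exact (S.swap.zero h0 a b s hs).symm

theorem near0 (hn : S_near0) (hb : Bx β s₀) (hσ : 0 ≤ lam.re) {c : ℝ} (hc : c = 0 ∨ c = 1)
    (hq : Sq c lam) (M : Md β 0 s₀ c y) (hy : y s₀ ≠ 0) {e : ℂ}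
    (S : Sol β 0 lam s₀ F H (fun s => e * y s) (fun s => conj e * y s)) (hF : F s₀ = 0)
    (s : ℝ) (hs : 0 < s) : F s = 0 ∧ H s = 0 := by
  have h0 := Bx.pos hb
  have hA : ∀ μ : ℂ, miA β 0 μ = μ - I * β := fun μ => by simp [miA]
  have hc0 : 0 ≤ c := by rcases hc with rfl | rfl <;> norm_num
  have he : e = 0 := by
    by_contra he
    have he' : conj e ≠ 0 := by simpa using he
    have S' := (S.mul h0 e⁻¹).congr (f' := y) (h' := y) (fun s _ => by field_simp)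
      (fun s _ => by rw [map_inv₀]; field_simp)
    have hH : H s₀ = 0 := by simpa [hF] using S.b0
    obtain ⟨p, q, P, Q, T, p0, q0, P0, -⟩ := towS hσ hc0 h0 S'.sF S'.eF S'.gF M
    obtain ⟨p', q', P', Q', T', p0', q0', P0', -⟩ :=
      towS (lam := conj lam) (by simpa using hσ) hc0 h0 S'.sH S'.eH S'.gH M
    rw [hA, hA] at T T'
    obtain ⟨d, d1, d2⟩ := (hn β s₀ hb c hc lam hσ hq).2 p q P Q T (by simp [p0, hF])
    obtain ⟨d', d1', d2'⟩ := (hn β s₀ hb c hc (conj lam) (by simpa using hσ) (Sq.conj hq)).2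
      p' q' P' Q' T' (by simp [p0', hH])
    have e1 : q 0 = conj (q' 0) := by
      rw [q0, q0', S'.b1]
      simp
    rw [d2, d2', P0, P0', map_mul] at e1
    have e2 : d + conj d' = 0 := by
      refine (mul_eq_zero.1 ?_).resolve_right hy
      linear_combination e1 + conj d' * M.b0
    have e3 := congrArg Complex.re e2
    simp only [Complex.add_re, Complex.conj_re, Complex.zero_re] at e3
    have : (1 - 2 * c) * (d.re + d'.re) = 0 := by rw [e3, mul_zero]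
    linarith
  have S' := S.congr (f' := 0) (h' := 0) (fun s _ => by simp [he]) (fun s _ => by simp [he])
  obtain ⟨p, q, T, p0, q0⟩ := tow hσ h0 S'.sF S'.eF S'.gF
  rw [hA] at T
  have := (hn β s₀ hb c hc lam hσ hq).1 p q T (by rw [p0, hF])
  rw [q0] at this
  exact S'.zero h0 hF (by simpa [h0.ne'] using this) s hs

theorem near1 (hn : S_near1) (hb : Bx β s₀) (hσ : 0 ≤ lam.re) (hq : Sq (1 / 2) lam)
    (M : Md β 1 s₀ (1 / 2) y) (hy : y s₀ = 0) (hy' : deriv y s₀ ≠ 0) {e : ℂ}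
    (S : Sol β 1 lam s₀ F H (fun s => e * y s) (fun s => conj e * y s)) (hF : deriv F s₀ = 0)
    (s : ℝ) (hs : 0 < s) : F s = 0 ∧ H s = 0 := by
  have h0 := Bx.pos hb
  have hA : ∀ μ : ℂ, miA β 1 μ = μ - I * β + 1 / 2 := fun μ => by simp [miA]
  have hA' : miA β 1 ((1 / 2 : ℝ) : ℂ) = 1 - I * β := by
    rw [hA]
    push_cast
    ring
  have he : e = 0 := by
    by_contra he
    have he' : conj e ≠ 0 := by simpa using he
    have S' := (S.mul h0 e⁻¹).congr (f' := y) (h' := y) (fun s _ => by field_simp)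
      (fun s _ => by rw [map_inv₀]; field_simp)
    have hH : deriv H s₀ = 0 := by simpa [hF] using S.b1.symm
    obtain ⟨p, q, P, Q, T, p0, q0, P0, Q0⟩ := towS hσ (by norm_num) h0 S'.sF S'.eF S'.gF M
    obtain ⟨p', q', P', Q', T', p0', q0', P0', Q0'⟩ :=
      towS (lam := conj lam) (by simpa using hσ) (by norm_num) h0 S'.sH S'.eH S'.gH M
    rw [hA', hA] at T T'
    obtain ⟨d, d1, d2⟩ := (hn β s₀ hb lam hq).2 p q P Q T (by rw [P0, hy])
      (by rw [q0, deriv_const_mul_field, hF]; simp)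
    obtain ⟨d', d1', d2'⟩ := (hn β s₀ hb (conj lam) (Sq.conj hq)).2 p' q' P' Q' T'
      (by rw [P0', hy]) (by rw [q0', deriv_const_mul_field, hH]; simp)
    have e1 : p 0 + conj (p' 0) = 0 := by
      rw [p0, p0']
      exact S'.b0
    rw [d2, d2', Q0, Q0', map_mul, map_mul, Complex.conj_ofReal, ← M.b1] at e1
    have hs0 : (s₀ : ℂ) ≠ 0 := by exact_mod_cast h0.ne'
    have e2 : d + conj d' = 0 := by
      refine (mul_eq_zero.1 ?_).resolve_right (mul_ne_zero hs0 hy')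
      linear_combination e1
    have e3 := congrArg Complex.re e2
    simp only [Complex.add_re, Complex.conj_re, Complex.zero_re] at e3
    linarith
  have S' := S.congr (f' := 0) (h' := 0) (fun s _ => by simp [he]) (fun s _ => by simp [he])
  obtain ⟨p, q, T, p0, q0⟩ := tow hσ h0 S'.sF S'.eF S'.gF
  rw [hA] at T
  have := (hn β s₀ hb lam hq).1 p q T (by rw [q0, hF, mul_zero])
  exact S'.zero h0 (p0 ▸ this) hF s hs

theorem ne_of_not_sq {c : ℝ} (h : ¬ Sq c lam) : (c : ℂ) - lam ≠ 0 := fun e => by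
  apply h
  rw [← sub_eq_zero.1 e]
  simp [Sq]

/-- remove a source that is a multiple of a mode with a different eigenvalue -/
theorem Sol.kill {ev : ℝ} {c : ℂ} (S : Sol β l lam s₀ F H (fun s => c * y s + f s)
    (fun s => conj c * y s + h s)) (h0 : 0 < s₀) (M : Md β l s₀ ev y) (hne : ¬ Sq ev lam) :
    ∃ t : ℂ, Sol β l lam s₀ (fun s => 1 * F s + -t * y s) (fun s => 1 * H s + -conj t * y s)
      f h := by
  have := ne_of_not_sq hne
  refine ⟨c / (ev - lam), (S.sub h0 M _).congr (fun s _ => ?_) (fun s _ => ?_)⟩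
  · rw [div_mul_cancel₀ _ this]
    ring
  · rw [div_mul_cancel₀ _ this]
    ring

/-- `l = 0`, near the root `c` with mode `y`; `w` is the other mode -/
theorem ms0 (hn : S_near0) (hb : Bx β s₀) (hσ : 0 ≤ lam.re) {c c' : ℝ} (hc : c = 0 ∨ c = 1)
    (hq : Sq c lam) (hq' : ¬ Sq c' lam) {w : ℝ → ℂ} (M : Md β 0 s₀ c y) (M' : Md β 0 s₀ c' w)
    (hy : y s₀ ≠ 0) {e e' : ℂ} (S : Sol β 0 lam s₀ F H (fun s => e' * w s + e * y s)
      (fun s => conj e' * w s + conj e * y s)) :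
    ∃ t t' : ℂ, ∀ s, 0 < s → F s = t * y s + t' * w s ∧ H s = conj t * y s + conj t' * w s := by
  have h0 := Bx.pos hb
  obtain ⟨t', S1⟩ := S.kill h0 M' hq'
  set t := (1 * F s₀ + -t' * w s₀) / y s₀ with ht
  have S2 := (S1.sub h0 M t).congr (f' := fun s => (e - t * (c - lam)) * y s)
    (h' := fun s => conj (e - t * (c - lam)) * y s) (fun s _ => by ring)
    (fun s _ => by rw [map_sub]; ring)
  refine ⟨t, t', fun s hs => ?_⟩
  obtain ⟨a, b⟩ := near0 hn hb hσ hc hq M hy S2 (by rw [ht]; field_simp; ring) s hs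
  exact ⟨by linear_combination a, by linear_combination b⟩

theorem ms (hline : S_line) (hfar : S_far) (h0 : S_near0) (h1 : S_near1) (hb : Bx β s₀)
    (hU : Can β 0 0 s₀ ≠ 0) (hr : deriv (Can β 0 0) s₀ = 0) :
    MSinf β s₀ (fun s => Can β 0 0 s / Can β 0 0 s₀) := by
  intro l lam hσ F G sF sG gF gG b0 b1 ⟨c₀, c₁, hc⟩
  have hp := Bx.pos hb
  have hβ : 0 < β := by linarith [hb.1]
  have S : Sol β l lam s₀ F (fun s => conj (G s))
      (fun s => c₀ * y0 (fun s => Can β 0 0 s / Can β 0 0 s₀) l s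
        + c₁ * y1 β (fun s => Can β 0 0 s / Can β 0 0 s₀) l s)
      (fun s => conj c₀ * y0 (fun s => Can β 0 0 s / Can β 0 0 s₀) l s
        + conj c₁ * y1 β (fun s => Can β 0 0 s / Can β 0 0 s₀) l s) :=
    ⟨sF, mi_smooth_conj sG, gF, mi_good_conj gG, by simpa using b0,
      by rw [mi_deriv_conj]; simpa using b1, fun s hs => (hc s hs).1,
      fun s hs => by rw [mi_conj, (hc s hs).2]; simp⟩
  suffices h : ∃ t t' : ℂ, ∀ s, 0 < s →
      F s = t * y0 (fun s => Can β 0 0 s / Can β 0 0 s₀) l s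
        + t' * y1 β (fun s => Can β 0 0 s / Can β 0 0 s₀) l s ∧
      conj (G s) = conj t * y0 (fun s => Can β 0 0 s / Can β 0 0 s₀) l s
        + conj t' * y1 β (fun s => Can β 0 0 s / Can β 0 0 s₀) l s by
    obtain ⟨t, t', h⟩ := h
    refine ⟨t, t', fun s hs => ⟨(h s hs).1, ?_⟩⟩
    simpa using congrArg conj (h s hs).2
  have hs := can_smooth β 0 (lam := 0) (by simp)
  have hz : ContDiffOn ℝ ∞ (0 : ℝ → ℂ) (Ioi 0) := contDiffOn_const
  rcases l with _ | _ | l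
  · have M0 := md0 hp hU hr
    obtain ⟨M1, v1⟩ := md1 hp hU hr
    set m0 : ℝ → ℂ := fun s => I / Can β 0 0 s₀ * Can β 0 0 s with hm0
    set m1 : ℝ → ℂ := fun s => 1 / Can β 0 0 s₀ * tw 0 (Can β 0 0) 1 0 s with hm1
    have e0 : ∀ s, 0 < s → y0 (fun s => Can β 0 0 s / Can β 0 0 s₀) 0 s = m0 s := fun s _ => by
      simp only [y0, hm0, if_true]
      ring
    have e1 : ∀ s, 0 < s → y1 β (fun s => Can β 0 0 s / Can β 0 0 s₀) 0 s = m1 s := fun s h => by
      simp only [y1, hm1, if_true, deriv_div_const]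
      rw [tw_p hs hz (can_ode β 0 (by simp)) 0 s h]
      simp [tw, miA]
      ring
    have n0 : m0 s₀ ≠ 0 := by simp [hm0, hU]
    have n1 : m1 s₀ ≠ 0 := by
      have : m1 s₀ = -(I * β) := v1
      simp [this, hβ.ne']
    suffices h : ∃ t t' : ℂ, ∀ s, 0 < s → F s = t * m0 s + t' * m1 s ∧
        conj (G s) = conj t * m0 s + conj t' * m1 s by
      obtain ⟨t, t', h⟩ := h
      exact ⟨t, t', fun s hs => by rw [e0 s hs, e1 s hs]; exact h s hs⟩
    have dis : ¬ (Sq 0 lam ∧ Sq 1 lam) := fun ⟨a, b⟩ => by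
      have := (abs_le.1 a.1).2
      have := (abs_le.1 b.1).1
      linarith
    by_cases q0 : Sq 0 lam
    · exact ms0 h0 hb hσ (Or.inl rfl) q0 (fun h => dis ⟨q0, h⟩) M0 M1 n0 (e := c₀) (e' := c₁)
        (S.congr (fun s h => by rw [e0 s h, e1 s h, add_comm])
          (fun s h => by rw [e0 s h, e1 s h, add_comm]))
    by_cases q1 : Sq 1 lam
    · obtain ⟨t, t', h⟩ := ms0 h0 hb hσ (Or.inr rfl) q1 q0 M1 M0 n1 (e := c₁) (e' := c₀)
        (S.congr (fun s h => by rw [e0 s h, e1 s h]) (fun s h => by rw [e0 s h, e1 s h]))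
      exact ⟨t', t, fun s hs => by rw [(h s hs).1, (h s hs).2]; exact ⟨by ring, by ring⟩⟩
    obtain ⟨t, S1⟩ := Sol.kill (c := c₀) (f := fun s => c₁ * m1 s + (0 : ℝ → ℂ) s)
      (h := fun s => conj c₁ * m1 s + (0 : ℝ → ℂ) s)
      (S.congr (fun s h => by rw [e0 s h, e1 s h]; simp) (fun s h => by rw [e0 s h, e1 s h]; simp))
      hp M0 q0
    obtain ⟨t', S2⟩ := S1.kill hp M1 q1
    refine ⟨t, t', fun s hs => ?_⟩
    obtain ⟨a, b⟩ := hom hline hfar hb hσ (by simp [Near, q0, q1]) S2 s hs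
    exact ⟨by linear_combination a, by linear_combination b⟩
  · obtain ⟨M, v0, v1⟩ := md2 hp hU hr
    set m : ℝ → ℂ := fun s => 2 / Can β 0 0 s₀ * tw 0 (Can β 0 0) 0 1 s with hm
    have e0 : ∀ s, y0 (fun s => Can β 0 0 s / Can β 0 0 s₀) (0 + 1) s = m s := fun s => by
      simp [y0, hm, tw]
      ring
    have e1 : ∀ s, y1 β (fun s => Can β 0 0 s / Can β 0 0 s₀) (0 + 1) s = 0 := fun s => by
      simp [y1]
    suffices h : ∃ t : ℂ, ∀ s, 0 < s → F s = t * m s ∧ conj (G s) = conj t * m s by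
      obtain ⟨t, h⟩ := h
      exact ⟨t, 0, fun s hs => by rw [e0 s, e1 s]; simpa using h s hs⟩
    have n1 : deriv m s₀ ≠ 0 := by
      rw [v1]
      have : 2 * (-β / (4 * s₀)) ≠ 0 := by
        have : 0 < β / (4 * s₀) := by positivity
        rw [neg_div]
        linarith
      exact_mod_cast this
    by_cases q : Sq (1 / 2) lam
    · have S1 : Sol β 1 lam s₀ F (fun s => conj (G s)) (fun s => c₀ * m s)
          (fun s => conj c₀ * m s) :=
        S.congr (fun s _ => by rw [e0 s, e1 s]; simp) (fun s _ => by rw [e0 s, e1 s]; simp)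
      set t := deriv F s₀ / deriv m s₀ with ht
      have S2 := (S1.sub hp M t).congr
        (f' := fun s => (c₀ - t * (((1 / 2 : ℝ) : ℂ) - lam)) * m s)
        (h' := fun s => conj (c₀ - t * (((1 / 2 : ℝ) : ℂ) - lam)) * m s) (fun s _ => by ring)
        (fun s _ => by rw [map_sub]; ring)
      refine ⟨t, fun s hs => ?_⟩
      obtain ⟨a, b⟩ := near1 h1 hb hσ q M v0 n1 S2
        (by rw [mi_deriv_lin sF M.sm _ _ s₀ hp, ht]; field_simp; ring) s hs
      exact ⟨by linear_combination a, by linear_combination b⟩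
    · obtain ⟨t, S1⟩ := Sol.kill (l := 1) (c := c₀) (f := 0) (h := 0)
        (S.congr (fun s _ => by rw [e0 s, e1 s]; simp) (fun s _ => by rw [e0 s, e1 s]; simp))
        hp M q
      refine ⟨t, fun s hs => ?_⟩
      obtain ⟨a, b⟩ := hom hline hfar hb hσ (by simpa [Near] using q) S1 s hs
      exact ⟨by linear_combination a, by linear_combination b⟩
  · refine ⟨0, 0, fun s hs => ?_⟩
    simpa using hom hline hfar hb hσ (by simp [Near])
      (S.congr (f' := 0) (h' := 0) (fun s _ => by simp [y0, y1]) (fun s _ => by simp [y0, y1])) s hs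

end MIMain

open MIMain

theorem partMI_of (hline : S_line) (hfar : S_far) (hmir : S_mir) (h0 : S_near0) (h1 : S_near1) :
    PartMI := by
  obtain ⟨x₁, x₂, β₁, β₂, μ, hx, hβ, B1, B2, H⟩ := hmir
  have z0 : (0 : ℝ) ≤ (0 : ℂ).re := by simp
  have hB : ∀ β ∈ Icc β₁ β₂, ∀ x ∈ Icc x₁ x₂, Bx β (4 * x) := fun β hβ x hx =>
    ⟨B1.1.trans hβ.1, hβ.2.trans B2.2.1, by linarith [B1.2.2.1, hx.1],
      by linarith [B2.2.2.2, hx.2]⟩
  have key : ∀ β ∈ Icc β₁ β₂, ∀ x ∈ Icc x₁ x₂, Can β 0 0 (4 * x) ≠ 0 ∧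
      ∀ w : ℂ, w = deriv (Can β 0 0) (4 * x) / Can β 0 0 (4 * x) →
      (x = x₁ → 0 < w.re - μ * w.im) ∧ (x = x₂ → w.re - μ * w.im < 0) ∧
      (β = β₁ → 0 < w.im) ∧ (β = β₂ → w.im < 0) := by
    intro β hβ x hx
    have hp := Bx.pos (hB β hβ x hx)
    obtain ⟨p, q, T, p0, q0⟩ := tow z0 hp (can_smooth β 0 z0) (can_ode β 0 z0) (can_good β 0 z0 hp)
    rw [show miA β 0 0 = -(I * β) by simp [miA]] at T
    obtain ⟨a, b⟩ := H β hβ x hx p q T
    have hne : Can β 0 0 (4 * x) ≠ 0 := fun h => by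
      have h' := a (p0.trans h)
      rw [q0] at h'
      obtain ⟨s, hs, hs'⟩ := ((eventually_gt_atTop 0).and (can_ne β 0 z0)).exists
      exact hs' (mi_zero le_rfl hp (can_smooth β 0 z0) (can_ode β 0 z0) h
        ((mul_eq_zero.1 h').resolve_left (by exact_mod_cast hp.ne')) s hs)
    refine ⟨hne, fun w hw => ?_⟩
    have e : q 0 / p 0 = ((4 * x : ℝ) : ℂ) * w := by rw [p0, q0, hw, mul_div_assoc]
    obtain ⟨b1, b2, b3, b4⟩ := b (p0 ▸ hne)
    rw [e, Complex.im_ofReal_mul] at b1 b2 b3 b4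
    rw [Complex.re_ofReal_mul] at b1 b2
    refine ⟨fun h => ?_, fun h => ?_, fun h => ?_, fun h => ?_⟩
    · exact (mul_pos_iff_of_pos_left hp).1 ((b1 h).trans_le (le_of_eq (by ring)))
    · have := b2 h
      by_contra hc
      push Not at hc
      nlinarith
    · exact (mul_pos_iff_of_pos_left hp).1 (b3 h)
    · have := b4 h
      by_contra hc
      push Not at hc
      nlinarith
  have l1 : x₁ ∈ Icc x₁ x₂ := left_mem_Icc.2 hx.le
  have l2 : x₂ ∈ Icc x₁ x₂ := right_mem_Icc.2 hx.le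
  have m1 : β₁ ∈ Icc β₁ β₂ := left_mem_Icc.2 hβ.le
  have m2 : β₂ ∈ Icc β₁ β₂ := right_mem_Icc.2 hβ.le
  refine ⟨{
    U := fun β => Can β 0 0
    x₁ := x₁
    x₂ := x₂
    β₁ := β₁
    β₂ := β₂
    μ := μ
    hx := ⟨by linarith [B1.2.2.1], hx, by linarith [B2.2.2.2]⟩
    hβ := ⟨by linarith [B1.1], hβ, by linarith [B2.2.1]⟩
    smooth := fun β _ => can_smooth β 0 z0
    ode := fun β _ => can_ode β 0 z0
    symb := fun β _ j => ?_
    cont := (can_cont 0 0 z0).1.mono (prod_mono (subset_univ _) le_rfl)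
    cont' := (can_cont 0 0 z0).2.mono (prod_mono (subset_univ _) le_rfl)
    uniq := fun β hb s₀ hs F hF he hG => ?_
    ne := fun β hb x hx => (key β hb x hx).1
    c₁ := fun β hb => ((key β hb x₁ l1).2 _ rfl).1 rfl
    c₂ := fun β hb => ((key β hb x₂ l2).2 _ rfl).2.1 rfl
    c₃ := fun x hx => ((key β₁ m1 x hx).2 _ rfl).2.2.1 rfl
    c₄ := fun x hx => ((key β₂ m2 x hx).2 _ rfl).2.2.2 rfl
    ms := fun β hb x hx hr => ms hline hfar h0 h1 (hB β hb x hx) (key β hb x hx).1 hr }⟩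
  · obtain ⟨C, -, hC⟩ := can_symb β 0 z0 one_pos j
    exact ⟨C, fun s hs => by simpa using hC s hs⟩
  · have ha : miA β 0 0 ≠ 0 := fun h => by
      have := miA_im β 0 0
      rw [h] at this
      simp only [Complex.zero_im] at this
      linarith [B1.1, hb.1]
    exact mi_uniq z0 ha hs.le (lt_add_one s₀) hF
      ((can_smooth β 0 z0).mono (Ioi_subset_Ioi hs.le)) he
      (fun s h => can_ode β 0 z0 s (hs.trans h)) hG (can_good β 0 z0 (by linarith))
      ((eventually_gt_atTop s₀).and (can_ne β 0 z0)).exists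

end P139
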