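import Vale.Agent.P139.PEDefs

/-! P139 part P, exterior solutions: the fixed point and its stability. -/

open Complex Set Filter Topology MeasureTheory
open scoped ContDiff ComplexConjugate

noncomputable section
namespace P139
namespace PEfix

theorem wb_sub {S M : ℝ} {f g : ℂ → ℂ} (hf : WB S M f) (hg : WB S M g) :
    WB S (2 * M) (fun z => f z - g z) := by
  intro z hz
  have h1 := hf z hz
  have h2 := hg z hz
  calc ‖f z - g z‖ ≤ ‖f z‖ + ‖g z‖ := norm_sub_le _ _
    _ ≤ M / z.re ^ 2 + M / z.re ^ 2 := add_le_add h1 h2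
    _ = 2 * M / z.re ^ 2 := by ring

theorem div_le {S d : ℝ} (hS : 1 ≤ S) (hd : 0 ≤ d) {z : ℂ} (hz : z ∈ HP S) :
    d / z.re ^ 2 ≤ d := by
  have h1 : 1 ≤ z.re := hS.trans (le_of_lt hz)
  exact div_le_self hd (one_le_pow₀ h1)

theorem tends (C : ℝ) : Tendsto (fun n : ℕ => C / 2 ^ n) atTop (𝓝 0) :=
  tendsto_const_nhds.div_atTop (tendsto_pow_atTop_atTop_of_one_lt one_lt_two)

end PEfix

open PEfix

theorem s_peFix : S_peFix := by
  intro S M T hS hM hT hC
  set χ : ℕ → ℂ → ℂ := fun n => T^[n] (fun _ => 0) with hχ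
  have hsucc : ∀ n, χ (n + 1) = T (χ n) := fun n => Function.iterate_succ_apply' T n _
  have hB : ∀ n, HB S M (χ n) := by
    intro n
    induction n with
    | zero =>
      refine ⟨differentiableOn_const 0, fun z _ => ?_⟩
      simp only [hχ, Function.iterate_zero, id, norm_zero]
      positivity
    | succ n ih => rw [hsucc]; exact hT _ ih
  have hD : ∀ n, WB S (2 * M / 2 ^ n) (fun z => χ n z - χ (n + 1) z) := by
    intro n
    induction n with
    | zero => simpa using wb_sub (hB 0).2 (hB 1).2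
    | succ n ih =>
      have h := hC _ _ _ (by positivity) (hB n) (hB (n + 1)) ih
      rw [← hsucc, ← hsucc] at h
      have e : 2 * M / 2 ^ (n + 1) = 2 * M / 2 ^ n / 2 := by rw [pow_succ]; ring
      rw [e]
      exact h
  have hd : ∀ z ∈ HP S, ∀ n, dist (χ n z) (χ (n + 1) z) ≤ (4 * M / z.re ^ 2) / 2 / 2 ^ n := by
    intro z hz n
    rw [dist_eq_norm]
    refine (hD n z hz).trans (le_of_eq ?_)
    ring
  set L : ℂ → ℂ := fun z => limUnder atTop (fun n => χ n z) with hL
  have hlim : ∀ z ∈ HP S, Tendsto (fun n => χ n z) atTop (𝓝 (L z)) := fun z hz =>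
    (cauchySeq_of_le_geometric_two (hd z hz)).tendsto_limUnder
  have hW : ∀ n, WB S (4 * M / 2 ^ n) (fun z => χ n z - L z) := by
    intro n z hz
    have h := dist_le_of_le_geometric_two_of_tendsto (hd z hz) (hlim z hz) n
    rw [dist_eq_norm] at h
    refine h.trans (le_of_eq ?_)
    ring
  have hU : TendstoUniformlyOn χ L atTop (HP S) := by
    rw [Metric.tendstoUniformlyOn_iff]
    intro ε hε
    filter_upwards [(tends (4 * M)).eventually (gt_mem_nhds hε)] with n hn z hz
    rw [dist_comm, dist_eq_norm]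
    exact ((hW n z hz).trans (div_le hS (by positivity) hz)).trans_lt hn
  have hLB : HB S M L := by
    refine ⟨hU.tendstoLocallyUniformlyOn.differentiableOn
      (Eventually.of_forall fun n => (hB n).1) (isOpen_HP S), fun z hz => ?_⟩
    exact le_of_tendsto' (hlim z hz).norm fun n => (hB n).2 z hz
  refine ⟨L, hLB, fun z hz => ?_⟩
  have h1 : Tendsto (fun n => χ (n + 1) z) atTop (𝓝 (L z)) :=
    (hlim z hz).comp (tendsto_add_atTop_nat 1)
  have h2 : Tendsto (fun n => χ (n + 1) z) atTop (𝓝 (T L z)) := by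
    rw [tendsto_iff_norm_sub_tendsto_zero]
    refine squeeze_zero (fun n => norm_nonneg _) (fun n => ?_) (tends (2 * M))
    have h := hC _ _ _ (by positivity) (hB n) hLB (hW n) z hz
    rw [← hsucc] at h
    refine h.trans ((div_le hS (by positivity) hz).trans (le_of_eq ?_))
    ring
  exact tendsto_nhds_unique h2 h1

theorem s_peStab : S_peStab := by
  intro S M e T χ₁ χ₂ hS hM he hC h1 h2 hf hw
  have hD : ∀ n : ℕ, WB S (2 * e + 2 * M / 2 ^ n) (fun z => χ₁ z - χ₂ z) := by
    intro n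
    induction n with
    | zero =>
      intro z hz
      refine (wb_sub h1.2 h2.2 z hz).trans ?_
      have hp : 0 ≤ z.re ^ 2 := sq_nonneg _
      refine div_le_div_of_nonneg_right ?_ hp
      simp only [pow_zero, div_one]
      linarith
    | succ n ih =>
      intro z hz
      have h := hC _ _ _ (by positivity) h1 h2 ih z hz
      have h' := hw z hz
      have e1 : χ₁ z - χ₂ z = (T χ₁ z - T χ₂ z) + (T χ₂ z - χ₂ z) := by rw [hf z hz]; ring
      calc ‖χ₁ z - χ₂ z‖ ≤ ‖T χ₁ z - T χ₂ z‖ + ‖T χ₂ z - χ₂ z‖ := by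
            rw [e1]; exact norm_add_le _ _
        _ ≤ (2 * e + 2 * M / 2 ^ n) / 2 / z.re ^ 2 + e / z.re ^ 2 := add_le_add h h'
        _ = (2 * e + 2 * M / 2 ^ (n + 1)) / z.re ^ 2 := by rw [pow_succ 2 n]; ring
  intro z hz
  have ht : Tendsto (fun n : ℕ => (2 * e + 2 * M / 2 ^ n) / z.re ^ 2) atTop
      (𝓝 ((2 * e + 0) / z.re ^ 2)) :=
    ((tends (2 * M)).const_add (2 * e)).div_const _
  rw [add_zero] at ht
  exact ge_of_tendsto' ht fun n => hD n z hz

end P139
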