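import Vale.Agent.P139.PEDefs

/-! P139 part P, exterior solutions: bounds on the nonlinearity. -/

open Complex Set Filter Topology MeasureTheory
open scoped ContDiff ComplexConjugate

noncomputable section
namespace P139
namespace PEh

theorem pow_le {r ρ : ℝ} {x y : ℂ} (hx : ‖x‖ ≤ r) (hy : ‖y‖ ≤ r) (hρ : ‖x‖ ≤ ρ) (m : ℕ) :
    ‖(x * y) ^ m * x‖ ≤ r ^ (2 * m) * ρ := by
  have hr : 0 ≤ r := (norm_nonneg _).trans hx
  rw [norm_mul, norm_pow, norm_mul, pow_mul, sq]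
  gcongr

theorem pow_diff {r D : ℝ} {x y x' y' : ℂ} (hx : ‖x‖ ≤ r) (hy : ‖y‖ ≤ r) (hx' : ‖x'‖ ≤ r)
    (hy' : ‖y'‖ ≤ r) (h1 : ‖x - x'‖ ≤ D) (h2 : ‖y - y'‖ ≤ D) (m : ℕ) :
    ‖(x * y) ^ m * x - (x' * y') ^ m * x'‖ ≤ (2 * m + 1) * r ^ (2 * m) * D := by
  have hr : 0 ≤ r := (norm_nonneg _).trans hx
  have hD : 0 ≤ D := (norm_nonneg _).trans h1
  induction m with
  | zero => simpa using h1
  | succ m ih =>
    have e : (x * y) ^ (m + 1) * x - (x' * y') ^ (m + 1) * x' =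
        (x * y) * ((x * y) ^ m * x - (x' * y') ^ m * x')
          + ((x - x') * y + x' * (y - y')) * ((x' * y') ^ m * x') := by ring
    have h3 : ‖(x - x') * y + x' * (y - y')‖ ≤ D * r + r * D := by
      refine (norm_add_le _ _).trans (add_le_add ?_ ?_)
      · rw [norm_mul]
        gcongr
      · rw [norm_mul]
        gcongr
    have h4 := pow_le hx' hy' hx' m
    have h5 : ‖x * y‖ ≤ r * r := by
      rw [norm_mul]
      gcongr
    rw [e]
    refine (norm_add_le _ _).trans ?_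
    rw [norm_mul (x * y), norm_mul ((x - x') * y + x' * (y - y'))]
    calc _ ≤ (r * r) * ((2 * m + 1) * r ^ (2 * m) * D) + (D * r + r * D) * (r ^ (2 * m) * r) := by
          gcongr
      _ = _ := by
          push_cast
          ring

theorem conj_mem {S : ℝ} {z : ℂ} (hz : z ∈ HP S) : conj z ∈ HP S := by
  simpa [mem_HP] using hz

theorem psi_le (hJ : S_peJ) {S M : ℝ} {χ : ℂ → ℂ} (hS : 1 ≤ S) (hM : 0 ≤ M) (h : HB S M χ)
    (v : ℂ) {z : ℂ} (hz : z ∈ HP S) : ‖psi S v χ z‖ ≤ ‖v‖ + 2 * M / S := by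
  have hS0 : 0 < S := by linarith
  obtain ⟨_, h2, _⟩ := hJ S M χ hS0 h
  have hm : ((S + 1 : ℝ) : ℂ) ∈ HP S := by simp [mem_HP]
  have a1 := (h2 z hz).trans (div_le_div_of_nonneg_left hM hS0 (le_of_lt hz))
  have a2 := (h2 _ hm).trans (div_le_div_of_nonneg_left hM hS0 (le_of_lt hm))
  unfold psi
  have := norm_sub_le (v + Jop χ z) (Jop χ ((S + 1 : ℝ) : ℂ))
  have := norm_add_le v (Jop χ z)
  have e : 2 * M / S = M / S + M / S := by ring
  linarith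

theorem psi_diff (hJ : S_peJ) {S M d : ℝ} {χ χ' : ℂ → ℂ} (hS : 1 ≤ S) (hd : 0 ≤ d)
    (h : HB S M χ) (h' : HB S M χ') (hw : WB S d fun z => χ z - χ' z) (v v' : ℂ) {z : ℂ}
    (hz : z ∈ HP S) : ‖psi S v χ z - psi S v' χ' z‖ ≤ ‖v - v'‖ + 2 * d / S := by
  have hS0 : 0 < S := by linarith
  have h2 := (hJ S M χ hS0 h).2.2 M d χ' h' hw
  have hm : ((S + 1 : ℝ) : ℂ) ∈ HP S := by simp [mem_HP]
  have a1 := (h2 z hz).trans (div_le_div_of_nonneg_left hd hS0 (le_of_lt hz))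
  have a2 := (h2 _ hm).trans (div_le_div_of_nonneg_left hd hS0 (le_of_lt hm))
  have e0 : psi S v χ z - psi S v' χ' z = (v - v') + (Jop χ z - Jop χ' z)
      - (Jop χ ((S + 1 : ℝ) : ℂ) - Jop χ' ((S + 1 : ℝ) : ℂ)) := by
    unfold psi
    ring
  rw [e0]
  have := norm_sub_le ((v - v') + (Jop χ z - Jop χ' z))
    (Jop χ ((S + 1 : ℝ) : ℂ) - Jop χ' ((S + 1 : ℝ) : ℂ))
  have := norm_add_le (v - v') (Jop χ z - Jop χ' z)
  have e : 2 * d / S = d / S + d / S := by ring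
  linarith

theorem psi_dif (hJ : S_peJ) {S M : ℝ} {χ : ℂ → ℂ} (hS : 1 ≤ S) (h : HB S M χ)
    (v : ℂ) {z : ℂ} (hz : z ∈ HP S) : DifferentiableAt ℂ (psi S v χ) z :=
  ((((hJ S M χ (by linarith) h).1 z hz).differentiableAt.const_add v).sub_const _)

theorem div_sq {S A : ℝ} {w z : ℂ} (hS : 1 ≤ S) (hz : z ∈ HP S) (h : ‖w‖ ≤ A) :
    ‖w / z ^ 2‖ ≤ A / z.re ^ 2 := by
  have h0 : 0 < z.re := by linarith [mem_HP.1 hz]
  have hA : 0 ≤ A := (norm_nonneg _).trans h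
  rw [norm_div, norm_pow]
  exact div_le_div₀ hA h (by positivity) (pow_le_pow_left₀ h0.le (Complex.re_le_norm z) 2)

theorem div_one' {S A B : ℝ} {c w z : ℂ} (hS : 1 ≤ S) (hz : z ∈ HP S) (hc : ‖c‖ ≤ B)
    (h : ‖w‖ ≤ A / z.re ^ 2) : ‖c * w / z‖ ≤ (B * A / S) / z.re ^ 2 := by
  have h0 : S < z.re := hz
  have hB : 0 ≤ B := (norm_nonneg _).trans hc
  have hA : 0 ≤ A / z.re ^ 2 := (norm_nonneg _).trans h
  rw [norm_div, norm_mul]
  refine (div_le_div₀ (mul_nonneg hB hA) (mul_le_mul hc h (norm_nonneg _) hB) (by linarith : 0 < S)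
    (h0.le.trans (Complex.re_le_norm z))).trans (le_of_eq ?_)
  ring

theorem na {a : ℂ} (ha : ‖a‖ ≤ 3 / 2) : ‖-(a * (a - 5))‖ ≤ 10 := by
  rw [norm_neg, norm_mul]
  have h1 : ‖a - 5‖ ≤ 13 / 2 := by
    have := norm_sub_le a 5
    have h5 : ‖(5 : ℂ)‖ = 5 := by simp
    linarith
  nlinarith [norm_nonneg a, norm_nonneg (a - 5)]

theorem nb {a : ℂ} (ha : ‖a‖ ≤ 3 / 2) : ‖6 - 2 * a‖ ≤ 9 := by
  have := norm_sub_le 6 (2 * a)
  have h6 : ‖(6 : ℂ)‖ = 6 := by simp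
  have h2 : ‖2 * a‖ = 2 * ‖a‖ := by simp
  linarith

theorem nc {a a' : ℂ} (ha : ‖a‖ ≤ 3 / 2) (ha' : ‖a'‖ ≤ 3 / 2) : ‖a + a' - 5‖ ≤ 8 := by
  have := norm_sub_le (a + a') 5
  have := norm_add_le a a'
  have h5 : ‖(5 : ℂ)‖ = 5 := by simp
  linarith

theorem nk (κ : ℝ) : ‖(κ : ℂ) / 4‖ = |κ| / 4 := by simp

theorem gn_le {r ρ κ : ℝ} {m : ℕ} {a x y : ℂ} (ha : ‖a‖ ≤ 3 / 2) (hκ : 0 ≤ κ)
    (hk : κ * (2 * m + 1) * r ^ (2 * m) ≤ 1) (hx : ‖x‖ ≤ r) (hy : ‖y‖ ≤ r) (hρ : ‖x‖ ≤ ρ) :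
    ‖Gn m a κ x y‖ ≤ 41 / 4 * ρ := by
  have hr : 0 ≤ r := (norm_nonneg _).trans hx
  have h0 : 0 ≤ ρ := (norm_nonneg _).trans hρ
  have h1 : ‖-(a * (a - 5)) * x‖ ≤ 10 * ρ := by
    rw [norm_mul]
    exact mul_le_mul (na ha) hρ (norm_nonneg _) (by norm_num)
  have h2 : ‖(κ : ℂ) / 4 * (x * y) ^ m * x‖ ≤ κ / 4 * (r ^ (2 * m) * ρ) := by
    rw [mul_assoc, norm_mul, nk, abs_of_nonneg hκ]
    exact mul_le_mul_of_nonneg_left (pow_le hx hy hρ m) (by positivity)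
  have h3 : κ * r ^ (2 * m) ≤ 1 := by
    have : 0 ≤ κ * (2 * m) * r ^ (2 * m) := by positivity
    nlinarith
  have h4 := mul_le_mul_of_nonneg_right h3 h0
  unfold Gn
  refine (norm_add_le _ _).trans ?_
  nlinarith

theorem gn_diff {r D κ κ' : ℝ} {m : ℕ} {a a' x y x' y' : ℂ} (ha : ‖a‖ ≤ 3 / 2)
    (ha' : ‖a'‖ ≤ 3 / 2) (hκ : 0 ≤ κ) (hk : κ * (2 * m + 1) * r ^ (2 * m) ≤ 1)
    (hx : ‖x‖ ≤ r) (hy : ‖y‖ ≤ r) (hx' : ‖x'‖ ≤ r) (hy' : ‖y'‖ ≤ r) (h1 : ‖x - x'‖ ≤ D)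
    (h2 : ‖y - y'‖ ≤ D) : ‖Gn m a κ x y - Gn m a' κ' x' y'‖ ≤
      41 / 4 * D + 8 * r * ‖a - a'‖ + |κ - κ'| * r ^ (2 * m + 1) / 4 := by
  have hr : 0 ≤ r := (norm_nonneg _).trans hx
  have hD : 0 ≤ D := (norm_nonneg _).trans h1
  have e : Gn m a κ x y - Gn m a' κ' x' y' = (-(a * (a - 5)) * (x - x')
      + (κ : ℂ) / 4 * ((x * y) ^ m * x - (x' * y') ^ m * x'))
      - (a - a') * (a + a' - 5) * x' + ((κ - κ' : ℝ) : ℂ) / 4 * ((x' * y') ^ m * x') := by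
    unfold Gn
    push_cast
    ring
  have b1 : ‖-(a * (a - 5)) * (x - x')‖ ≤ 10 * D := by
    rw [norm_mul]
    exact mul_le_mul (na ha) h1 (norm_nonneg _) (by norm_num)
  have b2 : ‖(κ : ℂ) / 4 * ((x * y) ^ m * x - (x' * y') ^ m * x')‖ ≤
      κ / 4 * ((2 * m + 1) * r ^ (2 * m) * D) := by
    rw [norm_mul, nk, abs_of_nonneg hκ]
    exact mul_le_mul_of_nonneg_left (pow_diff hx hy hx' hy' h1 h2 m) (by positivity)
  have b3 : ‖(a - a') * (a + a' - 5) * x'‖ ≤ ‖a - a'‖ * 8 * r := by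
    rw [norm_mul, norm_mul]
    have := nc ha ha'
    gcongr
  have b4 : ‖((κ - κ' : ℝ) : ℂ) / 4 * ((x' * y') ^ m * x')‖ ≤ |κ - κ'| / 4 * (r ^ (2 * m) * r) := by
    rw [norm_mul, nk]
    exact mul_le_mul_of_nonneg_left (pow_le hx' hy' hx' m) (by positivity)
  have b5 := mul_le_mul_of_nonneg_right hk hD
  rw [e]
  refine (norm_add_le _ _).trans ((add_le_add ((norm_sub_le _ _).trans
    (add_le_add ((norm_add_le _ _).trans (add_le_add b1 b2)) b3)) b4).trans ?_)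
  rw [pow_succ]
  nlinarith

end PEh

open PEh in
theorem s_peH (hJ : S_peJ) : S_peH := by
  intro S M r m a v κ χ hS hM ha hκ hk hr h
  refine ⟨⟨fun z hz => ?_, fun z hz => ?_⟩, fun a' v' κ' d χ' hd ha' hr' h' hw z hz => ?_⟩
  · have h0 : z ≠ 0 := by
      intro e
      have := mem_HP.1 hz
      rw [e] at this
      simp at this
      linarith
    have d1 := psi_dif hJ hS h v hz
    have d2 : DifferentiableAt ℂ (fun z => conj (psi S v χ (conj z))) z := by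
      have := (psi_dif hJ hS h v (conj_mem hz)).conj_conj
      simpa [Function.comp_def] using this
    have d3 : DifferentiableAt ℂ χ z := h.1.differentiableAt ((isOpen_HP S).mem_nhds hz)
    refine DifferentiableAt.differentiableWithinAt ?_
    unfold Hop Gn
    exact (((d1.const_mul _).add ((((d1.mul d2).pow m).const_mul _).mul d1)).div
      (differentiableAt_id.pow 2) (pow_ne_zero 2 h0)).sub
      ((d3.const_mul _).div differentiableAt_id h0)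
  · have p1 := psi_le hJ hS hM h v hz
    have p2 : ‖conj (psi S v χ (conj z))‖ ≤ r := by
      rw [Complex.norm_conj]
      exact (psi_le hJ hS hM h v (conj_mem hz)).trans hr
    have b1 := div_sq hS hz (gn_le ha hκ hk (p1.trans hr) p2 p1)
    have b2 := div_one' hS hz (nb ha) (h.2 z hz)
    unfold Hop
    rw [add_div]
    exact (norm_sub_le _ _).trans (add_le_add b1 b2)
  · have p1 := (psi_le hJ hS hM h v hz).trans hr
    have p1' := (psi_le hJ hS hM h' v' hz).trans hr'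
    have p2 : ‖conj (psi S v χ (conj z))‖ ≤ r := by
      rw [Complex.norm_conj]
      exact (psi_le hJ hS hM h v (conj_mem hz)).trans hr
    have p2' : ‖conj (psi S v' χ' (conj z))‖ ≤ r := by
      rw [Complex.norm_conj]
      exact (psi_le hJ hS hM h' v' (conj_mem hz)).trans hr'
    have q1 := psi_diff hJ hS hd h h' hw v v' hz
    have q2 : ‖conj (psi S v χ (conj z)) - conj (psi S v' χ' (conj z))‖ ≤
        ‖v - v'‖ + 2 * d / S := by
      rw [← map_sub, Complex.norm_conj]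
      exact psi_diff hJ hS hd h h' hw v v' (conj_mem hz)
    have b1 := div_sq hS hz (gn_diff (κ' := κ') ha ha' hκ hk p1 p2 p1' p2' q1 q2)
    have b2 := div_one' hS hz (nb ha) (hw z hz)
    have b3 := div_one' (c := 2 * (a - a')) (B := 2 * ‖a - a'‖) hS hz (by simp) (h'.2 z hz)
    have e : Hop S m a κ v χ z - Hop S m a' κ' v' χ' z =
        (Gn m a κ (psi S v χ z) (conj (psi S v χ (conj z)))
          - Gn m a' κ' (psi S v' χ' z) (conj (psi S v' χ' (conj z)))) / z ^ 2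
        - (6 - 2 * a) * (χ z - χ' z) / z + 2 * (a - a') * χ' z / z := by
      unfold Hop
      ring
    show ‖Hop S m a κ v χ z - Hop S m a' κ' v' χ' z‖ ≤ _
    rw [e]
    refine (norm_add_le _ _).trans ((add_le_add ((norm_sub_le _ _).trans (add_le_add b1 b2))
      b3).trans (le_of_eq ?_))
    ring

end P139
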