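import Vale.Agent.P139.PEDefs

/-! P139 part P, exterior: the operators `Kop` and `Jop`. -/

open Complex Set Filter Topology MeasureTheory

noncomputable section
namespace P139
namespace PEkj

/-- the integrand -/
def fi (c : ℝ) (e : ℂ) (H : ℂ → ℂ) (z : ℂ) (u : ℝ) : ℂ :=
  ((Real.exp (-(c * u)) : ℝ) : ℂ) * H (z + e * u)

/-- the majorant -/
def g (c : ℝ) (e : ℂ) (x u : ℝ) : ℝ := Real.exp (-(c * u)) / (x + u * e.re) ^ 2

/-- admissible parameters, `v x` is the integral of the majorant -/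
structure Ad (c : ℝ) (e : ℂ) (v : ℝ → ℝ) : Prop where
  re : 0 ≤ e.re
  int : ∀ x, 0 < x → IntegrableOn (g c e x) (Ioi 0)
  lim : ∀ x, 0 < x → Tendsto (g c e x) atTop (𝓝 0)
  val : ∀ x, 0 < x → ∫ u in Ioi (0 : ℝ), g c e x u = v x

variable {c S M : ℝ} {e : ℂ} {v : ℝ → ℝ} {H : ℂ → ℂ} {z : ℂ}

theorem wb_nonneg (hS : 0 < S) (h : WB S M H) : 0 ≤ M := by
  have h1 := (norm_nonneg _).trans (h ((S + 1 : ℝ) : ℂ) (by simp [mem_HP]))
  rw [ofReal_re, le_div_iff₀ (by positivity), zero_mul] at h1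
  exact h1

theorem re_add (z e : ℂ) (u : ℝ) : (z + e * u).re = z.re + u * e.re := by
  simp [mul_comm]

theorem mem_add (he : 0 ≤ e.re) (hz : z ∈ HP S) {u : ℝ} (hu : 0 ≤ u) : z + e * u ∈ HP S := by
  rw [mem_HP, re_add]
  exact lt_of_lt_of_le hz (le_add_of_nonneg_right (mul_nonneg hu he))

theorem norm_fi (c : ℝ) (e : ℂ) (H : ℂ → ℂ) (z : ℂ) (u : ℝ) :
    ‖fi c e H z u‖ = Real.exp (-(c * u)) * ‖H (z + e * u)‖ := by
  rw [fi, norm_mul, Complex.norm_real, Real.norm_of_nonneg (Real.exp_pos _).le]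

theorem fi_le (he : 0 ≤ e.re) (h : WB S M H) (hz : z ∈ HP S) {u : ℝ} (hu : 0 ≤ u) :
    ‖fi c e H z u‖ ≤ M * g c e z.re u := by
  have h1 := h _ (mem_add he hz hu)
  rw [re_add] at h1
  rw [norm_fi, g]
  calc _ ≤ Real.exp (-(c * u)) * (M / (z.re + u * e.re) ^ 2) :=
        mul_le_mul_of_nonneg_left h1 (Real.exp_pos _).le
    _ = _ := by ring

theorem fi_cont (he : 0 ≤ e.re) (h : ContinuousOn H (HP S)) (hz : z ∈ HP S) :
    ContinuousOn (fi c e H z) (Ioi 0) := by
  refine ContinuousOn.mul (by fun_prop) (h.comp (by fun_prop) fun u hu => ?_)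
  exact mem_add he hz (le_of_lt hu)

theorem fi_int (hA : Ad c e v) (hS : 0 < S) (h : HB S M H) (hz : z ∈ HP S) :
    IntegrableOn (fi c e H z) (Ioi 0) := by
  refine Integrable.mono' ((hA.int z.re (hS.trans hz)).const_mul M)
    ((fi_cont hA.re h.1.continuousOn hz).aestronglyMeasurable measurableSet_Ioi) ?_
  filter_upwards [ae_restrict_mem measurableSet_Ioi] with u hu
  exact fi_le hA.re h.2 hz (le_of_lt hu)

theorem int_le (hA : Ad c e v) (hS : 0 < S) (h : WB S M H) (hz : z ∈ HP S) :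
    ‖∫ u in Ioi (0 : ℝ), fi c e H z u‖ ≤ M * v z.re := by
  rw [← hA.val z.re (hS.trans hz), ← integral_const_mul]
  refine norm_integral_le_of_norm_le ((hA.int z.re (hS.trans hz)).const_mul M) ?_
  filter_upwards [ae_restrict_mem measurableSet_Ioi] with u hu
  exact fi_le hA.re h hz (le_of_lt hu)

theorem int_sub {M' : ℝ} {H' : ℂ → ℂ} (hA : Ad c e v) (hS : 0 < S) (h : HB S M H)
    (h' : HB S M' H') (hz : z ∈ HP S) :
    (∫ u in Ioi (0 : ℝ), fi c e H z u) - ∫ u in Ioi (0 : ℝ), fi c e H' z u =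
      ∫ u in Ioi (0 : ℝ), fi c e (fun z => H z - H' z) z u := by
  rw [← integral_sub (fi_int hA hS h hz) (fi_int hA hS h' hz)]
  simp only [fi, mul_sub]

/-- Cauchy estimate -/
theorem deriv_le (hS : 0 < S) (h : HB S M H) {p : ℂ} {δ y : ℝ} (hδ : 0 < δ) (hy : S ≤ y)
    (hp : y + δ < p.re) : ‖deriv H p‖ ≤ M / y ^ 2 / δ := by
  have hM := wb_nonneg hS h.2
  have key : ∀ w ∈ Metric.closedBall p δ, y < w.re := fun w hw => by
    have h1 := (Complex.abs_re_le_norm (w - p)).trans (mem_closedBall_iff_norm.1 hw)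
    rw [sub_re, abs_le] at h1
    linarith [h1.1]
  refine Complex.norm_deriv_le_of_forall_mem_sphere_norm_le hδ
    (h.1.diffContOnCl_ball fun w hw => lt_of_le_of_lt hy (key w hw)) fun w hw => ?_
  have h1 := key w (Metric.sphere_subset_closedBall hw)
  have hy0 : 0 < y := hS.trans_le hy
  refine (h.2 w (lt_of_le_of_lt hy h1)).trans ?_
  exact div_le_div_of_nonneg_left hM (by positivity) (pow_le_pow_left₀ hy0.le h1.le 2)

theorem hasDeriv (hA : Ad c e v) (hS : 0 < S) (h : HB S M H) (hz : z ∈ HP S) :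
    IntegrableOn (fi c e (deriv H) z) (Ioi 0) ∧
    HasDerivAt (fun w => ∫ u in Ioi (0 : ℝ), fi c e H w u)
      (∫ u in Ioi (0 : ℝ), fi c e (deriv H) z u) z := by
  obtain ⟨δ, hδ⟩ : ∃ δ : ℝ, δ = (z.re - S) / 3 := ⟨_, rfl⟩
  have hz' : S < z.re := hz
  have hδ0 : 0 < δ := by rw [hδ]; linarith
  have key : ∀ w ∈ Metric.ball z δ, S + δ < w.re := fun w hw => by
    have h1 := (Complex.abs_re_le_norm (w - z)).trans_lt (mem_ball_iff_norm.1 hw)
    rw [sub_re, abs_lt] at h1
    linarith [h1.1]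
  refine hasDerivAt_integral_of_dominated_loc_of_deriv_le (μ := volume.restrict (Ioi 0))
    (F := fun w u => fi c e H w u) (F' := fun w u => fi c e (deriv H) w u)
    (bound := fun u => M / δ * g c e S u) (Metric.ball_mem_nhds z hδ0) ?_ (fi_int hA hS h hz)
    ((fi_cont hA.re (h.1.deriv (isOpen_HP S)).continuousOn hz).aestronglyMeasurable
      measurableSet_Ioi) ?_ ((hA.int S hS).const_mul _) ?_
  · filter_upwards [(isOpen_HP S).mem_nhds hz] with w hw
    exact (fi_cont hA.re h.1.continuousOn hw).aestronglyMeasurable measurableSet_Ioi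
  · filter_upwards [ae_restrict_mem measurableSet_Ioi] with u hu w hw
    have hu' : 0 ≤ u * e.re := mul_nonneg (le_of_lt hu) hA.re
    have h1 := deriv_le hS h (p := w + e * u) hδ0 (y := S + u * e.re) (by linarith)
      (by rw [re_add]; linarith [key w hw])
    rw [norm_fi, g]
    calc _ ≤ Real.exp (-(c * u)) * (M / (S + u * e.re) ^ 2 / δ) :=
          mul_le_mul_of_nonneg_left h1 (Real.exp_pos _).le
      _ = _ := by ring
  · filter_upwards [ae_restrict_mem measurableSet_Ioi] with u hu w hw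
    have hw' : w ∈ HP S := by rw [mem_HP]; linarith [key w hw]
    have h1 : DifferentiableAt ℂ H (w + e * u) :=
      h.1.differentiableAt ((isOpen_HP S).mem_nhds (mem_add hA.re hw' (le_of_lt hu)))
    exact (h1.hasDerivAt.comp_add_const w (e * u)).const_mul _

theorem ode (hA : Ad c e v) (hS : 0 < S) (h : HB S M H) (hz : z ∈ HP S) :
    e * ∫ u in Ioi (0 : ℝ), fi c e (deriv H) z u =
      c * (∫ u in Ioi (0 : ℝ), fi c e H z u) - H z := by
  have i1 := fi_int hA hS h hz
  have i2 := (hasDeriv hA hS h hz).1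
  have hd : ∀ u ∈ Ici (0 : ℝ), HasDerivAt (fi c e H z)
      (e * fi c e (deriv H) z u - c * fi c e H z u) u := fun u hu => by
    have h1 : DifferentiableAt ℂ H (z + e * u) :=
      h.1.differentiableAt ((isOpen_HP S).mem_nhds (mem_add hA.re hz hu))
    have h2 : HasDerivAt (fun w : ℂ => z + e * w) e (u : ℂ) := by
      simpa using ((hasDerivAt_id (u : ℂ)).const_mul e).const_add z
    have h3 := (HasDerivAt.comp (u : ℂ) (h₂ := H) (h := fun w : ℂ => z + e * w)
      h1.hasDerivAt h2).comp_ofReal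
    have h4 : HasDerivAt (fun u : ℝ => Real.exp (-(c * u))) (Real.exp (-(c * u)) * (-c)) u := by
      simpa using (((hasDerivAt_id u).const_mul c).fun_neg).exp
    refine HasDerivAt.congr_deriv (h4.ofReal_comp.fun_mul h3) ?_
    simp only [fi]
    push_cast
    ring
  have hl : Tendsto (fi c e H z) atTop (𝓝 0) := by
    refine squeeze_zero_norm' ?_ (by simpa using (hA.lim z.re (hS.trans hz)).const_mul M)
    filter_upwards [eventually_ge_atTop (0 : ℝ)] with u hu
    exact fi_le hA.re h.2 hz hu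
  have h5 := integral_Ioi_of_hasDerivAt_of_tendsto' hd ((i2.const_mul e).sub (i1.const_mul _)) hl
  rw [integral_sub (i2.const_mul e) (i1.const_mul _), integral_const_mul, integral_const_mul] at h5
  have h6 : fi c e H z 0 = H z := by simp [fi]
  rw [h6] at h5
  linear_combination h5

theorem adK : Ad (1 / 4) I fun x => 4 / x ^ 2 := by
  have hd : ∀ x : ℝ, ∀ u ∈ Ici (0 : ℝ), HasDerivAt (fun u => -4 * g (1 / 4) I x u)
      (g (1 / 4) I x u) u := fun x u _ => by
    have h4 : HasDerivAt (fun u : ℝ => Real.exp (-(1 / 4 * u)))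
        (Real.exp (-(1 / 4 * u)) * (-(1 / 4))) u := by
      simpa using (((hasDerivAt_id u).const_mul (1 / 4 : ℝ)).fun_neg).exp
    simp only [g, I_re, mul_zero, add_zero]
    refine HasDerivAt.congr_deriv ((h4.div_const (x ^ 2)).const_mul (-4)) ?_
    ring
  have hl : ∀ x : ℝ, Tendsto (g (1 / 4) I x) atTop (𝓝 0) := fun x => by
    have h1 : Tendsto (fun u : ℝ => Real.exp (-(1 / 4 * u))) atTop (𝓝 0) :=
      Real.tendsto_exp_neg_atTop_nhds_zero.comp (tendsto_id.const_mul_atTop (by norm_num))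
    have := h1.div_const (x ^ 2)
    rw [zero_div] at this
    refine this.congr fun u => ?_
    simp only [g, I_re, mul_zero, add_zero]
  have hp : ∀ x : ℝ, ∀ u ∈ Ioi (0 : ℝ), 0 ≤ g (1 / 4) I x u := fun x u _ => by
    unfold g; positivity
  refine ⟨by simp, fun x _ => integrableOn_Ioi_deriv_of_nonneg' (hd x) (hp x)
    ((hl x).const_mul _), fun x _ => hl x, fun x _ => ?_⟩
  rw [integral_Ioi_of_hasDerivAt_of_nonneg' (hd x) (hp x) ((hl x).const_mul _)]
  simp only [g, I_re, mul_zero, add_zero, neg_zero, Real.exp_zero]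
  ring

theorem adJ : Ad 0 1 fun x => 1 / x := by
  have hg : ∀ x u : ℝ, g 0 1 x u = 1 / (x + u) ^ 2 := fun x u => by simp [g]
  have hd : ∀ x : ℝ, 0 < x → ∀ u ∈ Ici (0 : ℝ), HasDerivAt (fun u => -(x + u)⁻¹)
      (g 0 1 x u) u := fun x hx u hu => by
    have hu' : (0 : ℝ) ≤ u := hu
    refine HasDerivAt.congr_deriv
      ((((hasDerivAt_id u).const_add x).fun_inv (by simp only [id]; positivity)).fun_neg) ?_
    rw [hg]
    simp only [id]
    ring
  have hl : ∀ x : ℝ, Tendsto (fun u : ℝ => (x + u)⁻¹) atTop (𝓝 0) := fun x =>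
    tendsto_inv_atTop_zero.comp (tendsto_atTop_add_const_left _ x tendsto_id)
  have hp : ∀ x : ℝ, ∀ u ∈ Ioi (0 : ℝ), 0 ≤ g 0 1 x u := fun x u _ => by
    unfold g; positivity
  refine ⟨by simp, fun x hx => integrableOn_Ioi_deriv_of_nonneg' (hd x hx) (hp x) (hl x).neg,
    fun x _ => ?_, fun x hx => ?_⟩
  · have := (hl x).pow 2
    rw [zero_pow two_ne_zero] at this
    refine this.congr fun u => ?_
    rw [hg, inv_pow, one_div]
  · rw [integral_Ioi_of_hasDerivAt_of_nonneg' (hd x hx) (hp x) (hl x).neg]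
    simp

theorem kop_eq (H : ℂ → ℂ) : Kop H = fun z => -I * ∫ u in Ioi (0 : ℝ), fi (1 / 4) I H z u := by
  funext z
  unfold Kop fi
  congr 2
  funext u
  rw [show -u / 4 = -(1 / 4 * u) by ring]

theorem jop_eq (H : ℂ → ℂ) : Jop H = fun z => -∫ u in Ioi (0 : ℝ), fi 0 1 H z u := by
  funext z
  simp [Jop, fi]

end PEkj

open PEkj in
theorem s_peK : S_peK := by
  intro S M H hS h
  have hd : ∀ z ∈ HP S, HasDerivAt (Kop H) (H z - I / 4 * Kop H z) z := fun z hz => by
    rw [kop_eq]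
    refine HasDerivAt.congr_deriv ((hasDeriv adK hS h hz).2.const_mul (-I)) ?_
    have h1 := ode adK hS h hz
    push_cast at h1
    linear_combination (-1 : ℂ) * h1 - (∫ u in Ioi (0 : ℝ), fi (1 / 4) I H z u) / 4 * I_mul_I
  refine ⟨hd, ⟨fun z hz => (hd z hz).differentiableAt.differentiableWithinAt, fun z hz => ?_⟩,
    fun M' d H' h' hw z hz => ?_⟩
  · rw [kop_eq]
    simp only [norm_mul, norm_neg, norm_I, one_mul]
    exact (int_le adK hS h.2 hz).trans (le_of_eq (by ring))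
  · simp only [kop_eq]
    rw [← mul_sub, int_sub adK hS h h' hz, norm_mul, norm_neg, norm_I, one_mul]
    exact (int_le adK hS hw hz).trans (le_of_eq (by ring))

open PEkj in
theorem s_peJ : S_peJ := by
  intro S M H hS h
  refine ⟨fun z hz => ?_, fun z hz => ?_, fun M' d H' h' hw z hz => ?_⟩
  · rw [jop_eq]
    refine HasDerivAt.congr_deriv (hasDeriv adJ hS h hz).2.fun_neg ?_
    have h1 := ode adJ hS h hz
    push_cast at h1
    linear_combination (-1 : ℂ) * h1
  · rw [jop_eq]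
    simp only [norm_neg]
    exact (int_le adJ hS h.2 hz).trans (le_of_eq (by ring))
  · simp only [jop_eq]
    rw [← neg_sub', int_sub adJ hS h h' hz, norm_neg]
    exact (int_le adJ hS hw hz).trans (le_of_eq (by ring))

end P139
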