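import Vale.Agent.P139.PEDefs

open Complex Set Filter Topology MeasureTheory
open scoped ContDiff ComplexConjugate

noncomputable section
namespace P139

namespace PEode

theorem cpow_der (a : ℂ) {z : ℂ} (hz : 0 < z.re) :
    HasDerivAt (fun w : ℂ => w ^ (-a)) (-a * z ^ (-a) / z) z := by
  have hz0 : z ≠ 0 := fun h => by simp [h] at hz
  have h := (hasDerivAt_id z).cpow_const (c := -a) (Or.inl hz)
  refine h.congr_deriv ?_
  rw [id, Complex.cpow_sub _ _ hz0, cpow_one]
  ring

end PEode

open PEode in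
theorem s_peOde (hJ : S_peJ) : S_peOde := by
  intro S M m a v κ χ hS hχ hd
  have hS0 : 0 < S := by linarith
  have hpos : ∀ z ∈ HP S, 0 < z.re := fun z hz => hS0.trans hz
  have hne : ∀ z ∈ HP S, z ≠ 0 := fun z hz h => by simpa [h] using hpos z hz
  have hψ : ∀ z ∈ HP S, HasDerivAt (psi S v χ) (χ z) z := fun z hz =>
    (((hJ S M χ hS0 hχ).1 z hz).const_add v).sub_const _
  have h1 : ∀ z ∈ HP S, HasDerivAt (fun w => w ^ (-a) * psi S v χ w)
      (z ^ (-a) * (χ z - a * psi S v χ z / z)) z := fun z hz => by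
    refine ((cpow_der a (hpos z hz)).mul (hψ z hz)).congr_deriv ?_
    ring
  have h2 : ∀ z ∈ HP S, HasDerivAt (fun w => w ^ (-a) * (χ w - a * psi S v χ w / w))
      (z ^ (-a) * (Hop S m a κ v χ z - I / 4 * χ z - 2 * a * χ z / z +
        a * (a + 1) * psi S v χ z / z ^ 2)) z := fun z hz => by
    refine ((cpow_der a (hpos z hz)).mul ((hd z hz).sub
      (((hψ z hz).const_mul a).div (hasDerivAt_id z) (hne z hz)))).congr_deriv ?_
    have := hne z hz
    simp only [id, Pi.sub_apply, Pi.div_apply]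
    field_simp
    ring
  have hm : ∀ s : ℝ, S < s → (s : ℂ) ∈ HP S := fun s hs => by simpa [mem_HP] using hs
  have r1 : ∀ s : ℝ, S < s → deriv (Th S a v χ) s =
      (s : ℂ) ^ (-a) * (χ s - a * psi S v χ s / s) := fun s hs =>
    (h1 s (hm s hs)).comp_ofReal.deriv
  refine ⟨?_, fun s hs => ?_, ?_⟩
  · have hD : DifferentiableOn ℂ (fun w => w ^ (-a) * psi S v χ w) (HP S) := fun z hz =>
      (h1 z hz).differentiableAt.differentiableWithinAt
    exact ((hD.contDiffOn (isOpen_HP S)).restrict_scalars ℝ).comp ofRealCLM.contDiff.contDiffOn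
      fun s hs => hm s hs
  · have e : deriv (Th S a v χ) =ᶠ[𝓝 s]
        fun t : ℝ => (t : ℂ) ^ (-a) * (χ t - a * psi S v χ t / t) := by
      filter_upwards [Ioi_mem_nhds hs] with t ht using r1 t ht
    rw [e.deriv_eq, (h2 s (hm s hs)).comp_ofReal.deriv, r1 s hs]
    have := hne s (hm s hs)
    simp only [Th, Hop, Gn, conj_ofReal]
    field_simp
    ring
  · rw [r1 _ (by linarith)]
    simp only [psi, add_sub_cancel_right]

end P139
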