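import Vale.Agent.P139.PEDefs

/-! P139 part P: symbol bounds on the real axis from Cauchy estimates. -/

open Complex Set Filter Topology MeasureTheory
open scoped ContDiff ComplexConjugate

noncomputable section
namespace P139
namespace PEsymb

theorem iter_diff {S : ℝ} {F : ℂ → ℂ} (hF : DifferentiableOn ℂ F (HP S)) (k : ℕ) :
    DifferentiableOn ℂ (iteratedDeriv k F) (HP S) := by
  induction k with
  | zero => simpa using hF
  | succ k ih =>
    rw [iteratedDeriv_succ]
    exact ih.deriv (isOpen_HP S)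

theorem iter_real {S : ℝ} {F : ℂ → ℂ} (hF : DifferentiableOn ℂ F (HP S)) (k : ℕ) :
    ∀ s : ℝ, S < s → iteratedDeriv k (fun t : ℝ => F t) s = iteratedDeriv k F s := by
  induction k with
  | zero => intro s _; simp
  | succ k ih =>
    intro s hs
    rw [iteratedDeriv_succ, iteratedDeriv_succ]
    have h1 : iteratedDeriv k (fun t : ℝ => F t) =ᶠ[𝓝 s] fun t : ℝ => iteratedDeriv k F t := by
      filter_upwards [Ioi_mem_nhds hs] with t ht using ih t ht
    rw [h1.deriv_eq]
    have h2 : (s : ℂ) ∈ HP S := by simpa [mem_HP] using hs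
    exact ((iter_diff hF k).differentiableAt
      ((isOpen_HP S).mem_nhds h2)).hasDerivAt.comp_ofReal.deriv

theorem cpow_le {z a : ℂ} {s : ℝ} (hs : 0 < s) (hz : s / 2 ≤ z.re) (h0 : 0 ≤ a.re) (h1 : a.re ≤ 1)
    (h2 : |a.im| ≤ 1) : ‖z ^ (-a)‖ ≤ 2 * Real.exp Real.pi * s ^ (-a.re) := by
  refine (Complex.norm_cpow_le z (-a)).trans ?_
  have h3 : s / 2 ≤ ‖z‖ := hz.trans (re_le_norm z)
  have h4 : ‖z‖ ^ (-a).re ≤ 2 * s ^ (-a.re) := by
    rw [neg_re]
    refine (Real.rpow_le_rpow_of_nonpos (by positivity) h3 (by linarith)).trans ?_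
    rw [Real.div_rpow hs.le (by norm_num), Real.rpow_neg (by norm_num : (0 : ℝ) ≤ 2), div_inv_eq_mul,
      mul_comm]
    refine mul_le_mul_of_nonneg_right ?_ (by positivity)
    simpa using Real.rpow_le_rpow_of_exponent_le (by norm_num : (1 : ℝ) ≤ 2) h1
  have h5 : -(arg z * (-a).im) ≤ Real.pi := by
    refine (neg_le_abs _).trans ?_
    rw [abs_mul, neg_im, abs_neg]
    simpa using mul_le_mul (abs_arg_le_pi z) h2 (abs_nonneg _) Real.pi_pos.le
  rw [div_eq_mul_inv, ← Real.exp_neg]
  calc ‖z‖ ^ (-a).re * Real.exp (-(arg z * (-a).im))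
      ≤ 2 * s ^ (-a.re) * Real.exp Real.pi := by gcongr
    _ = _ := by ring

end PEsymb

open PEsymb in
theorem s_peSymb : S_peSymb := by
  intro S hS
  refine ⟨fun k => k.factorial * (4 * Real.exp Real.pi) * (2 * (S + 1)) ^ k,
    fun f a hf hb h0 h1 h2 k s hs => ?_⟩
  have hF : DifferentiableOn ℂ (fun z : ℂ => z ^ (-a) * f z) (HP S) := by
    refine DifferentiableOn.mul (fun z hz => ?_) hf
    refine (differentiableAt_id.cpow_const (Or.inl ?_)).differentiableWithinAt
    have : S < z.re := hz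
    simp only [id]
    linarith
  have hs0 : 0 < s := by linarith
  have hS0 : 0 < 2 * (S + 1) := by linarith
  obtain ⟨R, hR⟩ : ∃ R, R = s / (2 * (S + 1)) := ⟨_, rfl⟩
  have hR0 : 0 < R := by rw [hR]; positivity
  have hR1 : R * (2 * (S + 1)) = s := by rw [hR]; field_simp
  have hR2 : 1 ≤ 2 * R := by
    rw [hR, ← mul_div_assoc, le_div_iff₀ hS0]
    linarith
  have hre : ∀ z ∈ Metric.closedBall (s : ℂ) R, s - R ≤ z.re := by
    intro z hz
    have h3 := (abs_re_le_norm (z - s)).trans (mem_closedBall_iff_norm.1 hz)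
    rw [sub_re, ofReal_re] at h3
    linarith [(abs_le.1 h3).1]
  have hsub : Metric.closedBall (s : ℂ) R ⊆ HP S := by
    intro z hz
    have := hre z hz
    rw [mem_HP]
    nlinarith
  have key := Complex.norm_iteratedDeriv_le_of_forall_mem_sphere_norm_le
    (C := 4 * Real.exp Real.pi * s ^ (-a.re)) k hR0
    ((hF.mono hsub).diffContOnCl_ball subset_rfl) fun z hz => by
      have hz' := Metric.sphere_subset_closedBall hz
      have h3 := cpow_le (z := z) hs0 (by have := hre z hz'; nlinarith) h0 h1 h2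
      rw [norm_mul]
      calc ‖z ^ (-a)‖ * ‖f z‖ ≤ 2 * Real.exp Real.pi * s ^ (-a.re) * 2 :=
            mul_le_mul h3 (hb z (hsub hz')) (norm_nonneg _) (by positivity)
        _ = _ := by ring
  rw [iter_real hF k s (by linarith)]
  refine key.trans (le_of_eq ?_)
  rw [Real.rpow_sub hs0, Real.rpow_natCast, hR, div_pow]
  field_simp

end P139
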