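import Vale.Agent.P139.PEMain
import Vale.Agent.P139.PEkj
import Vale.Agent.P139.PEfix
import Vale.Agent.P139.PEh
import Vale.Agent.P139.PEode
import Vale.Agent.P139.PEsymb

/-! P139 part P: exterior solutions. -/

namespace P139

theorem s_pext : S_pext :=
  s_pext_of s_peK s_peJ s_peFix s_peStab (s_peH s_peJ) (s_peOde s_peJ) s_peSymb

end P139
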