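import Vale.Agent.P139.PStm

/-! P139 part P: uniform convergence to the limit profile -/

open Complex Set Filter Topology MeasureTheory
open scoped ContDiff ComplexConjugate

noncomputable section
namespace P139.PP

theorem s_conv (h1 : S_cv1) (h2 : S_cv2) (h3 : S_dqi) : S_conv := by
  intro D F A
  obtain ⟨-, -, hd⟩ := h3 D F
  have key : ∀ ε : ℝ, 0 < ε → ∀ᶠ j in atTop, ∀ r ∈ Icc (0 : ℝ) A,
      dist (F.qi r) (qq (F.Θ j) r) < ε ∧ dist (deriv F.qi r) (qd (F.Θ j) r) < ε := by
    intro ε hε
    filter_upwards [h1 D F (ε / 2) (by positivity), h2 D F A (ε / 2) (by positivity)]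
      with j a1 a2 r hr
    rw [dist_comm, dist_eq_norm, dist_comm, dist_eq_norm, hd r hr.1, FamC.qi, abs_of_nonneg hr.1]
    split_ifs with h
    · obtain ⟨b1, b2⟩ := a1 r ⟨hr.1, h⟩
      rw [sub_zero]
      constructor <;> linarith
    · obtain ⟨b1, b2⟩ := a2 r ⟨(not_le.1 h).le, hr.2⟩
      constructor <;> linarith
  constructor
  · rw [Metric.tendstoUniformlyOn_iff]
    intro ε hε
    filter_upwards [key ε hε] with j hj r hr using (hj r hr).1
  · rw [Metric.tendstoUniformlyOn_iff]
    intro ε hε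
    filter_upwards [key ε hε] with j hj r hr using (hj r hr).2

end P139.PP
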