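import Vale.Agent.P139.PStm

/-! P139 part P: convergence on the core -/

open Complex Set Filter Topology MeasureTheory
open scoped ContDiff ComplexConjugate

noncomputable section
namespace P139.PP

theorem Pcv1_Ftr (m : ℕ) (hm : 1 ≤ m) {β : ℝ} (h0 : 0 ≤ β) (h1 : β ≤ 1) (z : ℂ) :
    ‖Ftr m β z‖ ≤ 4 * ‖z‖ := by
  unfold Ftr
  rw [norm_mul]
  refine mul_le_mul_of_nonneg_right ?_ (norm_nonneg _)
  have hm' : (1 : ℝ) ≤ m := by exact_mod_cast hm
  have hg0 : 0 ≤ gam m := by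
    unfold gam
    positivity
  have hg1 : gam m ≤ 1 / 2 := by
    unfold gam
    exact one_div_le_one_div_of_le two_pos (by linarith)
  refine (norm_sub_le _ _).trans ?_
  rw [norm_mul, Complex.norm_I, one_mul, Complex.norm_real, ← Complex.ofReal_sub,
    Complex.norm_real, Real.norm_of_nonneg hg0, Real.norm_eq_abs]
  have a1 : min (‖z‖ ^ (2 * m)) 3 ≤ 3 := min_le_right _ _
  have a2 : 0 ≤ min (‖z‖ ^ (2 * m)) 3 := le_min (by positivity) (by norm_num)
  have : |min (‖z‖ ^ (2 * m)) 3 - β| ≤ 3 := abs_le.2 ⟨by linarith, by linarith⟩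
  linarith

theorem s_cv1 (h1 : S_tq) : S_cv1 := by
  intro D F ε hε
  have hR := F.R_pos
  have hR4 : F.R < 4 := by
    have := F.hx.2
    have := D.hx.2.2
    nlinarith
  have hT : ∀ᶠ j in atTop, F.R - ε / 100 ≤ F.T j :=
    F.T_lim.eventually (le_mem_nhds (by linarith))
  filter_upwards [hT, F.near (ε / 2) (by positivity), F.d1 4] with j a1 a2 a3 r hr
  rcases le_total r (F.T j) with h | h
  · obtain ⟨b1, b2⟩ := a2 r ⟨hr.1, h⟩
    constructor <;> linarith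
  · have hP := F.pre j
    have hT0 := hP.hT
    obtain ⟨-, -, -, hQ⟩ := h1 _ _ _ _ hP.sol
    obtain ⟨b1, b2⟩ := a2 (F.T j) ⟨hT0.le, le_rfl⟩
    have hb0 : 0 ≤ F.β j := by linarith [hP.hβ.1, D.hβ.1]
    have hb1 : F.β j ≤ 1 := by linarith [hP.hβ.2, D.hβ.2.2]
    have hq1 : ∀ x ∈ Ico (F.T j) F.R, ‖qd (F.Θ j) x‖ ≤ x := fun x hx =>
      a3 x ⟨by linarith [hx.1], by linarith [hx.2]⟩
    have hq : ∀ x : ℝ, ‖qq (F.Θ j) x‖ ≤ 2 := fun x => by
      have h2 := F.Nb j (x ^ 2) (sq_nonneg x)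
      by_contra hc
      have h3 : (1 : ℝ) ≤ ‖F.Θ j (x ^ 2)‖ := by
        unfold qq at hc
        linarith [not_le.1 hc]
      have h4 : ‖F.Θ j (x ^ 2)‖ ^ 1 ≤ ‖F.Θ j (x ^ 2)‖ ^ (2 * F.m j) :=
        pow_le_pow_right₀ h3 (by have := F.m_pos j; omega)
      unfold qq at hc
      rw [pow_one] at h4
      exact hc (h4.trans h2)
    have c1 : ‖qq (F.Θ j) r - qq (F.Θ j) (F.T j)‖ ≤ 4 * (r - F.T j) :=
      norm_image_sub_le_of_norm_deriv_le_segment' (f := qq (F.Θ j)) (f' := qd (F.Θ j))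
        (a := F.T j) (b := F.R) (fun x _ => (hQ.d0 x).hasDerivWithinAt)
        (fun x hx => (hq1 x hx).trans (by linarith [hx.2])) r ⟨h, hr.2⟩
    have c2 : ‖qd (F.Θ j) r - qd (F.Θ j) (F.T j)‖ ≤ 27 * (r - F.T j) := by
      refine norm_image_sub_le_of_norm_deriv_le_segment' (f := qd (F.Θ j))
        (f' := fun x => Ftr (F.m j) (F.β j) (qq (F.Θ j) x)
          - (11 / (x : ℂ) + I * x / 2) * qd (F.Θ j) x)
        (a := F.T j) (b := F.R) (fun x hx => (hQ.d1 x (by linarith [hx.1])).hasDerivWithinAt)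
        (fun x hx => ?_) r ⟨h, hr.2⟩
      have hx0 : 0 < x := by linarith [hx.1]
      have hx4 : x < 4 := by linarith [hx.2]
      refine (norm_sub_le _ _).trans ?_
      have d1 := Pcv1_Ftr (F.m j) (F.m_pos j) hb0 hb1 (qq (F.Θ j) x)
      have d2 : ‖11 / (x : ℂ) + I * x / 2‖ ≤ 11 / x + x / 2 := by
        refine (norm_add_le _ _).trans (le_of_eq ?_)
        simp [abs_of_pos hx0]
      have d3 : ‖(11 / (x : ℂ) + I * x / 2) * qd (F.Θ j) x‖ ≤ (11 / x + x / 2) * x := by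
        rw [norm_mul]
        exact mul_le_mul d2 (hq1 x hx) (norm_nonneg _) (by positivity)
      have d4 : (11 / x + x / 2) * x = 11 + x ^ 2 / 2 := by field_simp
      have := hq x
      nlinarith
    have e1 := norm_sub_le_norm_sub_add_norm_sub (qq (F.Θ j) r) (qq (F.Θ j) (F.T j)) 1
    have e2 := norm_le_norm_sub_add (qd (F.Θ j) r) (qd (F.Θ j) (F.T j))
    have := hr.2
    constructor <;> linarith

end P139.PP
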