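import Vale.Agent.P139.PStm

/-! P139 part P: convergence outside the free boundary. -/

open Complex Set Filter Topology MeasureTheory
open scoped ContDiff ComplexConjugate

noncomputable section
namespace P139.PP

theorem Pcv2_free {β : ℝ} {U : ℝ → ℂ} (hs : ContDiffOn ℝ ∞ U (Ioi 0))
    (ho : ∀ s : ℝ, 0 < s → FreeF β 0 0 U s = 0) (c : ℂ) {r : ℝ} (hr : 0 < r) :
    HasDerivAt (fun x : ℝ => U (x ^ 2) / c) (2 * r * deriv U (r ^ 2) / c) r ∧
    HasDerivAt (fun x : ℝ => 2 * x * deriv U (x ^ 2) / c)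
      (-β * (U (r ^ 2) / c) - (11 / (r : ℂ) + I * r / 2) * (2 * r * deriv U (r ^ 2) / c)) r := by
  have h2 : 0 < r ^ 2 := by positivity
  have h1 : ContDiffOn ℝ ∞ (deriv U) (Ioi 0) := hs.deriv_of_isOpen isOpen_Ioi (by simp)
  have d0 := ((hs.contDiffAt (Ioi_mem_nhds h2)).differentiableAt (by simp)).hasDerivAt
  have d1 := ((h1.contDiffAt (Ioi_mem_nhds h2)).differentiableAt (by simp)).hasDerivAt
  have p : HasDerivAt (fun x : ℝ => x ^ 2) (2 * r) r := by
    simpa using hasDerivAt_pow 2 r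
  have e := ho _ h2
  unfold FreeF at e
  push_cast at e
  have hr' : (r : ℂ) ≠ 0 := by exact_mod_cast hr.ne'
  constructor
  · have := (HasDerivAt.scomp (h := fun x : ℝ => x ^ 2) r d0 p).div_const c
    rw [real_smul] at this
    push_cast at this
    exact this
  · have := (((hasDerivAt_id r).ofReal_comp.const_mul 2).mul 
      (HasDerivAt.scomp (h := fun x : ℝ => x ^ 2) r d1 p)).div_const c
    refine HasDerivAt.congr_deriv this ?_
    simp only [real_smul, id, Function.comp]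
    push_cast
    have e' : 4 * (r : ℂ) ^ 2 * deriv (deriv U) (r ^ 2) = -(24 * deriv U (r ^ 2)
        + I * r ^ 2 * deriv U (r ^ 2) + β * U (r ^ 2)) := by
      linear_combination (-I) * e + (4 * (r : ℂ) ^ 2 * deriv (deriv U) (r ^ 2)
        + 24 * deriv U (r ^ 2) + β * U (r ^ 2)) * I_sq
    have e2 : (11 / (r : ℂ) + I * r / 2) * (2 * r * deriv U (r ^ 2) / c)
        = (22 + I * r ^ 2) * deriv U (r ^ 2) / c := by
      field_simp
      ring
    rw [e2]
    linear_combination e' / c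

theorem Pcv2_f {m : ℕ} {β β' N : ℝ} {z : ℂ} (hz : ‖z‖ ≤ 2) (hN : ‖z‖ ^ (2 * m) ≤ N) :
    ‖Ftr m β z + β' * z‖ ≤ (N + gam m + |β' - β|) * 2 := by
  have hg : 0 ≤ gam m := by unfold gam; positivity
  have h0 : 0 ≤ min (‖z‖ ^ (2 * m)) 3 := le_min (by positivity) (by norm_num)
  have e : Ftr m β z + β' * z = (((min (‖z‖ ^ (2 * m)) 3 : ℝ) : ℂ) - I * gam m
      + ((β' - β : ℝ) : ℂ)) * z := by
    unfold Ftr
    push_cast
    ring
  rw [e, norm_mul]
  refine mul_le_mul ?_ hz (norm_nonneg _) (by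
    have := abs_nonneg (β' - β)
    have : 0 ≤ ‖z‖ ^ (2 * m) := by positivity
    linarith)
  refine (norm_add_le _ _).trans (add_le_add ((norm_sub_le _ _).trans (add_le_add ?_ ?_)) ?_)
  · rw [norm_real, Real.norm_of_nonneg h0]
    exact (min_le_left _ _).trans hN
  · rw [norm_mul, norm_I, one_mul, norm_real, Real.norm_of_nonneg hg]
  · rw [norm_real, Real.norm_eq_abs]

theorem s_cv2 (h1 : S_gw) (h2 : S_cv1) (h3 : S_tq) : S_cv2 := by
  intro D F A ε hε
  have hR : 1 ≤ F.R := by nlinarith [F.hx.1, D.hx.1, F.R_pos]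
  obtain ⟨η, hη, H⟩ := h1 F.R A 10 ε hR hε
  obtain ⟨θ, hθ, hlt⟩ := F.lt (η / 2) (by linarith)
  have hU0 : D.U F.βl (F.R ^ 2) ≠ 0 := by
    have := D.ne _ F.hβ _ F.hx
    rwa [show 4 * (F.R ^ 2 / 4) = F.R ^ 2 by ring] at this
  have hm2 : Tendsto (fun j => 2 * F.m j) atTop atTop :=
    tendsto_atTop_mono (fun j => by omega) F.m_lim
  have e1 : ∀ᶠ j in atTop, F.T j ≤ F.R + η / 2 :=
    F.T_lim.eventually (eventually_le_nhds (by linarith))
  have e2 : ∀ᶠ j in atTop, (max θ 0) ^ (2 * F.m j) ≤ η / 8 :=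
    ((tendsto_pow_atTop_nhds_zero_of_lt_one (le_max_right θ 0) (max_lt hθ one_pos)).comp
      hm2).eventually (eventually_le_nhds (by linarith))
  have e3 : ∀ᶠ j in atTop, gam (F.m j) ≤ η / 8 := by
    have := (tendsto_one_div_atTop_nhds_zero_nat (𝕜 := ℝ)).comp hm2
    refine (this.eventually (eventually_le_nhds (show 0 < η / 8 by linarith))).mono fun j h => ?_
    simpa [gam] using h
  have e4 : ∀ᶠ j in atTop, |F.βl - F.β j| ≤ η / 8 := by
    have := (F.β_lim.const_sub F.βl).abs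
    rw [sub_self, abs_zero] at this
    exact this.eventually (eventually_le_nhds (by linarith))
  filter_upwards [e1, e2, e3, e4, hlt A, h2 D F η hη] with j a1 a2 a3 a4 a5 a6
  have Q := (h3 _ _ _ _ (F.pre j).sol).2.2.2
  have hm := F.m_pos j
  have nb : ∀ x : ℝ, ‖qq (F.Θ j) x‖ ^ (2 * F.m j) ≤ 2 := fun x => F.Nb j _ (sq_nonneg x)
  have n2 : ∀ x : ℝ, ‖qq (F.Θ j) x‖ ≤ 2 := fun x => by
    by_contra hc
    have h4 : (2 : ℝ) ^ 2 ≤ 2 ^ (2 * F.m j) := pow_le_pow_right₀ (by norm_num) (by omega)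
    have h5 : (2 : ℝ) ^ (2 * F.m j) ≤ ‖qq (F.Θ j) x‖ ^ (2 * F.m j) :=
      pow_le_pow_left₀ (by norm_num) (not_le.1 hc).le _
    linarith [nb x]
  have b1 := F.hβ
  have b2 := (F.pre j).hβ
  have b3 := D.hβ
  refine H F.βl (fun x => qq (F.Θ j) x - D.U F.βl (x ^ 2) / D.U F.βl (F.R ^ 2))
    (fun x => qd (F.Θ j) x - 2 * x * deriv (D.U F.βl) (x ^ 2) / D.U F.βl (F.R ^ 2))
    (fun x => Ftr (F.m j) (F.β j) (qq (F.Θ j) x) + F.βl * qq (F.Θ j) x)
    ⟨by linarith [b1.1], by linarith [b1.2]⟩ (fun x hx => ?_) ?_ ?_ (fun x _ => ?_) fun x hx => ?_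
  · have hx0 : 0 < x := by linarith [hx.1]
    have G := Pcv2_free (D.smooth _ b1) (D.ode _ b1) (D.U F.βl (F.R ^ 2)) hx0
    refine ⟨(Q.d0 x).sub G.1, HasDerivAt.congr_deriv ((Q.d1 x hx0).sub G.2) ?_⟩
    ring
  · have := (a6 F.R ⟨F.R_pos.le, le_rfl⟩).1
    simpa [div_self hU0] using this
  · have := (a6 F.R ⟨F.R_pos.le, le_rfl⟩).2
    simpa [F.root0] using this
  · refine (Pcv2_f (n2 x) (nb x)).trans ?_
    have g1 : gam (F.m j) ≤ 1 := by
      unfold gam
      have : (1 : ℝ) ≤ F.m j := by exact_mod_cast hm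
      rw [div_le_one (by linarith)]
      linarith
    have g2 : |F.βl - F.β j| ≤ 1 := abs_le.2 ⟨by linarith [b1.1, b2.2], by linarith [b1.2, b2.1]⟩
    linarith
  · have h6 := a5 x ⟨by linarith [hx.1], hx.2⟩
    have h7 : ‖qq (F.Θ j) x‖ ^ (2 * F.m j) ≤ η / 8 :=
      (pow_le_pow_left₀ (norm_nonneg _) (h6.trans (le_max_left θ 0)) _).trans a2
    refine (Pcv2_f (n2 x) h7).trans ?_
    linarith

end P139.PP
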