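import Vale.Agent.P139.PStm

/-! P139 part P: higher derivatives from the equation, uniformly in `m`. -/

open Complex Set Filter Topology MeasureTheory
open scoped ContDiff ComplexConjugate

noncomputable section
namespace P139.PP

/-- smooth on the positive half line with derivatives of order `≤ k` at `s` bounded by `a` -/
def Pder_B (k : ℕ) (s : ℝ) (f : ℝ → ℂ) (a : ℝ) : Prop :=
  ContDiffOn ℝ ∞ f (Ioi 0) ∧ ∀ i ≤ k, ‖iteratedDeriv i f s‖ ≤ a

lemma Pder_at {f : ℝ → ℂ} (hf : ContDiffOn ℝ ∞ f (Ioi 0)) {s : ℝ} (hs : 0 < s) (i : ℕ) :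
    ContDiffAt ℝ i f s :=
  (hf.contDiffAt (isOpen_Ioi.mem_nhds hs)).of_le (by exact_mod_cast le_top)

lemma Pder_nonneg {k : ℕ} {s : ℝ} {f : ℝ → ℂ} {a : ℝ} (h : Pder_B k s f a) : 0 ≤ a :=
  (norm_nonneg _).trans (h.2 0 (Nat.zero_le _))

lemma Pder_sub {k : ℕ} {s : ℝ} (hs : 0 < s) {f g : ℝ → ℂ} {a b : ℝ} (hf : Pder_B k s f a)
    (hg : Pder_B k s g b) : Pder_B k s (fun x => f x - g x) (a + b) := by
  refine ⟨hf.1.sub hg.1, fun i hi => ?_⟩
  rw [iteratedDeriv_fun_sub (Pder_at hf.1 hs i) (Pder_at hg.1 hs i)]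
  exact (norm_sub_le _ _).trans (add_le_add (hf.2 i hi) (hg.2 i hi))

lemma Pder_mul {k : ℕ} {s : ℝ} (hs : 0 < s) {f g : ℝ → ℂ} {a b : ℝ} (hf : Pder_B k s f a)
    (hg : Pder_B k s g b) : Pder_B k s (fun x => f x * g x) (2 ^ k * a * b) := by
  refine ⟨hf.1.mul hg.1, fun i hi => ?_⟩
  rw [iteratedDeriv_fun_mul (Pder_at hf.1 hs i) (Pder_at hg.1 hs i)]
  have ha := Pder_nonneg hf
  have hb := Pder_nonneg hg
  calc _ ≤ ∑ j ∈ Finset.range (i + 1), (i.choose j : ℝ) * (a * b) := by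
        refine (norm_sum_le _ _).trans (Finset.sum_le_sum fun j hj => ?_)
        have hj' : j ≤ i := Nat.lt_succ_iff.1 (Finset.mem_range.1 hj)
        rw [norm_mul, norm_mul, Complex.norm_natCast, mul_assoc]
        exact mul_le_mul_of_nonneg_left (mul_le_mul (hf.2 j (by omega)) (hg.2 (i - j) (by omega))
          (norm_nonneg _) ha) (Nat.cast_nonneg _)
    _ = 2 ^ i * (a * b) := by
        rw [← Finset.sum_mul, ← Nat.cast_sum, Nat.sum_range_choose]; push_cast; ring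
    _ ≤ 2 ^ k * (a * b) :=
        mul_le_mul_of_nonneg_right (pow_le_pow_right₀ (by norm_num) hi) (mul_nonneg ha hb)
    _ = _ := by ring

lemma Pder_iter_conj (f : ℝ → ℂ) (i : ℕ) :
    iteratedDeriv i (fun x => conj (f x)) = fun x => conj (iteratedDeriv i f x) := by
  induction i with
  | zero => simp
  | succ i ih =>
    rw [iteratedDeriv_succ, ih, iteratedDeriv_succ]
    funext x
    exact deriv.star

lemma Pder_conj {k : ℕ} {s : ℝ} {f : ℝ → ℂ} {a : ℝ} (hf : Pder_B k s f a) :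
    Pder_B k s (fun x => conj (f x)) a := by
  refine ⟨conjCLE.contDiff.comp_contDiffOn hf.1, fun i hi => ?_⟩
  rw [Pder_iter_conj]
  simpa using hf.2 i hi

lemma Pder_const (k : ℕ) (s : ℝ) (c : ℂ) : Pder_B k s (fun _ => c) ‖c‖ := by
  refine ⟨contDiffOn_const, fun i _ => ?_⟩
  rw [iteratedDeriv_const]
  split_ifs <;> simp

lemma Pder_mono {k : ℕ} {s : ℝ} {f : ℝ → ℂ} {a b : ℝ} (hf : Pder_B k s f a) (h : a ≤ b) :
    Pder_B k s f b := ⟨hf.1, fun i hi => (hf.2 i hi).trans h⟩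

lemma Pder_fixed {f : ℝ → ℂ} (hf : ContDiffOn ℝ ∞ f (Ioi 0)) {s₁ : ℝ} (s₂ : ℝ) (h : 0 < s₁)
    (k : ℕ) : ∃ C : ℝ, ∀ s ∈ Icc s₁ s₂, Pder_B k s f C := by
  have h1 : ∀ i : ℕ, ∃ C : ℝ, ∀ s ∈ Icc s₁ s₂, ‖iteratedDeriv i f s‖ ≤ C := by
    intro i
    have hc : ContinuousOn (iteratedDeriv i f) (Ioi 0) :=
      (hf.continuousOn_iteratedDerivWithin (m := i) (by exact_mod_cast le_top)
        isOpen_Ioi.uniqueDiffOn).congr fun x hx => (iteratedDerivWithin_of_isOpen isOpen_Ioi hx).symm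
    exact isCompact_Icc.exists_bound_of_continuousOn
      (hc.mono fun x hx => lt_of_lt_of_le h hx.1)
  choose C hC using h1
  refine ⟨∑ i ∈ Finset.range (k + 1), |C i|, fun s hs => ⟨hf, fun i hi => ?_⟩⟩
  refine (hC i s hs).trans ((le_abs_self _).trans ?_)
  exact Finset.single_le_sum (f := fun i => |C i|) (fun _ _ => abs_nonneg _)
    (Finset.mem_range.2 (by omega))

lemma Pder_gam (m : ℕ) (hm : 1 ≤ m) : 0 ≤ gam m ∧ gam m ≤ 1 := by
  have h : (1 : ℝ) ≤ m := by exact_mod_cast hm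
  unfold gam
  refine ⟨by positivity, ?_⟩
  rw [div_le_one (by positivity)]; linarith

theorem s_der (h1 : S_pow) : S_der := by
  intro θ s₁ s₂ k hθ hs₁
  have key : ∀ k : ℕ, ∃ C : ℝ, ∀ (m : ℕ) (β : ℝ) (Θ : ℝ → ℂ), 1 ≤ m → β ∈ Icc (0 : ℝ) 1 →
      ContDiffOn ℝ ∞ Θ (Ioi 0) → (∀ s : ℝ, 0 < s → POde m β Θ s) → ∀ s ∈ Icc s₁ s₂,
      ‖Θ s‖ ≤ θ → ‖deriv Θ s‖ ≤ 1 → ∀ i ≤ k + 1, ‖iteratedDeriv i Θ s‖ ≤ C := by
    intro k
    induction k with
    | zero =>
      refine ⟨1, fun m β Θ _ _ _ _ s _ h0 h1 i hi => ?_⟩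
      interval_cases i
      · simpa using h0.trans hθ.le
      · simpa using h1
    | succ k ih =>
      obtain ⟨C, hC⟩ := ih
      have hre : ContDiff ℝ ∞ (fun x : ℝ => (x : ℂ)) := ofRealCLM.contDiff
      obtain ⟨A₁, hA₁⟩ := Pder_fixed (f := fun x : ℝ => (4 * (x : ℂ))⁻¹)
        ((contDiff_const.mul hre).contDiffOn.inv fun x hx => by
          have : (x : ℂ) ≠ 0 := by exact_mod_cast (ne_of_gt hx)
          simpa using this) s₂ hs₁ k
      obtain ⟨A₂, hA₂⟩ := Pder_fixed (f := fun x : ℝ => 24 + I * (x : ℂ))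
        ((contDiff_const.add (contDiff_const.mul hre)).contDiffOn) s₂ hs₁ k
      obtain ⟨A₃, hA₃⟩ := h1 (max θ 0) (2 ^ k * C * C) k (max_lt hθ one_pos)
      refine ⟨max C (2 ^ k * A₁ * (2 ^ k * A₃ * C + 2 ^ k * A₂ * C + 2 ^ k * 2 * C)),
        fun m β Θ hm hβ hΘ hode s hs h0 h1 i hi => ?_⟩
      have hb := hC m β Θ hm hβ hΘ hode s hs h0 h1
      rcases Nat.lt_or_ge i (k + 1 + 1) with hlt | hge
      · exact (hb i (by omega)).trans (le_max_left _ _)
      obtain rfl : i = k + 2 := by omega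
      refine le_trans ?_ (le_max_right _ _)
      have hs0 : 0 < s := lt_of_lt_of_le hs₁ hs.1
      have bΘ : Pder_B k s Θ C := ⟨hΘ, fun i hi => hb i (by omega)⟩
      have bΘ' : Pder_B k s (deriv Θ) C := by
        refine ⟨hΘ.deriv_of_isOpen isOpen_Ioi (by simp), fun i hi => ?_⟩
        rw [← iteratedDeriv_succ']
        exact hb _ (by omega)
      have bρ := Pder_mul hs0 bΘ (Pder_conj bΘ)
      have hρ : ‖Θ s * conj (Θ s)‖ ≤ max θ 0 := by
        rw [norm_mul, Complex.norm_conj]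
        have := norm_nonneg (Θ s)
        refine le_trans ?_ (le_max_left _ _)
        nlinarith
      have bp : Pder_B k s (fun x => (Θ x * conj (Θ x)) ^ m) A₃ :=
        ⟨bρ.1.pow m, hA₃ m _ s hs0 bρ.1 hρ bρ.2⟩
      have bc : Pder_B k s (fun _ => (β : ℂ) + I * gam m) 2 := by
        refine Pder_mono (Pder_const k s _) ?_
        have := Pder_gam m hm
        refine (norm_add_le _ _).trans ?_
        rw [norm_mul, Complex.norm_I, Complex.norm_real, Complex.norm_real, Real.norm_eq_abs,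
          Real.norm_eq_abs, abs_of_nonneg hβ.1, abs_of_nonneg this.1]
        linarith [hβ.2, this.2]
      have bg := Pder_mul hs0 (hA₁ s hs) (Pder_sub hs0 (Pder_sub hs0 (Pder_mul hs0 bp bΘ)
        (Pder_mul hs0 (hA₂ s hs) bΘ')) (Pder_mul hs0 bc bΘ))
      have he : deriv (deriv Θ) =ᶠ[𝓝 s] fun x : ℝ => (4 * (x : ℂ))⁻¹ *
          ((Θ x * conj (Θ x)) ^ m * Θ x - (24 + I * (x : ℂ)) * deriv Θ x
            - ((β : ℂ) + I * gam m) * Θ x) := by
        filter_upwards [isOpen_Ioi.mem_nhds hs0] with x hx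
        have hx' : (x : ℂ) ≠ 0 := by exact_mod_cast (ne_of_gt hx)
        have h := hode x hx
        unfold POde at h
        rw [← h]
        field_simp
        ring
      rw [iteratedDeriv_succ', iteratedDeriv_succ', he.iteratedDeriv_eq]
      exact bg.2 k le_rfl
  obtain ⟨C, hC⟩ := key k
  exact ⟨C, fun m β Θ hm hβ hΘ hode s hs h0 h1 i hi =>
    hC m β Θ hm hβ hΘ hode s hs h0 h1 i (by omega)⟩

end P139.PP
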