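import Vale.Agent.P139.PStm

/-! P139 part P: the limit profile and its derivative -/

open Complex Set Filter Topology MeasureTheory
open scoped ContDiff ComplexConjugate

noncomputable section
namespace P139.PP

theorem s_dqi (h1 : S_qne) : S_dqi := by
  intro D F
  have hR := F.R_pos
  have hs : ContDiffOn ℝ ∞ (D.U F.βl) (Ioi 0) := D.smooth _ F.hβ
  have hne : D.U F.βl (F.R ^ 2) ≠ 0 := by
    have := D.ne _ F.hβ _ F.hx
    rwa [show 4 * (F.R ^ 2 / 4) = F.R ^ 2 by ring] at this
  have hq := h1 F.βl (F.R ^ 2) (D.U F.βl) ⟨hs, D.ode _ F.hβ⟩ (by positivity) F.root0 hne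
  have hd : ∀ s : ℝ, 0 < s → HasDerivAt (D.U F.βl) (deriv (D.U F.βl) s) s := fun s hs' =>
    ((hs.contDiffAt (Ioi_mem_nhds hs')).differentiableAt (by simp)).hasDerivAt
  have hg : ∀ r : ℝ, 0 < r →
      HasDerivAt (fun x : ℝ => D.U F.βl (x ^ 2) / D.U F.βl (F.R ^ 2))
        (2 * r * deriv (D.U F.βl) (r ^ 2) / D.U F.βl (F.R ^ 2)) r := fun r hr => by
    have h2 : HasDerivAt (fun x : ℝ => x ^ 2) (2 * r) r := by
      simpa using hasDerivAt_pow 2 r
    have h3 := (HasDerivAt.scomp r (hd (r ^ 2) (by positivity)) h2).div_const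
      (D.U F.βl (F.R ^ 2))
    refine h3.congr_deriv ?_
    simp
  have hin : ∀ r : ℝ, |r| ≤ F.R → F.qi r = 1 := fun r hr => by simp [FamC.qi, hr]
  have hout : ∀ r : ℝ, F.R ≤ |r| → F.qi r = D.U F.βl (r ^ 2) / D.U F.βl (F.R ^ 2) :=
    fun r hr => by
      unfold FamC.qi
      split_ifs with h
      · have : r ^ 2 = F.R ^ 2 := by rw [← sq_abs r, le_antisymm h hr]
        rw [this, div_self hne]
      · rfl
  refine ⟨fun r => ?_, ?_, fun r hr => ?_⟩
  · rcases le_total |r| F.R with h | h
    · rw [hin r h]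
      exact one_ne_zero
    · rw [hout r h]
      refine div_ne_zero (hq _ ?_) hne
      rw [← sq_abs r]
      exact pow_le_pow_left₀ hR.le h 2
  · have hform : F.qi = fun r => D.U F.βl (max (r ^ 2) (F.R ^ 2)) / D.U F.βl (F.R ^ 2) := by
      funext r
      rcases le_total |r| F.R with h | h
      · have : r ^ 2 ≤ F.R ^ 2 := by
          rw [← sq_abs r]
          exact pow_le_pow_left₀ (abs_nonneg _) h 2
        rw [hin r h, max_eq_right this, div_self hne]
      · have : F.R ^ 2 ≤ r ^ 2 := by
          rw [← sq_abs r]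
          exact pow_le_pow_left₀ hR.le h 2
        rw [hout r h, max_eq_left this]
    rw [hform]
    refine Continuous.div_const ?_ _
    refine hs.continuousOn.comp_continuous (by fun_prop) fun r => ?_
    exact lt_max_of_lt_right (pow_pos hR 2)
  · rcases lt_trichotomy r F.R with h | h | h
    · rw [if_pos h.le]
      have : F.qi =ᶠ[𝓝 r] fun _ => 1 := by
        filter_upwards [Ioo_mem_nhds (show -F.R < r by linarith) h] with x hx
        exact hin x (abs_le.2 ⟨hx.1.le, hx.2.le⟩)
      rw [this.deriv_eq, deriv_const]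
    · rw [if_pos h.le, h]
      have ha : HasDerivWithinAt F.qi 0 (Iic F.R) F.R := by
        refine (hasDerivWithinAt_const F.R (Iic F.R) (1 : ℂ)).congr_of_eventuallyEq ?_
          (hin _ (abs_of_pos hR).le)
        filter_upwards [mem_nhdsWithin_of_mem_nhds (Ioi_mem_nhds (show -F.R < F.R by linarith)),
          self_mem_nhdsWithin] with x hx hx'
        exact hin x (abs_le.2 ⟨le_of_lt hx, hx'⟩)
      have hb : HasDerivWithinAt F.qi 0 (Ici F.R) F.R := by
        have h4 := (hg F.R hR).hasDerivWithinAt (s := Ici F.R)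
        rw [F.root0, mul_zero, zero_div] at h4
        exact h4.congr (fun x hx => hout x (le_trans hx (le_abs_self x)))
          (hout _ (le_abs_self _))
      have hc := ha.union hb
      rw [Iic_union_Ici, hasDerivWithinAt_univ] at hc
      exact hc.deriv
    · rw [if_neg (not_le.2 h)]
      have : F.qi =ᶠ[𝓝 r] fun x => D.U F.βl (x ^ 2) / D.U F.βl (F.R ^ 2) := by
        filter_upwards [Ioi_mem_nhds h] with x hx
        exact hout x (le_trans (le_of_lt hx) (le_abs_self x))
      rw [this.deriv_eq, (hg r (hR.trans h)).deriv]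

end P139.PP
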