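import Vale.Agent.P139.PStm

open Complex Set Filter Topology MeasureTheory
open scoped ContDiff ComplexConjugate

noncomputable section
namespace P139.PP

theorem s_ege (h1 : S_conv) (h2 : S_dqi) : S_ege := by
  intro D F
  have hS := F.hS
  obtain ⟨r₀, -, hr₀⟩ := (isCompact_Icc (a := (0 : ℝ)) (b := F.S)).exists_isMinOn
    ⟨0, le_rfl, by linarith⟩ (h2 D F).2.1.norm.continuousOn
  have hc : 0 < ‖F.qi r₀‖ := norm_pos_iff.2 ((h2 D F).1 _)
  refine ⟨‖F.qi r₀‖ / 4, by positivity, ?_⟩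
  filter_upwards [Metric.tendstoUniformlyOn_iff.1 (h1 D F F.S).1 _ (half_pos hc)] with j hj
  have key : ∀ s, 1 ≤ s → s ≤ F.S → ‖F.qi r₀‖ / 2 ≤ ‖F.Θ j s‖ := fun s h1 hs => by
    have hr : √s ∈ Icc 0 F.S :=
      ⟨Real.sqrt_nonneg _, (Real.sqrt_le_left (by linarith)).2 (by nlinarith)⟩
    have h3 := hj _ hr
    have h4 : ‖F.qi r₀‖ ≤ ‖F.qi √s‖ := hr₀ hr
    rw [dist_eq_norm, qq, Real.sq_sqrt (by linarith)] at h3
    linarith [norm_sub_norm_le (F.qi √s) (F.Θ j s)]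
  intro s hs
  rcases le_total s F.S with h | h
  · have hg : 0 ≤ gam (F.m j) := by unfold gam; positivity
    have h5 := mul_le_mul_of_nonneg_right (Real.one_le_rpow hs hg) (norm_nonneg (F.Θ j s))
    linarith [key s hs h]
  · linarith [(F.ext j s h).1, key F.S (by linarith) le_rfl]

end P139.PP
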