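import Vale.Agent.P139.PStm

/-! P139 part P: uniform bound below one outside the core -/

open Complex Set Filter Topology MeasureTheory
open scoped ContDiff ComplexConjugate

noncomputable section
namespace P139.PP

theorem Pelt_gam_nonneg (m : ℕ) : 0 ≤ gam m := by
  unfold gam
  positivity

theorem Pelt_gam_lim : Tendsto gam atTop (𝓝 0) := by
  unfold gam
  refine Tendsto.div_atTop tendsto_const_nhds ?_
  exact Tendsto.const_mul_atTop two_pos tendsto_natCast_atTop_atTop

theorem s_elt : S_elt := by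
  intro D F δ hδ
  obtain ⟨θ, hθ, hlt⟩ := F.lt (δ / 2) (by positivity)
  have hS := F.hS
  have hR := F.R_pos
  have hθ0 : max θ 0 < 1 := max_lt hθ one_pos
  refine ⟨max ((1 + max θ 0) / 2) F.θ', max_lt (by linarith) F.hθ, ?_⟩
  have hT : ∀ᶠ j in atTop, F.T j ≤ F.R + δ / 2 :=
    F.T_lim.eventually (ge_mem_nhds (by linarith))
  have hg : Tendsto (fun j => F.S ^ gam (F.m j) * max θ 0) atTop (𝓝 (F.S ^ (0 : ℝ) * max θ 0)) := by
    refine Tendsto.mul_const _ ?_
    exact (Real.continuousAt_const_rpow (by linarith)).tendsto.comp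
      (Pelt_gam_lim.comp F.m_lim)
  rw [Real.rpow_zero, one_mul] at hg
  have hg' : ∀ᶠ j in atTop, F.S ^ gam (F.m j) * max θ 0 ≤ (1 + max θ 0) / 2 :=
    hg.eventually (ge_mem_nhds (by linarith))
  filter_upwards [hT, hg', hlt F.S] with j a1 a2 a3 s hs
  rcases le_total s F.S with h | h
  · have hs0 : 0 ≤ s := le_trans (sq_nonneg _) hs
    have h1 : F.R + δ ≤ √s := Real.le_sqrt_of_sq_le hs
    have h2 : √s ≤ F.S := Real.sqrt_le_iff.2 ⟨by linarith, by nlinarith⟩
    have h3 := a3 √s ⟨by linarith, h2⟩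
    rw [qq, Real.sq_sqrt hs0] at h3
    refine le_trans ?_ (le_max_left _ _)
    refine le_trans ?_ a2
    exact mul_le_mul (Real.rpow_le_rpow hs0 h (Pelt_gam_nonneg _)) (h3.trans (le_max_left _ _))
      (norm_nonneg _) (Real.rpow_nonneg (by linarith) _)
  · exact (F.ext j s h).2.trans (le_max_right _ _)

end P139.PP
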