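import Vale.Agent.P139.PStm

/-! P139 part P: the mismatch estimate. -/

open Complex Set Filter Topology MeasureTheory
open scoped ContDiff ComplexConjugate

noncomputable section
namespace P139.PP

theorem Pest_alg (U1 U1' U2 U2' Θ1 Θ1' Θ2 Θ2' a1 b1 a2 b2 e l : ℂ) (hU : U1 ≠ 0) (ha : a1 ≠ 0)
    (hb : b1 ≠ 0) (hl : l * U2 = U2') :
    -((Θ2' - e) * U2 * a2 * b2) / (U1 * a1 * b1) - U1' / U1 =
      -((a2 * b2 * (Θ2' * U2 - Θ2 * U2') - a1 * b1 * (Θ1' * U1 - Θ1 * U1'))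
        - (e - Θ2 * l) * U2 * a2 * b2) / (U1 * a1 * b1) - Θ1' + (Θ1 - 1) * (U1' / U1) := by
  subst hl
  field_simp
  ring

theorem Pest_exp (s : ℝ) : ‖cexp (I * s / 4)‖ = 1 := by
  have : I * (s : ℂ) / 4 = ((s / 4 : ℝ) : ℂ) * I := by push_cast; ring
  rw [this, norm_exp_ofReal_mul_I]

theorem Pest_bd (D : FreeData) (S₂ : ℝ) : ∃ B : ℝ, 0 ≤ B ∧ ∀ β ∈ Icc D.β₁ D.β₂,
    ∀ s ∈ Icc (8 : ℝ) S₂, ‖D.U β s‖ ≤ B ∧ ‖deriv (D.U β) s‖ ≤ B := by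
  have hK : IsCompact (Icc D.β₁ D.β₂ ×ˢ Icc (8 : ℝ) S₂) := isCompact_Icc.prod isCompact_Icc
  have hsub : Icc D.β₁ D.β₂ ×ˢ Icc (8 : ℝ) S₂ ⊆ Icc D.β₁ D.β₂ ×ˢ Ioi 0 :=
    prod_mono subset_rfl fun s hs => lt_of_lt_of_le (by norm_num) hs.1
  obtain ⟨B1, h1⟩ := hK.exists_bound_of_continuousOn (D.cont.mono hsub)
  obtain ⟨B2, h2⟩ := hK.exists_bound_of_continuousOn (D.cont'.mono hsub)
  refine ⟨max 0 (max B1 B2), le_max_left _ _, fun β hβ s hs => ⟨?_, ?_⟩⟩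
  · exact (h1 (β, s) ⟨hβ, hs⟩).trans ((le_max_left _ _).trans (le_max_right _ _))
  · exact (h2 (β, s) ⟨hβ, hs⟩).trans ((le_max_right _ _).trans (le_max_right _ _))

theorem Pest_lb (D : FreeData) : ∃ b : ℝ, 0 < b ∧ ∀ β ∈ Icc D.β₁ D.β₂,
    ∀ x ∈ Icc D.x₁ D.x₂, b ≤ ‖D.U β (4 * x)‖ := by
  have hK : IsCompact (Icc D.β₁ D.β₂ ×ˢ Icc D.x₁ D.x₂) := isCompact_Icc.prod isCompact_Icc
  have hne : (Icc D.β₁ D.β₂ ×ˢ Icc D.x₁ D.x₂).Nonempty :=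
    (nonempty_Icc.2 D.hβ.2.1.le).prod (nonempty_Icc.2 D.hx.2.1.le)
  have hc : ContinuousOn (fun p : ℝ × ℝ => ‖D.U p.1 (4 * p.2)‖)
      (Icc D.β₁ D.β₂ ×ˢ Icc D.x₁ D.x₂) := by
    have hm : ContinuousOn (fun p : ℝ × ℝ => (p.1, 4 * p.2)) (Icc D.β₁ D.β₂ ×ˢ Icc D.x₁ D.x₂) := by
      fun_prop
    refine (D.cont.comp hm ?_).norm
    intro p hp
    refine ⟨hp.1, ?_⟩
    have h1 := D.hx.1
    have h2 := hp.2.1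
    show (0 : ℝ) < 4 * p.2
    linarith
  obtain ⟨p, hp, hmin⟩ := hK.exists_isMinOn hne hc
  refine ⟨‖D.U p.1 (4 * p.2)‖, norm_pos_iff.2 (D.ne _ hp.1 _ hp.2), fun β hβ x hx => ?_⟩
  exact hmin (show (β, x) ∈ Icc D.β₁ D.β₂ ×ˢ Icc D.x₁ D.x₂ from ⟨hβ, hx⟩)

theorem s_est (h1 : S_wr) : S_est := by
  intro D S₂ ε₀ hS hε₀
  obtain ⟨B, hB0, hB⟩ := Pest_bd D S₂
  obtain ⟨b, hb0, hb⟩ := Pest_lb D
  have hS0 : 0 < S₂ := by linarith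
  set K : ℝ := (S₂ ^ 5 * B * (27 + 2 * S₂) + B * S₂ ^ 6) / b + 1 + B / b with hK
  have hK0 : 0 < K := by positivity
  refine ⟨min 1 (ε₀ / K), lt_min one_pos (div_pos hε₀ hK0), ?_⟩
  set ε := min 1 (ε₀ / K) with hεdef
  have hε0 : 0 < ε := lt_min one_pos (div_pos hε₀ hK0)
  have hε1 : ε ≤ 1 := min_le_left _ _
  have hεK : ε * K ≤ ε₀ := by
    have : ε ≤ ε₀ / K := min_le_right _ _
    rwa [le_div_iff₀ hK0] at this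
  clear_value ε
  intro m β a T Θ e l hβ hT hx hsol hg hq1 hqd h2 hη hl he
  have hx1 := D.hx.1
  have hx2 := D.hx.2.2
  have hT8 : 8 < T ^ 2 := by linarith [hx.1]
  have hT16 : T ^ 2 < 16 := by linarith [hx.2]
  have hT4 : T < 4 := by nlinarith
  have hT2 : 2 < T := by nlinarith
  have hs0 : (T + ε) ^ 2 ≤ S₂ := by nlinarith
  have hs10 : T ^ 2 ≤ (T + ε) ^ 2 := by nlinarith
  have hd : (T + ε) ^ 2 - T ^ 2 ≤ 9 * ε := by nlinarith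
  have hsq : ∀ s : ℝ, 0 ≤ s → qq Θ (√s) = Θ s := fun s hs => by
    unfold qq; rw [Real.sq_sqrt hs]
  have hsqle : ∀ s : ℝ, s ≤ S₂ → √s ≤ S₂ := fun s hs => by
    rw [Real.sqrt_le_left hS0.le]; nlinarith
  have hF : FSol β (D.U β) := ⟨D.smooth β hβ, D.ode β hβ⟩
  have hW := h1 m β a (T ^ 2) ((T + ε) ^ 2) S₂ B ε Θ (D.U β) hsol hF (by positivity) hs10 hs0
    (fun s hs => ⟨by
      rw [← hsq s (by linarith [hs.1])]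
      exact h2 _ ⟨Real.le_sqrt_of_sq_le hs.1, hsqle s hs.2⟩,
      (hB β hβ s ⟨by linarith [hs.1], hs.2⟩).1⟩)
    (fun s hs => by
      rw [← hsq s (by linarith [hs.1])]
      exact hη _ ⟨Real.le_sqrt_of_sq_le hs.1, hsqle s hs.2⟩)
  have hW' : ‖Wr Θ (D.U β) S₂ - Wr Θ (D.U β) (T ^ 2)‖ ≤ ε * (S₂ ^ 5 * B * (27 + 2 * S₂)) := by
    refine hW.trans ?_
    have h3 : 3 * ((T + ε) ^ 2 - T ^ 2) + (ε + gam m) * S₂ ≤ ε * (27 + 2 * S₂) := by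
      nlinarith [mul_le_mul_of_nonneg_right hg hS0.le]
    calc S₂ ^ 5 * B * (3 * ((T + ε) ^ 2 - T ^ 2) + (ε + gam m) * S₂)
        ≤ S₂ ^ 5 * B * (ε * (27 + 2 * S₂)) := by gcongr
      _ = _ := by ring
  have hU1 : b ≤ ‖D.U β (T ^ 2)‖ := by
    have := hb β hβ _ hx
    rwa [show 4 * (T ^ 2 / 4) = T ^ 2 by ring] at this
  have hU1ne : D.U β (T ^ 2) ≠ 0 := norm_pos_iff.1 (hb0.trans_le hU1)
  have hTm : T ^ 2 ∈ Icc (8 : ℝ) S₂ := ⟨hT8.le, by linarith⟩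
  have hSm : S₂ ∈ Icc (8 : ℝ) S₂ := ⟨by linarith, le_rfl⟩
  have ha1 : (((T ^ 2 : ℝ) : ℂ)) ^ 6 ≠ 0 := by
    apply pow_ne_zero; exact_mod_cast (by positivity : (T ^ 2 : ℝ) ≠ 0)
  have hkey := Pest_alg (D.U β (T ^ 2)) (deriv (D.U β) (T ^ 2)) (D.U β S₂) (deriv (D.U β) S₂)
    (Θ (T ^ 2)) (deriv Θ (T ^ 2)) (Θ S₂) (deriv Θ S₂) (((T ^ 2 : ℝ) : ℂ) ^ 6)
    (cexp (I * (T ^ 2 : ℝ) / 4)) ((S₂ : ℂ) ^ 6) (cexp (I * S₂ / 4)) e l hU1ne ha1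
    (exp_ne_zero _) hl
  have hPhi : Phi (D.U β) (T ^ 2) S₂ (deriv Θ S₂ - e) - deriv (D.U β) (T ^ 2) / D.U β (T ^ 2) =
      -((Wr Θ (D.U β) S₂ - Wr Θ (D.U β) (T ^ 2))
        - (e - Θ S₂ * l) * D.U β S₂ * (S₂ : ℂ) ^ 6 * cexp (I * S₂ / 4)) /
        (D.U β (T ^ 2) * ((T ^ 2 : ℝ) : ℂ) ^ 6 * cexp (I * (T ^ 2 : ℝ) / 4))
        - deriv Θ (T ^ 2) + (Θ (T ^ 2) - 1) * (deriv (D.U β) (T ^ 2) / D.U β (T ^ 2)) := hkey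
  rw [hPhi]
  have hnum : ‖(Wr Θ (D.U β) S₂ - Wr Θ (D.U β) (T ^ 2))
      - (e - Θ S₂ * l) * D.U β S₂ * (S₂ : ℂ) ^ 6 * cexp (I * S₂ / 4)‖
      ≤ ε * (S₂ ^ 5 * B * (27 + 2 * S₂) + B * S₂ ^ 6) := by
    refine (norm_sub_le _ _).trans ?_
    have : ‖(e - Θ S₂ * l) * D.U β S₂ * (S₂ : ℂ) ^ 6 * cexp (I * S₂ / 4)‖ ≤ ε * B * S₂ ^ 6 := by
      rw [norm_mul, norm_mul, norm_mul, Pest_exp, norm_pow, Complex.norm_real,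
        Real.norm_of_nonneg hS0.le, mul_one]
      have := (hB β hβ S₂ hSm).1
      gcongr
    nlinarith
  have hden : b ≤ ‖D.U β (T ^ 2) * ((T ^ 2 : ℝ) : ℂ) ^ 6 * cexp (I * (T ^ 2 : ℝ) / 4)‖ := by
    rw [norm_mul, norm_mul, Pest_exp, norm_pow, Complex.norm_real,
      Real.norm_of_nonneg (by positivity), mul_one]
    have : (1 : ℝ) ≤ (T ^ 2) ^ 6 := one_le_pow₀ (by linarith)
    nlinarith
  have t1 : ‖-((Wr Θ (D.U β) S₂ - Wr Θ (D.U β) (T ^ 2))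
        - (e - Θ S₂ * l) * D.U β S₂ * (S₂ : ℂ) ^ 6 * cexp (I * S₂ / 4)) /
        (D.U β (T ^ 2) * ((T ^ 2 : ℝ) : ℂ) ^ 6 * cexp (I * (T ^ 2 : ℝ) / 4))‖
      ≤ ε * (S₂ ^ 5 * B * (27 + 2 * S₂) + B * S₂ ^ 6) / b := by
    rw [norm_div, norm_neg]
    gcongr
  have t2 : ‖deriv Θ (T ^ 2)‖ ≤ ε := by
    have : ‖qd Θ T‖ = 2 * T * ‖deriv Θ (T ^ 2)‖ := by
      unfold qd
      rw [norm_mul, norm_mul, Complex.norm_real, Real.norm_of_nonneg hT.le]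
      simp
    rw [this] at hqd
    nlinarith [norm_nonneg (deriv Θ (T ^ 2))]
  have t3 : ‖(Θ (T ^ 2) - 1) * (deriv (D.U β) (T ^ 2) / D.U β (T ^ 2))‖ ≤ ε * (B / b) := by
    rw [norm_mul, norm_div]
    have h5 := (hB β hβ _ hTm).2
    have h6 : ‖Θ (T ^ 2) - 1‖ ≤ ε := hq1
    gcongr
  refine (norm_add_le _ _).trans ?_
  refine (add_le_add (norm_sub_le _ _) le_rfl).trans ?_
  refine le_trans ?_ hεK
  have : ε * K = ε * (S₂ ^ 5 * B * (27 + 2 * S₂) + B * S₂ ^ 6) / b + ε + ε * (B / b) := by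
    rw [hK]; ring
  linarith

end P139.PP
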