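import Vale.Agent.P139.PStm

open Complex Set Filter Topology MeasureTheory
open scoped ContDiff ComplexConjugate

noncomputable section
namespace P139.PP

theorem s_esy (h1 : S_der) (h2 : S_elt) (h3 : S_sm) : S_esy := by
  intro D F δ hδ k
  obtain ⟨θ, hθ, hel⟩ := h2 D F δ hδ
  have hR := F.R_pos
  have hS := F.hS
  have hR1 : 1 ≤ (F.R + δ) ^ 2 := by nlinarith [F.hx.1, D.hx.1]
  obtain ⟨C₁, hC⟩ := h1 θ ((F.R + δ) ^ 2) (F.S + 1) k hθ (by linarith)
  refine ⟨|C₁| * (F.S + 1) ^ (1 + (k : ℝ)) + |F.Cf k|, ?_⟩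
  filter_upwards [hel, F.d1 (F.S + 1)] with j hj hd s hs
  have hs1 : 1 ≤ s := hR1.trans hs
  have hp : 0 < s ^ (-(gam (F.m j)) - (k : ℝ)) := Real.rpow_pos_of_pos (by linarith) _
  have hA : 0 ≤ |C₁| * (F.S + 1) ^ (1 + (k : ℝ)) := by positivity
  have hg : 0 ≤ gam (F.m j) := by unfold gam; positivity
  have hg1 : gam (F.m j) ≤ 1 := by
    have : (1 : ℝ) ≤ F.m j := by exact_mod_cast F.m_pos j
    unfold gam
    rw [div_le_one (by linarith)]
    linarith
  rcases le_total s (F.S + 1) with h | h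
  · obtain ⟨ε, hε, hsm, hode⟩ := h3 _ _ _ _ (F.pre j).sol (F.Nb j)
    have hβ : F.β j ∈ Icc (0 : ℝ) 1 :=
      ⟨by linarith [(F.pre j).hβ.1, D.hβ.1], by linarith [(F.pre j).hβ.2, D.hβ.2.2]⟩
    have e1 : ‖F.Θ j s‖ ≤ θ := by
      linarith [hj s hs,
        mul_le_mul_of_nonneg_right (Real.one_le_rpow hs1 hg) (norm_nonneg (F.Θ j s))]
    have e2 : ‖deriv (F.Θ j) s‖ ≤ 1 := by
      have hr : 0 < √s := Real.sqrt_pos.2 (by linarith)
      have := hd √s ⟨hr.le, (Real.sqrt_le_left (by linarith)).2 (by nlinarith)⟩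
      rw [qd, Real.sq_sqrt (by linarith), norm_mul, norm_mul, norm_real, Real.norm_of_nonneg hr.le,
        Complex.norm_ofNat] at this
      nlinarith [norm_nonneg (deriv (F.Θ j) s)]
    have e3 := hC _ _ _ (F.m_pos j) hβ (hsm.mono (Ioi_subset_Ioi (by linarith)))
      (fun x hx => hode x (by linarith)) s ⟨hs, h⟩ e1 e2 k le_rfl
    have e4 : 1 ≤ (F.S + 1) ^ (1 + (k : ℝ)) * s ^ (-(gam (F.m j)) - (k : ℝ)) := by
      refine le_trans ?_ (mul_le_mul_of_nonneg_right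
        (Real.rpow_le_rpow (by linarith) h (by positivity)) hp.le)
      rw [← Real.rpow_add (by linarith)]
      exact Real.one_le_rpow hs1 (by linarith)
    nlinarith [le_abs_self C₁, mul_le_mul_of_nonneg_left e4 (abs_nonneg C₁),
      mul_nonneg (abs_nonneg (F.Cf k)) hp.le]
  · refine (F.symb j k s h).trans (mul_le_mul_of_nonneg_right ?_ hp.le)
    linarith [le_abs_self (F.Cf k)]

end P139.PP
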