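import Vale.Agent.P139.PStm

open Complex Set Filter Topology MeasureTheory
open scoped ContDiff ComplexConjugate

noncomputable section
namespace P139.PP

/-- projection of the parameter to the unit interval -/
def Pex_c (β : ℝ) : ℝ := max 0 (min β 1)

theorem Pex_c_mem (β : ℝ) : Pex_c β ∈ Icc (0 : ℝ) 1 :=
  ⟨le_max_left _ _, max_le zero_le_one (min_le_right _ _)⟩

theorem Pex_c_eq {β : ℝ} (h : β ∈ Icc (0 : ℝ) 1) : Pex_c β = β := by
  unfold Pex_c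
  rw [min_eq_left h.2, max_eq_right h.1]

theorem Pex_c_cont : Continuous Pex_c := by
  unfold Pex_c
  fun_prop

theorem Pex_F_cont1 (m : ℕ) (β : ℝ) : Continuous (Ftr m β) := by
  unfold Ftr
  fun_prop

theorem Pex_F_comp {X : Type} [TopologicalSpace X] (m : ℕ) {f : X → ℝ} {g : X → ℂ}
    (hf : Continuous f) (hg : Continuous g) : Continuous fun x => Ftr m (f x) (g x) := by
  unfold Ftr
  fun_prop

theorem Pex_F_sub (m : ℕ) (β β' : ℝ) (z : ℂ) :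
    ‖Ftr m β z - Ftr m β' z‖ ≤ |β - β'| * ‖z‖ := by
  have h : Ftr m β z - Ftr m β' z = -(((β - β' : ℝ) : ℂ) * z) := by
    unfold Ftr
    push_cast
    ring
  rw [h, norm_neg, norm_mul, Complex.norm_real, Real.norm_eq_abs]

theorem s_ex (h1 : S_lip) (h2 : S_fix1) (h3 : S_fix2) : S_ex := by
  intro m
  obtain ⟨L, hL, hlip⟩ := h1 m
  have hex : ∀ a β : ℝ, ∃ Θ : ℝ → ℂ, Θ 0 = a ∧
      ∀ s : ℝ, HasDerivAt Θ (DG (Ftr m (Pex_c β)) Θ s) s := fun a β =>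
    h2 _ L hL (hlip _ (Pex_c_mem β)) (by simp [Ftr]) a
  choose Θ hΘ0 hΘ using hex
  have hc : ∀ a β, Continuous (Θ a β) := fun a β =>
    continuous_iff_continuousAt.2 fun s => (hΘ a β s).continuousAt
  have hcont : Continuous (fun x : ℝ × ℝ × ℝ => Θ x.1 x.2.1 x.2.2) := by
    rw [continuous_iff_continuousAt]
    rintro ⟨a₀, β₀, s₀⟩
    set A : ℝ := |s₀| + 1 with hA
    have hA0 : 0 ≤ A := by positivity
    obtain ⟨B, hB⟩ := (isCompact_Icc (a := -A) (b := A)).exists_bound_of_continuousOn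
      (hc a₀ β₀).continuousOn
    have hF0 : Continuous (Ftr m (Pex_c β₀)) := Pex_F_cont1 m _
    have key : ∀ a β : ℝ, ∀ s ∈ Icc (-A) A, ‖Θ a₀ β₀ s - Θ a β s‖ ≤
        2 * (‖(a₀ : ℂ) - a‖ + |Pex_c β₀ - Pex_c β| * B * A) * Real.exp (L * A) := by
      intro a β s hs
      have := h3 (Ftr m (Pex_c β₀)) (Ftr m (Pex_c β)) L |Pex_c β₀ - Pex_c β| B A (Θ a₀ β₀)
        (Θ a β) hL (abs_nonneg _) hA0 hF0 (hlip _ (Pex_c_mem β)) (Pex_F_sub m _ _) (hΘ a₀ β₀)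
        (hΘ a β) hB s hs
      rwa [hΘ0, hΘ0] at this
    have hg : Continuous fun x : ℝ × ℝ × ℝ =>
        2 * (‖(a₀ : ℂ) - x.1‖ + |Pex_c β₀ - Pex_c x.2.1| * B * A) * Real.exp (L * A) := by
      have := Pex_c_cont
      fun_prop
    have hg0 : Tendsto (fun x : ℝ × ℝ × ℝ =>
        2 * (‖(a₀ : ℂ) - x.1‖ + |Pex_c β₀ - Pex_c x.2.1| * B * A) * Real.exp (L * A))
        (𝓝 (a₀, β₀, s₀)) (𝓝 0) := by
      have := hg.tendsto (a₀, β₀, s₀)
      simpa using this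
    have hev : ∀ᶠ x : ℝ × ℝ × ℝ in 𝓝 (a₀, β₀, s₀), x.2.2 ∈ Icc (-A) A := by
      have hs : Icc (-A) A ∈ 𝓝 s₀ :=
        Icc_mem_nhds (by linarith [neg_abs_le s₀]) (by linarith [le_abs_self s₀])
      exact (continuous_snd.comp continuous_snd).continuousAt.preimage_mem_nhds hs
    have hd : Tendsto (fun x : ℝ × ℝ × ℝ => Θ a₀ β₀ x.2.2 - Θ x.1 x.2.1 x.2.2)
        (𝓝 (a₀, β₀, s₀)) (𝓝 0) :=
      squeeze_zero_norm' (hev.mono fun x hx => key x.1 x.2.1 x.2.2 hx) hg0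
    have he : Tendsto (fun x : ℝ × ℝ × ℝ => Θ a₀ β₀ x.2.2) (𝓝 (a₀, β₀, s₀))
        (𝓝 (Θ a₀ β₀ s₀)) :=
      ((hc a₀ β₀).comp (continuous_snd.comp continuous_snd)).tendsto (a₀, β₀, s₀)
    have := he.sub hd
    simp only [sub_sub_cancel, sub_zero] at this
    exact this
  refine ⟨Θ, hcont, ?_, ?_⟩
  · unfold Dint
    refine continuous_const.mul ?_
    refine intervalIntegral.continuous_parametric_intervalIntegral_of_continuous'
      (f := fun (x : ℝ × ℝ × ℝ) (t : ℝ) => (t : ℂ) ^ 5 * cexp (I * x.2.2 * (t - 1) / 4) *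
        Ftr m x.2.1 (Θ x.1 x.2.1 (x.2.2 * t))) ?_ 0 1
    have ha : Continuous fun y : (ℝ × ℝ × ℝ) × ℝ => Θ y.1.1 y.1.2.1 (y.1.2.2 * y.2) :=
      hcont.comp (f := fun y : (ℝ × ℝ × ℝ) × ℝ => (y.1.1, y.1.2.1, y.1.2.2 * y.2)) (by fun_prop)
    have hb : Continuous fun y : (ℝ × ℝ × ℝ) × ℝ =>
        Ftr m y.1.2.1 (Θ y.1.1 y.1.2.1 (y.1.2.2 * y.2)) :=
      Pex_F_comp m (by fun_prop) ha
    have hc' : Continuous fun y : (ℝ × ℝ × ℝ) × ℝ =>
        (y.2 : ℂ) ^ 5 * cexp (I * y.1.2.2 * (y.2 - 1) / 4) := by fun_prop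
    exact hc'.mul hb
  · intro a β hβ
    refine ⟨hΘ0 a β, fun s => ?_⟩
    have := hΘ a β s
    rw [Pex_c_eq hβ] at this
    exact this

end P139.PP
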