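import Vale.Agent.P139.PStm

/-! P139 part P: the family of matched solutions. -/

open Complex Set Filter Topology MeasureTheory
open scoped ContDiff ComplexConjugate

noncomputable section
namespace P139.PP

theorem Pfam_β {D : FreeData} {m : ℕ} {β a T : ℝ} {Θ : ℝ → ℂ} (h : Pre D m β a T Θ) :
    β ∈ Icc (3 / 10 : ℝ) (4 / 10) :=
  ⟨D.hβ.1.le.trans h.hβ.1, h.hβ.2.trans D.hβ.2.2.le⟩

theorem Pfam_T {D : FreeData} {m : ℕ} {β a T : ℝ} {Θ : ℝ → ℂ} (h : Pre D m β a T Θ) :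
    T ∈ Icc (0 : ℝ) 4 := by
  refine ⟨h.hT.le, ?_⟩
  have h1 := h.hx.2
  have h2 := D.hx.2.2
  nlinarith [h.hT]

/-- the interior asymptotics for `Pre` solutions -/
theorem Pfam_asy (h6 : S_tq) (D : FreeData) (A : AsyD) (S ε δ : ℝ) (hε : 0 < ε) (hδ : 0 < δ) :
    ∀ᶠ m : ℕ in atTop, ∀ (β a T : ℝ) (Θ : ℝ → ℂ), Pre D m β a T Θ →
    (∀ r ∈ Icc (0 : ℝ) T, ‖qq Θ r - 1‖ ≤ ε ∧ ‖qd Θ r‖ ≤ ε) ∧
    (∀ r ∈ Icc (0 : ℝ) S, ‖qq Θ r‖ ^ (2 * m) ≤ 2 ∧ ‖qd Θ r‖ ≤ r) ∧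
    (∀ r ∈ Icc (0 : ℝ) (T + A.δ₁), (m : ℝ) ^ 2 * (conj (qq Θ r) * qd Θ r).re ≤ A.C) ∧
    (∀ r ∈ Icc (T + δ) S, ‖qq Θ r‖ ≤ A.θf δ) := by
  filter_upwards [A.asy S ε δ hε hδ] with m hm β a T Θ h
  refine hm β (Pfam_β h) _ _ a T (h6 m β a Θ h.sol).2.2.2 ?_ h.ha (Pfam_T h) h.ge h.le
  simpa [qq] using h.sol.1

theorem s_fam (h1 : S_asy) (h2 : S_pext) (h3 : S_zero) (h4 : S_phi) (h5 : S_un) (h6 : S_tq) :
    S_fam := by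
  intro D
  obtain ⟨A⟩ := asyD h1
  obtain ⟨θ, hθ⟩ : ∃ θ : ℝ, θ = max (A.θf 1) (1 / 2) := ⟨_, rfl⟩
  have hθ0 : 0 < θ := hθ ▸ lt_of_lt_of_le (by norm_num) (le_max_right _ _)
  have hθ1 : θ < 1 := hθ ▸ max_lt (A.hθ 1 one_pos) (by norm_num)
  have hθf : A.θf 1 ≤ θ := hθ ▸ le_max_left _ _
  obtain ⟨E⟩ := extD h2 hθ0 hθ1
  have hS := E.hS
  have key : ∀ᶠ m : ℕ in atTop, 1 ≤ m ∧ ∃ (β a T : ℝ) (Θ : ℝ → ℂ), Pre D m β a T Θ ∧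
      deriv Θ (E.S₁ + 1) = deriv (E.Θe m β (Θ (E.S₁ + 1))) (E.S₁ + 1) ∧
      (∀ s : ℝ, 0 ≤ s → ‖Θ s‖ ^ (2 * m) ≤ 2) ∧
      (∀ s : ℝ, E.S₁ + 1 ≤ s → ‖Θ (E.S₁ + 1)‖ / 2 ≤ s ^ gam m * ‖Θ s‖ ∧
        s ^ gam m * ‖Θ s‖ ≤ E.θ') ∧
      ∀ (k : ℕ) (s : ℝ), E.S₁ + 1 + 1 ≤ s →
        ‖iteratedDeriv k Θ s‖ ≤ E.Cf k * s ^ (-(gam m) - (k : ℝ)) := by
    filter_upwards [eventually_ge_atTop 1, h3 D A θ E hθ0 hθf, E.nl,
      Pfam_asy h6 D A (E.S₁ + 1) 1 1 one_pos one_pos, h4 D A θ E hθf 1 one_pos]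
      with m hm e1 e2 e3 e4
    obtain ⟨β, a, T, Θ, hP, hd⟩ := e1
    have hβ : β ∈ Icc (0 : ℝ) 1 :=
      ⟨by linarith [(Pfam_β hP).1], by linarith [(Pfam_β hP).2]⟩
    obtain ⟨n1, n2, n3, n4, n5⟩ := e2.2 β hβ _ (e4 β a T Θ hP).1
    have hg : 0 ≤ gam m := by unfold gam; positivity
    have hle : ∀ s : ℝ, E.S₁ + 1 ≤ s → ‖E.Θe m β (Θ (E.S₁ + 1)) s‖ ≤ 1 := fun s hs =>
      (le_mul_of_one_le_left (norm_nonneg _) (Real.one_le_rpow (by linarith) hg)).trans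
        ((n4 s hs).2.trans E.hθ.le)
    have hu := h5 m β a E.S₁ Θ _ hβ (by linarith) hP.sol n1 n2 hle n3 hd.symm
    refine ⟨hm, β, a, T, Θ, hP, hd, fun s hs => ?_, fun s hs => ?_, fun k s hs => ?_⟩
    · rcases le_total s (E.S₁ + 1) with h | h
      · have h7 := ((e3 β a T Θ hP).2.1 (√s) ⟨Real.sqrt_nonneg s,
          Real.sqrt_le_iff.2 ⟨by linarith, by nlinarith⟩⟩).1
        rwa [qq, Real.sq_sqrt hs] at h7
      · rw [hu s h]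
        exact (pow_le_one₀ (norm_nonneg _) (hle s h)).trans one_le_two
    · have h7 := n4 s hs
      rwa [← hu s hs] at h7
    · have h7 : Θ =ᶠ[𝓝 s] E.Θe m β (Θ (E.S₁ + 1)) := by
        filter_upwards [Ioi_mem_nhds (show E.S₁ + 1 < s by linarith)] with x hx
        exact hu x (le_of_lt hx)
      rw [h7.iteratedDeriv_eq k]
      exact n5 k s (by linarith)
  obtain ⟨m₀, hm₀⟩ := eventually_atTop.1 key
  have hj := fun j : ℕ => hm₀ (j + m₀) (Nat.le_add_left _ _)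
  choose β a T Θ hP hd hN hE hY using fun j => (hj j).2
  have ht := tendsto_add_atTop_nat m₀
  refine ⟨⟨fun j => j + m₀, β, a, T, Θ, E.S₁ + 1, E.θ', A.δ₁, A.C, E.Cf, fun j => (hj j).1, ht,
    hP, by linarith, E.hθ, A.hδ, hN, hE, hY, fun ε hε => ?_, fun B => ?_, ?_,
    fun δ hδ => ⟨A.θf δ, A.hθ δ hδ, fun B => ?_⟩, ?_⟩⟩
  · filter_upwards [ht.eventually (Pfam_asy h6 D A 1 ε 1 hε one_pos)] with j h
    exact (h _ _ _ _ (hP j)).1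
  · filter_upwards [ht.eventually (Pfam_asy h6 D A B 1 1 one_pos one_pos)] with j h r hr
    exact ((h _ _ _ _ (hP j)).2.1 r hr).2
  · filter_upwards [ht.eventually (Pfam_asy h6 D A 1 1 1 one_pos one_pos)] with j h
    exact (h _ _ _ _ (hP j)).2.2.1
  · filter_upwards [ht.eventually (Pfam_asy h6 D A B 1 δ one_pos hδ)] with j h
    exact (h _ _ _ _ (hP j)).2.2.2
  · refine NormedAddGroup.tendsto_nhds_zero.2 fun ε hε => ?_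
    filter_upwards [ht.eventually (h4 D A θ E hθf (ε / 2) (half_pos hε))] with j h
    have h7 := (h _ _ _ _ (hP j)).2
    rw [← hd j, sub_self] at h7
    simp only [Phi, zero_mul, neg_zero, zero_div, zero_sub, norm_neg] at h7
    linarith

end P139.PP
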