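import Vale.Agent.P139.PStm

/-! P139 part P: global existence for the regular-singular integral equation. -/

open Complex Set Filter Topology MeasureTheory
open scoped ContDiff ComplexConjugate BoundedContinuousFunction

noncomputable section
namespace P139.PP

theorem Pfix1_cont {F : ℂ → ℂ} (hF : Continuous F) {Θ : ℝ → ℂ} (h : Continuous Θ) :
    Continuous (DG F Θ) := by
  unfold DG
  refine continuous_const.mul
    (intervalIntegral.continuous_parametric_intervalIntegral_of_continuous' ?_ 0 1)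
  simp only [Function.uncurry_def]
  fun_prop

theorem Pfix1_sub {F : ℂ → ℂ} {L Λ M : ℝ} (hL : 0 ≤ L) (hΛ : 0 ≤ Λ) (hM : 0 ≤ M)
    (hF : Continuous F) (h : ∀ z z' : ℂ, ‖F z - F z'‖ ≤ L * ‖z - z'‖) {Θ Θ' : ℝ → ℂ}
    (c : Continuous Θ) (c' : Continuous Θ')
    (hb : ∀ x, ‖Θ x - Θ' x‖ ≤ M * Real.exp (Λ * |x|)) (σ : ℝ) :
    ‖DG F Θ σ - DG F Θ' σ‖ ≤ L / 4 * M * Real.exp (Λ * |σ|) := by
  unfold DG
  rw [← mul_sub, ← intervalIntegral.integral_sub (Continuous.intervalIntegrable (by fun_prop) _ _)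
    (Continuous.intervalIntegrable (by fun_prop) _ _), norm_mul]
  have h1 := intervalIntegral.norm_integral_le_of_norm_le_const (a := (0 : ℝ)) (b := 1)
    (C := L * M * Real.exp (Λ * |σ|))
    (f := fun t : ℝ => (t : ℂ) ^ 5 * cexp (I * σ * (t - 1) / 4) * F (Θ (σ * t)) -
      (t : ℂ) ^ 5 * cexp (I * σ * (t - 1) / 4) * F (Θ' (σ * t))) fun t ht => by
    rw [uIoc_of_le zero_le_one] at ht
    have e1 : ‖cexp (I * σ * (t - 1) / 4)‖ = 1 := by
      rw [show I * σ * (t - 1) / 4 = ((σ * (t - 1) / 4 : ℝ) : ℂ) * I by push_cast; ring]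
      exact norm_exp_ofReal_mul_I _
    have e2 : ‖(t : ℂ) ^ 5‖ ≤ 1 := by
      rw [norm_pow, norm_real, Real.norm_of_nonneg ht.1.le]
      exact pow_le_one₀ ht.1.le ht.2
    have e3 : |σ * t| ≤ |σ| := by
      rw [abs_mul, abs_of_pos ht.1]
      exact mul_le_of_le_one_right (abs_nonneg _) ht.2
    rw [← mul_sub, norm_mul, norm_mul, e1, mul_one]
    calc _ ≤ 1 * (L * (M * Real.exp (Λ * |σ|))) := by
          refine mul_le_mul e2 ((h _ _).trans (mul_le_mul_of_nonneg_left ((hb _).trans ?_) hL))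
            (norm_nonneg _) zero_le_one
          gcongr
      _ = _ := by ring
  rw [show ‖(1 / 4 : ℂ)‖ = 1 / 4 by simp]
  simp only [sub_zero, abs_one, mul_one] at h1
  linarith

theorem Pfix1_int {f : ℝ → ℂ} {Λ M : ℝ} (hΛ : 0 < Λ) (hM : 0 ≤ M)
    (hb : ∀ x, ‖f x‖ ≤ M * Real.exp (Λ * |x|)) (s : ℝ) :
    ‖∫ σ in (0 : ℝ)..s, f σ‖ ≤ M / Λ * Real.exp (Λ * |s|) := by
  have key : ∀ g : ℝ → ℂ, (∀ x, ‖g x‖ ≤ M * Real.exp (Λ * |x|)) → ∀ s, 0 ≤ s →
      ‖∫ σ in (0 : ℝ)..s, g σ‖ ≤ M / Λ * Real.exp (Λ * s) := fun g hg s hs => by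
    have h1 := intervalIntegral.norm_integral_le_of_norm_le (f := g) hs
      (g := fun x => M * Real.exp (Λ * x)) (μ := volume)
      (Eventually.of_forall fun x hx => by
        have := hg x
        rwa [abs_of_pos hx.1] at this)
      (Continuous.intervalIntegrable (by fun_prop) _ _)
    have h2 : ∫ x in (0 : ℝ)..s, M * Real.exp (Λ * x)
        = M / Λ * Real.exp (Λ * s) - M / Λ * Real.exp (Λ * 0) := by
      refine intervalIntegral.integral_eq_sub_of_hasDerivAt (f := fun x => M / Λ * Real.exp (Λ * x))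
        (fun x _ => ?_) (Continuous.intervalIntegrable (by fun_prop) _ _)
      have := (((hasDerivAt_id x).const_mul Λ).exp).const_mul (M / Λ)
      simp only [id, mul_one] at this
      rw [show M * Real.exp (Λ * x) = M / Λ * (Real.exp (Λ * x) * Λ) by field_simp]
      exact this
    have h3 : 0 ≤ M / Λ * Real.exp (Λ * 0) := by positivity
    linarith
  rcases le_total 0 s with hs | hs
  · rw [abs_of_nonneg hs]
    exact key f hb s hs
  · have h := key (fun x => f (-x)) (fun x => by simpa using hb (-x)) (-s) (by linarith)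
    rw [intervalIntegral.integral_comp_neg, neg_neg, neg_zero, intervalIntegral.integral_symm,
      norm_neg] at h
    rwa [abs_of_nonpos hs]

theorem s_fix1 : S_fix1 := by
  intro F L hL h h0 a
  have hF : Continuous F :=
    (LipschitzWith.of_dist_le_mul (K := ⟨L, hL⟩) fun z z' => by
      rw [dist_eq_norm, dist_eq_norm]
      exact h z z').continuous
  set Λ := L + 1 with hΛd
  have hΛ : 0 < Λ := by linarith
  let th : (ℝ →ᵇ ℂ) → ℝ → ℂ := fun u s => (Real.exp (Λ * |s|) : ℂ) * u s
  have cth : ∀ u, Continuous (th u) := fun u => by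
    simp only [th]
    fun_prop
  have hth : ∀ u v x, ‖th u x - th v x‖ ≤ dist u v * Real.exp (Λ * |x|) := fun u v x => by
    simp only [th]
    rw [← mul_sub, norm_mul, norm_real, Real.norm_of_nonneg (Real.exp_pos _).le, mul_comm,
      ← dist_eq_norm]
    exact mul_le_mul_of_nonneg_right (BoundedContinuousFunction.dist_coe_le_dist x)
      (Real.exp_pos _).le
  have hI : ∀ u v s, ‖(∫ σ in (0 : ℝ)..s, DG F (th u) σ) - ∫ σ in (0 : ℝ)..s, DG F (th v) σ‖
      ≤ dist u v / 4 * Real.exp (Λ * |s|) := fun u v s => by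
    rw [← intervalIntegral.integral_sub ((Pfix1_cont hF (cth u)).intervalIntegrable _ _)
      ((Pfix1_cont hF (cth v)).intervalIntegrable _ _)]
    refine (Pfix1_int hΛ (by positivity)
      (Pfix1_sub hL hΛ.le dist_nonneg hF h (cth u) (cth v) (hth u v)) s).trans ?_
    refine mul_le_mul_of_nonneg_right ?_ (Real.exp_pos _).le
    rw [div_le_iff₀ hΛ]
    nlinarith [dist_nonneg (x := u) (y := v)]
  have hz : ∀ s, (∫ σ in (0 : ℝ)..s, DG F (th 0) σ) = 0 := fun s => by
    simp [DG, th, h0]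
  have hee : ∀ s : ℝ, Real.exp (-(Λ * |s|)) * Real.exp (Λ * |s|) = 1 := fun s => by
    rw [← Real.exp_add, neg_add_cancel, Real.exp_zero]
  let T : (ℝ →ᵇ ℂ) → (ℝ →ᵇ ℂ) := fun u => BoundedContinuousFunction.ofNormedAddCommGroup
    (fun s => (Real.exp (-(Λ * |s|)) : ℂ) * (a + ∫ σ in (0 : ℝ)..s, DG F (th u) σ))
    (by
      have := intervalIntegral.continuous_primitive
        (fun a b => (Pfix1_cont hF (cth u)).intervalIntegrable (μ := volume) a b) 0
      fun_prop)
    (‖a‖ + dist u 0 / 4) fun s => by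
      have h1 := hI u 0 s
      rw [hz, sub_zero] at h1
      have h2 : Real.exp (-(Λ * |s|)) ≤ 1 := Real.exp_le_one_iff.2 (by
        have := abs_nonneg s
        nlinarith)
      rw [norm_mul, norm_real, Real.norm_of_nonneg (Real.exp_pos _).le]
      calc _ ≤ Real.exp (-(Λ * |s|)) * (‖a‖ + dist u 0 / 4 * Real.exp (Λ * |s|)) := by
            gcongr
            exact (norm_add_le _ _).trans (by linarith)
        _ = Real.exp (-(Λ * |s|)) * ‖a‖ + dist u 0 / 4 *
            (Real.exp (-(Λ * |s|)) * Real.exp (Λ * |s|)) := by ring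
        _ ≤ _ := by
            rw [hee]
            nlinarith [norm_nonneg a]
  have hT : ∀ u s, T u s = (Real.exp (-(Λ * |s|)) : ℂ) *
      (a + ∫ σ in (0 : ℝ)..s, DG F (th u) σ) := fun u s => rfl
  have hc : ContractingWith (1 / 4) T := by
    refine ⟨by norm_num, LipschitzWith.of_dist_le_mul fun u v => ?_⟩
    refine (BoundedContinuousFunction.dist_le (by positivity)).2 fun s => ?_
    rw [hT, hT, dist_eq_norm, ← mul_sub, add_sub_add_left_eq_sub, norm_mul, norm_real,
      Real.norm_of_nonneg (Real.exp_pos _).le]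
    calc _ ≤ Real.exp (-(Λ * |s|)) * (dist u v / 4 * Real.exp (Λ * |s|)) := by
          gcongr
          exact hI u v s
      _ = dist u v / 4 * (Real.exp (-(Λ * |s|)) * Real.exp (Λ * |s|)) := by ring
      _ = _ := by
          rw [hee]
          push_cast
          ring
  set u := hc.fixedPoint T
  have hu : T u = u := hc.fixedPoint_isFixedPt
  have e : th u = fun s => a + ∫ σ in (0 : ℝ)..s, DG F (th u) σ := by
    funext s
    have h1 := hT u s
    rw [hu] at h1
    change (Real.exp (Λ * |s|) : ℂ) * u s = _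
    rw [h1, ← mul_assoc, ← ofReal_mul, mul_comm (Real.exp _), hee, ofReal_one, one_mul]
  refine ⟨th u, ?_, fun s => ?_⟩
  · rw [e]
    simp
  · have c := Pfix1_cont hF (cth u)
    have := (intervalIntegral.integral_hasDerivAt_right (c.intervalIntegrable 0 s)
      (c.stronglyMeasurableAtFilter _ _) c.continuousAt).const_add a
    rwa [← e] at this

end P139.PP
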