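import Vale.Agent.P139.PStm

/-! P139 part P: stability of the regular-singular integral equation (`S_fix2`). -/

open Complex Set Filter Topology MeasureTheory
open scoped ContDiff ComplexConjugate

noncomputable section
namespace P139.PP

lemma Pfix2_cmp {d d' : ℝ → ℂ} {c L M A : ℝ} (hd : ∀ s, HasDerivAt d (d' s) s)
    (hb : ∀ s ∈ Icc 0 A, ‖d' s‖ ≤ (c + L * M * Real.exp (L * s)) / 4) :
    ∀ s ∈ Icc 0 A, ‖d s‖ ≤ ‖d 0‖ + c * s / 4 + M * (Real.exp (L * s) - 1) / 4 := by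
  intro s hs
  refine image_norm_le_of_norm_deriv_right_le_deriv_boundary (f := d) (f' := d') (a := 0) (b := A)
    (fun x _ => (hd x).continuousAt.continuousWithinAt) (fun x _ => (hd x).hasDerivWithinAt)
    (B := fun s => ‖d 0‖ + c * s / 4 + M * (Real.exp (L * s) - 1) / 4)
    (B' := fun s => (c + L * M * Real.exp (L * s)) / 4) (by simp) (fun x => ?_)
    (fun x hx => hb x (Ico_subset_Icc_self hx)) hs
  have h1 : HasDerivAt (fun s : ℝ => L * s) L x := by simpa using (hasDerivAt_id x).const_mul L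
  have h2 : HasDerivAt (fun s : ℝ => c * s) c x := by simpa using (hasDerivAt_id x).const_mul c
  have h3 := ((h2.div_const 4).const_add ‖d 0‖).add
    (((h1.exp.sub_const 1).const_mul M).div_const 4)
  exact h3.congr_deriv (by ring)

lemma Pfix2_ker (s t : ℝ) (ht : t ∈ Icc (0 : ℝ) 1) :
    ‖(t : ℂ) ^ 5 * cexp (I * s * (t - 1) / 4)‖ ≤ 1 := by
  have e : I * s * (t - 1) / 4 = ((s * (t - 1) / 4 : ℝ) : ℂ) * I := by push_cast; ring
  rw [norm_mul, e, norm_exp_ofReal_mul_I, mul_one, norm_pow, Complex.norm_real, Real.norm_eq_abs,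
    abs_of_nonneg ht.1]
  exact pow_le_one₀ ht.1 ht.2

theorem s_fix2 : S_fix2 := by
  intro F F' L η B A Θ Θ' hL hη hA cF lF' hFF hΘ hΘ' hB
  have cΘ : Continuous Θ := continuous_iff_continuousAt.2 fun s => (hΘ s).continuousAt
  have cΘ' : Continuous Θ' := continuous_iff_continuousAt.2 fun s => (hΘ' s).continuousAt
  have cF' : Continuous F' := by
    refine (LipschitzWith.of_dist_le' (K := L) fun z z' => ?_).continuous
    rw [dist_eq_norm, dist_eq_norm]; exact lF' z z'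
  have hB0 : 0 ≤ B := (norm_nonneg _).trans (hB 0 ⟨by linarith, hA⟩)
  have cφ : Continuous fun σ : ℝ => Real.exp (-(L * |σ|)) * ‖Θ σ - Θ' σ‖ := by fun_prop
  obtain ⟨σ₀, hσ₀, hmax⟩ := (isCompact_Icc (a := -A) (b := A)).exists_isMaxOn
    ⟨0, by constructor <;> linarith⟩ cφ.continuousOn
  set M := Real.exp (-(L * |σ₀|)) * ‖Θ σ₀ - Θ' σ₀‖ with hM
  have hM0 : 0 ≤ M := by positivity
  have hdM : ∀ σ ∈ Icc (-A) A, ‖Θ σ - Θ' σ‖ ≤ M * Real.exp (L * |σ|) := by
    intro σ hσ
    have h1 : Real.exp (-(L * |σ|)) * ‖Θ σ - Θ' σ‖ ≤ M := hmax hσ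
    rw [Real.exp_neg, inv_mul_le_iff₀ (Real.exp_pos _)] at h1
    linarith
  have hb : ∀ s ∈ Icc (-A) A,
      ‖DG F Θ s - DG F' Θ' s‖ ≤ (η * B + L * M * Real.exp (L * |s|)) / 4 := by
    intro s hs
    have i1 : IntervalIntegrable
        (fun t : ℝ => (t : ℂ) ^ 5 * cexp (I * s * (t - 1) / 4) * F (Θ (s * t))) volume 0 1 :=
      Continuous.intervalIntegrable (by fun_prop) _ _
    have i2 : IntervalIntegrable
        (fun t : ℝ => (t : ℂ) ^ 5 * cexp (I * s * (t - 1) / 4) * F' (Θ' (s * t))) volume 0 1 :=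
      Continuous.intervalIntegrable (by fun_prop) _ _
    unfold DG
    rw [← mul_sub, ← intervalIntegral.integral_sub i1 i2, norm_mul]
    have h1 := intervalIntegral.norm_integral_le_of_norm_le_const (a := 0) (b := 1)
      (C := η * B + L * M * Real.exp (L * |s|))
      (f := fun t : ℝ => (t : ℂ) ^ 5 * cexp (I * s * (t - 1) / 4) * F (Θ (s * t)) -
        (t : ℂ) ^ 5 * cexp (I * s * (t - 1) / 4) * F' (Θ' (s * t))) fun t ht => by
      rw [uIoc_of_le zero_le_one] at ht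
      have hst : |s * t| ≤ |s| := by
        rw [abs_mul, abs_of_pos ht.1]
        exact mul_le_of_le_one_right (abs_nonneg _) ht.2
      have hm : s * t ∈ Icc (-A) A := abs_le.1 (hst.trans (abs_le.2 hs))
      rw [← mul_sub, norm_mul]
      have e1 : ‖F (Θ (s * t)) - F' (Θ' (s * t))‖ ≤ η * B + L * M * Real.exp (L * |s|) := by
        have e2 := norm_sub_le_norm_sub_add_norm_sub (F (Θ (s * t))) (F' (Θ (s * t)))
          (F' (Θ' (s * t)))
        have e3 : η * ‖Θ (s * t)‖ ≤ η * B := mul_le_mul_of_nonneg_left (hB _ hm) hη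
        have e4 : Real.exp (L * |s * t|) ≤ Real.exp (L * |s|) :=
          Real.exp_le_exp.2 (mul_le_mul_of_nonneg_left hst hL)
        have e5 : L * ‖Θ (s * t) - Θ' (s * t)‖ ≤ L * (M * Real.exp (L * |s|)) :=
          mul_le_mul_of_nonneg_left ((hdM _ hm).trans (mul_le_mul_of_nonneg_left e4 hM0)) hL
        linarith [hFF (Θ (s * t)), lF' (Θ (s * t)) (Θ' (s * t))]
      calc _ ≤ 1 * (η * B + L * M * Real.exp (L * |s|)) :=
            mul_le_mul (Pfix2_ker s t ⟨ht.1.le, ht.2⟩) e1 (norm_nonneg _) zero_le_one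
        _ = _ := one_mul _
    have h2 : ‖(1 / 4 : ℂ)‖ = 1 / 4 := by simp
    rw [h2]
    simp only [sub_zero, abs_one, mul_one] at h1
    linarith
  have hp := Pfix2_cmp (d := fun s => Θ s - Θ' s) (c := η * B) (L := L) (M := M) (A := A)
    (fun s => (hΘ s).sub (hΘ' s)) fun s hs => by
      have := hb s ⟨by linarith [hs.1], hs.2⟩
      rwa [abs_of_nonneg hs.1] at this
  have hn := Pfix2_cmp (d := fun s => Θ (-s) - Θ' (-s))
    (d' := fun s => -(DG F Θ (-s) - DG F' Θ' (-s))) (c := η * B) (L := L) (M := M) (A := A)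
    (fun s => by
      have := ((hΘ (-s)).sub (hΘ' (-s))).scomp s (hasDerivAt_neg s)
      exact this.congr_deriv (by simp)) fun s hs => by
      have := hb (-s) ⟨by linarith [hs.2], by linarith [hs.1]⟩
      rwa [abs_neg, abs_of_nonneg hs.1, ← norm_neg] at this
  have hall : ∀ s ∈ Icc (-A) A, ‖Θ s - Θ' s‖ ≤
      ‖Θ 0 - Θ' 0‖ + η * B * |s| / 4 + M * (Real.exp (L * |s|) - 1) / 4 := by
    intro s hs
    rcases le_total 0 s with h | h
    · rw [abs_of_nonneg h]; exact hp s ⟨h, hs.2⟩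
    · have := hn (-s) ⟨by linarith, by linarith [hs.1]⟩
      simp only [neg_neg, neg_zero] at this
      rwa [abs_of_nonpos h]
  have hMb : M ≤ 2 * (‖Θ 0 - Θ' 0‖ + η * B * A) := by
    have h1 := hall σ₀ hσ₀
    have h2 : |σ₀| ≤ A := abs_le.2 hσ₀
    have h3 : 1 ≤ Real.exp (L * |σ₀|) := Real.one_le_exp (by positivity)
    have h4 : ‖Θ σ₀ - Θ' σ₀‖ = M * Real.exp (L * |σ₀|) := by
      rw [hM, mul_right_comm, ← Real.exp_add]; simp
    have h5 : η * B * |σ₀| ≤ η * B * A := by gcongr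
    have h6 : 0 ≤ η * B * A := by positivity
    have h7 : M * 1 ≤ M * Real.exp (L * |σ₀|) := by gcongr
    nlinarith [norm_nonneg (Θ 0 - Θ' 0)]
  intro s hs
  refine (hdM s hs).trans (mul_le_mul hMb ?_ (Real.exp_pos _).le (by positivity))
  exact Real.exp_le_exp.2 (mul_le_mul_of_nonneg_left (abs_le.2 hs) hL)

end P139.PP
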