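import Vale.Agent.P139.PStm

/-! P139 part P: Gronwall for the second order equation with a thin-layer forcing. -/

open Complex Set Filter Topology MeasureTheory
open scoped ContDiff ComplexConjugate

noncomputable section
namespace P139.PP

theorem Pgw_bound (δ K M x : ℝ) (hK : 0 < K) (hM : 0 ≤ M) :
    gronwallBound δ K M x ≤ (δ + M * x) * Real.exp (K * x) := by
  rw [gronwallBound_of_K_ne_0 hK.ne']
  have h1 : Real.exp (K * x) - 1 ≤ K * x * Real.exp (K * x) := by
    have h2 := Real.add_one_le_exp (-(K * x))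
    have h3 : Real.exp (-(K * x)) * Real.exp (K * x) = 1 := by
      rw [← Real.exp_add]; simp
    have h4 := Real.exp_pos (K * x)
    nlinarith
  have h5 : M / K * (Real.exp (K * x) - 1) ≤ M / K * (K * x * Real.exp (K * x)) :=
    mul_le_mul_of_nonneg_left h1 (div_nonneg hM hK.le)
  have h6 : M / K * (K * x * Real.exp (K * x)) = M * x * Real.exp (K * x) := by
    field_simp
  show δ * Real.exp (K * x) + M / K * (Real.exp (K * x) - 1) ≤ _
  linarith

theorem Pgw_step (a b A M δ β : ℝ) (e e1 f : ℝ → ℂ) (ha : 1 ≤ a) (hb : b ≤ A) (hM : 0 ≤ M)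
    (hδ : 0 ≤ δ) (hβ : β ∈ Icc (0 : ℝ) 1)
    (hd : ∀ r ∈ Icc a b, HasDerivAt e (e1 r) r ∧
      HasDerivAt e1 (f r - β * e r - (11 / (r : ℂ) + I * r / 2) * e1 r) r)
    (h0 : ‖e a‖ ≤ δ) (h1 : ‖e1 a‖ ≤ δ) (hf : ∀ r ∈ Icc a b, ‖f r‖ ≤ M) :
    ∀ r ∈ Icc a b, ‖e r‖ ≤ (δ + M * (b - a)) * Real.exp ((13 + A) * (b - a)) ∧
      ‖e1 r‖ ≤ (δ + M * (b - a)) * Real.exp ((13 + A) * (b - a)) := by
  intro r hr
  have hA : 1 ≤ A := by linarith [hr.1, hr.2]
  have hK : 0 < 13 + A := by linarith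
  let y : ℝ → ℂ × ℂ := fun r => (e r, e1 r)
  let y' : ℝ → ℂ × ℂ := fun r => (e1 r, f r - β * e r - (11 / (r : ℂ) + I * r / 2) * e1 r)
  have hy : ∀ r ∈ Icc a b, HasDerivAt y (y' r) r := fun r hr => (hd r hr).1.prodMk (hd r hr).2
  have hc : ContinuousOn y (Icc a b) := fun r hr => (hy r hr).continuousAt.continuousWithinAt
  have key := norm_le_gronwallBound_of_norm_deriv_right_le (f := y) (f' := y') (δ := δ)
    (K := 13 + A) (ε := M) (a := a) (b := b) hc
    (fun x hx => (hy x (Ico_subset_Icc_self hx)).hasDerivWithinAt)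
    (by simp only [y, Prod.norm_def]; exact max_le h0 h1) ?_ r hr
  · have hb1 := Pgw_bound δ (13 + A) M (r - a) hK hM
    have hb2 : (δ + M * (r - a)) * Real.exp ((13 + A) * (r - a)) ≤
        (δ + M * (b - a)) * Real.exp ((13 + A) * (b - a)) := by
      have i1 : 0 ≤ r - a := by linarith [hr.1]
      have i2 : r - a ≤ b - a := by linarith [hr.2]
      have i3 : 0 ≤ δ + M * (b - a) := add_nonneg hδ (mul_nonneg hM (i1.trans i2))
      gcongr
    have hy1 : ‖e r‖ ≤ ‖y r‖ := norm_fst_le (y r)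
    have hy2 : ‖e1 r‖ ≤ ‖y r‖ := norm_snd_le (y r)
    constructor <;> linarith
  · intro x hx
    have hx1 : 1 ≤ x := by linarith [hx.1]
    have hxA : x ≤ A := by linarith [hx.2]
    have hy1 : ‖e x‖ ≤ ‖y x‖ := norm_fst_le (y x)
    have hy2 : ‖e1 x‖ ≤ ‖y x‖ := norm_snd_le (y x)
    have hyn : 0 ≤ ‖y x‖ := norm_nonneg _
    have hfx := hf x (Ico_subset_Icc_self hx)
    have hc1 : ‖(11 / (x : ℂ) + I * x / 2)‖ ≤ 11 + A := by
      have e1 : ‖(11 / (x : ℂ))‖ ≤ 11 := by
        rw [norm_div, Complex.norm_real, Real.norm_eq_abs, abs_of_pos (by linarith)]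
        have : ‖(11 : ℂ)‖ = 11 := by simp
        rw [this, div_le_iff₀ (by linarith)]
        linarith
      have e2 : ‖I * (x : ℂ) / 2‖ ≤ A := by
        rw [norm_div, norm_mul, Complex.norm_I, Complex.norm_real, Real.norm_eq_abs,
          abs_of_pos (by linarith)]
        have : ‖(2 : ℂ)‖ = 2 := by simp
        rw [this]
        linarith
      linarith [norm_add_le (11 / (x : ℂ)) (I * x / 2)]
    have hb1 : ‖(β : ℂ) * e x‖ ≤ ‖y x‖ := by
      rw [norm_mul, Complex.norm_real, Real.norm_eq_abs, abs_of_nonneg hβ.1]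
      calc β * ‖e x‖ ≤ 1 * ‖y x‖ := by gcongr; exact hβ.2
        _ = ‖y x‖ := one_mul _
    have hb2 : ‖(11 / (x : ℂ) + I * x / 2) * e1 x‖ ≤ (11 + A) * ‖y x‖ := by
      rw [norm_mul]
      gcongr
    simp only [y', Prod.norm_def]
    refine max_le ?_ ?_
    · show ‖e1 x‖ ≤ (13 + A) * ‖y x‖ + M
      nlinarith
    · show ‖f x - β * e x - (11 / (x : ℂ) + I * x / 2) * e1 x‖ ≤ (13 + A) * ‖y x‖ + M
      have t1 := norm_sub_le (f x - β * e x) ((11 / (x : ℂ) + I * x / 2) * e1 x)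
      have t2 := norm_sub_le (f x) ((β : ℂ) * e x)
      nlinarith

theorem s_gw : S_gw := by
  intro R A B ε hR hε
  set K : ℝ := 13 + |A| with hK
  have hK0 : 0 < K := by have := abs_nonneg A; linarith
  set c₁ : ℝ := (1 + |B|) * Real.exp K with hc₁
  have hc0 : 0 < c₁ := by positivity
  set E : ℝ := Real.exp (K * |A|) with hE
  have hE1 : 1 ≤ E := Real.one_le_exp (by positivity)
  have hD : 0 < (c₁ + |A|) * E := by positivity
  set η : ℝ := min 1 (ε / ((c₁ + |A|) * E)) with hη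
  have hη0 : 0 < η := lt_min one_pos (div_pos hε hD)
  have hη1 : η ≤ 1 := min_le_left _ _
  have hη2 : η * ((c₁ + |A|) * E) ≤ ε := by
    have : η ≤ ε / ((c₁ + |A|) * E) := min_le_right _ _
    rwa [le_div_iff₀ hD] at this
  refine ⟨η, hη0, ?_⟩
  intro β e e1 f hβ hd h0 h1 hfB hfη
  have hAa : A ≤ |A| := le_abs_self A
  have hA0 : 0 ≤ |A| := abs_nonneg A
  -- first piece
  have P1 : ∀ r ∈ Icc R (min (R + η) A), ‖e r‖ ≤ η * c₁ ∧ ‖e1 r‖ ≤ η * c₁ := by
    intro r hr
    have hsub : Icc R (min (R + η) A) ⊆ Icc R A := Icc_subset_Icc_right (min_le_right _ _)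
    have key := Pgw_step R (min (R + η) A) |A| |B| η β e e1 f hR
      ((min_le_right _ _).trans hAa) (abs_nonneg B) hη0.le hβ (fun r hr => hd r (hsub hr)) h0 h1
      (fun r hr => (hfB r (hsub hr)).trans (le_abs_self B)) r hr
    have hl : min (R + η) A - R ≤ η := by have := min_le_left (R + η) A; linarith
    have hl0 : 0 ≤ min (R + η) A - R := by linarith [hr.1, hr.2]
    have hb : (η + |B| * (min (R + η) A - R)) * Real.exp ((13 + |A|) * (min (R + η) A - R))
        ≤ η * c₁ := by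
      calc (η + |B| * (min (R + η) A - R)) * Real.exp ((13 + |A|) * (min (R + η) A - R))
          ≤ (η + |B| * η) * Real.exp (K * 1) := by
            rw [hK]
            gcongr
            linarith
        _ = η * c₁ := by rw [hc₁, mul_one]; ring
    exact ⟨key.1.trans hb, key.2.trans hb⟩
  have hfin : η * c₁ ≤ ε := by
    have : c₁ ≤ (c₁ + |A|) * E := by nlinarith
    nlinarith
  intro r hr
  rcases le_or_gt r (R + η) with h | h
  · have := P1 r ⟨hr.1, le_min h hr.2⟩
    exact ⟨this.1.trans hfin, this.2.trans hfin⟩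
  · have hRA : R + η ≤ A := by linarith [hr.2]
    have hs := P1 (R + η) ⟨by linarith, le_min le_rfl hRA⟩
    have hsub : Icc (R + η) A ⊆ Icc R A := Icc_subset_Icc_left (by linarith)
    have key := Pgw_step (R + η) A |A| η (η * c₁) β e e1 f (by linarith) hAa hη0.le
      (by positivity) hβ (fun r hr => hd r (hsub hr)) hs.1 hs.2 hfη r ⟨h.le, hr.2⟩
    have hl : A - (R + η) ≤ |A| := by linarith
    have hl0 : 0 ≤ A - (R + η) := by linarith
    have hb : (η * c₁ + η * (A - (R + η))) * Real.exp ((13 + |A|) * (A - (R + η))) ≤ ε := by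
      calc (η * c₁ + η * (A - (R + η))) * Real.exp ((13 + |A|) * (A - (R + η)))
          ≤ (η * c₁ + η * |A|) * Real.exp (K * |A|) := by
            rw [hK]
            gcongr
        _ = η * ((c₁ + |A|) * E) := by rw [hE]; ring
        _ ≤ ε := hη2
    exact ⟨key.1.trans hb, key.2.trans hb⟩

end P139.PP
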