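import Vale.Agent.P139.PStm

open Complex Set Filter Topology MeasureTheory
open scoped ContDiff ComplexConjugate

noncomputable section
namespace P139.PP

theorem s_plim (h1 : S_prof) (h2 : S_dqi) (h3 : S_conv) (h4 : S_elt) (h5 : S_ege) (h6 : S_esy)
    (h7 : S_tq) : S_plim := by
  rintro D ⟨F⟩
  choose P hβ hΘ using h1 D F.toFam
  have hq : ∀ j, (P j).q = qq (F.Θ j) := fun j => by
    funext r
    simp only [Prof.q, qq, hΘ]
  have hd : ∀ j, deriv (P j).q = qd (F.Θ j) := fun j => by
    funext r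
    rw [hq]
    exact ((h7 _ _ _ _ (F.pre j).sol).2.2.2.d0 r).deriv
  refine ⟨{
    m := F.m
    P := P
    R := F.R
    β := F.βl
    qi := F.qi
    m_pos := F.m_pos
    m_lim := F.m_lim
    R_pos := F.R_pos
    hx := F.hx
    hβ := F.hβ
    root := F.root0
    qi_def := fun _ => rfl
    qi_ne := (h2 D F).1
    β_lim := by simpa only [hβ] using F.β_lim
    conv := fun A => by simpa only [hq] using (h3 D F A).1
    conv' := fun A => by simpa only [hd] using (h3 D F A).2
    inside := fun r₀ hr => ?_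
    Nbd := ⟨2, fun j r => ?_⟩
    mono := ⟨F.δ₁ / 2, F.C, half_pos F.hδ, ?_⟩
    ext_lt := fun δ hδ => by simpa only [hΘ] using h4 D F δ hδ
    ext_ge := by simpa only [hΘ] using h5 D F
    ext_symb := fun δ hδ k => by simpa only [hΘ] using h6 D F δ hδ k }⟩
  · filter_upwards [F.T_lim.eventually (lt_mem_nhds hr)] with j hj r hr'
    rw [hq]
    have := (F.pre j).ge r ⟨hr'.1, hr'.2.trans hj.le⟩
    linarith [F.hβ.2, D.hβ.2.2]
  · rw [hq]
    exact F.Nb j _ (sq_nonneg r)
  · have hlt : F.R - F.δ₁ / 2 < F.R := by linarith [F.hδ]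
    filter_upwards [F.T_lim.eventually (lt_mem_nhds hlt), F.mono] with j hj hm r hr
    rw [hd, hq]
    exact hm r ⟨hr.1, by linarith [hr.2]⟩

end P139.PP
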