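import Vale.Agent.P139.PStm

open Complex Set Filter Topology MeasureTheory
open scoped ContDiff ComplexConjugate

noncomputable section
namespace P139.PP

theorem Plin_cont {F : ℝ → ℂ} {S : ℝ} (hF : ContDiffOn ℝ ∞ F (Ioi S)) (k : ℕ) :
    ContinuousOn (iteratedDeriv k F) (Ioi S) := by
  have h := hF.continuousOn_iteratedDerivWithin (m := k) (by exact_mod_cast le_top)
    (uniqueDiffOn_Ioi S)
  exact h.congr fun s hs => (iteratedDerivWithin_of_isOpen isOpen_Ioi hs).symm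

theorem Plin_good {F : ℝ → ℂ} {S : ℝ} {Cf : ℕ → ℝ} (hS : 30 ≤ S) (hF : ContDiffOn ℝ ∞ F (Ioi S))
    (hb : ∀ (k : ℕ) (s : ℝ), S + 1 ≤ s → ‖iteratedDeriv k F s‖ ≤ Cf k * s ^ (-(k : ℝ))) :
    Good 0 (S + 1) F := by
  intro k hk _
  have hi : IntegrableOn (fun s : ℝ => Cf k ^ 2 * s ^ (-2 : ℝ)) (Ioi (S + 1)) :=
    (integrableOn_Ioi_rpow_of_lt (by norm_num) (by linarith)).const_mul _
  have hc : ContinuousOn (fun s : ℝ => ‖iteratedDeriv k F s‖ ^ 2 * s ^ (0 + k + 5))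
      (Ioi (S + 1)) :=
    ((((Plin_cont hF k).mono (Ioi_subset_Ioi (by linarith))).norm.pow 2).mul
      (continuousOn_id.pow _))
  refine Integrable.mono' hi (hc.aestronglyMeasurable measurableSet_Ioi) ?_
  refine (ae_restrict_iff' measurableSet_Ioi).2 (Eventually.of_forall fun s hs => ?_)
  have hs' : S + 1 < s := hs
  have h1 : (1 : ℝ) ≤ s := by linarith
  have h0 : (0 : ℝ) < s := by linarith
  rw [Real.norm_eq_abs, abs_of_nonneg (by positivity)]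
  have h2 : ‖iteratedDeriv k F s‖ ^ 2 ≤ (Cf k * s ^ (-(k : ℝ))) ^ 2 :=
    pow_le_pow_left₀ (norm_nonneg _) (hb k s hs'.le) 2
  have h3 : (s ^ (-(k : ℝ))) ^ 2 * s ^ (0 + k + 5) ≤ s ^ (-2 : ℝ) := by
    rw [← Real.rpow_natCast, ← Real.rpow_natCast s, ← Real.rpow_mul h0.le, ← Real.rpow_add h0]
    refine Real.rpow_le_rpow_of_exponent_le h1 ?_
    have : (7 : ℝ) ≤ k := by exact_mod_cast hk
    push_cast
    linarith
  calc ‖iteratedDeriv k F s‖ ^ 2 * s ^ (0 + k + 5)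
      ≤ (Cf k * s ^ (-(k : ℝ))) ^ 2 * s ^ (0 + k + 5) :=
        mul_le_mul_of_nonneg_right h2 (by positivity)
    _ = Cf k ^ 2 * ((s ^ (-(k : ℝ))) ^ 2 * s ^ (0 + k + 5)) := by ring
    _ ≤ Cf k ^ 2 * s ^ (-2 : ℝ) := mul_le_mul_of_nonneg_left h3 (sq_nonneg _)

theorem s_lin : S_lin := by
  intro D β S₁ Cf F hβ hS hF hode h1 hb
  obtain ⟨c, hc⟩ := D.uniq β hβ S₁ (by linarith) F hF hode (Plin_good hS hF hb)
  have h2 : c * D.U β (S₁ + 1) = 1 := by rw [← hc _ (by linarith), h1]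
  refine ⟨fun h => by simp [h] at h2, ?_⟩
  have h3 : F =ᶠ[𝓝 (S₁ + 1)] fun s => c * D.U β s := by
    filter_upwards [Ioi_mem_nhds (show S₁ < S₁ + 1 by linarith)] with s hs using hc s hs
  rw [h3.deriv_eq, deriv_const_mul_field]
  linear_combination deriv (D.U β) (S₁ + 1) * h2

end P139.PP
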