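import Vale.Agent.P139.PStm

open Complex Set Filter Topology MeasureTheory
open scoped ContDiff ComplexConjugate

noncomputable section
namespace P139.PP

theorem Plip_real (n : ℕ) {x y : ℝ} (hy : 0 ≤ y) (hxy : y ≤ x) :
    |min (x ^ n) 3 - min (y ^ n) 3| * y ≤ (9 + 3 * (n * 4 ^ (n - 1))) * (x - y) := by
  have hp : y ^ n ≤ x ^ n := pow_le_pow_left₀ hy hxy n
  have hK : (0 : ℝ) ≤ n * 4 ^ (n - 1) := by positivity
  have hd : 0 ≤ x - y := sub_nonneg.2 hxy
  rw [abs_of_nonneg (sub_nonneg.2 (min_le_min_right _ hp))]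
  rcases le_or_gt 3 (y ^ n) with h3 | h3
  · rw [min_eq_right h3, min_eq_right (h3.trans hp), sub_self, zero_mul]
    positivity
  rcases Nat.eq_zero_or_pos n with rfl | hn
  · simp only [pow_zero, sub_self, zero_mul]
    positivity
  have hy3 : y ≤ 3 := by
    by_contra h
    push Not at h
    have h1 := le_self_pow₀ (by linarith : (1 : ℝ) ≤ y) hn.ne'
    linarith
  have hy0 : 0 ≤ y ^ n := pow_nonneg hy n
  rw [min_eq_left h3.le]
  rcases le_or_gt (y + 1) x with h1 | h1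
  · have h2 : min (x ^ n) 3 - y ^ n ≤ 3 := by linarith [min_le_right (x ^ n) 3]
    have h4 : (min (x ^ n) 3 - y ^ n) * y ≤ 3 * 3 :=
      mul_le_mul h2 hy3 hy (by norm_num)
    nlinarith [mul_nonneg hK hd]
  · have h2 := abs_pow_sub_pow_le x y n
    rw [abs_of_nonneg (sub_nonneg.2 hp), abs_of_nonneg hd, abs_of_nonneg hy,
      abs_of_nonneg (hy.trans hxy), max_eq_left hxy] at h2
    have h4 : x ^ (n - 1) ≤ 4 ^ (n - 1) := pow_le_pow_left₀ (hy.trans hxy) (by linarith) _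
    have h5 : (x - y) * n * x ^ (n - 1) ≤ (x - y) * n * 4 ^ (n - 1) :=
      mul_le_mul_of_nonneg_left h4 (by positivity)
    have h6 : min (x ^ n) 3 - y ^ n ≤ (x - y) * n * 4 ^ (n - 1) := by
      linarith [min_le_left (x ^ n) 3]
    have h7 : (min (x ^ n) 3 - y ^ n) * y ≤ (x - y) * n * 4 ^ (n - 1) * 3 :=
      mul_le_mul h6 hy3 hy (by positivity)
    nlinarith

theorem Plip_half (m : ℕ) (β : ℝ) (hβ : β ∈ Icc (0 : ℝ) 1) (z z' : ℂ) (h : ‖z'‖ ≤ ‖z‖) :
    ‖Ftr m β z - Ftr m β z'‖ ≤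
      (4 + |gam m| + (9 + 3 * ((2 * m : ℕ) * 4 ^ (2 * m - 1)))) * ‖z - z'‖ := by
  have h1 := Plip_real (2 * m) (norm_nonneg z') h
  set a : ℝ := min (‖z‖ ^ (2 * m)) 3 with ha
  set b : ℝ := min (‖z'‖ ^ (2 * m)) 3 with hb
  have ha0 : 0 ≤ a := le_min (by positivity) (by norm_num)
  have ha3 : a ≤ 3 := min_le_right _ _
  have h2 : Ftr m β z - Ftr m β z' =
      (((a - β : ℝ) : ℂ) - I * gam m) * (z - z') + ((a - b : ℝ) : ℂ) * z' := by
    simp only [Ftr, ← ha, ← hb]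
    push_cast
    ring
  have h3 : ‖((a - β : ℝ) : ℂ) - I * gam m‖ ≤ 4 + |gam m| := by
    refine (norm_sub_le _ _).trans ?_
    rw [norm_mul, Complex.norm_I, one_mul, Complex.norm_real, Complex.norm_real, Real.norm_eq_abs,
      Real.norm_eq_abs]
    have h4 : |a - β| ≤ 4 := abs_le.2 ⟨by linarith [hβ.2], by linarith [hβ.1]⟩
    linarith
  have h4 : ‖z‖ - ‖z'‖ ≤ ‖z - z'‖ := norm_sub_norm_le z z'
  have hK : (0 : ℝ) ≤ 9 + 3 * ((2 * m : ℕ) * 4 ^ (2 * m - 1)) := by positivity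
  rw [h2]
  refine (norm_add_le _ _).trans ?_
  rw [norm_mul, norm_mul, Complex.norm_real, Real.norm_eq_abs]
  have h5 := mul_le_mul_of_nonneg_right h3 (norm_nonneg (z - z'))
  have h6 := mul_le_mul_of_nonneg_left h4 hK
  linarith

theorem s_lip : S_lip := by
  intro m
  refine ⟨4 + |gam m| + (9 + 3 * ((2 * m : ℕ) * 4 ^ (2 * m - 1))), by positivity,
    fun β hβ z z' => ?_⟩
  rcases le_total ‖z'‖ ‖z‖ with h | h
  · exact Plip_half m β hβ z z' h
  · rw [norm_sub_rev, norm_sub_rev z]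
    exact Plip_half m β hβ z' z h

end P139.PP
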