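import Vale.Agent.P139.PStm

open Complex Set Filter Topology MeasureTheory
open scoped ContDiff ComplexConjugate

noncomputable section
namespace P139.PP

theorem Pmir_pos {a b : ℝ} (hab : a < b) {f : ℝ → ℝ} (hf : ContinuousOn f (Icc a b))
    (h : ∀ x ∈ Icc a b, 0 < f x) : ∃ c : ℝ, 0 < c ∧ ∀ x ∈ Icc a b, c ≤ f x := by
  obtain ⟨x, hx, hm⟩ := isCompact_Icc.exists_isMinOn (nonempty_Icc.2 hab.le) hf
  exact ⟨f x, h x hx, fun y hy => hm hy⟩

theorem Pmir_phi {μ c : ℝ} {w : ℂ} (hc : 0 < c) (hw : ‖w‖ ≤ c / (4 * (1 + |μ|))) :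
    |w.re - μ * w.im| ≤ c / 4 ∧ |w.im| ≤ c / 4 := by
  have h1 := abs_re_le_norm w
  have h2 := abs_im_le_norm w
  have h3 : ‖w‖ * (4 * (1 + |μ|)) ≤ c := (le_div_iff₀ (by positivity)).1 hw
  have h4 : |w.re - μ * w.im| ≤ |w.re| + |μ| * |w.im| := by
    rw [← abs_mul]; exact abs_sub _ _
  have h5 : |μ| * |w.im| ≤ |μ| * ‖w‖ := mul_le_mul_of_nonneg_left h2 (abs_nonneg _)
  have h6 : 0 ≤ |μ| * ‖w‖ := by positivity
  constructor <;> nlinarith

theorem s_mir (h1 : S_mir0) : S_mir := by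
  intro x₁ x₂ β₁ β₂ μ g hx hβ hg a1 a2 a3 a4
  have φc : Continuous fun z : ℂ => z.re - μ * z.im := by fun_prop
  have g1 : ∀ x ∈ Icc x₁ x₂, ContinuousOn (fun β => g (x, β)) (Icc β₁ β₂) := fun x hx' =>
    hg.comp (by fun_prop) fun β hβ' => ⟨hx', hβ'⟩
  have g2 : ∀ β ∈ Icc β₁ β₂, ContinuousOn (fun x => g (x, β)) (Icc x₁ x₂) := fun β hβ' =>
    hg.comp (by fun_prop) fun x hx' => ⟨hx', hβ'⟩
  have m1 : x₁ ∈ Icc x₁ x₂ := ⟨le_rfl, hx.le⟩
  have m2 : x₂ ∈ Icc x₁ x₂ := ⟨hx.le, le_rfl⟩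
  have m3 : β₁ ∈ Icc β₁ β₂ := ⟨le_rfl, hβ.le⟩
  have m4 : β₂ ∈ Icc β₁ β₂ := ⟨hβ.le, le_rfl⟩
  obtain ⟨c₁, p1, b1⟩ := Pmir_pos hβ (φc.comp_continuousOn (g1 x₁ m1)) a1
  obtain ⟨c₂, p2, b2⟩ := Pmir_pos hβ (φc.comp_continuousOn (g1 x₂ m2)).neg
    (fun β h => neg_pos.2 (a2 β h))
  obtain ⟨c₃, p3, b3⟩ := Pmir_pos hx (continuous_im.comp_continuousOn (g2 β₁ m3)) a3
  obtain ⟨c₄, p4, b4⟩ := Pmir_pos hx (continuous_im.comp_continuousOn (g2 β₂ m4)).neg
    (fun x h => neg_pos.2 (a4 x h))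
  obtain ⟨c, hc, k1, k2, k3, k4⟩ : ∃ c : ℝ, 0 < c ∧ c ≤ c₁ ∧ c ≤ c₂ ∧ c ≤ c₃ ∧ c ≤ c₄ :=
    ⟨min (min c₁ c₂) (min c₃ c₄), by positivity, (min_le_left _ _).trans (min_le_left _ _),
      (min_le_left _ _).trans (min_le_right _ _), (min_le_right _ _).trans (min_le_left _ _),
      (min_le_right _ _).trans (min_le_right _ _)⟩
  simp only [Function.comp, Pi.neg_apply] at b1 b2 b3 b4
  have hε : 0 < c / (4 * (1 + |μ|)) := by positivity
  obtain ⟨δ, hδ, hu⟩ := Metric.uniformContinuousOn_iff_le.1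
    ((isCompact_Icc.prod isCompact_Icc).uniformContinuousOn_of_continuous hg) _ hε
  refine ⟨_, hε, fun X Φ cX cΦ e0 e1 hΦ => ?_⟩
  set cx : ℝ × ℝ → ℝ := fun p => max x₁ (min (X p) x₂) with hcx
  set η : ℝ × ℝ → ℝ := fun p => max 0 (min 1 (min (X p - x₁) (x₂ - X p) / δ)) with hη
  set Ψ : ℝ × ℝ → ℂ := fun p => g (cx p, p.2) + η p * (Φ p - g (cx p, p.2)) with hΨ
  have cxm : ∀ p, cx p ∈ Icc x₁ x₂ := fun p =>
    ⟨le_max_left _ _, max_le hx.le (min_le_right _ _)⟩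
  have cxe : ∀ p, X p ∈ Icc x₁ x₂ → cx p = X p := fun p h => by
    simp only [hcx]; rw [min_eq_left h.2, max_eq_right h.1]
  have ccx : ContinuousOn cx (Icc (0 : ℝ) 1 ×ˢ Icc β₁ β₂) :=
    continuousOn_const.sup (cX.inf continuousOn_const)
  have cη : ContinuousOn η (Icc (0 : ℝ) 1 ×ˢ Icc β₁ β₂) :=
    continuousOn_const.sup (continuousOn_const.inf
      (((cX.sub continuousOn_const).inf (continuousOn_const.sub cX)).div_const δ))
  have cg : ContinuousOn (fun p => g (cx p, p.2)) (Icc (0 : ℝ) 1 ×ˢ Icc β₁ β₂) :=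
    hg.comp (ccx.prodMk continuousOn_snd) fun p hp => ⟨cxm p, hp.2⟩
  have cΨ : ContinuousOn Ψ (Icc (0 : ℝ) 1 ×ˢ Icc β₁ β₂) :=
    cg.add ((continuous_ofReal.comp_continuousOn cη).mul (cΦ.sub cg))
  have near : ∀ p ∈ Icc (0 : ℝ) 1 ×ˢ Icc β₁ β₂, ‖Ψ p - g (cx p, p.2)‖ ≤ c / (4 * (1 + |μ|)) := by
    intro p hp
    have e : Ψ p - g (cx p, p.2) = η p * (Φ p - g (cx p, p.2)) := by simp only [hΨ]; ring
    rw [e]
    by_cases h : X p ∈ Icc x₁ x₂
    · have η0 : 0 ≤ η p := le_max_left _ _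
      have η1 : η p ≤ 1 := max_le zero_le_one (min_le_left _ _)
      rw [norm_mul, norm_real, Real.norm_eq_abs, abs_of_nonneg η0, cxe p h]
      exact (mul_le_of_le_one_left (norm_nonneg _) η1).trans (hΦ p hp h)
    · have : η p = 0 := by
        simp only [hη]
        refine max_eq_left ((min_le_right _ _).trans (div_nonpos_of_nonpos_of_nonneg ?_ hδ.le))
        simp only [mem_Icc, not_and_or, not_le] at h
        rcases h with h | h
        · exact (min_le_left _ _).trans (by linarith)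
        · exact (min_le_right _ _).trans (by linarith)
      rw [this]; simpa using hε.le
  have left : ∀ p ∈ Icc (0 : ℝ) 1 ×ˢ Icc β₁ β₂, cx p ≤ x₁ + δ → 0 < (Ψ p).re - μ * (Ψ p).im := by
    intro p hp h
    have n1 := (abs_le.1 (Pmir_phi hc (near p hp)).1).1
    have n2 := hu (cx p, p.2) ⟨cxm p, hp.2⟩ (x₁, p.2) ⟨m1, hp.2⟩ (by
      rw [Prod.dist_eq, dist_self, Real.dist_eq, abs_of_nonneg (by linarith [(cxm p).1])]
      exact max_le (by linarith) hδ.le)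
    rw [dist_eq_norm] at n2
    have n3 := (abs_le.1 (Pmir_phi hc n2).1).1
    have n4 := b1 _ hp.2
    simp only [sub_re, sub_im] at n1 n3
    nlinarith
  have right : ∀ p ∈ Icc (0 : ℝ) 1 ×ˢ Icc β₁ β₂, x₂ - δ ≤ cx p → (Ψ p).re - μ * (Ψ p).im < 0 := by
    intro p hp h
    have n1 := (abs_le.1 (Pmir_phi hc (near p hp)).1).2
    have n2 := hu (cx p, p.2) ⟨cxm p, hp.2⟩ (x₂, p.2) ⟨m2, hp.2⟩ (by
      rw [Prod.dist_eq, dist_self, Real.dist_eq, abs_of_nonpos (by linarith [(cxm p).2])]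
      exact max_le (by linarith) hδ.le)
    rw [dist_eq_norm] at n2
    have n3 := (abs_le.1 (Pmir_phi hc n2).1).2
    have n4 := b2 _ hp.2
    simp only [sub_re, sub_im] at n1 n3
    nlinarith
  obtain ⟨p, hp, z1, z2⟩ := h1 β₁ β₂ (fun p => (Ψ p).re - μ * (Ψ p).im) (fun p => (Ψ p).im) hβ
    (φc.comp_continuousOn cΨ) (continuous_im.comp_continuousOn cΨ)
    (fun β h => left (0, β) ⟨⟨le_rfl, zero_le_one⟩, h⟩
      (max_le (by linarith) ((min_le_left _ _).trans (by linarith [e0 β h]))))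
    (fun β h => right (1, β) ⟨⟨zero_le_one, le_rfl⟩, h⟩
      (le_max_of_le_right (le_min (by linarith [e1 β h]) (by linarith))))
    (fun t h => by
      have n1 := (abs_le.1 (Pmir_phi hc (near (t, β₁) ⟨h, m3⟩)).2).1
      have n2 := b3 _ (cxm (t, β₁))
      simp only [sub_im] at n1
      linarith)
    (fun t h => by
      have n1 := (abs_le.1 (Pmir_phi hc (near (t, β₂) ⟨h, m4⟩)).2).2
      have n2 := b4 _ (cxm (t, β₂))
      simp only [sub_im] at n1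
      linarith)
  have l1 : x₁ + δ < cx p := by
    by_contra h
    exact (left p hp (not_lt.1 h)).ne' z1
  have l2 : cx p < x₂ - δ := by
    by_contra h
    exact (right p hp (not_lt.1 h)).ne z1
  have hX : X p ∈ Icc x₁ x₂ := by
    constructor
    · by_contra h
      have : cx p ≤ x₁ := max_le le_rfl ((min_le_left _ _).trans (not_le.1 h).le)
      linarith
    · by_contra h
      have : x₂ ≤ cx p := le_max_of_le_right (le_min (not_le.1 h).le le_rfl)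
      linarith
  have η1 : η p = 1 := by
    rw [cxe p hX] at l1 l2
    simp only [hη]
    rw [min_eq_left ((one_le_div hδ).2 (le_min (by linarith) (by linarith))),
      max_eq_right zero_le_one]
  refine ⟨p, hp, hX, ?_⟩
  have e : Ψ p = Φ p := by simp only [hΨ, η1]; simp
  rw [← e]
  rw [z2] at z1
  exact Complex.ext (by simpa using z1) (by simpa using z2)

end P139.PP
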