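import Vale.Agent.P139.PStm
import Vale.Agent.P371.Brouwer

open Complex Set Filter Topology MeasureTheory
open scoped ContDiff ComplexConjugate

noncomputable section
namespace P139.PP

theorem Pmir0_clamp {a b t f : ℝ} (ht : t ∈ Icc a b) (h : max a (min b (t + f)) = t)
    (h1 : t = a → 0 < f) (h2 : t = b → f < 0) : f = 0 := by
  obtain ⟨ha, hb⟩ := ht
  rcases lt_trichotomy f 0 with hf | hf | hf
  · exfalso
    have hm : min b (t + f) < t := lt_of_le_of_lt (min_le_right _ _) (by linarith)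
    rcases le_total a (min b (t + f)) with h3 | h3
    · rw [max_eq_right h3] at h; linarith
    · rw [max_eq_left h3] at h; linarith [h1 h.symm]
  · exact hf
  · exfalso
    have hm : min b (t + f) ≤ t := (le_max_right a _).trans h.le
    rcases le_total b (t + f) with h3 | h3
    · rw [min_eq_left h3] at hm; linarith [h2 (le_antisymm hb hm)]
    · rw [min_eq_right h3] at hm; linarith

theorem s_mir0 : S_mir0 := by
  intro β₁ β₂ f₁ f₂ hβ c₁ c₂ h1 h2 h3 h4
  obtain ⟨p, hp, e⟩ := Vale.Agent.P371.brouwer (E := ℝ × ℝ) (K := Icc (0 : ℝ) 1 ×ˢ Icc β₁ β₂)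
    ((convex_Icc _ _).prod (convex_Icc _ _)) (isCompact_Icc.prod isCompact_Icc)
    ⟨(0, β₁), ⟨le_rfl, zero_le_one⟩, ⟨le_rfl, hβ.le⟩⟩
    (f := fun p => (max 0 (min 1 (p.1 + f₁ p)), max β₁ (min β₂ (p.2 + f₂ p))))
    ((continuousOn_const.sup (continuousOn_const.inf (continuousOn_fst.add c₁))).prodMk
      (continuousOn_const.sup (continuousOn_const.inf (continuousOn_snd.add c₂))))
    (fun p _ => ⟨⟨le_max_left _ _, max_le zero_le_one (min_le_left _ _)⟩,
      ⟨le_max_left _ _, max_le hβ.le (min_le_left _ _)⟩⟩)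
  obtain ⟨t, β⟩ := p
  simp only [Prod.mk.injEq] at e
  refine ⟨(t, β), hp, Pmir0_clamp hp.1 e.1 ?_ ?_, Pmir0_clamp hp.2 e.2 ?_ ?_⟩
  · rintro rfl; exact h1 β hp.2
  · rintro rfl; exact h2 β hp.2
  · rintro rfl; exact h3 t hp.1
  · rintro rfl; exact h4 t hp.1

end P139.PP
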