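import Vale.Agent.P139.PStm

/-! P139 part P: smoothness of the parametric integral `∫ t^j g(s t)`. -/

open Complex Set Filter Topology MeasureTheory
open scoped ContDiff ComplexConjugate

noncomputable section
namespace P139.PP

theorem Ppar_cont (j : ℕ) (g : ℝ → ℂ) (hg : Continuous g) :
    Continuous (fun s : ℝ => ∫ t in (0 : ℝ)..1, (t : ℂ) ^ j * g (s * t)) := by
  apply intervalIntegral.continuous_parametric_intervalIntegral_of_continuous'
  have h1 : Continuous (fun p : ℝ × ℝ => ((p.2 : ℝ) : ℂ) ^ j * g (p.1 * p.2)) := by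
    fun_prop
  exact h1

theorem Ppar_deriv (j : ℕ) (g : ℝ → ℂ) (hg : Differentiable ℝ g) (hg' : Continuous (deriv g))
    (s₀ : ℝ) :
    HasDerivAt (fun s : ℝ => ∫ t in (0 : ℝ)..1, (t : ℂ) ^ j * g (s * t))
      (∫ t in (0 : ℝ)..1, (t : ℂ) ^ (j + 1) * deriv g (s₀ * t)) s₀ := by
  have hgc : Continuous g := hg.continuous
  obtain ⟨C, hC⟩ : ∃ C : ℝ, ∀ x ∈ Icc (-(|s₀| + 1)) (|s₀| + 1), ‖deriv g x‖ ≤ C :=
    isCompact_Icc.exists_bound_of_continuousOn hg'.continuousOn
  have key := intervalIntegral.hasDerivAt_integral_of_dominated_loc_of_deriv_le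
    (μ := volume) (a := (0 : ℝ)) (b := 1) (x₀ := s₀) (s := Metric.ball s₀ 1)
    (F := fun s t : ℝ => (t : ℂ) ^ j * g (s * t))
    (F' := fun s t : ℝ => (t : ℂ) ^ (j + 1) * deriv g (s * t))
    (bound := fun _ => C) (Metric.ball_mem_nhds s₀ one_pos) ?_ ?_ ?_ ?_ ?_ ?_
  · exact key.2
  · refine Filter.Eventually.of_forall fun s => ?_
    have : Continuous (fun t : ℝ => (t : ℂ) ^ j * g (s * t)) := by fun_prop
    exact this.aestronglyMeasurable
  · have : Continuous (fun t : ℝ => (t : ℂ) ^ j * g (s₀ * t)) := by fun_prop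
    exact this.intervalIntegrable _ _
  · have : Continuous (fun t : ℝ => (t : ℂ) ^ (j + 1) * deriv g (s₀ * t)) := by fun_prop
    exact this.aestronglyMeasurable
  · refine Filter.Eventually.of_forall fun t ht s hs => ?_
    rw [uIoc_of_le zero_le_one] at ht
    have ht0 : 0 ≤ t := ht.1.le
    have ht1 : t ≤ 1 := ht.2
    have hs1 : |s| ≤ |s₀| + 1 := by
      have h1 : |s - s₀| < 1 := by simpa [Real.dist_eq] using hs
      have h2 : |s| ≤ |s - s₀| + |s₀| := by
        calc |s| = |(s - s₀) + s₀| := by ring_nf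
          _ ≤ |s - s₀| + |s₀| := abs_add_le _ _
      linarith
    have hst : |s * t| ≤ |s₀| + 1 := by
      rw [abs_mul, abs_of_nonneg ht0]
      calc |s| * t ≤ |s| * 1 := by gcongr
        _ ≤ |s₀| + 1 := by linarith
    have hb := hC (s * t) (abs_le.mp hst)
    rw [norm_mul, norm_pow, Complex.norm_real, Real.norm_eq_abs, abs_of_nonneg ht0]
    have h3 : t ^ (j + 1) ≤ 1 := pow_le_one₀ ht0 ht1
    calc t ^ (j + 1) * ‖deriv g (s * t)‖ ≤ 1 * ‖deriv g (s * t)‖ := by gcongr
      _ ≤ C := by linarith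
  · exact intervalIntegrable_const
  · refine Filter.Eventually.of_forall fun t _ s _ => ?_
    have h1 : HasDerivAt (fun s : ℝ => s * t) t s := by
      simpa using (hasDerivAt_id s).mul_const t
    have h2 : HasDerivAt (fun s : ℝ => g (s * t)) (t • deriv g (s * t)) s :=
      (hg (s * t)).hasDerivAt.scomp s h1
    have h3 := h2.const_mul ((t : ℂ) ^ j)
    have h4 : (t : ℂ) ^ (j + 1) * deriv g (s * t) = (t : ℂ) ^ j * (t • deriv g (s * t)) := by
      rw [Complex.real_smul]; ring
    rw [h4]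
    exact h3

theorem Ppar_glob (k : ℕ) : ∀ (j : ℕ) (g : ℝ → ℂ), ContDiff ℝ k g →
    ContDiff ℝ k (fun s : ℝ => ∫ t in (0 : ℝ)..1, (t : ℂ) ^ j * g (s * t)) := by
  induction k with
  | zero =>
    intro j g hg
    have hg0 : Continuous g := hg.continuous
    exact contDiff_zero.mpr (Ppar_cont j g hg0)
  | succ k ih =>
    intro j g hg
    have hg1 : ContDiff ℝ ((k : ℕ∞ω) + 1) g := by exact_mod_cast hg
    rw [contDiff_succ_iff_deriv] at hg1
    obtain ⟨hd, -, hk⟩ := hg1
    have hc : Continuous (deriv g) := hk.continuous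
    have hD := Ppar_deriv j g hd hc
    have hgoal : ContDiff ℝ ((k : ℕ∞ω) + 1)
        (fun s : ℝ => ∫ t in (0 : ℝ)..1, (t : ℂ) ^ j * g (s * t)) := by
      rw [contDiff_succ_iff_deriv]
      refine ⟨fun s => (hD s).differentiableAt, by simp, ?_⟩
      have : deriv (fun s : ℝ => ∫ t in (0 : ℝ)..1, (t : ℂ) ^ j * g (s * t)) =
          fun s : ℝ => ∫ t in (0 : ℝ)..1, (t : ℂ) ^ (j + 1) * deriv g (s * t) := by
        funext s; exact (hD s).deriv
      rw [this]
      exact ih (j + 1) (deriv g) hk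
    exact_mod_cast hgoal

theorem s_par : S_par := by
  intro k j ε g hε hg s₀ hs₀
  have hs₀' : -ε < s₀ := hs₀
  -- choose `0 < e1 < e2 < ε` with `-e1 < s₀`
  obtain ⟨e1, he1, he1ε, hs1⟩ : ∃ e1 : ℝ, 0 < e1 ∧ e1 < ε ∧ -e1 < s₀ := by
    refine ⟨(max 0 (-s₀) + ε) / 2, ?_, ?_, ?_⟩
    · have := le_max_left 0 (-s₀); linarith
    · have : max 0 (-s₀) < ε := max_lt hε (by linarith); linarith
    · have := le_max_right 0 (-s₀)
      have h2 : max 0 (-s₀) < ε := max_lt hε (by linarith)
      linarith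
  set e2 : ℝ := (e1 + ε) / 2 with he2
  have h12 : 0 < e2 - e1 := by rw [he2]; linarith
  have h2ε : e2 < ε := by rw [he2]; linarith
  let φ : ℝ → ℝ := fun x => x * Real.smoothTransition ((x + e2) / (e2 - e1))
  have hφ : ContDiff ℝ k φ := by
    have h1 : ContDiff ℝ k (fun x : ℝ => (x + e2) / (e2 - e1)) := by fun_prop
    exact contDiff_id.mul (Real.smoothTransition.contDiff.comp h1)
  have hφm : ∀ x, φ x ∈ Ioi (-ε) := by
    intro x
    show -ε < x * Real.smoothTransition ((x + e2) / (e2 - e1))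
    have h0 := Real.smoothTransition.nonneg ((x + e2) / (e2 - e1))
    have h1 := Real.smoothTransition.le_one ((x + e2) / (e2 - e1))
    rcases le_or_gt x (-e2) with hx | hx
    · rw [Real.smoothTransition.zero_of_nonpos
        (div_nonpos_of_nonpos_of_nonneg (by linarith) h12.le)]
      linarith
    · rcases le_or_gt 0 x with hx0 | hx0
      · have := mul_nonneg hx0 h0; linarith
      · nlinarith
  have hφid : ∀ x, -e1 ≤ x → φ x = x := by
    intro x hx
    show x * Real.smoothTransition ((x + e2) / (e2 - e1)) = x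
    rw [Real.smoothTransition.one_of_one_le ((one_le_div h12).mpr (by linarith)), mul_one]
  have hG : ContDiff ℝ k (g ∘ φ) := hg.comp_contDiff hφ hφm
  have hI := Ppar_glob k j (g ∘ φ) hG
  refine (hI.contDiffAt.congr_of_eventuallyEq ?_).contDiffWithinAt
  filter_upwards [Ioi_mem_nhds hs1] with s hs
  have hs' : -e1 < s := hs
  apply intervalIntegral.integral_congr
  intro t ht
  rw [uIcc_of_le zero_le_one] at ht
  have hst : -e1 ≤ s * t := by
    rcases le_or_gt 0 s with h0 | h0
    · have := mul_nonneg h0 ht.1; linarith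
    · nlinarith [ht.1, ht.2]
  simp only [Function.comp_apply, hφid _ hst]

end P139.PP
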