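import Vale.Agent.P139.PStm

open Complex Set Filter Topology MeasureTheory
open scoped ContDiff ComplexConjugate

noncomputable section
namespace P139.PP

theorem Pphi_gam : Tendsto gam atTop (𝓝 0) :=
  tendsto_const_nhds.div_atTop (tendsto_natCast_atTop_atTop.const_mul_atTop two_pos)

theorem s_phi (h1 : S_est) (h2 : S_lin) (h3 : S_tq) : S_phi := by
  intro D A θ E hθ ε₀ hε₀
  have hS := E.hS
  obtain ⟨ε, hε, H⟩ := h1 D (E.S₁ + 1) ε₀ (by linarith) hε₀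
  have hp : Tendsto (fun m : ℕ => (max (A.θf ε) 0) ^ (2 * m)) atTop (𝓝 0) :=
    (tendsto_pow_atTop_nhds_zero_of_lt_one (le_max_right _ _)
      (max_lt (A.hθ ε hε) one_pos)).comp (tendsto_id.const_mul_atTop' two_pos)
  filter_upwards [eventually_ge_atTop 1, Pphi_gam.eventually (eventually_le_nhds hε),
    A.asy (E.S₁ + 1) ε ε hε hε, A.asy (E.S₁ + 1) 1 1 one_pos one_pos, E.cv ε hε,
    hp.eventually (eventually_le_nhds hε)] with m hm hg a1 a2 cv hpw β a T Θ P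
  obtain ⟨b1, b2, b3⟩ := D.hβ
  obtain ⟨x1, x2, x3⟩ := D.hx
  have hβ : β ∈ Icc (3 / 10 : ℝ) (4 / 10) := ⟨by linarith [P.hβ.1], by linarith [P.hβ.2]⟩
  have hβ' : β ∈ Icc (0 : ℝ) 1 := ⟨by linarith [hβ.1], by linarith [hβ.2]⟩
  have hT : T ∈ Icc (0 : ℝ) 4 := ⟨P.hT.le, by nlinarith [P.hx.2, P.hT]⟩
  have hQ := (h3 m β a Θ P.sol).2.2.2
  have h0 : qq Θ 0 = a := by simpa [qq] using P.sol.1
  obtain ⟨c1, c2, -, c4⟩ := a1 β hβ _ _ a T hQ h0 P.ha hT P.ge P.le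
  obtain ⟨-, -, -, d4⟩ := a2 β hβ _ _ a T hQ h0 P.ha hT P.ge P.le
  have hn : ‖Θ (E.S₁ + 1)‖ ≤ θ := by
    have u1 : 5 ≤ √(E.S₁ + 1) := Real.le_sqrt_of_sq_le (by linarith)
    have u2 : √(E.S₁ + 1) ≤ E.S₁ + 1 := Real.sqrt_le_iff.2 ⟨by linarith, by nlinarith⟩
    have := d4 √(E.S₁ + 1) ⟨by linarith [hT.2], u2⟩
    rw [qq, Real.sq_sqrt (by linarith)] at this
    exact this.trans hθ
  obtain ⟨l1, l2, l3, l4⟩ := E.lin β hβ'
  refine ⟨hn, H m β a T Θ _ (deriv (E.Θl β) (E.S₁ + 1)) P.hβ P.hT P.hx P.sol hg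
    (c1 T ⟨hT.1, le_rfl⟩).1 (c1 T ⟨hT.1, le_rfl⟩).2 (fun r hr => ?_) (fun r hr => ?_)
    (h2 D β E.S₁ E.Cf _ P.hβ hS l1 l2 l3 l4).2 (cv β hβ' _ hn)⟩
  · by_contra h
    have u1 := (c2 r ⟨hT.1.trans hr.1, hr.2⟩).1
    have u2 : ‖qq Θ r‖ ^ 2 ≤ ‖qq Θ r‖ ^ (2 * m) :=
      pow_le_pow_right₀ (by linarith [not_le.1 h]) (by omega)
    nlinarith [not_le.1 h]
  · exact (pow_le_pow_left₀ (norm_nonneg _) ((c4 r hr).trans (le_max_left _ _)) _).trans hpw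

end P139.PP
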