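import Vale.Agent.P139.PStm

/-! P139 part P: derivatives of powers, uniformly in the exponent. -/

open Complex Set Filter Topology MeasureTheory
open scoped ContDiff ComplexConjugate

noncomputable section
namespace P139.PP

theorem Ppow_bdd (θ : ℝ) (h0 : 0 ≤ θ) (h1 : θ < 1) (p : ℕ) :
    ∃ C : ℝ, 0 ≤ C ∧ ∀ m : ℕ, ((m : ℝ) + 1) ^ p * θ ^ m ≤ C := by
  have ht := tendsto_pow_const_mul_const_pow_of_abs_lt_one p (r := θ) (by rwa [abs_of_nonneg h0])
  obtain ⟨C, hC⟩ := ht.bddAbove_range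
  refine ⟨max 1 (2 ^ p * C), le_max_of_le_left zero_le_one, fun m => ?_⟩
  rcases Nat.eq_zero_or_pos m with rfl | hm
  · simp
  · refine le_max_of_le_right ?_
    have h2 : ((m : ℝ) + 1) ^ p ≤ 2 ^ p * (m : ℝ) ^ p := by
      rw [← mul_pow]
      have : (1 : ℝ) ≤ m := by exact_mod_cast hm
      exact pow_le_pow_left₀ (by positivity) (by linarith) p
    have h3 : (m : ℝ) ^ p * θ ^ m ≤ C := hC ⟨m, rfl⟩
    calc ((m : ℝ) + 1) ^ p * θ ^ m ≤ 2 ^ p * (m : ℝ) ^ p * θ ^ m :=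
          mul_le_mul_of_nonneg_right h2 (pow_nonneg h0 m)
      _ = 2 ^ p * ((m : ℝ) ^ p * θ ^ m) := by ring
      _ ≤ 2 ^ p * C := mul_le_mul_of_nonneg_left h3 (by positivity)

theorem Ppow_succ (ρ : ℝ → ℂ) (s : ℝ) (hs : 0 < s) (hρ : ContDiffOn ℝ ∞ ρ (Ioi 0)) (m i : ℕ) :
    iteratedDeriv (i + 1) (fun x => ρ x ^ (m + 1)) s =
      ((m : ℂ) + 1) * ∑ j ∈ Finset.range (i + 1), (i.choose j : ℂ) *
        iteratedDeriv j (fun x => ρ x ^ m) s * iteratedDeriv (i - j + 1) ρ s := by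
  have hmem : Ioi (0 : ℝ) ∈ 𝓝 s := isOpen_Ioi.mem_nhds hs
  have hev : deriv (fun x => ρ x ^ (m + 1)) =ᶠ[𝓝 s]
      fun x => ((m : ℂ) + 1) * ((fun x => ρ x ^ m) * deriv ρ) x := by
    filter_upwards [hmem] with x hx
    have hd : DifferentiableAt ℝ ρ x :=
      (hρ.contDiffAt (isOpen_Ioi.mem_nhds hx)).differentiableAt (by simp)
    have := (hd.hasDerivAt.fun_pow (m + 1)).deriv
    rw [this]
    simp only [Nat.add_sub_cancel, Pi.mul_apply]
    push_cast
    ring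
  have hA : ContDiffAt ℝ ∞ ρ s := hρ.contDiffAt hmem
  have h1 : ContDiffAt ℝ i (fun x => ρ x ^ m) s :=
    (hA.pow m).of_le (by exact_mod_cast le_top)
  have h2 : ContDiffAt ℝ i (deriv ρ) s := by
    have h3 : ContDiffOn ℝ ∞ (deriv ρ) (Ioi 0) :=
      ((contDiffOn_infty_iff_deriv_of_isOpen isOpen_Ioi).1 hρ).2
    exact (h3.contDiffAt hmem).of_le (by exact_mod_cast le_top)
  rw [iteratedDeriv_succ', hev.iteratedDeriv_eq, iteratedDeriv_const_mul_field,
    iteratedDeriv_mul h1 h2]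
  simp only [iteratedDeriv_succ']

theorem Ppow_key (θ B : ℝ) (h0 : 0 ≤ θ) (h1 : θ < 1) (hB : 0 ≤ B) (k i : ℕ) :
    i ≤ k → ∀ p : ℕ, ∃ C : ℝ, 0 ≤ C ∧ ∀ (m : ℕ) (ρ : ℝ → ℂ) (s : ℝ),
      0 < s → ContDiffOn ℝ ∞ ρ (Ioi 0) → ‖ρ s‖ ≤ θ → (∀ i ≤ k, ‖iteratedDeriv i ρ s‖ ≤ B) →
      ((m : ℝ) + 1) ^ p * ‖iteratedDeriv i (fun x => ρ x ^ m) s‖ ≤ C := by
  induction i using Nat.strong_induction_on with
  | _ i ih =>
    intro hik p
    rcases i with _ | i
    · obtain ⟨C, hC0, hC⟩ := Ppow_bdd θ h0 h1 p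
      refine ⟨C, hC0, fun m ρ s _ _ hθ _ => ?_⟩
      refine le_trans ?_ (hC m)
      simp only [iteratedDeriv_zero, norm_pow]
      exact mul_le_mul_of_nonneg_left (pow_le_pow_left₀ (norm_nonneg _) hθ m) (by positivity)
    · have ih' : ∀ j : ℕ, ∃ C : ℝ, 0 ≤ C ∧ (j ≤ i → ∀ (m : ℕ) (ρ : ℝ → ℂ) (s : ℝ),
          0 < s → ContDiffOn ℝ ∞ ρ (Ioi 0) → ‖ρ s‖ ≤ θ →
          (∀ i ≤ k, ‖iteratedDeriv i ρ s‖ ≤ B) →
          ((m : ℝ) + 1) ^ (p + 1) * ‖iteratedDeriv j (fun x => ρ x ^ m) s‖ ≤ C) := by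
        intro j
        by_cases hj : j ≤ i
        · obtain ⟨C, hC0, hC⟩ := ih j (by omega) (by omega) (p + 1)
          exact ⟨C, hC0, fun _ => hC⟩
        · exact ⟨0, le_rfl, fun h => absurd h hj⟩
      choose C hC0 hC using ih'
      have hS : 0 ≤ ∑ j ∈ Finset.range (i + 1), (i.choose j : ℝ) * C j * B :=
        Finset.sum_nonneg fun j _ => mul_nonneg (mul_nonneg (Nat.cast_nonneg _) (hC0 j)) hB
      refine ⟨2 ^ p * ∑ j ∈ Finset.range (i + 1), (i.choose j : ℝ) * C j * B,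
        mul_nonneg (by positivity) hS, fun m ρ s hs hρ hθ hD => ?_⟩
      rcases m with _ | m
      · simp only [pow_zero, iteratedDeriv_succ', deriv_const']
        simp only [iteratedDeriv_fun_const_zero, norm_zero, mul_zero]
        exact mul_nonneg (by positivity) hS
      · rw [Ppow_succ ρ s hs hρ m i, norm_mul]
        have hn : ‖(m : ℂ) + 1‖ = (m : ℝ) + 1 := by
          have : ((m : ℂ) + 1) = (((m : ℝ) + 1 : ℝ) : ℂ) := by push_cast; rfl
          rw [this, Complex.norm_real, Real.norm_of_nonneg (by positivity)]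
        rw [hn]
        have hp : (((m + 1 : ℕ) : ℝ) + 1) ^ p ≤ 2 ^ p * ((m : ℝ) + 1) ^ p := by
          rw [← mul_pow]
          have : (0 : ℝ) ≤ m := Nat.cast_nonneg m
          exact pow_le_pow_left₀ (by positivity) (by push_cast; linarith) p
        have hsum : ((m : ℝ) + 1) ^ (p + 1) * ‖∑ j ∈ Finset.range (i + 1), (i.choose j : ℂ) *
            iteratedDeriv j (fun x => ρ x ^ m) s * iteratedDeriv (i - j + 1) ρ s‖ ≤
            ∑ j ∈ Finset.range (i + 1), (i.choose j : ℝ) * C j * B := by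
          refine le_trans (mul_le_mul_of_nonneg_left (norm_sum_le _ _) (by positivity)) ?_
          rw [Finset.mul_sum]
          refine Finset.sum_le_sum fun j hj => ?_
          have hj' : j ≤ i := Nat.lt_succ_iff.1 (Finset.mem_range.1 hj)
          have e1 := hC j hj' m ρ s hs hρ hθ hD
          have e2 := hD (i - j + 1) (by omega)
          rw [norm_mul, norm_mul, Complex.norm_natCast]
          calc ((m : ℝ) + 1) ^ (p + 1) * ((i.choose j : ℝ) *
                ‖iteratedDeriv j (fun x => ρ x ^ m) s‖ * ‖iteratedDeriv (i - j + 1) ρ s‖)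
              = (i.choose j : ℝ) * (((m : ℝ) + 1) ^ (p + 1) *
                ‖iteratedDeriv j (fun x => ρ x ^ m) s‖) * ‖iteratedDeriv (i - j + 1) ρ s‖ := by
                ring
            _ ≤ (i.choose j : ℝ) * C j * B :=
                mul_le_mul (mul_le_mul_of_nonneg_left e1 (Nat.cast_nonneg _)) e2 (norm_nonneg _)
                  (mul_nonneg (Nat.cast_nonneg _) (hC0 j))
        calc _ ≤ 2 ^ p * ((m : ℝ) + 1) ^ p * (((m : ℝ) + 1) *
              ‖∑ j ∈ Finset.range (i + 1), (i.choose j : ℂ) *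
              iteratedDeriv j (fun x => ρ x ^ m) s * iteratedDeriv (i - j + 1) ρ s‖) :=
              mul_le_mul_of_nonneg_right hp (by positivity)
          _ = 2 ^ p * (((m : ℝ) + 1) ^ (p + 1) *
              ‖∑ j ∈ Finset.range (i + 1), (i.choose j : ℂ) *
              iteratedDeriv j (fun x => ρ x ^ m) s * iteratedDeriv (i - j + 1) ρ s‖) := by ring
          _ ≤ _ := mul_le_mul_of_nonneg_left hsum (by positivity)

theorem s_pow : S_pow := by
  intro θ B k hθ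
  have h : ∀ i : ℕ, ∃ C : ℝ, 0 ≤ C ∧ (i ≤ k → ∀ (m : ℕ) (ρ : ℝ → ℂ) (s : ℝ),
      0 < s → ContDiffOn ℝ ∞ ρ (Ioi 0) → ‖ρ s‖ ≤ max θ 0 →
      (∀ i ≤ k, ‖iteratedDeriv i ρ s‖ ≤ |B|) →
      ((m : ℝ) + 1) ^ 0 * ‖iteratedDeriv i (fun x => ρ x ^ m) s‖ ≤ C) := by
    intro i
    by_cases hi : i ≤ k
    · obtain ⟨C, hC0, hC⟩ := Ppow_key (max θ 0) |B| (le_max_right _ _) (max_lt hθ one_pos)
        (abs_nonneg B) k i hi 0
      exact ⟨C, hC0, fun _ => hC⟩
    · exact ⟨0, le_rfl, fun h => absurd h hi⟩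
  choose C hC0 hC using h
  refine ⟨∑ i ∈ Finset.range (k + 1), C i, fun m ρ s hs hρ hθ' hD i hi => ?_⟩
  have e := hC i hi m ρ s hs hρ (le_max_of_le_left hθ')
    (fun j hj => (hD j hj).trans (le_abs_self B))
  rw [pow_zero, one_mul] at e
  exact e.trans (Finset.single_le_sum (f := C) (fun j _ => hC0 j)
    (Finset.mem_range.2 (Nat.lt_succ_of_le hi)))

end P139.PP
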