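import Vale.Agent.P139.PStm

/-! P139 part P: a member of a matched family is a profile. -/

open Complex Set Filter Topology MeasureTheory
open scoped ContDiff ComplexConjugate

noncomputable section
namespace P139.PP

theorem Pprof_gam (m : ℕ) : 0 ≤ gam m := by
  unfold gam; positivity

theorem Pprof_cont {ε : ℝ} {Θ : ℝ → ℂ} (h : ContDiffOn ℝ ∞ Θ (Ioi (-ε))) (k : ℕ) :
    ContinuousOn (iteratedDeriv k Θ) (Ioi (-ε)) := by
  have h1 : ContinuousOn (iteratedDerivWithin k Θ (Ioi (-ε))) (Ioi (-ε)) :=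
    h.continuousOn_iteratedDerivWithin (by exact_mod_cast le_top) (uniqueDiffOn_Ioi _)
  exact h1.congr fun x hx => (iteratedDerivWithin_of_isOpen isOpen_Ioi hx).symm

theorem Pprof_symb {f : ℝ → ℂ} {S e Cf : ℝ} (hS : 1 ≤ S) (he : 0 ≤ e)
    (hc : ContinuousOn f (Icc 0 S)) (hb : ∀ s : ℝ, S ≤ s → ‖f s‖ ≤ Cf * s ^ (-e)) :
    ∃ C : ℝ, ∀ s : ℝ, 0 ≤ s → ‖f s‖ ≤ C * (1 + s) ^ (-e) := by
  obtain ⟨C₁, hC₁⟩ := isCompact_Icc.exists_bound_of_continuousOn hc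
  have hC0 : 0 ≤ C₁ := le_trans (norm_nonneg _) (hC₁ 0 ⟨le_rfl, by linarith⟩)
  refine ⟨C₁ * (1 + S) ^ e + |Cf| * 2 ^ e, fun s hs => ?_⟩
  have h1s : 0 < 1 + s := by linarith
  have hp : 0 < (1 + s) ^ (-e) := Real.rpow_pos_of_pos h1s _
  have hA : 0 ≤ C₁ * (1 + S) ^ e := mul_nonneg hC0 (Real.rpow_nonneg (by linarith) _)
  have hB : 0 ≤ |Cf| * 2 ^ e := mul_nonneg (abs_nonneg _) (Real.rpow_nonneg (by norm_num) _)
  have hinv : (1 + s) ^ e * (1 + s) ^ (-e) = 1 := by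
    rw [← Real.rpow_add h1s]; simp
  rcases le_total s S with h | h
  · have h2 : (1 + s) ^ e ≤ (1 + S) ^ e := Real.rpow_le_rpow h1s.le (by linarith) he
    have h3 : 1 ≤ (1 + S) ^ e * (1 + s) ^ (-e) := by
      have := mul_le_mul_of_nonneg_right h2 hp.le
      rwa [hinv] at this
    have h4 := hC₁ s ⟨hs, h⟩
    calc ‖f s‖ ≤ C₁ * 1 := by linarith
      _ ≤ C₁ * ((1 + S) ^ e * (1 + s) ^ (-e)) := mul_le_mul_of_nonneg_left h3 hC0
      _ ≤ _ := by nlinarith [mul_nonneg hB hp.le]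
  · have hs0 : 0 < s := by linarith
    have h2 : (1 + s) ^ e ≤ (2 * s) ^ e := Real.rpow_le_rpow h1s.le (by linarith) he
    rw [Real.mul_rpow (by norm_num) hs0.le] at h2
    have hq : 0 < s ^ (-e) := Real.rpow_pos_of_pos hs0 _
    have hinv' : s ^ e * s ^ (-e) = 1 := by
      rw [← Real.rpow_add hs0]; simp
    have h3 : s ^ (-e) ≤ 2 ^ e * (1 + s) ^ (-e) := by
      have h5 : (1 + s) ^ e * ((1 + s) ^ (-e) * s ^ (-e))
          ≤ 2 ^ e * s ^ e * ((1 + s) ^ (-e) * s ^ (-e)) :=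
        mul_le_mul_of_nonneg_right h2 (mul_pos hp hq).le
      calc s ^ (-e) = (1 + s) ^ e * ((1 + s) ^ (-e) * s ^ (-e)) := by
            rw [← mul_assoc, hinv, one_mul]
        _ ≤ _ := h5
        _ = 2 ^ e * (1 + s) ^ (-e) * (s ^ e * s ^ (-e)) := by ring
        _ = _ := by rw [hinv', mul_one]
    calc ‖f s‖ ≤ Cf * s ^ (-e) := hb s h
      _ ≤ |Cf| * s ^ (-e) := mul_le_mul_of_nonneg_right (le_abs_self _) hq.le
      _ ≤ |Cf| * (2 ^ e * (1 + s) ^ (-e)) := mul_le_mul_of_nonneg_left h3 (abs_nonneg _)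
      _ ≤ _ := by nlinarith [mul_nonneg hA hp.le]

theorem s_prof (h1 : S_sm) (h2 : S_ne) (h3 : S_tq) : S_prof := by
  intro D F j
  have hpre := F.pre j
  obtain ⟨ε, hε, hsm, hode⟩ := h1 (F.m j) (F.β j) (F.a j) (F.Θ j) hpre.sol (F.Nb j)
  obtain ⟨-, -, -, hq⟩ := h3 (F.m j) (F.β j) (F.a j) (F.Θ j) hpre.sol
  refine ⟨⟨F.β j, F.Θ j, ε, hε, hsm, hode, ?_, ?_⟩, rfl, rfl⟩
  · intro s hs
    have h0 : qq (F.Θ j) 0 ≠ 0 := by
      have : qq (F.Θ j) 0 = (F.a j : ℂ) := by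
        unfold qq; simpa using hpre.sol.1
      rw [this]; exact_mod_cast hpre.ha.ne'
    have := h2 (F.m j) (F.β j) _ _ (F.m_pos j) hq h0 (√s) (Real.sqrt_nonneg s)
    unfold qq at this
    rwa [Real.sq_sqrt hs] at this
  · intro k
    have hS := F.hS
    have he : 0 ≤ gam (F.m j) + (k : ℝ) := add_nonneg (Pprof_gam _) (Nat.cast_nonneg k)
    have hE : -(gam (F.m j)) - (k : ℝ) = -(gam (F.m j) + (k : ℝ)) := by ring
    rw [hE]
    refine Pprof_symb (S := F.S + 1) (Cf := F.Cf k) (by linarith) he ?_ ?_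
    · exact (Pprof_cont hsm k).mono fun x hx => lt_of_lt_of_le (by linarith) hx.1
    · intro s hs
      rw [← hE]; exact F.symb j k s hs

end P139.PP
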