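import Vale.Agent.P139.PStm

/-! P139 part P: the exterior limit profile has no zero. -/

open Complex Set Filter Topology MeasureTheory
open scoped ContDiff ComplexConjugate

noncomputable section
namespace P139.PP

def Pqne_Y (U : ℝ → ℂ) (s : ℝ) : ℝ :=
  s ^ 6 * (4 * (conj (U s) * deriv U s).im + (conj (U s) * U s).re / 2)

lemma Pqne_deriv {β : ℝ} {U : ℝ → ℂ} (h : FSol β U) {s : ℝ} (hs : 0 < s) :
    HasDerivAt (Pqne_Y U) (3 * s ^ 5 * (conj (U s) * U s).re) s := by
  have hn : Ioi (0 : ℝ) ∈ 𝓝 s := isOpen_Ioi.mem_nhds hs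
  have h0 : HasDerivAt U (deriv U s) s :=
    ((h.1.differentiableOn (by simp)).differentiableAt hn).hasDerivAt
  have hs' : ContDiffOn ℝ ∞ (deriv U) (Ioi 0) := h.1.deriv_of_isOpen isOpen_Ioi (by simp)
  have h1 : HasDerivAt (deriv U) (deriv (deriv U) s) s :=
    ((hs'.differentiableOn (by simp)).differentiableAt hn).hasDerivAt
  have hc : HasDerivAt (fun s => conj (U s)) (conj (deriv U s)) s := h0.star
  have a1 := imCLM.hasFDerivAt.comp_hasDerivAt s (hc.mul h1)
  have a2 := reCLM.hasFDerivAt.comp_hasDerivAt s (hc.mul h0)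
  have a3 := (hasDerivAt_pow 6 s).mul ((a1.const_mul 4).add (a2.div_const 2))
  have e := h.2 s hs
  unfold FreeF at e
  have e1 := congrArg Complex.re e
  have e2 := congrArg Complex.im e
  simp at e1 e2
  refine (a3.congr_deriv ?_)
  simp
  linear_combination (-s ^ 5 * (U s).re) * e1 - (s ^ 5 * (U s).im) * e2

theorem s_qne : S_qne := by
  intro β s₀ U h hs₀ hd h0 s hs hU
  have hm : MonotoneOn (Pqne_Y U) (Ici s₀) := by
    refine monotoneOn_of_deriv_nonneg (convex_Ici _) (fun x hx => ?_) (fun x hx => ?_)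
      (fun x hx => ?_)
    · exact (Pqne_deriv h (lt_of_lt_of_le hs₀ hx)).continuousAt.continuousWithinAt
    · exact (Pqne_deriv h (lt_of_lt_of_le hs₀ (interior_subset hx))).differentiableAt.differentiableWithinAt
    · have hx0 : 0 < x := lt_of_lt_of_le hs₀ (interior_subset hx)
      rw [(Pqne_deriv h hx0).deriv]
      have : 0 ≤ (conj (U x) * U x).re := by
        rw [← Complex.normSq_eq_conj_mul_self]; simp [normSq_nonneg]
      positivity
  have h1 := hm (self_mem_Ici) hs hs
  have h2 : Pqne_Y U s = 0 := by simp [Pqne_Y, hU]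
  have h3 : 0 < Pqne_Y U s₀ := by
    have : 0 < (conj (U s₀) * U s₀).re := by
      rw [← Complex.normSq_eq_conj_mul_self]; simpa using h0
    simp only [Pqne_Y, hd, mul_zero, zero_im, zero_add]
    positivity
  linarith

end P139.PP
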