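import Vale.Agent.P139.PStm

/-! P139 part P: smoothness of the interior solution. -/

open Complex Set Filter Topology MeasureTheory
open scoped ContDiff ComplexConjugate

noncomputable section
namespace P139.PP

theorem Psm_F (m : ℕ) (β : ℝ) (z : ℂ) (h : ‖z‖ ^ (2 * m) ≤ 3) :
    Ftr m β z = (z * conj z) ^ m * z - (β + I * gam m) * z := by
  rw [Ftr, min_eq_left h, Complex.mul_conj, normSq_eq_norm_sq, pow_mul]
  push_cast
  ring

theorem s_sm (h1 : S_tq) (h2 : S_par) : S_sm := by
  intro m β a Θ hT hN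
  obtain ⟨-, h0, hne, -⟩ := h1 m β a Θ hT
  have cΘ : Continuous Θ := continuous_iff_continuousAt.2 fun s => (hT.2 s).continuousAt
  have hev : ∀ᶠ s in 𝓝 (0 : ℝ), ‖Θ s‖ ^ (2 * m) < 3 :=
    ContinuousAt.eventually_lt (f := fun s => ‖Θ s‖ ^ (2 * m)) (g := fun _ => (3 : ℝ))
      (by fun_prop) continuousAt_const (by linarith [hN 0 le_rfl])
  obtain ⟨ε, hε, hball⟩ := Metric.eventually_nhds_iff.1 hev
  have hle : ∀ s : ℝ, -ε < s → ‖Θ s‖ ^ (2 * m) ≤ 3 := by
    intro s hs
    rcases le_total 0 s with h | h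
    · linarith [hN s h]
    · refine (hball ?_).le
      rw [Real.dist_eq, sub_zero, abs_of_nonpos h]; linarith
  have hF : ∀ s : ℝ, -ε < s →
      Ftr m β (Θ s) = (Θ s * conj (Θ s)) ^ m * Θ s - (β + I * gam m) * Θ s :=
    fun s hs => Psm_F m β _ (hle s hs)
  have hof : ∀ k : ℕ, ContDiff ℝ k (fun s : ℝ => (s : ℂ)) := fun k => ofRealCLM.contDiff
  have key : ∀ k : ℕ, ContDiffOn ℝ k Θ (Ioi (-ε)) := by
    intro k
    induction k with
    | zero => exact contDiffOn_zero.2 cΘ.continuousOn
    | succ k ih =>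
      have hc : ContDiffOn ℝ k (fun s => conj (Θ s)) (Ioi (-ε)) :=
        (conjCLE.contDiff (n := k)).comp_contDiffOn ih
      have he : ContDiff ℝ k (fun σ : ℝ => cexp (I * σ / 4)) :=
        ((contDiff_const.mul (hof k)).div_const 4).cexp
      have he' : ContDiff ℝ k (fun σ : ℝ => 1 / 4 * cexp (-(I * σ / 4))) :=
        contDiff_const.mul ((contDiff_const.mul (hof k)).div_const 4).neg.cexp
      have hg : ContDiffOn ℝ k (fun σ : ℝ => cexp (I * σ / 4) *
          ((Θ σ * conj (Θ σ)) ^ m * Θ σ - (β + I * gam m) * Θ σ)) (Ioi (-ε)) :=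
        he.contDiffOn.mul ((((ih.mul hc).pow m).mul ih).sub (contDiffOn_const.mul ih))
      have h3 := he'.contDiffOn.mul (h2 k 5 ε _ hε hg)
      have h4 : ContDiffOn ℝ k (deriv Θ) (Ioi (-ε)) := by
        refine h3.congr (fun s hs => ?_)
        rw [(hT.2 s).deriv, Dint, mul_assoc (1 / 4 : ℂ),
          ← intervalIntegral.integral_const_mul (cexp (-(I * s / 4)))]
        refine congrArg (fun z : ℂ => 1 / 4 * z) ?_
        refine intervalIntegral.integral_congr (fun t ht => ?_)
        rw [uIcc_of_le zero_le_one] at ht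
        have hst : -ε < s * t := by
          have hs' : -ε < s := hs
          rcases le_total 0 s with h | h
          · nlinarith [mul_nonneg h ht.1]
          · nlinarith [ht.1, ht.2]
        rw [hF _ hst]
        have e : cexp (I * s * (t - 1) / 4)
            = cexp (-(I * s / 4)) * cexp (I * ((s * t : ℝ) : ℂ) / 4) := by
          rw [← Complex.exp_add]; congr 1; push_cast; ring
        rw [e]; ring
      have h5 : ((k + 1 : ℕ) : WithTop ℕ∞) = (k : WithTop ℕ∞) + 1 := by push_cast; rfl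
      rw [h5, contDiffOn_succ_iff_deriv_of_isOpen isOpen_Ioi]
      exact ⟨fun s _ => (hT.2 s).differentiableAt.differentiableWithinAt, by simp, h4⟩
  refine ⟨ε, hε, contDiffOn_infty.2 key, fun s hs => ?_⟩
  unfold POde
  by_cases hs0 : s = 0
  · subst hs0
    have h3 := hF 0 hs
    rw [hT.1] at h3 ⊢
    rw [h3] at h0
    simp only [ofReal_zero, mul_zero, zero_mul, add_zero, zero_add]
    linear_combination h0
  · have hs' : (s : ℂ) ≠ 0 := ofReal_ne_zero.2 hs0
    rw [(hne s hs0).deriv, hF s hs]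
    field_simp
    ring

end P139.PP
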