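import Vale.Agent.P139.PStm

/-! P139 part P: a convergent subfamily. -/

open Complex Set Filter Topology MeasureTheory
open scoped ContDiff ComplexConjugate

noncomputable section
namespace P139.PP

theorem s_sub : S_sub := by
  rintro D ⟨F⟩
  have hT : ∀ j, F.T j ∈ Icc (0 : ℝ) 4 := by
    intro j
    have h1 := (F.pre j).hT
    have h2 := (F.pre j).hx.2
    have h3 := D.hx.2.2
    exact ⟨h1.le, by nlinarith⟩
  obtain ⟨⟨βl, R⟩, ⟨hβl, hR⟩, φ, hφ, hlim⟩ :=
    ((isCompact_Icc (a := D.β₁) (b := D.β₂)).prod (isCompact_Icc (a := (0 : ℝ)) (b := 4))).tendsto_subseq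
      (x := fun j => (F.β j, F.T j)) fun j => ⟨(F.pre j).hβ, hT j⟩
  have ht := hφ.tendsto_atTop
  have lβ : Tendsto (fun j => F.β (φ j)) atTop (𝓝 βl) := (continuous_fst.tendsto _).comp hlim
  have lT : Tendsto (fun j => F.T (φ j)) atTop (𝓝 R) := (continuous_snd.tendsto _).comp hlim
  have hx : R ^ 2 / 4 ∈ Icc D.x₁ D.x₂ :=
    isClosed_Icc.mem_of_tendsto ((lT.pow 2).div_const 4)
      (Eventually.of_forall fun j => (F.pre (φ j)).hx)
  have hR0 : 0 < R := by
    have h1 := hx.1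
    have h2 := D.hx.1
    have h3 : 0 ≤ R := hR.1
    rcases h3.eq_or_lt with h | h
    · rw [← h] at h1
      linarith
    · exact h
  have hne : D.U βl (R ^ 2) ≠ 0 := by
    have := D.ne βl hβl _ hx
    rwa [mul_div_cancel₀ _ (by norm_num : (4 : ℝ) ≠ 0)] at this
  have hw : Tendsto (fun j => (F.β (φ j), F.T (φ j) ^ 2)) atTop
      (𝓝[Icc D.β₁ D.β₂ ×ˢ Ioi 0] (βl, R ^ 2)) :=
    tendsto_nhdsWithin_iff.mpr ⟨lβ.prodMk_nhds (lT.pow 2), Eventually.of_forall fun j =>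
      ⟨(F.pre (φ j)).hβ, pow_pos (F.pre (φ j)).hT 2⟩⟩
  have hm : (βl, R ^ 2) ∈ Icc D.β₁ D.β₂ ×ˢ Ioi (0 : ℝ) := ⟨hβl, pow_pos hR0 2⟩
  have h1 := ((D.cont' _ hm).tendsto.comp hw).div ((D.cont _ hm).tendsto.comp hw) hne
  have h2 : deriv (D.U βl) (R ^ 2) / D.U βl (R ^ 2) = 0 :=
    tendsto_nhds_unique h1 (F.root.comp ht)
  exact ⟨{
    m := fun j => F.m (φ j)
    β := fun j => F.β (φ j)
    a := fun j => F.a (φ j)
    T := fun j => F.T (φ j)
    Θ := fun j => F.Θ (φ j)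
    S := F.S
    θ' := F.θ'
    δ₁ := F.δ₁
    C := F.C
    Cf := F.Cf
    m_pos := fun j => F.m_pos _
    m_lim := F.m_lim.comp ht
    pre := fun j => F.pre _
    hS := F.hS
    hθ := F.hθ
    hδ := F.hδ
    Nb := fun j => F.Nb _
    ext := fun j => F.ext _
    symb := fun j => F.symb _
    near := fun ε hε => ht.eventually (F.near ε hε)
    d1 := fun A => ht.eventually (F.d1 A)
    mono := ht.eventually F.mono
    lt := fun δ hδ => (F.lt δ hδ).imp fun _ h => ⟨h.1, fun A => ht.eventually (h.2 A)⟩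
    root := F.root.comp ht
    R := R
    βl := βl
    R_pos := hR0
    hx := hx
    hβ := hβl
    T_lim := lT
    β_lim := lβ
    root0 := (div_eq_zero_iff.mp h2).resolve_right hne }⟩

end P139.PP
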