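import Vale.Agent.P139.PStm

/-! P139 part P: the continuous stopping radius. -/

open Complex Set Filter Topology MeasureTheory
open scoped ContDiff ComplexConjugate

noncomputable section
namespace P139.PP

theorem s_sur : S_sur := by
  intro N hN
  let f : ℝ × ℝ → ℝ → ℝ := fun p r => r + 40 * max (N p r - 1 / 10) 0
  have hf : Continuous (fun x : (ℝ × ℝ) × ℝ => f x.1 x.2) := by
    simp only [f]
    exact continuous_snd.add (continuous_const.mul ((hN.sub continuous_const).max continuous_const))
  have hfp : ∀ p, Continuous (f p) := fun p =>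
    hf.comp (Continuous.prodMk continuous_const continuous_id)
  have hNp : ∀ p, Continuous (N p) := fun p =>
    hN.comp (Continuous.prodMk continuous_const continuous_id)
  have hS : Continuous (fun p => sInf (f p '' Icc (0 : ℝ) 4)) :=
    IsCompact.continuous_sInf isCompact_Icc hf
  have hmin : ∀ p, ∃ r ∈ Icc (0 : ℝ) 4, sInf (f p '' Icc (0 : ℝ) 4) = f p r ∧
      ∀ s ∈ Icc (0 : ℝ) 4, f p r ≤ f p s := by
    intro p
    obtain ⟨r, hr, h1, h2⟩ := (isCompact_Icc (a := (0 : ℝ)) (b := 4)).exists_sInf_image_eq_and_le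
      ⟨0, by constructor <;> norm_num⟩ (hfp p).continuousOn
    exact ⟨r, hr, h1, h2⟩
  refine ⟨fun p => min 4 (sInf (f p '' Icc (0 : ℝ) 4)), continuous_const.min hS, fun p => ?_⟩
  obtain ⟨r, hr, h1, h2⟩ := hmin p
  simp only [h1]
  have hm : ∀ s, 0 ≤ max (N p s - 1 / 10) 0 := fun s => le_max_right _ _
  have hfr : r ≤ f p r := by have := hm r; simp only [f]; linarith
  have hf0 : 0 ≤ f p r := le_trans hr.1 hfr
  refine ⟨⟨le_min (by norm_num) hf0, min_le_left _ _⟩, fun h0 => ?_, fun hT => ?_, fun hT => ?_⟩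
  · have h3 := h2 0 ⟨le_rfl, by norm_num⟩
    have h4 : f p 0 = 0 := by
      simp only [f]
      rw [max_eq_right (by linarith)]
      norm_num
    rw [h4] at h3
    have h5 : f p r = 0 := le_antisymm h3 hf0
    rw [h5]
    exact min_eq_right (by norm_num)
  · have hcl : IsClosed {s : ℝ | 1 / 10 ≤ N p s} := isClosed_le continuous_const (hNp p)
    have hsub : Ico (0 : ℝ) (min 4 (f p r)) ⊆ {s : ℝ | 1 / 10 ≤ N p s} := by
      intro s hs
      have hs4 : s < 4 := lt_of_lt_of_le hs.2 (min_le_left _ _)
      have hs5 : s < f p r := lt_of_lt_of_le hs.2 (min_le_right _ _)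
      have h3 := h2 s ⟨hs.1, hs4.le⟩
      by_contra hc
      simp only [mem_setOf_eq, not_le] at hc
      have h4 : f p s = s := by
        simp only [f]
        rw [max_eq_right (by linarith)]
        ring
      linarith
    have h6 := closure_minimal hsub hcl
    rw [closure_Ico hT.ne] at h6
    exact fun s hs => h6 hs
  · have h4 : f p r < 4 := by
      by_contra hc
      rw [min_eq_left (not_lt.1 hc)] at hT
      exact lt_irrefl _ hT
    refine ⟨r, ⟨hr.1, le_min hr.2 hfr⟩, ?_⟩
    have h5 : N p r - 1 / 10 ≤ max (N p r - 1 / 10) 0 := le_max_left _ _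
    have h6 := hr.1
    simp only [f] at h4
    linarith

end P139.PP
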