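import Vale.Agent.P139.PStm

/-! P139 part P: from the integral equation to the differential equation. -/

open Complex Set Filter Topology MeasureTheory
open scoped ContDiff ComplexConjugate

noncomputable section
namespace P139.PP

theorem Ptq_cF (m : ℕ) (β : ℝ) : Continuous (Ftr m β) := by
  unfold Ftr
  fun_prop

theorem Ptq_rep (m : ℕ) (β : ℝ) (Θ : ℝ → ℂ) {s : ℝ} (hs : s ≠ 0) :
    Dint m β Θ s = 1 / 4 * (((s : ℂ) ^ 6)⁻¹ * cexp (-(I * s / 4)) *
      ∫ σ in (0 : ℝ)..s, (σ : ℂ) ^ 5 * cexp (I * σ / 4) * Ftr m β (Θ σ)) := by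
  have hs' : (s : ℂ) ≠ 0 := ofReal_ne_zero.2 hs
  have h1 := intervalIntegral.integral_comp_mul_left (a := 0) (b := 1)
    (fun σ : ℝ => (σ : ℂ) ^ 5 * cexp (I * σ / 4) * Ftr m β (Θ σ)) hs
  simp only [mul_zero, mul_one] at h1
  have h2 : ∀ t : ℝ, (t : ℂ) ^ 5 * cexp (I * s * (t - 1) / 4) * Ftr m β (Θ (s * t)) =
      ((s : ℂ) ^ 5)⁻¹ * cexp (-(I * s / 4)) *
        (((s * t : ℝ) : ℂ) ^ 5 * cexp (I * ((s * t : ℝ) : ℂ) / 4) * Ftr m β (Θ (s * t))) := by
    intro t
    have e : I * s * (t - 1) / 4 = -(I * s / 4) + I * ((s * t : ℝ) : ℂ) / 4 := by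
      push_cast
      ring
    rw [e, Complex.exp_add]
    push_cast
    field_simp
  unfold Dint
  simp only [h2]
  rw [intervalIntegral.integral_const_mul, h1, real_smul]
  push_cast
  field_simp

theorem s_tq : S_tq := by
  intro m β a Θ h
  have hd : deriv Θ = Dint m β Θ := funext fun s => (h.2 s).deriv
  have hc : Continuous Θ := continuous_iff_continuousAt.2 fun s => (h.2 s).continuousAt
  have hF := Ptq_cF m β
  have hD : Continuous (deriv Θ) := by
    rw [hd]
    unfold Dint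
    refine continuous_const.mul
      (intervalIntegral.continuous_parametric_intervalIntegral_of_continuous' ?_ 0 1)
    unfold Function.uncurry
    fun_prop
  have h3 : ∀ s : ℝ, s ≠ 0 → HasDerivAt (deriv Θ)
      ((Ftr m β (Θ s) - (24 + I * s) * deriv Θ s) / (4 * s)) s := by
    intro s hs
    have hs' : (s : ℂ) ≠ 0 := ofReal_ne_zero.2 hs
    have hG : Continuous fun σ : ℝ => (σ : ℂ) ^ 5 * cexp (I * σ / 4) * Ftr m β (Θ σ) := by
      fun_prop
    have d1 := (hG.integral_hasStrictDerivAt 0 s).hasDerivAt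
    have d0 : HasDerivAt (fun t : ℝ => (t : ℂ)) 1 s := Complex.ofRealCLM.hasDerivAt
    have d2 := (d0.fun_pow 6).fun_inv (pow_ne_zero 6 hs')
    have d3 := (((d0.const_mul I).div_const 4).fun_neg).cexp
    have d4 := ((d2.fun_mul d3).fun_mul d1).const_mul (1 / 4 : ℂ)
    rw [hd]
    refine (d4.congr_of_eventuallyEq ?_).congr_deriv ?_
    · filter_upwards [isOpen_ne.mem_nhds hs] with t ht
      exact Ptq_rep m β Θ ht
    · rw [Ptq_rep m β Θ hs, Complex.exp_neg]
      have he := Complex.exp_ne_zero (I * s / 4)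
      generalize cexp (I * s / 4) = E at he
      push_cast
      field_simp
      ring
  refine ⟨hD, ?_, h3, ⟨fun r => ?_, ?_, ?_, fun r hr => ?_⟩⟩
  · rw [hd]
    unfold Dint
    simp only [ofReal_zero, mul_zero, zero_mul, zero_div, Complex.exp_zero, mul_one, h.1]
    rw [intervalIntegral.integral_mul_const]
    have : ∫ t in (0 : ℝ)..1, (t : ℂ) ^ 5 = 1 / 6 := by
      have h6 : ∫ t in (0 : ℝ)..1, t ^ 5 = 1 / 6 := by
        rw [integral_pow]
        norm_num
      have h7 := intervalIntegral.integral_ofReal (μ := volume) (a := 0) (b := 1)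
        (f := fun t : ℝ => t ^ 5)
      rw [h6] at h7
      simpa using h7
    rw [this]
    ring
  · have := (h.2 (r ^ 2)).scomp r (hasDerivAt_pow 2 r)
    refine this.congr_deriv ?_
    simp [qd, hd]
  · unfold qd
    fun_prop
  · simp [qd]
  · have hr' : (r : ℂ) ≠ 0 := ofReal_ne_zero.2 hr.ne'
    have d0 : HasDerivAt (fun t : ℝ => (t : ℂ)) 1 r := Complex.ofRealCLM.hasDerivAt
    have d1 := HasDerivAt.scomp (h := fun x : ℝ => x ^ 2) r
      (h3 (r ^ 2) (pow_ne_zero 2 hr.ne')) (hasDerivAt_pow 2 r)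
    refine ((d0.const_mul 2).fun_mul d1).congr_deriv ?_
    simp only [qd, qq, Function.comp_apply, real_smul]
    push_cast
    field_simp
    ring

end P139.PP
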