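import Vale.Agent.P139.PStm

/-! P139 part P: uniqueness, the interior solution agrees with the exterior one. -/

open Complex Set Filter Topology MeasureTheory
open scoped ContDiff ComplexConjugate

noncomputable section
namespace P139.PP

/-- the vector field of the first-order system -/
def Pun_v (F : ℂ → ℂ) (x : ℝ) (y : ℂ × ℂ) : ℂ × ℂ :=
  (y.2, (F y.1 - (24 + I * x) * y.2) / (4 * x))

theorem Pun_lip {F : ℂ → ℂ} {L b x : ℝ} (hL : 0 ≤ L) (hF : ∀ z z', ‖F z - F z'‖ ≤ L * ‖z - z'‖)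
    (hx : 1 ≤ x) (hb : x ≤ b) :
    LipschitzWith (Real.toNNReal (L + 24 + b)) (Pun_v F x) := by
  refine LipschitzWith.of_dist_le_mul fun y y' => ?_
  rw [Real.coe_toNNReal _ (by linarith), dist_eq_norm, dist_eq_norm]
  have h1 : ‖y.1 - y'.1‖ ≤ ‖y - y'‖ := norm_fst_le (y - y')
  have h2 : ‖y.2 - y'.2‖ ≤ ‖y - y'‖ := norm_snd_le (y - y')
  have h0 := norm_nonneg (y - y')
  rw [Prod.norm_def (Pun_v F x y - Pun_v F x y')]
  refine max_le ?_ ?_
  · change ‖y.2 - y'.2‖ ≤ _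
    nlinarith
  · change ‖(F y.1 - (24 + I * x) * y.2) / (4 * x) - (F y'.1 - (24 + I * x) * y'.2) / (4 * x)‖ ≤ _
    have h3 : ‖(24 + I * x : ℂ)‖ ≤ 24 + b := by
      refine (norm_add_le _ _).trans ?_
      rw [norm_mul, norm_I, one_mul, norm_real, Real.norm_eq_abs, abs_of_nonneg (by linarith)]
      simpa using hb
    have h4 : (1 : ℝ) ≤ ‖(4 * x : ℂ)‖ := by
      rw [norm_mul, norm_real, Real.norm_eq_abs, abs_of_nonneg (by linarith)]
      simp only [Complex.norm_ofNat]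
      linarith
    rw [← sub_div, norm_div]
    refine (div_le_self (norm_nonneg _) h4).trans ?_
    have h5 : F y.1 - (24 + I * x) * y.2 - (F y'.1 - (24 + I * x) * y'.2) =
        (F y.1 - F y'.1) - (24 + I * x) * (y.2 - y'.2) := by ring
    rw [h5]
    refine (norm_sub_le _ _).trans ?_
    rw [norm_mul]
    have h6 := (hF y.1 y'.1).trans (mul_le_mul_of_nonneg_left h1 hL)
    have h7 : ‖(24 + I * x : ℂ)‖ * ‖y.2 - y'.2‖ ≤ (24 + b) * ‖y - y'‖ :=
      mul_le_mul h3 h2 (norm_nonneg _) (by linarith)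
    linarith

theorem Pun_Ftr (m : ℕ) (β : ℝ) {z : ℂ} (hz : ‖z‖ ≤ 1) :
    Ftr m β z = (z * conj z) ^ m * z - (β + I * gam m) * z := by
  have h : ‖z‖ ^ (2 * m) ≤ 3 := (pow_le_one₀ (norm_nonneg z) hz).trans (by norm_num)
  unfold Ftr
  rw [min_eq_left h, Complex.mul_conj, Complex.normSq_eq_norm_sq]
  push_cast
  rw [pow_mul]
  ring

theorem s_un (h1 : S_lip) (h2 : S_tq) : S_un := by
  intro m β a S₁ Θ Θe hβ hS hΘ hsm hode hle h0 h0' s hs
  obtain ⟨L, hL, hlip⟩ := h1 m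
  obtain ⟨-, -, hdd, -⟩ := h2 m β a Θ hΘ
  have hA : ∀ x : ℝ, S₁ + 1 ≤ x → HasDerivAt (fun t => (Θ t, deriv Θ t))
      (Pun_v (Ftr m β) x (Θ x, deriv Θ x)) x := fun x hx =>
    (hΘ.2 x).differentiableAt.hasDerivAt.prodMk (hdd x (by linarith))
  have hB : ∀ x : ℝ, S₁ + 1 ≤ x → HasDerivAt (fun t => (Θe t, deriv Θe t))
      (Pun_v (Ftr m β) x (Θe x, deriv Θe x)) x := by
    intro x hx
    have hx' : Ioi S₁ ∈ 𝓝 x := Ioi_mem_nhds (by linarith)
    have hd1 : DifferentiableAt ℝ Θe x :=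
      (hsm.differentiableOn (by simp)).differentiableAt hx'
    have hd2 : DifferentiableAt ℝ (deriv Θe) x :=
      ((hsm.deriv_of_isOpen (m := ∞) isOpen_Ioi (by simp)).differentiableOn
        (by simp)).differentiableAt hx'
    have hx0 : (x : ℂ) ≠ 0 := by exact_mod_cast (by linarith : x ≠ 0)
    have he : deriv (deriv Θe) x =
        (Ftr m β (Θe x) - (24 + I * x) * deriv Θe x) / (4 * x) := by
      have h3 := hode x (by linarith)
      unfold POde at h3
      rw [Pun_Ftr m β (hle x hx), eq_div_iff (mul_ne_zero (by norm_num) hx0)]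
      linear_combination h3
    have h4 := hd2.hasDerivAt
    rw [he] at h4
    exact hd1.hasDerivAt.prodMk h4
  have key := ODE_solution_unique_of_mem_Icc_right (v := Pun_v (Ftr m β)) (s := fun _ => univ)
    (K := Real.toNNReal (L + 24 + s)) (f := fun t => (Θ t, deriv Θ t))
    (g := fun t => (Θe t, deriv Θe t)) (a := S₁ + 1) (b := s)
    (fun t ht => (Pun_lip hL (hlip β hβ) (by linarith [ht.1]) ht.2.le).lipschitzOnWith)
    (fun t ht => (hA t ht.1).continuousAt.continuousWithinAt)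
    (fun t ht => (hA t ht.1).hasDerivWithinAt) (fun _ _ => mem_univ _)
    (fun t ht => (hB t ht.1).continuousAt.continuousWithinAt)
    (fun t ht => (hB t ht.1).hasDerivWithinAt) (fun _ _ => mem_univ _)
    (by rw [h0, h0'])
  exact congrArg Prod.fst (key ⟨hs, le_rfl⟩)

end P139.PP
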