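import Vale.Agent.P139.PStm

/-! P139 part P: the Wronskian estimate. -/

open Complex Set Filter Topology MeasureTheory
open scoped ContDiff ComplexConjugate

noncomputable section
namespace P139.PP

theorem Pwr_U {β : ℝ} {U : ℝ → ℂ} (hU : FSol β U) {s : ℝ} (hs : 0 < s) :
    HasDerivAt U (deriv U s) s ∧ HasDerivAt (deriv U) (deriv (deriv U) s) s ∧
      4 * s * deriv (deriv U) s + (24 + I * s) * deriv U s + β * U s = 0 := by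
  have hn : Ioi (0 : ℝ) ∈ 𝓝 s := Ioi_mem_nhds hs
  have h0 : ContDiffAt ℝ ∞ U s := hU.1.contDiffAt hn
  have h1 : ContDiffOn ℝ ∞ (deriv U) (Ioi 0) :=
    hU.1.deriv_of_isOpen isOpen_Ioi (by simp)
  have h2 : ContDiffAt ℝ ∞ (deriv U) s := h1.contDiffAt hn
  refine ⟨(h0.differentiableAt (by simp)).hasDerivAt,
    (h2.differentiableAt (by simp)).hasDerivAt, ?_⟩
  have h := hU.2 s hs
  unfold FreeF at h
  simp only [Nat.cast_zero, mul_zero, add_zero, zero_div, zero_sub] at h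
  linear_combination (-I) * h + (4 * s * deriv (deriv U) s + 24 * deriv U s + β * U s) * I_mul_I

theorem Pwr_der (h1 : S_tq) {m : ℕ} {β a : ℝ} {Θ U : ℝ → ℂ} (hΘ : TSol m β a Θ)
    (hU : FSol β U) {s : ℝ} (hs : 0 < s) :
    HasDerivAt (Wr Θ U) ((s : ℂ) ^ 5 * cexp (I * s / 4) / 4 *
      ((((min (‖Θ s‖ ^ (2 * m)) 3 : ℝ) : ℂ) - I * gam m) * Θ s) * U s) s := by
  obtain ⟨u0, u1, u2⟩ := Pwr_U hU hs
  have t0 : HasDerivAt Θ (deriv Θ s) s := (hΘ.2 s).differentiableAt.hasDerivAt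
  have t1 := (h1 m β a Θ hΘ).2.2.1 s hs.ne'
  have hid : HasDerivAt (fun x : ℝ => (x : ℂ)) 1 s := ofRealCLM.hasDerivAt
  have hp : HasDerivAt (fun x : ℝ => (x : ℂ) ^ 6) (6 * (s : ℂ) ^ 5) s := by
    have := hid.fun_pow 6
    simpa using this
  have he : HasDerivAt (fun x : ℝ => cexp (I * x / 4)) (cexp (I * s / 4) * (I / 4)) s := by
    have := ((hid.const_mul I).div_const 4).cexp
    simpa using this
  have h := (hp.mul he).mul ((t1.mul u0).sub (t0.mul u1))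
  have hs' : (s : ℂ) ≠ 0 := by exact_mod_cast hs.ne'
  refine HasDerivAt.congr_deriv h ?_
  simp only [Pi.mul_apply, Pi.sub_apply, Ftr]
  field_simp
  linear_combination (-Θ s) * u2

theorem Pwr_bd {m : ℕ} {s s₂ B c : ℝ} {z u : ℂ} (hs : 0 < s) (hs2 : s ≤ s₂) (hz : ‖z‖ ≤ 2)
    (hu : ‖u‖ ≤ B) (hc : min (‖z‖ ^ (2 * m)) 3 ≤ c) :
    ‖(s : ℂ) ^ 5 * cexp (I * s / 4) / 4 *
      ((((min (‖z‖ ^ (2 * m)) 3 : ℝ) : ℂ) - I * gam m) * z) * u‖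
      ≤ s₂ ^ 5 * B * ((c + gam m) / 2) := by
  have hg : 0 ≤ gam m := by unfold gam; positivity
  have hm : 0 ≤ min (‖z‖ ^ (2 * m)) 3 := le_min (by positivity) (by norm_num)
  have e1 : ‖cexp (I * s / 4)‖ = 1 := by
    rw [Complex.norm_exp]; simp
  have e2 : ‖(((min (‖z‖ ^ (2 * m)) 3 : ℝ) : ℂ) - I * gam m)‖ ≤ c + gam m := by
    refine (norm_sub_le _ _).trans ?_
    rw [norm_mul, Complex.norm_I, one_mul, Complex.norm_real, Complex.norm_real,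
      Real.norm_of_nonneg hm, Real.norm_of_nonneg hg]
    linarith
  have hB : 0 ≤ B := (norm_nonneg _).trans hu
  have hc0 : 0 ≤ c + gam m := by linarith
  have e3 : ‖(s : ℂ)‖ ^ 5 ≤ s₂ ^ 5 := by
    rw [Complex.norm_real, Real.norm_of_nonneg hs.le]
    exact pow_le_pow_left₀ hs.le hs2 5
  have hs5 : 0 ≤ s₂ ^ 5 := by have := hs.le.trans hs2; positivity
  rw [norm_mul, norm_mul, norm_mul, norm_div, norm_mul, norm_pow, e1]
  have e4 : ‖(4 : ℂ)‖ = 4 := by simp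
  rw [e4]
  calc ‖(s : ℂ)‖ ^ 5 * 1 / 4 * (‖(((min (‖z‖ ^ (2 * m)) 3 : ℝ) : ℂ) - I * gam m)‖ * ‖z‖) * ‖u‖
      ≤ s₂ ^ 5 * 1 / 4 * ((c + gam m) * 2) * B := by gcongr
    _ = _ := by ring

theorem s_wr (h1 : S_tq) : S_wr := by
  intro m β a s₁ s₀ s₂ B η Θ U hΘ hU hs₁ h10 h02 hb hη
  have hg : 0 ≤ gam m := by unfold gam; positivity
  have hB : 0 ≤ B := (norm_nonneg _).trans (hb s₁ ⟨le_rfl, h10.trans h02⟩).2
  have hη0 : 0 ≤ η := le_trans (by positivity) (hη s₀ ⟨le_rfl, h02⟩)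
  have hs2 : 0 < s₂ := hs₁.trans_le (h10.trans h02)
  have k1 : ‖Wr Θ U s₀ - Wr Θ U s₁‖ ≤ s₂ ^ 5 * B * ((3 + gam m) / 2) * (s₀ - s₁) := by
    refine norm_image_sub_le_of_norm_deriv_le_segment' (f' := fun s : ℝ =>
      (s : ℂ) ^ 5 * cexp (I * s / 4) / 4 *
      ((((min (‖Θ s‖ ^ (2 * m)) 3 : ℝ) : ℂ) - I * gam m) * Θ s) * U s)
      (fun x hx => (Pwr_der h1 hΘ hU (hs₁.trans_le hx.1)).hasDerivWithinAt)
      (fun x hx => ?_) s₀ ⟨h10, le_rfl⟩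
    have hx' : x ∈ Icc s₁ s₂ := ⟨hx.1, hx.2.le.trans h02⟩
    exact Pwr_bd (hs₁.trans_le hx.1) hx'.2 (hb x hx').1 (hb x hx').2 (min_le_right _ _)
  have k2 : ‖Wr Θ U s₂ - Wr Θ U s₀‖ ≤ s₂ ^ 5 * B * ((η + gam m) / 2) * (s₂ - s₀) := by
    refine norm_image_sub_le_of_norm_deriv_le_segment' (f' := fun s : ℝ =>
      (s : ℂ) ^ 5 * cexp (I * s / 4) / 4 *
      ((((min (‖Θ s‖ ^ (2 * m)) 3 : ℝ) : ℂ) - I * gam m) * Θ s) * U s)
      (fun x hx => (Pwr_der h1 hΘ hU (hs₁.trans_le (h10.trans hx.1))).hasDerivWithinAt)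
      (fun x hx => ?_) s₂ ⟨h02, le_rfl⟩
    have hx' : x ∈ Icc s₁ s₂ := ⟨h10.trans hx.1, hx.2.le⟩
    exact Pwr_bd (hs₁.trans_le hx'.1) hx'.2 (hb x hx').1 (hb x hx').2
      ((min_le_left _ _).trans (hη x ⟨hx.1, hx.2.le⟩))
  have k3 : ‖Wr Θ U s₂ - Wr Θ U s₁‖ ≤ ‖Wr Θ U s₂ - Wr Θ U s₀‖ + ‖Wr Θ U s₀ - Wr Θ U s₁‖ :=
    norm_sub_le_norm_sub_add_norm_sub _ _ _
  have hP : 0 ≤ s₂ ^ 5 * B := by positivity
  have k4 : (η + gam m) / 2 * (s₂ - s₀) + (3 + gam m) / 2 * (s₀ - s₁)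
      ≤ 3 * (s₀ - s₁) + (η + gam m) * s₂ := by
    nlinarith [mul_nonneg hη0 hs2.le, mul_nonneg hg hs2.le, mul_nonneg hg hs₁.le,
      mul_nonneg hη0 (hs₁.le.trans h10)]
  calc _ ≤ s₂ ^ 5 * B * ((η + gam m) / 2) * (s₂ - s₀)
        + s₂ ^ 5 * B * ((3 + gam m) / 2) * (s₀ - s₁) := by linarith
    _ = s₂ ^ 5 * B * ((η + gam m) / 2 * (s₂ - s₀) + (3 + gam m) / 2 * (s₀ - s₁)) := by ring
    _ ≤ _ := mul_le_mul_of_nonneg_left k4 hP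

end P139.PP
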