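import Vale.Agent.P139.PStm

/-! P139 part P: existence of matched solutions (Miranda argument). -/

open Complex Set Filter Topology MeasureTheory
open scoped ContDiff ComplexConjugate

noncomputable section
namespace P139.PP

def Pzero_a (m : ℕ) (t : ℝ) : ℝ := (1 / 10 + 29 / 10 * max t 0) ^ ((2 * m : ℕ) : ℝ)⁻¹

theorem Pzero_base (t : ℝ) : 0 < 1 / 10 + 29 / 10 * max t 0 := by
  have := le_max_right t 0
  linarith

theorem Pzero_a_pos (m : ℕ) (t : ℝ) : 0 < Pzero_a m t := Real.rpow_pos_of_pos (Pzero_base t) _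

theorem Pzero_a_pow {m : ℕ} (hm : 1 ≤ m) (t : ℝ) :
    Pzero_a m t ^ (2 * m) = 1 / 10 + 29 / 10 * max t 0 :=
  Real.rpow_inv_natCast_pow (Pzero_base t).le (by omega)

theorem Pzero_a_cont (m : ℕ) : Continuous (Pzero_a m) :=
  Continuous.rpow_const (by fun_prop) fun t => Or.inl (Pzero_base t).ne'

def Pzero_cl (θ : ℝ) (w : ℂ) : ℂ := ((θ / max θ ‖w‖ : ℝ) : ℂ) * w

theorem Pzero_cl_cont {θ : ℝ} (h : 0 < θ) : Continuous (Pzero_cl θ) := by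
  unfold Pzero_cl
  refine Continuous.mul (continuous_ofReal.comp (Continuous.div continuous_const (by fun_prop)
    fun w => ?_)) continuous_id
  exact (h.trans_le (le_max_left _ _)).ne'

theorem Pzero_cl_le {θ : ℝ} (h : 0 < θ) (w : ℂ) : ‖Pzero_cl θ w‖ ≤ θ := by
  have h1 : 0 < max θ ‖w‖ := h.trans_le (le_max_left _ _)
  rw [Pzero_cl, norm_mul, norm_real, Real.norm_of_nonneg (by positivity), div_mul_eq_mul_div,
    div_le_iff₀ h1]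
  exact mul_le_mul_of_nonneg_left (le_max_right _ _) h.le

theorem Pzero_cl_eq {θ : ℝ} (h : 0 < θ) {w : ℂ} (hw : ‖w‖ ≤ θ) : Pzero_cl θ w = w := by
  rw [Pzero_cl, max_eq_left hw, div_self h.ne', ofReal_one, one_mul]

theorem s_zero (h1 : S_ex) (h2 : S_tq) (h3 : S_sur) (h4 : S_mir) (h5 : S_phi) (h6 : S_lin) :
    S_zero := by
  intro D A θ E hθ hA
  obtain ⟨x1, x12, x2⟩ := D.hx
  obtain ⟨b1, b12, b2⟩ := D.hβ
  have hS := E.hS
  have hmap : ∀ x ∈ Icc D.x₁ D.x₂ ×ˢ Icc D.β₁ D.β₂,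
      ((x.2, 4 * x.1) : ℝ × ℝ) ∈ Icc D.β₁ D.β₂ ×ˢ Ioi (0 : ℝ) := fun x hx =>
    ⟨hx.2, by have := hx.1.1; simp only [mem_Ioi]; linarith⟩
  have hU : ContinuousOn (fun x : ℝ × ℝ => D.U x.2 (4 * x.1)) (Icc D.x₁ D.x₂ ×ˢ Icc D.β₁ D.β₂) :=
    D.cont.comp (f := fun x : ℝ × ℝ => (x.2, 4 * x.1)) (by fun_prop) hmap
  have hU' : ContinuousOn (fun x : ℝ × ℝ => deriv (D.U x.2) (4 * x.1))
      (Icc D.x₁ D.x₂ ×ˢ Icc D.β₁ D.β₂) :=
    D.cont'.comp (f := fun x : ℝ × ℝ => (x.2, 4 * x.1)) (by fun_prop) hmap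
  obtain ⟨ε₀, he, hM⟩ := h4 D.x₁ D.x₂ D.β₁ D.β₂ D.μ
    (fun x => deriv (D.U x.2) (4 * x.1) / D.U x.2 (4 * x.1)) x12 b12
    (hU'.div hU fun x hx => D.ne _ hx.2 _ hx.1) D.c₁ D.c₂ D.c₃ D.c₄
  filter_upwards [eventually_ge_atTop 1, E.nl, h5 D A θ E hA ε₀ he, A.asy 0 1 1 one_pos one_pos]
    with m hm hnl hphi hasy
  obtain ⟨Θ, c1, c2, sol⟩ := h1 m
  have ca := Pzero_a_cont m
  have h01 : ∀ β ∈ Icc D.β₁ D.β₂, β ∈ Icc (0 : ℝ) 1 := fun β h => ⟨by linarith [h.1], by linarith [h.2]⟩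
  have h34 : ∀ β ∈ Icc D.β₁ D.β₂, β ∈ Icc (3 / 10 : ℝ) (4 / 10) := fun β h =>
    ⟨by linarith [h.1], by linarith [h.2]⟩
  obtain ⟨T, cT, hT⟩ := h3 (fun p r => ‖qq (Θ (Pzero_a m p.1) p.2) r‖ ^ (2 * m))
    ((c1.comp (f := fun x : (ℝ × ℝ) × ℝ => (Pzero_a m x.1.1, x.1.2, x.2 ^ 2))
      (by fun_prop)).norm.pow _)
  have hN0 : ∀ t, ∀ β ∈ Icc D.β₁ D.β₂, ‖qq (Θ (Pzero_a m t) β) 0‖ ^ (2 * m)
      = 1 / 10 + 29 / 10 * max t 0 := fun t β hβ => by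
    rw [qq, show (0 : ℝ) ^ 2 = 0 by norm_num, (sol _ β (h01 β hβ)).1, norm_real,
      Real.norm_of_nonneg (Pzero_a_pos m t).le, Pzero_a_pow hm]
  have hpre : ∀ p ∈ Icc (0 : ℝ) 1 ×ˢ Icc D.β₁ D.β₂, T p ^ 2 / 4 ∈ Icc D.x₁ D.x₂ →
      Pre D m p.2 (Pzero_a m p.1) (T p) (Θ (Pzero_a m p.1) p.2) := fun p hp hx => by
    obtain ⟨⟨t0, t4⟩, -, t1, t2⟩ := hT p
    have p0 : 0 < T p := by
      rcases t0.eq_or_lt with h | h
      · have := hx.1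
        rw [← h] at this
        linarith
      · exact h
    have p4 : T p < 4 := by
      rcases t4.eq_or_lt with h | h
      · have := hx.2
        rw [h] at this
        linarith
      · exact h
    exact ⟨hp.2, Pzero_a_pos _ _, p0, hx, sol _ _ (h01 _ hp.2), t1 p0, t2 p4⟩
  set cx : ℝ × ℝ → ℝ := fun p => max D.x₁ (min (T p ^ 2 / 4) D.x₂) with hcx
  have cxm : ∀ p, cx p ∈ Icc D.x₁ D.x₂ := fun p =>
    ⟨le_max_left _ _, max_le x12.le (min_le_right _ _)⟩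
  have cxc : Continuous cx := by fun_prop
  set dd : ℝ × ℝ → ℂ := fun p => Dint m p.2 (Θ (Pzero_a m p.1) p.2) (E.S₁ + 1) -
    deriv (E.Θe m p.2 (Pzero_cl θ (Θ (Pzero_a m p.1) p.2 (E.S₁ + 1)))) (E.S₁ + 1) with hdd
  have cdd : ContinuousOn dd (Icc (0 : ℝ) 1 ×ˢ Icc D.β₁ D.β₂) := by
    refine ContinuousOn.sub (c2.comp (f := fun p : ℝ × ℝ => (Pzero_a m p.1, p.2, E.S₁ + 1))
      (by fun_prop)).continuousOn ?_
    refine hnl.1.comp (f := fun p : ℝ × ℝ =>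
      (p.2, Pzero_cl θ (Θ (Pzero_a m p.1) p.2 (E.S₁ + 1)))) ?_ fun p hp => ⟨h01 _ hp.2, ?_⟩
    · exact (continuous_snd.prodMk ((Pzero_cl_cont hθ).comp (c1.comp
        (f := fun p : ℝ × ℝ => (Pzero_a m p.1, p.2, E.S₁ + 1)) (by fun_prop)))).continuousOn
    · exact mem_closedBall_zero_iff.2 (Pzero_cl_le hθ _)
  have hden : ∀ p ∈ Icc (0 : ℝ) 1 ×ˢ Icc D.β₁ D.β₂,
      D.U p.2 (4 * cx p) * ((4 * cx p : ℝ) : ℂ) ^ 6 * cexp (I * ((4 * cx p : ℝ) : ℂ) / 4) ≠ 0 :=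
    fun p hp => by
    refine mul_ne_zero (mul_ne_zero (D.ne _ hp.2 _ (cxm p)) (pow_ne_zero _ ?_)) (exp_ne_zero _)
    have := (cxm p).1
    exact ofReal_ne_zero.2 (by linarith)
  have hkey : ∀ p ∈ Icc (0 : ℝ) 1 ×ˢ Icc D.β₁ D.β₂, T p ^ 2 / 4 ∈ Icc D.x₁ D.x₂ →
      4 * cx p = T p ^ 2 ∧ dd p = deriv (Θ (Pzero_a m p.1) p.2) (E.S₁ + 1) -
        deriv (E.Θe m p.2 (Θ (Pzero_a m p.1) p.2 (E.S₁ + 1))) (E.S₁ + 1) := fun p hp hx => by
    refine ⟨?_, ?_⟩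
    · simp only [hcx, min_eq_left hx.2, max_eq_right hx.1]
      ring
    · simp only [hdd]
      rw [Pzero_cl_eq hθ (hphi _ _ _ _ (hpre p hp hx)).1, ((sol _ _ (h01 _ hp.2)).2 _).deriv]
  refine (hM (fun p => T p ^ 2 / 4)
    (fun p => Phi (D.U p.2) (4 * cx p) (E.S₁ + 1) (dd p)) (by fun_prop) ?_ ?_ ?_ ?_).elim
    fun p hp' => ?_
  · have u1 : ContinuousOn (fun p : ℝ × ℝ => D.U p.2 (4 * cx p)) (Icc (0 : ℝ) 1 ×ˢ Icc D.β₁ D.β₂) :=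
      hU.comp (f := fun p : ℝ × ℝ => (cx p, p.2)) (by fun_prop) fun p hp => ⟨cxm p, hp.2⟩
    have u2 : ContinuousOn (fun p : ℝ × ℝ => D.U p.2 (E.S₁ + 1))
        (Icc (0 : ℝ) 1 ×ˢ Icc D.β₁ D.β₂) :=
      D.cont.comp (f := fun p : ℝ × ℝ => (p.2, E.S₁ + 1)) (by fun_prop) fun p hp =>
        ⟨hp.2, by simp only [mem_Ioi]; linarith⟩
    simp only [Phi]
    refine ContinuousOn.div (((cdd.mul u2).mul continuousOn_const).mul continuousOn_const).neg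
      ((u1.mul (by fun_prop)).mul (by fun_prop)) hden
  · intro β hβ
    have := (hT (0, β)).2.1 (by rw [hN0 0 β hβ]; norm_num)
    simp only [this]
    linarith
  · intro β hβ
    obtain ⟨⟨t0, t4⟩, -, t1, t2⟩ := hT (1, β)
    have n3 := hN0 1 β hβ
    rw [max_eq_left zero_le_one] at n3
    rcases t4.eq_or_lt with h | h
    · simp only [h]
      linarith
    · exfalso
      rcases t0.eq_or_lt with h' | h'
      · obtain ⟨r, hr, hr'⟩ := t2 h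
        rw [← h'] at hr
        rw [le_antisymm hr.2 hr.1, n3] at hr'
        linarith
      · have hs := sol (Pzero_a m 1) β (h01 β hβ)
        have := ((hasy β (h34 β hβ) _ _ (Pzero_a m 1) _ (h2 m β _ _ hs).2.2.2
          (by rw [qq, show (0 : ℝ) ^ 2 = 0 by norm_num, hs.1]) (Pzero_a_pos m 1) ⟨t0, t4⟩ (t1 h')
          (t2 h)).2.1 0 ⟨le_rfl, le_rfl⟩).1
        rw [n3] at this
        linarith
  · intro p hp hx
    obtain ⟨e1, e2⟩ := hkey p hp hx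
    have e3 : 4 * (T p ^ 2 / 4) = T p ^ 2 := by ring
    simp only [e1, e2, e3]
    exact (hphi _ _ _ _ (hpre p hp hx)).2
  · obtain ⟨hp, hx, h0⟩ := hp'
    refine ⟨p.2, _, T p, _, hpre p hp hx, ?_⟩
    obtain ⟨e1, e2⟩ := hkey p hp hx
    obtain ⟨l1, l2, l3, l4⟩ := E.lin p.2 (h01 _ hp.2)
    have hu := (h6 D p.2 E.S₁ E.Cf _ hp.2 hS l1 l2 l3 l4).1
    simp only [Phi] at h0
    rw [div_eq_zero_iff, or_iff_left (hden p hp), neg_eq_zero, mul_eq_zero,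
      or_iff_left (exp_ne_zero _), mul_eq_zero,
      or_iff_left (pow_ne_zero _ (ofReal_ne_zero.2 (by linarith))), mul_eq_zero,
      or_iff_left hu, e2] at h0
    exact sub_eq_zero.1 h0

end P139.PP
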