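import Vale.Agent.P139.PAMain
import Vale.Agent.P139.PE
import Vale.Agent.P139.Pzero
import Vale.Agent.P139.Pfam
import Vale.Agent.P139.Pphi
import Vale.Agent.P139.Pest
import Vale.Agent.P139.Pwr
import Vale.Agent.P139.Pmir
import Vale.Agent.P139.Pmir0
import Vale.Agent.P139.Psur
import Vale.Agent.P139.Plip
import Vale.Agent.P139.Pfix1
import Vale.Agent.P139.Pfix2
import Vale.Agent.P139.Pex
import Vale.Agent.P139.Ptq
import Vale.Agent.P139.Ppar
import Vale.Agent.P139.Psm
import Vale.Agent.P139.Pne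
import Vale.Agent.P139.Pqne
import Vale.Agent.P139.Plin
import Vale.Agent.P139.Pun
import Vale.Agent.P139.Psub
import Vale.Agent.P139.Pprof
import Vale.Agent.P139.Pdqi
import Vale.Agent.P139.Pcv1
import Vale.Agent.P139.Pgw
import Vale.Agent.P139.Pcv2
import Vale.Agent.P139.Pconv
import Vale.Agent.P139.Ppow
import Vale.Agent.P139.Pder
import Vale.Agent.P139.Pelt
import Vale.Agent.P139.Pege
import Vale.Agent.P139.Pesy
import Vale.Agent.P139.Plim

/-! P139 part P: the profile family and its limit. -/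

namespace P139

open PP in
theorem partP : PartP :=
  have tq := s_tq
  have phi := s_phi (s_est (s_wr tq)) s_lin tq
  have zero := s_zero (s_ex s_lip s_fix1 s_fix2) tq s_sur (s_mir s_mir0) phi s_lin
  have sm := s_sm tq s_par
  have dqi := s_dqi s_qne
  have cv1 := s_cv1 tq
  have cnv := s_conv cv1 (s_cv2 s_gw cv1 tq) dqi
  partP_of (s_fam s_asy s_pext zero phi (s_un s_lip tq) tq) s_sub
    (s_plim (s_prof sm s_ne tq) dqi cnv s_elt (s_ege cnv dqi) (s_esy (s_der s_pow) s_elt sm) tq)

end P139
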