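import Vale.Agent.P139.RSph
import Vale.Agent.P237.TFis

/-! P139 part R: orthogonality and completeness of spherical harmonics. -/

open Complex Set Filter Topology MeasureTheory Metric
open scoped ContDiff ComplexConjugate Laplacian RealInnerProductSpace
open Vale.Agent.P237 (σ ev HH MP BM LL Hom)

noncomputable section
namespace P139

theorem r_ibp {p : MP 12} {l : ℕ} (hp : p.IsHomogeneous l) (i : Fin 12) :
    ∫ a, ev (MvPolynomial.pderiv i p) a ∂σ 12 = (11 + l) * ∫ a, a i * ev p a ∂σ 12 := by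
  have h := Vale.Agent.P237.ibp Vale.Agent.P237.pol 12 l (ev p) (EuclideanSpace.single i 1)
    (by norm_num) (Vale.Agent.P237.ev_ll p) (Vale.Agent.P237.ev_Hom hp)
  simp only [Vale.Agent.P237.ev_fderiv_single, EuclideanSpace.inner_single_right] at h
  rw [h]
  simp only [conj_trivial, one_mul, Nat.cast_ofNat]
  ring

/-- harmonics of positive degree have mean zero -/
theorem r_orth0 {p : MP 12} {l : ℕ} (hp : HH l p) (hl : l ≠ 0) : ∫ a, ev p a ∂σ 12 = 0 := by
  have h := r_green (f := fun _ => (1 : ℂ)) contDiff_const 1 hp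
  simp only [InnerProductSpace.laplacian_const, fderiv_fun_const, Pi.zero_apply, zero_mul,
    mul_zero, zero_apply, sub_zero, zero_add, one_mul, fderiv_zero,
    integral_const_mul, integral_complex_ofReal] at h
  have h1 : (l : ℂ) * (l + 10) ≠ 0 := by
    refine mul_ne_zero (by exact_mod_cast hl) ?_
    exact_mod_cast (by omega : l + 10 ≠ 0)
  exact_mod_cast (mul_eq_zero.1 h).resolve_left h1

theorem r_orth1 {p : MP 12} {l : ℕ} (hp : HH l p) (hl : l ≠ 1) (i : Fin 12) :
    ∫ a, a i * ev p a ∂σ 12 = 0 := by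
  have h := r_ibp hp.1 i
  have h1 : ∫ a, ev (MvPolynomial.pderiv i p) a ∂σ 12 = 0 := by
    rcases l with _ | l
    · have h2 := hp.1.totalDegree_le
      rw [MvPolynomial.totalDegree_eq_zero_iff_eq_C.1 (Nat.le_zero.1 h2), MvPolynomial.pderiv_C]
      simp
    · exact r_orth0 (hp.pderiv i) fun h0 => hl (by rw [h0])
  rw [h1] at h
  exact (mul_eq_zero.1 h.symm).resolve_left (by positivity)

theorem r_orth2 (i j : Fin 12) :
    ∫ a : E, a i * a j ∂σ 12 = if i = j then 1 / 12 else 0 := by
  have := Vale.Agent.P237.σ_prob (n := 12) (by norm_num)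
  have h := r_ibp (MvPolynomial.isHomogeneous_X ℝ j) i
  simp only [MvPolynomial.pderiv_X, Vale.Agent.P237.ev_X, Pi.single_apply] at h
  by_cases hij : i = j
  · subst hij
    simp only [if_true, Vale.Agent.P237.ev_one, integral_const, probReal_univ, smul_eq_mul] at h ⊢
    norm_num at h
    linarith
  · rw [if_neg (Ne.symm hij)] at h
    rw [if_neg hij]
    simp only [Vale.Agent.P237.ev_zero, integral_zero] at h
    exact (mul_eq_zero.1 h.symm).resolve_left (by positivity)

theorem r_deg0 {p : MP 12} (hp : p.IsHomogeneous 0) (a : E) : ev p a = ev p 0 := by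
  have h := Vale.Agent.P237.ev_hom hp 0 a
  rw [zero_smul, pow_zero, one_mul] at h
  exact h.symm

theorem r_deg1 {p : MP 12} (hp : p.IsHomogeneous 1) (a : E) :
    ev p a = ∑ i, a i * ev (MvPolynomial.pderiv i p) 0 := by
  have h := Vale.Agent.P237.ev_euler hp a
  rw [Nat.cast_one, one_mul] at h
  rw [← h]
  exact Finset.sum_congr rfl fun i _ => by rw [r_deg0 hp.pderiv a]

theorem r_poly {v : E → ℝ} (hv : Continuous v)
    (h : ∀ l p, HH l p → ∫ a, v a * ev p a ∂σ 12 = 0) (p : MP 12) :
    ∫ a, v a * ev p a ∂σ 12 = 0 := by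
  have hI : ∀ q : MP 12, Integrable (fun a => v a * ev q a) (σ 12) := fun q =>
    r_intR (hv.mul (Vale.Agent.P237.ev_cont q))
  have hom : ∀ (m : ℕ) (p : MP 12), p.IsHomogeneous m → ∫ a, v a * ev p a ∂σ 12 = 0 := by
    intro m p hp
    obtain ⟨g, hg, e⟩ := (Vale.Agent.P237.fis 12 (by norm_num)).2 m p hp
    have h1 : ∫ a, v a * ev p a ∂σ 12 =
        ∫ a, ∑ k ∈ Finset.range (m / 2 + 1), v a * ev (g k) a ∂σ 12 := by
      refine integral_congr_ae (Vale.Agent.P237.σ_ae.mono fun a ha => ?_)
      simp only [congrArg (fun q => ev q a) e, Vale.Agent.P237.ev_sum, Vale.Agent.P237.ev_mul,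
        Vale.Agent.P237.ev_pow, Vale.Agent.P237.ev_r2, ha, one_pow, one_mul, Finset.mul_sum]
    rw [h1, integral_finsetSum _ fun k _ => hI _]
    exact Finset.sum_eq_zero fun k _ => h _ _ (hg k)
  rw [← MvPolynomial.sum_homogeneousComponent p]
  simp only [Vale.Agent.P237.ev_sum, Finset.mul_sum]
  rw [integral_finsetSum _ fun k _ => hI _]
  exact Finset.sum_eq_zero fun k _ => hom k _ (MvPolynomial.homogeneousComponent_isHomogeneous k p)

theorem r_approx {v : E → ℝ} (hv : Continuous v) {ε : ℝ} (hε : 0 < ε) :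
    ∃ p : MP 12, ∀ a : E, ‖a‖ = 1 → |ev p a - v a| < ε := by
  let T : MP 12 →ₐ[ℝ] C(sphere (0 : E) 1, ℝ) :=
    MvPolynomial.aeval fun i => ⟨fun a => a.1 i, by fun_prop⟩
  have hT : ∀ (p : MP 12) (a : sphere (0 : E) 1), T p a = ev p a.1 := by
    intro p a
    induction p using MvPolynomial.induction_on with
    | C c => simp [T]
    | add p q hp hq => simp [hp, hq]
    | mul_X p i hp =>
      rw [map_mul, ContinuousMap.mul_apply, hp]
      simp [T]
  have hs : T.range.SeparatesPoints := by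
    intro x y hxy
    obtain ⟨i, hi⟩ : ∃ i, x.1 i ≠ y.1 i := by
      by_contra hc
      push Not at hc
      exact hxy (Subtype.ext (PiLp.ext hc))
    refine ⟨T (MvPolynomial.X i), ⟨T (MvPolynomial.X i), ⟨_, rfl⟩, rfl⟩, ?_⟩
    rwa [hT, hT, Vale.Agent.P237.ev_X, Vale.Agent.P237.ev_X]
  obtain ⟨⟨g, p, rfl⟩, hg⟩ := ContinuousMap.exists_mem_subalgebra_near_continuous_of_separatesPoints
    T.range hs (fun a => v a.1) (hv.comp continuous_subtype_val) ε hε
  refine ⟨p, fun a ha => ?_⟩
  have := hg ⟨a, by simpa using ha⟩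
  rw [← Real.norm_eq_abs, ← hT p ⟨a, by simpa using ha⟩]
  exact this

theorem r_denR {v : E → ℝ} (hv : Continuous v)
    (h : ∀ l p, HH l p → ∫ a, v a * ev p a ∂σ 12 = 0) {a : E} (ha : ‖a‖ = 1) : v a = 0 := by
  have h1 : ∫ a, v a * v a ∂σ 12 ≤ 0 := by
    refine le_of_forall_pos_le_add fun ε hε => ?_
    have hI : 0 ≤ ∫ a, |v a| ∂σ 12 := integral_nonneg fun a => abs_nonneg _
    obtain ⟨p, hp⟩ := r_approx hv (ε := ε / (∫ a, |v a| ∂σ 12 + 1)) (by positivity)
    have hc := Vale.Agent.P237.ev_cont p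
    have h2 : ∫ a, v a * v a ∂σ 12 ≤
        ∫ a, (v a * ev p a + ε / (∫ a, |v a| ∂σ 12 + 1) * |v a|) ∂σ 12 := by
      refine integral_mono_ae (r_intR (by fun_prop)) (r_intR (by fun_prop))
        (Vale.Agent.P237.σ_ae.mono fun a ha => ?_)
      have h3 := (hp a ha).le
      have h4 : -(v a * (ev p a - v a)) ≤ |v a| * |ev p a - v a| := by
        rw [← abs_mul]; exact neg_le_abs _
      have h5 := mul_le_mul_of_nonneg_left h3 (abs_nonneg (v a))
      beta_reduce
      nlinarith
    rw [integral_add (r_intR (by fun_prop)) (r_intR (by fun_prop)), r_poly hv h,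
      integral_const_mul] at h2
    refine h2.trans ?_
    rw [zero_add, zero_add, div_mul_eq_mul_div, div_le_iff₀ (by positivity)]
    nlinarith
  have h2 : ∫ a, v a * v a ∂σ 12 = 0 :=
    le_antisymm h1 (integral_nonneg fun a => mul_self_nonneg _)
  rw [integral_eq_zero_iff_of_nonneg (fun a => mul_self_nonneg _) (r_intR (hv.mul hv))] at h2
  have h3 : ∀ᵐ a ∂((volume : Measure E).toSphere).map Subtype.val, v a * v a = 0 := by
    rw [Vale.Agent.P237.map_toSphere (by norm_num)]
    exact Measure.ae_smul_measure h2 _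
  have h4 := ae_of_ae_map measurable_subtype_coe.aemeasurable h3
  have h5 : (fun a : sphere (0 : E) 1 => v a.1 * v a.1) = fun _ => 0 :=
    (Continuous.ae_eq_iff_eq (volume : Measure E).toSphere
      ((hv.mul hv).comp continuous_subtype_val) continuous_const).1 h4
  exact mul_self_eq_zero.1 (congrFun h5 ⟨a, by simpa using ha⟩)

/-- completeness of the spherical harmonics -/
theorem r_den {u : E → ℂ} (hu : Continuous u)
    (h : ∀ l p, HH l p → ∫ a, u a * ev p a ∂σ 12 = 0) {a : E} (ha : ‖a‖ = 1) : u a = 0 := by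
  have key : ∀ L : ℂ →L[ℝ] ℝ, L (u a) = 0 := by
    intro L
    refine r_denR (v := fun a => L (u a)) (L.continuous.comp hu) (fun l p hp => ?_) ha
    have h1 := congrArg L (h l p hp)
    have h2 : Integrable (fun a => u a * ev p a) (σ 12) := r_int (hu.mul (r_evC p).continuous)
    rw [← L.integral_comp_comm h2, map_zero] at h1
    rw [← h1]
    refine integral_congr_ae (Eventually.of_forall fun a => ?_)
    beta_reduce
    rw [mul_comm (u a), ← Complex.real_smul, map_smul, smul_eq_mul, mul_comm]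
  exact Complex.ext (key Complex.reCLM) (key Complex.imCLM)

end P139
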