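import Vale.Agent.P139.RRad
import Vale.Agent.P139.RDen

/-! P139 part R: radial mode stability implies mode stability on the whole space. -/

open Complex Set Filter Topology MeasureTheory Metric
open scoped ContDiff ComplexConjugate Laplacian RealInnerProductSpace
open Vale.Agent.P237 (σ ev HH MP BM LL Hom)

noncomputable section
namespace P139

variable {m : ℕ}

theorem r_Q_smooth (P : Prof m) : ContDiff ℝ ∞ P.Q :=
  P.smooth.comp_contDiff (contDiff_norm_sq ℝ) fun y =>
    lt_of_lt_of_le (neg_neg_of_pos P.hε) (sq_nonneg ‖y‖)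

theorem r_Θ_deriv (P : Prof m) {s : ℝ} (hs : 0 ≤ s) : HasDerivAt P.Θ (deriv P.Θ s) s :=
  ((P.smooth.contDiffAt (Ioi_mem_nhds (lt_of_lt_of_le (neg_neg_of_pos P.hε) hs))).differentiableAt
    (by simp)).hasDerivAt

theorem r_Q_fderiv (P : Prof m) (y v : E) :
    fderiv ℝ P.Q y v = deriv P.Θ (‖y‖ ^ 2) * (2 * (⟪y, v⟫ : ℝ)) := by
  have h := ((r_Θ_deriv P (sq_nonneg ‖y‖)).hasFDerivAt.comp y
    (hasStrictFDerivAt_norm_sq y).hasFDerivAt).fderiv
  change fderiv ℝ P.Q y = _ at h
  rw [h]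
  simp
  ring

theorem r_q_deriv (P : Prof m) (r : ℝ) : deriv P.q r = deriv P.Θ (r ^ 2) * (2 * r) := by
  have h := (HasDerivAt.scomp (h := fun x : ℝ => x ^ 2) r (r_Θ_deriv P (sq_nonneg r))
    (hasDerivAt_pow 2 r)).deriv
  change deriv P.q r = _ at h
  rw [h]
  simp
  ring

theorem r_nsq (r : ℝ) {a : E} (ha : ‖a‖ = 1) : ‖r • a‖ ^ 2 = r ^ 2 := by
  rw [norm_smul, ha, mul_one, Real.norm_eq_abs, sq_abs]

theorem r_Q_sph (P : Prof m) (r : ℝ) {a : E} (ha : ‖a‖ = 1) : P.Q (r • a) = P.q r := by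
  rw [Prof.Q, r_nsq r ha, Prof.q]

theorem r_zm0 (P : Prof m) (r : ℝ) {a : E} (ha : ‖a‖ = 1) : P.zm none (r • a) = P.z0 0 r := by
  simp only [Prof.zm, Prof.z0, if_true, r_Q_sph P r ha]

theorem r_zm1 (P : Prof m) (r : ℝ) {a : E} (ha : ‖a‖ = 1) :
    P.zm (some none) (r • a) = P.z1 0 r := by
  simp only [Prof.zm, Prof.z1, if_true, r_Q_sph P r ha, r_Q_fderiv, r_q_deriv,
    real_inner_self_eq_norm_sq, r_nsq r ha]
  push_cast
  ring

theorem r_zm2 (P : Prof m) (r : ℝ) {a : E} (ha : ‖a‖ = 1) (j : Fin 12) :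
    P.zm (some (some j)) (r • a) = P.z0 1 r * a j := by
  simp only [Prof.zm, Prof.z0, one_ne_zero, if_true, if_false, r_Q_fderiv, r_q_deriv,
    r_nsq r ha, EuclideanSpace.inner_single_right]
  simp
  ring

theorem r_zm_cont (P : Prof m) (i : Option (Option (Fin 12))) : Continuous (P.zm i) := by
  have h1 := (r_Q_smooth P).continuous
  have h2 := (r_Q_smooth P).continuous_fderiv (by simp)
  rcases i with _ | _ | j
  · exact continuous_const.mul h1
  · exact (continuous_const.mul h1).add ((h2.clm_apply continuous_id).div_const 2)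
  · exact h2.clm_apply continuous_const

theorem r_sum_sph (P : Prof m) (c : Option (Option (Fin 12)) → ℂ) (r : ℝ) {a : E}
    (ha : ‖a‖ = 1) :
    (∑ i, c i * P.zm i (r • a) = (c none * P.z0 0 r + c (some none) * P.z1 0 r)
      + P.z0 1 r * ∑ j, c (some (some j)) * a j) ∧
    ∑ i, c i * conj (P.zm i (r • a)) = (c none * conj (P.z0 0 r) + c (some none) * conj (P.z1 0 r))
      + conj (P.z0 1 r) * ∑ j, c (some (some j)) * a j := by
  simp only [Fintype.sum_option, r_zm0 P r ha, r_zm1 P r ha, r_zm2 P r ha, map_mul,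
    Complex.conj_ofReal, Finset.mul_sum, add_assoc, mul_left_comm, and_self]

/-- moments of a function that is affine on each sphere -/
theorem r_mom_aff {S : E → ℂ} {A B : ℂ} {d : Fin 12 → ℂ} {r : ℝ}
    (hS : ∀ a : E, ‖a‖ = 1 → S (r • a) = A + B * ∑ j, d j * a j) (p : MP 12) :
    rMom S p r = A * (∫ a, ev p a ∂σ 12 : ℝ) + B * ∑ j, d j * (∫ a, a j * ev p a ∂σ 12 : ℝ) := by
  have h6 := (r_evC p).continuous
  have h1 : rMom S p r = ∫ a, (A * (ev p a : ℝ) +
      B * ∑ j, d j * ((a j * ev p a : ℝ) : ℂ)) ∂σ 12 := by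
    refine integral_congr_ae (Vale.Agent.P237.σ_ae.mono fun a ha => ?_)
    simp only [hS a ha, add_mul, mul_assoc, Finset.sum_mul, Complex.ofReal_mul]
  have h2 : ∀ j : Fin 12, Continuous fun a : E => d j * ((a j * ev p a : ℝ) : ℂ) := fun j => by
    simp only [Complex.ofReal_mul]
    fun_prop
  have h3 : Continuous fun a : E => B * ∑ j, d j * ((a j * ev p a : ℝ) : ℂ) :=
    continuous_const.mul (continuous_finsetSum _ fun j _ => h2 j)
  rw [h1, integral_add (r_int (by fun_prop)) (r_int h3),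
    integral_const_mul, integral_const_mul, integral_finsetSum _ fun j _ => r_int (h2 j)]
  simp only [integral_const_mul, integral_complex_ofReal]

theorem r_fin {f S : E → ℂ} (hf : Continuous f) (hS : Continuous S) {A B : ℝ → ℂ}
    {d : Fin 12 → ℂ} (hSa : ∀ (r : ℝ) (a : E), ‖a‖ = 1 → S (r • a) = A r + B r * ∑ j, d j * a j)
    (h0 : ∀ r : ℝ, 0 < r → rMom f 1 r = A r)
    (h1 : ∀ (j : Fin 12) (r : ℝ), 0 < r → 12 * rMom f (MvPolynomial.X j) r = d j * B r)
    (h2 : ∀ l p, 2 ≤ l → HH l p → ∀ r : ℝ, 0 < r → rMom f p r = 0) : f = S := by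
  have := Vale.Agent.P237.σ_prob (n := 12) (by norm_num)
  have key : ∀ r : ℝ, 0 < r → ∀ l p, HH l p → rMom f p r = rMom S p r := by
    intro r hr l p hp
    rw [r_mom_aff (hSa r) p]
    rcases l with _ | _ | l
    · simp only [r_orth1 hp zero_ne_one, Complex.ofReal_zero, mul_zero, Finset.sum_const_zero,
        add_zero, ← h0 r hr]
      obtain ⟨k, hk⟩ : ∃ k : ℝ, ev p = fun _ => k := ⟨_, funext (r_deg0 hp.1)⟩
      simp only [rMom, hk, integral_const, probReal_univ, one_smul,
        integral_mul_const, Vale.Agent.P237.ev_one, Complex.ofReal_one, mul_one]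
    · have e1 : ∀ j : Fin 12, ∫ a, a j * ev p a ∂σ 12 = ev (MvPolynomial.pderiv j p) 0 / 12 := by
        intro j
        simp only [funext (r_deg1 hp.1), Finset.mul_sum, ← mul_assoc]
        rw [integral_finsetSum _ fun i _ => r_intR (by fun_prop)]
        simp only [integral_mul_const, r_orth2, ite_mul, zero_mul, Finset.sum_ite_eq,
          Finset.mem_univ, if_true]
        ring
      have e2 : rMom f p r = ∑ j, rMom f (MvPolynomial.X j) r * ev (MvPolynomial.pderiv j p) 0 := by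
        simp only [rMom, funext (r_deg1 hp.1), Complex.ofReal_sum, Complex.ofReal_mul,
          Finset.mul_sum, ← mul_assoc, Vale.Agent.P237.ev_X]
        rw [integral_finsetSum _ fun i _ => r_int (by fun_prop)]
        simp only [integral_mul_const]
      rw [r_orth0 hp one_ne_zero, e2, Complex.ofReal_zero, mul_zero, zero_add, Finset.mul_sum]
      refine Finset.sum_congr rfl fun j _ => ?_
      rw [e1]
      push_cast
      linear_combination (ev (MvPolynomial.pderiv j p) 0 / 12 : ℂ) * h1 j r hr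
    · simp only [r_orth0 hp (by omega), r_orth1 hp (by omega), Complex.ofReal_zero, mul_zero,
        Finset.sum_const_zero, add_zero]
      exact h2 _ p (by omega) hp r hr
  refine Continuous.ext_on (dense_compl_singleton (0 : E)) hf hS fun y hy => ?_
  have hy0 : 0 < ‖y‖ := norm_pos_iff.2 hy
  have h3 := r_den (u := fun a => f (‖y‖ • a) - S (‖y‖ • a)) (by fun_prop) (fun l p hp => by
    have h6 := (r_evC p).continuous
    simp only [sub_mul]
    rw [integral_sub (r_int (by fun_prop)) (r_int (by fun_prop))]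
    exact sub_eq_zero.2 (key _ hy0 l p hp)) (a := ‖y‖⁻¹ • y) (norm_smul_inv_norm hy)
  rw [smul_smul, mul_inv_cancel₀ hy0.ne', one_smul] at h3
  exact sub_eq_zero.1 h3

theorem r_inZ (P : Prof m) {F G : E → ℂ} (h : P.InZZ F G) {l : ℕ} {p : MP 12} (hp : HH l p) :
    P.InZ l (rMom F p) (rMom G p) := by
  obtain ⟨c, hc⟩ := h
  have e1 := fun r => r_mom_aff (S := F) (fun a ha => (hc _).1.trans (r_sum_sph P c r ha).1) p
  have e2 := fun r => r_mom_aff (S := G) (fun a ha => (hc _).2.trans (r_sum_sph P c r ha).2) p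
  rcases l with _ | _ | l
  · refine ⟨c none * (∫ a, ev p a ∂σ 12 : ℝ), c (some none) * (∫ a, ev p a ∂σ 12 : ℝ),
      fun r _ => ?_⟩
    rw [e1, e2]
    simp only [r_orth1 hp zero_ne_one, Complex.ofReal_zero, mul_zero, Finset.sum_const_zero]
    constructor <;> ring
  · refine ⟨∑ j, c (some (some j)) * (∫ a, a j * ev p a ∂σ 12 : ℝ), 0, fun r _ => ?_⟩
    rw [e1, e2, r_orth0 hp one_ne_zero]
    simp only [Complex.ofReal_zero, zero_add]
    constructor <;> ring
  · refine ⟨0, 0, fun r _ => ?_⟩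
    rw [e1, e2]
    simp [r_orth0 hp (by omega), r_orth1 hp (by omega)]

theorem r_mom_comb {F u₁ u₂ u₃ u₄ : E → ℂ} (h₁ : Continuous u₁) (h₂ : Continuous u₂)
    (h₃ : Continuous u₃) (h₄ : Continuous u₄) {c₁ c₂ c₃ c₄ : ℂ} {r : ℝ}
    (h : ∀ a : E, ‖a‖ = 1 → F (r • a) =
      c₁ * u₁ (r • a) + c₂ * u₂ (r • a) + c₃ * u₃ (r • a) + c₄ * u₄ (r • a)) (p : MP 12) :
    rMom F p r = c₁ * rMom u₁ p r + c₂ * rMom u₂ p r + c₃ * rMom u₃ p r + c₄ * rMom u₄ p r := by
  have h6 := (r_evC p).continuous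
  have e : rMom F p r = ∫ a, (c₁ * (u₁ (r • a) * ev p a) + c₂ * (u₂ (r • a) * ev p a)
      + c₃ * (u₃ (r • a) * ev p a) + c₄ * (u₄ (r • a) * ev p a)) ∂σ 12 := by
    refine integral_congr_ae (Vale.Agent.P237.σ_ae.mono fun a ha => ?_)
    simp only [h a ha]
    ring
  rw [e, integral_add (r_int (by fun_prop)) (r_int (by fun_prop)),
    integral_add (r_int (by fun_prop)) (r_int (by fun_prop)),
    integral_add (r_int (by fun_prop)) (r_int (by fun_prop))]
  simp only [integral_const_mul, rMom]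

theorem partR : PartR := by
  intro m P _ hM lam hlam f g hf hg hb hZ
  have hbf : ∀ j ≤ 48, ∃ C : ℝ, ∀ y, ‖iteratedFDeriv ℝ j f y‖ ≤ C :=
    fun j hj => (hb j hj).imp fun _ h y => (h y).1
  have hbg : ∀ j ≤ 48, ∃ C : ℝ, ∀ y, ‖iteratedFDeriv ℝ j g y‖ ≤ C :=
    fun j hj => (hb j hj).imp fun _ h y => (h y).2
  have cf : Continuous fun y => fderiv ℝ f y y :=
    (hf.continuous_fderiv (by norm_num)).clm_apply continuous_id
  have cg : Continuous fun y => fderiv ℝ g y y :=
    (hg.continuous_fderiv (by norm_num)).clm_apply continuous_id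
  have key : ∀ l p, HH l p → P.InZ l (rMom f p) (rMom g p) := by
    intro l p hp
    refine hM l lam hlam _ _ (r_mom_smooth hf hbf p).contDiffOn (r_mom_smooth hg hbg p).contDiffOn
      (fun j hj => ?_) ?_
    · obtain ⟨C, hC⟩ := r_mom_bd hf hbf p hj
      obtain ⟨C', hC'⟩ := r_mom_bd hg hbg p hj
      exact ⟨max C C', fun r _ => ⟨(hC r).trans (le_max_left _ _), (hC' r).trans (le_max_right _ _)⟩⟩
    · obtain ⟨c₀, c₁, hc⟩ := r_inZ P hZ hp
      refine ⟨c₀, c₁, fun r hr => ⟨Eq.trans ?_ (hc r hr).1, Eq.trans ?_ (hc r hr).2⟩⟩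
      · rw [r_mom_comb hf.continuous cf (r_lap_cont hf) hg.continuous
          (c₁ := -((gam m : ℂ) - I * P.β) - I * P.V1 r - lam) (c₂ := -(1 / 2)) (c₃ := I)
          (c₄ := -(I * P.V2 r)) (fun a ha => by
            simp only [Prof.W1, Prof.W2, Prof.V1, Prof.V2, r_Q_sph P r ha]
            ring), r_mom_lap hf hbf hp hr, r_mom_rad hf hbf]
        simp only [Prof.LF]
        ring
      · rw [r_mom_comb hg.continuous cg (r_lap_cont hg) hf.continuous
          (c₁ := -((gam m : ℂ) + I * P.β) + I * P.V1 r - lam) (c₂ := -(1 / 2)) (c₃ := -I)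
          (c₄ := I * conj (P.V2 r)) (fun a ha => by
            simp only [Prof.W1, Prof.W2, Prof.V1, Prof.V2, r_Q_sph P r ha]
            ring), r_mom_lap hg hbg hp hr, r_mom_rad hg hbg]
        simp only [Prof.LG]
        ring
  obtain ⟨c₀, c₁, h0⟩ := key 0 1 HH.one
  choose d d' h1 using fun j : Fin 12 => key 1 (MvPolynomial.X j) (HH.X j)
  have h2 : ∀ l p, 2 ≤ l → HH l p → ∀ r : ℝ, 0 < r → rMom f p r = 0 ∧ rMom g p r = 0 := by
    intro l p hl hp r hr
    obtain ⟨e₀, e₁, he⟩ := key l p hp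
    simpa [Prof.z0, Prof.z1, show l ≠ 0 by omega, show l ≠ 1 by omega] using he r hr
  let c : Option (Option (Fin 12)) → ℂ := fun i =>
    match i with
    | none => c₀
    | some none => c₁
    | some (some j) => 12 * d j
  have hz : ∀ r, P.z1 1 r = 0 := fun r => if_neg one_ne_zero
  have e1 := r_fin (S := fun y => ∑ i, c i * P.zm i y) hf.continuous
    (continuous_finsetSum _ fun i _ => continuous_const.mul (r_zm_cont P i))
    (fun r a ha => (r_sum_sph P c r ha).1) (fun r hr => (h0 r hr).1)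
    (fun j r hr => by rw [(h1 j r hr).1, hz]; simp only [c]; ring)
    (fun l p hl hp r hr => (h2 l p hl hp r hr).1)
  have e2 := r_fin (S := fun y => ∑ i, c i * conj (P.zm i y)) hg.continuous
    (continuous_finsetSum _ fun i _ =>
      continuous_const.mul (Complex.continuous_conj.comp (r_zm_cont P i)))
    (fun r a ha => (r_sum_sph P c r ha).2) (fun r hr => (h0 r hr).2)
    (fun j r hr => by rw [(h1 j r hr).2, hz]; simp only [c, map_zero]; ring)
    (fun l p hl hp r hr => (h2 l p hl hp r hr).2)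
  exact ⟨c, fun y => ⟨congrFun e1 y, congrFun e2 y⟩⟩

end P139
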