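import Vale.Agent.P139.SSol

/-! P139 part S: local existence in `H^k`, `k > 6` (interaction picture and Picard-Lindelöf). -/

open Complex Set Filter Topology MeasureTheory Metric
open scoped ENNReal NNReal ComplexConjugate

noncomputable section
namespace P139S

open P139 (Z12 cv cj nl)

theorem young {p f : Z12 → ℝ} (hp0 : ∀ n, 0 ≤ p n) (hf0 : ∀ n, 0 ≤ f n) (hp : Summable p)
    (hf : Summable fun n => f n ^ 2) :
    (∀ n, Summable fun j => p j * f (n - j)) ∧
      (Summable fun n => (∑' j, p j * f (n - j)) ^ 2) ∧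
      ∑' n, (∑' j, p j * f (n - j)) ^ 2 ≤ (∑' j, p j) ^ 2 * ∑' n, f n ^ 2 := by
  have h1 : Summable fun q : Z12 × Z12 => p q.1 * f q.2 ^ 2 :=
    hp.mul_of_nonneg hf hp0 fun n => sq_nonneg _
  have h2 : HasSum (fun q : Z12 × Z12 => p q.2 * f (q.1 - q.2) ^ 2)
      ((∑' j, p j) * ∑' n, f n ^ 2) :=
    (shear.hasSum_iff (f := fun q : Z12 × Z12 => p q.1 * f q.2 ^ 2)).mpr
      (hp.hasSum.mul hf.hasSum h1)
  have h3 : ∀ n, Summable fun j => p j * f (n - j) ^ 2 := fun n => h2.summable.prod_factor n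
  have h4 : HasSum (fun n => ∑' j, p j * f (n - j) ^ 2) ((∑' j, p j) * ∑' n, f n ^ 2) :=
    h2.prod_fiberwise fun n => (h3 n).hasSum
  have hG : 0 ≤ ∑' j, p j := tsum_nonneg hp0
  have h5 : ∀ n (s : Finset Z12), ∑ j ∈ s, p j * f (n - j)
      ≤ √((∑' j, p j) * ∑' j, p j * f (n - j) ^ 2) := by
    intro n s
    refine Real.le_sqrt_of_sq_le ((Finset.sum_sq_le_sum_mul_sum_of_sq_le_mul s (f := p)
      (g := fun j => p j * f (n - j) ^ 2) (fun j _ => hp0 j)
      (fun j _ => mul_nonneg (hp0 j) (sq_nonneg _)) fun j _ => le_of_eq (by ring)).trans ?_)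
    exact mul_le_mul (hp.sum_le_tsum s fun j _ => hp0 j)
      ((h3 n).sum_le_tsum s fun j _ => mul_nonneg (hp0 j) (sq_nonneg _))
      (Finset.sum_nonneg fun j _ => mul_nonneg (hp0 j) (sq_nonneg _)) hG
  have h6 : ∀ n, Summable fun j => p j * f (n - j) := fun n =>
    summable_of_sum_le (fun j => mul_nonneg (hp0 j) (hf0 _)) (h5 n)
  have h7 : ∀ n, (∑' j, p j * f (n - j)) ^ 2 ≤ (∑' j, p j) * ∑' j, p j * f (n - j) ^ 2 := by
    intro n
    have h8 := (h6 n).tsum_le_of_sum_le (h5 n)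
    have h9 : 0 ≤ ∑' j, p j * f (n - j) := tsum_nonneg fun j => mul_nonneg (hp0 j) (hf0 _)
    exact (Real.le_sqrt h9 (mul_nonneg hG
      (tsum_nonneg fun j => mul_nonneg (hp0 j) (sq_nonneg _)))).mp h8
  have h10 := h4.mul_left (∑' j, p j)
  have h11 := Summable.of_nonneg_of_le (fun n => sq_nonneg _) h7 h10.summable
  refine ⟨h6, h11, (h11.tsum_le_tsum h7 h10.summable).trans (le_of_eq ?_)⟩
  rw [h10.tsum_eq]
  ring

theorem jb_neg (n : Z12) : jb (-n) = jb n := by simp [jb, nsq]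

theorem jb_pow_le (k : ℕ) (n j : Z12) : jb n ^ k ≤ 2 ^ k * (jb j ^ k + jb (n - j) ^ k) := by
  have h1 : nsq n ≤ 2 * nsq j + 2 * nsq (n - j) := by
    unfold nsq
    rw [Finset.mul_sum, Finset.mul_sum, ← Finset.sum_add_distrib]
    refine Finset.sum_le_sum fun i _ => ?_
    simp only [Pi.sub_apply, Int.cast_sub]
    nlinarith [sq_nonneg ((j i : ℝ) - ((n i : ℝ) - j i))]
  have hsq : ∀ l : Z12, jb l ^ 2 = 1 + nsq l := fun l =>
    Real.sq_sqrt (by linarith [nsq_nonneg l])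
  have h2 : jb n ≤ 2 * max (jb j) (jb (n - j)) := by
    have a1 := le_max_left (jb j) (jb (n - j))
    have a2 := le_max_right (jb j) (jb (n - j))
    have a3 := pow_le_pow_left₀ (jb_pos j).le a1 2
    have a4 := pow_le_pow_left₀ (jb_pos _).le a2 2
    refine (pow_le_pow_iff_left₀ (jb_pos n).le (by linarith [jb_pos j]) two_ne_zero).mp ?_
    rw [hsq] at a3 a4
    rw [hsq, mul_pow]
    linarith
  refine (pow_le_pow_left₀ (jb_pos n).le h2 k).trans ?_
  rw [mul_pow]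
  gcongr
  rcases max_choice (jb j) (jb (n - j)) with h | h <;> rw [h]
  · linarith [pow_pos (jb_pos (n - j)) k]
  · linarith [pow_pos (jb_pos j) k]

/-- the model of `H^k` -/
abbrev L2 : Type := lp (fun _ : Z12 => ℂ) 2

theorem mem2 {f : Z12 → ℂ} (h : Summable fun n => ‖f n‖ ^ 2) : Memℓp f 2 :=
  memℓp_gen (by simpa using h)

theorem hs2 (b : L2) : HasSum (fun n => ‖b n‖ ^ 2) (‖b‖ ^ 2) := by
  simpa using lp.hasSum_norm (p := 2) (by simp) b

/-- coefficients represented by `b` -/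
def dn (k : ℕ) (b : L2) (n : Z12) : ℂ := (((jb n ^ k)⁻¹ : ℝ) : ℂ) * b n

theorem up_dn (k : ℕ) (b : L2) (n : Z12) : jb n ^ k * ‖dn k b n‖ = ‖b n‖ := by
  have := pow_pos (jb_pos n) k
  rw [dn, norm_mul, norm_real, Real.norm_of_nonneg (by positivity), ← mul_assoc,
    mul_inv_cancel₀ this.ne', one_mul]

theorem up_dn2 (k : ℕ) (b : L2) (n : Z12) : jb n ^ (2 * k) * ‖dn k b n‖ ^ 2 = ‖b n‖ ^ 2 := by
  rw [← up_dn k b n]
  ring

theorem dn_up (k : ℕ) (n : Z12) (z : ℂ) :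
    (((jb n ^ k)⁻¹ : ℝ) : ℂ) * (((jb n ^ k : ℝ) : ℂ) * z) = z := by
  rw [← mul_assoc, ← ofReal_mul, inv_mul_cancel₀ (pow_pos (jb_pos n) k).ne', ofReal_one, one_mul]

theorem dn_l1 {k : ℕ} (hk : 6 < k) (b : L2) :
    (Summable fun n => ‖dn k b n‖) ∧ ∑' n, ‖dn k b n‖ ≤ CE k * ‖b‖ := by
  have h := embed hk (a := dn k b) (by simpa only [up_dn2] using (hs2 b).summable)
  simp only [up_dn2, (hs2 b).tsum_eq, Real.sqrt_sq (norm_nonneg b)] at h
  exact h

theorem CE_nonneg (k : ℕ) : 0 ≤ CE k := Real.sqrt_nonneg _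

theorem mul_est {k : ℕ} (hk : 6 < k) (a b : L2) :
    (Summable fun n => ‖((jb n ^ k : ℝ) : ℂ) * cv (dn k a) (dn k b) n‖ ^ 2) ∧
      ∑' n, ‖((jb n ^ k : ℝ) : ℂ) * cv (dn k a) (dn k b) n‖ ^ 2
        ≤ (2 * 2 ^ k * CE k * ‖a‖ * ‖b‖) ^ 2 := by
  obtain ⟨ha1, ha2⟩ := dn_l1 hk a
  obtain ⟨hb1, hb2⟩ := dn_l1 hk b
  obtain ⟨y1, y2, y3⟩ := young (fun n => norm_nonneg _) (fun n => norm_nonneg (b n)) ha1
    (hs2 b).summable
  obtain ⟨z1, z2, z3⟩ := young (fun n => norm_nonneg _) (fun n => norm_nonneg (a n)) hb1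
    (hs2 a).summable
  rw [(hs2 b).tsum_eq] at y3
  rw [(hs2 a).tsum_eq] at z3
  have h1 : ∀ n, ‖((jb n ^ k : ℝ) : ℂ) * cv (dn k a) (dn k b) n‖
      ≤ 2 ^ k * ((∑' j, ‖dn k b j‖ * ‖a (n - j)‖) + ∑' j, ‖dn k a j‖ * ‖b (n - j)‖) := by
    intro n
    have z4 : HasSum (fun j => ‖dn k b (n - j)‖ * ‖a j‖) (∑' j, ‖dn k b j‖ * ‖a (n - j)‖) := by
      have := (Equiv.subLeft n).hasSum_iff.mpr (z1 n).hasSum
      refine this.congr_fun fun j => ?_
      simp
    rw [cv, ← tsum_mul_left]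
    refine tsum_of_norm_bounded ((z4.add (y1 n).hasSum).mul_left (2 ^ k)) fun j => ?_
    rw [norm_mul, norm_mul, norm_real, Real.norm_of_nonneg (pow_pos (jb_pos n) k).le,
      ← up_dn k a j, ← up_dn k b (n - j)]
    have := mul_le_mul_of_nonneg_right (jb_pow_le k n j)
      (mul_nonneg (norm_nonneg (dn k a j)) (norm_nonneg (dn k b (n - j))))
    refine this.trans (le_of_eq ?_)
    ring
  have h2 : ∀ n, ‖((jb n ^ k : ℝ) : ℂ) * cv (dn k a) (dn k b) n‖ ^ 2
      ≤ 2 * (2 ^ k) ^ 2 * ((∑' j, ‖dn k b j‖ * ‖a (n - j)‖) ^ 2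
        + (∑' j, ‖dn k a j‖ * ‖b (n - j)‖) ^ 2) := by
    intro n
    refine (pow_le_pow_left₀ (norm_nonneg _) (h1 n) 2).trans ?_
    generalize (∑' j, ‖dn k b j‖ * ‖a (n - j)‖) = x
    generalize (∑' j, ‖dn k a j‖ * ‖b (n - j)‖) = y
    have : (x + y) ^ 2 ≤ 2 * (x ^ 2 + y ^ 2) := by nlinarith [sq_nonneg (x - y)]
    have h3 : (0 : ℝ) ≤ (2 ^ k) ^ 2 := by positivity
    calc ((2 : ℝ) ^ k * (x + y)) ^ 2 = (2 ^ k) ^ 2 * (x + y) ^ 2 := by ring
      _ ≤ (2 ^ k) ^ 2 * (2 * (x ^ 2 + y ^ 2)) := by gcongr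
      _ = _ := by ring
  have h4 := (z2.add y2).mul_left (2 * (2 ^ k) ^ 2)
  have h5 := Summable.of_nonneg_of_le (fun n => sq_nonneg _) h2 h4
  refine ⟨h5, (h5.tsum_le_tsum h2 h4).trans ?_⟩
  rw [tsum_mul_left, z2.tsum_add y2]
  have h6 : (∑' n, ‖dn k a n‖) ^ 2 ≤ (CE k * ‖a‖) ^ 2 :=
    pow_le_pow_left₀ (tsum_nonneg fun _ => norm_nonneg _) ha2 2
  have h7 : (∑' n, ‖dn k b n‖) ^ 2 ≤ (CE k * ‖b‖) ^ 2 :=
    pow_le_pow_left₀ (tsum_nonneg fun _ => norm_nonneg _) hb2 2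
  have h8 := y3.trans (mul_le_mul_of_nonneg_right h6 (sq_nonneg ‖b‖))
  have h9 := z3.trans (mul_le_mul_of_nonneg_right h7 (sq_nonneg ‖a‖))
  calc _ ≤ 2 * ((2 : ℝ) ^ k) ^ 2 * ((CE k * ‖b‖) ^ 2 * ‖a‖ ^ 2 + (CE k * ‖a‖) ^ 2 * ‖b‖ ^ 2) := by
        gcongr
    _ = _ := by ring

theorem syn_add {a b : Z12 → ℂ} (ha : Summable fun n => ‖a n‖)
    (hb : Summable fun n => ‖b n‖) : syn (fun n => a n + b n) = syn a + syn b := by
  unfold syn
  rw [← (summable_syn ha).tsum_add (summable_syn hb)]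
  simp only [add_smul]

theorem syn_smul {a : Z12 → ℂ} (ha : Summable fun n => ‖a n‖) (c : ℂ) :
    syn (fun n => c * a n) = c • syn a := by
  unfold syn
  rw [← (summable_syn ha).tsum_const_smul c]
  simp only [mul_smul]

variable {k : ℕ}

/-- synthesis as a bounded operator -/
def synX (hk : 6 < k) : L2 →L[ℂ] C(Torus 12, ℂ) :=
  LinearMap.mkContinuous
    { toFun := fun b => syn (dn k b)
      map_add' := fun a b => by
        rw [← syn_add (dn_l1 hk a).1 (dn_l1 hk b).1]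
        congr 1
        funext n
        simp only [dn, lp.coeFn_add, Pi.add_apply, mul_add]
      map_smul' := fun c a => by
        rw [RingHom.id_apply, ← syn_smul (dn_l1 hk a).1]
        congr 1
        funext n
        simp only [dn, lp.coeFn_smul, Pi.smul_apply, smul_eq_mul]
        ring }
    (CE k) fun b => (norm_syn_le (dn_l1 hk b).1).trans (dn_l1 hk b).2

theorem synX_apply (hk : 6 < k) (b : L2) : synX hk b = syn (dn k b) := rfl

theorem cv_eq (hk : 6 < k) (a b : L2) (n : Z12) :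
    cv (dn k a) (dn k b) n = coefL n (synX hk a * synX hk b) := by
  rw [synX_apply, synX_apply, ← syn_cv (dn_l1 hk a).1 (dn_l1 hk b).1, coefL_apply,
    coef_syn (summable_cv (dn_l1 hk a).1 (dn_l1 hk b).1)]

/-- the product -/
def mul0 (hk : 6 < k) (a b : L2) : L2 :=
  ⟨fun n => ((jb n ^ k : ℝ) : ℂ) * cv (dn k a) (dn k b) n, mem2 (mul_est hk a b).1⟩

theorem mul0_apply (hk : 6 < k) (a b : L2) (n : Z12) :
    mul0 hk a b n = ((jb n ^ k : ℝ) : ℂ) * coefL n (synX hk a * synX hk b) := by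
  rw [← cv_eq]
  rfl

theorem norm_mul0 (hk : 6 < k) (a b : L2) : ‖mul0 hk a b‖ ≤ 2 * 2 ^ k * CE k * ‖a‖ * ‖b‖ := by
  have := CE_nonneg k
  refine (pow_le_pow_iff_left₀ (norm_nonneg _) (by positivity) two_ne_zero).mp ?_
  rw [← (hs2 _).tsum_eq]
  exact (mul_est hk a b).2

/-- the product as a bounded bilinear map -/
def mulX (hk : 6 < k) : L2 →L[ℂ] L2 →L[ℂ] L2 :=
  LinearMap.mkContinuous₂ (LinearMap.mk₂ ℂ (mul0 hk)
    (fun a a' b => lp.ext (funext fun n => by
      simp only [lp.coeFn_add, Pi.add_apply, mul0_apply, map_add, add_mul, mul_add]))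
    (fun c a b => lp.ext (funext fun n => by
      simp only [lp.coeFn_smul, Pi.smul_apply, mul0_apply, map_smul, smul_mul_assoc, smul_eq_mul]
      ring))
    (fun a b b' => lp.ext (funext fun n => by
      simp only [lp.coeFn_add, Pi.add_apply, mul0_apply, map_add, add_mul, mul_add]))
    (fun c a b => lp.ext (funext fun n => by
      simp only [lp.coeFn_smul, Pi.smul_apply, mul0_apply, map_smul, mul_smul_comm, smul_eq_mul]
      ring)))
    (2 * 2 ^ k * CE k) (norm_mul0 hk)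

theorem dn_mulX (hk : 6 < k) (a b : L2) : dn k (mulX hk a b) = cv (dn k a) (dn k b) :=
  funext fun n => dn_up k n _

theorem hs_cj (b : L2) : HasSum (fun n => ‖conj (b (-n))‖ ^ 2) (‖b‖ ^ 2) := by
  refine ((Equiv.neg Z12).hasSum_iff.mpr (hs2 b)).congr_fun fun n => ?_
  simp

/-- complex conjugation -/
def conjX : L2 →L[ℝ] L2 :=
  LinearMap.mkContinuous
    { toFun := fun b => ⟨fun n => conj (b (-n)), mem2 (hs_cj b).summable⟩
      map_add' := fun a b => lp.ext (funext fun n => by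
        simp only [lp.coeFn_add, Pi.add_apply, map_add])
      map_smul' := fun c a => lp.ext (funext fun n => by
        simp only [lp.coeFn_smul, Pi.smul_apply, RingHom.id_apply, real_smul, map_mul,
          conj_ofReal]) }
    1 fun b => by
      rw [one_mul]
      refine (pow_le_pow_iff_left₀ (norm_nonneg _) (norm_nonneg _) two_ne_zero).mp ?_
      exact le_of_eq ((hs2 _).unique (hs_cj b))

theorem dn_conjX (b : L2) : dn k (conjX b) = cj (dn k b) := by
  funext n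
  change _ * conj (b (-n)) = _
  simp only [cj, dn, jb_neg, map_mul, conj_ofReal]

/-- the nonlinearity -/
def NX (hk : 6 < k) : ℕ → L2 → L2
  | 0, b => b
  | m + 1, b => mulX hk (mulX hk b (conjX b)) (NX hk m b)

theorem dn_NX (hk : 6 < k) (m : ℕ) (b : L2) : dn k (NX hk m b) = nl m (dn k b) := by
  induction m with
  | zero => rfl
  | succ m ih => rw [NX, nl, dn_mulX, dn_mulX, dn_conjX, ih]

theorem contDiff_NX (hk : 6 < k) (m : ℕ) : ContDiff ℝ 1 (NX hk m) := by
  have h : ContDiff ℝ 1 fun p : L2 × L2 => mulX hk p.1 p.2 :=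
    ((mulX hk).isBoundedBilinearMap.contDiff (n := 1)).restrict_scalars ℝ
  induction m with
  | zero => exact contDiff_id
  | succ m ih =>
    have h1 : ContDiff ℝ 1 fun b : L2 => mulX hk b (conjX b) :=
      h.comp (f := fun b : L2 => (b, conjX b)) (contDiff_id.prodMk conjX.contDiff)
    have h2 : ContDiff ℝ 1 fun b : L2 => mulX hk (mulX hk b (conjX b)) (NX hk m b) :=
      h.comp (f := fun b : L2 => (mulX hk b (conjX b), NX hk m b)) (h1.prodMk ih)
    exact h2

/-- the phase `e^{-i|n|²t}` -/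
def ph (t : ℝ) (n : Z12) : ℂ := cexp (-I * nsq n * t)

theorem norm_ph (t : ℝ) (n : Z12) : ‖ph t n‖ = 1 := by
  rw [ph, norm_exp]
  simp

/-- the free evolution -/
def UX (t : ℝ) (b : L2) : L2 :=
  ⟨fun n => ph t n * b n, mem2 (by simpa only [norm_mul, norm_ph, one_mul] using (hs2 b).summable)⟩

theorem UX_apply (t : ℝ) (b : L2) (n : Z12) : UX t b n = ph t n * b n := rfl

theorem UX_dist (t : ℝ) (a b : L2) : dist (UX t a) (UX t b) = dist a b := by
  rw [dist_eq_norm, dist_eq_norm]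
  refine (pow_left_inj₀ (norm_nonneg _) (norm_nonneg _) two_ne_zero).mp
    ((hs2 _).unique ((hs2 _).congr_fun fun n => ?_))
  simp only [lp.coeFn_sub, Pi.sub_apply, UX_apply, ← mul_sub, norm_mul, norm_ph, one_mul]

theorem UX_norm (t : ℝ) (a : L2) : ‖UX t a‖ = ‖a‖ := by
  refine (pow_left_inj₀ (norm_nonneg _) (norm_nonneg _) two_ne_zero).mp
    ((hs2 _).unique ((hs2 _).congr_fun fun n => ?_))
  simp only [UX_apply, norm_mul, norm_ph, one_mul]

theorem UX_zero (a : L2) : UX 0 a = a := lp.ext (funext fun n => by simp [UX_apply, ph])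

theorem UX_cont1 (b : L2) : Continuous fun t => UX t b := by
  rw [continuous_iff_continuousAt]
  intro t
  rw [ContinuousAt, tendsto_iff_norm_sub_tendsto_zero]
  have h1 : Continuous fun s => ∑' n, ‖ph s n * b n - ph t n * b n‖ ^ 2 := by
    refine continuous_tsum (u := fun n => 4 * ‖b n‖ ^ 2) (fun n => ?_)
      ((hs2 b).summable.mul_left 4) fun n s => ?_
    · unfold ph
      fun_prop
    · rw [Real.norm_of_nonneg (sq_nonneg _)]
      have h := norm_sub_le (ph s n * b n) (ph t n * b n)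
      simp only [norm_mul, norm_ph, one_mul] at h
      nlinarith [norm_nonneg (ph s n * b n - ph t n * b n), norm_nonneg (b n)]
  have h2 := (h1.sqrt.tendsto t)
  simp only [sub_self, norm_zero, ne_eq, OfNat.ofNat_ne_zero, not_false_eq_true, zero_pow,
    tsum_zero, Real.sqrt_zero] at h2
  refine h2.congr fun s => ?_
  rw [← Real.sqrt_sq (norm_nonneg (UX s b - UX t b)), ← (hs2 _).tsum_eq]
  simp only [lp.coeFn_sub, Pi.sub_apply, UX_apply]

theorem UX_cont : Continuous fun p : ℝ × L2 => UX p.1 p.2 :=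
  continuous_prod_of_continuous_lipschitzWith' _ 1
    (fun t => LipschitzWith.of_dist_le_mul fun a b => by simp [UX_dist]) UX_cont1

/-- the vector field in the interaction picture -/
def FX (hk : 6 < k) (m : ℕ) (t : ℝ) (v : L2) : L2 := (-I) • UX (-t) (NX hk m (UX t v))

theorem exists_loc (hk : 6 < k) (m : ℕ) (v₀ : L2) : ∃ (τ : ℝ) (v : ℝ → L2), 0 < τ ∧ v 0 = v₀ ∧
    ∀ t ∈ Icc 0 τ, HasDerivWithinAt v (FX hk m t (v t)) (Icc 0 τ) t := by
  obtain ⟨K, W, hW, hK⟩ := (contDiff_NX hk m).contDiffAt (x := v₀) |>.exists_lipschitzOnWith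
  obtain ⟨ε, hε, hεW⟩ := Metric.nhds_basis_closedBall.mem_iff.mp hW
  obtain ⟨δ, hδ, hδ'⟩ := Metric.continuousAt_iff.mp ((UX_cont1 v₀).continuousAt (x := 0))
    (ε / 2) (half_pos hε)
  set L : ℝ := K * ε + ‖NX hk m v₀‖ with hL
  have hL0 : 0 ≤ L := by positivity
  set τ : ℝ := min (δ / 2) (ε / 2 / (L + 1)) with hτ
  have hτ0 : 0 < τ := lt_min (half_pos hδ) (by positivity)
  have hin : ∀ t ∈ Icc 0 τ, ∀ x ∈ closedBall v₀ (ε / 2), UX t x ∈ closedBall v₀ ε := by
    intro t ht x hx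
    have h1 : dist t 0 < δ := by
      rw [Real.dist_eq, sub_zero, abs_of_nonneg ht.1]
      linarith [ht.2, min_le_left (δ / 2) (ε / 2 / (L + 1))]
    have h2 := hδ' h1
    rw [UX_zero] at h2
    have h3 := dist_triangle (UX t x) (UX t v₀) v₀
    rw [UX_dist] at h3
    rw [mem_closedBall] at hx ⊢
    linarith
  have hPL : IsPicardLindelof (FX hk m) (tmin := 0) (tmax := τ) ⟨0, le_rfl, hτ0.le⟩ v₀
      ⟨ε / 2, (half_pos hε).le⟩ 0 ⟨L, hL0⟩ K := by
    refine ⟨fun t ht => LipschitzOnWith.of_dist_le_mul fun x hx y hy => ?_,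
      fun x _ => ?_, fun t ht x hx => ?_, ?_⟩
    · rw [FX, FX, dist_smul₀, UX_dist, norm_neg, norm_I, one_mul, ← UX_dist t x y]
      exact hK.dist_le_mul _ (hεW (hin t ht x hx)) _ (hεW (hin t ht y hy))
    · have h1 : Continuous fun t : ℝ => NX hk m (UX t x) :=
        (contDiff_NX hk m).continuous.comp (UX_cont1 x)
      exact ((UX_cont.comp (continuous_neg.prodMk h1)).const_smul (-I)).continuousOn
    · rw [FX, norm_smul, UX_norm, norm_neg, norm_I, one_mul]
      have h1 := hK.dist_le_mul _ (hεW (hin t ht x hx)) _ (mem_of_mem_nhds hW)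
      have h2 := mem_closedBall.mp (hin t ht x hx)
      have h3 := norm_le_norm_add_norm_sub' (NX hk m (UX t x)) (NX hk m v₀)
      rw [← dist_eq_norm] at h3
      have h4 := mul_le_mul_of_nonneg_left h2 K.2
      change _ ≤ L
      change (K : ℝ) * _ ≤ (K : ℝ) * _ at h4
      linarith
    · change L * max (τ - 0) (0 - 0) ≤ ε / 2 - 0
      rw [sub_zero, sub_zero, sub_zero, max_eq_left hτ0.le]
      have h1 : τ ≤ ε / 2 / (L + 1) := min_le_right _ _
      rw [le_div_iff₀ (by positivity)] at h1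
      nlinarith
  obtain ⟨v, h0, hv⟩ := hPL.exists_eq_forall_mem_Icc_hasDerivWithinAt₀
  exact ⟨τ, v, hτ0, h0, hv⟩

theorem lifespan_pos (hk : 6 < k) (m : ℕ) {c : Z12 → ℂ}
    (hc : Summable fun n => jb n ^ (2 * k) * ‖c n‖ ^ 2) :
    0 < lifespan (2 * m + 1) k (syn c) := by
  let v₀ : L2 := ⟨fun n => ((jb n ^ k : ℝ) : ℂ) * c n, mem2 (hc.congr fun n => by
    rw [norm_mul, norm_real, Real.norm_of_nonneg (pow_pos (jb_pos n) k).le]
    ring)⟩
  have hv₀ : dn k v₀ = c := funext fun n => dn_up k n _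
  obtain ⟨τ, v, hτ, h0, hv⟩ := exists_loc hk m v₀
  have hco : ∀ b : L2, coef (synX hk b) = dn k b := fun b =>
    funext fun n => coef_syn (dn_l1 hk b).1 n
  have hw : ContinuousOn (fun t => UX t (v t)) (Icc 0 τ) :=
    UX_cont.comp_continuousOn (continuousOn_id.prodMk fun t ht => (hv t ht).continuousWithinAt)
  have hsol : IsSol (2 * m + 1) k τ (syn c) fun t => synX hk (UX t (v t)) := by
    refine ⟨fun t _ => ⟨cont_memLp _, ?_⟩, fun t ht => ?_, ?_, fun t ht n => ?_⟩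
    · simpa only [hco, up_dn2] using (hs2 _).summable
    · have h1 := (hw t (Ico_subset_Icc_self ht)).mono Ico_subset_Icc_self
      rw [ContinuousWithinAt, tendsto_iff_norm_sub_tendsto_zero] at h1
      refine h1.congr fun s => ?_
      rw [← ContinuousMap.coe_sub, ← map_sub, normH]
      simp only [hco, up_dn2, (hs2 _).tsum_eq, Real.sqrt_sq (norm_nonneg _)]
    · simp only [UX_zero, h0, synX_apply, hv₀]
      rfl
    · have h1 : HasDerivAt v (FX hk m t (v t)) t :=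
        (hv t (Ioo_subset_Icc_self ht)).hasDerivAt (Icc_mem_nhds ht.1 ht.2)
      have h2 : HasDerivAt (fun s => v s n) (FX hk m t (v t) n) t :=
        (lp.evalCLM ℝ (fun _ : Z12 => ℂ) 2 n).hasFDerivAt.comp_hasDerivAt t h1
      have h3 : HasDerivAt (fun s : ℝ => ph s n) (ph t n * (-I * nsq n)) t := by
        have := ((hasDerivAt_id (t : ℂ)).const_mul (-I * nsq n)).cexp.comp_ofReal
        simpa [ph] using this
      refine ⟨_, by
        simp only [hco]
        exact (h3.mul h2).const_mul (((jb n ^ k)⁻¹ : ℝ) : ℂ), ?_⟩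
      have h4 := coef_nonlin (dn_l1 hk (UX t (v t))).1 m (f := synX hk (UX t (v t)))
        (Eventually.of_forall fun _ => rfl) n
      beta_reduce
      rw [h4, ← dn_NX hk, hco]
      have e : ph t n * ph (-t) n = 1 := by
        rw [ph, ph, ← exp_add]
        simp
      simp only [dn, FX, lp.coeFn_smul, Pi.smul_apply, smul_eq_mul, UX_apply]
      generalize (((jb n ^ k)⁻¹ : ℝ) : ℂ) = J
      generalize NX hk m (UX t (v t)) n = N
      linear_combination (-(J * ph t n * nsq n * v t n) - J * ph t n * ph (-t) n * N) * I_sq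
        + J * N * e
  exact lt_of_lt_of_le (ENNReal.ofReal_pos.mpr hτ)
    (le_iSup₂ (f := fun (T : ℝ) (_ : ∃ u, IsSol (2 * m + 1) k T (syn c) u) => ENNReal.ofReal T)
      τ ⟨_, hsol⟩)

end P139S
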