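import Vale.Agent.P139.SGauss
import Vale.Agent.P139.SLoc

/-! P139 part S: from an open set of data without solution to the probabilistic statement. -/

open Complex Set Filter Topology MeasureTheory ProbabilityTheory
open scoped ENNReal NNReal

noncomputable section
namespace P139S

open P139 (Z12 wA OpenNoSol)

universe u

theorem S_event {m : ℕ} (h : OpenNoSol m) : ∃ α₁ T₀ : ℝ, ∀ α : ℝ, α₁ < α → ∀ v : ℝ≥0, v ≠ 0 →
    ∀ (Ω : Type u) [MeasurableSpace Ω] (P : Measure Ω) [IsProbabilityMeasure P]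
      (g : (Fin 12 → ℤ) → Ω → ℂ), IID P v g →
      ∃ A : Set Ω, MeasurableSet A ∧ 0 < P A ∧ ∀ ω ∈ A, ∀ k : ℕ, 6 < k →
        ((k : ℝ) < α - 6 → 0 < lifespan (2 * m + 1) k (datum α fun n => g n ω)) ∧
        lifespan (2 * m + 1) k (datum α fun n => g n ω) ≤ ENNReal.ofReal T₀ := by
  obtain ⟨K, c₀, ρ, T, hρ, hT, hc₀, hno⟩ := h
  refine ⟨K + 19, T, fun α hα v hv Ω _ P _ g hg => ?_⟩
  obtain ⟨A, hA, hPA, hAω⟩ := small_ball hv hg hρ hc₀ hα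
  have h1 : ∀ᵐ ω ∂P, ∀ k : ℕ, (k : ℝ) < α - 6 →
      Summable fun n => jb n ^ (2 * k) * ‖g n ω * ((jb n ^ (-α) : ℝ) : ℂ)‖ ^ 2 :=
    ae_all_iff.mpr fun k => by
      by_cases hk : (k : ℝ) < α - 6
      · exact (ae_memH hg hk).mono fun ω hω _ => hω
      · exact Eventually.of_forall fun ω hω => absurd hω hk
  obtain ⟨N, hN1, hN2, hN3⟩ := exists_measurable_superset_of_null (ae_iff.mp h1)
  refine ⟨A \ N, hA.diff hN2, by rwa [measure_sdiff_null hN3], fun ω hω k hk => ?_⟩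
  obtain ⟨hs, hlt⟩ := hAω ω hω.1
  have hl1 : Summable fun n => ‖g n ω * ((jb n ^ (-α) : ℝ) : ℂ)‖ := by
    refine Summable.of_nonneg_of_le (fun _ => norm_nonneg _) (fun n => ?_) (hs.add hc₀)
    have h2 := norm_le_norm_sub_add (g n ω * ((jb n ^ (-α) : ℝ) : ℂ)) (c₀ n)
    have h3 := le_mul_of_one_le_left
      (norm_nonneg (g n ω * ((jb n ^ (-α) : ℝ) : ℂ) - c₀ n)) (one_le_wA K n)
    have h4 := le_mul_of_one_le_left (norm_nonneg (c₀ n)) (one_le_wA K n)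
    linarith
  rw [datum_eq hl1]
  refine ⟨fun hkα => lifespan_pos hk m ?_, iSup₂_le fun T' hu => ?_⟩
  · by_contra hns
    exact hω.2 (hN1 fun h => hns (h k hkα))
  · obtain ⟨u, hu⟩ := hu
    by_contra hlt'
    have hT' : T ≤ T' := by
      by_contra h2
      exact hlt' (ENNReal.ofReal_le_ofReal (not_le.mp h2).le)
    exact hno _ hs hlt _ (asol_of_isSol hk hT' hl1 hu)

theorem supercrit {m : ℕ} (hm : 1 ≤ m) : 1 < (12 : ℝ) / 2 - 2 / (((2 * m + 1 : ℕ) : ℝ) - 1) := by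
  have h : (1 : ℝ) ≤ m := by exact_mod_cast hm
  have h2 : (2 : ℝ) / (((2 * m + 1 : ℕ) : ℝ) - 1) ≤ 1 := by
    rw [div_le_one (by push_cast; linarith)]
    push_cast
    linarith
  linarith

theorem S_notQ1 {m : ℕ} (hm : 1 ≤ m) (h : OpenNoSol m) : ¬ Q1 := by
  intro hQ
  obtain ⟨α₀, h0⟩ := hQ 12 (2 * m + 1) (by norm_num) ⟨m, rfl⟩ (by omega)
    (by exact_mod_cast supercrit hm)
  obtain ⟨α₁, T₀, h1⟩ := S_event.{0} h
  have h2 := h0 (max α₀ α₁ + 1) (by linarith [le_max_left α₀ α₁]) _ _ _ (exists_iid (1 / 2))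
  obtain ⟨A, -, hPA, hA⟩ := h1 (max α₀ α₁ + 1) (by linarith [le_max_right α₀ α₁]) (1 / 2)
    (by norm_num) _ _ _ (exists_iid (1 / 2))
  refine hPA.ne' (measure_mono_null (fun ω hω => ?_) (ae_iff.mp h2))
  rintro ⟨k, hk, hk'⟩
  have hk6 : 6 < k := by
    have : (6 : ℝ) < k := by
      push_cast at hk
      linarith
    exact_mod_cast this
  have := (hA ω hω k hk6).2
  rw [hk', top_le_iff] at this
  exact ENNReal.ofReal_ne_top this

theorem S_main (h : ∀ M : ℕ, ∃ m, M ≤ m ∧ 1 ≤ m ∧ OpenNoSol m) :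
    ¬ Q1 ∧ ∀ M : ℕ, ∃ p : ℕ, M ≤ p ∧ Odd p ∧ 3 ≤ p ∧
    1 < (12 : ℝ) / 2 - 2 / ((p : ℝ) - 1) ∧ ∃ α₁ T₀ : ℝ, ∀ α : ℝ, α₁ < α → ∀ v : ℝ≥0, v ≠ 0 →
      ∀ (Ω : Type u) [MeasurableSpace Ω] (P : Measure Ω) [IsProbabilityMeasure P]
        (g : (Fin 12 → ℤ) → Ω → ℂ), IID P v g →
        ∃ A : Set Ω, MeasurableSet A ∧ 0 < P A ∧ ∀ ω ∈ A, ∀ k : ℕ, 6 < k →
          ((k : ℝ) < α - 6 → 0 < lifespan p k (datum α fun n => g n ω)) ∧
          lifespan p k (datum α fun n => g n ω) ≤ ENNReal.ofReal T₀ := by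
  refine ⟨?_, fun M => ?_⟩
  · obtain ⟨m, -, hm, hno⟩ := h 0
    exact S_notQ1 hm hno
  · obtain ⟨m, hM, hm, hno⟩ := h M
    exact ⟨2 * m + 1, by omega, ⟨m, rfl⟩, by omega, supercrit hm, S_event hno⟩

end P139S
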