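import Vale.Agent.P139.TMain
import Vale.Agent.P139.RMain
import Vale.Agent.P139.MFin
import Vale.Agent.P139.PMain
import Vale.Agent.P139.MIMain
import Vale.Agent.P139.SMain

namespace P139

theorem final_of (h : PartMI) (M : ℕ) : ∃ m, M ≤ m ∧ 1 ≤ m ∧ OpenNoSol m :=
  open_nosol h partP s_partM partR partLT2 M

end P139
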