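import Vale.Agent.P139.LDefs

/-! P139 L: derivative of a mild solution at time zero; eigenvectors give mild solutions. -/

open Complex Set Filter Topology MeasureTheory
open scoped ComplexConjugate Laplacian

noncomputable section
namespace P139

variable {X : Type} [NormedAddCommGroup X] [NormedSpace ℝ X] [CompleteSpace X]

theorem C0.Mild.deriv0 {G : C0 X} {V : X →L[ℝ] X} {T : ℝ} {φ : ℝ → X} (h : G.Mild V T φ)
    (hT : 0 < T) :
    HasDerivWithinAt (fun t => φ t - G.S t (φ 0)) (V (φ 0)) (Icc 0 T) 0 := by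
  set ψ : ℝ → X := fun s => φ (projIcc 0 T hT.le s) with hψ
  have hψc : Continuous ψ := h.1.comp_continuous
    (continuous_subtype_val.comp continuous_projIcc) fun s => (projIcc 0 T hT.le s).2
  have hψe : ∀ s ∈ Icc (0 : ℝ) T, ψ s = φ s := fun s hs => by
    simp only [hψ, projIcc_of_mem hT.le hs]
  have hk : Continuous fun s => G.S (-s) (V (ψ s)) :=
    G.cont.comp (f := fun s : ℝ => (-s, V (ψ s))) (continuous_neg.prodMk (V.continuous.comp hψc))
  have hb := (hk.integral_hasStrictDerivAt 0 0).hasDerivAt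
  have h00 : (0 : ℝ) ∈ Icc (0 : ℝ) T := ⟨le_rfl, hT.le⟩
  rw [neg_zero, G.zero, hψe 0 h00] at hb
  have h1 : HasDerivAt (fun t => G.S t (∫ s in (0 : ℝ)..t, G.S (-s) (V (ψ s)))) (V (φ 0)) 0 := by
    rw [hasDerivAt_iff_tendsto_slope] at hb ⊢
    have h2 : Tendsto (fun t : ℝ => t) (𝓝[≠] 0) (𝓝 0) := tendsto_id.mono_left nhdsWithin_le_nhds
    have h3 := (G.cont.tendsto (0, V (φ 0))).comp (h2.prodMk_nhds hb)
    rw [G.zero] at h3
    refine h3.congr fun t => ?_
    simp only [Function.comp, slope, vsub_eq_sub, map_smul, intervalIntegral.integral_same,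
      map_zero, sub_zero]
  have he : ∀ t ∈ Icc (0 : ℝ) T,
      φ t - G.S t (φ 0) = G.S t (∫ s in (0 : ℝ)..t, G.S (-s) (V (ψ s))) := by
    intro t ht
    rw [h.2 t ht, add_sub_cancel_left,
      ← (G.S t).intervalIntegral_comp_comm (hk.intervalIntegrable _ _)]
    refine intervalIntegral.integral_congr fun s hs => ?_
    rw [uIcc_of_le ht.1] at hs
    rw [← G.add, hψe s ⟨hs.1, hs.2.trans ht.2⟩, sub_eq_add_neg]
  exact h1.hasDerivWithinAt.congr he (he 0 h00)

theorem C0.mild_eig (G : C0 X) (V : X →L[ℝ] X) {z g : X} {lam : ℝ}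
    (hg : HasDerivAt (fun r => G.S r z) g 0) (he : g + V z = lam • z) (T : ℝ) :
    G.Mild V T fun τ => Real.exp (lam * τ) • z := by
  have hc : Continuous fun τ : ℝ => Real.exp (lam * τ) • z := by fun_prop
  refine ⟨hc.continuousOn, fun τ _ => ?_⟩
  have hd : ∀ s ∈ uIcc (0 : ℝ) τ, HasDerivAt (fun s => Real.exp (lam * s) • G.S (τ - s) z)
      (G.S (τ - s) (V (Real.exp (lam * s) • z))) s := by
    intro s _
    have h1 : HasDerivAt (fun s' : ℝ => s - s') (-1) s := (hasDerivAt_id s).const_sub s
    have h2 : HasDerivAt (fun r => G.S r z) g (s - s) := by rwa [sub_self]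
    have h3 := (G.S (τ - s)).hasFDerivAt.comp_hasDerivAt s (h2.scomp s h1)
    have h4 : HasDerivAt (fun s' => G.S (τ - s') z) (G.S (τ - s) ((-1 : ℝ) • g)) s := by
      refine h3.congr_of_eventuallyEq (Eventually.of_forall fun s' => ?_)
      simp only [Function.comp]
      rw [← G.add, sub_add_sub_cancel]
    have h5 : HasDerivAt (fun s => Real.exp (lam * s)) (Real.exp (lam * s) * lam) s := by
      simpa using ((hasDerivAt_id s).const_mul lam).exp
    refine (h5.smul h4).congr_deriv ?_
    rw [map_smul V, eq_sub_of_add_eq' he, map_smul, map_smul, map_sub, map_smul, smul_sub,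
      smul_smul, smul_smul, mul_neg, mul_one, neg_smul]
    abel
  have hi : Continuous fun s => G.S (τ - s) (V (Real.exp (lam * s) • z)) :=
    G.cont.comp (f := fun s : ℝ => (τ - s, V (Real.exp (lam * s) • z)))
      ((continuous_const.sub continuous_id).prodMk (V.continuous.comp hc))
  rw [intervalIntegral.integral_eq_sub_of_hasDerivAt hd (hi.intervalIntegrable _ _)]
  simp only [sub_self, G.zero, mul_zero, Real.exp_zero, one_smul, sub_zero]
  abel

end P139
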