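import Vale.Agent.P139.XR

/-! P139: strong continuity of dilations and shifts on `XR K l`. -/

open Complex Set Filter Topology MeasureTheory
open scoped ComplexConjugate

noncomputable section
namespace P139

variable {K : ℕ} {l : ℝ}

theorem XContAux_w : Continuous (wR K l).w := by
  show Continuous fun ξ : E => (1 + |l| * ‖ξ‖) ^ K
  fun_prop

theorem XContAux_dense (x : XR K l) {ε : ℝ} (hε : 0 < ε) : ∃ (y : XR K l) (g : E → ℂ) (R : ℝ),
    Continuous g ∧ (∀ a, R ≤ ‖a‖ → g a = 0) ∧ y =ᵐ[volume] g ∧ ‖x - y‖ ≤ ε := by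
  have : IsLocallyFiniteMeasure ((wR K l).msr volume) :=
    IsLocallyFiniteMeasure.withDensity_ofReal XContAux_w
  obtain ⟨g, h1, h2, h3, h4⟩ :=
    (L1.integrable_coeFn x).exists_hasCompactSupport_integral_sub_le hε
  obtain ⟨R, -, hR⟩ := h1.exists_pos_le_norm
  have h5 : MemW volume (wR K l) g := memW_iff.2 (memLp_one_iff_integrable.2 h4)
  refine ⟨toW volume (wR K l) g, g, R, h3, hR, toW_coe h5, ?_⟩
  rw [L1.norm_eq_integral_norm]
  refine le_of_eq_of_le (integral_congr_ae (ae_msr.2 ?_)) h2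
  filter_upwards [XW_sub x (toW volume (wR K l) g), toW_coe h5] with a e1 e2
  rw [e1, e2]

theorem XContAux_at {P : Type} [TopologicalSpace P] {Φ : P → E → ℂ} {s : Set P} {p₀ : P}
    (hs : s ∈ 𝓝 p₀) {R : ℝ} (hc : Continuous Φ.uncurry)
    (h0 : ∀ p ∈ s, ∀ a, R ≤ ‖a‖ → Φ p a = 0) {y : P → XR K l}
    (hy : ∀ p ∈ s, y p =ᵐ[volume] Φ p) : ContinuousAt y p₀ := by
  have hp := mem_of_mem_nhds hs
  have h1 : Continuous (Φ p₀) := hc.comp (Continuous.prodMk_right p₀)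
  have h2 : ContinuousOn (fun p => ∫ a, (wR K l).w a * ‖Φ p a - Φ p₀ a‖) s :=
    continuousOn_integral_of_compact_support (isCompact_closedBall (0 : E) R)
      ((XContAux_w.comp continuous_snd).mul (hc.sub (h1.comp continuous_snd)).norm).continuousOn
      fun p a hp' ha => by
        have h3 : R ≤ ‖a‖ := le_of_lt (by simpa using ha)
        rw [h0 p hp' a h3, h0 p₀ hp a h3, sub_zero, norm_zero, mul_zero]
  have h3 := (h2.continuousAt hs).tendsto
  simp only [sub_self, norm_zero, mul_zero, integral_zero] at h3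
  refine tendsto_iff_norm_sub_tendsto_zero.2 (h3.congr' ?_)
  filter_upwards [hs] with p hp'
  rw [norm_eq_nw]
  refine integral_congr_ae ?_
  filter_upwards [XW_sub (y p) (y p₀), hy p hp', hy p₀ hp] with a e1 e2 e3
  rw [e1, e2, e3]

theorem XContAux_joint {P : Type} [TopologicalSpace P] {T : P → XR K l →L[ℂ] XR K l} {p₀ : P}
    {C : ℝ} (hC : 0 < C) (hb : ∀ᶠ p in 𝓝 p₀, ∀ x, ‖T p x‖ ≤ C * ‖x‖)
    (hd : ∀ (y : XR K l) (g : E → ℂ) (R : ℝ), Continuous g → (∀ a, R ≤ ‖a‖ → g a = 0) →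
      y =ᵐ[volume] g → ContinuousAt (fun p => T p y) p₀) (x₀ : XR K l) :
    ContinuousAt (fun q : P × XR K l => T q.1 q.2) (p₀, x₀) := by
  refine Metric.tendsto_nhds.2 fun ε hε => ?_
  have hδ : 0 < ε / (4 * C) := by positivity
  obtain ⟨y, g, R, h1, h2, h3, h4⟩ := XContAux_dense x₀ hδ
  have h5 := Metric.tendsto_nhds.1 (hd y g R h1 h2 h3) (ε / 4) (by positivity)
  filter_upwards [(hb.and h5).prodMk_nhds (Metric.ball_mem_nhds x₀ hδ)] with q hq
  obtain ⟨⟨a1, a2⟩, a3⟩ := hq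
  have a4 : ‖q.2 - x₀‖ < ε / (4 * C) := by rwa [← dist_eq_norm]
  have e : T q.1 q.2 - T p₀ x₀ =
      T q.1 (q.2 - x₀) + T q.1 (x₀ - y) + (T q.1 y - T p₀ y) - T p₀ (x₀ - y) := by
    simp only [map_sub]
    abel
  have b1 := (a1 (q.2 - x₀)).trans (mul_le_mul_of_nonneg_left a4.le hC.le)
  have b2 := (a1 (x₀ - y)).trans (mul_le_mul_of_nonneg_left h4 hC.le)
  have b3 := (hb.self_of_nhds (x₀ - y)).trans (mul_le_mul_of_nonneg_left h4 hC.le)
  have b4 : C * (ε / (4 * C)) = ε / 4 := by field_simp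
  rw [dist_eq_norm] at a2 ⊢
  rw [e]
  have b5 := norm_sub_le (T q.1 (q.2 - x₀) + T q.1 (x₀ - y) + (T q.1 y - T p₀ y)) (T p₀ (x₀ - y))
  have b6 := norm_add₃_le (a := T q.1 (q.2 - x₀)) (b := T q.1 (x₀ - y)) (c := T q.1 y - T p₀ y)
  linarith

theorem dilOp_cont₂ :
    ContinuousOn (fun p : ℝ × XR K l => dilOp (wR K l) (wR K l) p.1 p.2) (Ioi 0 ×ˢ univ) := by
  rintro ⟨σ, x⟩ hq
  have hσ : 0 < σ := hq.1
  have hs : Ioi (σ / 2) ∈ 𝓝 σ := Ioi_mem_nhds (half_lt_self hσ)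
  refine (XContAux_joint (T := fun σ => dilOp (wR K l) (wR K l) σ) (C := max 1 (σ / 2)⁻¹ ^ K)
    (by positivity) ?_ (fun y g R h1 h2 h3 => ?_) x).continuousWithinAt
  · filter_upwards [hs] with ρ hρ y
    refine (dilOp_same ((half_pos hσ).trans hρ) y).2.trans ?_
    have : ρ⁻¹ ≤ (σ / 2)⁻¹ := inv_anti₀ (half_pos hσ) (le_of_lt hρ)
    gcongr
  · refine XContAux_at (Φ := fun ρ => dilF ρ g) hs (R := |R| / (σ / 2)) ?_ (fun ρ hρ a ha => ?_)
      fun ρ hρ => (dilOp_same ((half_pos hσ).trans hρ) y).1.trans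
        (dilF_congr ((half_pos hσ).trans hρ) h3)
    · show Continuous fun q : ℝ × E => (q.1 : ℂ) ^ 12 * g (q.1 • q.2)
      fun_prop
    · have h4 : σ / 2 < ρ := hρ
      rw [div_le_iff₀ (half_pos hσ)] at ha
      rw [dilF, h2, mul_zero]
      rw [norm_smul, Real.norm_of_nonneg (by linarith)]
      nlinarith [le_abs_self R, norm_nonneg a]

theorem dilOp_cont (x : XR K l) :
    ContinuousOn (fun σ : ℝ => dilOp (wR K l) (wR K l) σ x) (Ioi 0) :=
  ContinuousOn.comp (g := fun p : ℝ × XR K l => dilOp (wR K l) (wR K l) p.1 p.2)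
    (f := fun σ : ℝ => (σ, x)) dilOp_cont₂ (Continuous.prodMk_left x).continuousOn
    fun _ h => ⟨h, mem_univ _⟩

theorem XContAux_sh : Continuous fun p : E × XR K l => shOp volume (wR K l) p.1 p.2 := by
  refine continuous_iff_continuousAt.2 fun ⟨ζ, x⟩ => ?_
  have hw := (wR K l).pos ζ
  refine XContAux_joint (T := fun ζ => shOp volume (wR K l) ζ) (C := (wR K l).w ζ + 1)
    (by positivity) ?_ (fun y g R h1 h2 h3 => ?_) x
  · filter_upwards [XContAux_w.continuousAt.eventually_le_const (lt_add_one ((wR K l).w ζ))]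
      with η hη y
    exact (shOp_spec η y).2.trans (mul_le_mul_of_nonneg_right hη (norm_nonneg _))
  · refine XContAux_at (Φ := fun η a => g (a - η)) (Metric.ball_mem_nhds ζ one_pos)
      (R := R + (‖ζ‖ + 1)) ?_ (fun η hη a ha => h2 _ ?_) fun η _ => (shOp_spec η y).1.trans
        ((measurePreserving_sub_right volume η).quasiMeasurePreserving.ae_eq_comp h3)
    · show Continuous fun q : E × E => g (q.2 - q.1)
      fun_prop
    · linarith [norm_sub_norm_le a η, norm_lt_of_mem_ball hη]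

theorem shOp_cont (x : XR K l) : Continuous fun ζ : E => shOp volume (wR K l) ζ x :=
  Continuous.comp (g := fun p : E × XR K l => shOp volume (wR K l) p.1 p.2)
    (f := fun ζ : E => (ζ, x)) XContAux_sh (Continuous.prodMk_left x)

theorem shOp_zero (x : XR K l) : shOp volume (wR K l) 0 x = x :=
  XW_ext (by simpa only [sub_zero] using (shOp_spec 0 x).1)

theorem shOp_unif {S : Set (XR K l)} (hS : IsCompact S) {δ : ℝ} (hδ : 0 < δ) :
    ∃ ρ : ℝ, 0 < ρ ∧ ∀ x ∈ S, ∀ ζ : E, ‖ζ‖ ≤ ρ → ‖shOp volume (wR K l) ζ x - x‖ ≤ δ := by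
  have h1 : ∀ᶠ ζ in 𝓝 (0 : E), ∀ x ∈ S, ‖shOp volume (wR K l) ζ x - x‖ ≤ δ := by
    refine hS.eventually_forall_of_forall_eventually fun x _ => ?_
    refine (XContAux_sh.fun_sub continuous_snd).norm.continuousAt.eventually_le_const ?_
    simpa only [shOp_zero, sub_self, norm_zero] using hδ
  obtain ⟨ρ, hρ, h⟩ := Metric.nhds_basis_closedBall.eventually_iff.1 h1
  exact ⟨ρ, hρ, fun x hx ζ hζ => h (mem_closedBall_zero_iff.2 hζ) x hx⟩

end P139
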