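import Vale.Agent.P139.XR

/-! P139: cells, piecewise constant extension `cutF` and cell averages `perF`. -/

open Complex Set Filter Topology MeasureTheory
open scoped ComplexConjugate

noncomputable section
namespace P139

variable {h : ℝ} {f g : E → ℂ} {w : Z12 → ℂ} {K : ℕ} {l : ℝ}

theorem measurable_rd : Measurable rd := by
  refine measurable_pi_lambda _ fun i => ?_
  have e : (fun ξ : E => rd ξ i) = fun ξ : E => ⌊ξ i + 1 / 2⌋ := by
    funext ξ
    exact round_eq _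
  rw [e]
  exact Measurable.floor (by fun_prop)

theorem XCutAux_meas (h : ℝ) : Measurable fun ξ : E => rd (h⁻¹ • ξ) :=
  measurable_rd.comp (measurable_const_smul _)

theorem XCutAux_round {x : ℝ} {n : ℤ} : round x = n ↔ (n : ℝ) - 1 / 2 ≤ x ∧ x < n + 1 / 2 := by
  rw [round_eq, Int.floor_eq_iff]
  constructor
  · rintro ⟨h1, h2⟩
    constructor <;> linarith
  · rintro ⟨h1, h2⟩
    constructor <;> linarith

theorem XCutAux_mem (hh : 0 < h) {k : Z12} {ξ : E} :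
    ξ ∈ cell h k ↔ ∀ i, ξ i ∈ Ico (h * (k i - 1 / 2)) (h * (k i + 1 / 2)) := by
  simp only [cell, mem_ofPred_eq, funext_iff, rd, XCutAux_round, PiLp.smul_apply, smul_eq_mul,
    mem_Ico, le_inv_mul_iff₀ hh, inv_mul_lt_iff₀ hh]

theorem measurableSet_cell (h : ℝ) (k : Z12) : MeasurableSet (cell h k) := by
  exact XCutAux_meas h (measurableSet_singleton k)

theorem volume_cell (hh : 0 < h) (k : Z12) : volume (cell h k) = ENNReal.ofReal (h ^ 12) := by
  have e : cell h k = (WithLp.ofLp : E → Fin 12 → ℝ) ⁻¹'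
      (Set.pi univ fun i => Ico (h * (k i - 1 / 2)) (h * (k i + 1 / 2))) := by
    ext ξ
    rw [XCutAux_mem hh]
    simp only [mem_preimage, Set.mem_pi, mem_univ, forall_const]
  rw [e, (PiLp.volume_preserving_ofLp (Fin 12)).measure_preimage
    (MeasurableSet.univ_pi fun i => measurableSet_Ico).nullMeasurableSet, Real.volume_pi_Ico]
  have e2 : ∀ i, h * (k i + 1 / 2) - h * (k i - 1 / 2) = h := fun i => by ring
  simp only [e2, Finset.prod_const, Finset.card_univ, Fintype.card_fin]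
  rw [ENNReal.ofReal_pow hh.le]

theorem mem_cell_self (h : ℝ) (ξ : E) : ξ ∈ cell h (rd (h⁻¹ • ξ)) := rfl

theorem norm_sub_cell (hh : 0 < h) {k : Z12} {ξ : E} (hξ : ξ ∈ cell h k) :
    ‖ξ - h • emb k‖ ≤ 2 * h := by
  rw [XCutAux_mem hh] at hξ
  refine abs_le_of_sq_le_sq' ?_ (by positivity) |>.2
  rw [EuclideanSpace.real_norm_sq_eq]
  have h1 : ∀ i ∈ (Finset.univ : Finset (Fin 12)), (ξ - h • emb k) i ^ 2 ≤ (h / 2) ^ 2 := by
    intro i _
    obtain ⟨h1, h2⟩ := hξ i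
    have e : (ξ - h • emb k) i = ξ i - h * k i := by simp [emb]
    rw [e]
    refine sq_le_sq' ?_ ?_ <;> linarith
  refine (Finset.sum_le_sum h1).trans ?_
  simp only [Finset.sum_const, Finset.card_univ, Fintype.card_fin, nsmul_eq_mul]
  push_cast
  nlinarith [sq_nonneg h]

theorem rd_shift (hh : 0 < h) (ξ : E) (j : Z12) :
    rd (h⁻¹ • (ξ - h • emb j)) = rd (h⁻¹ • ξ) - j := by
  funext i
  have e : (h⁻¹ • (ξ - h • emb j)) i = (h⁻¹ • ξ) i - (j i : ℝ) := by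
    simp only [PiLp.smul_apply, PiLp.sub_apply, smul_eq_mul, emb]
    field_simp
  simp only [rd, Pi.sub_apply]
  rw [e, round_sub_intCast]

theorem rd_neg_ae (hh : 0 < h) : ∀ᵐ ξ : E, rd (h⁻¹ • (-ξ)) = -rd (h⁻¹ • ξ) := by
  have h1 : ∀ᵐ y : Fin 12 → ℝ, ∀ p : Fin 12 × ℤ, y p.1 ≠ h * ((p.2 : ℝ) - 1 / 2) :=
    ae_all_iff.2 fun p => Measure.ae_eval_ne (fun _ : Fin 12 => (volume : Measure ℝ)) p.1 _
  filter_upwards [(PiLp.volume_preserving_ofLp (Fin 12)).quasiMeasurePreserving.ae h1] with ξ hξ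
  have h2 := (XCutAux_mem hh).1 (mem_cell_self h ξ)
  have h3 : -ξ ∈ cell h (-rd (h⁻¹ • ξ)) := by
    rw [XCutAux_mem hh]
    intro i
    obtain ⟨h3, h4⟩ := h2 i
    have h5 := lt_of_le_of_ne h3 (hξ (i, rd (h⁻¹ • ξ) i)).symm
    simp only [PiLp.neg_apply, Pi.neg_apply, Int.cast_neg, mem_Ico]
    constructor <;> linarith
  exact h3

theorem wR_emb (K : ℕ) (l h : ℝ) (k : Z12) : (wR K l).w (h • emb k) = (wZ K (l * h)).w k := by
  simp only [wR, wZ, norm_smul, abs_mul, Real.norm_eq_abs, mul_assoc]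

theorem XCutAux_w {ζ : E} (h1 : ‖ζ‖ ≤ 2 * h) : (wR K l).w ζ ≤ (1 + 2 * |l| * h) ^ K := by
  simp only [wR]
  refine pow_le_pow_left₀ (by positivity) ?_ K
  have := mul_le_mul_of_nonneg_left h1 (abs_nonneg l)
  linarith

theorem cell_wR (hh : 0 < h) {k : Z12} {ξ : E} (hξ : ξ ∈ cell h k) :
    (wR K l).w ξ ≤ (1 + 2 * |l| * h) ^ K * (wZ K (l * h)).w k := by
  have h1 := norm_sub_cell hh hξ
  have h2 := (wR K l).add_le (ξ - h • emb k) (h • emb k)
  rw [sub_add_cancel, wR_emb] at h2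
  exact h2.trans (mul_le_mul_of_nonneg_right (XCutAux_w h1) ((wZ K (l * h)).pos k).le)

theorem cell_wZ (hh : 0 < h) {k : Z12} {ξ : E} (hξ : ξ ∈ cell h k) :
    (wZ K (l * h)).w k ≤ (1 + 2 * |l| * h) ^ K * (wR K l).w ξ := by
  have h1 := norm_sub_cell hh hξ
  rw [norm_sub_rev] at h1
  have h2 := (wR K l).add_le (h • emb k - ξ) ξ
  rw [sub_add_cancel, wR_emb] at h2
  exact h2.trans (mul_le_mul_of_nonneg_right (XCutAux_w h1) ((wR K l).pos ξ).le)

theorem hasSum_cell {V : Type} [NormedAddCommGroup V] [NormedSpace ℝ V] (h : ℝ) {F : E → V}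
    (hF : Integrable F) : HasSum (fun k => ∫ ξ in cell h k, F ξ) (∫ ξ, F ξ) := by
  have h1 := hasSum_integral_iUnion (μ := volume) (f := F) (measurableSet_cell h)
    (fun j k hjk => Set.disjoint_left.2 fun ξ h1 h2 => hjk (h1.symm.trans h2)) hF.integrableOn
  have e : ⋃ k, cell h k = univ := eq_univ_of_forall fun ξ => mem_iUnion.2 ⟨_, mem_cell_self h ξ⟩
  rwa [e, Measure.restrict_univ] at h1

theorem XCutAux_map (hh : 0 < h) : Measure.map (fun ξ : E => rd (h⁻¹ • ξ)) volume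
    = ENNReal.ofReal (h ^ 12) • (Measure.count : Measure Z12) := by
  refine Measure.ext_of_singleton fun k => ?_
  rw [Measure.map_apply (XCutAux_meas h) (measurableSet_singleton k), Measure.smul_apply,
    Measure.count_singleton, smul_eq_mul, mul_one]
  exact volume_cell hh k

theorem XCutAux_nh (hh : 0 < h) : ‖((h : ℂ) ^ 12)⁻¹‖ = (h ^ 12)⁻¹ := by
  rw [norm_inv, norm_pow, Complex.norm_real, Real.norm_of_nonneg hh.le]

theorem XCutAux_cutm (h : ℝ) (w : Z12 → ℂ) : AEStronglyMeasurable (cutF h w) volume :=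
  (((measurable_of_countable w).comp (XCutAux_meas h)).const_mul _).aestronglyMeasurable

theorem XCutAux_cut {ω₁ : Wt Z12} {ω₂ : Wt E} {C : ℝ} (hh : 0 < h)
    (hw : MemW Measure.count ω₁ w) (hg : AEStronglyMeasurable g volume)
    (hb : ∀ ξ, ω₂.w ξ * ‖g ξ‖
      ≤ C * ((h ^ 12)⁻¹ * (ω₁.w (rd (h⁻¹ • ξ)) * ‖w (rd (h⁻¹ • ξ))‖))) :
    MemW volume ω₂ g ∧ nw volume ω₂ g ≤ C * nw Measure.count ω₁ w := by
  have hm : AEStronglyMeasurable (fun k => ω₁.w k * ‖w k‖)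
      (Measure.map (fun ξ : E => rd (h⁻¹ • ξ)) volume) :=
    (measurable_of_countable _).aestronglyMeasurable
  have h1 : Integrable fun ξ : E => ω₁.w (rd (h⁻¹ • ξ)) * ‖w (rd (h⁻¹ • ξ))‖ := by
    refine (integrable_map_measure hm (XCutAux_meas h).aemeasurable).1 ?_
    rw [XCutAux_map hh]
    exact hw.2.smul_measure ENNReal.ofReal_ne_top
  have h2 : ∫ ξ : E, ω₁.w (rd (h⁻¹ • ξ)) * ‖w (rd (h⁻¹ • ξ))‖ = h ^ 12 * nw Measure.count ω₁ w := by
    rw [← integral_map (XCutAux_meas h).aemeasurable hm, XCutAux_map hh, integral_smul_measure,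
      ENNReal.toReal_ofReal (by positivity), smul_eq_mul]
    rfl
  have h3 := (h1.const_mul (h ^ 12)⁻¹).const_mul C
  have h4 : Integrable fun ξ => ω₂.w ξ * ‖g ξ‖ := by
    refine h3.mono' (ω₂.meas.aestronglyMeasurable.mul hg.norm) (Eventually.of_forall fun ξ => ?_)
    rw [Real.norm_of_nonneg (mul_nonneg (ω₂.pos ξ).le (norm_nonneg _))]
    exact hb ξ
  refine ⟨⟨hg, h4⟩, (integral_mono h4 h3 hb).trans (le_of_eq ?_)⟩
  rw [integral_const_mul, integral_const_mul, h2, inv_mul_cancel_left₀ (by positivity)]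

theorem MemW.cut {ω₁ : Wt Z12} {ω₂ : Wt E} {C : ℝ} (hh : 0 < h)
    (hω : ∀ k, ∀ ξ ∈ cell h k, ω₂.w ξ ≤ C * ω₁.w k) (hw : MemW Measure.count ω₁ w) :
    MemW volume ω₂ (cutF h w) ∧ nw volume ω₂ (cutF h w) ≤ C * nw Measure.count ω₁ w := by
  refine XCutAux_cut hh hw (XCutAux_cutm h w) fun ξ => ?_
  unfold cutF
  rw [norm_mul, XCutAux_nh hh]
  have h1 := mul_le_mul_of_nonneg_right (hω _ ξ (mem_cell_self h ξ))
    (by positivity : 0 ≤ (h ^ 12)⁻¹ * ‖w (rd (h⁻¹ • ξ))‖)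
  linarith

theorem cutOp_spec {ω₁ : Wt Z12} {ω₂ : Wt E} {C : ℝ} (hh : 0 < h)
    (hω : ∀ k, ∀ ξ ∈ cell h k, ω₂.w ξ ≤ C * ω₁.w k) (x : XW Measure.count ω₁) :
    cutOp ω₁ ω₂ h x =ᵐ[volume] cutF h x ∧ ‖cutOp ω₁ ω₂ h x‖ ≤ C * ‖x‖ := by
  refine liftOp_spec (fun f g _ hfg => ?_) (fun f g _ _ => ?_) (fun c f _ => ?_)
    (fun f hf => hf.cut hh hω) x
  · rw [show f = g from funext (ae_count.1 hfg)]
  · exact Eventually.of_forall fun ξ => mul_add _ _ _
  · exact Eventually.of_forall fun ξ => mul_left_comm _ _ _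

theorem XCutAux_per {ω₁ : Wt E} {ω₂ : Wt Z12} {C : ℝ} {G : Z12 → E → ℂ} (hf : MemW volume ω₁ f)
    (hb : ∀ k, ∀ ξ ∈ cell h k, ω₂.w k * ‖G k ξ‖ ≤ C * (ω₁.w ξ * ‖f ξ‖)) :
    MemW Measure.count ω₂ (fun k => ∫ ξ in cell h k, G k ξ) ∧
      nw Measure.count ω₂ (fun k => ∫ ξ in cell h k, G k ξ) ≤ C * nw volume ω₁ f := by
  have h1 := hasSum_cell h (hf.2.const_mul C)
  have h2 : ∀ k, ω₂.w k * ‖∫ ξ in cell h k, G k ξ‖ ≤ ∫ ξ in cell h k, C * (ω₁.w ξ * ‖f ξ‖) := by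
    intro k
    have e : ω₂.w k * ‖∫ ξ in cell h k, G k ξ‖ = ‖∫ ξ in cell h k, ω₂.w k • G k ξ‖ := by
      rw [integral_smul, norm_smul, Real.norm_of_nonneg (ω₂.pos k).le]
    rw [e]
    refine norm_integral_le_of_norm_le (hf.2.const_mul C).integrableOn ?_
    filter_upwards [ae_restrict_mem (measurableSet_cell h k)] with ξ hξ
    rw [norm_smul, Real.norm_of_nonneg (ω₂.pos k).le]
    exact hb k ξ hξ
  have h3 : Summable fun k => ω₂.w k * ‖∫ ξ in cell h k, G k ξ‖ :=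
    Summable.of_nonneg_of_le (fun k => mul_nonneg (ω₂.pos k).le (norm_nonneg _)) h2 h1.summable
  refine ⟨memW_count.2 h3, ?_⟩
  rw [nw_count]
  refine (h3.tsum_le_tsum h2 h1.summable).trans (le_of_eq ?_)
  rw [h1.tsum_eq, integral_const_mul]
  rfl

theorem MemW.per {ω₁ : Wt E} {ω₂ : Wt Z12} {C : ℝ}
    (hω : ∀ k, ∀ ξ ∈ cell h k, ω₂.w k ≤ C * ω₁.w ξ) (hf : MemW volume ω₁ f) :
    MemW Measure.count ω₂ (perF h f) ∧ nw Measure.count ω₂ (perF h f) ≤ C * nw volume ω₁ f := by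
  exact XCutAux_per (G := fun _ => f) hf fun k ξ hξ => by
    rw [← mul_assoc]
    exact mul_le_mul_of_nonneg_right (hω k ξ hξ) (norm_nonneg _)

theorem perOp_spec {ω₁ : Wt E} {ω₂ : Wt Z12} {C : ℝ}
    (hω : ∀ k, ∀ ξ ∈ cell h k, ω₂.w k ≤ C * ω₁.w ξ) (x : XW volume ω₁) :
    (∀ k, perOp ω₁ ω₂ h x k = perF h x k) ∧ ‖perOp ω₁ ω₂ h x‖ ≤ C * ‖x‖ := by
  have h1 := liftOp_spec (μ := volume) (ν := Measure.count) (ω := ω₁) (ω' := ω₂) (Φ := perF h)
    (C := C) (fun f g _ hfg => ?_) (fun f g hf hg => ?_) (fun c f _ => ?_)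
    (fun f hf => hf.per hω) x
  · exact ⟨ae_count.1 h1.1, h1.2⟩
  · exact Eventually.of_forall fun k => integral_congr_ae (ae_restrict_of_ae hfg)
  · exact Eventually.of_forall fun k =>
      integral_add hf.integrable.integrableOn hg.integrable.integrableOn
  · exact Eventually.of_forall fun k => integral_const_mul _ _

theorem perF_congr (hfg : f =ᵐ[volume] g) : perF h f = perF h g := by
  funext k
  exact integral_congr_ae (ae_restrict_of_ae hfg)

theorem perF_add (hf : Integrable f) (hg : Integrable g) (k : Z12) :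
    perF h (fun ξ => f ξ + g ξ) k = perF h f k + perF h g k := by
  exact integral_add hf.integrableOn hg.integrableOn

theorem perF_sub (hf : Integrable f) (hg : Integrable g) (k : Z12) :
    perF h (fun ξ => f ξ - g ξ) k = perF h f k - perF h g k := by
  exact integral_sub hf.integrableOn hg.integrableOn

theorem perF_const_mul (c : ℂ) (f : E → ℂ) (k : Z12) :
    perF h (fun ξ => c * f ξ) k = c * perF h f k := by
  exact integral_const_mul _ _

theorem perF_sum {ι : Type} (s : Finset ι) {F : ι → E → ℂ} (hF : ∀ i ∈ s, Integrable (F i))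
    (k : Z12) : perF h (fun ξ => ∑ i ∈ s, F i ξ) k = ∑ i ∈ s, perF h (F i) k := by
  exact integral_finsetSum s fun i hi => (hF i hi).integrableOn

theorem perF_cutF (hh : 0 < h) (w : Z12 → ℂ) : perF h (cutF h w) = w := by
  funext k
  unfold perF
  rw [setIntegral_congr_fun (g := fun _ => ((h : ℂ) ^ 12)⁻¹ * w k) (measurableSet_cell h k)
    fun ξ hξ => by
      have e : rd (h⁻¹ • ξ) = k := hξ
      simp only [cutF, e]]
  rw [setIntegral_const, measureReal_def, volume_cell hh, ENNReal.toReal_ofReal (by positivity),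
    Complex.real_smul]
  have h1 : (h : ℂ) ≠ 0 := by exact_mod_cast hh.ne'
  push_cast
  field_simp

theorem cutF_st (hh : 0 < h) (w : Z12 → ℂ) : cutF h (stF w) =ᵐ[volume] stF (cutF h w) := by
  filter_upwards [rd_neg_ae hh] with ξ hξ
  simp only [cutF, stF, hξ, map_mul, map_inv₀, map_pow, conj_ofReal]

theorem perF_st (hh : 0 < h) (f : E → ℂ) : perF h (stF f) = stF (perF h f) := by
  funext k
  simp only [perF, stF]
  rw [integral_conj, ← integral_indicator (measurableSet_cell h k),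
    ← integral_indicator (measurableSet_cell h (-k)), ← integral_neg_eq_self]
  congr 1
  refine integral_congr_ae ?_
  filter_upwards [rd_neg_ae hh] with ξ hξ
  have e : -ξ ∈ cell h k ↔ ξ ∈ cell h (-k) := by
    simp only [cell, mem_ofPred_eq, hξ, neg_eq_iff_eq_neg]
  by_cases h1 : ξ ∈ cell h (-k)
  · rw [indicator_of_mem h1, indicator_of_mem (e.2 h1), neg_neg]
  · rw [indicator_of_notMem h1, indicator_of_notMem fun h2 => h1 (e.1 h2)]

theorem perF_dil (hh : 0 < h) {σ : ℝ} (hσ : 0 < σ) (f : E → ℂ) :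
    perF h (dilF σ f) = perF (h * σ) f := by
  funext k
  simp only [perF]
  rw [← integral_indicator (measurableSet_cell h k),
    ← integral_indicator (measurableSet_cell (h * σ) k)]
  have e : ∀ ξ : E, (cell h k).indicator (dilF σ f) ξ
      = (σ : ℂ) ^ 12 * (cell (h * σ) k).indicator f (σ • ξ) := by
    intro ξ
    have e1 : (h * σ)⁻¹ • σ • ξ = h⁻¹ • ξ := by
      rw [smul_smul]
      congr 1
      field_simp
    have e2 : σ • ξ ∈ cell (h * σ) k ↔ ξ ∈ cell h k := by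
      simp only [cell, mem_ofPred_eq, e1]
    by_cases h1 : ξ ∈ cell h k
    · rw [indicator_of_mem h1, indicator_of_mem (e2.2 h1)]
      rfl
    · rw [indicator_of_notMem h1, indicator_of_notMem fun h2 => h1 (e2.1 h2), mul_zero]
  simp only [e]
  rw [integral_const_mul, Measure.integral_comp_smul_of_nonneg volume _ σ (hR := hσ.le),
    finrank_euclideanSpace_fin, Complex.real_smul]
  have h1 : (σ : ℂ) ≠ 0 := by exact_mod_cast hσ.ne'
  push_cast
  field_simp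

theorem tsum_perF (hf : Integrable f) : ∑' k, perF h f k = ∫ ξ, f ξ := by
  exact (hasSum_cell h hf).tsum_eq

/-- commutator of `perF` with multipliers -/
theorem per_comm {ω₁ : Wt E} {ω₂ : Wt Z12} {φ : E → ℂ} {ψ : Z12 → ℂ} {η B : ℝ}
    (hφ : AEStronglyMeasurable φ volume) (hB : ∀ ξ, ‖φ ξ‖ ≤ B)
    (hω : ∀ k, ∀ ξ ∈ cell h k, ‖φ ξ - ψ k‖ * ω₂.w k ≤ η * ω₁.w ξ) (hf : MemW volume ω₁ f) :
    MemW Measure.count ω₂ (fun k => perF h (fun ξ => φ ξ * f ξ) k - ψ k * perF h f k) ∧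
    nw Measure.count ω₂ (fun k => perF h (fun ξ => φ ξ * f ξ) k - ψ k * perF h f k)
      ≤ η * nw volume ω₁ f := by
  have hi : Integrable fun ξ => φ ξ * f ξ :=
    hf.integrable.bdd_mul hφ (Eventually.of_forall hB)
  have e : (fun k => perF h (fun ξ => φ ξ * f ξ) k - ψ k * perF h f k)
      = fun k => ∫ ξ in cell h k, (φ ξ - ψ k) * f ξ := by
    funext k
    rw [← perF_const_mul, ← perF_sub hi (hf.integrable.const_mul _)]
    simp only [perF, sub_mul]
  rw [e]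
  refine XCutAux_per (G := fun k ξ => (φ ξ - ψ k) * f ξ) hf fun k ξ hξ => ?_
  have h1 := mul_le_mul_of_nonneg_right (hω k ξ hξ) (norm_nonneg (f ξ))
  rw [norm_mul]
  linarith

/-- commutator of `cutF` with multipliers -/
theorem cut_comm {ω₁ : Wt Z12} {ω₂ : Wt E} {φ : E → ℂ} {ψ : Z12 → ℂ} {η : ℝ} (hh : 0 < h)
    (hφ : AEStronglyMeasurable φ volume)
    (hω : ∀ k, ∀ ξ ∈ cell h k, ‖ψ k - φ ξ‖ * ω₂.w ξ ≤ η * ω₁.w k)
    (hw : MemW Measure.count ω₁ w) :
    nw volume ω₂ (fun ξ => cutF h (fun k => ψ k * w k) ξ - φ ξ * cutF h w ξ)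
      ≤ η * nw Measure.count ω₁ w := by
  refine (XCutAux_cut hh hw ((XCutAux_cutm h _).sub (hφ.mul (XCutAux_cutm h w))) fun ξ => ?_).2
  have e : cutF h (fun k => ψ k * w k) ξ - φ ξ * cutF h w ξ
      = ((h : ℂ) ^ 12)⁻¹ * ((ψ (rd (h⁻¹ • ξ)) - φ ξ) * w (rd (h⁻¹ • ξ))) := by
    simp only [cutF]
    ring
  simp only [Pi.sub_apply, Pi.mul_apply]
  rw [e, norm_mul, norm_mul, XCutAux_nh hh]
  have h1 := mul_le_mul_of_nonneg_right (hω _ ξ (mem_cell_self h ξ))
    (by positivity : 0 ≤ (h ^ 12)⁻¹ * ‖w (rd (h⁻¹ • ξ))‖)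
  linarith

end P139
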