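import Vale.Agent.P139.TDefs
import Vale.Agent.P139.XCut
import Vale.Agent.P139.XCont

/-! P139 T: the self-similar family and its discretisation; elementary bounds. -/

open Complex Set Filter Topology MeasureTheory
open scoped ComplexConjugate

noncomputable section
namespace P139

variable {m : ℕ} {P : Prof m}

/-- the discretised self-similar solution in the top norm -/
def FD.bW (F : FD P) (K : ℕ) (l h s : ℝ) : XZ (K + 1) (l * h) :=
  toW Measure.count (wZ (K + 1) (l * h)) (perF h (F.qt s))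

/-- from the top lattice norm to the low continuum norm -/
def cutT (K : ℕ) (l h : ℝ) : XZ (K + 1) (l * h) →L[ℂ] XR K 1 :=
  cutOp (wZ (K + 1) (l * h)) (wR K 1) h

theorem TQtAux_mem {f : E → ℂ} {K : ℕ} (hf : MemW volume (wR K 1) f) (l : ℝ) :
    MemW volume (wR K l) f := by
  refine (hf.of_le (C := max 1 |l| ^ K) hf.1 (Eventually.of_forall fun ξ => ?_)).1
  rw [← mul_assoc]
  refine mul_le_mul_of_nonneg_right (wR_le K (le_max_left _ _) ?_ ξ) (norm_nonneg _)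
  rw [abs_one, mul_one]
  exact le_max_right _ _

theorem TQtAux_three (K : ℕ) {l h : ℝ} (hl : 0 < l) (hl1 : l ≤ 1) (hh : 0 < h) (hh1 : h ≤ 1) :
    (1 + 2 * |l| * h) ^ K ≤ 3 ^ K := by
  refine pow_le_pow_left₀ (by positivity) ?_ K
  rw [abs_of_pos hl]
  nlinarith

theorem TQtAux_cR (K : ℕ) {h : ℝ} (hh : 0 < h) (hh1 : h ≤ 1) {k : Z12} {ξ : E}
    (hξ : ξ ∈ cell h k) : (wR K 1).w ξ ≤ 3 ^ K * (wZ K h).w k := by
  have h1 := cell_wR (K := K) (l := 1) hh hξ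
  rw [one_mul] at h1
  exact h1.trans (mul_le_mul_of_nonneg_right (TQtAux_three K one_pos le_rfl hh hh1)
    ((wZ K h).pos k).le)

theorem TQtAux_wl (K : ℕ) {l h : ℝ} (hl : 0 < l) (hl1 : l ≤ 1) (hh : 0 < h) (k : Z12) :
    (wZ K h).w k ≤ (1 / l) ^ K * (wZ K (l * h)).w k := by
  rw [wZ_eq, wZ_eq]
  refine wR_le K (one_le_one_div hl hl1) (le_of_eq ?_) _
  rw [abs_of_pos hh, abs_of_pos (mul_pos hl hh)]
  field_simp

theorem TQtAux_exp (a b : ℝ) {t : ℝ} (ht : t ∈ Icc (0 : ℝ) 1) :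
    ‖cexp (-I * a * t) - cexp (-I * b * t)‖ ≤ |a - b| := by
  have h1 : cexp (-I * a * t) - cexp (-I * b * t)
      = cexp (-I * b * t) * (cexp (I * ((b - a) * t : ℝ)) - 1) := by
    rw [mul_sub, ← Complex.exp_add, mul_one]
    congr 2
    push_cast
    ring
  rw [h1, norm_mul, XConvAux_exp, one_mul]
  refine Real.norm_exp_I_mul_ofReal_sub_one_le.trans ?_
  rw [Real.norm_eq_abs, abs_mul, abs_sub_comm, abs_of_nonneg ht.1]
  exact mul_le_of_le_one_right (abs_nonneg _) ht.2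

theorem TQtAux_sym {t h : ℝ} (ht : t ∈ Icc (0 : ℝ) 1) (hh : 0 < h) (hh1 : h ≤ 1) {k : Z12}
    {ξ : E} (hξ : ξ ∈ cell h k) :
    ‖cexp (-I * (h ^ 2 * nsq k : ℝ) * t) - cexp (-I * (‖ξ‖ ^ 2 : ℝ) * t)‖
        ≤ 4 * h * (1 + h * ‖emb k‖) ∧
      ‖cexp (-I * (h ^ 2 * nsq k : ℝ) * t) - cexp (-I * (‖ξ‖ ^ 2 : ℝ) * t)‖
        ≤ 4 * h * (1 + ‖ξ‖) := by
  have h0 := TQtAux_exp (h ^ 2 * nsq k) (‖ξ‖ ^ 2) ht
  have hn : 0 ≤ nsq k := Finset.sum_nonneg fun _ _ => sq_nonneg _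
  have h1 : h ^ 2 * nsq k = (h * ‖emb k‖) ^ 2 := by rw [mul_pow, norm_emb, Real.sq_sqrt hn]
  have h2 : ‖h • emb k‖ = h * ‖emb k‖ := by rw [norm_smul, Real.norm_eq_abs, abs_of_pos hh]
  have h3 : |‖ξ‖ - h * ‖emb k‖| ≤ 2 * h := by
    rw [← h2]
    exact (abs_norm_sub_norm_le _ _).trans (norm_sub_cell hh hξ)
  set a : ℝ := h * ‖emb k‖ with ha
  set b : ℝ := ‖ξ‖ with hb
  have ha0 : 0 ≤ a := by positivity
  have hb0 : 0 ≤ b := norm_nonneg _
  have h4 : |h ^ 2 * nsq k - b ^ 2| ≤ 2 * h * (a + b) := by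
    rw [h1, show a ^ 2 - b ^ 2 = -((b - a) * (a + b)) by ring, abs_neg, abs_mul,
      abs_of_nonneg (add_nonneg ha0 hb0)]
    exact mul_le_mul_of_nonneg_right h3 (add_nonneg ha0 hb0)
  obtain ⟨h5, h6⟩ := abs_le.1 h3
  refine ⟨h0.trans (h4.trans ?_), h0.trans (h4.trans ?_)⟩
  · have : a + b ≤ 2 * (1 + a) := by linarith
    nlinarith
  · have : a + b ≤ 2 * (1 + b) := by linarith
    nlinarith

theorem FD.memq' (F : FD P) (K : ℕ) (l : ℝ) : MemW volume (wR K l) F.q := by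
  exact TQtAux_mem (F.memq K) l

theorem FD.memz' (F : FD P) (K : ℕ) (l : ℝ) (i : Md14) : MemW volume (wR K l) (F.z i) := by
  exact TQtAux_mem (F.memz K i) l

theorem FD.mem_qt (F : FD P) (K : ℕ) (l : ℝ) {t : ℝ} (ht : t < 1) :
    MemW volume (wR K l) (F.qt t) := by
  have hσ : 0 < √(1 - t) := Real.sqrt_pos.2 (by linarith)
  exact ((F.memq' K l).dil_same hσ).1.const_mul _

theorem FD.qt_zero (F : FD P) : F.qt 0 = F.q := by
  funext ξ
  simp [FD.qt, dilF_one]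

theorem FD.qt_exp (F : FD P) (τ : ℝ) : F.qt (1 - Real.exp (-τ))
    = fun ξ => cexp (P.aa * τ) * dilF (Real.exp (-τ / 2)) F.q ξ := by
  funext ξ
  have h1 : 1 - (1 - Real.exp (-τ)) = Real.exp (-τ) := by ring
  unfold FD.qt
  rw [h1, Real.log_exp, ← Real.exp_half]
  congr 2
  push_cast
  ring

theorem FD.qW_cont (F : FD P) (K : ℕ) (l : ℝ) : ContinuousOn (F.qW K l) (Iio 1) := by
  have h1 : ContinuousOn (fun t : ℝ => cexp (-P.aa * Real.log (1 - t))) (Iio 1) := by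
    refine Complex.continuous_exp.comp_continuousOn (continuousOn_const.mul ?_)
    refine Complex.continuous_ofReal.comp_continuousOn ?_
    refine ContinuousOn.log (by fun_prop) fun t ht => ?_
    have : t < 1 := ht
    linarith
  have h2 : ContinuousOn (fun t : ℝ => dilOp (wR K l) (wR K l) (√(1 - t))
      (toW volume (wR K l) F.q)) (Iio 1) := by
    refine (dilOp_cont (toW volume (wR K l) F.q)).comp (f := fun t : ℝ => √(1 - t))
      (by fun_prop) fun t ht => ?_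
    have : t < 1 := ht
    exact Real.sqrt_pos.2 (by linarith)
  refine (h1.smul h2).congr fun t ht => ?_
  have ht' : t < 1 := ht
  have hσ : 0 < √(1 - t) := Real.sqrt_pos.2 (by linarith)
  symm
  refine eq_toW ?_
  change ((cexp (-P.aa * Real.log (1 - t)) • dilOp (wR K l) (wR K l) (√(1 - t))
      (toW volume (wR K l) F.q) : XR K l) : E → ℂ) =ᵐ[volume] F.qt t
  rw [dilOp_toW hσ (F.memq' K l)]
  filter_upwards [XW_smul (cexp (-P.aa * Real.log (1 - t)))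
    (toW volume (wR K l) (dilF (√(1 - t)) F.q)),
    toW_coe ((F.memq' K l).dil_same hσ).1] with ξ e1 e2
  rw [e1, e2]
  rfl

theorem FD.int_q (F : FD P) : ∫ ξ, F.q ξ = P.Θ 0 := by
  have h := F.synq 0
  simpa [syn, Prof.Q] using h

theorem FD.bW_coe (F : FD P) (K : ℕ) (l : ℝ) {h s : ℝ} (hh : 0 < h) (hs : s < 1) (k : Z12) :
    F.bW K l h s k = perF h (F.qt s) k := by
  exact ae_count.1 (toW_coe (MemW.per (fun _ _ hξ => cell_wZ hh hξ) (F.mem_qt (K + 1) l hs)).1) k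

theorem TQtAux_bW (F : FD P) (K : ℕ) (l : ℝ) {h s : ℝ} (hh : 0 < h) (hs : s < 1) :
    ‖F.bW K l h s‖ ≤ (1 + 2 * |l| * h) ^ (K + 1) * nw volume (wR (K + 1) l) (F.qt s) := by
  have h1 := MemW.per (ω₂ := wZ (K + 1) (l * h)) (fun _ _ hξ => cell_wZ hh hξ)
    (F.mem_qt (K + 1) l hs)
  unfold FD.bW
  rw [norm_toW h1.1]
  exact h1.2

/-- uniform bounds on `[0,t₁]` -/
theorem FD.unif_bd (F : FD P) (K : ℕ) {t₁ : ℝ} (ht : t₁ < 1) : ∃ R : ℝ, 1 ≤ R ∧
    ∀ s ∈ Icc (0 : ℝ) t₁, ‖F.qW K 1 s‖ ≤ R ∧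
      ∀ l h : ℝ, 0 < l → l ≤ 1 → 0 < h → h ≤ 1 → ‖F.bW K l h s‖ + 1 ≤ R := by
  have hsub : Icc (0 : ℝ) t₁ ⊆ Iio 1 := fun s hs => lt_of_le_of_lt hs.2 ht
  obtain ⟨A, hA⟩ := isCompact_Icc.exists_bound_of_continuousOn ((F.qW_cont K 1).mono hsub)
  obtain ⟨B, hB⟩ := isCompact_Icc.exists_bound_of_continuousOn ((F.qW_cont (K + 1) 1).mono hsub)
  refine ⟨|A| + 3 ^ (K + 1) * |B| + 1, by
    have := abs_nonneg A
    have : (0 : ℝ) ≤ 3 ^ (K + 1) * |B| := by positivity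
    linarith, fun s hs => ⟨?_, fun l h hl hl1 hh hh1 => ?_⟩⟩
  · have h1 := (hA s hs).trans (le_abs_self A)
    have : (0 : ℝ) ≤ 3 ^ (K + 1) * |B| := by positivity
    linarith
  · have hs1 : s < 1 := hsub hs
    have h1 := TQtAux_bW F K l hh hs1
    have h2 : nw volume (wR (K + 1) l) (F.qt s) ≤ 1 * nw volume (wR (K + 1) 1) (F.qt s) := by
      refine ((F.mem_qt (K + 1) 1 hs1).of_le (F.mem_qt (K + 1) 1 hs1).1
        (Eventually.of_forall fun ξ => ?_)).2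
      rw [one_mul]
      refine mul_le_mul_of_nonneg_right (wR_mono le_rfl ?_ ξ) (norm_nonneg _)
      rw [abs_of_pos hl, abs_one]
      exact hl1
    have h3 : nw volume (wR (K + 1) 1) (F.qt s) ≤ |B| := by
      rw [← norm_toW (F.mem_qt (K + 1) 1 hs1)]
      exact (hB s hs).trans (le_abs_self B)
    have h4 : (1 + 2 * |l| * h) ^ (K + 1) ≤ 3 ^ (K + 1) := TQtAux_three _ hl hl1 hh hh1
    have h5 : (1 + 2 * |l| * h) ^ (K + 1) * nw volume (wR (K + 1) l) (F.qt s)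
        ≤ 3 ^ (K + 1) * |B| :=
      mul_le_mul h4 (by linarith) nw_nonneg (by positivity)
    have := abs_nonneg A
    linarith

/-- the growth rate in the top norm does not depend on `K` and `t₁` -/
theorem FD.rate (F : FD P) (hm : 1 ≤ m) (K : ℕ) {t₁ : ℝ} (ht : t₁ < 1) :
    ∃ l h₀ : ℝ, 0 < l ∧ l ≤ 1 ∧ 0 < h₀ ∧ ∀ h : ℝ, 0 < h → h ≤ h₀ → ∀ s ∈ Icc (0 : ℝ) t₁,
      (‖F.bW K l h s‖ + 1) ^ (2 * m) ≤ (2 * (∫ ξ, ‖F.q ξ‖) + 3) ^ (2 * m) / (1 - s) := by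
  obtain ⟨l₀, hl₀, hsm⟩ := nw_small (F.memq (K + 1)) one_pos
  have hm1 : max t₁ 0 < 1 := max_lt ht one_pos
  set σ₁ : ℝ := √(1 - max t₁ 0) with hσ₁
  have hσ₁p : 0 < σ₁ := Real.sqrt_pos.2 (by linarith)
  have hev : ∀ᶠ h : ℝ in 𝓝 0, (1 + 2 * h) ^ (K + 1) < 2 := by
    have hc : Continuous fun h : ℝ => (1 + 2 * h) ^ (K + 1) := by fun_prop
    exact hc.continuousAt.eventually_lt continuousAt_const (by simp)
  obtain ⟨ε, hε, hεb⟩ := Metric.eventually_nhds_iff.1 hev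
  refine ⟨min 1 (l₀ * σ₁), ε / 2, lt_min one_pos (by positivity), min_le_left _ _, by positivity,
    fun h hh hh0 s hs => ?_⟩
  set l : ℝ := min 1 (l₀ * σ₁) with hl
  have hlp : 0 < l := lt_min one_pos (by positivity)
  have hl1 : l ≤ 1 := min_le_left _ _
  have hs1 : s < 1 := lt_of_le_of_lt hs.2 ht
  have h1s : 0 < 1 - s := by linarith
  have hσ : 0 < √(1 - s) := Real.sqrt_pos.2 h1s
  have hσσ : σ₁ ≤ √(1 - s) := Real.sqrt_le_sqrt (by
    have := hs.2.trans (le_max_left t₁ 0)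
    linarith)
  set A : ℝ := ∫ ξ, ‖F.q ξ‖ with hA
  have hA0 : 0 ≤ A := integral_nonneg fun _ => norm_nonneg _
  set e : ℝ := Real.exp (-gam m * Real.log (1 - s)) with he
  have hg : 0 ≤ gam m := by unfold gam; positivity
  have hlog : Real.log (1 - s) ≤ 0 := Real.log_nonpos h1s.le (by linarith [hs.1])
  have he1 : 1 ≤ e := Real.one_le_exp (by nlinarith)
  have hem : e ^ (2 * m) = 1 / (1 - s) := by
    have hm0 : (m : ℝ) ≠ 0 := by
      have : (1 : ℝ) ≤ m := by exact_mod_cast hm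
      linarith
    rw [he, ← Real.exp_nat_mul]
    have : ((2 * m : ℕ) : ℝ) * (-gam m * Real.log (1 - s)) = -Real.log (1 - s) := by
      unfold gam
      push_cast
      field_simp
    rw [this, Real.exp_neg, Real.exp_log h1s, one_div]
  have hc : ‖cexp (-P.aa * Real.log (1 - s))‖ = e := by
    rw [Complex.norm_exp, he]
    congr 1
    simp [Prof.aa]
  have h1 := TQtAux_bW F K l hh hs1
  have h2 : nw volume (wR (K + 1) l) (F.qt s)
      = e * nw volume (wR (K + 1) (l / √(1 - s))) F.q := by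
    rw [← nw_dil hσ F.q, div_mul_cancel₀ _ hσ.ne', ← hc, ← nw_const_mul]
    rfl
  have h3 : nw volume (wR (K + 1) (l / √(1 - s))) F.q ≤ A + 1 := by
    refine hsm _ ?_
    rw [abs_of_pos (by positivity), div_le_iff₀ hσ]
    exact (min_le_right _ _).trans (mul_le_mul_of_nonneg_left hσσ hl₀.le)
  have h4 : (1 + 2 * |l| * h) ^ (K + 1) ≤ 2 := by
    have h5 : (1 + 2 * h) ^ (K + 1) < 2 := hεb (by
      rw [Real.dist_eq, sub_zero, abs_of_pos hh]
      linarith)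
    refine le_trans (pow_le_pow_left₀ (by positivity) ?_ _) h5.le
    rw [abs_of_pos hlp]
    nlinarith
  have h6 : (1 + 2 * |l| * h) ^ (K + 1) * nw volume (wR (K + 1) l) (F.qt s)
      ≤ 2 * (e * (A + 1)) := by
    refine mul_le_mul h4 ?_ nw_nonneg (by norm_num)
    rw [h2]
    exact mul_le_mul_of_nonneg_left h3 (by linarith)
  have h7 : ‖F.bW K l h s‖ + 1 ≤ e * (2 * A + 3) := by nlinarith
  calc (‖F.bW K l h s‖ + 1) ^ (2 * m) ≤ (e * (2 * A + 3)) ^ (2 * m) :=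
        pow_le_pow_left₀ (by positivity) h7 _
    _ = (2 * A + 3) ^ (2 * m) / (1 - s) := by rw [mul_pow, hem]; ring

theorem cutT_spec (K : ℕ) {l h : ℝ} (hl : 0 < l) (hl1 : l ≤ 1) (hh : 0 < h) (hh1 : h ≤ 1)
    (x : XZ (K + 1) (l * h)) :
    cutT K l h x =ᵐ[volume] cutF h x ∧ ‖cutT K l h x‖ ≤ (3 / l) ^ K * ‖x‖ ∧
      ‖cutT K l h x‖ ≤ 3 ^ K * nw Measure.count (wZ K h) x := by
  have h1 := cutOp_spec (ω₁ := wZ (K + 1) (l * h)) (ω₂ := wR K 1) (C := (3 / l) ^ K) hh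
    (fun k ξ hξ => by
      refine (TQtAux_cR K hh hh1 hξ).trans ?_
      have h2 := (TQtAux_wl K hl hl1 hh k).trans (mul_le_mul_of_nonneg_left
        (wR_mono (Nat.le_succ K) le_rfl (emb k)) (by positivity))
      calc 3 ^ K * (wZ K h).w k ≤ 3 ^ K * ((1 / l) ^ K * (wZ (K + 1) (l * h)).w k) :=
            mul_le_mul_of_nonneg_left h2 (by positivity)
        _ = (3 / l) ^ K * (wZ (K + 1) (l * h)).w k := by
            rw [← mul_assoc, ← mul_pow, mul_one_div]) x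
  refine ⟨h1.1, h1.2, ?_⟩
  have hx : MemW Measure.count (wZ K h) x := by
    refine ((memW_coe x).of_le (C := (1 / l) ^ K) (memW_coe x).1
      (Eventually.of_forall fun k => ?_)).1
    rw [← mul_assoc]
    refine mul_le_mul_of_nonneg_right ?_ (norm_nonneg _)
    exact (TQtAux_wl K hl hl1 hh k).trans (mul_le_mul_of_nonneg_left
      (wR_mono (Nat.le_succ K) le_rfl (emb k)) (by positivity))
  rw [norm_eq_nw]
  have h3 : nw volume (wR K 1) (cutT K l h x) = nw volume (wR K 1) (cutF h x) := nw_congr h1.1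
  rw [h3]
  exact (MemW.cut hh (fun k ξ hξ => TQtAux_cR K hh hh1 hξ) hx).2

/-- `cutT` almost commutes with the free flows -/
theorem cutT_U (K : ℕ) {l h : ℝ} (hl : 0 < l) (hl1 : l ≤ 1) (hh : 0 < h) (hh1 : h ≤ 1)
    {t : ℝ} (ht : t ∈ Icc (0 : ℝ) 1) (x : XZ (K + 1) (l * h)) :
    ‖cutT K l h ((algZ (K + 1) (l * h) h).U t x) - (algR K 1).U t (cutT K l h x)‖
      ≤ 4 * h * (3 / l) ^ (K + 1) * ‖x‖ := by
  have hm : Measurable fun ξ : E => ‖ξ‖ ^ 2 := by fun_prop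
  have hU : (((algZ (K + 1) (l * h) h).U t x : XZ (K + 1) (l * h)) : Z12 → ℂ)
      = fun k => cexp (-I * (h ^ 2 * nsq k : ℝ) * t) * x k := funext (algZ_U _ _ _ _ x)
  have hae : ((cutT K l h ((algZ (K + 1) (l * h) h).U t x)
      - (algR K 1).U t (cutT K l h x) : XR K 1) : E → ℂ) =ᵐ[volume] fun ξ =>
        cutF h (fun k => cexp (-I * (h ^ 2 * nsq k : ℝ) * t) * x k) ξ
          - cexp (-I * (‖ξ‖ ^ 2 : ℝ) * t) * cutF h x ξ := by
    filter_upwards [XW_sub (cutT K l h ((algZ (K + 1) (l * h) h).U t x))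
      ((algR K 1).U t (cutT K l h x)),
      (cutT_spec K hl hl1 hh hh1 ((algZ (K + 1) (l * h) h).U t x)).1,
      (freeOp_spec hm t (cutT K l h x)).1, (cutT_spec K hl hl1 hh hh1 x).1] with ξ e1 e2 e3 e4
    rw [e1, e2, hU, ← e4, ← e3]
    rfl
  rw [norm_eq_nw, nw_congr hae, norm_eq_nw x]
  refine cut_comm hh (by fun_prop) (fun k ξ hξ => ?_) (memW_coe x)
  have h1 := (TQtAux_sym ht hh hh1 hξ).1
  have h2 := TQtAux_cR K hh hh1 hξ
  have h3 := TQtAux_wl (K + 1) hl hl1 hh k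
  have h4 : (wZ (K + 1) h).w k = (1 + h * ‖emb k‖) * (wZ K h).w k := by
    change (1 + |h| * ‖emb k‖) ^ (K + 1) = (1 + h * ‖emb k‖) * (1 + |h| * ‖emb k‖) ^ K
    rw [abs_of_pos hh, pow_succ']
  have h5 := (wZ (K + 1) (l * h)).pos k
  calc ‖cexp (-I * (h ^ 2 * nsq k : ℝ) * t) - cexp (-I * (‖ξ‖ ^ 2 : ℝ) * t)‖ * (wR K 1).w ξ
      ≤ 4 * h * (1 + h * ‖emb k‖) * (3 ^ K * (wZ K h).w k) :=
        mul_le_mul h1 h2 ((wR K 1).pos ξ).le (by positivity)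
    _ = 4 * h * 3 ^ K * (wZ (K + 1) h).w k := by rw [h4]; ring
    _ ≤ 4 * h * 3 ^ (K + 1) * ((1 / l) ^ (K + 1) * (wZ (K + 1) (l * h)).w k) := by
        refine mul_le_mul ?_ h3 ((wZ (K + 1) h).pos k).le (by positivity)
        exact mul_le_mul_of_nonneg_left (pow_le_pow_right₀ (by norm_num) (Nat.le_succ K))
          (by positivity)
    _ = 4 * h * (3 / l) ^ (K + 1) * (wZ (K + 1) (l * h)).w k := by
        rw [div_eq_mul_one_div 3 l, mul_pow]; ring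

/-- `perOp` almost commutes with the free flows -/
theorem perT_U (K : ℕ) {l h : ℝ} (hl : 0 < l) (hl1 : l ≤ 1) (hh : 0 < h) (hh1 : h ≤ 1)
    {t : ℝ} (ht : t ∈ Icc (0 : ℝ) 1) (x : XR (K + 2) 1) :
    ‖perOp (wR (K + 2) 1) (wZ (K + 1) (l * h)) h ((algR (K + 2) 1).U t x)
      - (algZ (K + 1) (l * h) h).U t (perOp (wR (K + 2) 1) (wZ (K + 1) (l * h)) h x)‖
      ≤ 4 * h * 3 ^ (K + 1) * ‖x‖ := by
  have hm : Measurable fun ξ : E => ‖ξ‖ ^ 2 := by fun_prop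
  have hw : ∀ k, ∀ ξ ∈ cell h k, (wZ (K + 1) (l * h)).w k ≤ 3 ^ (K + 1) * (wR (K + 1) 1).w ξ := by
    intro k ξ hξ
    refine (cell_wZ hh hξ).trans (mul_le_mul (TQtAux_three _ hl hl1 hh hh1)
      (wR_mono le_rfl ?_ ξ) ((wR (K + 1) l).pos ξ).le (by positivity))
    rw [abs_of_pos hl, abs_one]
    exact hl1
  have hw' : ∀ k, ∀ ξ ∈ cell h k, (wZ (K + 1) (l * h)).w k
      ≤ 3 ^ (K + 1) * (wR (K + 2) 1).w ξ := fun k ξ hξ =>
    (hw k ξ hξ).trans (mul_le_mul_of_nonneg_left (wR_mono (Nat.le_succ _) le_rfl ξ)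
      (by positivity))
  have hae : ((perOp (wR (K + 2) 1) (wZ (K + 1) (l * h)) h ((algR (K + 2) 1).U t x)
      - (algZ (K + 1) (l * h) h).U t (perOp (wR (K + 2) 1) (wZ (K + 1) (l * h)) h x) :
        XZ (K + 1) (l * h)) : Z12 → ℂ) =ᵐ[Measure.count] fun k =>
        perF h (fun ξ => cexp (-I * (‖ξ‖ ^ 2 : ℝ) * t) * x ξ) k
          - cexp (-I * (h ^ 2 * nsq k : ℝ) * t) * perF h x k := by
    filter_upwards [XW_sub (perOp (wR (K + 2) 1) (wZ (K + 1) (l * h)) h ((algR (K + 2) 1).U t x))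
      ((algZ (K + 1) (l * h) h).U t (perOp (wR (K + 2) 1) (wZ (K + 1) (l * h)) h x))] with k e1
    have e2 : perF h ((algR (K + 2) 1).U t x : XR (K + 2) 1)
        = perF h (fun ξ => cexp (-I * (‖ξ‖ ^ 2 : ℝ) * t) * x ξ) :=
      perF_congr (freeOp_spec hm t x).1
    rw [e1, algZ_U, (perOp_spec hw' _).1, (perOp_spec hw' _).1, e2]
  rw [norm_eq_nw, nw_congr hae, norm_eq_nw x]
  refine (per_comm (B := 1) (by fun_prop) (fun ξ => (XConvAux_exp _ _).le) (fun k ξ hξ => ?_)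
    (memW_coe x)).2
  have h1 := (TQtAux_sym ht hh hh1 hξ).2
  have h4 : (wR (K + 2) 1).w ξ = (1 + ‖ξ‖) * (wR (K + 1) 1).w ξ := by
    change (1 + |(1 : ℝ)| * ‖ξ‖) ^ (K + 1 + 1) = (1 + ‖ξ‖) * (1 + |(1 : ℝ)| * ‖ξ‖) ^ (K + 1)
    rw [abs_one, one_mul, pow_succ' _ (K + 1)]
  rw [norm_sub_rev] at h1
  calc ‖cexp (-I * (‖ξ‖ ^ 2 : ℝ) * t) - cexp (-I * (h ^ 2 * nsq k : ℝ) * t)‖
        * (wZ (K + 1) (l * h)).w k
      ≤ 4 * h * (1 + ‖ξ‖) * (3 ^ (K + 1) * (wR (K + 1) 1).w ξ) :=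
        mul_le_mul h1 (hw k ξ hξ) ((wZ (K + 1) (l * h)).pos k).le (by positivity)
    _ = 4 * h * 3 ^ (K + 1) * (wR (K + 2) 1).w ξ := by rw [h4]; ring

end P139
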