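import Vale.Agent.P139.LS0
import Vale.Agent.P139.TQt

/-! P139 L: from physical time to self-similar time. -/

open Complex Set Filter Topology MeasureTheory
open scoped ComplexConjugate Laplacian

noncomputable section
namespace P139

variable {m : ℕ} {P : Prof m}

theorem Dinv_DN (hm : 1 ≤ m) (K : ℕ) (τ : ℝ) (q w : XR K 1) :
    P.Dinv K τ ((algR K 1).DN m q w)
      = (Real.exp τ : ℂ) • (algR K 1).DN m (P.Dinv K τ q) (P.Dinv K τ w) := by
  have hσ : 0 < Real.exp (τ / 2) := Real.exp_pos _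
  have hm0 : (m : ℂ) ≠ 0 := by exact_mod_cast (by omega : m ≠ 0)
  have h := Alg.map_DN (algR K 1) (algR K 1) (P.Dinv K τ) (cexp (P.aa * τ))
    (cexp ((conj P.aa - P.aa) * τ)) (fun x y => ?_) (fun x => ?_) m q w
  · rw [h]
    congr 1
    rw [← Complex.exp_nat_mul, ← Complex.exp_add, ← Complex.exp_nat_mul, Complex.ofReal_exp]
    congr 1
    simp only [Prof.aa, gam, map_sub, map_mul, conj_ofReal, conj_I]
    push_cast
    field_simp
    ring
  · simp only [Prof.Dinv, smul_apply, map_smul, smul_smul, dilOp_conv hσ]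
    congr 1
    rw [← Complex.exp_add, ← Complex.exp_add]
    congr 1
    ring
  · simp only [Prof.Dinv, smul_apply, map_smulₛₗ, smul_smul, dilOp_st hσ]
    congr 1
    rw [← Complex.exp_conj, ← Complex.exp_add]
    congr 1
    simp only [map_mul, map_neg, conj_ofReal]
    ring

theorem LConvAux_U (K : ℕ) (τ σ : ℝ) (x : XR K 1) :
    P.Dinv K τ ((algR K 1).U (1 - Real.exp (-τ) - (1 - Real.exp (-σ))) x)
      = P.S0 K (τ - σ) (P.Dinv K σ x) := by
  have e3 : ∀ y, P.Dinv K τ y = P.Dinv K (τ - σ) (P.Dinv K σ y) := fun y => by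
    rw [← Dinv_add, sub_add_cancel]
  have e4 : Real.exp σ * (1 - Real.exp (-τ) - (1 - Real.exp (-σ))) = 1 - Real.exp (-(τ - σ)) := by
    rw [neg_sub, sub_eq_add_neg σ τ, Real.exp_add, Real.exp_neg σ]
    field_simp
    ring
  rw [e3, Dinv_U, e4]
  rfl

theorem LConvAux_pt (hm : 1 ≤ m) (F : FD P) (K : ℕ) (τ σ : ℝ) (x : XR K 1) :
    P.Dinv K τ (Real.exp (-σ) • (algR K 1).U (1 - Real.exp (-τ) - (1 - Real.exp (-σ)))
      ((algR K 1).FL m (F.qW K 1) (1 - Real.exp (-σ)) x))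
      = P.S0 K (τ - σ) (F.V K (P.Dinv K σ x)) := by
  have e1 : P.Dinv K σ (F.qW K 1 (1 - Real.exp (-σ))) = F.qW K 1 0 := by
    rw [qW_eq, ← Dinv_add, add_neg_cancel, Dinv_zero]
  rw [← algebraMap_smul ℂ (Real.exp (-σ)), map_smul, LConvAux_U, ← map_smul]
  congr 1
  unfold Alg.FL
  rw [map_smul, Dinv_DN hm, e1, smul_comm (-I), smul_smul, Complex.coe_algebraMap,
    ← Complex.ofReal_mul, ← Real.exp_add, neg_add_cancel, Real.exp_zero, Complex.ofReal_one,
    one_smul]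
  rfl

theorem LConvAux_sub {X : Type} [NormedAddCommGroup X] [NormedSpace ℝ X] [CompleteSpace X]
    {g : ℝ → X} {τ : ℝ} (hτ : 0 ≤ τ) (hg : ContinuousOn g (Icc 0 (1 - Real.exp (-τ)))) :
    IntervalIntegrable (fun σ => Real.exp (-σ) • g (1 - Real.exp (-σ))) volume 0 τ ∧
    ∫ s in (0 : ℝ)..(1 - Real.exp (-τ)), g s
      = ∫ σ in (0 : ℝ)..τ, Real.exp (-σ) • g (1 - Real.exp (-σ)) := by
  have hd : ∀ σ : ℝ, HasDerivAt (fun σ : ℝ => 1 - Real.exp (-σ)) (Real.exp (-σ)) σ := fun σ => by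
    simpa using ((hasDerivAt_neg σ).exp).const_sub 1
  have hc : Continuous fun σ : ℝ => 1 - Real.exp (-σ) := by fun_prop
  have hmap : ∀ σ ∈ Icc (0 : ℝ) τ, 1 - Real.exp (-σ) ∈ Icc (0 : ℝ) (1 - Real.exp (-τ)) :=
    fun σ hσ => ⟨sub_nonneg.2 (Real.exp_le_one_iff.2 (by linarith [hσ.1])),
      sub_le_sub_left (Real.exp_le_exp.2 (by linarith [hσ.2])) 1⟩
  have h2 := intervalIntegral.integral_deriv_smul_comp'' (a := 0) (b := τ) (g := g)
    (f := fun σ : ℝ => 1 - Real.exp (-σ)) (f' := fun σ => Real.exp (-σ)) hc.continuousOn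
    (fun σ _ => (hd σ).hasDerivWithinAt) (by fun_prop)
    (hg.mono (by
      rw [uIcc_of_le hτ]
      rintro _ ⟨σ, hσ, rfl⟩
      exact hmap σ hσ))
  simp only [neg_zero, Real.exp_zero, sub_self] at h2
  refine ⟨ContinuousOn.intervalIntegrable ?_, h2.symm⟩
  rw [uIcc_of_le hτ]
  exact (by fun_prop : Continuous fun σ : ℝ => Real.exp (-σ)).continuousOn.smul
    (hg.comp hc.continuousOn hmap)

theorem app_mild (hm : 1 ≤ m) (F : FD P) (K : ℕ) {τ₀ : ℝ} {φ : ℝ → XR K 1}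
    (h : (algR K 1).App ((algR K 1).FL m (F.qW K 1)) (1 - Real.exp (-τ₀)) 0 φ) :
    (P.G0 K).Mild (F.V K) τ₀ fun τ => P.Dinv K τ (φ (1 - Real.exp (-τ))) := by
  have hc : Continuous fun σ : ℝ => 1 - Real.exp (-σ) := by fun_prop
  have hmap : ∀ σ ∈ Icc (0 : ℝ) τ₀, 1 - Real.exp (-σ) ∈ Icc (0 : ℝ) (1 - Real.exp (-τ₀)) :=
    fun σ hσ => ⟨sub_nonneg.2 (Real.exp_le_one_iff.2 (by linarith [hσ.1])),
      sub_le_sub_left (Real.exp_le_exp.2 (by linarith [hσ.2])) 1⟩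
  have hφ : ContinuousOn (fun τ => (τ, φ (1 - Real.exp (-τ)))) (Icc 0 τ₀) :=
    continuousOn_id.prodMk (h.1.comp hc.continuousOn hmap)
  have hφ2 := (Dinv_cont P K).comp_continuousOn hφ
  refine ⟨hφ2, fun τ hτ => ?_⟩
  have ht := hmap τ hτ
  have hq : ContinuousOn (F.qW K 1) (Icc 0 (1 - Real.exp (-τ₀))) :=
    (F.qW_cont K 1).mono fun s hs => lt_of_le_of_lt hs.2 (sub_lt_self _ (Real.exp_pos _))
  have hf0 : ContinuousOn (fun s => (s, φ s)) (Icc 0 (1 - Real.exp (-τ₀))) :=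
    continuousOn_id.prodMk h.1
  have hf := ((algR K 1).FL_cont m hq).comp hf0 fun s hs => ⟨hs, mem_univ _⟩
  have hg0 : ContinuousOn (fun s => (1 - Real.exp (-τ) - s,
      (algR K 1).FL m (F.qW K 1) s (φ s))) (Icc 0 (1 - Real.exp (-τ₀))) :=
    (continuous_const.sub continuous_id).continuousOn.prodMk hf
  have hg1 := (algR K 1).U_cont₂.comp_continuousOn hg0
  obtain ⟨hi, h2⟩ := LConvAux_sub (g := fun s => (algR K 1).U (1 - Real.exp (-τ) - s)
    ((algR K 1).FL m (F.qW K 1) s (φ s))) hτ.1 (hg1.mono (Icc_subset_Icc_right ht.2))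
  have h1 := sub_eq_zero.1 (norm_le_zero_iff.1 (h.2 _ ht))
  simp only [neg_zero, Real.exp_zero, sub_self, G0_apply]
  rw [h1, map_add, Dinv_zero, h2, ← (P.Dinv K τ).intervalIntegral_comp_comm hi]
  simp only [LConvAux_pt hm]
  rfl

end P139
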