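import Mathlib

/-! P139 part L: integrals of multiples of points of a compact set stay in a compact set. -/

open Complex Set Filter Topology MeasureTheory Metric

noncomputable section
namespace P139

variable {X : Type} [NormedAddCommGroup X] [NormedSpace ℂ X]

/-- closed convex hull of the multiples `c • d`, `‖c‖ ≤ R`, `d ∈ D`, and `0` -/
def hullK (R : ℝ) (D : Set X) : Set X :=
  closure (convexHull ℝ (insert 0 (image2 (fun (c : ℂ) (d : X) => c • d) (closedBall 0 R) D)))

theorem hullK_compact [CompleteSpace X] (R : ℝ) {D : Set X} (hD : IsCompact D) :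
    IsCompact (hullK R D) := by
  have h1 : IsCompact (image2 (fun (c : ℂ) (d : X) => c • d) (closedBall 0 R) D) := by
    rw [← image_prod]
    exact ((isCompact_closedBall (0 : ℂ) R).prod hD).image (by fun_prop)
  have h2 := (h1.insert 0).totallyBounded
  exact (totallyBounded_convexHull.2 h2).closure.isCompact_of_isClosed isClosed_closure

theorem integral_mem_hullK [CompleteSpace X] {α : Type} [MeasurableSpace α] {μ : Measure α}
    {R : ℝ} (hR : 0 < R) {D : Set X} {g : α → X} {r : α → ℝ} (hg : Integrable g μ)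
    (hr : Integrable r μ) (hrR : ∫ a, r a ∂μ ≤ R)
    (h : ∀ᵐ a ∂μ, ∃ c : ℂ, ∃ d ∈ D, ‖c‖ ≤ r a ∧ g a = c • d) :
    ∫ a, g a ∂μ ∈ hullK R D := by
  by_contra hn
  have hconv : Convex ℝ (hullK R D) := (convex_convexHull ℝ _).closure
  obtain ⟨f, u, hf, hu⟩ := geometric_hahn_banach_closed_point hconv isClosed_closure hn
  have h0 : (0 : X) ∈ hullK R D := subset_closure (subset_convexHull ℝ _ (mem_insert _ _))
  have hu0 : 0 < u := by simpa using hf 0 h0
  have hb : ∀ᵐ a ∂μ, f (g a) ≤ r a * (u / R) := by
    filter_upwards [h] with a ⟨c, d, hd, hc, hga⟩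
    have hr0 : 0 ≤ r a := (norm_nonneg c).trans hc
    rcases eq_or_ne c 0 with rfl | hc0
    · rw [hga, zero_smul, map_zero]; positivity
    · have hcn : 0 < ‖c‖ := norm_pos_iff.2 hc0
      have hm : (((R / ‖c‖ : ℝ) : ℂ) * c) • d ∈ hullK R D := by
        refine subset_closure (subset_convexHull ℝ _ (mem_insert_of_mem _ ?_))
        refine mem_image2_of_mem ?_ hd
        rw [mem_closedBall_zero_iff, norm_mul, Complex.norm_real, Real.norm_eq_abs,
          abs_of_pos (by positivity), div_mul_cancel₀ _ hcn.ne']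
      have h1 := hf _ hm
      have h2 : (((R / ‖c‖ : ℝ) : ℂ) * c) • d = (R / ‖c‖ : ℝ) • (c • d) := by
        rw [mul_smul, Complex.coe_smul]
      rw [h2, map_smul, smul_eq_mul, ← hga] at h1
      have h3 : f (g a) ≤ ‖c‖ * (u / R) := by
        have h4 : f (g a) = ‖c‖ / R * (R / ‖c‖ * f (g a)) := by field_simp
        rw [h4]
        have h5 : ‖c‖ * (u / R) = ‖c‖ / R * u := by ring
        rw [h5]
        exact mul_le_mul_of_nonneg_left h1.le (by positivity)
      exact h3.trans (mul_le_mul_of_nonneg_right hc (by positivity))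
  have h6 : f (∫ a, g a ∂μ) ≤ u := by
    rw [← f.integral_comp_comm hg]
    calc ∫ a, f (g a) ∂μ ≤ ∫ a, r a * (u / R) ∂μ :=
          integral_mono_ae (f.integrable_comp hg) (hr.mul_const _) hb
      _ = (∫ a, r a ∂μ) * (u / R) := integral_mul_const _ _
      _ ≤ R * (u / R) := mul_le_mul_of_nonneg_right hrR (by positivity)
      _ = u := by field_simp
  linarith

end P139
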