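import Vale.Agent.P139.XConv
import Vale.Agent.P139.LHull

/-! P139 part L: a convolution followed by a compactly supported multiplier is compact. -/

open Complex Set Filter Topology MeasureTheory Metric

noncomputable section
namespace P139

theorem lc_trans {V : E → ℂ} (hV : Integrable V volume) (η : E) :
    Tendsto (fun η' : E => ∫ ξ, ‖V (ξ - η') - V (ξ - η)‖) (𝓝 η) (𝓝 0) := by
  have hV1 : MemLp V 1 volume := memLp_one_iff_integrable.2 hV
  let g : E → C(E, E) := fun η => ⟨fun ξ => ξ - η, by fun_prop⟩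
  have hg : Continuous g :=
    ContinuousMap.continuous_of_continuous_uncurry g (continuous_snd.sub continuous_fst)
  have hm : ∀ η, MeasurePreserving (g η) volume volume := fun η =>
    measurePreserving_sub_right volume η
  have hc := (continuous_const (y := hV1.toLp V)).compMeasurePreservingLp hg hm (by simp)
  have h1 := tendsto_iff_norm_sub_tendsto_zero.1 (hc.tendsto η)
  refine h1.congr fun η' => ?_
  rw [L1.norm_eq_integral_norm]
  refine integral_congr_ae ?_
  have e1 := Lp.coeFn_compMeasurePreserving (hV1.toLp V) (hm η')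
  have e2 := Lp.coeFn_compMeasurePreserving (hV1.toLp V) (hm η)
  have e3 := (hm η').quasiMeasurePreserving.ae_eq_comp hV1.coeFn_toLp
  have e4 := (hm η).quasiMeasurePreserving.ae_eq_comp hV1.coeFn_toLp
  filter_upwards [Lp.coeFn_sub (Lp.compMeasurePreserving (g η') (hm η') (hV1.toLp V))
    (Lp.compMeasurePreserving (g η) (hm η) (hV1.toLp V)), e1, e2, e3, e4] with ξ h0 h1 h2 h3 h4
  rw [h0, Pi.sub_apply, h1, h2, h3, h4]
  rfl

theorem lc_tail {V : E → ℂ} (hV : Integrable V volume) (ρ : ℝ) :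
    Tendsto (fun η : E => ∫ ξ, ‖(ball (0 : E) ρ).indicator (fun ξ => V (ξ - η)) ξ‖)
      (cocompact E) (𝓝 0) := by
  have h1 : Tendsto (fun R : ℝ => ∫ ζ in {ζ : E | R ≤ ‖ζ‖}, ‖V ζ‖) atTop (𝓝 0) := by
    have h := tendsto_setIntegral_of_antitone (μ := volume) (f := fun ζ => ‖V ζ‖)
      (s := fun R : ℝ => {ζ : E | R ≤ ‖ζ‖})
      (fun R => measurableSet_le measurable_const measurable_norm)
      (fun a b hab ζ (hζ : b ≤ ‖ζ‖) => (hab.trans hζ : a ≤ ‖ζ‖)) ⟨0, hV.norm.integrableOn⟩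
    have h2 : (⋂ R : ℝ, {ζ : E | R ≤ ‖ζ‖}) = ∅ := by
      ext ζ
      simp only [mem_iInter, mem_ofPred_eq, mem_empty_iff_false, iff_false, not_forall, not_le]
      exact ⟨‖ζ‖ + 1, by linarith⟩
    rw [h2] at h
    simpa using h
  have h2 : Tendsto (fun η : E => ‖η‖ - ρ) (cocompact E) atTop :=
    tendsto_atTop_add_const_right _ (-ρ) (tendsto_norm_cocompact_atTop (E := E))
  refine squeeze_zero (fun η => integral_nonneg fun ξ => norm_nonneg _) (fun η => ?_) (h1.comp h2)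
  have hms : MeasurableSet {ζ : E | ‖η‖ - ρ ≤ ‖ζ‖} :=
    measurableSet_le measurable_const measurable_norm
  have e : ∫ ζ in {ζ : E | ‖η‖ - ρ ≤ ‖ζ‖}, ‖V ζ‖
      = ∫ ξ, {ζ : E | ‖η‖ - ρ ≤ ‖ζ‖}.indicator (fun ζ => ‖V ζ‖) (ξ - η) := by
    rw [integral_sub_right_eq_self ({ζ : E | ‖η‖ - ρ ≤ ‖ζ‖}.indicator fun ζ => ‖V ζ‖) η,
      integral_indicator hms]
  refine le_of_le_of_eq ?_ e.symm
  have hi1 : Integrable ({ζ : E | ‖η‖ - ρ ≤ ‖ζ‖}.indicator fun ζ => ‖V ζ‖) volume :=
    hV.norm.indicator hms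
  refine integral_mono ?_ (hi1.comp_sub_right η) fun ξ => ?_
  · exact ((hV.comp_sub_right η).indicator measurableSet_ball).norm
  · by_cases hξ : ξ ∈ ball (0 : E) ρ
    · have h3 : ξ - η ∈ {ζ : E | ‖η‖ - ρ ≤ ‖ζ‖} := by
        rw [mem_ball_zero_iff] at hξ
        have := norm_sub_norm_le η ξ
        rw [mem_ofPred_eq, norm_sub_rev]
        linarith
      simp only [indicator_of_mem hξ, indicator_of_mem h3, le_refl]
    · simp only [indicator_of_notMem hξ, norm_zero]
      exact indicator_nonneg (fun _ _ => norm_nonneg _) _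

variable {ω : Wt E} {φ : E → ℂ} {ρ C : ℝ}

theorem lc_mem (hφ : Measurable φ) (hC : ∀ ξ, ‖φ ξ‖ * ω.w ξ ≤ C) {h : E → ℂ}
    (hh : Integrable h volume) :
    MemW volume ω (fun ξ => φ ξ * h ξ) ∧ nw volume ω (fun ξ => φ ξ * h ξ) ≤ C * ∫ ξ, ‖h ξ‖ := by
  have hm : AEStronglyMeasurable (fun ξ => φ ξ * h ξ) volume :=
    hφ.aestronglyMeasurable.mul hh.aestronglyMeasurable
  have hb : ∀ ξ, ω.w ξ * ‖φ ξ * h ξ‖ ≤ C * ‖h ξ‖ := fun ξ => by
    rw [norm_mul, ← mul_assoc, mul_comm (ω.w ξ)]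
    exact mul_le_mul_of_nonneg_right (hC ξ) (norm_nonneg _)
  have hi : Integrable (fun ξ => ω.w ξ * ‖φ ξ * h ξ‖) volume := by
    refine (hh.norm.const_mul C).mono' (ω.meas.aestronglyMeasurable.mul hm.norm) ?_
    refine Eventually.of_forall fun ξ => ?_
    rw [Real.norm_of_nonneg (mul_nonneg (ω.pos ξ).le (norm_nonneg _))]
    exact hb ξ
  refine ⟨⟨hm, hi⟩, ?_⟩
  rw [← integral_const_mul]
  exact integral_mono hi (hh.norm.const_mul C) hb

/-- the kernel of the cut convolution -/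
def lcK (ω : Wt E) (φ V : E → ℂ) (η : E) : XW volume ω :=
  toW volume ω fun ξ => φ ξ * V (ξ - η)

theorem lcK_coe (hφ : Measurable φ) (hC : ∀ ξ, ‖φ ξ‖ * ω.w ξ ≤ C) {V : E → ℂ}
    (hV : Integrable V volume) (η : E) :
    lcK ω φ V η =ᵐ[volume] fun ξ => φ ξ * V (ξ - η) :=
  toW_coe (lc_mem hφ hC (hV.comp_sub_right η)).1

theorem lcK_cont (hφ : Measurable φ) (hC : ∀ ξ, ‖φ ξ‖ * ω.w ξ ≤ C) {V : E → ℂ}
    (hV : Integrable V volume) : Continuous (lcK ω φ V) := by
  refine continuous_iff_continuousAt.2 fun η => ?_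
  refine tendsto_iff_norm_sub_tendsto_zero.2 ?_
  have h1 := (lc_trans hV η).const_mul C
  rw [mul_zero] at h1
  refine squeeze_zero (fun _ => norm_nonneg _) (fun η' => ?_) h1
  rw [norm_eq_nw]
  have h2 : ((lcK ω φ V η' - lcK ω φ V η : XW volume ω) : E → ℂ) =ᵐ[volume]
      fun ξ => φ ξ * (V (ξ - η') - V (ξ - η)) := by
    filter_upwards [XW_sub (lcK ω φ V η') (lcK ω φ V η), lcK_coe hφ hC hV η',
      lcK_coe hφ hC hV η] with ξ h0 h1 h2
    rw [h0, h1, h2]; ring
  rw [nw_congr h2]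
  exact (lc_mem hφ hC ((hV.comp_sub_right η').sub (hV.comp_sub_right η))).2

theorem lcK_zero (hφ : Measurable φ) (hC : ∀ ξ, ‖φ ξ‖ * ω.w ξ ≤ C)
    (h0 : ∀ ξ, ρ ≤ ‖ξ‖ → φ ξ = 0) {V : E → ℂ} (hV : Integrable V volume) :
    Tendsto (lcK ω φ V) (cocompact E) (𝓝 0) := by
  refine tendsto_zero_iff_norm_tendsto_zero.2 ?_
  have h1 := (lc_tail hV ρ).const_mul C
  rw [mul_zero] at h1
  refine squeeze_zero (fun _ => norm_nonneg _) (fun η => ?_) h1
  rw [norm_eq_nw]
  have h2 : ((lcK ω φ V η : XW volume ω) : E → ℂ) =ᵐ[volume]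
      fun ξ => φ ξ * (ball (0 : E) ρ).indicator (fun ξ => V (ξ - η)) ξ := by
    filter_upwards [lcK_coe hφ hC hV η] with ξ h1
    rw [h1]
    by_cases hξ : ξ ∈ ball (0 : E) ρ
    · rw [indicator_of_mem hξ]
    · rw [mem_ball_zero_iff, not_lt] at hξ
      rw [h0 ξ hξ, zero_mul, zero_mul]
  rw [nw_congr h2]
  exact (lc_mem hφ hC ((hV.comp_sub_right η).indicator measurableSet_ball)).2

theorem lcK_norm (hφ : Measurable φ) (hC : ∀ ξ, ‖φ ξ‖ * ω.w ξ ≤ C) {V : E → ℂ}
    (hV : Integrable V volume) (η : E) : ‖lcK ω φ V η‖ ≤ C * ∫ ξ, ‖V ξ‖ := by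
  rw [norm_eq_nw, nw_congr (lcK_coe hφ hC hV η), ← integral_sub_right_eq_self (fun ξ => ‖V ξ‖) η]
  exact (lc_mem hφ hC (hV.comp_sub_right η)).2

theorem lcK_int (hφ : Measurable φ) (hC : ∀ ξ, ‖φ ξ‖ * ω.w ξ ≤ C) {V f : E → ℂ}
    (hV : Integrable V volume) (hf : Integrable f volume) :
    Integrable (fun η => f η • lcK ω φ V η) volume := by
  refine (hf.norm.mul_const (C * ∫ ξ, ‖V ξ‖)).mono'
    (hf.aestronglyMeasurable.smul (lcK_cont hφ hC hV).aestronglyMeasurable) ?_
  refine Eventually.of_forall fun η => ?_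
  rw [norm_smul]
  exact mul_le_mul_of_nonneg_left (lcK_norm hφ hC hV η) (norm_nonneg _)

theorem lc_repr (hφ : Measurable φ) (hC : ∀ ξ, ‖φ ξ‖ * ω.w ξ ≤ C) (V f : XW volume ω) :
    mulOp volume ω ω φ (convOp volume ω V f) = ∫ η, f η • lcK ω φ V η := by
  have hV := (memW_coe V).integrable
  have hf := (memW_coe f).integrable
  have hC0 : 0 ≤ C := (mul_nonneg (norm_nonneg _) (ω.pos 0).le).trans (hC 0)
  have hφC : ∀ ξ, ‖φ ξ‖ ≤ C := fun ξ =>
    (le_mul_of_one_le_right (norm_nonneg _) (ω.one_le ξ)).trans (hC ξ)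
  have hL : (mulOp volume ω ω φ (convOp volume ω V f) : E → ℂ) =ᵐ[volume]
      fun ξ => φ ξ * convF volume f V ξ := by
    have h1 := (mulOp_spec (μ := volume) (ω₁ := ω) (ω₂ := ω) (C := C) hφ.aestronglyMeasurable
      (fun ξ => (hC ξ).trans (le_mul_of_one_le_right hC0 (ω.one_le ξ))) (convOp volume ω V f)).1
    filter_upwards [h1, (convOp_spec V f).1] with ξ h1 h2
    rw [h1, h2, convF_comm]
  refine XW_ext (Integrable.ae_eq_of_forall_setIntegral_eq _ _ (memW_coe _).integrable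
    (memW_coe _).integrable fun s hs _ => ?_)
  have hp : ∀ x : XW volume ω, pairOp volume ω (s.indicator fun _ => 1) x = ∫ ξ in s, x ξ := by
    intro x
    rw [pairOp_spec (C := 1) ((measurable_const.indicator hs).aestronglyMeasurable),
      ← integral_indicator hs]
    · refine integral_congr_ae (Eventually.of_forall fun ξ => ?_)
      by_cases hξ : ξ ∈ s <;> simp [hξ]
    · intro ξ
      have := ω.one_le ξ
      by_cases hξ : ξ ∈ s <;> simp [hξ] <;> linarith
  rw [← hp (∫ η, f η • lcK ω φ V η), ← ContinuousLinearMap.integral_comp_comm _ (lcK_int hφ hC hV hf),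
    ← integral_indicator hs]
  let ψ : E → ℂ := s.indicator φ
  have hψ : Measurable ψ := hφ.indicator hs
  have hψC : ∀ ξ, ‖ψ ξ‖ ≤ C := fun ξ => (norm_indicator_le_norm_self φ ξ).trans (hφC ξ)
  have hI : Integrable (fun p : E × E => ψ p.1 * (f p.2 * V (p.1 - p.2))) (volume.prod volume) := by
    have h1 := hf.convolution_integrand (ContinuousLinearMap.mul ℂ ℂ) hV
    exact h1.bdd_mul (hψ.comp measurable_fst).aestronglyMeasurable
      (Eventually.of_forall fun p => hψC p.1)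
  have e1 : ∫ ξ, s.indicator (mulOp volume ω ω φ (convOp volume ω V f) : E → ℂ) ξ
      = ∫ ξ, ∫ η, ψ ξ * (f η * V (ξ - η)) := by
    refine integral_congr_ae ?_
    filter_upwards [hL] with ξ h1
    rw [integral_const_mul]
    by_cases hξ : ξ ∈ s
    · simp only [ψ, indicator_of_mem hξ, h1, convF]
    · simp only [ψ, indicator_of_notMem hξ, zero_mul]
  rw [e1, integral_integral_swap hI]
  refine integral_congr_ae (Eventually.of_forall fun η => ?_)
  simp only [map_smul, smul_eq_mul]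
  rw [hp, ← integral_indicator hs, ← integral_const_mul]
  refine integral_congr_ae ?_
  filter_upwards [lcK_coe hφ hC hV η] with ξ h1
  by_cases hξ : ξ ∈ s
  · simp only [ψ, indicator_of_mem hξ, h1]; ring
  · simp only [ψ, indicator_of_notMem hξ, zero_mul, mul_zero]

/-- convolution followed by a compactly supported bounded multiplier is compact -/
theorem l_cpt (hφ : Measurable φ) (hC : ∀ ξ, ‖φ ξ‖ * ω.w ξ ≤ C)
    (h0 : ∀ ξ, ρ ≤ ‖ξ‖ → φ ξ = 0) (V : XW volume ω) :
    IsCompactOperator (mulOp volume ω ω φ ∘L convOp volume ω V) := by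
  have hV := (memW_coe V).integrable
  have hD := (lcK_zero hφ hC h0 hV).isCompact_insert_range_of_cocompact (lcK_cont hφ hC hV)
  refine ⟨hullK 1 (insert 0 (range (lcK ω φ V))), hullK_compact 1 hD, ?_⟩
  refine mem_of_superset (closedBall_mem_nhds 0 one_pos) fun f hf => ?_
  rw [mem_closedBall_zero_iff] at hf
  have hfi := (memW_coe f).integrable
  rw [mem_preimage, ContinuousLinearMap.comp_apply, lc_repr hφ hC]
  refine integral_mem_hullK one_pos (lcK_int hφ hC hV hfi) hfi.norm ?_ ?_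
  · exact (norm_integral_le_nw (memW_coe f)).trans ((norm_eq_nw f).symm.le.trans hf)
  · exact Eventually.of_forall fun η => ⟨f η, _, mem_insert_of_mem _ (mem_range_self η), le_rfl, rfl⟩

/-- the sharp low-frequency cut -/
def loF (ρ : ℝ) : E → ℂ := (ball (0 : E) ρ).indicator fun _ => 1

theorem loF_meas (ρ : ℝ) : Measurable (loF ρ) := measurable_const.indicator measurableSet_ball

theorem l_cpt_R (K : ℕ) (l ρ : ℝ) (V : XR K l) :
    IsCompactOperator (mulOp volume (wR K l) (wR K l) (loF ρ) ∘L convOp volume (wR K l) V) := by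
  refine l_cpt (ρ := ρ) (C := (1 + |l| * |ρ|) ^ K) (loF_meas ρ) (fun ξ => ?_) (fun ξ hξ => ?_) V
  · by_cases hξ : ξ ∈ ball (0 : E) ρ
    · simp only [loF, indicator_of_mem hξ, norm_one, one_mul, wR]
      rw [mem_ball_zero_iff] at hξ
      have := le_abs_self ρ
      gcongr
      linarith
    · simp only [loF, indicator_of_notMem hξ, norm_zero, zero_mul]
      positivity
  · exact indicator_of_notMem (by rwa [mem_ball_zero_iff, not_lt]) _

end P139
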