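import Vale.Agent.P139.TAbs

/-! P139 T: algebraic estimates for `N` and `DN`. -/

open Complex Set Filter Topology MeasureTheory

noncomputable section
namespace P139
namespace Alg

variable {X : Type} [NormedAddCommGroup X] [NormedSpace ℂ X] (A : Alg X)

theorem TAlgAux_P (x : X) : ‖A.mul x (A.st x)‖ ≤ ‖x‖ ^ 2 := by
  rw [sq]
  exact (A.norm_mul _ _).trans (mul_le_mul_of_nonneg_left (A.norm_st x) (norm_nonneg _))

theorem TAlgAux_ms (x y : X) : ‖A.mul x (A.st y)‖ ≤ ‖x‖ * ‖y‖ :=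
  (A.norm_mul _ _).trans (mul_le_mul_of_nonneg_left (A.norm_st y) (norm_nonneg _))

theorem TAlgAux_dP (x w : X) : ‖A.mul w (A.st x) + A.mul x (A.st w)‖ ≤ 2 * ‖x‖ * ‖w‖ := by
  have h1 := A.TAlgAux_ms w x
  have h2 := A.TAlgAux_ms x w
  have h3 := norm_add_le (A.mul w (A.st x)) (A.mul x (A.st w))
  linarith

theorem TAlgAux_mul {x y : X} {a b : ℝ} (hx : ‖x‖ ≤ a) (hy : ‖y‖ ≤ b) : ‖A.mul x y‖ ≤ a * b :=
  (A.norm_mul _ _).trans (mul_le_mul hx hy (norm_nonneg _) ((norm_nonneg _).trans hx))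

theorem norm_N (m : ℕ) (x : X) : ‖A.N m x‖ ≤ ‖x‖ ^ (2 * m + 1) := by
  induction m with
  | zero => simp [N]
  | succ m ih =>
    refine (A.TAlgAux_mul (A.TAlgAux_P x) ih).trans (le_of_eq ?_)
    ring

theorem N_lip (m : ℕ) {R : ℝ} {x y : X} (hx : ‖x‖ ≤ R) (hy : ‖y‖ ≤ R) :
    ‖A.N m x - A.N m y‖ ≤ (2 * m + 1) * R ^ (2 * m) * ‖x - y‖ := by
  have hR : 0 ≤ R := (norm_nonneg _).trans hx
  induction m with
  | zero => simp [N]
  | succ m ih =>
    have e : A.N (m + 1) x - A.N (m + 1) y = A.mul (A.mul x (A.st x)) (A.N m x - A.N m y) +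
        A.mul (A.mul (x - y) (A.st x) + A.mul y (A.st (x - y))) (A.N m y) := by
      simp only [N, map_sub, map_add, ContinuousLinearMap.sub_apply, ContinuousLinearMap.add_apply]
      abel
    have h1 : ‖A.mul x (A.st x)‖ ≤ R ^ 2 := (A.TAlgAux_P x).trans (by gcongr)
    have h2 : ‖A.mul (x - y) (A.st x) + A.mul y (A.st (x - y))‖ ≤ 2 * R * ‖x - y‖ := by
      have k1 := (A.TAlgAux_ms (x - y) x).trans (mul_le_mul_of_nonneg_left hx (norm_nonneg _))
      have k2 := (A.TAlgAux_ms y (x - y)).trans (mul_le_mul_of_nonneg_right hy (norm_nonneg _))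
      have k3 := norm_add_le (A.mul (x - y) (A.st x)) (A.mul y (A.st (x - y)))
      linarith
    have h3 : ‖A.N m y‖ ≤ R ^ (2 * m + 1) := (A.norm_N m y).trans (by gcongr)
    rw [e]
    refine (norm_add_le _ _).trans ((add_le_add (A.TAlgAux_mul h1 ih)
      (A.TAlgAux_mul h2 h3)).trans (le_of_eq ?_))
    push_cast
    ring

theorem norm_DN (m : ℕ) (x w : X) :
    ‖A.DN m x w‖ ≤ (2 * m + 1) * ‖x‖ ^ (2 * m) * ‖w‖ := by
  induction m with
  | zero => simp [DN]
  | succ m ih =>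
    refine (norm_add_le _ _).trans ((add_le_add (A.TAlgAux_mul (A.TAlgAux_dP x w) (A.norm_N m x))
      (A.TAlgAux_mul (A.TAlgAux_P x) ih)).trans (le_of_eq ?_))
    push_cast
    ring

theorem DN_add (m : ℕ) (x w w' : X) : A.DN m x (w + w') = A.DN m x w + A.DN m x w' := by
  induction m with
  | zero => rfl
  | succ m ih =>
    simp only [DN, ih, map_add, ContinuousLinearMap.add_apply]
    abel

theorem DN_sub (m : ℕ) (x w w' : X) : A.DN m x (w - w') = A.DN m x w - A.DN m x w' := by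
  rw [eq_sub_iff_add_eq, ← A.DN_add, sub_add_cancel]

theorem DN_real_smul (m : ℕ) (x w : X) (c : ℝ) :
    A.DN m x ((c : ℂ) • w) = (c : ℂ) • A.DN m x w := by
  induction m with
  | zero => rfl
  | succ m ih =>
    have e : A.st ((c : ℂ) • w) = (c : ℂ) • A.st w := by
      rw [map_smulₛₗ, Complex.conj_ofReal]
    simp only [DN, ih, e, map_add, map_smul, ContinuousLinearMap.add_apply,
      ContinuousLinearMap.smul_apply, smul_add]

theorem N_taylor (m : ℕ) {R : ℝ} (hR : 1 ≤ R) {x w : X} (hx : ‖x‖ ≤ R) (hy : ‖x + w‖ ≤ R) :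
    ‖A.N m (x + w) - A.N m x - A.DN m x w‖ ≤ m * (2 * m + 1) * R ^ (2 * m) * ‖w‖ ^ 2 := by
  have hR0 : 0 ≤ R := by linarith
  induction m with
  | zero => simp [N, DN]
  | succ m ih =>
    have e : A.N (m + 1) (x + w) - A.N (m + 1) x - A.DN (m + 1) x w =
        A.mul (A.mul x (A.st x)) (A.N m (x + w) - A.N m x - A.DN m x w) +
        A.mul (A.mul w (A.st x) + A.mul x (A.st w)) (A.N m (x + w) - A.N m x) +
        A.mul (A.mul w (A.st w)) (A.N m (x + w)) := by
      simp only [N, DN, map_sub, map_add, ContinuousLinearMap.add_apply]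
      abel
    have h1 : ‖A.mul x (A.st x)‖ ≤ R ^ 2 := (A.TAlgAux_P x).trans (by gcongr)
    have h2 : ‖A.mul w (A.st x) + A.mul x (A.st w)‖ ≤ 2 * R * ‖w‖ :=
      (A.TAlgAux_dP x w).trans (by gcongr)
    have h3 : ‖A.N m (x + w)‖ ≤ R ^ (2 * m + 1) := (A.norm_N m _).trans (by gcongr)
    have h4 := A.N_lip m hy hx
    rw [add_sub_cancel_left] at h4
    have h5 : R ^ (2 * m + 1) ≤ R ^ (2 * (m + 1)) := pow_le_pow_right₀ hR (by omega)
    have h6 : 0 ≤ (4 * (m : ℝ) + 3) * ‖w‖ ^ 2 := by positivity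
    have h7 := mul_le_mul_of_nonneg_left h5 h6
    rw [e]
    refine (norm_add₃_le).trans ((add_le_add (add_le_add (A.TAlgAux_mul h1 ih)
      (A.TAlgAux_mul h2 h4)) (A.TAlgAux_mul (A.TAlgAux_P w) h3)).trans ?_)
    push_cast
    calc _ = m * (2 * m + 1) * R ^ (2 * (m + 1)) * ‖w‖ ^ 2 +
          (4 * (m : ℝ) + 3) * ‖w‖ ^ 2 * R ^ (2 * m + 1) := by ring
      _ ≤ m * (2 * m + 1) * R ^ (2 * (m + 1)) * ‖w‖ ^ 2 +
          (4 * (m : ℝ) + 3) * ‖w‖ ^ 2 * R ^ (2 * (m + 1)) := by linarith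
      _ = _ := by ring

theorem TAlgAux_cont {Z : Type} [TopologicalSpace Z] {f g : Z → X} (hf : Continuous f)
    (hg : Continuous g) : Continuous fun z => A.mul (f z) (g z) :=
  (A.mul.continuous.comp hf).clm_apply hg

theorem N_cont (m : ℕ) : Continuous (A.N m) := by
  induction m with
  | zero => exact continuous_id
  | succ m ih =>
    exact A.TAlgAux_cont (A.TAlgAux_cont continuous_id A.st.continuous) ih

theorem DN_cont (m : ℕ) : Continuous fun p : X × X => A.DN m p.1 p.2 := by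
  induction m with
  | zero => exact continuous_snd
  | succ m ih =>
    exact (A.TAlgAux_cont ((A.TAlgAux_cont continuous_snd (A.st.continuous.comp continuous_fst)).add
      (A.TAlgAux_cont continuous_fst (A.st.continuous.comp continuous_snd)))
      ((A.N_cont m).comp continuous_fst)).add (A.TAlgAux_cont
        (A.TAlgAux_cont continuous_fst (A.st.continuous.comp continuous_fst)) ih)

theorem FN_cont (m : ℕ) (S : Set ℝ) :
    ContinuousOn (Function.uncurry (A.FN m)) (S ×ˢ univ) := by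
  exact (((A.N_cont m).comp continuous_snd).const_smul (-I)).continuousOn

theorem FL_cont (m : ℕ) {q : ℝ → X} {S : Set ℝ} (hq : ContinuousOn q S) :
    ContinuousOn (Function.uncurry (A.FL m q)) (S ×ˢ univ) := by
  exact ((A.DN_cont m).comp_continuousOn ((hq.comp continuousOn_fst fun _ h => h.1).prodMk
    continuousOn_snd)).const_smul (-I)

theorem FN_lip (m : ℕ) (s : ℝ) {R : ℝ} {x y : X} (hx : ‖x‖ ≤ R) (hy : ‖y‖ ≤ R) :
    ‖A.FN m s x - A.FN m s y‖ ≤ (2 * m + 1) * R ^ (2 * m) * ‖x - y‖ := by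
  rw [FN, FN, ← smul_sub, norm_smul, norm_neg, Complex.norm_I, one_mul]
  exact A.N_lip m hx hy

theorem FL_lip (m : ℕ) (q : ℝ → X) (s : ℝ) {R : ℝ} (hq : ‖q s‖ ≤ R) (x y : X) :
    ‖A.FL m q s x - A.FL m q s y‖ ≤ (2 * m + 1) * R ^ (2 * m) * ‖x - y‖ := by
  rw [FL, FL, ← smul_sub, norm_smul, norm_neg, Complex.norm_I, one_mul, ← A.DN_sub]
  refine (A.norm_DN m _ _).trans ?_
  gcongr

variable {Y : Type} [NormedAddCommGroup Y] [NormedSpace ℂ Y]

/-- exact homomorphisms up to a scalar: `T (x y) = c T x T y`, `T (x̄) = d (T x)‾` -/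
theorem map_N (B : Alg Y) (T : X →L[ℂ] Y) (c d : ℂ)
    (hm : ∀ x y, T (A.mul x y) = c • B.mul (T x) (T y))
    (hs : ∀ x, T (A.st x) = d • B.st (T x)) (m : ℕ) (x : X) :
    T (A.N m x) = (c ^ 2 * d) ^ m • B.N m (T x) := by
  induction m with
  | zero => simp [N]
  | succ m ih =>
    simp only [N, hm, hs, ih, map_smul, ContinuousLinearMap.smul_apply, smul_smul]
    congr 1
    ring

theorem map_DN (B : Alg Y) (T : X →L[ℂ] Y) (c d : ℂ)
    (hm : ∀ x y, T (A.mul x y) = c • B.mul (T x) (T y))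
    (hs : ∀ x, T (A.st x) = d • B.st (T x)) (m : ℕ) (x w : X) :
    T (A.DN m x w) = (c ^ 2 * d) ^ m • B.DN m (T x) (T w) := by
  induction m with
  | zero => simp [DN]
  | succ m ih =>
    simp only [DN, hm, hs, ih, A.map_N B T c d hm hs, map_add, map_smul,
      ContinuousLinearMap.smul_apply, ContinuousLinearMap.add_apply, smul_smul, smul_add]
    module

end Alg
end P139
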