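import Vale.Agent.P139.TDefs
import Vale.Agent.P139.TAlg

/-! P139 part L: definitions (real-linear flow in self-similar time). -/

open Complex Set Filter Topology MeasureTheory

noncomputable section
namespace P139

section abstract

variable {X : Type} [NormedAddCommGroup X] [NormedSpace ℝ X]

/-- strongly continuous group of real-linear operators -/
structure C0 (X : Type) [NormedAddCommGroup X] [NormedSpace ℝ X] where
  S : ℝ → X →L[ℝ] X
  zero : ∀ x, S 0 x = x
  add : ∀ s t x, S (s + t) x = S s (S t x)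
  cont : Continuous fun p : ℝ × X => S p.1 p.2

/-- mild solution on `[0,T]` of `φ' = (generator) φ + V φ` -/
def C0.Mild (G : C0 X) (V : X →L[ℝ] X) (T : ℝ) (φ : ℝ → X) : Prop :=
  ContinuousOn φ (Icc 0 T) ∧
    ∀ τ ∈ Icc (0 : ℝ) T, φ τ = G.S τ (φ 0) + ∫ s in (0 : ℝ)..τ, G.S (τ - s) (V (φ s))

/-- the perturbed semigroup -/
structure C0.Flow (G : C0 X) (V : X →L[ℝ] X) where
  Φ : ℝ → X →L[ℝ] X
  zero : ∀ x, Φ 0 x = x
  mild : ∀ x T, G.Mild V T fun τ => Φ τ x
  uniq : ∀ T φ, G.Mild V T φ → ∀ τ ∈ Icc (0 : ℝ) T, φ τ = Φ τ (φ 0)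
  add : ∀ s t : ℝ, 0 ≤ s → 0 ≤ t → ∀ x, Φ (s + t) x = Φ s (Φ t x)

end abstract

/-- the image of the unit ball has a finite `δ`-net -/
def Net {Y : Type} [NormedAddCommGroup Y] (T : Y → Y) (δ : ℝ) : Prop :=
  ∃ t : Finset Y, ∀ x, ‖x‖ ≤ 1 → ∃ y ∈ t, ‖T x - y‖ ≤ δ

/-- the linearised potential as a real-linear operator -/
def Alg.VL {X : Type} [NormedAddCommGroup X] [NormedSpace ℂ X] [NormedSpace ℝ X]
    [IsScalarTower ℝ ℂ X] (A : Alg X) (m : ℕ) (q : X) : X →L[ℝ] X :=
  LinearMap.mkContinuous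
    { toFun := fun x => (-I) • A.DN m q x
      map_add' := fun x y => by rw [A.DN_add, smul_add]
      map_smul' := fun c x => by
        rw [RingHom.id_apply, ← algebraMap_smul ℂ c x, ← algebraMap_smul ℂ c, Complex.coe_algebraMap,
          A.DN_real_smul, smul_comm] }
    ((2 * m + 1) * ‖q‖ ^ (2 * m)) fun x => by
      simpa [norm_smul] using A.norm_DN m q x

theorem Alg.VL_apply {X : Type} [NormedAddCommGroup X] [NormedSpace ℂ X] [NormedSpace ℝ X]
    [IsScalarTower ℝ ℂ X] (A : Alg X) (m : ℕ) (q x : X) :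
    A.VL m q x = (-I) • A.DN m q x := rfl

variable {m : ℕ} {P : Prof m}

/-- the free flow in self-similar time -/
def Prof.S0 (P : Prof m) (K : ℕ) (τ : ℝ) : XR K 1 →L[ℂ] XR K 1 :=
  (P.Dinv K τ).comp ((algR K 1).U (1 - Real.exp (-τ)))

/-- the potential of the linearised equation in self-similar time -/
def FD.V (F : FD P) (K : ℕ) : XR K 1 →L[ℝ] XR K 1 := (algR K 1).VL m (F.qW K 1 0)

/-- eigenvalues of the symmetry modes -/
def lamZ : Md14 → ℝ
  | none => 0
  | some none => 1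
  | some (some _) => 1 / 2

end P139
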