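import Vale.Agent.P139.LGenF
import Vale.Agent.P139.LAbs

/-! P139 L: eigenvectors of the flow modulo symmetries are classical modes. -/

open Complex Set Filter Topology MeasureTheory
open scoped ComplexConjugate Laplacian

noncomputable section
namespace P139

variable {m : ℕ} {P : Prof m}

/-- the span of finitely many pairs of functions is closed under pointwise derivatives -/
theorem inZZ_deriv {u v : ℝ → E → ℂ} {f g : E → ℂ}
    (h : ∀ t ∈ Icc (0 : ℝ) 1, P.InZZ (u t) (v t))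
    (hu : ∀ y, HasDerivWithinAt (fun t => u t y) (f y) (Icc 0 1) 0)
    (hv : ∀ y, HasDerivWithinAt (fun t => v t y) (g y) (Icc 0 1) 0) : P.InZZ f g := by
  let W : Submodule ℂ ((E → ℂ) × (E → ℂ)) :=
    Submodule.span ℂ (range fun i : Md14 => (P.zm i, fun y => conj (P.zm i y)))
  have hW : ∀ a b : E → ℂ, (a, b) ∈ W ↔ P.InZZ a b := by
    intro a b
    rw [Submodule.mem_span_range_iff_exists_fun]
    refine exists_congr fun c => ?_
    rw [eq_comm, Prod.ext_iff, Prod.fst_sum, Prod.snd_sum, funext_iff, funext_iff, ← forall_and]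
    simp only [Finset.sum_apply, Prod.smul_mk, Pi.smul_apply, smul_eq_mul]
  have : FiniteDimensional ℂ W := FiniteDimensional.span_of_finite ℂ (finite_range _)
  have hcl : IsClosed (W : Set ((E → ℂ) × (E → ℂ))) := W.closed_of_finiteDimensional
  have hne : (𝓝[Icc (0 : ℝ) 1 \ {0}] (0 : ℝ)).NeBot := by
    rw [Icc_sdiff_left, nhdsWithin_Ioc_eq_nhdsGT zero_lt_one]
    infer_instance
  have hlim : Tendsto (fun t : ℝ => ((fun y => slope (fun t => u t y) 0 t,
      fun y => slope (fun t => v t y) 0 t) : (E → ℂ) × (E → ℂ)))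
      (𝓝[Icc (0 : ℝ) 1 \ {0}] (0 : ℝ)) (𝓝 (f, g)) :=
    (tendsto_pi_nhds.2 fun y => hasDerivWithinAt_iff_tendsto_slope.1 (hu y)).prodMk_nhds
      (tendsto_pi_nhds.2 fun y => hasDerivWithinAt_iff_tendsto_slope.1 (hv y))
  refine (hW f g).1 (hcl.mem_of_tendsto hlim ?_)
  filter_upwards [self_mem_nhdsWithin] with t ht
  have h1 := W.smul_mem (((t - 0)⁻¹ : ℝ) : ℂ) (W.sub_mem ((hW _ _).2 (h t ht.1))
    ((hW _ _).2 (h 0 ⟨le_rfl, zero_le_one⟩)))
  have e : ((fun y => slope (fun t => u t y) 0 t, fun y => slope (fun t => v t y) 0 t) :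
      (E → ℂ) × (E → ℂ)) = (((t - 0)⁻¹ : ℝ) : ℂ) • ((u t, v t) - (u 0, v 0)) := by
    refine Prod.ext (funext fun y => ?_) (funext fun y => ?_) <;>
      simp [slope, Complex.real_smul]
  rw [SetLike.mem_coe, e]
  exact h1

theorem LEigAux_add {K : ℕ} (a b : XR K 1) (c : ℂ) (y : E) :
    syn (a + c • b : XR K 1) y = syn a y + c * syn b y := by
  rw [← evS_apply, ← evS_apply, ← evS_apply, map_add, map_smul, smul_eq_mul]

theorem LEigAux_sub {K : ℕ} (a b : XR K 1) (c : ℂ) (y : E) :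
    syn (a - c • b : XR K 1) y = syn a y - c * syn b y := by
  rw [← evS_apply, ← evS_apply, ← evS_apply, map_sub, map_smul, smul_eq_mul]

theorem LEigAux_sum {K : ℕ} (c : Md14 → ℂ) (z : Md14 → XR K 1) (y : E) :
    syn (∑ i, c i • z i : XR K 1) y = ∑ i, c i * syn (z i) y := by
  rw [← evS_apply, map_sum]
  simp only [map_smul, smul_eq_mul, evS_apply]

theorem LEigAux_pert (F : FD P) {K : ℕ} (Fl : (P.G0 K).Flow (F.V K)) (x : XR K 1) (y : E) :
    HasDerivWithinAt (fun t => evS (wR K 1) y (Fl.Φ t x - P.S0 K t x))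
      (-I * (P.W1 y * syn x y + P.W2 y * conj (syn x y))) (Icc 0 1) 0 := by
  have h1 := (Fl.mild x 1).deriv0 one_pos
  simp only [Fl.zero, G0_apply] at h1
  have h2 := ((evS (wR K 1) y).restrictScalars ℝ).hasFDerivAt.comp_hasDerivWithinAt (0 : ℝ) h1
  rw [ContinuousLinearMap.coe_restrictScalars', evS_apply, syn_V] at h2
  exact h2

theorem LEigAux_deriv (F : FD P) {K : ℕ} (hK : 2 ≤ K) (Fl : (P.G0 K).Flow (F.V K))
    (x₁ x₂ : XR K 1) (c : ℂ) (y : E) :
    HasDerivWithinAt (fun t => syn (Fl.Φ t x₁ + c • Fl.Φ t x₂ : XR K 1) y)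
      (-P.aa * syn (x₁ + c • x₂ : XR K 1) y - fderiv ℝ (syn (x₁ + c • x₂ : XR K 1)) y y / 2
        + I * (Δ (syn (x₁ + c • x₂ : XR K 1))) y
        - I * (P.W1 y * syn (x₁ + c • x₂ : XR K 1) y
          + P.W2 y * (conj (syn x₁ y) + c * conj (syn x₂ y)))) (Icc 0 1) 0 := by
  have h := ((LEigAux_pert F Fl x₁ y).add ((LEigAux_pert F Fl x₂ y).const_mul c)).add
    (S0_syn_deriv P hK (x₁ + c • x₂) y).hasDerivWithinAt
  refine (h.congr_deriv ?_).congr (fun t _ => ?_) ?_
  · rw [LEigAux_add x₁ x₂ c y]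
    ring
  · simp only [Pi.add_apply, ← evS_apply, map_add, map_sub, map_smul, smul_eq_mul]
    ring
  · simp only [Pi.add_apply, ← evS_apply, map_add, map_sub, map_smul, smul_eq_mul]
    ring

theorem flow_syn_deriv (F : FD P) {K : ℕ} (hK : 2 ≤ K) (Fl : (P.G0 K).Flow (F.V K))
    (x : XR K 1) (y : E) :
    HasDerivWithinAt (fun t => syn (Fl.Φ t x) y)
      (-P.aa * syn x y - fderiv ℝ (syn x) y y / 2 + I * (Δ (syn x)) y
        - I * (P.W1 y * syn x y + P.W2 y * conj (syn x y))) (Icc 0 1) 0 := by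
  simpa using LEigAux_deriv F hK Fl x x 0 y

theorem flow_eig (F : FD P) (hS : P.PDEStable) {K : ℕ} (hK : 48 ≤ K)
    (Fl : (P.G0 K).Flow (F.V K)) (lam : ℂ) (hlam : 0 ≤ lam.re) (x₁ x₂ : XR K 1)
    (h : ∀ t : ℝ, 0 ≤ t → ∃ c : Md14 → ℂ,
      (Fl.Φ t x₁ + I • Fl.Φ t x₂) - cexp (lam * t) • (x₁ + I • x₂) = ∑ i, c i • F.zW K 1 i ∧
      ((algR K 1).st (Fl.Φ t x₁) + I • (algR K 1).st (Fl.Φ t x₂))
        - cexp (lam * t) • ((algR K 1).st x₁ + I • (algR K 1).st x₂)
        = ∑ i, c i • (algR K 1).st (F.zW K 1 i)) :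
    ∃ c : Md14 → ℂ, x₁ + I • x₂ = ∑ i, c i • F.zW K 1 i ∧
      (algR K 1).st x₁ + I • (algR K 1).st x₂ = ∑ i, c i • (algR K 1).st (F.zW K 1 i) := by
  have hK2 : 2 ≤ K := by omega
  set a : XR K 1 := x₁ + I • x₂ with ha
  set b : XR K 1 := (algR K 1).st x₁ + I • (algR K 1).st x₂ with hb
  have hst : ∀ (u v : XR K 1) (y : E), syn ((algR K 1).st u + I • (algR K 1).st v : XR K 1) y
      = conj (syn (u + (-I) • v : XR K 1) y) := by
    intro u v y
    rw [LEigAux_add, LEigAux_add, syn_stOp, syn_stOp]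
    simp
  have hbc : syn b = conjCLE ∘ syn (x₁ + (-I) • x₂ : XR K 1) := funext fun y => hst x₁ x₂ y
  have hexp : ∀ w : ℂ, HasDerivWithinAt (fun t : ℝ => cexp (lam * t) * w) (lam * w)
      (Icc 0 1) 0 := by
    intro w
    have h1 := ((((hasDerivAt_id (0 : ℝ)).ofReal_comp).const_mul lam).cexp.mul_const w)
    simpa using h1.hasDerivWithinAt (s := Icc 0 1)
  have hcd : ∀ x : XR K 1, ContDiff ℝ 48 (syn x) := fun x =>
    (syn_contDiff (memW_coe x)).of_le (by exact_mod_cast hK)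
  have hmain := hS lam hlam (syn a) (syn b) (hcd a) (hcd b)
    (fun j hj => ⟨max ‖a‖ ‖b‖, fun y =>
      ⟨((norm_iteratedFDeriv_syn (memW_coe a) (hj.trans hK) y).trans
          (norm_eq_nw a).ge).trans (le_max_left _ _),
        ((norm_iteratedFDeriv_syn (memW_coe b) (hj.trans hK) y).trans
          (norm_eq_nw b).ge).trans (le_max_right _ _)⟩⟩) (by
    refine inZZ_deriv
      (u := fun t y => syn (Fl.Φ t x₁ + I • Fl.Φ t x₂ : XR K 1) y - cexp (lam * t) * syn a y)
      (v := fun t y => conj (syn (Fl.Φ t x₁ + (-I) • Fl.Φ t x₂ : XR K 1) y)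
        - cexp (lam * t) * syn b y) (fun t ht => ?_) (fun y => ?_) (fun y => ?_)
    · obtain ⟨c, h1, h2⟩ := h t ht.1
      refine ⟨c, fun y => ⟨?_, ?_⟩⟩
      · have h3 := congrArg (fun x : XR K 1 => syn x y) h1
        simp only [LEigAux_sub, LEigAux_sum, syn_zW] at h3
        exact h3
      · have h3 := congrArg (fun x : XR K 1 => syn x y) h2
        simp only [LEigAux_sub, LEigAux_sum, syn_stOp, syn_zW, hst] at h3
        exact h3
    · refine ((LEigAux_deriv F hK2 Fl x₁ x₂ I y).sub (hexp (syn a y))).congr_deriv ?_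
      have e : syn b y = conj (syn x₁ y) + I * conj (syn x₂ y) := by
        rw [hb, LEigAux_add, syn_stOp, syn_stOp]
      rw [← ha, e, Prof.aa]
    · have h1 := conjCLE.toContinuousLinearMap.hasFDerivAt.comp_hasDerivWithinAt (0 : ℝ)
        (LEigAux_deriv F hK2 Fl x₁ x₂ (-I) y)
      refine (h1.sub (hexp (syn b y))).congr_deriv ?_
      have e1 : fderiv ℝ (syn b) y y = conj (fderiv ℝ (syn (x₁ + (-I) • x₂ : XR K 1)) y y) := by
        rw [hbc, ContinuousLinearEquiv.comp_fderiv]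
        rfl
      have e2 : (Δ (syn b)) y = conj ((Δ (syn (x₁ + (-I) • x₂ : XR K 1))) y) := by
        rw [hbc, InnerProductSpace.laplacian_CLE_comp_left]
        rfl
      have e3 : syn b y = conj (syn (x₁ + (-I) • x₂ : XR K 1) y) := hst x₁ x₂ y
      have e4 : syn a y = syn x₁ y + I * syn x₂ y := LEigAux_add x₁ x₂ I y
      have e5 : conj (P.W1 y) = P.W1 y := by
        simp [Prof.W1, mul_comm]
      rw [e1, e2, e3, e4]
      simp only [ContinuousLinearEquiv.coe_coe, conjCLE_apply, map_add, map_sub, map_mul, map_neg,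
        map_div₀, Prof.aa, conj_I, conj_ofReal, conj_conj, e5, map_ofNat]
      ring)
  obtain ⟨c, hc⟩ := hmain
  refine ⟨c, XW_syn_ext fun y => ?_, XW_syn_ext fun y => ?_⟩
  · rw [LEigAux_sum, (hc y).1]
    simp only [syn_zW]
  · rw [LEigAux_sum, (hc y).2]
    simp only [syn_stOp, syn_zW]

end P139
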