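import Mathlib

/-! P139: generic Banach space lemmas for parts L and T. -/

open Set Filter Topology Metric

noncomputable section
namespace P139

section
variable {X : Type*} [NormedAddCommGroup X] [NormedSpace ℝ X]

/-- radial retraction onto the closed ball of radius `r` -/
def tgClamp (r : ℝ) (x : X) : X := (r / max r ‖x‖) • x

theorem tgClamp_of_le {r : ℝ} (hr : 0 < r) {x : X} (hx : ‖x‖ ≤ r) : tgClamp r x = x := by
  simp [tgClamp, max_eq_left hx, hr.ne']

theorem tgClamp_norm_le {r : ℝ} (hr : 0 < r) (x : X) : ‖tgClamp r x‖ ≤ r := by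
  have h0 : 0 < max r ‖x‖ := lt_max_of_lt_left hr
  rw [tgClamp, norm_smul, Real.norm_of_nonneg (by positivity), div_mul_eq_mul_div,
    div_le_iff₀ h0]
  gcongr
  exact le_max_right _ _

theorem tgClamp_norm_le' {r : ℝ} (hr : 0 < r) (x : X) : ‖tgClamp r x‖ ≤ ‖x‖ := by
  have h0 : 0 < max r ‖x‖ := lt_max_of_lt_left hr
  rw [tgClamp, norm_smul, Real.norm_of_nonneg (by positivity)]
  have : r / max r ‖x‖ ≤ 1 := (div_le_one h0).2 (le_max_left _ _)
  nlinarith [norm_nonneg x]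

theorem tgClamp_lip {r : ℝ} (hr : 0 < r) (x y : X) :
    ‖tgClamp r x - tgClamp r y‖ ≤ 2 * ‖x - y‖ := by
  have hx0 : 0 < max r ‖x‖ := lt_max_of_lt_left hr
  have hy0 : 0 < max r ‖y‖ := lt_max_of_lt_left hr
  set a := max r ‖x‖ with ha
  set b := max r ‖y‖ with hb
  have hab : |a - b| ≤ ‖x - y‖ :=
    (by simpa [ha, hb] using abs_max_sub_max_le_max r ‖x‖ r ‖y‖ :
      |a - b| ≤ |‖x‖ - ‖y‖|).trans (abs_norm_sub_norm_le x y)
  have e : tgClamp r x - tgClamp r y = (r / a) • (x - y) + (r / a - r / b) • y := by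
    simp only [tgClamp, ← ha, ← hb, smul_sub, sub_smul]
    abel
  have h1 : r / a ≤ 1 := (div_le_one hx0).2 (le_max_left _ _)
  have h2 : ‖y‖ ≤ b := le_max_right _ _
  have h3 : |r / a - r / b| * ‖y‖ ≤ ‖x - y‖ := by
    have e2 : r / a - r / b = (r / a) * ((b - a) / b) := by
      field_simp
    rw [e2, abs_mul, abs_of_nonneg (by positivity : 0 ≤ r / a), abs_div, abs_of_pos hy0,
      abs_sub_comm]
    calc r / a * (|a - b| / b) * ‖y‖ ≤ 1 * (|a - b| / b) * b := by gcongr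
      _ = |a - b| := by field_simp
      _ ≤ _ := hab
  rw [e]
  calc _ ≤ ‖(r / a) • (x - y)‖ + ‖(r / a - r / b) • y‖ := norm_add_le _ _
    _ = r / a * ‖x - y‖ + |r / a - r / b| * ‖y‖ := by
        rw [norm_smul, norm_smul, Real.norm_of_nonneg (by positivity), Real.norm_eq_abs]
    _ ≤ 1 * ‖x - y‖ + ‖x - y‖ := by gcongr
    _ = _ := by ring

theorem tg_gronwall_le {δ M η t : ℝ} (hM : 0 ≤ M) (hη : 0 ≤ η) :
    gronwallBound δ M η t ≤ (δ + η * t) * Real.exp (M * t) := by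
  rcases hM.eq_or_lt with h | h
  · subst h
    simp [gronwallBound_K0]
  · rw [gronwallBound_of_K_ne_0 h.ne']
    have h1 : Real.exp (M * t) - 1 ≤ M * t * Real.exp (M * t) := by
      have h2 := Real.add_one_le_exp (-(M * t))
      have h3 : Real.exp (-(M * t)) * Real.exp (M * t) = 1 := by
        rw [← Real.exp_add]
        simp
      nlinarith [Real.exp_pos (M * t)]
    have h4 : η / M * (Real.exp (M * t) - 1) ≤ η / M * (M * t * Real.exp (M * t)) := by gcongr
    have h5 : η / M * (M * t * Real.exp (M * t)) = η * t * Real.exp (M * t) := by field_simp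
    nlinarith

theorem tg_gronwall {f f' : ℝ → X} {δ M η T : ℝ} (hM : 0 ≤ M) (hη : 0 ≤ η)
    (hf : ∀ t ∈ Icc 0 T, HasDerivWithinAt f (f' t) (Icc 0 T) t) (h0 : ‖f 0‖ ≤ δ)
    (hb : ∀ t ∈ Icc 0 T, ‖f' t‖ ≤ M * ‖f t‖ + η) :
    ∀ t ∈ Icc 0 T, ‖f t‖ ≤ (δ + η * t) * Real.exp (M * t) := by
  intro t ht
  have h1 := norm_le_gronwallBound_of_norm_deriv_right_le (f := f) (f' := f') (a := 0) (b := T)
    (fun s hs => (hf s hs).continuousWithinAt)
    (fun s hs => (hf s (Ico_subset_Icc_self hs)).mono_of_mem_nhdsWithin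
      (Icc_mem_nhdsGE_of_mem hs)) h0 (fun s hs => hb s (Ico_subset_Icc_self hs)) t ht
  rw [sub_zero] at h1
  exact h1.trans (tg_gronwall_le hM hη)

variable [CompleteSpace X]

/-- existence on the whole interval `[0,T]` for small data and a field that is `M`-Lipschitz
on the ball of radius `r` and `η`-small at the origin -/
theorem tg_exists {F : ℝ → X → X} {r M η T : ℝ} (hr : 0 < r) (hM : 0 ≤ M) (hη : 0 ≤ η)
    (hT : 0 ≤ T) (hc : ∀ x : X, ‖x‖ ≤ r → ContinuousOn (fun t => F t x) (Icc 0 T))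
    (hl : ∀ t ∈ Icc 0 T, ∀ x y : X, ‖x‖ ≤ r → ‖y‖ ≤ r → ‖F t x - F t y‖ ≤ M * ‖x - y‖)
    (h0 : ∀ t ∈ Icc 0 T, ‖F t 0‖ ≤ η) (x₀ : X)
    (hx : (‖x₀‖ + η * T) * Real.exp (M * T) ≤ r) :
    ∃ a : ℝ → X, a 0 = x₀ ∧ (∀ t ∈ Icc 0 T, HasDerivWithinAt a (F t (a t)) (Icc 0 T) t) ∧
      ∀ t ∈ Icc 0 T, ‖a t‖ ≤ (‖x₀‖ + η * t) * Real.exp (M * t) := by
  have hb : ∀ t ∈ Icc 0 T, ∀ x : X, ‖x‖ ≤ r → ‖F t x‖ ≤ M * ‖x‖ + η := by
    intro t ht x hx
    have h1 := hl t ht x 0 hx (by simpa using hr.le)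
    have h2 := norm_add_le (F t x - F t 0) (F t 0)
    rw [sub_add_cancel] at h2
    rw [sub_zero] at h1
    linarith [h0 t ht]
  have hL : 0 ≤ M * r + η := by positivity
  have hP : IsPicardLindelof (fun t x => F t (tgClamp r x)) (tmin := 0) (tmax := T)
      ⟨0, le_rfl, hT⟩ x₀ (.mk ((M * r + η) * T) (by positivity)) 0 (.mk (M * r + η) hL)
      (.mk (M * 2) (by positivity)) :=
    { lipschitzOnWith := fun t ht => by
        refine LipschitzOnWith.of_dist_le_mul fun x _ y _ => ?_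
        rw [dist_eq_norm, dist_eq_norm]
        calc _ ≤ M * ‖tgClamp r x - tgClamp r y‖ :=
              hl t ht _ _ (tgClamp_norm_le hr x) (tgClamp_norm_le hr y)
          _ ≤ M * (2 * ‖x - y‖) := by gcongr; exact tgClamp_lip hr x y
          _ = _ := by simp only [NNReal.coe_mk]; ring
      continuousOn := fun x _ => hc _ (tgClamp_norm_le hr x)
      norm_le := fun t ht x _ => by
        have h1 := hb t ht _ (tgClamp_norm_le hr x)
        have h2 : M * ‖tgClamp r x‖ ≤ M * r := by gcongr; exact tgClamp_norm_le hr x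
        simp only [NNReal.coe_mk]
        linarith
      mul_max_le := by simp [hT] }
  obtain ⟨a, ha0, ha⟩ := hP.exists_eq_forall_mem_Icc_hasDerivWithinAt₀
  have hg := tg_gronwall (δ := ‖x₀‖) hM hη ha (by simp at ha0; simp [ha0]) (fun t ht => by
    have h1 := hb t ht _ (tgClamp_norm_le hr (a t))
    have h2 : M * ‖tgClamp r (a t)‖ ≤ M * ‖a t‖ := by gcongr; exact tgClamp_norm_le' hr _
    linarith)
  refine ⟨a, ha0, fun t ht => ?_, hg⟩
  have h1 : ‖a t‖ ≤ r := by
    refine (hg t ht).trans (le_trans ?_ hx)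
    have := ht.1
    have := ht.2
    gcongr
  simpa [tgClamp_of_le hr h1] using ha t ht

/-- weak derivative against a separating family plus continuity gives the strong derivative -/
theorem tg_weak_deriv {ι Y : Type*} [NormedAddCommGroup Y] [NormedSpace ℝ Y] [CompleteSpace Y]
    (ev : ι → X →L[ℝ] Y) (hev : ∀ x : X, (∀ i, ev i x = 0) → x = 0) {c d : ℝ → X}
    (hd : Continuous d) (h : ∀ i s, HasDerivAt (fun s => ev i (c s)) (ev i (d s)) s) (s : ℝ) :
    HasDerivAt c (d s) s := by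
  have e : c = fun s => c 0 + ∫ u in (0 : ℝ)..s, d u := by
    funext s
    rw [← sub_eq_zero]
    refine hev _ fun i => ?_
    have h1 := intervalIntegral.integral_eq_sub_of_hasDerivAt (a := 0) (b := s)
      (fun u _ => h i u) (((ev i).continuous.comp hd).intervalIntegrable _ _)
    rw [map_sub, map_add, ← (ev i).intervalIntegral_comp_comm (hd.intervalIntegrable _ _), h1]
    abel
  rw [e]
  exact (hd.integral_hasStrictDerivAt 0 s).hasDerivAt.const_add _
end

/-- uniformly Lipschitz functionals that tend to zero pointwise do so uniformly on compact sets -/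
theorem tg_unif {X α : Type*} [PseudoMetricSpace X] {l : Filter α} {F : α → X → ℝ} {S : Set X}
    (hS : IsCompact S) {C : ℝ}
    (hl : ∀ᶠ h in l, ∀ x ∈ S, ∀ y ∈ S, F h x ≤ F h y + C * dist x y)
    (hp : ∀ x ∈ S, ∀ ε > 0, ∀ᶠ h in l, F h x ≤ ε) {ε : ℝ} (hε : 0 < ε) :
    ∀ᶠ h in l, ∀ x ∈ S, F h x ≤ ε := by
  have hδ : 0 < ε / 2 / (|C| + 1) := by positivity
  obtain ⟨t, hts, htf, hcov⟩ := (totallyBounded_iff_subset.1 hS.totallyBounded) _
    (dist_mem_uniformity hδ)
  have h1 : ∀ᶠ h in l, ∀ y ∈ t, F h y ≤ ε / 2 :=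
    (eventually_all_finite htf).2 fun y hy => hp y (hts hy) _ (half_pos hε)
  filter_upwards [hl, h1] with h hh h1 x hx
  obtain ⟨y, hy, hxy⟩ := mem_iUnion₂.1 (hcov hx)
  have hxy : dist x y < ε / 2 / (|C| + 1) := hxy
  have h2 := hh x hx y (hts hy)
  have h3 : C * dist x y ≤ ε / 2 := by
    rw [lt_div_iff₀ (by positivity)] at hxy
    nlinarith [le_abs_self C, dist_nonneg (x := x) (y := y), abs_nonneg C]
  linarith [h1 y hy]

end P139
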