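import Vale.Agent.P139.TAbs

/-! P139 T: integral Gronwall inequality, joint continuity of the flow, uniqueness. -/

open Complex Set Filter Topology MeasureTheory

noncomputable section
namespace P139

theorem TGronAux_cont {t₁ a : ℝ} {f b : ℝ → ℝ} (hf : Continuous f) (hb : Continuous b)
    (hb0 : ∀ t ∈ Icc (0 : ℝ) t₁, 0 ≤ b t)
    (h : ∀ t ∈ Icc (0 : ℝ) t₁, f t ≤ a + ∫ s in (0 : ℝ)..t, b s * f s) :
    ∀ t ∈ Icc (0 : ℝ) t₁, f t ≤ a * Real.exp (∫ s in (0 : ℝ)..t, b s) := by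
  have h1 : ∀ t, HasDerivAt (fun t => ∫ s in (0 : ℝ)..t, b s) (b t) t := fun t =>
    (hb.integral_hasStrictDerivAt 0 t).hasDerivAt
  have h2 : ∀ t, HasDerivAt (fun t => ∫ s in (0 : ℝ)..t, b s * f s) (b t * f t) t := fun t =>
    ((hb.mul hf).integral_hasStrictDerivAt 0 t).hasDerivAt
  have h3 : ∀ t, HasDerivAt (fun t => (a + ∫ s in (0 : ℝ)..t, b s * f s) *
      Real.exp (-∫ s in (0 : ℝ)..t, b s))
      (b t * f t * Real.exp (-∫ s in (0 : ℝ)..t, b s) + (a + ∫ s in (0 : ℝ)..t, b s * f s) *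
        (Real.exp (-∫ s in (0 : ℝ)..t, b s) * -b t)) t := fun t =>
    ((h2 t).const_add a).mul (h1 t).neg.exp
  have h4 : AntitoneOn (fun t => (a + ∫ s in (0 : ℝ)..t, b s * f s) *
      Real.exp (-∫ s in (0 : ℝ)..t, b s)) (Icc 0 t₁) := by
    refine antitoneOn_of_deriv_nonpos (convex_Icc _ _)
      (fun t _ => (h3 t).continuousAt.continuousWithinAt)
      (fun t _ => (h3 t).differentiableAt.differentiableWithinAt) fun t ht => ?_
    have ht' := interior_subset ht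
    rw [(h3 t).deriv]
    have e := mul_nonneg (mul_nonneg (hb0 t ht') (sub_nonneg.2 (h t ht')))
      (Real.exp_pos (-∫ s in (0 : ℝ)..t, b s)).le
    nlinarith
  intro t ht
  have h5 := h4 (left_mem_Icc.2 (ht.1.trans ht.2)) ht ht.1
  simp only [intervalIntegral.integral_same, add_zero, neg_zero, Real.exp_zero, mul_one] at h5
  rw [Real.exp_neg, ← div_eq_mul_inv, div_le_iff₀ (Real.exp_pos _)] at h5
  exact (h t ht).trans h5

theorem gronwall_int {t₁ a : ℝ} {f b : ℝ → ℝ} (hf : ContinuousOn f (Icc 0 t₁))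
    (hb : ContinuousOn b (Icc 0 t₁)) (hb0 : ∀ t ∈ Icc (0 : ℝ) t₁, 0 ≤ b t)
    (h : ∀ t ∈ Icc (0 : ℝ) t₁, f t ≤ a + ∫ s in (0 : ℝ)..t, b s * f s) :
    ∀ t ∈ Icc (0 : ℝ) t₁, f t ≤ a * Real.exp (∫ s in (0 : ℝ)..t, b s) := by
  intro t ht
  have h01 : (0 : ℝ) ≤ t₁ := ht.1.trans ht.2
  have hc : ∀ {g : ℝ → ℝ}, ContinuousOn g (Icc 0 t₁) →
      Continuous fun s => g (projIcc 0 t₁ h01 s) := fun hg =>
    (continuousOn_iff_continuous_restrict.1 hg).comp continuous_projIcc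
  have hp : ∀ s ∈ Icc (0 : ℝ) t₁, ((projIcc 0 t₁ h01 s : Icc (0 : ℝ) t₁) : ℝ) = s := fun s hs => by
    rw [projIcc_of_mem h01 hs]
  have hs : ∀ r ∈ Icc (0 : ℝ) t₁, ∀ s ∈ uIcc (0 : ℝ) r, s ∈ Icc (0 : ℝ) t₁ := fun r hr s hs => by
    rw [uIcc_of_le hr.1] at hs
    exact ⟨hs.1, hs.2.trans hr.2⟩
  have key := TGronAux_cont (t₁ := t₁) (a := a) (hc hf) (hc hb)
    (fun s hs => by rw [hp s hs]; exact hb0 s hs) (fun r hr => by
      rw [hp r hr, intervalIntegral.integral_congr (g := fun s => b s * f s)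
        fun s hs' => by simp only [hp s (hs r hr s hs')]]
      exact h r hr) t ht
  rwa [hp t ht, intervalIntegral.integral_congr (g := b)
    fun s hs' => by simp only [hp s (hs t ht s hs')]] at key

/-- `exp ∫_0^t B/(1-s) ds = exp (B τ)` for `t = 1 - e^{-τ}` -/
theorem int_rate (B τ : ℝ) (hτ : 0 ≤ τ) :
    ∫ s in (0 : ℝ)..(1 - Real.exp (-τ)), B / (1 - s) = B * τ := by
  have h1 := intervalIntegral.integral_comp_sub_left (a := 0) (b := 1 - Real.exp (-τ))
    (fun x : ℝ => B * (1 / x)) 1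
  simp only [mul_one_div] at h1
  rw [h1]
  simp only [sub_sub_cancel, sub_zero]
  have h2 : Real.exp (-τ) ≤ 1 := Real.exp_le_one_iff.2 (by linarith)
  have h3 : (0 : ℝ) ∉ uIcc (Real.exp (-τ)) 1 := by
    rw [uIcc_of_le h2]
    exact fun h => absurd h.1 (not_le.2 (Real.exp_pos _))
  have h4 := integral_one_div h3
  rw [Real.log_div one_ne_zero (Real.exp_pos _).ne', Real.log_one, Real.log_exp] at h4
  simp only [div_eq_mul_one_div B]
  rw [intervalIntegral.integral_const_mul, h4]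
  ring

namespace Alg

variable {X : Type} [NormedAddCommGroup X] [NormedSpace ℂ X] (A : Alg X)

theorem U_cont₂ : Continuous fun p : ℝ × X => A.U p.1 p.2 := by
  refine continuous_iff_continuousAt.2 fun p => ?_
  rw [ContinuousAt, tendsto_iff_norm_sub_tendsto_zero]
  have h1 : Tendsto (fun q : ℝ × X => ‖q.2 - p.2‖ + ‖A.U q.1 p.2 - A.U p.1 p.2‖) (𝓝 p) (𝓝 0) := by
    have h2 : Continuous fun q : ℝ × X => ‖q.2 - p.2‖ + ‖A.U q.1 p.2 - A.U p.1 p.2‖ :=
      (continuous_snd.sub continuous_const).norm.add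
        (((A.U_cont p.2).comp continuous_fst).sub continuous_const).norm
    simpa using h2.tendsto p
  refine squeeze_zero (fun _ => norm_nonneg _) (fun q => ?_) h1
  calc ‖A.U q.1 q.2 - A.U p.1 p.2‖ = ‖A.U q.1 (q.2 - p.2) + (A.U q.1 p.2 - A.U p.1 p.2)‖ := by
        rw [map_sub, sub_add_sub_cancel]
    _ ≤ _ := (norm_add_le _ _).trans (add_le_add (A.norm_U _ _) le_rfl)

variable [NormedSpace ℝ X] [CompleteSpace X]

omit [NormedSpace ℝ X] [CompleteSpace X] in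
theorem TGronAux_int {t₁ : ℝ} {f : ℝ → X} (hf : ContinuousOn f (Icc 0 t₁)) {t : ℝ}
    (ht : t ∈ Icc (0 : ℝ) t₁) {φ : ℝ → ℝ} (hφ : Continuous φ) :
    IntervalIntegrable (fun s => A.U (φ s) (f s)) volume 0 t := by
  refine ContinuousOn.intervalIntegrable ?_
  rw [uIcc_of_le ht.1]
  exact A.U_cont₂.comp_continuousOn
    (hφ.continuousOn.prodMk (hf.mono (Icc_subset_Icc le_rfl ht.2)))

theorem duh_integrable {t₁ : ℝ} {f : ℝ → X} (hf : ContinuousOn f (Icc 0 t₁)) {t : ℝ}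
    (ht : t ∈ Icc (0 : ℝ) t₁) :
    IntervalIntegrable (fun s => A.U (t - s) (f s)) volume 0 t := by
  exact A.TGronAux_int hf ht (continuous_const.sub continuous_id)

/-- interaction picture -/
theorem duh_inter {t₁ : ℝ} {f : ℝ → X} (hf : ContinuousOn f (Icc 0 t₁)) {t : ℝ}
    (ht : t ∈ Icc (0 : ℝ) t₁) :
    ∫ s in (0 : ℝ)..t, A.U (t - s) (f s) = A.U t (∫ s in (0 : ℝ)..t, A.U (-s) (f s)) := by
  rw [← (A.U t).intervalIntegral_comp_comm (A.TGronAux_int hf ht continuous_neg)]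
  simp only [sub_eq_add_neg, A.U_add]

/-- difference of two Duhamel formulas -/
theorem Duh.sub {A : Alg X} {t₁ ε ε' : ℝ} {u v f g : ℝ → X} (hu : A.Duh t₁ ε u f)
    (hv : A.Duh t₁ ε' v g) (hf : ContinuousOn f (Icc 0 t₁)) (hg : ContinuousOn g (Icc 0 t₁)) :
    A.Duh t₁ (ε + ε') (fun t => u t - v t) fun s => f s - g s := by
  intro t ht
  have h1 := hu t ht
  have h2 := hv t ht
  simp only [map_sub]
  rw [intervalIntegral.integral_sub (A.duh_integrable hf ht) (A.duh_integrable hg ht)]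
  refine le_trans (le_of_eq ?_) ((norm_sub_le _ _).trans (add_le_add h1 h2))
  congr 1
  abel

/-- norm form of a Duhamel formula -/
theorem Duh.norm_le {A : Alg X} {t₁ ε : ℝ} {u f : ℝ → X} (hu : A.Duh t₁ ε u f)
    (hf : ContinuousOn f (Icc 0 t₁)) :
    ∀ t ∈ Icc (0 : ℝ) t₁, ‖u t‖ ≤ ‖u 0‖ + ε + ∫ s in (0 : ℝ)..t, ‖f s‖ := by
  intro t ht
  have h1 := hu t ht
  have h2 : ‖∫ s in (0 : ℝ)..t, A.U (t - s) (f s)‖ ≤ ∫ s in (0 : ℝ)..t, ‖f s‖ := by
    refine (intervalIntegral.norm_integral_le_integral_norm ht.1).trans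
      (intervalIntegral.integral_mono_on ht.1 (A.duh_integrable hf ht).norm ?_
        fun s _ => A.norm_U _ _)
    refine ContinuousOn.intervalIntegrable ?_
    rw [uIcc_of_le ht.1]
    exact (hf.mono (Icc_subset_Icc le_rfl ht.2)).norm
  have h3 := norm_add_le (A.U t (u 0)) (∫ s in (0 : ℝ)..t, A.U (t - s) (f s))
  have h4 := norm_le_norm_add_norm_sub' (u t) (A.U t (u 0) + ∫ s in (0 : ℝ)..t, A.U (t - s) (f s))
  linarith [A.norm_U t (u 0)]

/-- uniqueness of exact solutions for a field that is Lipschitz on bounded sets -/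
theorem App.unique {A : Alg X} {F : ℝ → X → X} {t₁ : ℝ} {u v : ℝ → X}
    (hF : ContinuousOn (Function.uncurry F) (Icc 0 t₁ ×ˢ univ))
    (hL : ∀ R : ℝ, ∃ L : ℝ, ∀ s ∈ Icc (0 : ℝ) t₁, ∀ x y : X, ‖x‖ ≤ R → ‖y‖ ≤ R →
      ‖F s x - F s y‖ ≤ L * ‖x - y‖)
    (hu : A.App F t₁ 0 u) (hv : A.App F t₁ 0 v) (h0 : u 0 = v 0) :
    ∀ t ∈ Icc (0 : ℝ) t₁, u t = v t := by
  obtain ⟨R1, hR1⟩ := isCompact_Icc.exists_bound_of_continuousOn hu.1
  obtain ⟨R2, hR2⟩ := isCompact_Icc.exists_bound_of_continuousOn hv.1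
  obtain ⟨L, hL'⟩ := hL (max R1 R2)
  have hc : ∀ {w : ℝ → X}, ContinuousOn w (Icc 0 t₁) →
      ContinuousOn (fun s => F s (w s)) (Icc 0 t₁) := fun hw =>
    hF.comp (continuousOn_id.prodMk hw) fun s hs => ⟨hs, mem_univ _⟩
  have h1 := (hu.2.sub hv.2 (hc hu.1) (hc hv.1)).norm_le ((hc hu.1).sub (hc hv.1))
  have hd := (hu.1.sub hv.1).norm
  have h2 := gronwall_int (t₁ := t₁) (a := 0) (f := fun t => ‖u t - v t‖) (b := fun _ => max L 0)
    hd continuousOn_const (fun _ _ => le_max_right _ _) (fun t ht => by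
      refine (h1 t ht).trans ?_
      simp only [h0, sub_self, norm_zero, add_zero, zero_add]
      have hsub : uIcc 0 t ⊆ Icc 0 t₁ := by
        rw [uIcc_of_le ht.1]
        exact Icc_subset_Icc le_rfl ht.2
      refine intervalIntegral.integral_mono_on ht.1
        ((((hc hu.1).sub (hc hv.1)).norm.mono hsub).intervalIntegrable)
        (((continuousOn_const.mul hd).mono hsub).intervalIntegrable) fun s hs => ?_
      have hs' : s ∈ Icc 0 t₁ := ⟨hs.1, hs.2.trans ht.2⟩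
      exact (hL' s hs' _ _ ((hR1 s hs').trans (le_max_left _ _))
        ((hR2 s hs').trans (le_max_right _ _))).trans
        (mul_le_mul_of_nonneg_right (le_max_left _ _) (norm_nonneg _)))
  intro t ht
  have h3 := h2 t ht
  rw [zero_mul] at h3
  exact sub_eq_zero.1 (norm_le_zero_iff.1 h3)

end Alg

end P139
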