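import Vale.Agent.P139.LDefs
import Vale.Agent.P139.TGen
import Vale.Agent.P139.TGron

/-! P139 L: existence of the perturbed semigroup (abstract). -/

open Complex Set Filter Topology MeasureTheory
open scoped ComplexConjugate Laplacian

noncomputable section
namespace P139

variable {X : Type} [NormedAddCommGroup X] [NormedSpace ℝ X] [CompleteSpace X]

theorem C0.bound (G : C0 X) (T : ℝ) :
    ∃ M : ℝ, 1 ≤ M ∧ ∀ t ∈ Icc (-T) T, ∀ x, ‖G.S t x‖ ≤ M * ‖x‖ := by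
  obtain ⟨C, hC⟩ := banach_steinhaus (g := fun t : Icc (-T) T => G.S t) fun x => by
    have hc : Continuous fun t : ℝ => G.S t x :=
      G.cont.comp (continuous_id.prodMk continuous_const)
    obtain ⟨C, hC⟩ := (isCompact_Icc (a := -T) (b := T)).exists_bound_of_continuousOn
      hc.continuousOn
    exact ⟨C, fun t => hC t t.2⟩
  exact ⟨max 1 C, le_max_left _ _, fun t ht x =>
    (G.S t).le_of_opNorm_le ((hC ⟨t, ht⟩).trans (le_max_right _ _)) x⟩

omit [CompleteSpace X] in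
theorem LFlowAux_int (G : C0 X) (V : X →L[ℝ] X) {T : ℝ} {φ : ℝ → X}
    (hφ : ContinuousOn φ (Icc 0 T)) (τ : ℝ) {a b : ℝ} (ha : a ∈ Icc (0 : ℝ) T)
    (hb : b ∈ Icc (0 : ℝ) T) : IntervalIntegrable (fun s => G.S (τ - s) (V (φ s))) volume a b := by
  refine ContinuousOn.intervalIntegrable ?_
  exact G.cont.comp_continuousOn ((continuous_const.sub continuous_id).continuousOn.prodMk
    (V.continuous.comp_continuousOn (hφ.mono (uIcc_subset_Icc ha hb))))

omit [CompleteSpace X] in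
theorem LFlowAux_comb {G : C0 X} {V : X →L[ℝ] X} {T : ℝ} {φ ψ : ℝ → X} (hφ : G.Mild V T φ)
    (hψ : G.Mild V T ψ) (c : ℝ) : G.Mild V T fun t => φ t + c • ψ t := by
  refine ⟨hφ.1.add (hψ.1.const_smul c), fun τ hτ => ?_⟩
  have h0 : (0 : ℝ) ∈ Icc (0 : ℝ) T := ⟨le_rfl, hτ.1.trans hτ.2⟩
  simp only [map_add, map_smul]
  have hi : IntervalIntegrable (fun s => c • G.S (τ - s) (V (ψ s))) volume 0 τ :=
    (LFlowAux_int G V hψ.1 τ h0 hτ).smul c
  rw [intervalIntegral.integral_add (LFlowAux_int G V hφ.1 τ h0 hτ) hi,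
    intervalIntegral.integral_smul, hφ.2 τ hτ, hψ.2 τ hτ, smul_add]
  abel

omit [CompleteSpace X] in
theorem LFlowAux_mono {G : C0 X} {V : X →L[ℝ] X} {T T' : ℝ} {φ : ℝ → X} (hφ : G.Mild V T φ)
    (h : T' ≤ T) : G.Mild V T' φ :=
  ⟨hφ.1.mono (Icc_subset_Icc_right h), fun τ hτ => hφ.2 τ ⟨hτ.1, hτ.2.trans h⟩⟩

omit [CompleteSpace X] in
theorem LFlowAux_congr {G : C0 X} {V : X →L[ℝ] X} {T : ℝ} {φ ψ : ℝ → X} (hφ : G.Mild V T φ)
    (h : ∀ τ ∈ Icc (0 : ℝ) T, ψ τ = φ τ) : G.Mild V T ψ := by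
  refine ⟨hφ.1.congr h, fun τ hτ => ?_⟩
  rw [h τ hτ, h 0 ⟨le_rfl, hτ.1.trans hτ.2⟩, hφ.2 τ hτ]
  refine congrArg _ (intervalIntegral.integral_congr fun s hs => ?_)
  rw [uIcc_of_le hτ.1] at hs
  simp only [h s ⟨hs.1, hs.2.trans hτ.2⟩]

theorem LFlowAux_bound (G : C0 X) (V : X →L[ℝ] X) (T : ℝ) : ∃ C : ℝ, ∀ φ : ℝ → X,
    G.Mild V T φ → ∀ τ ∈ Icc (0 : ℝ) T, ‖φ τ‖ ≤ C * ‖φ 0‖ := by
  obtain ⟨M, hM1, hM⟩ := G.bound T
  have hM0 : 0 ≤ M := zero_le_one.trans hM1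
  refine ⟨M * Real.exp (M * ‖V‖ * T), fun φ hφ τ hτ => ?_⟩
  have h1 := gronwall_int (a := M * ‖φ 0‖) (b := fun _ => M * ‖V‖) hφ.1.norm continuousOn_const
    (fun _ _ => by positivity) (fun t ht => by
      have h0 : (0 : ℝ) ∈ Icc (0 : ℝ) T := ⟨le_rfl, ht.1.trans ht.2⟩
      rw [hφ.2 t ht]
      refine (norm_add_le _ _).trans (add_le_add (hM t ⟨by linarith [ht.1, ht.2], ht.2⟩ _) ?_)
      refine (intervalIntegral.norm_integral_le_integral_norm ht.1).trans ?_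
      refine intervalIntegral.integral_mono_on ht.1 (LFlowAux_int G V hφ.1 t h0 ht).norm
        ((continuousOn_const.mul (hφ.1.mono (uIcc_subset_Icc h0 ht)).norm).intervalIntegrable)
        fun s hs => ?_
      refine (hM (t - s) ⟨by linarith [hs.2, h0.2], by linarith [hs.1, ht.2]⟩ _).trans ?_
      rw [mul_assoc]
      exact mul_le_mul_of_nonneg_left (V.le_opNorm _) hM0) τ hτ
  refine h1.trans ?_
  rw [intervalIntegral.integral_const, sub_zero, smul_eq_mul, mul_right_comm, mul_comm τ]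
  gcongr
  exact hτ.2

theorem C0.Mild.unique {G : C0 X} {V : X →L[ℝ] X} {T : ℝ} {φ ψ : ℝ → X} (hφ : G.Mild V T φ)
    (hψ : G.Mild V T ψ) (h0 : φ 0 = ψ 0) : ∀ τ ∈ Icc (0 : ℝ) T, φ τ = ψ τ := by
  intro τ hτ
  obtain ⟨C, hC⟩ := LFlowAux_bound G V T
  have h1 := hC _ (LFlowAux_comb hφ hψ (-1)) τ hτ
  simp only [h0, neg_smul, one_smul, add_neg_cancel, norm_zero, mul_zero, norm_le_zero_iff] at h1
  exact add_neg_eq_zero.1 h1

theorem C0.exists_mild (G : C0 X) (V : X →L[ℝ] X) (T : ℝ) (x : X) :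
    ∃ φ : ℝ → X, φ 0 = x ∧ G.Mild V T φ := by
  rcases lt_or_ge T 0 with hT | hT
  · exact ⟨fun _ => x, rfl, continuousOn_const, fun τ hτ => absurd (hτ.1.trans hτ.2) hT.not_ge⟩
  obtain ⟨M, hM1, hM⟩ := G.bound T
  have hM0 : 0 ≤ M := zero_le_one.trans hM1
  have hF : Continuous fun p : ℝ × X => G.S (-p.1) (V (G.S p.1 p.2)) :=
    G.cont.comp (continuous_fst.neg.prodMk (V.continuous.comp G.cont))
  obtain ⟨a, ha0, ha, -⟩ := tg_exists (F := fun t y => G.S (-t) (V (G.S t y)))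
    (r := ‖x‖ * Real.exp (M * (‖V‖ * M) * T) + 1) (M := M * (‖V‖ * M)) (η := 0) (T := T)
    (by positivity) (by positivity) le_rfl hT
    (fun y _ => (hF.comp (continuous_id.prodMk continuous_const)).continuousOn)
    (fun t ht y z _ _ => by
      rw [← map_sub, ← map_sub, ← map_sub]
      refine (hM (-t) ⟨by linarith [ht.2], by linarith [ht.1]⟩ _).trans ?_
      rw [mul_assoc, mul_assoc]
      refine mul_le_mul_of_nonneg_left ((V.le_opNorm _).trans ?_) hM0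
      exact mul_le_mul_of_nonneg_left (hM t ⟨by linarith [ht.1], ht.2⟩ _) (norm_nonneg _))
    (fun t _ => by simp) x (by simp)
  have hac : ContinuousOn a (Icc 0 T) := fun t ht => (ha t ht).continuousWithinAt
  refine ⟨fun t => G.S t (a t), by simp [ha0, G.zero],
    G.cont.comp_continuousOn (continuousOn_id.prodMk hac), fun τ hτ => ?_⟩
  have hsub : Icc (0 : ℝ) τ ⊆ Icc 0 T := Icc_subset_Icc_right hτ.2
  have hi : IntervalIntegrable (fun s => G.S (-s) (V (G.S s (a s)))) volume 0 τ := by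
    refine ContinuousOn.intervalIntegrable ?_
    rw [uIcc_of_le hτ.1]
    exact hF.comp_continuousOn (continuousOn_id.prodMk (hac.mono hsub))
  have h1 := intervalIntegral.integral_eq_sub_of_hasDeriv_right_of_le hτ.1 (hac.mono hsub)
    (fun s hs => ((ha s (hsub (Ioo_subset_Icc_self hs))).hasDerivAt
      (Icc_mem_nhds hs.1 (hs.2.trans_le hτ.2))).hasDerivWithinAt) hi
  have h2 := (G.S τ).intervalIntegral_comp_comm hi
  rw [h1, map_sub] at h2
  simp only [← G.add, ← sub_eq_add_neg] at h2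
  simp only [G.zero]
  rw [h2]
  abel

theorem C0.exists_flow (G : C0 X) (V : X →L[ℝ] X) : Nonempty (G.Flow V) := by
  choose sol hs0 hs using G.exists_mild V
  have key : ∀ T φ, G.Mild V T φ → ∀ τ ∈ Icc (0 : ℝ) T, sol τ (φ 0) τ = φ τ :=
    fun T φ hφ τ hτ => (hs τ (φ 0)).unique (LFlowAux_mono hφ hτ.2) (hs0 _ _) τ ⟨hτ.1, le_rfl⟩
  choose C hC using LFlowAux_bound G V
  have hlin : ∀ τ : ℝ, 0 ≤ τ → ∀ (x y : X) (c : ℝ),
      sol τ (x + c • y) τ = sol τ x τ + c • sol τ y τ := by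
    intro τ hτ x y c
    have h1 := key τ _ (LFlowAux_comb (hs τ x) (hs τ y) c) τ ⟨hτ, le_rfl⟩
    simpa only [hs0] using h1
  have hz : ∀ τ : ℝ, 0 ≤ τ → sol τ 0 τ = 0 := by
    intro τ hτ
    have h1 := hC τ _ (hs τ 0) τ ⟨hτ, le_rfl⟩
    rwa [hs0, norm_zero, mul_zero, norm_le_zero_iff] at h1
  let Φ : ℝ → X →L[ℝ] X := fun τ => LinearMap.mkContinuous
    { toFun := fun x => sol (max τ 0) x (max τ 0)
      map_add' := fun x y => by simpa using hlin _ (le_max_right τ 0) x y 1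
      map_smul' := fun c x => by
        simpa [hz _ (le_max_right τ 0)] using hlin _ (le_max_right τ 0) 0 x c }
    (C (max τ 0)) fun x => by
      have h1 := hC _ _ (hs (max τ 0) x) _ ⟨le_max_right τ 0, le_rfl⟩
      rwa [hs0] at h1
  have hΦ : ∀ τ : ℝ, 0 ≤ τ → ∀ x, Φ τ x = sol τ x τ := fun τ hτ x => by
    simp [Φ, max_eq_left hτ]
  have huniq : ∀ T φ, G.Mild V T φ → ∀ τ ∈ Icc (0 : ℝ) T, φ τ = Φ τ (φ 0) :=
    fun T φ hφ τ hτ => by rw [hΦ τ hτ.1, key T φ hφ τ hτ]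
  have hmild : ∀ x T, G.Mild V T fun τ => Φ τ x := fun x T =>
    LFlowAux_congr (hs T x) fun τ hτ => by rw [huniq T _ (hs T x) τ hτ, hs0]
  have hzero : ∀ x, Φ 0 x = x := fun x => by rw [hΦ 0 le_rfl, hs0]
  refine ⟨⟨Φ, hzero, hmild, huniq, fun s t hs' ht x => ?_⟩⟩
  have hm := hmild x (s + t)
  have h2 : G.Mild V s fun τ => Φ (τ + t) x := by
    refine ⟨hm.1.comp (continuous_id.add continuous_const).continuousOn
      fun τ hτ => ⟨add_nonneg hτ.1 ht, by linarith [hτ.2]⟩, fun τ hτ => ?_⟩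
    have hτt : τ + t ∈ Icc (0 : ℝ) (s + t) := ⟨add_nonneg hτ.1 ht, by linarith [hτ.2]⟩
    have htt : t ∈ Icc (0 : ℝ) (s + t) := ⟨ht, by linarith⟩
    have h0 : (0 : ℝ) ∈ Icc (0 : ℝ) (s + t) := ⟨le_rfl, by linarith⟩
    have e1 := hm.2 _ hτt
    have e2 := hm.2 _ htt
    have e3 := intervalIntegral.integral_add_adjacent_intervals
      (LFlowAux_int G V hm.1 (τ + t) h0 htt) (LFlowAux_int G V hm.1 (τ + t) htt hτt)
    have e4 := (G.S τ).intervalIntegral_comp_comm (LFlowAux_int G V hm.1 t h0 htt)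
    have e5 := intervalIntegral.integral_comp_add_right (a := 0) (b := τ)
      (fun r => G.S (τ + t - r) (V (Φ r x))) t
    simp only [← G.add, ← add_sub_assoc] at e4
    simp only [zero_add, add_sub_add_right_eq_sub] at e5
    simp only [zero_add] at e1 e2 ⊢
    rw [e1, ← e3, e2, map_add, ← G.add, ← e4, e5, add_assoc]
  simpa using huniq s _ h2 s ⟨hs', le_rfl⟩

end P139
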