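import Vale.Agent.P139.TGron

/-! P139: a classical solution (derivative = generator + field) is a mild solution. -/

open Complex Set Filter Topology MeasureTheory

noncomputable section
namespace P139
namespace Alg

variable {X : Type} [NormedAddCommGroup X] [NormedSpace ℂ X] [NormedSpace ℝ X] (A : Alg X)

theorem U_real_smul (t c : ℝ) (x : X) : A.U t (c • x) = c • A.U t x :=
  map_real_smul (A.U t) (A.U t).continuous c x

theorem hasDerivWithinAt_U_apply (t : ℝ) {c : ℝ → X} {c' : X} {s : ℝ} {S : Set ℝ}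
    (hc : HasDerivWithinAt c c' S s) :
    HasDerivWithinAt (fun s => A.U t (c s)) (A.U t c') S s := by
  rw [hasDerivWithinAt_iff_tendsto_slope] at hc ⊢
  refine (((A.U t).continuous.tendsto c').comp hc).congr fun s' => ?_
  simp only [Function.comp, slope, vsub_eq_sub, U_real_smul, map_sub]

/-- product rule for `s ↦ U (t - s) (c s)` when `c s` lies in the domain of the generator -/
theorem hasDerivWithinAt_U (t : ℝ) {c : ℝ → X} {c' g : X} {s : ℝ} {S : Set ℝ}
    (hc : HasDerivWithinAt c c' S s) (hg : HasDerivAt (fun r => A.U r (c s)) g 0) :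
    HasDerivWithinAt (fun s => A.U (t - s) (c s)) (A.U (t - s) (c' - g)) S s := by
  have h1 : HasDerivWithinAt (fun s' => A.U (t - s') (c s' - c s)) (A.U (t - s) c') S s := by
    rw [hasDerivWithinAt_iff_tendsto_slope] at hc ⊢
    have h2 : Tendsto (fun s' => t - s') (𝓝[S \ {s}] s) (𝓝 (t - s)) :=
      ((continuous_const.sub continuous_id).tendsto s).mono_left nhdsWithin_le_nhds
    refine ((A.U_cont₂.tendsto (t - s, c')).comp (h2.prodMk_nhds hc)).congr fun s' => ?_
    simp only [Function.comp, slope, vsub_eq_sub, U_real_smul, sub_self, map_zero, sub_zero]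
  have h3 : HasDerivAt (fun s' => A.U (s - s') (c s)) (-g) s := by
    have h4 : HasDerivAt (fun s' : ℝ => s - s') (-1) s := (hasDerivAt_id s).const_sub s
    have h5 : HasDerivAt (fun r => A.U r (c s)) g (s - s) := by rwa [sub_self]
    simpa [Function.comp_def] using h5.scomp s h4
  have h6 := A.hasDerivWithinAt_U_apply (t - s) (h3.hasDerivWithinAt (s := S))
  have h7 := h1.add h6
  rw [← map_add, ← sub_eq_add_neg] at h7
  refine h7.congr_of_eventuallyEq (Eventually.of_forall fun s' => ?_) ?_
  · simp only [Pi.add_apply, ← A.U_add, map_sub, sub_add_sub_cancel, sub_add_cancel]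
  · simp only [Pi.add_apply, ← A.U_add, map_sub, sub_add_sub_cancel, sub_add_cancel]

variable [CompleteSpace X]

/-- classical solutions are mild solutions -/
theorem duh_of_deriv {t₁ : ℝ} {u f g : ℝ → X} (hf : ContinuousOn f (Icc 0 t₁))
    (hu : ∀ s ∈ Icc (0 : ℝ) t₁, HasDerivWithinAt u (g s + f s) (Icc 0 t₁) s)
    (hg : ∀ s ∈ Icc (0 : ℝ) t₁, HasDerivAt (fun r => A.U r (u s)) (g s) 0) :
    A.Duh t₁ 0 u f := by
  intro t ht
  have hs : Icc (0 : ℝ) t ⊆ Icc 0 t₁ := Icc_subset_Icc_right ht.2
  have h1 : ∀ s ∈ Icc (0 : ℝ) t₁, HasDerivWithinAt (fun s => A.U (t - s) (u s))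
      (A.U (t - s) (f s)) (Icc 0 t₁) s := fun s hs => by
    simpa using A.hasDerivWithinAt_U t (hu s hs) (hg s hs)
  have h2 := intervalIntegral.integral_eq_sub_of_hasDeriv_right_of_le ht.1
    (f := fun s => A.U (t - s) (u s)) (f' := fun s => A.U (t - s) (f s))
    (fun s hs' => ((h1 s (hs hs')).continuousWithinAt).mono hs)
    (fun s hs' => (h1 s (hs (Ioo_subset_Icc_self hs'))).mono_of_mem_nhdsWithin
      (mem_nhdsWithin_of_mem_nhds (Icc_mem_nhds hs'.1 (hs'.2.trans_le ht.2))))
    (A.duh_integrable hf ht)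
  rw [h2]
  simp [A.U_zero]

end Alg
end P139
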