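import Vale.Agent.P139.LS0
import Vale.Agent.P139.TGen
import Vale.Agent.P139.TMild

/-! P139 L: elements of the domain of the generators. -/

open Complex Set Filter Topology MeasureTheory
open scoped ComplexConjugate Laplacian

noncomputable section
namespace P139

variable {m : ℕ} (P : Prof m) {K : ℕ}

theorem LGenAux_w (K : ℕ) (ξ : E) : ‖ξ‖ ^ 2 * (wR K 1).w ξ ≤ 1 * (wR (K + 2) 1).w ξ := by
  simp only [wR, abs_one, one_mul, pow_add]
  have h0 := norm_nonneg ξ
  have h1 : ‖ξ‖ ^ 2 ≤ (1 + ‖ξ‖) ^ 2 := by gcongr; linarith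
  have h2 : 0 ≤ (1 + ‖ξ‖) ^ K := by positivity
  nlinarith

theorem memW_down {f : E → ℂ} {K K' : ℕ} (hK : K ≤ K') (hf : MemW volume (wR K' 1) f) :
    MemW volume (wR K 1) f :=
  (hf.of_le (C := 1) hf.1 (Eventually.of_forall fun ξ => by
    rw [one_mul]
    gcongr
    exact wR_mono hK le_rfl ξ)).1

theorem memW_nsq {f : E → ℂ} (hf : MemW volume (wR (K + 2) 1) f) :
    MemW volume (wR K 1) fun ξ => -I * (‖ξ‖ ^ 2 : ℝ) * f ξ := by
  refine (hf.of_le (C := 1) (AEStronglyMeasurable.mul (by fun_prop) hf.1)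
    (Eventually.of_forall fun ξ => ?_)).1
  have h := LGenAux_w K ξ
  have h2 : ‖-I * (‖ξ‖ ^ 2 : ℝ) * f ξ‖ = ‖ξ‖ ^ 2 * ‖f ξ‖ := by simp
  rw [Pi.mul_apply, h2]
  nlinarith [norm_nonneg (f ξ)]

theorem syn_nsq {f : E → ℂ} (hf : MemW volume (wR (K + 2) 1) f) (y : E) :
    syn (toW volume (wR K 1) fun ξ => -I * (‖ξ‖ ^ 2 : ℝ) * f ξ) y = I * (Δ (syn f)) y := by
  rw [syn_toW K (memW_nsq hf), laplacian_syn (memW_down (by omega) hf), ← syn_const_mul]
  congr 1
  funext ξ
  ring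

theorem LGenAux_deriv (c r : ℝ) :
    HasDerivAt (fun r : ℝ => cexp (-I * c * r)) (cexp (-I * c * r) * (-I * c)) r := by
  simpa using ((hasDerivAt_id (r : ℂ)).const_mul (-I * c)).cexp.comp_ofReal

theorem U_hasDerivAt {f : E → ℂ} (hf : MemW volume (wR (K + 2) 1) f) :
    HasDerivAt (fun r => (algR K 1).U r (toW volume (wR K 1) f))
      (toW volume (wR K 1) fun ξ => -I * (‖ξ‖ ^ 2 : ℝ) * f ξ) 0 := by
  set φ : ℝ → E → ℂ := fun r ξ => dslope (fun r : ℝ => cexp (-I * (‖ξ‖ ^ 2 : ℝ) * r)) 0 r with hφ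
  have h0 : ∀ ξ, φ 0 ξ = -I * (‖ξ‖ ^ 2 : ℝ) := fun ξ => by
    simp only [hφ, dslope_same]
    rw [(LGenAux_deriv _ 0).deriv]
    simp
  have h1 : ∀ r ≠ (0 : ℝ), ∀ ξ, φ r ξ = ((r⁻¹ : ℝ) : ℂ) * (cexp (-I * (‖ξ‖ ^ 2 : ℝ) * r) - 1) := by
    intro r hr ξ
    simp only [hφ, dslope_of_ne _ hr, slope_def_module]
    simp
  have hm : ∀ r, AEStronglyMeasurable (φ r) (volume : Measure E) := by
    intro r
    by_cases hr : r = 0
    · rw [hr, funext h0]
      fun_prop
    · rw [funext (h1 r hr)]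
      fun_prop
  have hc : ∀ ξ, Continuous fun r => φ r ξ := by
    intro ξ
    rw [continuous_iff_continuousAt]
    intro r
    by_cases hr : r = 0
    · rw [hr]
      exact continuousAt_dslope_same.2 (LGenAux_deriv _ 0).differentiableAt
    · exact (continuousAt_dslope_of_ne hr).2 (LGenAux_deriv _ r).continuousAt
  have hb : ∀ r ξ, ‖φ r ξ‖ * (wR K 1).w ξ ≤ 1 * (wR (K + 2) 1).w ξ := by
    intro r ξ
    refine le_trans ?_ (LGenAux_w K ξ)
    have := ((wR K 1).pos ξ).le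
    gcongr
    by_cases hr : r = 0
    · rw [hr, h0]
      simp
    · have h2 : -I * (‖ξ‖ ^ 2 : ℝ) * r = I * ((-(‖ξ‖ ^ 2 * r) : ℝ) : ℂ) := by
        push_cast
        ring
      have h3 := Real.norm_exp_I_mul_ofReal_sub_one_le (x := -(‖ξ‖ ^ 2 * r))
      have h4 : 0 < |r| := abs_pos.2 hr
      rw [h1 r hr, norm_mul, h2, Complex.norm_real, Real.norm_eq_abs, abs_inv,
        inv_mul_le_iff₀ h4]
      refine h3.trans (le_of_eq ?_)
      rw [Real.norm_eq_abs, abs_neg, abs_mul, abs_of_nonneg (by positivity), mul_comm]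
  have hcont := mulOp_cont hm hc hb (toW volume (wR (K + 2) 1) f)
  have hf0 : MemW volume (wR K 1) f := memW_down (by omega) hf
  have e0 : mulOp volume (wR (K + 2) 1) (wR K 1) (φ 0) (toW volume (wR (K + 2) 1) f)
      = toW volume (wR K 1) fun ξ => -I * (‖ξ‖ ^ 2 : ℝ) * f ξ := by
    refine eq_toW ?_
    filter_upwards [(mulOp_spec (hm 0) (hb 0) (toW volume (wR (K + 2) 1) f)).1, toW_coe hf]
      with ξ h2 h3
    rw [h2, h3, h0]
  rw [hasDerivAt_iff_tendsto_slope, ← e0]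
  refine ((hcont.tendsto 0).mono_left nhdsWithin_le_nhds).congr' ?_
  filter_upwards [self_mem_nhdsWithin] with r hr
  rw [slope_def_module, Alg.U_zero, sub_zero, ← algebraMap_smul ℂ, Complex.coe_algebraMap]
  refine XW_ext ?_
  filter_upwards [(mulOp_spec (hm r) (hb r) (toW volume (wR (K + 2) 1) f)).1, toW_coe hf,
    toW_coe hf0, XW_smul ((r⁻¹ : ℝ) : ℂ) ((algR K 1).U r (toW volume (wR K 1) f)
      - toW volume (wR K 1) f), XW_sub ((algR K 1).U r (toW volume (wR K 1) f))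
      (toW volume (wR K 1) f), U_coe K 1 r (toW volume (wR K 1) f)] with ξ h2 h3 h4 h5 h6 h7
  rw [h2, h3, h5, h6, h7, h4, h1 r hr]
  ring

theorem Dinv_hasDerivAt {x x₁ : XR K 1} (hd : Differentiable ℝ (syn x))
    (h : ∀ y, syn x₁ y = P.aa * syn x y + fderiv ℝ (syn x) y y / 2) (τ : ℝ) :
    HasDerivAt (fun τ => P.Dinv K τ x) (-P.Dinv K τ x₁) τ := by
  refine tg_weak_deriv (fun y : E => (evS (wR K 1) y).restrictScalars ℝ)
    (fun w hw => XW_syn_ext fun y => ?_) (d := fun τ => -P.Dinv K τ x₁)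
    ((Dinv_cont P K).comp (continuous_id.prodMk continuous_const)).neg (fun y s => ?_) τ
  · rw [← evS_apply, ← evS_apply, map_zero]
    exact hw y
  · simp only [ContinuousLinearMap.coe_restrictScalars', map_neg, evS_apply, syn_Dinv]
    have h1 : HasDerivAt (fun s : ℝ => cexp (-P.aa * s)) (cexp (-P.aa * s) * -P.aa) s := by
      simpa using ((hasDerivAt_id (s : ℂ)).const_mul (-P.aa)).cexp.comp_ofReal
    have h2 : HasDerivAt (fun s : ℝ => Real.exp (-s / 2) • y)
        ((Real.exp (-s / 2) * (-1 / 2)) • y) s :=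
      (((hasDerivAt_id s).neg.div_const 2).exp).smul_const y
    have h3 := (hd (Real.exp (-s / 2) • y)).hasFDerivAt.comp_hasDerivAt s h2
    have h4 := h1.mul h3
    have h5 : (Real.exp (-s / 2) * (-1 / 2)) • y = (-1 / 2 : ℝ) • Real.exp (-s / 2) • y := by
      rw [smul_smul, mul_comm]
    rw [h5, map_smul] at h4
    refine h4.congr_deriv ?_
    rw [h]
    simp only [Function.comp, real_smul]
    push_cast
    ring

theorem S0_hasDerivAt {f : E → ℂ} (hf : MemW volume (wR (K + 2) 1) f) {x₁ : XR K 1}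
    (h : ∀ y, syn x₁ y = P.aa * syn f y + fderiv ℝ (syn f) y y / 2) :
    HasDerivAt (fun r => P.S0 K r (toW volume (wR K 1) f))
      (-x₁ + toW volume (wR K 1) fun ξ => -I * (‖ξ‖ ^ 2 : ℝ) * f ξ) 0 := by
  have hf0 : MemW volume (wR K 1) f := memW_down (by omega) hf
  set x := toW volume (wR K 1) f with hx
  set g := toW volume (wR K 1) fun ξ => -I * (‖ξ‖ ^ 2 : ℝ) * f ξ with hg
  have hs : syn x = syn f := syn_toW K hf0
  have h1 := Dinv_hasDerivAt P (x := x) (x₁ := x₁)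
    (by rw [hs]; exact (syn_contDiff hf).differentiable (by simp)) (by rw [hs]; exact h) 0
  rw [Dinv_zero] at h1
  have h2 : HasDerivAt (fun r : ℝ => 1 - Real.exp (-r)) 1 0 := by
    simpa using ((hasDerivAt_id (0 : ℝ)).neg.exp).const_sub 1
  have h3 : HasDerivAt (fun r => (algR K 1).U r x) g (1 - Real.exp (-0)) := by
    rw [neg_zero, Real.exp_zero, sub_self]
    exact U_hasDerivAt hf
  have h4 : HasDerivAt (fun r : ℝ => (algR K 1).U (1 - Real.exp (-r)) x) g 0 := by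
    simpa [Function.comp_def] using h3.scomp 0 h2
  have h5 : HasDerivAt (fun r : ℝ => P.Dinv K r ((algR K 1).U (1 - Real.exp (-r)) x - x)) g 0 := by
    rw [hasDerivAt_iff_tendsto_slope] at h4 ⊢
    have h6 : Tendsto (fun r : ℝ => r) (𝓝[≠] 0) (𝓝 0) := nhdsWithin_le_nhds
    have h7 := ((Dinv_cont P K).tendsto (0, g)).comp (h6.prodMk_nhds h4)
    rw [Dinv_zero] at h7
    refine h7.congr fun r => ?_
    simp only [Function.comp, slope_def_module, ContinuousLinearMap.map_smul_of_tower, neg_zero,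
      Real.exp_zero, sub_self, Alg.U_zero, map_zero, sub_zero]
  refine (h1.add h5).congr_of_eventuallyEq (Eventually.of_forall fun r => ?_)
  simp only [S0_apply, Pi.add_apply, map_sub, add_sub_cancel]

end P139
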