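import Vale.Agent.P139.LS0

/-! P139 L: the generator of the free flow, pointwise in physical space. -/

open Complex Set Filter Topology MeasureTheory
open scoped ComplexConjugate Laplacian

noncomputable section
namespace P139

variable {m : ℕ} (P : Prof m) {K : ℕ}

theorem LGenFAux_deriv (a b t : ℝ) (c : ℂ) :
    HasDerivAt (fun t : ℝ => cexp (I * (Real.exp (-t / 2) * a : ℝ))
        * (cexp (-I * (b : ℝ) * (1 - Real.exp (-t) : ℝ)) * c))
      (cexp (I * (Real.exp (-t / 2) * a : ℝ)) * cexp (-I * (b : ℝ) * (1 - Real.exp (-t) : ℝ))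
        * (-I * ((Real.exp (-t / 2) * a / 2 + b * Real.exp (-t) : ℝ) : ℂ) * c)) t := by
  have h1 : HasDerivAt (fun t : ℝ => Real.exp (-t / 2) * a) (Real.exp (-t / 2) * (-1 / 2) * a) t :=
    (((hasDerivAt_neg t).div_const 2).exp).mul_const a
  have h2 : HasDerivAt (fun t : ℝ => 1 - Real.exp (-t)) (Real.exp (-t)) t := by
    simpa using ((hasDerivAt_neg t).exp).const_sub 1
  refine (((h1.ofReal_comp.const_mul I).cexp).mul
    (((h2.ofReal_comp.const_mul (-I * (b : ℝ))).cexp).mul_const c)).congr_deriv ?_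
  push_cast
  ring

theorem S0_syn_deriv (hK : 2 ≤ K) (x : XR K 1) (y : E) :
    HasDerivAt (fun t : ℝ => syn (P.S0 K t x) y)
      (-P.aa * syn x y - fderiv ℝ (syn x) y y / 2 + I * (Δ (syn x)) y) 0 := by
  have hx2 : MemW volume (wR 2 1) x := ((memW_coe x).of_le (C := 1) (memW_coe x).1
    (Eventually.of_forall fun ξ => by
      rw [one_mul]
      exact mul_le_mul_of_nonneg_right (wR_mono hK le_rfl ξ) (norm_nonneg _))).1
  have hx1 : MemW volume (wR 1 1) x := (hx2.of_le (C := 1) hx2.1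
    (Eventually.of_forall fun ξ => by
      rw [one_mul]
      exact mul_le_mul_of_nonneg_right (wR_mono one_le_two le_rfl ξ) (norm_nonneg _))).1
  have hm := hx2.1
  have hn1 : ∀ r : ℝ, ‖cexp (I * r)‖ = 1 := fun r => by rw [mul_comm, norm_exp_ofReal_mul_I]
  have key := hasDerivAt_integral_of_dominated_loc_of_deriv_le (μ := volume) (x₀ := (0 : ℝ))
    (s := Metric.ball 0 1)
    (F := fun t ξ => cexp (I * (Real.exp (-t / 2) * inner ℝ ξ y : ℝ))
      * (cexp (-I * (‖ξ‖ ^ 2 : ℝ) * (1 - Real.exp (-t) : ℝ)) * x ξ))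
    (F' := fun t ξ => cexp (I * (Real.exp (-t / 2) * inner ℝ ξ y : ℝ))
      * cexp (-I * (‖ξ‖ ^ 2 : ℝ) * (1 - Real.exp (-t) : ℝ))
      * (-I * ((Real.exp (-t / 2) * inner ℝ ξ y / 2 + ‖ξ‖ ^ 2 * Real.exp (-t) : ℝ) : ℂ) * x ξ))
    (bound := fun ξ => (Real.exp 1 * (‖y‖ + 1)) * ((wR 2 1).w ξ * ‖x ξ‖))
    (Metric.ball_mem_nhds _ one_pos)
    (Eventually.of_forall fun t => (Continuous.aestronglyMeasurable (by fun_prop)).mul
      ((Continuous.aestronglyMeasurable (by fun_prop)).mul hm))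
    (hx2.integrable.norm.mono' ((Continuous.aestronglyMeasurable (by fun_prop)).mul
      ((Continuous.aestronglyMeasurable (by fun_prop)).mul hm)) (Eventually.of_forall fun ξ => by
        rw [norm_mul, norm_mul, hn1, XConvAux_exp, one_mul, one_mul]))
    ((Continuous.aestronglyMeasurable (by fun_prop)).mul
      ((Continuous.aestronglyMeasurable (by fun_prop)).mul hm))
    (Eventually.of_forall fun ξ t ht => by
      rw [norm_mul, norm_mul, hn1, XConvAux_exp, one_mul, one_mul, norm_mul, norm_mul, norm_neg,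
        norm_I, one_mul, Complex.norm_real, ← mul_assoc]
      refine mul_le_mul_of_nonneg_right ?_ (norm_nonneg _)
      have ht' := abs_lt.1 (by simpa using ht : |t| < 1)
      have e1 : Real.exp (-t / 2) ≤ Real.exp 1 := Real.exp_le_exp.2 (by linarith [ht'.1])
      have e2 : Real.exp (-t) ≤ Real.exp 1 := Real.exp_le_exp.2 (by linarith [ht'.1])
      have e3 := abs_real_inner_le_norm ξ y
      have e4 : (wR 2 1).w ξ = (1 + ‖ξ‖) ^ 2 := by simp [wR]
      rw [e4, Real.norm_eq_abs]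
      refine (abs_add_le _ _).trans ?_
      rw [abs_div, abs_mul, abs_mul, abs_of_pos (Real.exp_pos _), abs_of_pos (Real.exp_pos _),
        abs_of_nonneg (sq_nonneg ‖ξ‖), abs_two]
      have e5 : Real.exp (-t / 2) * |inner ℝ ξ y| ≤ Real.exp 1 * (‖ξ‖ * ‖y‖) := by gcongr
      have e6 : ‖ξ‖ ^ 2 * Real.exp (-t) ≤ ‖ξ‖ ^ 2 * Real.exp 1 := by gcongr
      have e7 : ‖ξ‖ * ‖y‖ / 2 + ‖ξ‖ ^ 2 ≤ (‖y‖ + 1) * (1 + ‖ξ‖) ^ 2 := by
        nlinarith [norm_nonneg ξ, norm_nonneg y, mul_nonneg (norm_nonneg ξ) (norm_nonneg y),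
          mul_nonneg (sq_nonneg ‖ξ‖) (norm_nonneg y)]
      have e8 := mul_le_mul_of_nonneg_left e7 (Real.exp_pos 1).le
      linarith)
    (hx2.2.const_mul _)
    (Eventually.of_forall fun ξ t _ => LGenFAux_deriv _ _ t _)
  have h1 : HasDerivAt (fun t : ℝ => cexp (-P.aa * t)) (cexp (-P.aa * (0 : ℝ)) * (-P.aa * 1)) 0 :=
    ((hasDerivAt_id (0 : ℝ)).ofReal_comp.const_mul (-P.aa)).cexp
  simp only [syn_S0, real_inner_smul_right]
  refine (h1.mul key.2).congr_deriv ?_
  have i1 : Integrable fun ξ : E => cexp (I * (inner ℝ ξ y : ℝ)) * (I * (inner ℝ ξ y : ℝ) * x ξ) := by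
    refine (hx1.2.const_mul ‖y‖).mono' ((Continuous.aestronglyMeasurable (by fun_prop)).mul
      ((Continuous.aestronglyMeasurable (by fun_prop)).mul hm)) (Eventually.of_forall fun ξ => ?_)
    rw [norm_mul, hn1, one_mul, norm_mul, norm_mul, norm_I, one_mul, Complex.norm_real,
      ← mul_assoc]
    refine mul_le_mul_of_nonneg_right ?_ (norm_nonneg _)
    have e4 : (wR 1 1).w ξ = 1 + ‖ξ‖ := by simp [wR]
    rw [e4]
    have := abs_real_inner_le_norm ξ y
    rw [Real.norm_eq_abs]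
    nlinarith [norm_nonneg y]
  have i2 : Integrable fun ξ : E => cexp (I * (inner ℝ ξ y : ℝ)) * (-((‖ξ‖ ^ 2 : ℝ) : ℂ) * x ξ) := by
    refine hx2.2.mono' ((Continuous.aestronglyMeasurable (by fun_prop)).mul
      ((Continuous.aestronglyMeasurable (by fun_prop)).mul hm)) (Eventually.of_forall fun ξ => ?_)
    rw [norm_mul, hn1, one_mul, norm_mul, norm_neg, Complex.norm_real]
    refine mul_le_mul_of_nonneg_right ?_ (norm_nonneg _)
    have e4 : (wR 2 1).w ξ = (1 + ‖ξ‖) ^ 2 := by simp [wR]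
    rw [e4, Real.norm_of_nonneg (sq_nonneg _)]
    nlinarith [norm_nonneg ξ]
  have e : ∫ ξ : E, cexp (I * (Real.exp (-0 / 2) * inner ℝ ξ y : ℝ))
      * cexp (-I * (‖ξ‖ ^ 2 : ℝ) * (1 - Real.exp (-0) : ℝ))
      * (-I * ((Real.exp (-0 / 2) * inner ℝ ξ y / 2 + ‖ξ‖ ^ 2 * Real.exp (-0) : ℝ) : ℂ) * x ξ)
      = -(fderiv ℝ (syn x) y y / 2) + I * (Δ (syn x)) y := by
    rw [fderiv_syn hx1, laplacian_syn hx2]
    unfold syn
    rw [← integral_div, ← integral_neg, ← integral_const_mul]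
    refine Eq.trans ?_ (integral_add (i1.div_const 2).fun_neg (i2.const_mul I))
    refine integral_congr_ae (Eventually.of_forall fun ξ => ?_)
    simp only [neg_zero, zero_div, Real.exp_zero, one_mul, sub_self, ofReal_zero, mul_zero,
      Complex.exp_zero, mul_one]
    push_cast
    ring
  rw [e]
  simp only [neg_zero, zero_div, Real.exp_zero, one_mul, sub_self, ofReal_zero, mul_zero,
    Complex.exp_zero, mul_one]
  unfold syn
  ring

end P139
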