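import Mathlib

/-! P139 part L: abstract quasi-compactness of Duhamel flows (finite nets). -/

open Set Filter Topology MeasureTheory Metric

noncomputable section
namespace P139



variable {Y Y' Y'' : Type} [NormedAddCommGroup Y] [NormedSpace ℝ Y]
  [NormedAddCommGroup Y'] [NormedSpace ℝ Y'] [NormedAddCommGroup Y''] [NormedSpace ℝ Y'']

/-- approximation by finite-dimensional subspaces up to `k r`, uniformly for `r ∈ [0,N]` -/
def FinAp (T : ℝ → Y → Y') (k : ℝ → ℝ) (N : ℝ) : Prop :=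
  ∀ ε > 0, ∃ W : Submodule ℝ Y', FiniteDimensional ℝ W ∧
    ∀ r ∈ Icc (0 : ℝ) N, ∀ y, infDist (T r y) (W : Set Y') ≤ (k r + ε) * ‖y‖

/-- a map whose values are approximated by finite-dimensional subspaces -/
def Cpt (C : Y → Y') : Prop :=
  ∀ ε > 0, ∃ W : Submodule ℝ Y', FiniteDimensional ℝ W ∧
    ∀ y, infDist (C y) (W : Set Y') ≤ ε * ‖y‖

theorem lq_ne (W : Submodule ℝ Y) : (W : Set Y).Nonempty := ⟨0, W.zero_mem⟩

theorem lq_le_norm (W : Submodule ℝ Y) (y : Y) : infDist y (W : Set Y) ≤ ‖y‖ := by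
  simpa using infDist_le_dist_of_mem (x := y) W.zero_mem

theorem lq_mono {W W' : Submodule ℝ Y} (h : W ≤ W') (y : Y) :
    infDist y (W' : Set Y) ≤ infDist y (W : Set Y) :=
  infDist_le_infDist_of_subset h (lq_ne W)

theorem lq_near (W : Submodule ℝ Y) (y : Y) {ε : ℝ} (hε : 0 < ε) :
    ∃ w ∈ W, ‖y - w‖ ≤ infDist y (W : Set Y) + ε := by
  obtain ⟨w, hw, h⟩ := (infDist_lt_iff (lq_ne W)).1
    (lt_add_of_pos_right (infDist y (W : Set Y)) hε)
  exact ⟨w, hw, by rw [← dist_eq_norm]; exact h.le⟩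

theorem lq_add (W : Submodule ℝ Y) (x y : Y) :
    infDist (x + y) (W : Set Y) ≤ infDist x (W : Set Y) + infDist y (W : Set Y) := by
  refine le_of_forall_pos_le_add fun ε hε => ?_
  obtain ⟨a, ha, h1⟩ := lq_near W x (half_pos hε)
  obtain ⟨b, hb, h2⟩ := lq_near W y (half_pos hε)
  have h3 := infDist_le_dist_of_mem (x := x + y) (W.add_mem ha hb)
  rw [dist_eq_norm] at h3
  have h4 : ‖x + y - (a + b)‖ ≤ ‖x - a‖ + ‖y - b‖ := by
    rw [show x + y - (a + b) = (x - a) + (y - b) by abel]; exact norm_add_le _ _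
  linarith

theorem lq_smul (W : Submodule ℝ Y) (c : ℝ) (x : Y) :
    infDist (c • x) (W : Set Y) ≤ |c| * infDist x (W : Set Y) := by
  refine le_of_forall_pos_le_add fun ε hε => ?_
  have hc : 0 < |c| + 1 := by positivity
  obtain ⟨a, ha, h1⟩ := lq_near W x (div_pos hε hc)
  have h3 := infDist_le_dist_of_mem (x := c • x) (W.smul_mem c ha)
  rw [dist_eq_norm, ← smul_sub, norm_smul, Real.norm_eq_abs] at h3
  have h4 : |c| * (ε / (|c| + 1)) ≤ ε := by
    rw [← mul_div_assoc, div_le_iff₀ hc]; nlinarith [abs_nonneg c]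
  nlinarith [abs_nonneg c, mul_le_mul_of_nonneg_left h1 (abs_nonneg c)]

theorem lq_of_tb {K : Set Y} (hK : TotallyBounded K) {ε : ℝ} (hε : 0 < ε) :
    ∃ W : Submodule ℝ Y, FiniteDimensional ℝ W ∧ ∀ y ∈ K, infDist y (W : Set Y) ≤ ε := by
  obtain ⟨t, ht, hc⟩ := Metric.totallyBounded_iff.1 hK ε hε
  refine ⟨Submodule.span ℝ t, FiniteDimensional.span_of_finite ℝ ht, fun y hy => ?_⟩
  obtain ⟨z, hz, hyz⟩ := mem_iUnion₂.1 (hc hy)
  exact (infDist_le_dist_of_mem (Submodule.subset_span hz)).trans (mem_ball.1 hyz).le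

theorem lq_ball_compact (W : Submodule ℝ Y) [FiniteDimensional ℝ W] (M : ℝ) :
    IsCompact ((W : Set Y) ∩ closedBall 0 M) := by
  have h := (isCompact_closedBall (0 : W) M).image W.subtypeL.continuous
  convert h using 1
  ext y
  simp only [mem_inter_iff, SetLike.mem_coe, mem_closedBall, dist_zero_right, mem_image,
    Submodule.subtypeL_apply]
  constructor
  · rintro ⟨h1, h2⟩
    exact ⟨⟨y, h1⟩, h2, rfl⟩
  · rintro ⟨w, h1, rfl⟩
    exact ⟨w.2, h1⟩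

/-- a jointly continuous family on a finite-dimensional subspace -/
theorem lq_fd {T : ℝ → Y →L[ℝ] Y'} {N : ℝ}
    (hT : ContinuousOn (fun p : ℝ × Y => T p.1 p.2) (Icc 0 N ×ˢ univ))
    (W : Submodule ℝ Y) [FiniteDimensional ℝ W] {ε : ℝ} (hε : 0 < ε) :
    ∃ W' : Submodule ℝ Y', FiniteDimensional ℝ W' ∧
      ∀ r ∈ Icc (0 : ℝ) N, ∀ w ∈ W, infDist (T r w) (W' : Set Y') ≤ ε * ‖w‖ := by
  have hK := ((isCompact_Icc (a := (0 : ℝ)) (b := N)).prod (lq_ball_compact W 1)).image_of_continuousOn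
    (hT.mono (prod_mono_right (subset_univ _)))
  obtain ⟨W', hW', h⟩ := lq_of_tb hK.totallyBounded hε
  refine ⟨W', hW', fun r hr w hw => ?_⟩
  rcases eq_or_ne w 0 with rfl | h0
  · simpa using lq_le_norm W' (0 : Y')
  have hn : 0 < ‖w‖ := norm_pos_iff.2 h0
  have h1 := h (T r (‖w‖⁻¹ • w)) ⟨(r, ‖w‖⁻¹ • w), ⟨hr, W.smul_mem _ hw, by
    simp [norm_smul, hn.ne']⟩, rfl⟩
  have h2 := lq_smul W' ‖w‖ (T r (‖w‖⁻¹ • w))
  rw [← map_smul, smul_smul, mul_inv_cancel₀ hn.ne', one_smul, abs_of_pos hn] at h2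
  nlinarith

theorem Cpt.finAp {C : Y → Y'} (hC : Cpt C) {B : ℝ} (hB : ∀ y, ‖C y‖ ≤ B * ‖y‖)
    {S : ℝ → Y' →L[ℝ] Y''} {N M : ℝ}
    (hS : ContinuousOn (fun p : ℝ × Y' => S p.1 p.2) (Icc 0 N ×ˢ univ))
    (hM : ∀ r ∈ Icc (0 : ℝ) N, ∀ y, ‖S r y‖ ≤ M * ‖y‖) :
    FinAp (fun r y => S r (C y)) (fun _ => 0) N := by
  intro ε hε
  set e := ε / (2 * (|M| + 1)) with he
  have he0 : 0 < e := by positivity
  obtain ⟨W, hW, h⟩ := hC (e / 2) (half_pos he0)
  have hd : 0 < ε / (2 * (|B| + e)) := by positivity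
  obtain ⟨W', hW', h'⟩ := lq_fd hS W hd
  refine ⟨W', hW', fun r hr y => ?_⟩
  rcases eq_or_ne y 0 with rfl | h0
  · have h1 : C 0 = 0 := by simpa using hB 0
    simpa [h1] using lq_le_norm W' (0 : Y'')
  have hn : 0 < ‖y‖ := norm_pos_iff.2 h0
  obtain ⟨w, hw, h1⟩ := lq_near W (C y) (mul_pos (half_pos he0) hn)
  have h2 : ‖C y - w‖ ≤ e * ‖y‖ := by nlinarith [h y]
  have h3 : ‖w‖ ≤ (|B| + e) * ‖y‖ := by
    have := norm_sub_le (C y) (C y - w)
    rw [sub_sub_cancel] at this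
    nlinarith [hB y, le_abs_self B]
  have h4 : S r (C y) = S r (C y - w) + S r w := by rw [← map_add, sub_add_cancel]
  have h5 := lq_add W' (S r (C y - w)) (S r w)
  have h6 := (lq_le_norm W' (S r (C y - w))).trans (hM r hr _)
  have h7 : M * ‖C y - w‖ ≤ ε / 2 * ‖y‖ := by
    have a1 : M * ‖C y - w‖ ≤ (|M| + 1) * (e * ‖y‖) :=
      mul_le_mul (by linarith [le_abs_self M]) h2 (norm_nonneg _) (by positivity)
    have a2 : (|M| + 1) * e = ε / 2 := by rw [he]; field_simp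
    nlinarith
  have h8 : ε / (2 * (|B| + e)) * ‖w‖ ≤ ε / 2 * ‖y‖ := by
    refine (mul_le_mul_of_nonneg_left h3 hd.le).trans (le_of_eq ?_)
    field_simp
  have h9 := h' r hr w hw
  show infDist (S r (C y)) _ ≤ _
  rw [h4]
  linarith

theorem FinAp.add {T T' : ℝ → Y → Y'} {k k' : ℝ → ℝ} {N : ℝ} (h : FinAp T k N)
    (h' : FinAp T' k' N) : FinAp (fun r y => T r y + T' r y) (fun r => k r + k' r) N := by
  intro ε hε
  obtain ⟨W, hW, a⟩ := h (ε / 2) (half_pos hε)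
  obtain ⟨W', hW', b⟩ := h' (ε / 2) (half_pos hε)
  refine ⟨W ⊔ W', inferInstance, fun r hr y => ?_⟩
  have h1 := lq_add (W ⊔ W') (T r y) (T' r y)
  have h2 := (lq_mono (le_sup_left (b := W')) (T r y)).trans (a r hr y)
  have h3 := (lq_mono (le_sup_right (a := W)) (T' r y)).trans (b r hr y)
  show infDist (T r y + T' r y) _ ≤ _
  linarith

theorem FinAp.of_norm {T : ℝ → Y → Y'} {k : ℝ → ℝ} {N : ℝ}
    (h : ∀ r ∈ Icc (0 : ℝ) N, ∀ y, ‖T r y‖ ≤ k r * ‖y‖) : FinAp T k N := by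
  intro ε hε
  refine ⟨⊥, inferInstance, fun r hr y => (lq_le_norm _ _).trans ((h r hr y).trans ?_)⟩
  nlinarith [norm_nonneg y]

/-- the bound may be approached from above -/
theorem FinAp.of_approx {T : ℝ → Y → Y'} {k : ℝ → ℝ} {N : ℝ}
    (h : ∀ ε > 0, FinAp T (fun r => k r + ε) N) : FinAp T k N := by
  intro ε hε
  obtain ⟨W, hW, a⟩ := h (ε / 2) (half_pos hε) (ε / 2) (half_pos hε)
  refine ⟨W, hW, fun r hr y => (a r hr y).trans (le_of_eq ?_)⟩
  ring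

theorem FinAp.mono {T : ℝ → Y → Y'} {k k' : ℝ → ℝ} {N : ℝ} (h : FinAp T k N)
    (hk : ∀ r ∈ Icc (0 : ℝ) N, k r ≤ k' r) : FinAp T k' N := by
  intro ε hε
  obtain ⟨W, hW, a⟩ := h ε hε
  refine ⟨W, hW, fun r hr y => (a r hr y).trans ?_⟩
  have := hk r hr
  gcongr

/-- precomposition with a map that does not increase norms -/
theorem FinAp.comp {T : ℝ → Y' → Y''} {k : ℝ → ℝ} {N : ℝ} (h : FinAp T k N)
    (hk : ∀ r ∈ Icc (0 : ℝ) N, 0 ≤ k r) {J : Y → Y'} (hJ : ∀ y, ‖J y‖ ≤ ‖y‖) :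
    FinAp (fun r y => T r (J y)) k N := by
  intro ε hε
  obtain ⟨W, hW, a⟩ := h ε hε
  refine ⟨W, hW, fun r hr y => (a r hr (J y)).trans ?_⟩
  have := hk r hr
  exact mul_le_mul_of_nonneg_left (hJ y) (by positivity)

/-- postcomposition with a linear map that does not increase norms -/
theorem FinAp.post {T : ℝ → Y → Y'} {k : ℝ → ℝ} {N : ℝ} (h : FinAp T k N)
    (J : Y' →L[ℝ] Y'') (hJ : ∀ y, ‖J y‖ ≤ ‖y‖) :
    FinAp (fun r y => J (T r y)) k N := by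
  intro ε hε
  obtain ⟨W, hW, a⟩ := h ε hε
  refine ⟨W.map (J : Y' →ₗ[ℝ] Y''), inferInstance, fun r hr y => ?_⟩
  refine le_of_forall_pos_le_add fun η hη => ?_
  obtain ⟨w, hw, h1⟩ := lq_near W (T r y) hη
  have h2 := infDist_le_dist_of_mem (x := J (T r y))
    (s := (W.map (J : Y' →ₗ[ℝ] Y'') : Set Y'')) (y := J w) ⟨w, hw, rfl⟩
  rw [dist_eq_norm, ← map_sub] at h2
  have h3 := hJ (T r y - w)
  have h4 := a r hr y
  show infDist (J (T r y)) _ ≤ _
  linarith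

/-- pairs, with the sup norm -/
theorem FinAp.prod {T : ℝ → Y → Y'} {T' : ℝ → Y → Y''} {k : ℝ → ℝ} {N : ℝ} (h : FinAp T k N)
    (h' : FinAp T' k N) : FinAp (fun r y => (T r y, T' r y)) k N := by
  intro ε hε
  obtain ⟨W, hW, a⟩ := h ε hε
  obtain ⟨W', hW', b⟩ := h' ε hε
  refine ⟨W.map (LinearMap.inl ℝ Y' Y'') ⊔ W'.map (LinearMap.inr ℝ Y' Y''), inferInstance,
    fun r hr y => ?_⟩
  refine le_of_forall_pos_le_add fun η hη => ?_
  obtain ⟨w, hw, h1⟩ := lq_near W (T r y) hη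
  obtain ⟨w', hw', h2⟩ := lq_near W' (T' r y) hη
  have hm : (w, w') ∈ W.map (LinearMap.inl ℝ Y' Y'') ⊔ W'.map (LinearMap.inr ℝ Y' Y'') := by
    have e : (w, w') = LinearMap.inl ℝ Y' Y'' w + LinearMap.inr ℝ Y' Y'' w' := by simp
    rw [e]
    exact Submodule.add_mem_sup ⟨w, hw, rfl⟩ ⟨w', hw', rfl⟩
  refine (infDist_le_dist_of_mem hm).trans ?_
  rw [dist_eq_norm, Prod.mk_sub_mk, Prod.norm_mk]
  exact max_le (by linarith [a r hr y]) (by linarith [b r hr y])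

theorem lq_integral [CompleteSpace Y] (W : Submodule ℝ Y) [FiniteDimensional ℝ W] {f : ℝ → Y}
    {b : ℝ → ℝ} {τ : ℝ} (hτ : 0 ≤ τ) (hf : ContinuousOn f (Icc 0 τ))
    (hb : ContinuousOn b (Icc 0 τ))
    (h : ∀ s ∈ Icc (0 : ℝ) τ, infDist (f s) (W : Set Y) ≤ b s) :
    infDist (∫ s in (0 : ℝ)..τ, f s) (W : Set Y) ≤ ∫ s in (0 : ℝ)..τ, b s := by
  haveI : IsClosed (W : Set Y) := W.closed_of_finiteDimensional
  have hq : ∀ y : Y, ‖W.mkQL y‖ = infDist y (W : Set Y) := fun y =>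
    QuotientAddGroup.norm_mk (S := W.toAddSubgroup) y
  have hi : IntervalIntegrable f volume 0 τ :=
    (hf.mono (by rw [uIcc_of_le hτ])).intervalIntegrable
  rw [← hq, ← W.mkQL.intervalIntegral_comp_comm hi]
  refine (intervalIntegral.norm_integral_le_integral_norm hτ).trans ?_
  refine intervalIntegral.integral_mono_on hτ ?_
    ((hb.mono (by rw [uIcc_of_le hτ])).intervalIntegrable) fun s hs => ?_
  · exact ((W.mkQL.continuous.comp_continuousOn hf).norm.mono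
      (by rw [uIcc_of_le hτ])).intervalIntegrable
  · rw [hq]; exact h s hs

theorem lq_exp_int {κ g τ : ℝ} (h : g < κ) (hτ : 0 ≤ τ) :
    ∫ s in (0 : ℝ)..τ, Real.exp (-κ * (τ - s)) * Real.exp (-g * s)
      ≤ Real.exp (-g * τ) / (κ - g) := by
  have hk : 0 < κ - g := sub_pos.2 h
  have hd : ∀ s ∈ uIcc (0 : ℝ) τ, HasDerivAt
      (fun s => Real.exp (-κ * (τ - s)) * Real.exp (-g * s) / (κ - g))
      (Real.exp (-κ * (τ - s)) * Real.exp (-g * s)) s := by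
    intro s _
    have h1 : HasDerivAt (fun s => -κ * (τ - s)) κ s := by
      simpa using ((hasDerivAt_id s).const_sub τ).const_mul (-κ)
    have h2 : HasDerivAt (fun s => -g * s) (-g) s := by
      simpa using (hasDerivAt_id s).const_mul (-g)
    refine ((h1.exp.mul h2.exp).div_const (κ - g)).congr_deriv ?_
    rw [div_eq_iff hk.ne']
    ring
  rw [intervalIntegral.integral_eq_sub_of_hasDerivAt hd
    ((by fun_prop : Continuous fun s =>
      Real.exp (-κ * (τ - s)) * Real.exp (-g * s)).intervalIntegrable _ _)]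
  have : 0 ≤ Real.exp (-κ * (τ - 0)) * Real.exp (-g * 0) / (κ - g) := by positivity
  simp only [sub_self, mul_zero, Real.exp_zero, one_mul] at this ⊢
  linarith

/-- the main estimate: Duhamel solutions are close to finite-dimensional subspaces -/
theorem qc_fd [CompleteSpace Y] {ι : Type} {T : ℝ → Y →L[ℝ] Y} {φ φ₀ : ι → ℝ → Y}
    {N g A κ M : ℝ} (hT : ContinuousOn (fun p : ℝ × Y => T p.1 p.2) (Icc 0 N ×ˢ univ))
    (hφ : ∀ i, ContinuousOn (φ i) (Icc 0 N)) (hM : ∀ i, ∀ s ∈ Icc (0 : ℝ) N, ‖φ i s‖ ≤ M)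
    (h0 : ∀ i, ∀ s ∈ Icc (0 : ℝ) N, ‖φ₀ i s‖ ≤ Real.exp (-g * s))
    (hD : ∀ i, ∀ τ ∈ Icc (0 : ℝ) N, φ i τ = φ₀ i τ + ∫ s in (0 : ℝ)..τ, T (τ - s) (φ i s))
    (hF : FinAp (fun r y => T r y) (fun r => A * Real.exp (-κ * r)) N) (hA : 0 ≤ A)
    (hM0 : 0 ≤ M) (hg : 0 ≤ g) (hκ : g < κ) (hAκ : 2 * A ≤ κ - g) (n : ℕ) :
    ∀ ε > 0, ∃ W : Submodule ℝ Y, FiniteDimensional ℝ W ∧ ∀ i, ∀ τ ∈ Icc (0 : ℝ) N,
      infDist (φ i τ) (W : Set Y) ≤ 2 * Real.exp (-g * τ) + M / 2 ^ n + ε := by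
  induction n with
  | zero =>
    intro ε hε
    refine ⟨⊥, inferInstance, fun i τ hτ => (lq_le_norm _ _).trans ((hM i τ hτ).trans ?_)⟩
    have := Real.exp_pos (-g * τ)
    simp only [pow_zero, div_one]
    linarith
  | succ n ih =>
    intro ε hε
    obtain ⟨W, hW, h⟩ := ih (ε / 2) (half_pos hε)
    set c := M / 2 ^ n + ε with hc
    have hc0 : 0 ≤ c := by positivity
    set D := (|N| + 1) * (2 * (2 + c) + M) with hD'
    have hD0 : 0 < D := by positivity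
    have he : 0 < ε / 2 / D := by positivity
    obtain ⟨W₀, hW₀, a⟩ := hF (ε / 2 / D) he
    obtain ⟨W₁, hW₁, b⟩ := lq_fd hT W he
    refine ⟨W₀ ⊔ W₁, inferInstance, fun i τ hτ => ?_⟩
    have hsub : Icc (0 : ℝ) τ ⊆ Icc 0 N := Icc_subset_Icc_right hτ.2
    have hcont : ContinuousOn (fun s => T (τ - s) (φ i s)) (Icc 0 τ) :=
      hT.comp (f := fun s => (τ - s, φ i s))
        ((continuous_const.sub continuous_id).continuousOn.prodMk ((hφ i).mono hsub))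
        fun s hs => ⟨⟨sub_nonneg.2 hs.2, by linarith [hs.1, hτ.2]⟩, mem_univ _⟩
    have key := lq_integral (W₀ ⊔ W₁) hτ.1 hcont
      (b := fun s => 2 * A * (Real.exp (-κ * (τ - s)) * Real.exp (-g * s))
        + A * c * (Real.exp (-κ * (τ - s)) * Real.exp (-0 * s))
        + ε / 2 / D * (2 * (2 + c) + M)) (by fun_prop) (by
      intro s hs
      have hr : τ - s ∈ Icc (0 : ℝ) N := ⟨sub_nonneg.2 hs.2, by linarith [hs.1, hτ.2]⟩
      obtain ⟨w, hw, h1⟩ := lq_near W (φ i s) (half_pos hε)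
      have h2 : ‖φ i s - w‖ ≤ 2 * Real.exp (-g * s) + c := by
        have := h i s (hsub hs)
        linarith
      have he1 : Real.exp (-g * s) ≤ 1 := Real.exp_le_one_iff.2 (by nlinarith [hs.1])
      have h3 : ‖w‖ ≤ M + (2 + c) := by
        have := norm_sub_le (φ i s) (φ i s - w)
        rw [sub_sub_cancel] at this
        linarith [hM i s (hsub hs)]
      have h4 : T (τ - s) (φ i s) = T (τ - s) (φ i s - w) + T (τ - s) w := by
        rw [← map_add, sub_add_cancel]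
      have h5 := lq_add (W₀ ⊔ W₁) (T (τ - s) (φ i s - w)) (T (τ - s) w)
      have h6 := (lq_mono (le_sup_left (b := W₁)) _).trans (a _ hr (φ i s - w))
      have h7 := (lq_mono (le_sup_right (a := W₀)) _).trans (b _ hr w hw)
      have h8 : (A * Real.exp (-κ * (τ - s)) + ε / 2 / D) * ‖φ i s - w‖ ≤
          A * Real.exp (-κ * (τ - s)) * (2 * Real.exp (-g * s) + c) + ε / 2 / D * (2 + c) := by
        rw [add_mul]
        gcongr
        linarith
      have h9 : ε / 2 / D * ‖w‖ ≤ ε / 2 / D * (M + (2 + c)) := by gcongr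
      rw [h4]
      simp only [neg_zero, zero_mul, Real.exp_zero, mul_one]
      nlinarith)
    have i1 : IntervalIntegrable (fun s => 2 * A * (Real.exp (-κ * (τ - s)) * Real.exp (-g * s)))
      volume 0 τ := (by fun_prop : Continuous _).intervalIntegrable _ _
    have i2 : IntervalIntegrable (fun s => A * c * (Real.exp (-κ * (τ - s)) * Real.exp (-0 * s)))
      volume 0 τ := (by fun_prop : Continuous _).intervalIntegrable _ _
    rw [intervalIntegral.integral_add (i1.add i2) (by simp),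
      intervalIntegral.integral_add i1 i2, intervalIntegral.integral_const_mul,
      intervalIntegral.integral_const_mul, intervalIntegral.integral_const] at key
    have e1 := lq_exp_int hκ hτ.1
    have e2 := lq_exp_int (κ := κ) (g := 0) (τ := τ) (by linarith) hτ.1
    have hk : 0 < κ - g := sub_pos.2 hκ
    have f1 : 2 * A * (Real.exp (-g * τ) / (κ - g)) ≤ Real.exp (-g * τ) := by
      rw [← mul_div_assoc, div_le_iff₀ hk]
      nlinarith [Real.exp_pos (-g * τ)]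
    have f2 : A * c * (Real.exp (-0 * τ) / (κ - 0)) ≤ c / 2 := by
      simp only [neg_zero, zero_mul, Real.exp_zero, sub_zero]
      rw [← mul_div_assoc, div_le_iff₀ (by linarith)]
      nlinarith
    have f3 : (τ - 0) • (ε / 2 / D * (2 * (2 + c) + M)) ≤ ε / 2 := by
      rw [sub_zero, smul_eq_mul]
      have : τ ≤ |N| + 1 := by linarith [hτ.2, le_abs_self N]
      calc τ * (ε / 2 / D * (2 * (2 + c) + M))
          ≤ (|N| + 1) * (ε / 2 / D * (2 * (2 + c) + M)) := by gcongr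
        _ = ε / 2 := by rw [hD']; field_simp
    have g1 := mul_le_mul_of_nonneg_left e1 (by positivity : 0 ≤ 2 * A)
    have g2 := mul_le_mul_of_nonneg_left e2 (by positivity : 0 ≤ A * c)
    have g3 := lq_add (W₀ ⊔ W₁) (φ₀ i τ) (∫ s in (0 : ℝ)..τ, T (τ - s) (φ i s))
    have g4 := (lq_le_norm (W₀ ⊔ W₁) (φ₀ i τ)).trans (h0 i τ hτ)
    have g5 : M / 2 ^ (n + 1) = M / 2 ^ n / 2 := by rw [pow_succ, div_div]
    rw [hD i τ hτ]
    linarith

theorem lq_net {ι : Type} {x : ι → Y} {M δ ε : ℝ} (W : Submodule ℝ Y) [FiniteDimensional ℝ W]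
    (hM : ∀ i, ‖x i‖ ≤ M) (h : ∀ i, infDist (x i) (W : Set Y) ≤ δ) (hε : 0 < ε) :
    ∃ t : Finset Y, ∀ i, ∃ y ∈ t, ‖x i - y‖ ≤ δ + ε := by
  obtain ⟨t, ht, hc⟩ := Metric.totallyBounded_iff.1
    (lq_ball_compact W (M + (δ + ε / 2))).totallyBounded (ε / 2) (half_pos hε)
  refine ⟨ht.toFinset, fun i => ?_⟩
  obtain ⟨w, hw, h1⟩ := lq_near W (x i) (half_pos hε)
  have h2 : ‖w‖ ≤ M + (δ + ε / 2) := by
    have := norm_sub_le (x i) (x i - w)
    rw [sub_sub_cancel] at this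
    linarith [hM i, h i]
  obtain ⟨y, hy, hwy⟩ := mem_iUnion₂.1 (hc ⟨hw, by simpa using h2⟩)
  refine ⟨y, ht.mem_toFinset.2 hy, ?_⟩
  have h3 : ‖w - y‖ < ε / 2 := by simpa [dist_eq_norm] using hwy
  have h4 := norm_add_le (x i - w) (w - y)
  rw [sub_add_sub_cancel] at h4
  linarith [h i]

/-- finite nets for Duhamel solutions at time `N` -/
theorem qc_net [CompleteSpace Y] {ι : Type} {T : ℝ → Y →L[ℝ] Y} {φ φ₀ : ι → ℝ → Y}
    {N g A κ M : ℝ} (hN : 0 ≤ N)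
    (hT : ContinuousOn (fun p : ℝ × Y => T p.1 p.2) (Icc 0 N ×ˢ univ))
    (hφ : ∀ i, ContinuousOn (φ i) (Icc 0 N)) (hM : ∀ i, ∀ s ∈ Icc (0 : ℝ) N, ‖φ i s‖ ≤ M)
    (h0 : ∀ i, ∀ s ∈ Icc (0 : ℝ) N, ‖φ₀ i s‖ ≤ Real.exp (-g * s))
    (hD : ∀ i, ∀ τ ∈ Icc (0 : ℝ) N, φ i τ = φ₀ i τ + ∫ s in (0 : ℝ)..τ, T (τ - s) (φ i s))
    (hF : FinAp (fun r y => T r y) (fun r => A * Real.exp (-κ * r)) N) (hA : 0 ≤ A)
    (hg : 0 ≤ g) (hκ : g < κ) (hAκ : 2 * A ≤ κ - g) {ε : ℝ} (hε : 0 < ε) :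
    ∃ t : Finset Y, ∀ i, ∃ y ∈ t, ‖φ i N - y‖ ≤ 2 * Real.exp (-g * N) + ε := by
  have hM' : ∀ i, ∀ s ∈ Icc (0 : ℝ) N, ‖φ i s‖ ≤ |M| :=
    fun i s hs => (hM i s hs).trans (le_abs_self M)
  obtain ⟨n, hn⟩ : ∃ n : ℕ, |M| / 2 ^ n ≤ ε / 3 := by
    obtain ⟨n, hn⟩ := pow_unbounded_of_one_lt (|M| / (ε / 3)) (one_lt_two (α := ℝ))
    refine ⟨n, ?_⟩
    rw [div_lt_iff₀ (by positivity)] at hn
    rw [div_le_iff₀ (by positivity)]
    linarith
  obtain ⟨W, hW, h⟩ := qc_fd hT hφ hM' h0 hD hF hA (abs_nonneg M) hg hκ hAκ n (ε / 3)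
    (by positivity)
  have hNN : N ∈ Icc (0 : ℝ) N := ⟨hN, le_rfl⟩
  obtain ⟨t, ht⟩ := lq_net W (fun i => hM' i N hNN) (fun i => h i N hNN)
    (by positivity : 0 < ε / 3)
  refine ⟨t, fun i => (ht i).imp fun y hy => ⟨hy.1, by linarith [hy.2]⟩⟩

end P139
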