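import Vale.Agent.P139.XR

/-! P139: the synthesis map (inverse Fourier integral without `2π`). -/

open Complex Set Filter Topology MeasureTheory
open scoped ComplexConjugate Laplacian

noncomputable section
namespace P139

variable {f g : E → ℂ} {K : ℕ} {l σ : ℝ}

theorem XSynAux_norm (ξ y : E) : ‖cexp (I * (inner ℝ ξ y : ℝ))‖ = 1 := by
  rw [mul_comm, norm_exp_ofReal_mul_I]

theorem XSynAux_int (hf : Integrable f) (y : E) :
    Integrable fun ξ => cexp (I * (inner ℝ ξ y : ℝ)) * f ξ :=
  hf.bdd_mul (c := 1) (Continuous.aestronglyMeasurable (by fun_prop))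
    (Eventually.of_forall fun ξ => (XSynAux_norm ξ y).le)

theorem XSynAux_four (f : E → ℂ) (y : E) :
    syn f y = FourierTransform.fourier f (-(2 * Real.pi)⁻¹ • y) := by
  rw [Real.fourier_eq', syn]
  refine integral_congr_ae (Eventually.of_forall fun ξ => ?_)
  have h : -2 * Real.pi * inner ℝ ξ (-(2 * Real.pi)⁻¹ • y) = inner ℝ ξ y := by
    have := Real.pi_pos.ne'
    rw [real_inner_smul_right]
    field_simp
  simp only [h, smul_eq_mul, mul_comm I]

/-- the bilinear form for which the synthesis map is a Fourier integral -/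
def XSynAux_L : E →L[ℝ] E →L[ℝ] ℝ := (-(2 * Real.pi)⁻¹) • innerSL ℝ

theorem XSynAux_L_apply (ξ y : E) : XSynAux_L ξ y = -(2 * Real.pi)⁻¹ * inner ℝ ξ y := rfl

theorem XSynAux_L_norm : 2 * Real.pi * ‖XSynAux_L‖ ≤ 1 := by
  have hp := Real.pi_pos
  have h : ‖XSynAux_L‖ ≤ (2 * Real.pi)⁻¹ := by
    refine ContinuousLinearMap.opNorm_le_bound₂ _ (by positivity) fun ξ y => ?_
    rw [XSynAux_L_apply, norm_mul, norm_neg, Real.norm_of_nonneg (by positivity), mul_assoc]
    exact mul_le_mul_of_nonneg_left (norm_inner_le_norm ξ y) (by positivity)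
  calc 2 * Real.pi * ‖XSynAux_L‖ ≤ 2 * Real.pi * (2 * Real.pi)⁻¹ :=
        mul_le_mul_of_nonneg_left h (by positivity)
    _ = 1 := mul_inv_cancel₀ (by positivity)

theorem XSynAux_vf (f : E → ℂ) : syn f =
    VectorFourier.fourierIntegral Real.fourierChar volume XSynAux_L.toLinearMap₁₂ f := by
  funext y
  rw [VectorFourier.fourierIntegral, syn]
  refine integral_congr_ae (Eventually.of_forall fun ξ => ?_)
  have h : 2 * Real.pi * -(XSynAux_L.toLinearMap₁₂ ξ y) = inner ℝ ξ y := by
    have := Real.pi_pos.ne'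
    change 2 * Real.pi * -(XSynAux_L ξ y) = _
    rw [XSynAux_L_apply]
    field_simp
  simp only [Circle.smul_def, Real.fourierChar_apply, h, smul_eq_mul, mul_comm I]

theorem XSynAux_pow (f : E → ℂ) {j : ℕ} (hj : j ≤ K) (ξ : E) :
    ‖ξ‖ ^ j * ‖f ξ‖ ≤ (wR K 1).w ξ * ‖f ξ‖ := by
  refine mul_le_mul_of_nonneg_right ?_ (norm_nonneg _)
  change _ ≤ (1 + |(1 : ℝ)| * ‖ξ‖) ^ K
  have h0 := norm_nonneg ξ
  rw [abs_one, one_mul]
  exact (pow_le_pow_left₀ h0 (by linarith) j).trans (pow_le_pow_right₀ (by linarith) hj)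

theorem XSynAux_mom (hf : MemW volume (wR K 1) f) {j : ℕ} (hj : j ≤ K) :
    Integrable fun ξ : E => ‖ξ‖ ^ j * ‖f ξ‖ :=
  hf.2.mono' ((by fun_prop : Continuous fun ξ : E => ‖ξ‖ ^ j).aestronglyMeasurable.mul hf.1.norm)
    (Eventually.of_forall fun ξ => by
      rw [Real.norm_of_nonneg (by positivity)]
      exact XSynAux_pow f hj ξ)

theorem XSynAux_iter (hf : MemW volume (wR K 1) f) {j : ℕ} (hj : j ≤ K) :
    iteratedFDeriv ℝ j (syn f) =
      VectorFourier.fourierIntegral Real.fourierChar volume XSynAux_L.toLinearMap₁₂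
        fun v => VectorFourier.fourierPowSMulRight XSynAux_L f v j := by
  rw [XSynAux_vf]
  exact VectorFourier.iteratedFDeriv_fourierIntegral XSynAux_L (N := K)
    (fun n hn => XSynAux_mom hf (by exact_mod_cast hn)) hf.1 (by exact_mod_cast hj)

theorem XSynAux_apply (hf : MemW volume (wR K 1) f) {j : ℕ} (hj : j ≤ K) (y : E)
    (v : Fin j → E) : iteratedFDeriv ℝ j (syn f) y v =
      syn (fun ξ => (∏ i, I * (inner ℝ ξ (v i) : ℝ)) * f ξ) y := by
  rw [XSynAux_iter hf hj, Real.fourierIntegral_continuousMultilinearMap_apply'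
    (VectorFourier.integrable_fourierPowSMulRight _ (XSynAux_mom hf hj) hf.1), XSynAux_vf]
  refine congrArg (fun F => VectorFourier.fourierIntegral Real.fourierChar volume
    XSynAux_L.toLinearMap₁₂ F y) (funext fun ξ => ?_)
  have h : ∀ t : ℝ, I * (t : ℂ) = -(2 * Real.pi * I) * ((-(2 * Real.pi)⁻¹ * t : ℝ) : ℂ) := by
    intro t
    have : (Real.pi : ℂ) ≠ 0 := by exact_mod_cast Real.pi_pos.ne'
    push_cast
    field_simp
  simp only [VectorFourier.fourierPowSMulRight_apply, XSynAux_L_apply, h, smul_eq_mul,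
    Complex.real_smul, Complex.ofReal_prod]
  rw [Finset.prod_mul_distrib (f := fun _ => -(2 * (Real.pi : ℂ) * I)), Finset.prod_const,
    Finset.card_univ, Fintype.card_fin]
  ring

theorem syn_congr (h : f =ᵐ[volume] g) : syn f = syn g := by
  funext y
  exact integral_congr_ae (h.mono fun ξ hξ => by simp only [hξ])

theorem syn_zero (f : E → ℂ) : syn f 0 = ∫ ξ, f ξ := by
  simp [syn]

theorem syn_add (hf : Integrable f) (hg : Integrable g) (y : E) :
    syn (fun ξ => f ξ + g ξ) y = syn f y + syn g y := by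
  simp only [syn, mul_add]
  exact integral_add (XSynAux_int hf y) (XSynAux_int hg y)

theorem syn_sub (hf : Integrable f) (hg : Integrable g) (y : E) :
    syn (fun ξ => f ξ - g ξ) y = syn f y - syn g y := by
  simp only [syn, mul_sub]
  exact integral_sub (XSynAux_int hf y) (XSynAux_int hg y)

theorem syn_const_mul (c : ℂ) (f : E → ℂ) (y : E) : syn (fun ξ => c * f ξ) y = c * syn f y := by
  simp only [syn, mul_left_comm _ c, integral_const_mul]

theorem norm_syn_le (f : E → ℂ) (y : E) : ‖syn f y‖ ≤ ∫ ξ, ‖f ξ‖ := by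
  refine (norm_integral_le_integral_norm _).trans (le_of_eq ?_)
  simp only [norm_mul, XSynAux_norm, one_mul]

theorem syn_cont (hf : Integrable f) : Continuous (syn f) := by
  rw [XSynAux_vf]
  exact VectorFourier.fourierIntegral_continuous Real.continuous_fourierChar
    XSynAux_L.continuous₂ hf

theorem syn_conv (hf : Integrable f) (hg : Integrable g) (y : E) :
    syn (convF volume f g) y = syn f y * syn g y := by
  simp only [XSynAux_four]
  exact Real.fourier_mul_convolution_eq hf hg _

theorem syn_st (f : E → ℂ) (y : E) : syn (stF f) y = conj (syn f y) := by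
  rw [syn, syn, ← integral_conj, ← integral_neg_eq_self]
  refine integral_congr_ae (Eventually.of_forall fun ξ => ?_)
  simp only [stF, neg_neg, map_mul, ← Complex.exp_conj, Complex.conj_I, Complex.conj_ofReal,
    inner_neg_left, Complex.ofReal_neg, mul_neg, neg_mul]

theorem syn_dil (hσ : 0 < σ) (f : E → ℂ) (y : E) : syn (dilF σ f) y = syn f (σ⁻¹ • y) := by
  have h := Measure.integral_comp_smul (volume : Measure E)
    (fun ξ => cexp (I * (inner ℝ ξ (σ⁻¹ • y) : ℝ)) * f ξ) σ
  have h1 : ∀ ξ : E, inner ℝ (σ • ξ) (σ⁻¹ • y) = inner ℝ ξ y := fun ξ => by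
    rw [real_inner_smul_left, real_inner_smul_right, ← mul_assoc, mul_inv_cancel₀ hσ.ne', one_mul]
  have h2 : (σ : ℂ) ≠ 0 := by exact_mod_cast hσ.ne'
  simp only [h1, finrank_euclideanSpace_fin] at h
  simp only [syn, dilF, mul_left_comm _ ((σ : ℂ) ^ 12), integral_const_mul, h]
  rw [abs_of_pos (by positivity), Complex.real_smul]
  push_cast
  field_simp

theorem syn_chR (x : E) (f : E → ℂ) (y : E) :
    syn (fun ξ => chR x ξ * f ξ) y = syn f (y + x) := by
  simp only [syn, chR, ← mul_assoc, ← Complex.exp_add, inner_add_right, Complex.ofReal_add,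
    mul_add]

theorem syn_inj (hf : Integrable f) (hg : Integrable g) (h : ∀ y, syn f y = syn g y) :
    f =ᵐ[volume] g := by
  have hd : Integrable fun ξ => f ξ - g ξ := hf.sub hg
  have h0 : ∀ w, FourierTransform.fourier (fun ξ => f ξ - g ξ) w = 0 := by
    intro w
    have h1 := XSynAux_four (fun ξ => f ξ - g ξ) (-(2 * Real.pi) • w)
    have := Real.pi_pos.ne'
    rw [syn_sub hf hg, h, sub_self, smul_smul,
      show -(2 * Real.pi)⁻¹ * -(2 * Real.pi) = 1 by field_simp, one_smul] at h1
    exact h1.symm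
  have h1 := ae_eq_zero_of_integral_contDiff_smul_eq_zero hd.locallyIntegrable fun φ hφ hs => by
    let ψ : SchwartzMap E ℂ := (hs.comp_left (g := Complex.ofReal) Complex.ofReal_zero).toSchwartzMap
      (Complex.ofRealCLM.contDiff.comp hφ)
    have h2 := VectorFourier.integral_fourierIntegral_smul_eq_flip (L := innerₗ E)
      (μ := volume) (ν := volume) Real.continuous_fourierChar continuous_inner
      (FourierTransformInv.fourierInv ψ : SchwartzMap E ℂ).integrable hd
    rw [flip_innerₗ] at h2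
    have h3 : ∀ ξ, VectorFourier.fourierIntegral Real.fourierChar volume (innerₗ E)
        (FourierTransformInv.fourierInv ψ : SchwartzMap E ℂ) ξ = (φ ξ : ℂ) := fun ξ => by
      have h4 := congrArg (fun F : SchwartzMap E ℂ => F ξ)
        (FourierTransform.fourier_fourierInv_eq (F := SchwartzMap E ℂ) ψ)
      simp only [SchwartzMap.fourier_coe] at h4
      exact h4
    have h5 : ∀ x, VectorFourier.fourierIntegral Real.fourierChar volume (innerₗ E)
        (fun ξ => f ξ - g ξ) x = 0 := h0
    simp only [h3, h5, smul_zero, integral_zero] at h2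
    simpa only [Complex.real_smul, smul_eq_mul] using h2
  exact h1.mono fun ξ hξ => sub_eq_zero.1 hξ

theorem XW_syn_ext {ω : Wt E} {x x' : XW volume ω} (h : ∀ y, syn x y = syn x' y) : x = x' := by
  exact XW_ext (syn_inj (memW_coe x).integrable (memW_coe x').integrable h)

/-- evaluation at a point of physical space -/
def evS (ω : Wt E) (y : E) : XW volume ω →L[ℂ] ℂ :=
  pairOp volume ω fun ξ => cexp (I * (inner ℝ ξ y : ℝ))

theorem evS_apply (ω : Wt E) (y : E) (x : XW volume ω) : evS ω y x = syn x y := by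
  exact pairOp_spec (C := 1) (Continuous.aestronglyMeasurable (by fun_prop))
    (fun ξ => by rw [XSynAux_norm, one_mul]; exact ω.one_le ξ) x

theorem syn_mul (x x' : XR K l) (y : E) :
    syn ((algR K l).mul x x') y = syn x y * syn x' y := by
  rw [← syn_conv (memW_coe x).integrable (memW_coe x').integrable]
  exact congrFun (syn_congr (convOp_spec x x').1) y

theorem syn_stOp (x : XR K l) (y : E) : syn ((algR K l).st x) y = conj (syn x y) := by
  rw [← syn_st]
  exact congrFun (syn_congr (stOp_spec x).1) y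

theorem syn_N (m : ℕ) (x : XR K l) (y : E) :
    syn ((algR K l).N m x) y = (syn x y * conj (syn x y)) ^ m * syn x y := by
  induction m with
  | zero => simp [Alg.N]
  | succ m ih =>
    rw [Alg.N, syn_mul, syn_mul, syn_stOp, ih]
    ring

theorem syn_DN (m : ℕ) (x w : XR K l) (y : E) :
    syn ((algR K l).DN m x w) y = ((m : ℂ) + 1) * (syn x y * conj (syn x y)) ^ m * syn w y
      + (m : ℂ) * (syn x y * conj (syn x y)) ^ (m - 1) * syn x y ^ 2 * conj (syn w y) := by
  have hadd : ∀ a b : XR K l, syn (a + b : XR K l) y = syn a y + syn b y := fun a b => by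
    rw [← evS_apply, ← evS_apply, ← evS_apply, map_add]
  induction m with
  | zero => simp [Alg.DN]
  | succ m ih =>
    rw [Alg.DN, hadd, syn_mul, hadd, syn_mul, syn_mul, syn_mul, syn_mul, syn_stOp, syn_stOp, syn_N,
      ih]
    cases m with
    | zero =>
      simp
      ring
    | succ m =>
      simp only [Nat.add_sub_cancel]
      push_cast
      ring

theorem syn_contDiff (hf : MemW volume (wR K 1) f) : ContDiff ℝ K (syn f) := by
  rw [XSynAux_vf]
  exact VectorFourier.contDiff_fourierIntegral XSynAux_L (N := K)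
    fun n hn => XSynAux_mom hf (by exact_mod_cast hn)

theorem norm_iteratedFDeriv_syn (hf : MemW volume (wR K 1) f) {j : ℕ} (hj : j ≤ K) (y : E) :
    ‖iteratedFDeriv ℝ j (syn f) y‖ ≤ nw volume (wR K 1) f := by
  rw [XSynAux_iter hf hj]
  refine (VectorFourier.norm_fourierIntegral_le_integral_norm _ _ _ _ _).trans ?_
  refine integral_mono_of_nonneg (Eventually.of_forall fun _ => norm_nonneg _) hf.2
    (Eventually.of_forall fun ξ => ?_)
  refine (VectorFourier.norm_fourierPowSMulRight_le _ _ _ _).trans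
    (le_trans ?_ (XSynAux_pow f hj ξ))
  rw [mul_assoc]
  exact mul_le_of_le_one_left (by positivity)
    (pow_le_one₀ (by have := Real.pi_pos; positivity) XSynAux_L_norm)

theorem fderiv_syn (hf : MemW volume (wR 1 1) f) (y v : E) :
    fderiv ℝ (syn f) y v = syn (fun ξ => I * (inner ℝ ξ v : ℝ) * f ξ) y := by
  have h := XSynAux_apply hf le_rfl y fun _ => v
  rwa [iteratedFDeriv_one_apply, funext fun ξ => congrArg (· * f ξ) (Fin.prod_univ_one _)] at h

theorem laplacian_syn (hf : MemW volume (wR 2 1) f) (y : E) :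
    (Δ (syn f)) y = syn (fun ξ => -((‖ξ‖ ^ 2 : ℝ) : ℂ) * f ξ) y := by
  rw [InnerProductSpace.laplacian_eq_iteratedFDeriv_orthonormalBasis _
    (EuclideanSpace.basisFun (Fin 12) ℝ)]
  simp only [XSynAux_apply hf le_rfl, Fin.prod_univ_two, EuclideanSpace.basisFun_apply,
    Matrix.cons_val_zero, Matrix.cons_val_one, EuclideanSpace.inner_single_right, conj_trivial,
    one_mul, syn]
  rw [← integral_finsetSum]
  · refine integral_congr_ae (Eventually.of_forall fun ξ => ?_)
    simp only [← Finset.mul_sum, ← Finset.sum_mul, EuclideanSpace.real_norm_sq_eq]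
    have h : ∀ i, I * (ξ i : ℂ) * (I * (ξ i : ℂ)) = -(ξ i : ℂ) ^ 2 := fun i => by
      linear_combination (ξ i : ℂ) ^ 2 * I_mul_I
    simp only [h, Finset.sum_neg_distrib]
    push_cast
    rfl
  · intro i _
    refine XSynAux_int ((XSynAux_mom hf le_rfl).mono'
      ((by fun_prop : Continuous fun ξ : E =>
        I * (ξ i : ℂ) * (I * (ξ i : ℂ))).aestronglyMeasurable.mul hf.1)
      (Eventually.of_forall fun ξ => ?_)) y
    have h := PiLp.norm_apply_le ξ i
    simp only [Pi.mul_apply, norm_mul, norm_I, one_mul, Complex.norm_real, sq]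
    gcongr

end P139
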