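import Vale.Agent.P139.LDefs
import Vale.Agent.P139.LQ0
import Vale.Agent.P139.XSyn
import Vale.Agent.P139.XCont

/-! P139 part L: quasi-compactness of the linearised flow in self-similar time. -/

open Complex Set Filter Topology MeasureTheory Metric
open scoped ComplexConjugate

noncomputable section
namespace P139

section abstract

variable {Y : Type} [NormedAddCommGroup Y] [NormedSpace ℝ Y]

theorem lq_integral' [CompleteSpace Y] {α : Type} [MeasurableSpace α] {μ : Measure α}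
    (W : Submodule ℝ Y) [FiniteDimensional ℝ W] {f : α → Y} {b : α → ℝ} (hf : Integrable f μ)
    (hb : Integrable b μ) (h : ∀ a, infDist (f a) (W : Set Y) ≤ b a) :
    infDist (∫ a, f a ∂μ) (W : Set Y) ≤ ∫ a, b a ∂μ := by
  have : IsClosed (W : Set Y) := W.closed_of_finiteDimensional
  have hq : ∀ y : Y, ‖W.mkQL y‖ = infDist y (W : Set Y) := fun y =>
    QuotientAddGroup.norm_mk (S := W.toAddSubgroup) y
  rw [← hq, ← W.mkQL.integral_comp_comm hf]
  exact norm_integral_le_of_norm_le hb (Eventually.of_forall fun a => by rw [hq]; exact h a)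

theorem lq_csmul [NormedSpace ℂ Y] [IsScalarTower ℝ ℂ Y] (W : Submodule ℝ Y)
    [FiniteDimensional ℝ W] : ∃ W' : Submodule ℝ Y, FiniteDimensional ℝ W' ∧
      ∀ (c : ℂ) (y : Y), infDist (c • y) (W' : Set Y) ≤ ‖c‖ * infDist y (W : Set Y) := by
  let J : Y →ₗ[ℝ] Y := (LinearMap.lsmul ℂ Y I).restrictScalars ℝ
  refine ⟨W ⊔ W.map J, inferInstance, fun c y => ?_⟩
  refine le_of_forall_pos_le_add fun ε hε => ?_
  have hc : 0 < ‖c‖ + 1 := by positivity
  obtain ⟨a, ha, h1⟩ := lq_near W y (div_pos hε hc)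
  have hm : c • a ∈ W ⊔ W.map J := by
    have e : c • a = c.re • a + c.im • J a := by
      show _ = c.re • a + c.im • (I • a)
      rw [← algebraMap_smul ℂ c.re a, ← algebraMap_smul ℂ c.im (I • a), smul_smul, ← add_smul,
        Complex.coe_algebraMap, re_add_im]
    rw [e]
    exact Submodule.add_mem_sup (W.smul_mem _ ha) (Submodule.smul_mem _ _ ⟨a, ha, rfl⟩)
  have h3 := infDist_le_dist_of_mem (x := c • y) hm
  rw [dist_eq_norm, ← smul_sub, norm_smul] at h3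
  have h4 : ‖c‖ * (ε / (‖c‖ + 1)) ≤ ε := by
    rw [← mul_div_assoc, div_le_iff₀ hc]; nlinarith [norm_nonneg c]
  nlinarith [norm_nonneg c, mul_le_mul_of_nonneg_left h1 (norm_nonneg c)]

end abstract

theorem lq_pow_le {x η u : ℝ} (hx0 : 0 ≤ x) (hx : x ≤ 1) (hη0 : 0 ≤ η) (hη : η ≤ 1) (hu : 1 ≤ u)
    (K : ℕ) : (x + η * u) ^ K ≤ x ^ K + η * 3 ^ K * u ^ K := by
  induction K with
  | zero => simp only [pow_zero]; linarith
  | succ K ih =>
    have h1 : x ^ K ≤ 1 := pow_le_one₀ hx0 hx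
    have h2 : (1 : ℝ) ≤ 3 ^ K * u ^ K :=
      one_le_mul_of_one_le_of_one_le (one_le_pow₀ (by norm_num)) (one_le_pow₀ hu)
    have h3 : x + η * u ≤ 2 * u := by nlinarith
    have h4 : 0 ≤ η * u := by positivity
    calc (x + η * u) ^ (K + 1) = (x + η * u) * (x + η * u) ^ K := by ring
      _ ≤ (x + η * u) * (x ^ K + η * 3 ^ K * u ^ K) := by gcongr
      _ = x ^ (K + 1) + η * u * x ^ K + (x + η * u) * (η * 3 ^ K * u ^ K) := by ring
      _ ≤ x ^ (K + 1) + η * u * (3 ^ K * u ^ K) + 2 * u * (η * 3 ^ K * u ^ K) := by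
          gcongr
          exact h1.trans h2
      _ = x ^ (K + 1) + η * 3 ^ (K + 1) * u ^ (K + 1) := by ring

variable {K : ℕ} {m : ℕ}

theorem lq_syn_sh (v : XR K 1) (η y : E) :
    syn (shOp volume (wR K 1) η v) y = cexp (I * (inner ℝ η y : ℝ)) * syn v y := by
  rw [syn_congr (shOp_spec η v).1]
  unfold syn
  rw [← integral_const_mul, ← integral_add_right_eq_self _ η]
  refine integral_congr_ae (Eventually.of_forall fun ξ => ?_)
  simp only [add_sub_cancel_right, inner_add_left, ofReal_add, mul_add, Complex.exp_add]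
  ring

theorem lq_rep_int (v f : XR K 1) :
    Integrable (fun η : E => f η • shOp volume (wR K 1) η v) := by
  refine ((memW_coe f).2.mul_const ‖v‖).mono'
    ((memW_coe f).1.smul (shOp_cont v).aestronglyMeasurable) (Eventually.of_forall fun η => ?_)
  rw [norm_smul]
  have := mul_le_mul_of_nonneg_left (shOp_spec η v).2 (norm_nonneg (f η))
  linarith

/-- convolution as a Bochner integral of shifts -/
theorem lq_rep (v f : XR K 1) :
    (algR K 1).mul v f = ∫ η : E, f η • shOp volume (wR K 1) η v := by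
  refine XW_syn_ext fun y => ?_
  rw [syn_mul, ← evS_apply (wR K 1) y (∫ η : E, _),
    ← (evS (wR K 1) y).integral_comp_comm (lq_rep_int v f)]
  simp only [map_smul, evS_apply, lq_syn_sh, smul_eq_mul]
  rw [mul_comm, show syn f y = ∫ ξ, cexp (I * (inner ℝ ξ y : ℝ)) * f ξ from rfl,
    ← integral_mul_const]
  refine integral_congr_ae (Eventually.of_forall fun ξ => ?_)
  simp only
  ring

theorem lq_S0_norm (P : Prof m) (r : ℝ) (x : XR K 1) :
    ‖P.S0 K r x‖ = Real.exp (-gam m * r) * nw volume (wR K (Real.exp (-r / 2))) x := by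
  have hσ : 0 < Real.exp (r / 2) := Real.exp_pos _
  set y := (algR K 1).U (1 - Real.exp (-r)) x with hy
  have h1 : P.S0 K r x = cexp (-P.aa * r) • dilOp (wR K 1) (wR K 1) (Real.exp (r / 2)) y := rfl
  have h2 : ‖cexp (-P.aa * r)‖ = Real.exp (-gam m * r) := by
    rw [Complex.norm_exp]
    simp [Prof.aa]
  have e := nw_dil (K := K) (l := Real.exp (-r / 2)) hσ y
  rw [← Real.exp_add, show -r / 2 + r / 2 = 0 by ring, Real.exp_zero] at e
  rw [h1, norm_smul, h2, norm_eq_nw, nw_congr (dilOp_same hσ y).1, e]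
  congr 1
  unfold nw
  refine integral_congr_ae ?_
  filter_upwards [(freeOp_spec (μ := volume) (ω := wR K 1) (σ := fun ξ : E => ‖ξ‖ ^ 2)
    (by fun_prop) (1 - Real.exp (-r)) x).1] with ξ hξ
  rw [show y ξ = _ from hξ, norm_mul, XConvAux_exp, one_mul]

theorem lq_S0_le (P : Prof m) {r : ℝ} (hr : 0 ≤ r) (x : XR K 1) :
    ‖P.S0 K r x‖ ≤ Real.exp (-gam m * r) * ‖x‖ := by
  rw [lq_S0_norm, norm_eq_nw x]
  gcongr
  have h := (memW_coe x).of_le (ω₂ := wR K (Real.exp (-r / 2))) (C := 1) (memW_coe x).1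
    (Eventually.of_forall fun ξ => by
      rw [one_mul]
      refine mul_le_mul_of_nonneg_right (wR_mono le_rfl ?_ ξ) (norm_nonneg _)
      rw [abs_of_pos (Real.exp_pos _), abs_one]
      exact Real.exp_le_one_iff.2 (by linarith))
  simpa using h.2

theorem lq_S0_sh (P : Prof m) {r R : ℝ} (hr : 0 ≤ r) (hR : 0 ≤ R) (v : XR K 1) {η : E}
    (hη : R ≤ ‖η‖) : ‖P.S0 K r (shOp volume (wR K 1) η v)‖ ≤ Real.exp (-gam m * r) *
      ((Real.exp (-r / 2) ^ K * (∫ ξ, ‖v ξ‖) + (1 + R)⁻¹ * 3 ^ K * ‖v‖) * (wR K 1).w η) := by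
  rw [lq_S0_norm, nw_congr (shOp_spec η v).1]
  gcongr
  set x := Real.exp (-r / 2) with hx
  have hx0 : 0 < x := Real.exp_pos _
  have hx1 : x ≤ 1 := Real.exp_le_one_iff.2 (by linarith)
  have hi := (memW_coe v).integrable.norm
  have hi2 := (memW_coe v).2
  unfold nw
  rw [← integral_add_right_eq_self _ η, norm_eq_nw v]
  unfold nw
  rw [← integral_const_mul, ← integral_const_mul,
    ← integral_add (hi.const_mul _) (hi2.const_mul _), ← integral_mul_const]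
  refine integral_mono_of_nonneg (Eventually.of_forall fun ζ =>
    mul_nonneg ((wR K x).pos _).le (norm_nonneg _))
    (((hi.const_mul _).add (hi2.const_mul _)).mul_const _) (Eventually.of_forall fun ζ => ?_)
  have hw : ∀ (l : ℝ) (ξ : E), (wR K l).w ξ = (1 + |l| * ‖ξ‖) ^ K := fun _ _ => rfl
  simp only [add_sub_cancel_right, hw, abs_one, one_mul, abs_of_pos hx0]
  have hR1 : 0 < 1 + R := by linarith
  have h1 : 1 + x * ‖ζ + η‖ ≤ (x + (1 + R)⁻¹ * (1 + ‖ζ‖)) * (1 + ‖η‖) := by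
    have a1 : 1 + ‖ζ‖ ≤ (1 + R)⁻¹ * (1 + ‖ζ‖) * (1 + ‖η‖) := by
      rw [mul_right_comm]
      refine le_mul_of_one_le_left (by positivity) ?_
      rw [← div_eq_inv_mul, one_le_div hR1]
      linarith
    have a2 := mul_le_mul_of_nonneg_left (norm_add_le ζ η) hx0.le
    nlinarith [norm_nonneg ζ, norm_nonneg η]
  have h2 := lq_pow_le hx0.le hx1 (inv_nonneg.2 hR1.le) (inv_le_one_of_one_le₀ (by linarith))
    (le_add_of_nonneg_right (norm_nonneg ζ)) K
  calc (1 + x * ‖ζ + η‖) ^ K * ‖v ζ‖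
      ≤ ((x + (1 + R)⁻¹ * (1 + ‖ζ‖)) * (1 + ‖η‖)) ^ K * ‖v ζ‖ := by gcongr
    _ = (x + (1 + R)⁻¹ * (1 + ‖ζ‖)) ^ K * ((1 + ‖η‖) ^ K * ‖v ζ‖) := by rw [mul_pow]; ring
    _ ≤ (x ^ K + (1 + R)⁻¹ * 3 ^ K * (1 + ‖ζ‖) ^ K) * ((1 + ‖η‖) ^ K * ‖v ζ‖) := by gcongr
    _ = _ := by ring

theorem lq_gam (m : ℕ) : 0 ≤ gam m := by unfold gam; positivity

theorem lq_sh_fd (P : Prof m)
    (hc : Continuous fun p : ℝ × XR K 1 => P.S0 K p.1 p.2) (v : XR K 1) (N : ℝ) {ε : ℝ}
    (hε : 0 < ε) : ∃ W : Submodule ℝ (XR K 1), FiniteDimensional ℝ W ∧ ∀ r ∈ Icc (0 : ℝ) N,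
      ∀ η : E, infDist (P.S0 K r (shOp volume (wR K 1) η v)) (W : Set (XR K 1))
        ≤ ((∫ ξ, ‖v ξ‖) * Real.exp (-(gam m + K / 2) * r) + ε) * (wR K 1).w η := by
  set R : ℝ := 3 ^ K * ‖v‖ / ε with hR
  have hR0 : 0 ≤ R := by positivity
  have hc1 : Continuous fun p : ℝ × E => (p.1, shOp volume (wR K 1) p.2 v) :=
    continuous_fst.prodMk ((shOp_cont v).comp continuous_snd)
  have hc2 := hc.comp hc1
  have hK := ((isCompact_Icc (a := (0 : ℝ)) (b := N)).prod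
    (isCompact_closedBall (0 : E) R)).image hc2
  obtain ⟨W₀, hW₀, h0⟩ := lq_of_tb hK.totallyBounded hε
  refine ⟨W₀, hW₀, fun r hr η => ?_⟩
  obtain ⟨k, hk⟩ : ∃ k, k = (∫ ξ, ‖v ξ‖) * Real.exp (-(gam m + K / 2) * r) := ⟨_, rfl⟩
  have hk0 : 0 ≤ k := by
    rw [hk]
    exact mul_nonneg (integral_nonneg fun _ => norm_nonneg _) (Real.exp_pos _).le
  rw [← hk]
  have hw := (wR K 1).one_le η
  rcases le_total ‖η‖ R with hη | hη
  · refine (h0 _ ⟨(r, η), ⟨hr, mem_closedBall_zero_iff.2 hη⟩, rfl⟩).trans ?_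
    nlinarith
  · refine (lq_le_norm _ _).trans ((lq_S0_sh P hr.1 hR0 v hη).trans ?_)
    rw [← mul_assoc]
    refine mul_le_mul_of_nonneg_right ?_ (by linarith)
    have e1 : Real.exp (-gam m * r) ≤ 1 :=
      Real.exp_le_one_iff.2 (by nlinarith [lq_gam m, hr.1])
    have e2 : Real.exp (-gam m * r) * (Real.exp (-r / 2) ^ K * ∫ ξ, ‖v ξ‖) = k := by
      rw [hk, ← Real.exp_nat_mul, ← mul_assoc, ← Real.exp_add, mul_comm]
      congr 2
      ring
    have e3 : (1 + R)⁻¹ * 3 ^ K * ‖v‖ ≤ ε := by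
      rw [mul_assoc, inv_mul_le_iff₀ (by positivity), hR, add_mul, div_mul_cancel₀ _ hε.ne']
      linarith
    have e4 : 0 ≤ (1 + R)⁻¹ * 3 ^ K * ‖v‖ := by positivity
    rw [mul_add, e2]
    have e5 := mul_le_of_le_one_left e4 e1
    linarith

theorem lq_finAp_mul (P : Prof m)
    (hc : Continuous fun p : ℝ × XR K 1 => P.S0 K p.1 p.2) (v : XR K 1) (N : ℝ) :
    FinAp (fun r f => P.S0 K r ((algR K 1).mul v f))
      (fun r => (∫ ξ, ‖v ξ‖) * Real.exp (-(gam m + K / 2) * r)) N := by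
  intro ε hε
  obtain ⟨W₀, hW₀, key⟩ := lq_sh_fd P hc v N hε
  obtain ⟨W, hW, h1⟩ := lq_csmul W₀
  refine ⟨W, hW, fun r hr f => ?_⟩
  have hi := (P.S0 K r).integrable_comp (lq_rep_int v f)
  show infDist (P.S0 K r ((algR K 1).mul v f)) _ ≤ _
  rw [lq_rep, ← (P.S0 K r).integral_comp_comm (lq_rep_int v f), norm_eq_nw f]
  unfold nw
  rw [← integral_const_mul]
  refine lq_integral' W hi ((memW_coe f).2.const_mul _) fun η => ?_
  rw [map_smul]
  refine (h1 _ _).trans ((mul_le_mul_of_nonneg_left (key r hr η) (norm_nonneg (f η))).trans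
    (le_of_eq ?_))
  ring

/-- the unweighted norm as the norm of the inclusion -/
theorem lq_w0 (ξ : E) : (wR 0 1).w ξ ≤ 1 * (wR K 1).w ξ := by
  rw [one_mul]; exact wR_mono (Nat.zero_le K) le_rfl ξ

theorem lq_nA (x : XR K 1) : ∫ ξ, ‖x ξ‖ = ‖incl volume (wR K 1) (wR 0 1) x‖ := by
  rw [norm_eq_nw, nw_congr (incl_spec lq_w0 x).1]
  simp [nw, wR]

theorem lq_nA_mulN (j : ℕ) (c : ℂ) (x y : XR K 1) {a : ℝ} (hx : ∫ ξ, ‖x ξ‖ ≤ a)
    (hy : ∫ ξ, ‖y ξ‖ ≤ a) :
    ∫ ξ, ‖(c • (algR K 1).mul y ((algR K 1).N j x) : XR K 1) ξ‖ ≤ ‖c‖ * a ^ (2 * (j + 1)) := by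
  rw [lq_nA] at hx hy ⊢
  have h1 := Alg.map_N (algR K 1) (algR 0 1) (incl volume (wR K 1) (wR 0 1)) 1 1
    (fun x y => by rw [one_smul]; exact incl_conv lq_w0 x y)
    (fun x => by rw [one_smul]; exact incl_st lq_w0 x) j x
  rw [map_smul, norm_smul, show incl volume (wR K 1) (wR 0 1) ((algR K 1).mul y _) = _ from
    incl_conv lq_w0 y _, h1]
  gcongr
  refine ((algR 0 1).norm_mul _ _).trans ?_
  simp only [one_pow, mul_one, one_smul]
  have h2 := (algR 0 1).norm_N j (incl volume (wR K 1) (wR 0 1) x)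
  have ha : 0 ≤ a := (norm_nonneg _).trans hx
  calc _ ≤ a * a ^ (2 * j + 1) := by
        gcongr
        exact h2.trans (by gcongr)
    _ = _ := by ring

theorem lq_finAp {P : Prof m} (hm : 1 ≤ m) (F : FD P)
    (hc : Continuous fun p : ℝ × XR K 1 => P.S0 K p.1 p.2) (N : ℝ) :
    FinAp (fun r x => P.S0 K r (F.V K x))
      (fun r => (2 * m + 1) * (∫ ξ, ‖F.qt 0 ξ‖) ^ (2 * m) * Real.exp (-(gam m + K / 2) * r)) N := by
  obtain ⟨j, rfl⟩ : ∃ j, m = j + 1 := ⟨m - 1, by omega⟩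
  set q := F.qW K 1 0 with hq
  set a := ∫ ξ, ‖F.qt 0 ξ‖ with ha
  have hqa : ∫ ξ, ‖q ξ‖ ≤ a := by
    by_cases h : MemW volume (wR K 1) (F.qt 0)
    · exact (integral_congr_ae ((toW_coe h).mono fun ξ hξ => by simp only [hq, FD.qW, hξ])).le
    · have h0 : q = 0 := by
        rw [hq, FD.qW, toW, dif_neg fun h' => h (memW_iff.2 h')]
      rw [h0, lq_nA, map_zero, norm_zero]
      exact integral_nonneg fun _ => norm_nonneg _
  have hsa : ∫ ξ, ‖((algR K 1).st q) ξ‖ ≤ a := by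
    rw [lq_nA, show incl volume (wR K 1) (wR 0 1) ((algR K 1).st q) = _ from incl_st lq_w0 q,
      (stOp_spec _).2, ← lq_nA]
    exact hqa
  set v₁ : XR K 1 := (-I * ((j : ℂ) + 2)) • (algR K 1).mul ((algR K 1).st q) ((algR K 1).N j q)
  set v₂ : XR K 1 := (-I * ((j : ℂ) + 1)) • (algR K 1).mul q ((algR K 1).N j q)
  have hV : ∀ x, F.V K x = (algR K 1).mul v₁ x + (algR K 1).mul v₂ ((algR K 1).st x) := by
    intro x
    refine XW_syn_ext fun y => ?_
    have e : ∀ z : XR K 1, syn z y = evS (wR K 1) y z := fun z => (evS_apply _ y z).symm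
    rw [show F.V K x = (-I) • (algR K 1).DN (j + 1) q x from rfl, e, e, map_smul, map_add,
      ← e, ← e, ← e, syn_DN, syn_mul, syn_mul, e v₁, e v₂, map_smul, map_smul, ← e, ← e,
      syn_mul, syn_mul, syn_stOp, syn_stOp, syn_N]
    simp only [smul_eq_mul, Nat.add_sub_cancel]
    push_cast
    ring
  have h1 := lq_finAp_mul P hc v₁ N
  have h2 := (lq_finAp_mul P hc v₂ N).comp (fun r _ => mul_nonneg
    (integral_nonneg fun _ => norm_nonneg _) (Real.exp_pos _).le) (J := fun x => (algR K 1).st x)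
    (algR K 1).norm_st
  have b1 := lq_nA_mulN j (-I * ((j : ℂ) + 2)) q _ hqa hsa
  have b2 := lq_nA_mulN j (-I * ((j : ℂ) + 1)) q _ hqa hqa
  have n1 : ‖-I * ((j : ℂ) + 2)‖ = j + 2 := by
    rw [norm_mul, norm_neg, norm_I, one_mul]; exact_mod_cast Complex.norm_natCast (j + 2)
  have n2 : ‖-I * ((j : ℂ) + 1)‖ = j + 1 := by
    rw [norm_mul, norm_neg, norm_I, one_mul]; exact_mod_cast Complex.norm_natCast (j + 1)
  rw [n1] at b1
  rw [n2] at b2
  have h3 := (h1.add h2).mono (k' := fun r => (2 * ((j + 1 : ℕ) : ℝ) + 1) * a ^ (2 * (j + 1)) *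
    Real.exp (-(gam (j + 1) + K / 2) * r)) fun r _ => by
      rw [← add_mul]
      gcongr
      push_cast
      linarith
  simpa only [hV, map_add] using h3

/-- finite nets for the linearised flow -/
theorem lq_flow {P : Prof m} (hm : 1 ≤ m) (F : FD P) : ∃ K₁ : ℕ, ∀ K : ℕ, K₁ ≤ K →
    ∀ G : C0 (XR K 1), (∀ τ x, G.S τ x = P.S0 K τ x) → ∀ Fl : G.Flow (F.V K), ∀ δ : ℝ, 0 < δ →
      ∃ N₀ : ℝ, 0 < N₀ ∧ ∀ N : ℝ, N₀ ≤ N → Net (Fl.Φ N) δ := by
  set A : ℝ := (2 * m + 1) * (∫ ξ, ‖F.qt 0 ξ‖) ^ (2 * m) with hA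
  have hA0 : 0 ≤ A := mul_nonneg (by positivity)
    (pow_nonneg (integral_nonneg fun _ => norm_nonneg _) _)
  refine ⟨⌈4 * A⌉₊ + 1, fun K hK G hG Fl δ hδ => ?_⟩
  have hK1 : 4 * A + 1 ≤ K := by
    have h1 : ((⌈4 * A⌉₊ + 1 : ℕ) : ℝ) ≤ K := by exact_mod_cast hK
    push_cast at h1
    linarith [Nat.le_ceil (4 * A)]
  have hg : 0 < gam m := by
    have : (0 : ℝ) < m := by exact_mod_cast hm
    unfold gam; positivity
  have hc : Continuous fun p : ℝ × XR K 1 => P.S0 K p.1 p.2 := by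
    simpa only [hG] using G.cont
  refine ⟨4 / (δ * gam m), by positivity, fun N hN => ?_⟩
  have hN0 : 0 < N := lt_of_lt_of_le (by positivity) hN
  obtain ⟨M, hM⟩ := banach_steinhaus (g := fun s : Icc (0 : ℝ) N => Fl.Φ s) fun x => by
    obtain ⟨C, hC⟩ := isCompact_Icc.exists_bound_of_continuousOn (Fl.mild x N).1
    exact ⟨C, fun s => hC s s.2⟩
  obtain ⟨t, ht⟩ := qc_net (ι := {x : XR K 1 // ‖x‖ ≤ 1}) (T := fun r => (G.S r).comp (F.V K))
    (φ := fun x s => Fl.Φ s x) (φ₀ := fun x s => G.S s x) (g := gam m) (A := A)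
    (κ := gam m + K / 2) (M := |M|) hN0.le
    (G.cont.comp (continuous_fst.prodMk ((F.V K).continuous.comp continuous_snd))).continuousOn
    (fun x => (Fl.mild x N).1)
    (fun x s hs => ((Fl.Φ s).le_opNorm x).trans (by
      have := (hM ⟨s, hs⟩).trans (le_abs_self M)
      nlinarith [x.2, norm_nonneg (Fl.Φ s), norm_nonneg x.1]))
    (fun x s hs => by
      rw [hG]
      exact (lq_S0_le P hs.1 _).trans (mul_le_of_le_one_right (Real.exp_pos _).le x.2))
    (fun x τ hτ => by simpa only [Fl.zero, ContinuousLinearMap.comp_apply] using (Fl.mild x N).2 τ hτ)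
    (by simpa only [ContinuousLinearMap.comp_apply, hG] using lq_finAp hm F hc N) hA0 hg.le
    (by linarith) (by linarith) (half_pos hδ)
  refine ⟨t, fun x hx => (ht ⟨x, hx⟩).imp fun y hy => ⟨hy.1, hy.2.trans ?_⟩⟩
  have h1 : 4 / δ ≤ gam m * N := by
    rw [div_le_iff₀ (by positivity)] at hN ⊢
    linarith
  have h2 := Real.add_one_le_exp (gam m * N)
  have h3 : Real.exp (-gam m * N) ≤ δ / 4 := by
    rw [neg_mul, Real.exp_neg, inv_le_comm₀ (Real.exp_pos _) (by positivity), inv_div]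
    linarith
  linarith

end P139
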