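import Vale.Agent.P139.LS0
import Vale.Agent.P139.LQ1

/-! P139 L: quasi-compactness of the linearised flow. -/

open Complex Set Filter Topology MeasureTheory
open scoped ComplexConjugate Laplacian

noncomputable section
namespace P139

variable {m : ℕ} {P : Prof m}

theorem l_qc (hm : 1 ≤ m) (F : FD P) : ∃ K₁ : ℕ, ∀ K : ℕ, K₁ ≤ K →
    ∀ Fl : (P.G0 K).Flow (F.V K), ∀ δ : ℝ, 0 < δ → ∃ N₀ : ℝ, ∀ τ : ℝ, N₀ ≤ τ →
      Net (Fl.Φ τ) δ := by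
  obtain ⟨K₁, h⟩ := lq_flow hm F
  refine ⟨K₁, fun K hK Fl δ hδ => ?_⟩
  obtain ⟨N₀, -, hN⟩ := h K hK (P.G0 K) (G0_apply P K) Fl δ hδ
  exact ⟨N₀, hN⟩

end P139
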