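import Vale.Agent.P139.LSpec

/-! P139 part L: complexification of a real-linear flow; decay modulo real multiples of modes. -/

open Complex Set Filter Topology MeasureTheory Metric
open scoped ComplexConjugate Laplacian

noncomputable section
namespace P139

section aux

variable {X : Type} [NormedAddCommGroup X] [NormedSpace ℂ X]

def cxRe (st : X →L⋆[ℂ] X) (y : X × X) : X := (2⁻¹ : ℂ) • (y.1 + st y.2)
def cxIm (st : X →L⋆[ℂ] X) (y : X × X) : X := (-I * 2⁻¹ : ℂ) • (y.1 - st y.2)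
def cxMk (st : X →L⋆[ℂ] X) (a b : X) : X × X := (a + I • b, st a + I • st b)

variable {st : X →L⋆[ℂ] X}

theorem st_smul (c : ℂ) (x : X) : st (c • x) = conj c • st x := map_smulₛₗ st c x

theorem cxRe_mk (hst : ∀ x, st (st x) = x) (a b : X) : cxRe st (cxMk st a b) = a := by
  simp only [cxRe, cxMk, map_add, st_smul, hst, conj_I]
  module

theorem cxIm_mk (hst : ∀ x, st (st x) = x) (a b : X) : cxIm st (cxMk st a b) = b := by
  simp only [cxIm, cxMk, map_add, st_smul, hst, conj_I]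
  match_scalars
  · ring
  · linear_combination (-1 : ℂ) * I_mul_I

theorem cxMk_re_im (hst : ∀ x, st (st x) = x) (y : X × X) :
    cxMk st (cxRe st y) (cxIm st y) = y := by
  have h2 : conj (2⁻¹ : ℂ) = 2⁻¹ := by rw [map_inv₀, map_ofNat]
  refine Prod.ext ?_ ?_
  · simp only [cxRe, cxIm, cxMk]
    match_scalars
    · linear_combination (-2⁻¹ : ℂ) * I_mul_I
    · linear_combination (2⁻¹ : ℂ) * I_mul_I
  · simp only [cxRe, cxIm, cxMk, map_add, map_sub, st_smul, hst, map_mul, map_neg, conj_I, h2]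
    match_scalars
    · linear_combination (2⁻¹ : ℂ) * I_mul_I
    · linear_combination (-2⁻¹ : ℂ) * I_mul_I

theorem cxRe_add (y y' : X × X) : cxRe st (y + y') = cxRe st y + cxRe st y' := by
  simp only [cxRe, Prod.fst_add, Prod.snd_add, map_add]
  module

theorem cxIm_add (y y' : X × X) : cxIm st (y + y') = cxIm st y + cxIm st y' := by
  simp only [cxIm, Prod.fst_add, Prod.snd_add, map_add]
  module

theorem cxRe_sub (y y' : X × X) : cxRe st (y - y') = cxRe st y - cxRe st y' := by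
  simp only [cxRe, Prod.fst_sub, Prod.snd_sub, map_sub]
  module

theorem cxMk_add (a b a' b' : X) :
    cxMk st (a + a') (b + b') = cxMk st a b + cxMk st a' b' := by
  refine Prod.ext ?_ ?_
  · simp only [cxMk, Prod.fst_add]
    module
  · simp only [cxMk, Prod.snd_add, map_add]
    module

theorem cxMk_sub (a b a' b' : X) :
    cxMk st a b - cxMk st a' b' = cxMk st (a - a') (b - b') := by
  refine Prod.ext ?_ ?_
  · simp only [cxMk, Prod.fst_sub]
    module
  · simp only [cxMk, Prod.snd_sub, map_sub]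
    module

theorem cxRe_smul (a b : ℝ) (y : X × X) :
    cxRe st ((a + b * I : ℂ) • y) = (a : ℂ) • cxRe st y + ((-b : ℝ) : ℂ) • cxIm st y := by
  simp only [cxRe, cxIm, Prod.smul_fst, Prod.smul_snd, st_smul, map_add, map_mul, conj_ofReal,
    conj_I]
  push_cast
  match_scalars
  · ring
  · ring

theorem cxIm_smul (a b : ℝ) (y : X × X) :
    cxIm st ((a + b * I : ℂ) • y) = (a : ℂ) • cxIm st y + (b : ℂ) • cxRe st y := by
  simp only [cxRe, cxIm, Prod.smul_fst, Prod.smul_snd, st_smul, map_add, map_mul, conj_ofReal,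
    conj_I]
  match_scalars
  · linear_combination (-(b : ℂ) * 2⁻¹) * I_mul_I
  · linear_combination (-(b : ℂ) * 2⁻¹) * I_mul_I

theorem cxMk_smul (a b : ℝ) (u v : X) :
    cxMk st ((a : ℂ) • u + ((-b : ℝ) : ℂ) • v) ((a : ℂ) • v + (b : ℂ) • u)
      = (a + b * I : ℂ) • cxMk st u v := by
  refine Prod.ext ?_ ?_
  · simp only [cxMk, Prod.smul_fst]
    push_cast
    match_scalars
    · ring
    · linear_combination (-(b : ℂ)) * I_mul_I
  · simp only [cxMk, Prod.smul_snd, map_add, st_smul, conj_ofReal]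
    push_cast
    match_scalars
    · ring
    · linear_combination (-(b : ℂ)) * I_mul_I

theorem st_le (x : X) : ‖st x‖ ≤ (1 + ‖st‖) * ‖x‖ :=
  (st.le_opNorm x).trans (mul_le_mul_of_nonneg_right (by linarith) (norm_nonneg _))

theorem cxRe_le (y : X × X) : ‖cxRe st y‖ ≤ (1 + ‖st‖) * ‖y‖ := by
  have h1 := norm_add_le y.1 (st y.2)
  have h2 := (st.le_opNorm y.2).trans (mul_le_mul_of_nonneg_left (norm_snd_le y) (norm_nonneg _))
  have h3 := norm_fst_le y
  have h4 := norm_nonneg (y.1 + st y.2)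
  rw [cxRe, norm_smul, norm_inv, Complex.norm_ofNat]
  linarith

theorem cxIm_le (y : X × X) : ‖cxIm st y‖ ≤ (1 + ‖st‖) * ‖y‖ := by
  have h1 := norm_sub_le y.1 (st y.2)
  have h2 := (st.le_opNorm y.2).trans (mul_le_mul_of_nonneg_left (norm_snd_le y) (norm_nonneg _))
  have h3 := norm_fst_le y
  have h4 := norm_nonneg (y.1 - st y.2)
  rw [cxIm, norm_smul, norm_mul, norm_neg, Complex.norm_I, norm_inv, Complex.norm_ofNat]
  linarith

theorem cxMk_le (a b : X) : ‖cxMk st a b‖ ≤ (1 + ‖st‖) * (‖a‖ + ‖b‖) := by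
  have hs := norm_nonneg st
  rw [cxMk, Prod.norm_mk]
  refine max_le ((norm_add_le _ _).trans ?_) ((norm_add_le _ _).trans ?_)
  · rw [norm_smul, Complex.norm_I, one_mul]
    nlinarith [norm_nonneg a, norm_nonneg b]
  · rw [norm_smul, Complex.norm_I, one_mul, mul_add]
    exact add_le_add (st_le a) (st_le b)

theorem cxRe_diag (hst : ∀ x, st (st x) = x) (x : X) : cxRe st (x, st x) = x := by
  simpa [cxMk] using cxRe_mk hst x 0

theorem cxIm_diag (hst : ∀ x, st (st x) = x) (x : X) : cxIm st (x, st x) = 0 := by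
  simpa [cxMk] using cxIm_mk hst x 0

theorem cxRe_sum (hst : ∀ x, st (st x) = x) {ι : Type} [Fintype ι] (c : ι → ℂ) (z : ι → X) :
    cxRe st (∑ i, c i • (z i, st (z i))) = ∑ i, ((c i).re : ℂ) • z i := by
  simp only [cxRe, Prod.fst_sum, Prod.snd_sum, Prod.smul_mk, map_sum, st_smul, hst,
    ← Finset.sum_add_distrib, Finset.smul_sum, ← add_smul, smul_smul]
  refine Finset.sum_congr rfl fun i _ => ?_
  rw [Complex.add_conj]
  congr 1
  push_cast
  ring

variable [NormedSpace ℝ X] [IsScalarTower ℝ ℂ X]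

theorem real_smul_eq (r : ℝ) (x : X) : (r : ℂ) • x = r • x := algebraMap_smul ℂ r x

theorem map_real_smul (T : X →L[ℝ] X) (r : ℝ) (x : X) : T ((r : ℂ) • x) = (r : ℂ) • T x := by
  rw [real_smul_eq, real_smul_eq, map_smul]

/-- the complexification of a real-linear operator -/
def cx (st : X →L⋆[ℂ] X) (T : X →L[ℝ] X) : (X × X) →L[ℂ] (X × X) :=
  LinearMap.mkContinuous
    { toFun := fun y => cxMk st (T (cxRe st y)) (T (cxIm st y))
      map_add' := fun y y' => by rw [cxRe_add, cxIm_add, map_add, map_add, cxMk_add]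
      map_smul' := fun c y => by
        rw [RingHom.id_apply, ← Complex.re_add_im c, cxRe_smul, cxIm_smul, map_add, map_add,
          map_real_smul, map_real_smul, map_real_smul, map_real_smul, cxMk_smul] }
    ((1 + ‖st‖) * (2 * (‖T‖ * (1 + ‖st‖)))) fun y => by
      refine (cxMk_le _ _).trans ?_
      have h1 := T.le_of_opNorm_le_of_le le_rfl (cxRe_le (st := st) y)
      have h2 := T.le_of_opNorm_le_of_le le_rfl (cxIm_le (st := st) y)
      rw [mul_assoc]
      refine mul_le_mul_of_nonneg_left ?_ (by positivity)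
      linarith

theorem cx_apply (T : X →L[ℝ] X) (y : X × X) :
    cx st T y = cxMk st (T (cxRe st y)) (T (cxIm st y)) := rfl

theorem cx_diag (hst : ∀ x, st (st x) = x) (T : X →L[ℝ] X) (x : X) :
    cx st T (x, st x) = (T x, st (T x)) := by
  rw [cx_apply, cxRe_diag hst, cxIm_diag hst]
  simp [cxMk]

theorem cx_net (T : X →L[ℝ] X) {d : ℝ} (h : Net T d) :
    Net (cx st T) ((1 + ‖st‖) * ((1 + ‖st‖) * d + (1 + ‖st‖) * d)) := by
  classical
  obtain ⟨t, ht⟩ := h
  have hc : 0 < 1 + ‖st‖ := by positivity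
  have key : ∀ x : X, ‖x‖ ≤ 1 + ‖st‖ →
      ∃ u ∈ t, ‖T x - (1 + ‖st‖) • u‖ ≤ (1 + ‖st‖) * d := by
    intro x hx
    obtain ⟨u, hu, h1⟩ := ht ((1 + ‖st‖)⁻¹ • x) (by
      rw [norm_smul, norm_inv, Real.norm_of_nonneg hc.le, inv_mul_le_iff₀ hc, mul_one]; exact hx)
    refine ⟨u, hu, ?_⟩
    have e : T x - (1 + ‖st‖) • u = (1 + ‖st‖) • (T ((1 + ‖st‖)⁻¹ • x) - u) := by
      rw [map_smul, smul_sub, smul_smul, mul_inv_cancel₀ hc.ne', one_smul]
    rw [e, norm_smul, Real.norm_of_nonneg hc.le]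
    exact mul_le_mul_of_nonneg_left h1 hc.le
  refine ⟨(t ×ˢ t).image fun p => cxMk st ((1 + ‖st‖) • p.1) ((1 + ‖st‖) • p.2), fun y hy => ?_⟩
  obtain ⟨u, hu, h1⟩ := key _ ((cxRe_le y).trans (mul_le_of_le_one_right hc.le hy))
  obtain ⟨v, hv, h2⟩ := key _ ((cxIm_le y).trans (mul_le_of_le_one_right hc.le hy))
  refine ⟨_, Finset.mem_image_of_mem _ (Finset.mk_mem_product hu hv), ?_⟩
  rw [cx_apply, cxMk_sub]
  exact (cxMk_le _ _).trans (mul_le_mul_of_nonneg_left (add_le_add h1 h2) hc.le)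

end aux

theorem l_real {X : Type} [NormedAddCommGroup X] [NormedSpace ℂ X] [NormedSpace ℝ X]
    [IsScalarTower ℝ ℂ X] [CompleteSpace X] (st : X →L⋆[ℂ] X) (hst : ∀ x, st (st x) = x)
    {ι : Type} [Fintype ι] (z : ι → X) (lz : ι → ℝ) (Φ : ℝ → X →L[ℝ] X) (h0 : ∀ x, Φ 0 x = x)
    (hadd : ∀ s t : ℝ, 0 ≤ s → 0 ≤ t → ∀ x, Φ (s + t) x = Φ s (Φ t x))
    (hc : ∀ x, ContinuousOn (fun t => Φ t x) (Ici 0))
    (hz : ∀ t : ℝ, 0 ≤ t → ∀ i, Φ t (z i) = Real.exp (lz i * t) • z i)
    (hq : ∀ δ : ℝ, 0 < δ → ∃ N₀ : ℝ, ∀ τ : ℝ, N₀ ≤ τ → Net (Φ τ) δ)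
    (heig : ∀ lam : ℂ, 0 ≤ lam.re → ∀ x₁ x₂ : X,
      (∀ t : ℝ, 0 ≤ t → ∃ c : ι → ℂ,
        (Φ t x₁ + I • Φ t x₂) - cexp (lam * t) • (x₁ + I • x₂) = ∑ i, c i • z i ∧
        (st (Φ t x₁) + I • st (Φ t x₂)) - cexp (lam * t) • (st x₁ + I • st x₂)
          = ∑ i, c i • st (z i)) →
      ∃ c : ι → ℂ, x₁ + I • x₂ = ∑ i, c i • z i ∧ st x₁ + I • st x₂ = ∑ i, c i • st (z i))
    {δ : ℝ} (hδ : 0 < δ) :
    ∃ T : ℝ, ∀ t : ℝ, T ≤ t → ∃ C : ℝ, 0 ≤ C ∧ ∀ x, ∃ p : ι → ℝ, (∀ i, |p i| ≤ C * ‖x‖) ∧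
      ‖Φ t x - ∑ i, (p i : ℂ) • z i‖ ≤ δ * ‖x‖ := by
  set c : ℝ := 1 + ‖st‖ with hcdef
  have hc0 : 0 < c := by positivity
  let zz : ι → X × X := fun i => (z i, st (z i))
  let Z : Submodule ℂ (X × X) := Submodule.span ℂ (range zz)
  have : FiniteDimensional ℂ Z := FiniteDimensional.span_of_finite ℂ (finite_range zz)
  have hmem : ∀ w : X × X, w ∈ Z ↔
      ∃ c : ι → ℂ, w.1 = ∑ i, c i • z i ∧ w.2 = ∑ i, c i • st (z i) := by
    intro w
    rw [Submodule.mem_span_range_iff_exists_fun]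
    refine exists_congr fun c => ?_
    rw [eq_comm, Prod.ext_iff, Prod.fst_sum, Prod.snd_sum]
    rfl
  obtain ⟨T₀, hT₀⟩ := l_spec (S := fun t => cx st (Φ t)) (d := δ / c / c)
    (fun y => by rw [cx_apply, h0, h0, cxMk_re_im hst])
    (fun s t hs ht y => by
      rw [cx_apply, cx_apply, cx_apply, cxRe_mk hst, cxIm_mk hst, hadd s t hs ht, hadd s t hs ht])
    (fun y => by
      have h1 := hc (cxRe st y)
      have h2 := hc (cxIm st y)
      exact (h1.add (h2.const_smul I)).prodMk ((st.continuous.comp_continuousOn h1).add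
        ((st.continuous.comp_continuousOn h2).const_smul I)))
    Z Z.closed_of_finiteDimensional
    (fun t ht w hw => by
      have hle : Z ≤ Z.comap (cx st (Φ t) : (X × X) →ₗ[ℂ] (X × X)) := by
        refine Submodule.span_le.2 ?_
        rintro _ ⟨i, rfl⟩
        have e : cx st (Φ t) (zz i) = (Real.exp (lz i * t) : ℂ) • zz i := by
          simp only [zz]
          rw [cx_diag hst, hz t ht i, ← real_smul_eq, st_smul, conj_ofReal]
          rfl
        show cx st (Φ t) (zz i) ∈ Z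
        rw [e]
        exact Z.smul_mem _ (Submodule.subset_span (mem_range_self i))
      exact hle hw)
    (fun d hd => by
      obtain ⟨N₀, hN₀⟩ := hq (d / (2 * c * c)) (by positivity)
      refine ⟨max N₀ 0, le_max_right _ _, ?_⟩
      have h1 := cx_net (st := st) _ (hN₀ _ (le_max_left N₀ 0))
      have e : c * (c * (d / (2 * c * c)) + c * (d / (2 * c * c))) = d := by
        field_simp; ring
      rwa [← hcdef, e] at h1)
    (fun lam hl y hy => by
      have h1 := heig lam hl (cxRe st y) (cxIm st y) fun t ht => by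
        have h2 := (hmem _).1 (hy t ht)
        have h3 := cxMk_re_im hst y
        rw [cx_apply] at h2
        rw [show cxRe st y + I • cxIm st y = y.1 from congrArg Prod.fst h3,
          show st (cxRe st y) + I • st (cxIm st y) = y.2 from congrArg Prod.snd h3]
        exact h2
      rw [← cxMk_re_im hst y]
      exact (hmem _).2 h1)
    (by positivity)
  obtain ⟨C₀, hC₀, hco⟩ := l_coef (𝕜 := ℂ) zz
  refine ⟨T₀, fun t ht => ⟨C₀ * ((‖cx st (Φ t)‖ + δ / c / c) * c), by positivity, fun x => ?_⟩⟩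
  obtain ⟨w, hw, h1⟩ := hT₀ t ht (x, st x)
  obtain ⟨p, hp, hwp⟩ := hco w hw
  have hy : ‖(x, st x)‖ ≤ c * ‖x‖ := by
    rw [Prod.norm_mk]
    exact max_le (le_mul_of_one_le_left (norm_nonneg _) (by linarith [norm_nonneg st])) (st_le x)
  refine ⟨fun i => (p i).re, fun i => ?_, ?_⟩
  · have h2 : ‖w‖ ≤ (‖cx st (Φ t)‖ + δ / c / c) * ‖(x, st x)‖ := by
      have h3 := norm_sub_le (cx st (Φ t) (x, st x)) (cx st (Φ t) (x, st x) - w)
      rw [sub_sub_cancel] at h3
      have h4 := (cx st (Φ t)).le_opNorm (x, st x)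
      linarith
    refine (Complex.abs_re_le_norm _).trans ((hp i).trans ?_)
    rw [mul_assoc, mul_assoc]
    refine mul_le_mul_of_nonneg_left (h2.trans ?_) hC₀
    exact mul_le_mul_of_nonneg_left hy (by positivity)
  · have h2 := cxRe_le (st := st) (cx st (Φ t) (x, st x) - w)
    rw [cxRe_sub, cx_diag hst, cxRe_diag hst, hwp, cxRe_sum hst, ← hwp, ← cx_diag hst] at h2
    refine h2.trans ?_
    have h3 : δ / c / c * ‖(x, st x)‖ ≤ δ / c / c * (c * ‖x‖) :=
      mul_le_mul_of_nonneg_left hy (by positivity)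
    calc c * _ ≤ c * (δ / c / c * (c * ‖x‖)) := mul_le_mul_of_nonneg_left (h1.trans h3) hc0.le
      _ = δ * ‖x‖ := by field_simp

end P139
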