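import Vale.Agent.P139.Defs

/-! P139: classical facts on the profile `Q(y) = Θ(|y|²)` on `ℝ^12`. -/

open Complex Set Filter Topology MeasureTheory
open scoped ContDiff ComplexConjugate Laplacian InnerProductSpace

noncomputable section
namespace P139

variable {m : ℕ}

theorem tq_nsq_hasFDerivAt (y : E) :
    HasFDerivAt (fun y : E => ‖y‖ ^ 2) ((2 : ℝ) • innerSL ℝ y) y := by
  have h := (hasStrictFDerivAt_norm_sq y).hasFDerivAt
  rwa [← Nat.cast_smul_eq_nsmul ℝ, Nat.cast_ofNat] at h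

theorem tq_mem (P : Prof m) (y : E) : ‖y‖ ^ 2 ∈ Ioi (-P.ε) := by
  have := P.hε
  have h2 : 0 ≤ ‖y‖ ^ 2 := by positivity
  simp only [mem_Ioi]
  linarith

theorem tq_contDiffAt (P : Prof m) {s : ℝ} (hs : s ∈ Ioi (-P.ε)) : ContDiffAt ℝ ∞ P.Θ s :=
  P.smooth.contDiffAt (isOpen_Ioi.mem_nhds hs)

theorem tq_deriv_contDiffOn (P : Prof m) : ContDiffOn ℝ ∞ (deriv P.Θ) (Ioi (-P.ε)) :=
  P.smooth.deriv_of_isOpen isOpen_Ioi (by simp)

theorem tq_hasDerivAt (P : Prof m) {s : ℝ} (hs : s ∈ Ioi (-P.ε)) :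
    HasDerivAt P.Θ (deriv P.Θ s) s :=
  ((tq_contDiffAt P hs).differentiableAt (by simp)).hasDerivAt

theorem tq_hasDerivAt2 (P : Prof m) {s : ℝ} (hs : s ∈ Ioi (-P.ε)) :
    HasDerivAt (deriv P.Θ) (deriv (deriv P.Θ) s) s :=
  (((tq_deriv_contDiffOn P).contDiffAt (isOpen_Ioi.mem_nhds hs)).differentiableAt
    (by simp)).hasDerivAt

theorem tq_contDiff (P : Prof m) : ContDiff ℝ ∞ P.Q := by
  rw [contDiff_iff_contDiffAt]
  intro y
  exact (tq_contDiffAt P (tq_mem P y)).comp y (contDiff_norm_sq ℝ).contDiffAt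

theorem tq_differentiable (P : Prof m) : Differentiable ℝ P.Q :=
  (tq_contDiff P).differentiable (by simp)

theorem tq_fderiv (P : Prof m) (y v : E) :
    fderiv ℝ P.Q y v = 2 * (⟪y, v⟫_ℝ : ℝ) * deriv P.Θ (‖y‖ ^ 2) := by
  have h := (tq_hasDerivAt P (tq_mem P y)).hasFDerivAt.comp y (tq_nsq_hasFDerivAt y)
  have h' : fderiv ℝ P.Q y = _ := h.fderiv
  rw [h']
  simp
  ring

theorem tq_fderiv_self (P : Prof m) (y : E) :
    fderiv ℝ P.Q y y = 2 * ((‖y‖ ^ 2 : ℝ) : ℂ) * deriv P.Θ (‖y‖ ^ 2) := by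
  rw [tq_fderiv, real_inner_self_eq_norm_sq]

theorem tq_fderiv2 (P : Prof m) (y v : E) :
    fderiv ℝ (fderiv ℝ P.Q) y v v = 4 * ((⟪y, v⟫_ℝ : ℝ) : ℂ) ^ 2 * deriv (deriv P.Θ) (‖y‖ ^ 2)
      + 2 * ((‖v‖ ^ 2 : ℝ) : ℂ) * deriv P.Θ (‖y‖ ^ 2) := by
  have hd : DifferentiableAt ℝ (fderiv ℝ P.Q) y :=
    (((tq_contDiff P).fderiv_right (m := 1) (by norm_cast)).differentiable (by simp)) y
  have e1 : fderiv ℝ (fderiv ℝ P.Q) y v v = fderiv ℝ (fun z => fderiv ℝ P.Q z v) y v := by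
    rw [fderiv_clm_apply hd (differentiableAt_const v)]
    simp
  rw [e1]
  have e2 : (fun z => fderiv ℝ P.Q z v)
      = fun z => 2 * ((⟪z, v⟫_ℝ : ℝ) : ℂ) * deriv P.Θ (‖z‖ ^ 2) := by
    funext z
    exact tq_fderiv P z v
  rw [e2]
  have h1 : HasFDerivAt (fun z : E => ((⟪z, v⟫_ℝ : ℝ) : ℂ))
      (ofRealCLM.comp (innerSL ℝ v)) y := by
    have := (ofRealCLM.comp (innerSL ℝ v)).hasFDerivAt (x := y)
    convert this using 2 with z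
    simp [real_inner_comm]
  have h2 := (tq_hasDerivAt2 P (tq_mem P y)).hasFDerivAt.comp y (tq_nsq_hasFDerivAt y)
  have h3 := (h1.const_mul (2 : ℂ)).mul h2
  have h4 : fderiv ℝ (fun z : E => 2 * ((⟪z, v⟫_ℝ : ℝ) : ℂ) * deriv P.Θ (‖z‖ ^ 2)) y = _ :=
    h3.fderiv
  rw [h4]
  simp
  ring

theorem tq_laplacian (P : Prof m) (y : E) :
    (Δ P.Q) y = 4 * ((‖y‖ ^ 2 : ℝ) : ℂ) * deriv (deriv P.Θ) (‖y‖ ^ 2)
      + 24 * deriv P.Θ (‖y‖ ^ 2) := by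
  rw [InnerProductSpace.laplacian_eq_iteratedFDeriv_orthonormalBasis P.Q
    (EuclideanSpace.basisFun (Fin 12) ℝ)]
  simp only [iteratedFDeriv_two_apply, Matrix.cons_val_zero, Matrix.cons_val_one, tq_fderiv2]
  rw [Finset.sum_add_distrib]
  have h1 : ∀ i, ⟪y, EuclideanSpace.basisFun (Fin 12) ℝ i⟫_ℝ = y i := by
    intro i
    simp [EuclideanSpace.inner_single_right]
  have h2 : ∀ i, ‖EuclideanSpace.basisFun (Fin 12) ℝ i‖ = 1 := by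
    intro i
    simp
  simp only [h1, h2]
  have h3 : ((‖y‖ ^ 2 : ℝ) : ℂ) = ∑ i, ((y i : ℝ) : ℂ) ^ 2 := by
    rw [EuclideanSpace.real_norm_sq_eq]
    push_cast
    rfl
  rw [h3, ← Finset.sum_mul, ← Finset.mul_sum]
  simp
  ring

/-- the profile equation on `ℝ^12` -/
theorem tq_pde (P : Prof m) (y : E) :
    ((gam m : ℂ) - I * P.β) * P.Q y + fderiv ℝ P.Q y y / 2 - I * (Δ P.Q) y
      = -I * ((P.Q y * conj (P.Q y)) ^ m * P.Q y) := by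
  have h := P.ode (‖y‖ ^ 2) (tq_mem P y)
  rw [tq_laplacian, tq_fderiv_self]
  simp only [Prof.Q]
  rw [← h]
  linear_combination (((‖y‖ ^ 2 : ℝ) : ℂ) * deriv P.Θ (‖y‖ ^ 2)
    + (gam m : ℂ) * P.Θ (‖y‖ ^ 2)) * I_sq

end P139
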