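import Vale.Agent.P139.XDefs
import Vale.Agent.P139.LDefs
import Vale.Agent.P139.TQ

/-! P139 L: the symmetry modes are classical eigenfunctions. -/

open Complex Set Filter Topology MeasureTheory
open scoped ComplexConjugate Laplacian

noncomputable section
namespace P139

variable {m : ℕ} (P : Prof m)

section aux

open scoped ContDiff InnerProductSpace

variable {ψ : ℝ → ℂ} {ε : ℝ}

theorem LZeqAux_d1 (h : ContDiffOn ℝ ∞ ψ (Ioi ε)) : ContDiffOn ℝ ∞ (deriv ψ) (Ioi ε) :=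
  h.deriv_of_isOpen isOpen_Ioi (by simp)

theorem LZeqAux_hd (h : ContDiffOn ℝ ∞ ψ (Ioi ε)) {s : ℝ} (hs : s ∈ Ioi ε) :
    HasDerivAt ψ (deriv ψ s) s :=
  ((h.contDiffAt (isOpen_Ioi.mem_nhds hs)).differentiableAt (by simp)).hasDerivAt

theorem LZeqAux_inner (v y : E) : HasFDerivAt (fun z : E => ((⟪z, v⟫_ℝ : ℝ) : ℂ))
    (ofRealCLM.comp (innerSL ℝ v)) y := by
  have := (ofRealCLM.comp (innerSL ℝ v)).hasFDerivAt (x := y)
  convert this using 2 with z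
  simp [real_inner_comm]

/-- an affine function times a radial function -/
def LZeqAux_R (c : ℂ) (w : E) (ψ : ℝ → ℂ) (y : E) : ℂ := (c + ((⟪y, w⟫_ℝ : ℝ) : ℂ)) * ψ (‖y‖ ^ 2)

theorem LZeqAux_smooth (h : ContDiffOn ℝ ∞ ψ (Ioi ε)) (hε : ε < 0) (c : ℂ) (w : E) :
    ContDiff ℝ ∞ (LZeqAux_R c w ψ) := by
  refine ContDiff.mul (contDiff_const.add
    (ofRealCLM.contDiff.comp (contDiff_id.inner ℝ contDiff_const))) ?_
  exact h.comp_contDiff (contDiff_norm_sq ℝ) fun y => hε.trans_le (sq_nonneg _)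

theorem LZeqAux_f1 (h : ContDiffOn ℝ ∞ ψ (Ioi ε)) (hε : ε < 0) (c : ℂ) (w y v : E) :
    fderiv ℝ (LZeqAux_R c w ψ) y v = ((⟪v, w⟫_ℝ : ℝ) : ℂ) * ψ (‖y‖ ^ 2)
      + (c + ((⟪y, w⟫_ℝ : ℝ) : ℂ)) * (2 * ((⟪y, v⟫_ℝ : ℝ) : ℂ) * deriv ψ (‖y‖ ^ 2)) := by
  have h2 := (LZeqAux_hd h (hε.trans_le (sq_nonneg ‖y‖))).hasFDerivAt.comp y (tq_nsq_hasFDerivAt y)
  have h3 : fderiv ℝ (LZeqAux_R c w ψ) y = _ := (((LZeqAux_inner w y).const_add c).mul h2).fderiv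
  rw [h3]
  simp [real_inner_comm]
  ring

theorem LZeqAux_f2 (h : ContDiffOn ℝ ∞ ψ (Ioi ε)) (hε : ε < 0) (c : ℂ) (w y v : E) :
    fderiv ℝ (fderiv ℝ (LZeqAux_R c w ψ)) y v v =
      4 * (((⟪v, w⟫_ℝ : ℝ) : ℂ) * ((⟪y, v⟫_ℝ : ℝ) : ℂ)) * deriv ψ (‖y‖ ^ 2)
      + (c + ((⟪y, w⟫_ℝ : ℝ) : ℂ)) * (4 * ((⟪y, v⟫_ℝ : ℝ) : ℂ) ^ 2 * deriv (deriv ψ) (‖y‖ ^ 2)
        + 2 * ((‖v‖ ^ 2 : ℝ) : ℂ) * deriv ψ (‖y‖ ^ 2)) := by
  have hd : DifferentiableAt ℝ (fderiv ℝ (LZeqAux_R c w ψ)) y :=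
    (((LZeqAux_smooth h hε c w).fderiv_right (m := 1) (by norm_cast)).differentiable (by simp)) y
  have e1 : fderiv ℝ (fderiv ℝ (LZeqAux_R c w ψ)) y v v =
      fderiv ℝ (fun z => fderiv ℝ (LZeqAux_R c w ψ) z v) y v := by
    rw [fderiv_clm_apply hd (differentiableAt_const v)]
    simp
  rw [e1, funext fun z => LZeqAux_f1 h hε c w z v]
  have hy : ‖y‖ ^ 2 ∈ Ioi ε := hε.trans_le (sq_nonneg ‖y‖)
  have h1 := (LZeqAux_hd h hy).hasFDerivAt.comp y (tq_nsq_hasFDerivAt y)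
  have h2 := (LZeqAux_hd (LZeqAux_d1 h) hy).hasFDerivAt.comp y (tq_nsq_hasFDerivAt y)
  have h3 : fderiv ℝ (fun z : E => ((⟪v, w⟫_ℝ : ℝ) : ℂ) * ψ (‖z‖ ^ 2)
      + (c + ((⟪z, w⟫_ℝ : ℝ) : ℂ)) * (2 * ((⟪z, v⟫_ℝ : ℝ) : ℂ) * deriv ψ (‖z‖ ^ 2))) y = _ :=
    ((h1.const_mul _).add (((LZeqAux_inner w y).const_add c).mul
      (((LZeqAux_inner v y).const_mul (2 : ℂ)).mul h2))).fderiv
  rw [h3]
  simp [real_inner_comm]
  ring

theorem LZeqAux_lap (h : ContDiffOn ℝ ∞ ψ (Ioi ε)) (hε : ε < 0) (c : ℂ) (w y : E) :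
    (Δ (LZeqAux_R c w ψ)) y = 4 * ((⟪y, w⟫_ℝ : ℝ) : ℂ) * deriv ψ (‖y‖ ^ 2)
      + (c + ((⟪y, w⟫_ℝ : ℝ) : ℂ)) * (4 * ((‖y‖ ^ 2 : ℝ) : ℂ) * deriv (deriv ψ) (‖y‖ ^ 2)
        + 24 * deriv ψ (‖y‖ ^ 2)) := by
  rw [InnerProductSpace.laplacian_eq_iteratedFDeriv_orthonormalBasis _
    (EuclideanSpace.basisFun (Fin 12) ℝ)]
  simp only [iteratedFDeriv_two_apply, Matrix.cons_val_zero, Matrix.cons_val_one,
    LZeqAux_f2 h hε]
  have h1 : ∀ i, ⟪y, EuclideanSpace.basisFun (Fin 12) ℝ i⟫_ℝ = y i := by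
    intro i
    simp [EuclideanSpace.inner_single_right]
  have h1' : ∀ i, ⟪EuclideanSpace.basisFun (Fin 12) ℝ i, w⟫_ℝ = w i := by
    intro i
    simp [EuclideanSpace.inner_single_left]
  have h2 : ∀ i, ‖EuclideanSpace.basisFun (Fin 12) ℝ i‖ = 1 := by
    intro i
    simp
  simp only [h1, h1', h2]
  have h3 : ((‖y‖ ^ 2 : ℝ) : ℂ) = ∑ i, ((y i : ℝ) : ℂ) ^ 2 := by
    rw [EuclideanSpace.real_norm_sq_eq]
    push_cast
    rfl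
  have h4 : ∑ i, ((w i : ℝ) : ℂ) * ((y i : ℝ) : ℂ) = ((⟪y, w⟫_ℝ : ℝ) : ℂ) := by
    simp [PiLp.inner_apply]
  rw [Finset.sum_add_distrib, ← Finset.sum_mul, ← Finset.mul_sum, h4, ← Finset.mul_sum,
    Finset.sum_add_distrib, h3, ← Finset.sum_mul, ← Finset.mul_sum, Finset.sum_const,
    Finset.card_univ, Fintype.card_fin, nsmul_eq_mul]
  push_cast
  ring

theorem LZeqAux_neg : -P.ε < 0 := neg_lt_zero.2 P.hε

theorem LZeqAux_re (s : ℝ) : HasDerivAt (fun r : ℝ => (r : ℂ)) 1 s := ofRealCLM.hasDerivAt (x := s)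

/-- the differentiated profile equation -/
theorem LZeqAux_ode (hm : 1 ≤ m) {s : ℝ} (hs : s ∈ Ioi (-P.ε)) :
    4 * s * deriv (deriv (deriv P.Θ)) s + (28 + I * s) * deriv (deriv P.Θ) s
      + (I + P.β + I * gam m) * deriv P.Θ s
      = ((m : ℂ) + 1) * (P.Θ s * conj (P.Θ s)) ^ m * deriv P.Θ s
        + (m : ℂ) * (P.Θ s * conj (P.Θ s)) ^ (m - 1) * P.Θ s ^ 2 * conj (deriv P.Θ s) := by
  have h0 := LZeqAux_hd P.smooth hs
  have h1 := LZeqAux_hd (LZeqAux_d1 P.smooth) hs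
  have h2 := LZeqAux_hd (LZeqAux_d1 (LZeqAux_d1 P.smooth)) hs
  have hc : HasDerivAt (fun r => conj (P.Θ r)) (conj (deriv P.Θ s)) s := h0.star
  have hL := ((((LZeqAux_re s).const_mul 4).fun_mul h2).fun_add
    ((((LZeqAux_re s).const_mul I).const_add 24).fun_mul h1)).fun_add
      (h0.const_mul ((P.β : ℂ) + I * gam m))
  have hR := ((h0.fun_mul hc).fun_pow m).fun_mul h0
  have h := hL.unique (hR.congr_of_eventuallyEq (by
    filter_upwards [isOpen_Ioi.mem_nhds hs] with r hr using P.ode r hr))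
  obtain ⟨k, rfl⟩ : ∃ k, m = k + 1 := ⟨m - 1, by omega⟩
  simp only [Nat.add_sub_cancel] at h ⊢
  push_cast at h ⊢
  linear_combination h

theorem LZeqAux_W2 (hm : 1 ≤ m) (z : ℂ) :
    (m : ℂ) * (z * conj z) ^ (m - 1) * z ^ 2 * conj z = m * ((z * conj z) ^ m * z) := by
  obtain ⟨k, rfl⟩ : ∃ k, m = k + 1 := ⟨m - 1, by omega⟩
  simp only [Nat.add_sub_cancel]
  ring

theorem LZeqAux_gam (hm : 1 ≤ m) : 2 * (m : ℂ) * (gam m : ℂ) = 1 := by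
  have : (m : ℂ) ≠ 0 := by exact_mod_cast (show m ≠ 0 by omega)
  simp only [gam]; push_cast; field_simp

theorem LZeqAux_zeta {s : ℝ} (hs : s ∈ Ioi (-P.ε)) :
    deriv (fun s : ℝ => P.aa * P.Θ s + s * deriv P.Θ s) s
      = (P.aa + 1) * deriv P.Θ s + s * deriv (deriv P.Θ) s := by
  rw [(((LZeqAux_hd P.smooth hs).const_mul P.aa).fun_add
    ((LZeqAux_re s).fun_mul (LZeqAux_hd (LZeqAux_d1 P.smooth) hs))).deriv]
  ring

theorem LZeqAux_zeta2 {s : ℝ} (hs : s ∈ Ioi (-P.ε)) :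
    deriv (deriv fun s : ℝ => P.aa * P.Θ s + s * deriv P.Θ s) s
      = (P.aa + 2) * deriv (deriv P.Θ) s + s * deriv (deriv (deriv P.Θ)) s := by
  have e : deriv (fun s : ℝ => P.aa * P.Θ s + s * deriv P.Θ s) =ᶠ[𝓝 s]
      fun s : ℝ => (P.aa + 1) * deriv P.Θ s + s * deriv (deriv P.Θ) s := by
    filter_upwards [isOpen_Ioi.mem_nhds hs] with r hr using LZeqAux_zeta P hr
  rw [e.deriv_eq, (((LZeqAux_hd (LZeqAux_d1 P.smooth) hs).const_mul (P.aa + 1)).fun_add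
    ((LZeqAux_re s).fun_mul (LZeqAux_hd (LZeqAux_d1 (LZeqAux_d1 P.smooth)) hs))).deriv]
  ring

theorem LZeqAux_z1 : P.zm (some none) =
    LZeqAux_R 1 0 fun s : ℝ => P.aa * P.Θ s + s * deriv P.Θ s := by
  funext y
  simp only [Prof.zm, LZeqAux_R, tq_fderiv_self, Prof.Q, Prof.aa, inner_zero_right]
  push_cast
  ring

theorem LZeqAux_z2 (j : Fin 12) : P.zm (some (some j)) =
    LZeqAux_R 0 ((2 : ℝ) • EuclideanSpace.single j 1) (deriv P.Θ) := by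
  funext y
  simp only [Prof.zm, LZeqAux_R, tq_fderiv, inner_smul_right]
  push_cast
  ring

end aux

theorem zm_eig_phase (hm : 1 ≤ m) (y : E) :
    -P.aa * P.zm none y - fderiv ℝ (P.zm none) y y / 2 + I * (Δ (P.zm none)) y
      - I * (P.W1 y * P.zm none y + P.W2 y * conj (P.zm none y)) = 0 := by
  have hz : P.zm none = LZeqAux_R I 0 P.Θ := by
    funext y
    simp [Prof.zm, LZeqAux_R, Prof.Q]
  have hA := P.ode (‖y‖ ^ 2) (tq_mem P y)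
  have h2 := LZeqAux_W2 hm (P.Θ (‖y‖ ^ 2))
  rw [hz, LZeqAux_f1 P.smooth (LZeqAux_neg P), LZeqAux_lap P.smooth (LZeqAux_neg P)]
  simp only [LZeqAux_R, Prof.W1, Prof.W2, Prof.Q, Prof.aa, inner_zero_right, ofReal_zero, add_zero,
    real_inner_self_eq_norm_sq, map_mul, conj_I]
  generalize ((‖y‖ ^ 2 : ℝ) : ℂ) = s at hA ⊢
  linear_combination (-1) * hA - h2 + (P.β * P.Θ (‖y‖ ^ 2) + 4 * s * deriv (deriv P.Θ) (‖y‖ ^ 2)
    + 24 * deriv P.Θ (‖y‖ ^ 2)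
    - ((m : ℂ) + 1) * (P.Θ (‖y‖ ^ 2) * conj (P.Θ (‖y‖ ^ 2))) ^ m * P.Θ (‖y‖ ^ 2)
    + (m : ℂ) * (P.Θ (‖y‖ ^ 2) * conj (P.Θ (‖y‖ ^ 2))) ^ (m - 1) * P.Θ (‖y‖ ^ 2) ^ 2
      * conj (P.Θ (‖y‖ ^ 2))) * I_mul_I

theorem zm_eig_time (hm : 1 ≤ m) (y : E) :
    -P.aa * P.zm (some none) y - fderiv ℝ (P.zm (some none)) y y / 2
      + I * (Δ (P.zm (some none))) y
      - I * (P.W1 y * P.zm (some none) y + P.W2 y * conj (P.zm (some none) y))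
      = P.zm (some none) y := by
  have hs : ContDiffOn ℝ (⊤ : ℕ∞) (fun s : ℝ => P.aa * P.Θ s + s * deriv P.Θ s) (Ioi (-P.ε)) :=
    (contDiffOn_const.mul P.smooth).add
      (ofRealCLM.contDiff.contDiffOn.mul (LZeqAux_d1 P.smooth))
  have hA := P.ode (‖y‖ ^ 2) (tq_mem P y)
  have hB := LZeqAux_ode P hm (tq_mem P y)
  have h2 := LZeqAux_W2 hm (P.Θ (‖y‖ ^ 2))
  have h3 := LZeqAux_gam hm
  rw [LZeqAux_z1, LZeqAux_f1 hs (LZeqAux_neg P), LZeqAux_lap hs (LZeqAux_neg P),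
    LZeqAux_zeta P (tq_mem P y), LZeqAux_zeta2 P (tq_mem P y)]
  simp only [LZeqAux_R, Prof.W1, Prof.W2, Prof.Q, Prof.aa, inner_zero_right, ofReal_zero, add_zero,
    real_inner_self_eq_norm_sq, map_mul, map_add, map_sub, map_one, conj_I, conj_ofReal]
  generalize ((‖y‖ ^ 2 : ℝ) : ℂ) = s at hA hB ⊢
  linear_combination (I * ((gam m : ℂ) - I * P.β + 1)) * hA + (I * s) * hB
    - I * ((gam m : ℂ) + I * P.β) * h2
    - I * ((P.Θ (‖y‖ ^ 2) * conj (P.Θ (‖y‖ ^ 2))) ^ m * P.Θ (‖y‖ ^ 2)) * h3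
    - (((gam m : ℂ) - I * P.β + 1) * (s * deriv P.Θ (‖y‖ ^ 2) + gam m * P.Θ (‖y‖ ^ 2))
      + s * (s * deriv (deriv P.Θ) (‖y‖ ^ 2) + (1 + gam m) * deriv P.Θ (‖y‖ ^ 2))) * I_mul_I

theorem zm_eig_space (hm : 1 ≤ m) (j : Fin 12) (y : E) :
    -P.aa * P.zm (some (some j)) y - fderiv ℝ (P.zm (some (some j))) y y / 2
      + I * (Δ (P.zm (some (some j)))) y
      - I * (P.W1 y * P.zm (some (some j)) y + P.W2 y * conj (P.zm (some (some j)) y))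
      = 1 / 2 * P.zm (some (some j)) y := by
  have hs := LZeqAux_d1 P.smooth
  have hB := LZeqAux_ode P hm (tq_mem P y)
  rw [LZeqAux_z2, LZeqAux_f1 hs (LZeqAux_neg P), LZeqAux_lap hs (LZeqAux_neg P)]
  simp only [LZeqAux_R, Prof.W1, Prof.W2, Prof.Q, Prof.aa, zero_add,
    real_inner_self_eq_norm_sq, map_mul, conj_ofReal]
  generalize ((‖y‖ ^ 2 : ℝ) : ℂ) = s at hB ⊢
  generalize ((inner ℝ y ((2 : ℝ) • EuclideanSpace.single j (1 : ℝ) : E) : ℝ) : ℂ) = t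
  linear_combination (I * t) * hB
    - t * (s * deriv (deriv P.Θ) (‖y‖ ^ 2) + (1 + gam m) * deriv P.Θ (‖y‖ ^ 2)) * I_mul_I

theorem zm_eig (hm : 1 ≤ m) (i : Md14) (y : E) :
    -P.aa * P.zm i y - fderiv ℝ (P.zm i) y y / 2 + I * (Δ (P.zm i)) y
      - I * (P.W1 y * P.zm i y + P.W2 y * conj (P.zm i y)) = (lamZ i : ℝ) * P.zm i y := by
  rcases i with _ | _ | j
  · simpa [lamZ] using zm_eig_phase P hm y
  · simpa [lamZ] using zm_eig_time P hm y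
  · simpa [lamZ] using zm_eig_space P hm j y

end P139
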