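import Vale.Agent.P139.LGen
import Vale.Agent.P139.LZeq
import Vale.Agent.P139.LAbs

/-! P139 L: the symmetry modes are eigenvectors of the flow. -/

open Complex Set Filter Topology MeasureTheory
open scoped ComplexConjugate Laplacian

noncomputable section
namespace P139

variable {m : ℕ} {P : Prof m}

theorem flow_z (hm : 1 ≤ m) (F : FD P) (K : ℕ) (Fl : (P.G0 K).Flow (F.V K)) {t : ℝ} (ht : 0 ≤ t)
    (i : Md14) : Fl.Φ t (F.zW K 1 i) = Real.exp (lamZ i * t) • F.zW K 1 i := by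
  have e : ∀ (z : XR K 1) (y : E), syn z y = evS (wR K 1) y z := fun z y => (evS_apply _ y z).symm
  have hz : syn (F.z i) = P.zm i := funext (F.synz i)
  set g₂ : XR K 1 := toW volume (wR K 1) fun ξ => -I * (‖ξ‖ ^ 2 : ℝ) * F.z i ξ with hg₂
  have h1 := S0_hasDerivAt P (K := K) (F.memz (K + 2) i)
    (x₁ := g₂ + F.V K (F.zW K 1 i) - ((lamZ i : ℝ) : ℂ) • F.zW K 1 i) fun y => by
      rw [e, map_sub, map_add, map_smul, ← e, ← e, ← e, hg₂, syn_nsq (F.memz (K + 2) i), syn_V,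
        syn_zW, hz, smul_eq_mul]
      linear_combination zm_eig P hm i y
  have h2 := (P.G0 K).mild_eig (F.V K) (z := F.zW K 1 i) (lam := lamZ i) h1 (by
    rw [← hg₂, ← show ((lamZ i : ℝ) : ℂ) • F.zW K 1 i = lamZ i • F.zW K 1 i from
      algebraMap_smul ℂ (lamZ i) _]
    abel) t
  have h3 := Fl.uniq t _ h2 t ⟨ht, le_rfl⟩
  simp only [mul_zero, Real.exp_zero, one_smul] at h3
  exact h3.symm

end P139
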