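import Vale.Agent.P139.LFlow
import Vale.Agent.P139.LReal
import Vale.Agent.P139.LQC
import Vale.Agent.P139.LZ
import Vale.Agent.P139.LEig
import Vale.Agent.P139.LConv

/-! P139 L: linear decay modulo symmetries. -/

open Complex Set Filter Topology MeasureTheory
open scoped ComplexConjugate Laplacian

noncomputable section
namespace P139

variable {m : ℕ} {P : Prof m}

theorem linOut (hm : 1 ≤ m) (F : FD P) (hS : P.PDEStable) : LinOut F := by
  obtain ⟨K₁, hK₁⟩ := l_qc hm F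
  refine ⟨max K₁ 48, fun K hK δ hδ τ₁ => ?_⟩
  obtain ⟨Fl⟩ := (P.G0 K).exists_flow (F.V K)
  have hc : ∀ x, ContinuousOn (fun t => Fl.Φ t x) (Ici 0) := fun x t ht =>
    (((Fl.mild x (t + 1)).1 t ⟨ht, by linarith⟩).mono_of_mem_nhdsWithin
      (mem_nhdsWithin.2 ⟨Iio (t + 1), isOpen_Iio, by simp, fun s hs => ⟨hs.2, hs.1.le⟩⟩))
  obtain ⟨T, hT⟩ := l_real (algR K 1).st (st_st K 1) (F.zW K 1) lamZ Fl.Φ Fl.zero Fl.add hc
    (fun t ht i => flow_z hm F K Fl ht i) (hK₁ K (le_of_max_le_left hK) Fl)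
    (flow_eig F hS (le_of_max_le_right hK) Fl) hδ
  obtain ⟨C, hC, h⟩ := hT (max (max τ₁ T) 0) ((le_max_right _ _).trans (le_max_left _ _))
  refine ⟨max (max τ₁ T) 0, C, (le_max_left _ _).trans (le_max_left _ _), hC, fun φ hφ => ?_⟩
  have h1 := Fl.uniq _ _ (app_mild hm F K hφ) _ ⟨le_max_right _ _, le_rfl⟩
  simp only [neg_zero, Real.exp_zero, sub_self, Dinv_zero] at h1
  rw [h1]
  exact h (φ 0)

end P139
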