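import Vale.Agent.P139.LDefs

/-! P139 part L: finite nets and no eigenvalue outside the open unit disc give decay of powers. -/

open Complex Set Filter Topology MeasureTheory

noncomputable section
namespace P139

variable {Y : Type} [NormedAddCommGroup Y] [NormedSpace ℂ Y] [CompleteSpace Y]

/-- a point of the spectrum of maximal modulus is an approximate eigenvalue -/
theorem lq9_approx (B : Y →L[ℂ] Y) {μ : ℂ} (hμ : μ ∈ spectrum ℂ B) (h0 : μ ≠ 0)
    (hmax : ∀ z ∈ spectrum ℂ B, ‖z‖ ≤ ‖μ‖) {ε : ℝ} (hε : 0 < ε) :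
    ∃ x : Y, ‖x‖ = 1 ∧ ‖B x - μ • x‖ ≤ ε := by
  by_contra hcon
  push Not at hcon
  have hm : 0 < ‖μ‖ := norm_pos_iff.2 h0
  set t : ℝ := ε / (3 * ‖μ‖) with ht
  have ht0 : 0 < t := by positivity
  set z : ℂ := μ + t * μ with hz
  have hzn : ‖z‖ = (1 + t) * ‖μ‖ := by
    rw [hz, show μ + t * μ = ((1 + t : ℝ) : ℂ) * μ by push_cast; ring, norm_mul,
      Complex.norm_real, Real.norm_of_nonneg (by positivity)]
  have hzr : z ∈ resolventSet ℂ B := by
    by_contra h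
    have := hmax z h
    rw [hzn] at this
    nlinarith
  have hd : ‖(t : ℂ) * μ‖ = ε / 3 := by
    rw [norm_mul, Complex.norm_real, Real.norm_of_nonneg ht0.le, ht]
    field_simp
  have hlow : ∀ x : Y, ε * ‖x‖ ≤ ‖B x - μ • x‖ := by
    intro x
    rcases eq_or_ne x 0 with rfl | hx
    · simp
    have hn : 0 < ‖x‖ := norm_pos_iff.2 hx
    have h1 := hcon (((‖x‖⁻¹ : ℝ) : ℂ) • x) (by simp [norm_smul, hn.ne'])
    rw [map_smul, smul_comm μ, ← smul_sub, norm_smul, Complex.norm_real,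
      Real.norm_of_nonneg (by positivity), lt_inv_mul_iff₀ hn] at h1
    linarith
  obtain ⟨u, hu⟩ := hzr
  have hux : ∀ x : Y, (u : Y →L[ℂ] Y) x = z • x - B x := fun x => by
    rw [hu]; simp [Algebra.algebraMap_eq_smul_one]
  have hinv : ‖((u⁻¹ : (Y →L[ℂ] Y)ˣ) : Y →L[ℂ] Y)‖ ≤ 3 / (2 * ε) := by
    refine ContinuousLinearMap.opNorm_le_bound _ (by positivity) fun y => ?_
    set x := ((u⁻¹ : (Y →L[ℂ] Y)ˣ) : Y →L[ℂ] Y) y with hx
    have h1 : (u : Y →L[ℂ] Y) x = y := by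
      rw [hx, ← ContinuousLinearMap.mul_apply, Units.mul_inv]; rfl
    have h2 : B x - μ • x = ((t : ℂ) * μ) • x - y := by
      rw [← h1, hux, hz, add_smul]; abel
    have h3 := hlow x
    rw [h2] at h3
    have h4 := norm_sub_le (((t : ℂ) * μ) • x) y
    rw [norm_smul, hd] at h4
    rw [div_mul_eq_mul_div, le_div_iff₀ (by positivity)]
    linarith
  set c : Y →L[ℂ] Y := ((t : ℂ) * μ) • ((u⁻¹ : (Y →L[ℂ] Y)ˣ) : Y →L[ℂ] Y) with hc
  have hcn : ‖c‖ < 1 := by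
    rw [hc, norm_smul, hd]
    calc ε / 3 * _ ≤ ε / 3 * (3 / (2 * ε)) := by gcongr
      _ = 1 / 2 := by field_simp
      _ < 1 := by norm_num
  refine hμ ⟨u * Units.oneSub c hcn, ?_⟩
  rw [Units.val_mul, Units.val_oneSub, mul_sub, mul_one, hc, mul_smul_comm, Units.mul_inv, hu,
    hz, map_add, Algebra.algebraMap_eq_smul_one ((t : ℂ) * μ)]
  abel

omit [CompleteSpace Y] in
theorem lq9_pow (B : Y →L[ℂ] Y) (μ : ℂ) (j : ℕ) : ∃ C : ℝ, 0 ≤ C ∧
    ∀ x : Y, ‖(B ^ j) x - μ ^ j • x‖ ≤ C * ‖B x - μ • x‖ := by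
  induction j with
  | zero => exact ⟨0, le_rfl, fun x => by simp⟩
  | succ j ih =>
    obtain ⟨C, hC, h⟩ := ih
    refine ⟨‖B‖ * C + ‖μ ^ j‖, by positivity, fun x => ?_⟩
    have e : (B ^ (j + 1)) x - μ ^ (j + 1) • x =
        B ((B ^ j) x - μ ^ j • x) + μ ^ j • (B x - μ • x) := by
      rw [pow_succ', ContinuousLinearMap.mul_apply, map_sub, map_smul, smul_sub, smul_smul,
        pow_succ]
      abel
    rw [e]
    refine (norm_add_le _ _).trans ?_
    rw [norm_smul]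
    have h1 := (B.le_opNorm _).trans (mul_le_mul_of_nonneg_left (h x) (norm_nonneg B))
    linarith

theorem lq9_eig (B : Y →L[ℂ] Y) (hnet : ∀ δ > 0, ∃ j : ℕ, Net (fun x => (B ^ j) x) δ) {μ : ℂ}
    (hμ : 1 ≤ ‖μ‖) (h : ∀ ε > 0, ∃ x : Y, ‖x‖ = 1 ∧ ‖B x - μ • x‖ ≤ ε) :
    ∃ x : Y, x ≠ 0 ∧ B x = μ • x := by
  choose x hx1 hx2 using fun n : ℕ => h (1 / ((n : ℝ) + 1)) (by positivity)
  have hlim : Tendsto (fun n => ‖B (x n) - μ • x n‖) atTop (𝓝 0) :=
    squeeze_zero (fun _ => norm_nonneg _) hx2 tendsto_one_div_add_atTop_nhds_zero_nat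
  have htb : TotallyBounded (range x) := by
    refine Metric.totallyBounded_iff.2 fun δ hδ => ?_
    obtain ⟨j, t, ht⟩ := hnet (δ / 3) (by positivity)
    obtain ⟨C, hC, hC'⟩ := lq9_pow B μ j
    have h1 : ∀ᶠ n in atTop, C * ‖B (x n) - μ • x n‖ < δ / 3 := by
      have := hlim.const_mul C
      rw [mul_zero] at this
      exact this.eventually (gt_mem_nhds (by positivity))
    obtain ⟨n₀, hn₀⟩ := eventually_atTop.1 h1
    have hμj : 1 ≤ ‖μ ^ j‖ := by rw [norm_pow]; exact one_le_pow₀ hμ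
    have hμ0 : μ ^ j ≠ 0 := norm_pos_iff.1 (by linarith)
    refine ⟨(fun y => (μ ^ j)⁻¹ • y) '' (t : Set Y) ∪ x '' Iio n₀,
      (t.finite_toSet.image _).union ((finite_Iio n₀).image _), ?_⟩
    rintro _ ⟨n, rfl⟩
    rcases lt_or_ge n n₀ with hn | hn
    · exact mem_iUnion₂.2 ⟨x n, Or.inr ⟨n, hn, rfl⟩, Metric.mem_ball_self hδ⟩
    obtain ⟨y, hy, hy'⟩ := ht (x n) (hx1 n).le
    refine mem_iUnion₂.2 ⟨_, Or.inl ⟨y, hy, rfl⟩, ?_⟩
    rw [Metric.mem_ball, dist_eq_norm]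
    have h2 : ‖μ ^ j • x n - y‖ < δ := by
      have e : μ ^ j • x n - y = ((B ^ j) (x n) - y) - ((B ^ j) (x n) - μ ^ j • x n) := by abel
      rw [e]
      have := norm_sub_le ((B ^ j) (x n) - y) ((B ^ j) (x n) - μ ^ j • x n)
      linarith [hC' (x n), hn₀ n hn]
    have e : μ ^ j • x n - y = μ ^ j • (x n - (μ ^ j)⁻¹ • y) := by
      rw [smul_sub, smul_inv_smul₀ hμ0]
    rw [e, norm_smul] at h2
    nlinarith [norm_nonneg (x n - (μ ^ j)⁻¹ • y)]
  obtain ⟨a, -, φ, hφ, ha⟩ := (htb.closure.isCompact_of_isClosed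
    isClosed_closure).tendsto_subseq fun n => subset_closure (mem_range_self n)
  have hn : ‖a‖ = 1 := tendsto_nhds_unique ha.norm (by
    simp only [Function.comp, hx1]; exact tendsto_const_nhds)
  refine ⟨a, fun h0 => by simp [h0] at hn, ?_⟩
  have h1 : Tendsto (fun n => ‖B (x (φ n)) - μ • x (φ n)‖) atTop (𝓝 ‖B a - μ • a‖) :=
    (((B.continuous.tendsto a).comp ha).sub (ha.const_smul μ)).norm
  have h2 := tendsto_nhds_unique h1 (hlim.comp hφ.tendsto_atTop)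
  exact sub_eq_zero.1 (norm_eq_zero.1 h2)

/-- finite nets and no eigenvalue of modulus at least one: the powers tend to zero -/
theorem lq9 (B : Y →L[ℂ] Y) (hnet : ∀ δ > 0, ∃ j : ℕ, Net (fun x => (B ^ j) x) δ)
    (hev : ∀ μ : ℂ, 1 ≤ ‖μ‖ → ∀ x, B x = μ • x → x = 0) :
    Tendsto (fun n : ℕ => ‖B ^ n‖) atTop (𝓝 0) := by
  rcases subsingleton_or_nontrivial Y with hY | hY
  · have : ∀ n : ℕ, ‖B ^ n‖ = 0 := fun n => by
      rw [Subsingleton.elim (B ^ n) 0, norm_zero]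
    simp only [this]
    exact tendsto_const_nhds
  have hr : spectralRadius ℂ B < 1 := by
    obtain ⟨μ, hμ, hμr⟩ := spectrum.exists_nnnorm_eq_spectralRadius B
    rw [← hμr]
    by_contra hcon
    have h1 : 1 ≤ ‖μ‖ := by
      have : (1 : NNReal) ≤ ‖μ‖₊ := by exact_mod_cast not_lt.1 hcon
      exact_mod_cast this
    have hmax : ∀ z ∈ spectrum ℂ B, ‖z‖ ≤ ‖μ‖ := fun z hz => by
      have h2 : (‖z‖₊ : ENNReal) ≤ spectralRadius ℂ B :=
        le_iSup₂ (f := fun k (_ : k ∈ spectrum ℂ B) => (‖k‖₊ : ENNReal)) z hz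
      rw [← hμr] at h2
      exact_mod_cast h2
    obtain ⟨x, hx, hx'⟩ := lq9_eig B hnet h1 fun ε hε =>
      lq9_approx B hμ (norm_pos_iff.1 (by linarith)) hmax hε
    exact hx (hev μ h1 x hx')
  obtain ⟨r, hr1, hr2⟩ := ENNReal.lt_iff_exists_nnreal_btwn.1 hr
  have hr3 : (r : ℝ) < 1 := by exact_mod_cast hr2
  have h1 := (spectrum.pow_nnnorm_pow_one_div_tendsto_nhds_spectralRadius B).eventually
    (gt_mem_nhds hr1)
  refine squeeze_zero' (Eventually.of_forall fun _ => norm_nonneg _) ?_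
    (tendsto_pow_atTop_nhds_zero_of_lt_one r.2 hr3)
  filter_upwards [h1, eventually_gt_atTop 0] with n hn hn0
  have h2 : (0 : ℝ) < n := by exact_mod_cast hn0
  have h3 := ENNReal.rpow_lt_rpow hn h2
  rw [← ENNReal.rpow_mul, one_div_mul_cancel h2.ne', ENNReal.rpow_one, ENNReal.rpow_natCast] at h3
  have h4 : ‖B ^ n‖₊ < r ^ n := by exact_mod_cast h3
  exact_mod_cast h4.le

end P139
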