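import Vale.Agent.P139.LDefs
import Vale.Agent.P139.XSyn
import Vale.Agent.P139.XCont
import Vale.Agent.P139.TGron

/-! P139 L: the free flow in self-similar time is a strongly continuous group. -/

open Complex Set Filter Topology MeasureTheory
open scoped ComplexConjugate Laplacian

noncomputable section
namespace P139

variable {m : ℕ} (P : Prof m) (K : ℕ)

theorem Dinv_apply (τ : ℝ) (x : XR K 1) :
    P.Dinv K τ x = cexp (-P.aa * τ) • dilOp (wR K 1) (wR K 1) (Real.exp (τ / 2)) x := rfl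

theorem S0_apply (τ : ℝ) (x : XR K 1) :
    P.S0 K τ x = P.Dinv K τ ((algR K 1).U (1 - Real.exp (-τ)) x) := rfl

theorem Dinv_coe (τ : ℝ) (x : XR K 1) :
    P.Dinv K τ x =ᵐ[volume] fun ξ => cexp (-P.aa * τ) * dilF (Real.exp (τ / 2)) x ξ := by
  rw [Dinv_apply]
  filter_upwards [XW_smul (cexp (-P.aa * τ)) (dilOp (wR K 1) (wR K 1) (Real.exp (τ / 2)) x),
    (dilOp_same (Real.exp_pos (τ / 2)) x).1] with ξ h1 h2
  rw [h1, h2]

theorem syn_Dinv (τ : ℝ) (x : XR K 1) (y : E) :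
    syn (P.Dinv K τ x) y = cexp (-P.aa * τ) * syn x (Real.exp (-τ / 2) • y) := by
  rw [syn_congr (Dinv_coe P K τ x), syn_const_mul, syn_dil (Real.exp_pos _), ← Real.exp_neg,
    neg_div]

theorem Dinv_zero (x : XR K 1) : P.Dinv K 0 x = x := by
  simp [Dinv_apply, dilOp_one]

theorem Dinv_add (s t : ℝ) (x : XR K 1) : P.Dinv K (s + t) x = P.Dinv K s (P.Dinv K t x) := by
  rw [Dinv_apply, Dinv_apply, Dinv_apply, map_smul, smul_smul,
    dilOp_mul (Real.exp_pos _) (Real.exp_pos _), ← Real.exp_add, ← Complex.exp_add, add_div]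
  congr 2
  push_cast
  ring

theorem Dinv_U (τ t : ℝ) (x : XR K 1) :
    P.Dinv K τ ((algR K 1).U t x) = (algR K 1).U (Real.exp τ * t) (P.Dinv K τ x) := by
  rw [Dinv_apply, Dinv_apply, map_smul, dilOp_U (Real.exp_pos _), sq, ← Real.exp_add, add_halves]

theorem Dinv_cont : Continuous fun p : ℝ × XR K 1 => P.Dinv K p.1 p.2 := by
  have h1 : Continuous fun p : ℝ × XR K 1 => ((Real.exp (p.1 / 2), p.2) : ℝ × XR K 1) := by
    fun_prop
  have h2 : Continuous fun p : ℝ × XR K 1 =>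
      dilOp (wR K 1) (wR K 1) (Real.exp (p.1 / 2)) p.2 := by
    have h := (dilOp_cont₂ (K := K) (l := 1)).comp_continuous h1
      fun p => ⟨Real.exp_pos _, mem_univ _⟩
    simpa only [Function.comp_def] using h
  have h3 : Continuous fun p : ℝ × XR K 1 => cexp (-P.aa * p.1) := by fun_prop
  exact h3.smul h2

theorem S0_zero (x : XR K 1) : P.S0 K 0 x = x := by
  simp [S0_apply, Dinv_zero, Alg.U_zero]

theorem S0_add (s t : ℝ) (x : XR K 1) : P.S0 K (s + t) x = P.S0 K s (P.S0 K t x) := by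
  have h : ∀ (r : ℝ) (w : XR K 1), (algR K 1).U r (P.Dinv K t w)
      = P.Dinv K t ((algR K 1).U (Real.exp (-t) * r) w) := by
    intro r w
    rw [Dinv_U, ← mul_assoc, ← Real.exp_add, add_neg_cancel, Real.exp_zero, one_mul]
  have e : 1 - Real.exp (-(s + t))
      = Real.exp (-t) * (1 - Real.exp (-s)) + (1 - Real.exp (-t)) := by
    rw [neg_add, Real.exp_add]
    ring
  rw [S0_apply, S0_apply, S0_apply, h, ← Alg.U_add, Dinv_add, e]

theorem S0_cont : Continuous fun p : ℝ × XR K 1 => P.S0 K p.1 p.2 := by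
  have h1 : Continuous fun p : ℝ × XR K 1 => ((1 - Real.exp (-p.1), p.2) : ℝ × XR K 1) := by
    fun_prop
  have h2 := (algR K 1).U_cont₂.comp h1
  exact (Dinv_cont P K).comp (continuous_fst.prodMk h2)

theorem S0_norm {τ : ℝ} (hτ : 0 ≤ τ) (x : XR K 1) :
    ‖P.S0 K τ x‖ ≤ Real.exp (-(gam m) * τ) * ‖x‖ := by
  rw [S0_apply, Dinv_apply, norm_smul, Complex.norm_exp]
  have h1 : (-P.aa * τ).re = -(gam m) * τ := by simp [Prof.aa]
  have h2 : max 1 (Real.exp (τ / 2))⁻¹ = 1 :=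
    max_eq_left (inv_le_one_of_one_le₀ (Real.one_le_exp (by linarith)))
  have h3 := (dilOp_same (K := K) (l := 1) (Real.exp_pos (τ / 2))
    ((algR K 1).U (1 - Real.exp (-τ)) x)).2
  rw [h2, one_pow, one_mul] at h3
  rw [h1]
  gcongr
  exact h3.trans ((algR K 1).norm_U _ _)

theorem U_coe (l t : ℝ) (x : XR K l) :
    (algR K l).U t x =ᵐ[volume] fun η => cexp (-I * (‖η‖ ^ 2 : ℝ) * t) * x η :=
  (freeOp_spec (σ := fun ξ : E => ‖ξ‖ ^ 2) (by fun_prop) t x).1

theorem S0_coe (τ : ℝ) (x : XR K 1) :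
    P.S0 K τ x =ᵐ[volume] fun ξ => cexp (-P.aa * τ) * dilF (Real.exp (τ / 2))
      (fun η => cexp (-I * (‖η‖ ^ 2 : ℝ) * (1 - Real.exp (-τ) : ℝ)) * x η) ξ := by
  rw [S0_apply]
  filter_upwards [Dinv_coe P K τ ((algR K 1).U (1 - Real.exp (-τ)) x),
    dilF_congr (Real.exp_pos (τ / 2)) (U_coe K 1 (1 - Real.exp (-τ)) x)] with ξ h1 h2
  rw [h1, h2]

theorem syn_S0 (τ : ℝ) (x : XR K 1) (y : E) :
    syn (P.S0 K τ x) y = cexp (-P.aa * τ) *
      ∫ ξ, cexp (I * (inner ℝ ξ (Real.exp (-τ / 2) • y) : ℝ))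
        * (cexp (-I * (‖ξ‖ ^ 2 : ℝ) * (1 - Real.exp (-τ) : ℝ)) * x ξ) := by
  rw [S0_apply, syn_Dinv, syn_congr (U_coe K 1 (1 - Real.exp (-τ)) x)]
  rfl

theorem st_st (l : ℝ) (x : XR K l) : (algR K l).st ((algR K l).st x) = x :=
  XW_syn_ext fun y => by rw [syn_stOp, syn_stOp, conj_conj]

/-- the free group, real-linear -/
def Prof.G0 : C0 (XR K 1) where
  S τ := (P.S0 K τ).restrictScalars ℝ
  zero := S0_zero P K
  add := S0_add P K
  cont := S0_cont P K

theorem G0_apply (τ : ℝ) (x : XR K 1) : (P.G0 K).S τ x = P.S0 K τ x := rfl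

variable {P}

theorem qW_zero (F : FD P) : F.qW K 1 0 = toW volume (wR K 1) F.q := by
  have h : F.qt 0 = F.q := by
    funext ξ
    simp [FD.qt, dilF_one]
  rw [FD.qW, h]

theorem syn_toW {f : E → ℂ} (hf : MemW volume (wR K 1) f) :
    syn (toW volume (wR K 1) f) = syn f :=
  syn_congr (toW_coe hf)

theorem syn_qW0 (F : FD P) (y : E) : syn (F.qW K 1 0) y = P.Q y := by
  rw [qW_zero, syn_toW K (F.memq K), F.synq]

theorem syn_zW (F : FD P) (i : Md14) (y : E) : syn (F.zW K 1 i) y = P.zm i y := by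
  rw [FD.zW, syn_toW K (F.memz K i), F.synz]

theorem syn_smul (l : ℝ) (c : ℂ) (x : XR K l) (y : E) : syn (c • x : XR K l) y = c * syn x y := by
  rw [← evS_apply, map_smul, evS_apply, smul_eq_mul]

theorem syn_V (F : FD P) (x : XR K 1) (y : E) :
    syn (F.V K x) y = -I * (P.W1 y * syn x y + P.W2 y * conj (syn x y)) := by
  rw [FD.V, Alg.VL_apply, syn_smul, syn_DN, syn_qW0]
  rfl

/-- `qW` in self-similar time -/
theorem qW_eq (F : FD P) (τ : ℝ) :
    F.qW K 1 (1 - Real.exp (-τ)) = P.Dinv K (-τ) (F.qW K 1 0) := by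
  symm
  refine eq_toW ?_
  have h1 : √(1 - (1 - Real.exp (-τ))) = Real.exp (-τ / 2) := by
    rw [sub_sub_cancel, Real.exp_half]
  filter_upwards [Dinv_coe P K (-τ) (F.qW K 1 0),
    dilF_congr (Real.exp_pos (-τ / 2)) (show (F.qW K 1 0 : E → ℂ) =ᵐ[volume] F.q by
      rw [qW_zero]; exact toW_coe (F.memq K))] with ξ h2 h3
  rw [h2, h3, FD.qt, h1, sub_sub_cancel, Real.log_exp]

end P139
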