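import Vale.Agent.P139.LDefs

/-! P139 part L: an operator with small nets and no eigenvalue of modulus `≥ 1` has a
contracting power. -/

open Complex Set Filter Topology MeasureTheory Metric

noncomputable section
namespace P139

variable {Y : Type} [NormedAddCommGroup Y] [NormedSpace ℂ Y]

theorem lsp_pow (B : Y →L[ℂ] Y) (μ : ℂ) (j : ℕ) :
    ∃ C : ℝ, 0 ≤ C ∧ ∀ x, ‖μ ^ j • x - (B ^ j) x‖ ≤ C * ‖μ • x - B x‖ := by
  induction j with
  | zero => exact ⟨0, le_rfl, fun x => by simp⟩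
  | succ j ih =>
    obtain ⟨C, hC, h⟩ := ih
    refine ⟨‖μ‖ * C + ‖B ^ j‖, by positivity, fun x => ?_⟩
    have e : μ ^ (j + 1) • x - (B ^ (j + 1)) x
        = μ • (μ ^ j • x - (B ^ j) x) + (B ^ j) (μ • x - B x) := by
      rw [pow_succ B, mul_apply_eq_comp, map_sub, map_smul, smul_sub, smul_smul,
        pow_succ']
      abel
    rw [e]
    refine (norm_add_le _ _).trans ?_
    rw [norm_smul, add_mul, mul_assoc]
    exact add_le_add (mul_le_mul_of_nonneg_left (h x) (norm_nonneg _)) ((B ^ j).le_opNorm _)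

theorem lsp_below [CompleteSpace Y] (B : Y →L[ℂ] Y)
    (hnet : ∀ d > 0, ∃ j : ℕ, Net (B ^ j : Y →L[ℂ] Y) d) {μ : ℂ} (hμ : 1 ≤ ‖μ‖)
    (heig : ∀ x, B x = μ • x → x = 0) : ∃ c > 0, ∀ x, c * ‖x‖ ≤ ‖μ • x - B x‖ := by
  by_contra hn
  push Not at hn
  have hx : ∀ n : ℕ, ∃ x : Y, ‖x‖ = 1 ∧ ‖μ • x - B x‖ ≤ 1 / ((n : ℝ) + 1) := by
    intro n
    obtain ⟨x, hx⟩ := hn (1 / ((n : ℝ) + 1)) (by positivity)
    have h0 : x ≠ 0 := by
      rintro rfl
      simp at hx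
    have hp : 0 < ‖x‖ := norm_pos_iff.2 h0
    refine ⟨((‖x‖⁻¹ : ℝ) : ℂ) • x, ?_, ?_⟩
    · rw [norm_smul, Complex.norm_real, norm_inv, norm_norm, inv_mul_cancel₀ hp.ne']
    · rw [map_smul, smul_comm, ← smul_sub, norm_smul, Complex.norm_real, norm_inv, norm_norm,
        inv_mul_le_iff₀ hp, mul_comm]
      exact hx.le
  choose x hx1 hx2 using hx
  have hlim : Tendsto (fun n => ‖μ • x n - B (x n)‖) atTop (𝓝 0) :=
    squeeze_zero (fun _ => norm_nonneg _) hx2 tendsto_one_div_add_atTop_nhds_zero_nat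
  have hμ0 : μ ≠ 0 := by
    rintro rfl
    norm_num at hμ
  have htb : TotallyBounded (range x) := by
    refine Metric.totallyBounded_iff.2 fun ε hε => ?_
    obtain ⟨j, t, ht⟩ := hnet (ε / 3) (by positivity)
    obtain ⟨C, hC, h⟩ := lsp_pow B μ j
    have h1 := hlim.const_mul C
    rw [mul_zero] at h1
    obtain ⟨n₀, hn₀⟩ := eventually_atTop.1 (h1.eventually (gt_mem_nhds (by positivity : 0 < ε / 3)))
    refine ⟨(fun y => (μ ^ j)⁻¹ • y) '' (t : Set Y) ∪ x '' Iio n₀,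
      (t.finite_toSet.image _).union ((finite_Iio n₀).image _), ?_⟩
    rintro _ ⟨n, rfl⟩
    rcases lt_or_ge n n₀ with hlt | hge
    · exact mem_iUnion₂.2 ⟨x n, Or.inr ⟨n, hlt, rfl⟩, mem_ball_self hε⟩
    · obtain ⟨y, hy, h2⟩ := ht (x n) (hx1 n).le
      refine mem_iUnion₂.2 ⟨(μ ^ j)⁻¹ • y, Or.inl ⟨y, hy, rfl⟩, ?_⟩
      have e : x n - (μ ^ j)⁻¹ • y
          = (μ ^ j)⁻¹ • ((μ ^ j • x n - (B ^ j) (x n)) + ((B ^ j) (x n) - y)) := by
        rw [sub_add_sub_cancel, smul_sub, smul_smul, inv_mul_cancel₀ (pow_ne_zero j hμ0), one_smul]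
      rw [mem_ball, dist_eq_norm, e, norm_smul]
      have h3 : ‖(μ ^ j)⁻¹‖ ≤ 1 := by
        rw [norm_inv, norm_pow]
        exact inv_le_one_of_one_le₀ (one_le_pow₀ hμ)
      have h4 := norm_add_le (μ ^ j • x n - (B ^ j) (x n)) ((B ^ j) (x n) - y)
      have h5 := (h (x n)).trans (hn₀ n hge).le
      have h6 := mul_le_of_le_one_left (norm_nonneg
        ((μ ^ j • x n - (B ^ j) (x n)) + ((B ^ j) (x n) - y))) h3
      linarith
  have hK := htb.closure.isCompact_of_isClosed isClosed_closure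
  obtain ⟨a, -, ψ, hψ, ha⟩ := hK.tendsto_subseq (x := x) fun n => subset_closure (mem_range_self n)
  have h1 : ‖a‖ = 1 := by
    have := ha.norm
    simp only [Function.comp, hx1] at this
    exact tendsto_nhds_unique this tendsto_const_nhds |>.symm ▸ rfl
  have h2 : ‖μ • a - B a‖ = 0 := by
    have h3 : Tendsto (fun n => ‖μ • x (ψ n) - B (x (ψ n))‖) atTop (𝓝 ‖μ • a - B a‖) :=
      ((ha.const_smul μ).sub ((B.continuous.tendsto a).comp ha)).norm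
    exact tendsto_nhds_unique h3 (hlim.comp hψ.tendsto_atTop)
  have h4 := heig a (sub_eq_zero.1 (norm_eq_zero.1 h2)).symm
  rw [h4, norm_zero] at h1
  exact zero_ne_one h1

theorem lsp_radius [CompleteSpace Y] (B : Y →L[ℂ] Y)
    (hnet : ∀ d > 0, ∃ j : ℕ, Net (B ^ j : Y →L[ℂ] Y) d)
    (heig : ∀ μ : ℂ, 1 ≤ ‖μ‖ → ∀ x, B x = μ • x → x = 0) : spectralRadius ℂ B < 1 := by
  by_contra hn
  push Not at hn
  have hne : (spectrum ℂ B).Nonempty := by
    by_contra h0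
    rw [not_nonempty_iff_eq_empty] at h0
    simp [spectralRadius, h0] at hn
  obtain ⟨μ, hμ, hr⟩ := spectrum.exists_nnnorm_eq_spectralRadius_of_nonempty hne
  have hμ1 : 1 ≤ ‖μ‖ := by
    rw [← hr] at hn
    exact_mod_cast hn
  obtain ⟨c, hc, h⟩ := lsp_below B hnet hμ1 (heig μ hμ1)
  set η : ℝ := c / (4 * ‖μ‖) with hη
  have hη0 : 0 < η := by positivity
  have hηc : ‖(η : ℂ) * μ‖ = c / 4 := by
    rw [norm_mul, Complex.norm_real, Real.norm_eq_abs, abs_of_pos hη0, hη]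
    field_simp
  have hres : (1 + η : ℂ) * μ ∈ resolventSet ℂ B := by
    refine spectrum.mem_resolventSet_of_spectralRadius_lt ?_
    rw [← hr]
    have h1 : ‖μ‖ < ‖(1 + η : ℂ) * μ‖ := by
      rw [norm_mul, show (1 + η : ℂ) = ((1 + η : ℝ) : ℂ) by push_cast; rfl, Complex.norm_real,
        Real.norm_eq_abs, abs_of_pos (by positivity)]
      nlinarith
    exact_mod_cast h1
  obtain ⟨u, hu⟩ := hres
  have hux : ∀ x, (u : Y →L[ℂ] Y) x = (μ • x - B x) + ((η : ℂ) * μ) • x := by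
    intro x
    rw [hu, sub_apply, Algebra.algebraMap_eq_smul_one,
      smul_apply, one_apply_eq_self, add_mul, one_mul, add_smul]
    abel
  have hinv : ‖((u⁻¹ : (Y →L[ℂ] Y)ˣ) : Y →L[ℂ] Y)‖ ≤ 2 / c := by
    refine ContinuousLinearMap.opNorm_le_bound _ (by positivity) fun y => ?_
    set x := ((u⁻¹ : (Y →L[ℂ] Y)ˣ) : Y →L[ℂ] Y) y with hx
    have h1 : (u : Y →L[ℂ] Y) x = y := by
      rw [hx, ← mul_apply_eq_comp, Units.mul_inv, one_apply_eq_self]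
    have h2 := norm_sub_le ((u : Y →L[ℂ] Y) x) (((η : ℂ) * μ) • x)
    rw [norm_smul, hηc, h1, ← h1, hux, add_sub_cancel_right, ← hux, h1] at h2
    have h3 := h x
    rw [div_mul_eq_mul_div, le_div_iff₀ hc]
    nlinarith [norm_nonneg x]
  have hsm : ‖((η : ℂ) * μ) • ((u⁻¹ : (Y →L[ℂ] Y)ˣ) : Y →L[ℂ] Y)‖ < 1 := by
    refine (norm_smul_le ((η : ℂ) * μ) ((u⁻¹ : (Y →L[ℂ] Y)ˣ) : Y →L[ℂ] Y)).trans_lt ?_
    rw [hηc]
    calc c / 4 * _ ≤ c / 4 * (2 / c) := mul_le_mul_of_nonneg_left hinv (by positivity)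
      _ = 1 / 2 := by field_simp; norm_num
      _ < 1 := by norm_num
  have hu2 := (u.isUnit).mul (isUnit_one_sub_of_norm_lt_one hsm)
  refine hμ ?_
  have e : (u : Y →L[ℂ] Y) * (1 - ((η : ℂ) * μ) • ((u⁻¹ : (Y →L[ℂ] Y)ˣ) : Y →L[ℂ] Y))
      = algebraMap ℂ (Y →L[ℂ] Y) μ - B := by
    rw [mul_sub, mul_one, mul_smul_comm, Units.mul_inv, hu, Algebra.algebraMap_eq_smul_one,
      Algebra.algebraMap_eq_smul_one, add_mul, one_mul, add_smul]
    abel
  rw [e] at hu2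
  exact hu2

theorem l_q9 [CompleteSpace Y] (B : Y →L[ℂ] Y)
    (hnet : ∀ d > 0, ∃ j : ℕ, Net (B ^ j : Y →L[ℂ] Y) d)
    (heig : ∀ μ : ℂ, 1 ≤ ‖μ‖ → ∀ x, B x = μ • x → x = 0) :
    ∃ n : ℕ, 1 ≤ n ∧ ‖B ^ n‖ < 1 := by
  have h1 := (spectrum.pow_norm_pow_one_div_tendsto_nhds_spectralRadius B).eventually
    (gt_mem_nhds (lsp_radius B hnet heig))
  obtain ⟨n, hn, hn1⟩ := (h1.and (eventually_ge_atTop 1)).exists
  refine ⟨n, hn1, ?_⟩
  by_contra h
  push Not at h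
  have h2 : (1 : ℝ) ≤ ‖B ^ n‖ ^ (1 / n : ℝ) := Real.one_le_rpow h (by positivity)
  rw [ENNReal.ofReal_lt_one] at hn
  linarith

end P139
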