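import Vale.Agent.P139.LSp0

/-! P139 part L: decay of a quasi-compact semigroup modulo an invariant subspace. -/

open Complex Set Filter Topology MeasureTheory Metric

noncomputable section
namespace P139

variable {Y : Type} [NormedAddCommGroup Y] [NormedSpace ℂ Y]

theorem lsp_fourier {g : ℝ → ℂ} (hg : ContinuousOn g (Icc 0 1))
    (h : ∀ k : ℤ, ∫ t in (0 : ℝ)..1, cexp (-(2 * Real.pi * I * k) * t) * g t = 0) : g 0 = 0 := by
  by_contra hn
  have hL : MemLp g 2 (volume.restrict (Ioc (0 : ℝ) 1)) := by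
    obtain ⟨C, hC⟩ := isCompact_Icc.exists_bound_of_continuousOn hg
    refine MemLp.of_bound ((hg.mono Ioc_subset_Icc_self).aestronglyMeasurable measurableSet_Ioc) C ?_
    exact (ae_restrict_mem measurableSet_Ioc).mono fun t ht => hC t (Ioc_subset_Icc_self ht)
  have h1 := tsum_sq_fourierCoeffOn (zero_lt_one (α := ℝ)) hL
  have h2 : ∀ k : ℤ, fourierCoeffOn (zero_lt_one (α := ℝ)) g k = 0 := by
    intro k
    have e : ∫ t in (0 : ℝ)..1, fourier (-k) (t : AddCircle ((1 : ℝ) - 0)) • g t = 0 := by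
      rw [← h k]
      refine intervalIntegral.integral_congr fun t _ => ?_
      simp only [fourier_coe_apply, smul_eq_mul]
      congr 2
      push_cast
      ring
    rw [fourierCoeffOn_eq_integral, e, smul_zero]
  simp only [h2, norm_zero, ne_eq, OfNat.ofNat_ne_zero, not_false_eq_true, zero_pow, tsum_zero,
    sub_zero, inv_one, one_smul] at h1
  have h3 : 0 < ∫ t in (0 : ℝ)..1, ‖g t‖ ^ 2 :=
    intervalIntegral.integral_pos one_pos (hg.norm.pow 2) (fun _ _ => by positivity)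
      ⟨0, ⟨le_rfl, zero_le_one⟩, by have := norm_pos_iff.2 hn; positivity⟩
  linarith

theorem lsp_period [CompleteSpace Y] {u : ℝ → Y} (hu : ContinuousOn u (Ici 0))
    (hp : ∀ t, 0 ≤ t → u (t + 1) = u t) {s : ℝ} (hs : 0 ≤ s) :
    ∫ t in (0 : ℝ)..1, u (s + t) = ∫ t in (0 : ℝ)..1, u t := by
  have hi : ∀ a b : ℝ, 0 ≤ a → 0 ≤ b → IntervalIntegrable u volume a b := fun a b ha hb =>
    (hu.mono fun t ht => (le_min ha hb).trans ht.1).intervalIntegrable
  rw [intervalIntegral.integral_comp_add_left u s, add_zero]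
  have e1 := intervalIntegral.integral_add_adjacent_intervals (hi 0 s le_rfl hs)
    (hi s (s + 1) hs (by linarith))
  have e2 := intervalIntegral.integral_add_adjacent_intervals (hi 0 1 le_rfl zero_le_one)
    (hi 1 (s + 1) zero_le_one (by linarith))
  have e3 : ∫ t in (1 : ℝ)..s + 1, u t = ∫ t in (0 : ℝ)..s, u t := by
    have e4 := intervalIntegral.integral_comp_add_right (a := 0) (b := s) u 1
    rw [zero_add] at e4
    rw [← e4]
    refine intervalIntegral.integral_congr fun t ht => hp t ?_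
    rw [uIcc_of_le hs] at ht
    exact ht.1
  rw [e3, ← e1, add_comm] at e2
  exact (add_left_cancel e2).symm

theorem lsp_bound [CompleteSpace Y] {T : ℝ → Y →L[ℂ] Y}
    (hc : ∀ x, ContinuousOn (fun t => T t x) (Ici 0)) (N : ℝ) :
    ∃ M : ℝ, 0 < M ∧ ∀ t ∈ Icc (0 : ℝ) N, ‖T t‖ ≤ M := by
  obtain ⟨M, hM⟩ := banach_steinhaus (g := fun t : Icc (0 : ℝ) N => T t) fun x => by
    obtain ⟨C, hC⟩ := (isCompact_Icc (a := (0 : ℝ)) (b := N)).exists_bound_of_continuousOn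
      ((hc x).mono Icc_subset_Ici_self)
    exact ⟨C, fun t => hC t t.2⟩
  exact ⟨|M| + 1, by positivity, fun t ht => (hM ⟨t, ht⟩).trans (by linarith [le_abs_self M])⟩

theorem lsp_nat {T : ℝ → Y →L[ℂ] Y} (h0 : ∀ x, T 0 x = x)
    (hadd : ∀ s t, 0 ≤ s → 0 ≤ t → ∀ x, T (s + t) x = T s (T t x)) {a : ℝ} (ha : 0 ≤ a) (n : ℕ) :
    T a ^ n = T (n * a) := by
  induction n with
  | zero => ext x; simp [h0]
  | succ n ih =>
    ext x
    rw [pow_succ, mul_apply_eq_comp, ih, ← hadd _ _ (by positivity) ha]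
    congr 2
    push_cast
    ring

theorem lsp_eig [CompleteSpace Y] {T : ℝ → Y →L[ℂ] Y} (h0 : ∀ x, T 0 x = x)
    (hadd : ∀ s t, 0 ≤ s → 0 ≤ t → ∀ x, T (s + t) x = T s (T t x))
    (hc : ∀ x, ContinuousOn (fun t => T t x) (Ici 0))
    (heig : ∀ lam : ℂ, 0 ≤ lam.re → ∀ x, (∀ t : ℝ, 0 ≤ t → T t x = cexp (lam * t) • x) → x = 0)
    (μ : ℂ) (hμ : 1 ≤ ‖μ‖) (x : Y) (hx : T 1 x = μ • x) : x = 0 := by
  have hμ0 : μ ≠ 0 := by
    rintro rfl
    norm_num at hμ
  have hk : ∀ k : ℤ, ∫ t in (0 : ℝ)..1,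
      cexp (-(Complex.log μ + 2 * Real.pi * I * k) * t) • T t x = 0 := by
    intro k
    set lam : ℂ := Complex.log μ + 2 * Real.pi * I * k with hlam
    have hre : 0 ≤ lam.re := by
      have : lam.re = Real.log ‖μ‖ := by simp [hlam, Complex.log_re]
      rw [this]
      exact Real.log_nonneg hμ
    have hexp : cexp lam = μ := by
      rw [hlam, Complex.exp_add, Complex.exp_log hμ0, mul_comm (2 * Real.pi * I : ℂ),
        Complex.exp_int_mul_two_pi_mul_I, mul_one]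
    have hu : ContinuousOn (fun t : ℝ => cexp (-lam * t) • T t x) (Ici 0) :=
      (by fun_prop : Continuous fun t : ℝ => cexp (-lam * t)).continuousOn.smul (hc x)
    have hp : ∀ t : ℝ, 0 ≤ t →
        cexp (-lam * ((t + 1 : ℝ) : ℂ)) • T (t + 1) x = cexp (-lam * t) • T t x := by
      intro t ht
      rw [hadd t 1 ht zero_le_one, hx, map_smul, smul_smul, ← hexp, ← Complex.exp_add]
      congr 2
      push_cast
      ring
    refine heig lam hre _ fun s hs => ?_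
    have hi : IntervalIntegrable (fun t : ℝ => cexp (-lam * t) • T t x) volume 0 1 :=
      (hu.mono fun t ht => (by simpa using ht.1 : (0 : ℝ) ≤ t)).intervalIntegrable
    rw [← (T s).intervalIntegral_comp_comm hi, ← lsp_period hu hp hs,
      ← intervalIntegral.integral_smul]
    refine intervalIntegral.integral_congr fun t ht => ?_
    have ht0 : 0 ≤ t := by simpa using ht.1
    simp only [map_smul]
    rw [hadd s t hs ht0, smul_smul, ← Complex.exp_add]
    congr 2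
    push_cast
    ring
  refine (SeparatingDual.eq_zero_iff_forall_dual_eq_zero (R := ℂ) x).2 fun f => ?_
  have hg : ContinuousOn (fun t : ℝ => cexp (-Complex.log μ * t) * f (T t x)) (Icc 0 1) :=
    (by fun_prop : Continuous fun t : ℝ => cexp (-Complex.log μ * t)).continuousOn.mul
      (f.continuous.comp_continuousOn ((hc x).mono Icc_subset_Ici_self))
  have h1 := lsp_fourier hg fun k => by
    have hu : ContinuousOn
        (fun t : ℝ => cexp (-(Complex.log μ + 2 * Real.pi * I * k) * t) • T t x) (Ici 0) :=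
      (by fun_prop : Continuous fun t : ℝ =>
        cexp (-(Complex.log μ + 2 * Real.pi * I * k) * t)).continuousOn.smul (hc x)
    have hi : IntervalIntegrable
        (fun t : ℝ => cexp (-(Complex.log μ + 2 * Real.pi * I * k) * t) • T t x) volume 0 1 :=
      (hu.mono fun t ht => (by simpa using ht.1 : (0 : ℝ) ≤ t)).intervalIntegrable
    have h2 := f.intervalIntegral_comp_comm hi
    rw [hk k, map_zero] at h2
    rw [← h2]
    refine intervalIntegral.integral_congr fun t _ => ?_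
    simp only [map_smul, smul_eq_mul]
    rw [← mul_assoc, ← Complex.exp_add]
    congr 2
    ring
  simpa [h0] using h1

theorem l_spec0 [CompleteSpace Y] {T : ℝ → Y →L[ℂ] Y} (h0 : ∀ x, T 0 x = x)
    (hadd : ∀ s t, 0 ≤ s → 0 ≤ t → ∀ x, T (s + t) x = T s (T t x))
    (hc : ∀ x, ContinuousOn (fun t => T t x) (Ici 0))
    (hq : ∀ d > 0, ∃ N : ℝ, 0 ≤ N ∧ Net (T N) d)
    (heig : ∀ lam : ℂ, 0 ≤ lam.re → ∀ x, (∀ t : ℝ, 0 ≤ t → T t x = cexp (lam * t) • x) → x = 0)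
    {d : ℝ} (hd : 0 < d) : ∃ T₀ : ℝ, ∀ t, T₀ ≤ t → ‖T t‖ ≤ d := by
  classical
  obtain ⟨M₁, hM₁, h₁⟩ := lsp_bound hc 1
  have hnet : ∀ d > 0, ∃ j : ℕ, Net (T 1 ^ j : Y →L[ℂ] Y) d := by
    intro d hd
    obtain ⟨N, hN, t, ht⟩ := hq (d / M₁) (by positivity)
    have hr0 : 0 ≤ (⌈N⌉₊ : ℝ) - N := sub_nonneg.2 (Nat.le_ceil N)
    have hr1 : (⌈N⌉₊ : ℝ) - N ≤ 1 := by linarith [Nat.ceil_lt_add_one hN]
    refine ⟨⌈N⌉₊, t.image (T (⌈N⌉₊ - N)), fun x hx => ?_⟩
    obtain ⟨y, hy, h2⟩ := ht x hx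
    refine ⟨_, Finset.mem_image_of_mem _ hy, ?_⟩
    rw [lsp_nat h0 hadd zero_le_one, mul_one]
    have e : T ⌈N⌉₊ x = T (⌈N⌉₊ - N) (T N x) := by rw [← hadd _ _ hr0 hN, sub_add_cancel]
    rw [e, ← map_sub]
    refine ((T _).le_of_opNorm_le (h₁ _ ⟨hr0, hr1⟩) _).trans ?_
    rwa [← le_div_iff₀' hM₁]
  obtain ⟨n, hn, hθ⟩ := l_q9 (T 1) hnet (lsp_eig h0 hadd hc heig)
  rw [lsp_nat h0 hadd zero_le_one, mul_one] at hθ
  obtain ⟨M, hM, h₂⟩ := lsp_bound hc n
  have hn0 : (0 : ℝ) < n := by exact_mod_cast hn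
  obtain ⟨k, hk⟩ := exists_pow_lt_of_lt_one (div_pos hd hM) hθ
  refine ⟨(k + 1) * n, fun t ht => ?_⟩
  have ht0 : 0 ≤ t := le_trans (by positivity) ht
  set j := ⌊t / n⌋₊ with hj
  have hj1 : (j : ℝ) * n ≤ t := by
    rw [← le_div_iff₀ hn0]; exact Nat.floor_le (by positivity)
  have hj2 : t < (j + 1) * n := by
    rw [← div_lt_iff₀ hn0]; exact Nat.lt_floor_add_one _
  have hkj : k + 1 ≤ j := by
    rw [hj]
    refine Nat.le_floor ?_
    rw [le_div_iff₀ hn0]
    exact_mod_cast ht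
  have e : T t = T (t - j * n) * T n ^ j := by
    ext x
    rw [lsp_nat h0 hadd hn0.le, mul_apply_eq_comp, ← hadd _ _ (by linarith) (by positivity),
      sub_add_cancel]
  rw [e]
  refine (norm_mul_le _ _).trans ?_
  have h3 : ‖T n ^ j‖ ≤ d / M :=
    (norm_pow_le' _ (by omega)).trans
      ((pow_le_pow_of_le_one (norm_nonneg _) hθ.le (by omega)).trans hk.le)
  have h4 := h₂ (t - j * n) ⟨by linarith, by linarith⟩
  calc _ ≤ M * (d / M) := mul_le_mul h4 h3 (norm_nonneg _) hM.le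
    _ = d := by field_simp

/-- decay modulo a closed invariant subspace -/
theorem l_spec [CompleteSpace Y] {S : ℝ → Y →L[ℂ] Y} (h0 : ∀ x, S 0 x = x)
    (hadd : ∀ s t, 0 ≤ s → 0 ≤ t → ∀ x, S (s + t) x = S s (S t x))
    (hc : ∀ x, ContinuousOn (fun t => S t x) (Ici 0))
    (Z : Submodule ℂ Y) (hZc : IsClosed (Z : Set Y))
    (hZ : ∀ t : ℝ, 0 ≤ t → ∀ z ∈ Z, S t z ∈ Z)
    (hq : ∀ d > 0, ∃ N : ℝ, 0 ≤ N ∧ Net (S N) d)
    (heig : ∀ lam : ℂ, 0 ≤ lam.re → ∀ x,
      (∀ t : ℝ, 0 ≤ t → S t x - cexp (lam * t) • x ∈ Z) → x ∈ Z)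
    {d : ℝ} (hd : 0 < d) :
    ∃ T₀ : ℝ, ∀ t, T₀ ≤ t → ∀ x, ∃ z ∈ Z, ‖S t x - z‖ ≤ d * ‖x‖ := by
  classical
  let T : ℝ → (Y ⧸ Z) →L[ℂ] (Y ⧸ Z) := fun t =>
    Z.liftQL (Z.mkQL.comp (S (max t 0))) fun z hz => by
      simpa using hZ _ (le_max_right t 0) z hz
  have hT : ∀ t : ℝ, 0 ≤ t → ∀ x, T t (Z.mkQL x) = Z.mkQL (S t x) := by
    intro t ht x
    simp [T, max_eq_left ht]
  have hs : ∀ w : Y ⧸ Z, ∃ x, Z.mkQL x = w := Z.mkQ_surjective
  have hmk : ∀ x, ‖Z.mkQL x‖ ≤ ‖x‖ := fun x => Submodule.Quotient.norm_mk_le Z x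
  obtain ⟨T₀, hT₀⟩ := l_spec0 (T := T) (d := d / 2) (fun w => by
      obtain ⟨x, rfl⟩ := hs w
      rw [hT 0 le_rfl, h0])
    (fun s t hs0 ht0 w => by
      obtain ⟨x, rfl⟩ := hs w
      rw [hT _ (add_nonneg hs0 ht0), hT t ht0, hT s hs0, hadd s t hs0 ht0])
    (fun w => by
      obtain ⟨x, rfl⟩ := hs w
      exact (Z.mkQL.continuous.comp_continuousOn (hc x)).congr fun t ht => hT t ht x)
    (fun d hd => by
      obtain ⟨N, hN, t, ht⟩ := hq (d / 2) (by positivity)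
      refine ⟨N, hN, t.image fun y => Z.mkQL ((2 : ℂ) • y), fun w hw => ?_⟩
      obtain ⟨x, hx, hxn⟩ := Submodule.Quotient.norm_mk_lt w one_pos
      obtain ⟨y, hy, h1⟩ := ht ((2 : ℂ)⁻¹ • x) (by
        rw [norm_smul, norm_inv, Complex.norm_ofNat]; linarith)
      refine ⟨_, Finset.mem_image_of_mem _ hy, ?_⟩
      have e : w = Z.mkQL x := hx.symm
      rw [e, hT N hN, ← map_sub]
      refine (hmk _).trans ?_
      have e2 : S N x - (2 : ℂ) • y = (2 : ℂ) • (S N ((2 : ℂ)⁻¹ • x) - y) := by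
        rw [map_smul, smul_sub, smul_smul, mul_inv_cancel₀ two_ne_zero, one_smul]
      rw [e2, norm_smul, Complex.norm_ofNat]
      linarith)
    (fun lam hl w hw => by
      obtain ⟨x, rfl⟩ := hs w
      refine (Submodule.Quotient.mk_eq_zero Z).2 (heig lam hl x fun t ht => ?_)
      refine (Submodule.Quotient.mk_eq_zero Z).1 ?_
      have h1 := hw t ht
      rw [hT t ht, ← map_smul, ← sub_eq_zero, ← map_sub] at h1
      exact h1)
    (by positivity)
  refine ⟨max T₀ 0, fun t ht x => ?_⟩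
  rcases eq_or_ne x 0 with rfl | hx0
  · exact ⟨0, Z.zero_mem, by simp⟩
  have hxp : 0 < ‖x‖ := norm_pos_iff.2 hx0
  have ht0 : 0 ≤ t := (le_max_right _ _).trans ht
  have h1 : ‖Z.mkQL (S t x)‖ ≤ d / 2 * ‖x‖ := by
    rw [← hT t ht0]
    refine ((T t).le_of_opNorm_le (hT₀ t ((le_max_left _ _).trans ht)) _).trans ?_
    exact mul_le_mul_of_nonneg_left (hmk x) (by positivity)
  obtain ⟨y, hy, hyn⟩ := Submodule.Quotient.norm_mk_lt (Z.mkQL (S t x))
    (by positivity : 0 < d / 2 * ‖x‖)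
  refine ⟨S t x - y, ?_, ?_⟩
  · exact (Submodule.Quotient.eq Z).1 (hy.symm : Submodule.Quotient.mk (S t x) = _)
  · rw [sub_sub_cancel]
    linarith

/-- bounded coefficients for the elements of a finite span -/
theorem l_coef {𝕜 X ι : Type} [RCLike 𝕜] [NormedAddCommGroup X] [NormedSpace 𝕜 X] [Fintype ι]
    (z : ι → X) : ∃ C : ℝ, 0 ≤ C ∧ ∀ w ∈ Submodule.span 𝕜 (range z),
      ∃ p : ι → 𝕜, (∀ i, ‖p i‖ ≤ C * ‖w‖) ∧ w = ∑ i, p i • z i := by
  let W := Submodule.span 𝕜 (range z)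
  have : FiniteDimensional 𝕜 W := FiniteDimensional.span_of_finite 𝕜 (finite_range z)
  let L : (ι → 𝕜) →ₗ[𝕜] W := (Fintype.linearCombination 𝕜 z).codRestrict W fun p => by
    rw [Fintype.linearCombination_apply]
    exact Submodule.sum_mem _ fun i _ => W.smul_mem _ (Submodule.subset_span (mem_range_self i))
  have hL : LinearMap.range L = ⊤ := by
    refine LinearMap.range_eq_top.2 fun w => ?_
    obtain ⟨p, hp⟩ := (Submodule.mem_span_range_iff_exists_fun 𝕜).1 w.2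
    exact ⟨p, Subtype.ext (by simpa [L, Fintype.linearCombination_apply] using hp)⟩
  obtain ⟨R, hR⟩ := L.exists_rightInverse_of_surjective hL
  let R' : W →L[𝕜] (ι → 𝕜) := LinearMap.toContinuousLinearMap R
  refine ⟨‖R'‖, norm_nonneg _, fun w hw => ⟨R ⟨w, hw⟩, fun i => ?_, ?_⟩⟩
  · exact (norm_le_pi_norm (R ⟨w, hw⟩) i).trans (R'.le_opNorm ⟨w, hw⟩)
  · have h1 := congrArg Subtype.val (LinearMap.congr_fun hR ⟨w, hw⟩)
    simpa [L, Fintype.linearCombination_apply] using h1.symm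

end P139
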