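import Vale.Agent.P139.MADefs

/-! P139 part MA: the energy test. -/

open Complex Set Filter Topology MeasureTheory
open scoped ContDiff ComplexConjugate InnerProductSpace

noncomputable section
namespace P139

namespace Ma1

/-- continuous and bounded on `(0,T]` -/
def BC (T : ℝ) (f : ℝ → ℝ) : Prop :=
  ContinuousOn f (Ioc 0 T) ∧ ∃ B : ℝ, ∀ r ∈ Ioc 0 T, |f r| ≤ B

theorem BC.add {T : ℝ} {f g : ℝ → ℝ} (hf : BC T f) (hg : BC T g) : BC T fun r => f r + g r := by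
  obtain ⟨h1, B, hB⟩ := hf
  obtain ⟨h2, D, hD⟩ := hg
  exact ⟨h1.add h2, B + D, fun r hr => (abs_add_le _ _).trans (add_le_add (hB r hr) (hD r hr))⟩

theorem BC.mul {T : ℝ} {f g : ℝ → ℝ} (hf : BC T f) (hg : BC T g) : BC T fun r => f r * g r := by
  obtain ⟨h1, B, hB⟩ := hf
  obtain ⟨h2, D, hD⟩ := hg
  refine ⟨h1.mul h2, B * D, fun r hr => ?_⟩
  rw [abs_mul]
  exact mul_le_mul (hB r hr) (hD r hr) (abs_nonneg _) ((abs_nonneg _).trans (hB r hr))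

theorem BC.sq {T : ℝ} {f : ℝ → ℝ} (hf : BC T f) : BC T fun r => f r ^ 2 := by
  simpa only [pow_two] using hf.mul hf

theorem bc_cont (T : ℝ) {f : ℝ → ℝ} (hf : Continuous f) : BC T f := by
  obtain ⟨B, hB⟩ := (isCompact_Icc (a := 0) (b := T)).exists_bound_of_continuousOn hf.continuousOn
  exact ⟨hf.continuousOn, B, fun r hr => hB r (Ioc_subset_Icc_self hr)⟩

theorem bc_norm {T B : ℝ} {u : ℝ → ℂ} (hu : ContinuousOn u (Ioi 0))
    (hB : ∀ r ∈ Ioc 0 T, ‖u r‖ ≤ B) : BC T fun r => ‖u r‖ :=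
  ⟨(hu.mono Ioc_subset_Ioi_self).norm, B, fun r hr => by rw [abs_norm]; exact hB r hr⟩

theorem BC.ii {T : ℝ} {f : ℝ → ℝ} (hf : BC T f) (hT : 0 ≤ T) :
    IntervalIntegrable f volume 0 T := by
  obtain ⟨h1, B, hB⟩ := hf
  rw [intervalIntegrable_iff_integrableOn_Ioc_of_le hT]
  exact IntegrableOn.of_bound measure_Ioc_lt_top (h1.aestronglyMeasurable measurableSet_Ioc) B
    ((ae_restrict_iff' measurableSet_Ioc).2 (Eventually.of_forall hB))

theorem cd1 {u : ℝ → ℂ} (h : ContDiffOn ℝ 2 u (Ioi 0)) : ContDiffOn ℝ 1 (deriv u) (Ioi 0) :=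
  h.deriv_of_isOpen isOpen_Ioi (by norm_num)

theorem hd0 {u : ℝ → ℂ} (h : ContDiffOn ℝ 2 u (Ioi 0)) {r : ℝ} (hr : 0 < r) :
    HasDerivAt u (deriv u r) r :=
  ((h.differentiableOn (by norm_num)).differentiableAt (Ioi_mem_nhds hr)).hasDerivAt

theorem hd1 {u : ℝ → ℂ} (h : ContDiffOn ℝ 2 u (Ioi 0)) {r : ℝ} (hr : 0 < r) :
    HasDerivAt (deriv u) (deriv (deriv u) r) r :=
  (((cd1 h).differentiableOn (by norm_num)).differentiableAt (Ioi_mem_nhds hr)).hasDerivAt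

theorem hd_conj {u : ℝ → ℂ} {u' : ℂ} {r : ℝ} (h : HasDerivAt u u' r) :
    HasDerivAt (fun x => conj (u x)) (conj u') r :=
  Complex.conjCLE.toContinuousLinearMap.hasFDerivAt.comp_hasDerivAt r h

theorem young {K t x y z c : ℝ} (hK : 1 ≤ K) (ht : 0 < t) (ht1 : t ≤ 1) (hx : 0 ≤ x) (hc : 0 ≤ c) :
    4 * K * x * y + 2 * K * x * z + K * c * x + K * c * y ≤
      t * (y ^ 2 + z ^ 2) + 10 * K ^ 2 / t * (x ^ 2 + c ^ 2) := by
  have h1 := sq_nonneg (t * y - 4 * K * x)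
  have h2 := sq_nonneg (t * z - K * x)
  have h3 := sq_nonneg (t * y - K * c)
  have h4 := sq_nonneg (K * x - K * c)
  have h5 : t * (K * (c * x)) ≤ K * (K * (c * x)) :=
    mul_le_mul_of_nonneg_right (ht1.trans hK) (mul_nonneg (by linarith) (mul_nonneg hc hx))
  have h6 := sq_nonneg (K * c)
  have h7 := sq_nonneg (K * x)
  refine le_of_mul_le_mul_left ?_ ht
  have e : t * (t * (y ^ 2 + z ^ 2) + 10 * K ^ 2 / t * (x ^ 2 + c ^ 2)) =
      t ^ 2 * (y ^ 2 + z ^ 2) + 10 * K ^ 2 * (x ^ 2 + c ^ 2) := by field_simp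
  rw [e]
  linarith

/-- the remainder term -/
def GG (κ U : ℝ) (lam a b b1 S1 S2 : ℂ) : ℂ :=
  (lam * b + U * b1 + S2) * conj a - (lam * a + S1) * conj b + 2 * κ * (a * conj b) +
    U * (a * conj b1)

theorem norm_GG {K c κ U : ℝ} {lam S1 S2 : ℂ} (a b b1 : ℂ) (hκ : |κ| ≤ K) (hU : |U| ≤ K)
    (hl : ‖lam‖ ≤ K) (h1 : ‖S1‖ ≤ K * c) (h2 : ‖S2‖ ≤ K * c) :
    ‖GG κ U lam a b b1 S1 S2‖ ≤
      4 * K * ‖a‖ * ‖b‖ + 2 * K * ‖a‖ * ‖b1‖ + K * c * ‖a‖ + K * c * ‖b‖ := by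
  have ha := norm_nonneg a
  have hb := norm_nonneg b
  have hb1 := norm_nonneg b1
  have n1 : ‖(lam * b + U * b1 + S2) * conj a‖ ≤ (K * ‖b‖ + K * ‖b1‖ + K * c) * ‖a‖ := by
    rw [norm_mul, Complex.norm_conj]
    refine mul_le_mul_of_nonneg_right (norm_add₃_le.trans ?_) ha
    rw [norm_mul, norm_mul, Complex.norm_real, Real.norm_eq_abs]
    exact add_le_add (add_le_add (mul_le_mul_of_nonneg_right hl hb)
      (mul_le_mul_of_nonneg_right hU hb1)) h2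
  have n2 : ‖(lam * a + S1) * conj b‖ ≤ (K * ‖a‖ + K * c) * ‖b‖ := by
    rw [norm_mul, Complex.norm_conj]
    refine mul_le_mul_of_nonneg_right ((norm_add_le _ _).trans ?_) hb
    rw [norm_mul]
    exact add_le_add (mul_le_mul_of_nonneg_right hl ha) h1
  have n3 : ‖2 * (κ : ℂ) * (a * conj b)‖ ≤ 2 * K * (‖a‖ * ‖b‖) := by
    rw [norm_mul, norm_mul, norm_mul, Complex.norm_conj, Complex.norm_real, Real.norm_eq_abs,
      Complex.norm_two]
    exact mul_le_mul_of_nonneg_right (by linarith) (mul_nonneg ha hb)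
  have n4 : ‖(U : ℂ) * (a * conj b1)‖ ≤ K * (‖a‖ * ‖b1‖) := by
    rw [norm_mul, norm_mul, Complex.norm_conj, Complex.norm_real, Real.norm_eq_abs]
    exact mul_le_mul_of_nonneg_right hU (mul_nonneg ha hb1)
  have n5 := norm_sub_le ((lam * b + U * b1 + S2) * conj a) ((lam * a + S1) * conj b)
  have n6 : ‖GG κ U lam a b b1 S1 S2‖ ≤ _ := norm_add₃_le
  linarith

/-- the multiplier -/
def HC (α θ : ℝ → ℂ) (ρ U : ℝ → ℝ) (r : ℝ) : ℂ :=
  ((ρ r * r ^ 11 : ℝ) : ℂ) * (deriv α r * conj (α r) + deriv θ r * conj (θ r)) +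
    ((ρ r * r ^ 11 * U r : ℝ) : ℂ) * (α r * conj (θ r))

variable {l : ℕ} {K T R₀ Λ ε c κ : ℝ} {lam : ℂ} {α θ S₁ S₂ : ℝ → ℂ} {ρ lr U W : ℝ → ℝ}

theorem hd_HC (h : HydA l K T R₀ Λ ε c κ lam α θ S₁ S₂ ρ lr U W) {r : ℝ} (hr : 0 < r) :
    HasDerivAt (HC α θ ρ U) (((en l α θ ρ W r : ℝ) : ℂ) + ((ρ r * r ^ 11 : ℝ) : ℂ) *
      GG κ (U r) lam (α r) (θ r) (deriv θ r) (S₁ r) (S₂ r)) r := by
  have d1 := ((h.dρ r).fun_mul (hasDerivAt_pow 11 r)).ofReal_comp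
  have d2 := (h.dU r).ofReal_comp
  have d3 := ((hd1 h.sα hr).fun_mul (hd_conj (hd0 h.sα hr))).fun_add
    ((hd1 h.sθ hr).fun_mul (hd_conj (hd0 h.sθ hr)))
  have d4 := (hd0 h.sα hr).fun_mul (hd_conj (hd0 h.sθ hr))
  refine ((d1.fun_mul d3).fun_add (d2.fun_mul d4)).congr_deriv ?_
  have e1 := h.e₁ r hr
  have e2 := h.e₂ r hr
  unfold DD at e1 e2
  have hr' : (r : ℂ) ≠ 0 := by exact_mod_cast hr.ne'
  have a2 : deriv (deriv α) r = lam * θ r + U r * deriv θ r + W r * α r + S₂ r -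
      (11 / (r : ℂ) + lr r) * deriv α r + (l : ℂ) * ((l : ℂ) + 10) / (r : ℂ) ^ 2 * α r := by
    linear_combination -e2
  have b2 : deriv (deriv θ) r = -(lam * α r) - U r * deriv α r - S₁ r -
      (11 / (r : ℂ) + lr r) * deriv θ r + (l : ℂ) * ((l : ℂ) + 10) / (r : ℂ) ^ 2 * θ r := by
    linear_combination e1
  rw [a2, b2]
  unfold en GG
  push_cast
  simp only [← Complex.mul_conj']
  field_simp
  ring

theorem mu_bd (h : HydA l K T R₀ Λ ε c κ lam α θ S₁ S₂ ρ lr U W) {r : ℝ} (hr : r ∈ Icc 0 T) :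
    0 ≤ ρ r ∧ 0 ≤ ρ r * r ^ 11 ∧ ρ r * r ^ 11 ≤ K ^ 12 := by
  have hK := h.hK
  have h1 : 0 ≤ ρ r := le_trans (by positivity) (h.bρ r hr).1
  refine ⟨h1, mul_nonneg h1 (pow_nonneg hr.1 _), ?_⟩
  rw [pow_succ' K 11]
  exact mul_le_mul (h.bρ r hr).2.1 (pow_le_pow_left₀ hr.1 (hr.2.trans h.hTK) 11)
    (pow_nonneg hr.1 _) (by linarith)

theorem norm_HC (h : HydA l K T R₀ Λ ε c κ lam α θ S₁ S₂ ρ lr U W) {r : ℝ} (hr : r ∈ Icc 0 T) :
    ‖HC α θ ρ U r‖ ≤ ρ r * r ^ 11 * (K * dat α θ r) := by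
  have hK := h.hK
  have hμ := (mu_bd h hr).2.1
  have hU := (h.bρ r hr).2.2.2.1
  have n1 : ‖deriv α r * conj (α r) + deriv θ r * conj (θ r)‖ ≤
      ‖deriv α r‖ * ‖α r‖ + ‖deriv θ r‖ * ‖θ r‖ := by
    refine (norm_add_le _ _).trans ?_
    rw [norm_mul, norm_mul, Complex.norm_conj, Complex.norm_conj]
  have n2 : |U r| * (‖α r‖ * ‖θ r‖) ≤ K * (‖α r‖ * ‖θ r‖) :=
    mul_le_mul_of_nonneg_right hU (mul_nonneg (norm_nonneg _) (norm_nonneg _))
  have n3 : ‖deriv α r‖ * ‖α r‖ + ‖deriv θ r‖ * ‖θ r‖ ≤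
      K * (‖deriv α r‖ * ‖α r‖ + ‖deriv θ r‖ * ‖θ r‖) := le_mul_of_one_le_left (by positivity) hK
  have n4 : ‖deriv α r‖ * ‖α r‖ + ‖deriv θ r‖ * ‖θ r‖ + ‖α r‖ * ‖θ r‖ ≤ dat α θ r := by
    unfold dat
    have q1 := sq_nonneg (‖deriv α r‖ - ‖α r‖)
    have q2 := sq_nonneg (‖deriv θ r‖ - ‖θ r‖)
    have q3 := sq_nonneg (‖α r‖ - ‖θ r‖)
    have q4 := sq_nonneg ‖deriv α r‖
    have q5 := sq_nonneg ‖deriv θ r‖
    linarith
  have n5 := mul_le_mul_of_nonneg_left n4 (by linarith : 0 ≤ K)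
  refine (norm_add_le _ _).trans ?_
  rw [norm_mul, norm_mul, norm_mul, Complex.norm_conj, Complex.norm_real, Complex.norm_real,
    Real.norm_eq_abs, Real.norm_eq_abs, abs_mul (ρ r * r ^ 11), abs_of_nonneg hμ, mul_assoc _ |U r|,
    ← mul_add]
  exact mul_le_mul_of_nonneg_left (by linarith) hμ

theorem cont_HC (h : HydA l K T R₀ Λ ε c κ lam α θ S₁ S₂ ρ lr U W) :
    ContinuousOn (HC α θ ρ U) (Icc 0 T) := by
  intro r hr
  rcases hr.1.lt_or_eq with h0 | rfl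
  · exact (hd_HC h h0).continuousAt.continuousWithinAt
  obtain ⟨B, hB⟩ := h.bd
  have hK : 0 ≤ K := by linarith [h.hK]
  have cρ : Continuous ρ := continuous_iff_continuousAt.2 fun r => (h.dρ r).continuousAt
  have e0 : HC α θ ρ U 0 = 0 := by simp [HC]
  have c1 : Continuous fun r : ℝ => ρ r * r ^ 11 * (K * (4 * B ^ 2)) := by fun_prop
  have t1 := (c1.tendsto 0).mono_left (nhdsWithin_le_nhds (s := Icc 0 T))
  rw [zero_pow (by norm_num), mul_zero, zero_mul] at t1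
  unfold ContinuousWithinAt
  rw [e0]
  refine squeeze_zero_norm' (eventually_nhdsWithin_of_forall fun x hx => ?_) t1
  rcases hx.1.lt_or_eq with h0 | rfl
  · refine (norm_HC h hx).trans (mul_le_mul_of_nonneg_left
      (mul_le_mul_of_nonneg_left ?_ hK) (mu_bd h hx).2.1)
    obtain ⟨b1, b2, b3, b4⟩ := hB x ⟨h0, hx.2⟩
    have q1 := pow_le_pow_left₀ (norm_nonneg _) b1 2
    have q2 := pow_le_pow_left₀ (norm_nonneg _) b2 2
    have q3 := pow_le_pow_left₀ (norm_nonneg _) b3 2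
    have q4 := pow_le_pow_left₀ (norm_nonneg _) b4 2
    unfold dat
    linarith
  · rw [e0]; simp

theorem point (h : HydA l K T R₀ Λ ε c κ lam α θ S₁ S₂ ρ lr U W) {t : ℝ} (ht : 0 < t) (ht1 : t ≤ 1)
    {r : ℝ} (hr : r ∈ Ioc 0 T) :
    en l α θ ρ W r - t * (en l α θ ρ W r + ρ r * r ^ 11 * ‖θ r‖ ^ 2) -
      10 * K ^ 2 / t * (ρ r * r ^ 11 * ‖α r‖ ^ 2 + K ^ 12 * c ^ 2) ≤
    (((en l α θ ρ W r : ℝ) : ℂ) + ((ρ r * r ^ 11 : ℝ) : ℂ) *
      GG κ (U r) lam (α r) (θ r) (deriv θ r) (S₁ r) (S₂ r)).re := by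
  have hr' := Ioc_subset_Icc_self hr
  obtain ⟨hρ, hμ, hμK⟩ := mu_bd h hr'
  obtain ⟨-, -, -, hU, hW⟩ := h.bρ r hr'
  have g1 := (norm_GG (α r) (θ r) (deriv θ r) h.hκ hU h.hlam (h.bS r hr).1 (h.bS r hr).2).trans
    (young h.hK ht ht1 (norm_nonneg _) h.hc)
  have g2 := (abs_le.1 ((Complex.abs_re_le_norm _).trans g1)).1
  have g3 := mul_le_mul_of_nonneg_left g2 hμ
  have g4 : ρ r * r ^ 11 * ‖deriv θ r‖ ^ 2 ≤ en l α θ ρ W r := by
    have r0 := hr.1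
    have p1 : 0 ≤ ρ r * r ^ 11 * (‖deriv α r‖ ^ 2 + W r * ‖α r‖ ^ 2) := by positivity
    have p2 : 0 ≤ ρ r * r ^ 9 * ((l : ℝ) * (l + 10)) * (‖α r‖ ^ 2 + ‖θ r‖ ^ 2) := by positivity
    unfold en
    linarith
  have g5 := mul_le_mul_of_nonneg_left g4 ht.le
  have g6 : 10 * K ^ 2 / t * (ρ r * r ^ 11 * c ^ 2) ≤ 10 * K ^ 2 / t * (K ^ 12 * c ^ 2) :=
    mul_le_mul_of_nonneg_left (mul_le_mul_of_nonneg_right hμK (sq_nonneg c)) (by positivity)
  rw [Complex.add_re, Complex.ofReal_re, Complex.re_ofReal_mul]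
  linarith

end Ma1

open Ma1

theorem s_a1 : S_a1 := by
  intro l K
  refine ⟨1 + 10 * K ^ 16, le_add_of_nonneg_right (by positivity), ?_⟩
  intro T R₀ Λ ε c κ lam α θ S₁ S₂ ρ lr U W h t ht ht1
  have hK := h.hK
  have hT : 0 < T := by linarith [h.hR, h.hT]
  obtain ⟨B, hB⟩ := h.bd
  have cρ : Continuous ρ := continuous_iff_continuousAt.2 fun r => (h.dρ r).continuousAt
  have ba := (bc_norm h.sα.continuousOn fun r hr => (hB r hr).1).sq
  have ba1 := (bc_norm (cd1 h.sα).continuousOn fun r hr => (hB r hr).2.1).sq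
  have bb := (bc_norm h.sθ.continuousOn fun r hr => (hB r hr).2.2.1).sq
  have bb1 := (bc_norm (cd1 h.sθ).continuousOn fun r hr => (hB r hr).2.2.2).sq
  have bμ : BC T fun r => ρ r * r ^ 11 := bc_cont T (by fun_prop)
  have bν : BC T fun r => ρ r * r ^ 9 * ((l : ℝ) * (l + 10)) := bc_cont T (by fun_prop)
  have i1 : IntervalIntegrable (en l α θ ρ W) volume 0 T :=
    ((bμ.mul ((ba1.add bb1).add ((bc_cont T h.cW).mul ba))).add (bν.mul (ba.add bb))).ii hT.le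
  have i2 := (bμ.mul bb).ii hT.le
  have i3 := (bμ.mul ba).ii hT.le
  have i4 : IntervalIntegrable (fun _ : ℝ => K ^ 12 * c ^ 2) volume 0 T := intervalIntegrable_const
  have i5 := (i1.add i2).const_mul t
  have i6 := (i3.add i4).const_mul (10 * K ^ 2 / t)
  have key := intervalIntegral.integral_le_sub_of_hasDeriv_right_of_le hT.le
    (g := fun r => (HC α θ ρ U r).re) (Complex.continuous_re.comp_continuousOn (cont_HC h))
    (fun r hr => (Complex.reCLM.hasFDerivAt.comp_hasDerivAt r (hd_HC h hr.1)).hasDerivWithinAt)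
    ((intervalIntegrable_iff_integrableOn_Icc_of_le hT.le).1 ((i1.sub i5).sub i6))
    fun r hr => point h ht ht1 (Ioo_subset_Ioc_self hr)
  rw [intervalIntegral.integral_sub (i1.sub i5) i6, intervalIntegral.integral_sub i1 i5,
    intervalIntegral.integral_const_mul, intervalIntegral.integral_const_mul,
    intervalIntegral.integral_add i1 i2, intervalIntegral.integral_add i3 i4,
    intervalIntegral.integral_const, smul_eq_mul, sub_zero] at key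
  have e0 : (HC α θ ρ U 0).re = 0 := by simp [HC]
  have hTT : T ∈ Icc 0 T := ⟨hT.le, le_rfl⟩
  have hd : 0 ≤ dat α θ T := by unfold dat; positivity
  have p13 : K ^ 13 ≤ K ^ 16 := pow_le_pow_right₀ hK (by norm_num)
  have p15 : K ^ 15 ≤ K ^ 16 := pow_le_pow_right₀ hK (by norm_num)
  have p2 : K ^ 2 ≤ K ^ 16 := pow_le_pow_right₀ hK (by norm_num)
  have p16 : 0 ≤ K ^ 16 := by positivity
  have h1 : (HC α θ ρ U T).re ≤ (1 + 10 * K ^ 16) * dat α θ T := by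
    refine ((Complex.re_le_norm _).trans (norm_HC h hTT)).trans
      ((mul_le_mul_of_nonneg_right (mu_bd h hTT).2.2 (by positivity)).trans ?_)
    rw [← mul_assoc, ← pow_succ]
    exact mul_le_mul_of_nonneg_right (p13.trans (by linarith)) hd
  have hN : 0 ≤ NN α ρ T := intervalIntegral.integral_nonneg hT.le fun r hr =>
    mul_nonneg (mu_bd h hr).2.1 (sq_nonneg _)
  have h2 : 10 * K ^ 2 * (NN α ρ T + T * (K ^ 12 * c ^ 2)) ≤
      (1 + 10 * K ^ 16) * (NN α ρ T + c ^ 2) := by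
    have q1 : 10 * K ^ 2 * NN α ρ T ≤ (1 + 10 * K ^ 16) * NN α ρ T :=
      mul_le_mul_of_nonneg_right (by linarith) hN
    have q2 : T * (10 * K ^ 14 * c ^ 2) ≤ K * (10 * K ^ 14 * c ^ 2) :=
      mul_le_mul_of_nonneg_right h.hTK (by positivity)
    have q3 : 10 * K ^ 15 * c ^ 2 ≤ (1 + 10 * K ^ 16) * c ^ 2 :=
      mul_le_mul_of_nonneg_right (by linarith) (sq_nonneg c)
    linarith
  have h3 := mul_le_mul_of_nonneg_left h2 (inv_pos.2 ht).le
  rw [div_eq_mul_inv] at key ⊢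
  unfold EN NN at *
  linarith

end P139
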