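import Vale.Agent.P139.MADefs

/-! P139 part MA: the weighted Poincaré inequality `S_a2`. -/

open Complex Set Filter Topology MeasureTheory
open scoped ContDiff ComplexConjugate InnerProductSpace

noncomputable section
namespace P139
namespace Ma2

lemma ii {f : ℝ → ℝ} {T B : ℝ} (hT : 0 ≤ T) (hc : ContinuousOn f (Ioi 0))
    (hb : ∀ r ∈ Ioc 0 T, ‖f r‖ ≤ B) : IntervalIntegrable f volume 0 T := by
  rw [intervalIntegrable_iff_integrableOn_Ioc_of_le hT]
  exact ⟨(hc.mono Ioc_subset_Ioi_self).aestronglyMeasurable measurableSet_Ioc,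
    .restrict_of_bounded (C := B) (by simp)
      ((ae_restrict_iff' measurableSet_Ioc).2 (ae_of_all _ hb))⟩

lemma ii_sq {u : ℝ → ℂ} {T B : ℝ} (hT : 0 ≤ T) (hc : ContinuousOn u (Ioi 0))
    (hb : ∀ r ∈ Ioc 0 T, ‖u r‖ ≤ B) : IntervalIntegrable (fun r => ‖u r‖ ^ 2) volume 0 T := by
  refine ii (B := B ^ 2) hT (hc.norm.pow 2) fun r hr => ?_
  rw [Real.norm_eq_abs, abs_of_nonneg (by positivity)]
  exact pow_le_pow_left₀ (norm_nonneg _) (hb r hr) 2

lemma cont_deriv {u : ℝ → ℂ} (h : ContDiffOn ℝ 2 u (Ioi 0)) : ContinuousOn (deriv u) (Ioi 0) :=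
  h.continuousOn_deriv_of_isOpen isOpen_Ioi (by norm_num)

lemma has_deriv {u : ℝ → ℂ} (h : ContDiffOn ℝ 2 u (Ioi 0)) {r : ℝ} (hr : 0 < r) :
    HasDerivAt u (deriv u r) r :=
  ((h.differentiableOn (by norm_num)).differentiableAt (Ioi_mem_nhds hr)).hasDerivAt

end Ma2

open Ma2 in
theorem s_a2 : S_a2 := by
  intro l K
  refine ⟨max 1 (K ^ 13), le_max_left _ _, ?_⟩
  intro T R₀ Λ ε c κ lam α θ S₁ S₂ ρ lr U W h
  have hK := h.hK
  have hK0 : 0 < K := by linarith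
  have hT0 : 0 < T := by linarith [h.hR, h.hT]
  obtain ⟨B, hB⟩ := h.bd
  have cρ : Continuous ρ := continuous_iff_continuousAt.2 fun r => (h.dρ r).continuousAt
  have hρ : ∀ r ∈ Icc 0 T, 0 ≤ ρ r := fun r hr => le_trans (by positivity) (h.bρ r hr).1
  have hen : ∀ r ∈ Icc 0 T, ρ r * r ^ 11 * ‖deriv θ r‖ ^ 2 ≤ en l α θ ρ W r := by
    intro r hr
    have h1 := hρ r hr
    have h2 := (h.bρ r hr).2.2.2.2
    have h3 := hr.1
    unfold en
    have e1 : 0 ≤ ρ r * r ^ 9 * ((l : ℝ) * (l + 10)) * (‖α r‖ ^ 2 + ‖θ r‖ ^ 2) := by positivity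
    have e2 : 0 ≤ ρ r * r ^ 11 * (‖deriv α r‖ ^ 2 + W r * ‖α r‖ ^ 2) := by positivity
    nlinarith
  have hen0 : ∀ r ∈ Icc 0 T, 0 ≤ en l α θ ρ W r := fun r hr => by
    have h1 := hρ r hr
    have h3 := hr.1
    exact le_trans (by positivity) (hen r hr)
  have hE : 0 ≤ EN l α θ ρ W T := intervalIntegral.integral_nonneg hT0.le hen0
  refine ⟨hE, ?_⟩
  have ia := ii_sq hT0.le h.sα.continuousOn fun r hr => (hB r hr).1
  have ia' := ii_sq hT0.le (cont_deriv h.sα) fun r hr => (hB r hr).2.1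
  have it := ii_sq hT0.le h.sθ.continuousOn fun r hr => (hB r hr).2.2.1
  have it' := ii_sq hT0.le (cont_deriv h.sθ) fun r hr => (hB r hr).2.2.2
  have iin : IntervalIntegrable (fun r => ⟪θ r, deriv θ r⟫_ℝ) volume 0 T := by
    refine ii (B := B * B) hT0.le
      (h.sθ.continuousOn.inner (𝕜 := ℝ) (cont_deriv h.sθ)) fun r hr => ?_
    refine (norm_inner_le_norm _ _).trans ?_
    exact mul_le_mul (hB r hr).2.2.1 (hB r hr).2.2.2 (norm_nonneg _)
      ((norm_nonneg _).trans (hB r hr).1)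
  have ien : IntervalIntegrable (en l α θ ρ W) volume 0 T := by
    have c1 : Continuous fun r : ℝ => ρ r * r ^ 11 := by fun_prop
    have c2 : Continuous fun r : ℝ => ρ r * r ^ 9 * ((l : ℝ) * (l + 10)) := by fun_prop
    exact (((ia'.add it').add (ia.continuousOn_mul h.cW.continuousOn)).continuousOn_mul
      c1.continuousOn).add ((ia.add it).continuousOn_mul c2.continuousOn)
  have iN : IntervalIntegrable (fun r => ρ r * r ^ 11 * ‖θ r‖ ^ 2) volume 0 T := by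
    have c1 : Continuous fun r : ℝ => ρ r * r ^ 11 := by fun_prop
    exact it.continuousOn_mul c1.continuousOn
  set φ' : ℝ → ℝ := fun r => 12 * r ^ 11 * ‖θ r‖ ^ 2 + r ^ 12 * (2 * ⟪θ r, deriv θ r⟫_ℝ) with hφ'
  have iφ : IntervalIntegrable φ' volume 0 T := by
    have c1 : Continuous fun r : ℝ => 12 * r ^ 11 := by fun_prop
    have c2 : Continuous fun r : ℝ => r ^ 12 := by fun_prop
    exact (it.continuousOn_mul c1.continuousOn).add ((iin.const_mul 2).continuousOn_mul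
      c2.continuousOn)
  have dφ : ∀ r, 0 < r → HasDerivAt (fun r => r ^ 12 * ‖θ r‖ ^ 2) (φ' r) r := by
    intro r hr
    have h1 := (hasDerivAt_pow 12 r).mul (has_deriv h.sθ hr).norm_sq
    exact h1.congr_deriv (by simp [hφ'])
  have hF : ∫ r in (0 : ℝ)..T, φ' r = T ^ 12 * ‖θ T‖ ^ 2 - 0 := by
    refine intervalIntegral.integral_eq_sub_of_hasDerivAt_of_tendsto hT0
      (fun r hr => dφ r hr.1) iφ ?_ ((dφ T hT0).continuousAt.tendsto.mono_left nhdsWithin_le_nhds)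
    have t1 : Tendsto (fun r : ℝ => r ^ 12 * B ^ 2) (𝓝[>] 0) (𝓝 0) := by
      have : Continuous fun r : ℝ => r ^ 12 * B ^ 2 := by fun_prop
      have := this.tendsto 0
      simp only [ne_eq, OfNat.ofNat_ne_zero, not_false_eq_true, zero_pow, zero_mul] at this
      exact this.mono_left nhdsWithin_le_nhds
    refine squeeze_zero' (Eventually.of_forall fun r => by positivity) ?_ t1
    filter_upwards [Ioc_mem_nhdsGT hT0] with r hr
    exact mul_le_mul_of_nonneg_left (pow_le_pow_left₀ (norm_nonneg _) (hB r hr).2.2.1 2)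
      (by positivity)
  have hpt : ∀ r ∈ Icc 0 T, ρ r * r ^ 11 * ‖θ r‖ ^ 2 ≤ K * φ' r + K ^ 4 * en l α θ ρ W r := by
    intro r hr
    obtain ⟨b1, b2, -, -, -⟩ := h.bρ r hr
    have hr0 := hr.1
    have hrK : r ≤ K := hr.2.trans h.hTK
    have hin : -(‖θ r‖ * ‖deriv θ r‖) ≤ ⟪θ r, deriv θ r⟫_ℝ := by
      have := abs_real_inner_le_norm (θ r) (deriv θ r)
      linarith [neg_abs_le ⟪θ r, deriv θ r⟫_ℝ]
    set x := ‖θ r‖
    set y := ‖deriv θ r‖
    have p11 : 0 ≤ r ^ 11 := by positivity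
    have e1 : r ^ 11 * x ^ 2 - r ^ 13 * y ^ 2 ≤ φ' r := by
      simp only [hφ']
      have q1 : 0 ≤ r ^ 11 * (x - r * y) ^ 2 := by positivity
      have q2 : r ^ 12 * (2 * -(x * y)) ≤ r ^ 12 * (2 * ⟪θ r, deriv θ r⟫_ℝ) := by gcongr
      have q3 : 0 ≤ r ^ 11 * x ^ 2 := by positivity
      nlinarith
    have e2 : 1 ≤ K * ρ r := by
      rw [div_le_iff₀ hK0] at b1; linarith
    have e3 : r ^ 13 * y ^ 2 ≤ K ^ 3 * (ρ r * r ^ 11 * y ^ 2) := by
      have q1 : r ^ 2 ≤ K ^ 2 := pow_le_pow_left₀ hr0 hrK 2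
      have q2 : r ^ 2 * 1 ≤ K ^ 2 * (K * ρ r) := mul_le_mul q1 e2 zero_le_one (by positivity)
      have q3 : 0 ≤ r ^ 11 * y ^ 2 := by positivity
      calc r ^ 13 * y ^ 2 = r ^ 2 * 1 * (r ^ 11 * y ^ 2) := by ring
        _ ≤ K ^ 2 * (K * ρ r) * (r ^ 11 * y ^ 2) := by gcongr
        _ = _ := by ring
    have e4 := hen r hr
    calc ρ r * r ^ 11 * x ^ 2 = ρ r * (r ^ 11 * x ^ 2) := by ring
      _ ≤ K * (r ^ 11 * x ^ 2) := by gcongr
      _ ≤ K * (φ' r + K ^ 3 * en l α θ ρ W r) := by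
        gcongr
        have : K ^ 3 * (ρ r * r ^ 11 * y ^ 2) ≤ K ^ 3 * en l α θ ρ W r := by gcongr
        linarith
      _ = _ := by ring
  have hI := intervalIntegral.integral_mono_on hT0.le iN
    ((iφ.const_mul K).add (ien.const_mul (K ^ 4))) hpt
  rw [intervalIntegral.integral_add (iφ.const_mul K) (ien.const_mul (K ^ 4)),
    intervalIntegral.integral_const_mul, intervalIntegral.integral_const_mul, hF] at hI
  have hd : ‖θ T‖ ^ 2 ≤ dat α θ T := by
    unfold dat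
    nlinarith [sq_nonneg ‖α T‖, sq_nonneg ‖deriv α T‖, sq_nonneg ‖deriv θ T‖]
  have hT12 : T ^ 12 ≤ K ^ 12 := pow_le_pow_left₀ hT0.le h.hTK 12
  have hK4 : K ^ 4 ≤ K ^ 13 := pow_le_pow_right₀ hK (by norm_num)
  have hm : K ^ 13 ≤ max 1 (K ^ 13) := le_max_right _ _
  calc NN θ ρ T ≤ K * (T ^ 12 * ‖θ T‖ ^ 2 - 0) + K ^ 4 * EN l α θ ρ W T := hI
    _ ≤ K * (K ^ 12 * dat α θ T - 0) + K ^ 13 * EN l α θ ρ W T := by gcongr
    _ = K ^ 13 * (EN l α θ ρ W T + dat α θ T) := by ring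
    _ ≤ _ := by
      have : 0 ≤ dat α θ T := le_trans (by positivity) hd
      gcongr

end P139
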