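import Vale.Agent.P139.MADefs

/-! P139 part MA: `α` is small. -/

open Complex Set Filter Topology MeasureTheory
open scoped ContDiff ComplexConjugate

noncomputable section
namespace P139

namespace Ma3

/-- continuous and bounded on `(0, T]` -/
def BC (T : ℝ) (f : ℝ → ℝ) : Prop := ContinuousOn f (Ioc 0 T) ∧ ∃ B, ∀ r ∈ Ioc 0 T, ‖f r‖ ≤ B

variable {T : ℝ} {f g : ℝ → ℝ}

theorem BC.add (hf : BC T f) (hg : BC T g) : BC T fun r => f r + g r := by
  obtain ⟨h1, B, h2⟩ := hf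
  obtain ⟨h3, B', h4⟩ := hg
  exact ⟨h1.add h3, B + B', fun r hr => (norm_add_le _ _).trans (add_le_add (h2 r hr) (h4 r hr))⟩

theorem BC.mul (hf : BC T f) (hg : BC T g) : BC T fun r => f r * g r := by
  obtain ⟨h1, B, h2⟩ := hf
  obtain ⟨h3, B', h4⟩ := hg
  exact ⟨h1.mul h3, B * B', fun r hr => (norm_mul_le _ _).trans
    (mul_le_mul (h2 r hr) (h4 r hr) (norm_nonneg _) ((norm_nonneg _).trans (h2 r hr)))⟩

theorem BC.of_cont (hf : Continuous f) : BC T f := by
  obtain ⟨B, hB⟩ := (isCompact_Icc (a := (0 : ℝ)) (b := T)).exists_bound_of_continuousOn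
    hf.continuousOn
  exact ⟨hf.continuousOn, B, fun r hr => hB r (Ioc_subset_Icc_self hr)⟩

theorem BC.nsq {u : ℝ → ℂ} (hu : ContinuousOn u (Ioi 0)) {B : ℝ}
    (hB : ∀ r ∈ Ioc 0 T, ‖u r‖ ≤ B) : BC T fun r => ‖u r‖ ^ 2 := by
  have h : BC T fun r => ‖u r‖ :=
    ⟨(hu.mono Ioc_subset_Ioi_self).norm, B, fun r hr => by rw [norm_norm]; exact hB r hr⟩
  simpa only [pow_two] using h.mul h

theorem BC.ii (hf : BC T f) (hT : 0 ≤ T) : IntervalIntegrable f volume 0 T := by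
  obtain ⟨h1, B, h2⟩ := hf
  rw [intervalIntegrable_iff_integrableOn_Ioc_of_le hT]
  exact Integrable.of_bound (h1.aestronglyMeasurable measurableSet_Ioc) B
    ((ae_restrict_iff' measurableSet_Ioc).2 (Eventually.of_forall h2))

theorem cs {u : ℝ → ℝ} {x y : ℝ} (hxy : x < y) (hu : ContinuousOn u (Icc x y)) :
    (∫ s in x..y, u s) ^ 2 ≤ (y - x) * ∫ s in x..y, u s ^ 2 := by
  have h1 := hu.intervalIntegrable_of_Icc (μ := volume) hxy.le
  have h2 := (hu.pow 2).intervalIntegrable_of_Icc (μ := volume) hxy.le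
  set m := ∫ s in x..y, u s with hm
  have h3 : ∫ s in x..y, (2 * m * (y - x) * u s - m ^ 2) ≤ ∫ s in x..y, (y - x) ^ 2 * u s ^ 2 :=
    intervalIntegral.integral_mono_on hxy.le ((h1.const_mul _).sub intervalIntegrable_const)
      (h2.const_mul _) fun s _ => by nlinarith [sq_nonneg ((y - x) * u s - m)]
  rw [intervalIntegral.integral_sub (h1.const_mul _) intervalIntegrable_const,
    intervalIntegral.integral_const_mul, intervalIntegral.integral_const_mul,
    intervalIntegral.integral_const, smul_eq_mul, ← hm] at h3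
  refine le_of_mul_le_mul_left ?_ (sub_pos.2 hxy)
  linarith

theorem osc {α : ℝ → ℂ} (hα : ContDiffOn ℝ 2 α (Ioi 0)) {a b x y : ℝ} (ha : 0 < a) (hab : a < b)
    (hx : a ≤ x) (hxy : x ≤ y) (hy : y ≤ b) :
    ‖α y‖ ^ 2 ≤ 2 * ‖α x‖ ^ 2 + 2 * ((b - a) * ∫ s in a..b, ‖deriv α s‖ ^ 2) := by
  have hc : ContinuousOn (deriv α) (Icc a b) :=
    (hα.continuousOn_deriv_of_isOpen isOpen_Ioi (by norm_num)).mono fun s hs => ha.trans_le hs.1
  have h1 : ∫ s in x..y, deriv α s = α y - α x := by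
    refine intervalIntegral.integral_eq_sub_of_hasDerivAt (fun s hs => ?_)
      ((hc.mono (Icc_subset_Icc hx hy)).intervalIntegrable_of_Icc hxy)
    rw [uIcc_of_le hxy] at hs
    exact ((hα.contDiffAt (Ioi_mem_nhds (ha.trans_le (hx.trans hs.1)))).differentiableAt
      (by norm_num)).hasDerivAt
  have h2 : ‖α y - α x‖ ≤ ∫ s in a..b, ‖deriv α s‖ := by
    rw [← h1]
    exact (intervalIntegral.norm_integral_le_integral_norm hxy).trans
      (intervalIntegral.integral_mono_interval hx hxy hy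
        (Eventually.of_forall fun _ => norm_nonneg _) (hc.norm.intervalIntegrable_of_Icc hab.le))
  have h3 := (pow_le_pow_left₀ (norm_nonneg _) h2 2).trans (cs hab hc.norm)
  have h4 : ‖α y‖ ≤ ‖α x‖ + ‖α y - α x‖ := by
    simpa only [add_sub_cancel] using norm_add_le (α x) (α y - α x)
  have h5 := pow_le_pow_left₀ (norm_nonneg _) h4 2
  nlinarith [sq_nonneg (‖α x‖ - ‖α y - α x‖)]

end Ma3

open Ma3 in
theorem s_a3 : S_a3 := by
  intro l K
  refine ⟨1 + 2 ^ 13 * K ^ 14, le_add_of_nonneg_right (by positivity), ?_⟩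
  intro T R₀ Λ ε c κ lam α θ S₁ S₂ ρ lr U W h
  obtain ⟨B, hB⟩ := h.bd
  have hK := h.hK
  have hR := h.hR
  have hT := h.hT
  have hτ := h.hτ
  have hΛ := h.hΛ
  have hT0 : 0 ≤ T := by linarith
  have cρ : Continuous ρ := continuous_iff_continuousAt.2 fun r => (h.dρ r).continuousAt
  have cα := h.sα.continuousOn
  have cα' := h.sα.continuousOn_deriv_of_isOpen isOpen_Ioi (by norm_num)
  have b0 : BC T fun r => ‖α r‖ ^ 2 := BC.nsq cα fun r hr => (hB r hr).1
  have b1 : BC T fun r => ρ r * r ^ 11 := BC.of_cont (cρ.mul (continuous_pow 11))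
  have hen : IntervalIntegrable (en l α θ ρ W) volume 0 T :=
    ((b1.mul (((BC.nsq cα' fun r hr => (hB r hr).2.1).add
      (BC.nsq (h.sθ.continuousOn_deriv_of_isOpen isOpen_Ioi (by norm_num))
        fun r hr => (hB r hr).2.2.2)).add ((BC.of_cont h.cW).mul b0))).add
      ((BC.of_cont ((cρ.mul (continuous_pow 9)).mul continuous_const)).mul
        (b0.add (BC.nsq h.sθ.continuousOn fun r hr => (hB r hr).2.2.1)))).ii hT0
  have hnn := (b1.mul b0).ii hT0
  have hρ0 : ∀ r ∈ Icc 0 T, 0 ≤ ρ r := fun r hr => le_trans (by positivity) (h.bρ r hr).1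
  have e1 : ∀ r ∈ Icc 0 T,
      ρ r * r ^ 11 * (‖deriv α r‖ ^ 2 + W r * ‖α r‖ ^ 2) ≤ en l α θ ρ W r := by
    intro r hr
    have h1 := hρ0 r hr
    have h2 := hr.1
    have h3 : 0 ≤ ρ r * r ^ 11 * ‖deriv θ r‖ ^ 2 := by positivity
    have h4 : 0 ≤ ρ r * r ^ 9 * ((l : ℝ) * (l + 10)) * (‖α r‖ ^ 2 + ‖θ r‖ ^ 2) := by positivity
    rw [en]
    linarith
  have e0 : ∀ r ∈ Icc 0 T, 0 ≤ en l α θ ρ W r := fun r hr => by
    have h1 := hρ0 r hr
    have h2 := hr.1
    have h3 := (h.bρ r hr).2.2.2.2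
    exact le_trans (by positivity) (e1 r hr)
  have esub : ∀ x y, 0 ≤ x → x ≤ y → y ≤ T → ∫ r in x..y, en l α θ ρ W r ≤ EN l α θ ρ W T :=
    fun x y hx hxy hy => intervalIntegral.integral_mono_interval hx hxy hy
      ((ae_restrict_iff' measurableSet_Ioc).2 (Eventually.of_forall fun r hr =>
        e0 r (Ioc_subset_Icc_self hr))) hen
  have isub : ∀ {f : ℝ → ℝ}, IntervalIntegrable f volume 0 T → ∀ x y, 0 ≤ x → x ≤ y → y ≤ T →
      IntervalIntegrable f volume x y := fun hf x y hx hxy hy => hf.mono_set (by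
    rw [uIcc_of_le hxy, uIcc_of_le hT0]
    exact Icc_subset_Icc hx hy)
  have hE : 0 ≤ EN l α θ ρ W T := intervalIntegral.integral_nonneg hT0 e0
  generalize EN l α θ ρ W T = E at esub hE ⊢
  obtain ⟨τ, hτ'⟩ : ∃ τ, τ = T - R₀ := ⟨_, rfl⟩
  rw [← hτ'] at hτ ⊢
  have hτ0 : 0 < τ := by linarith
  have ha : 1 / 2 ≤ R₀ - τ := by linarith
  have hμ : ∀ r ∈ Icc (R₀ - τ) T, 1 ≤ 2 ^ 11 * K * (ρ r * r ^ 11) := by
    intro r hr
    have h1 := (h.bρ r ⟨by linarith [hr.1], hr.2⟩).1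
    have h2 : (1 / 2 : ℝ) ^ 11 ≤ r ^ 11 := pow_le_pow_left₀ (by norm_num) (ha.trans hr.1) 11
    rw [div_le_iff₀ (by linarith)] at h1
    calc (1 : ℝ) = 2 ^ 11 * (1 * (1 / 2) ^ 11) := by norm_num
      _ ≤ 2 ^ 11 * (ρ r * K * r ^ 11) := by gcongr
      _ = _ := by ring
  have i1 : ∫ s in (R₀ - τ)..T, ‖deriv α s‖ ^ 2 ≤ 2 ^ 11 * K * E := by
    refine le_trans ?_ (mul_le_mul_of_nonneg_left (esub (R₀ - τ) T (by linarith) (by linarith)
      le_rfl) (by positivity))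
    rw [← intervalIntegral.integral_const_mul]
    refine intervalIntegral.integral_mono_on (by linarith)
      (isub ((BC.nsq cα' fun r hr => (hB r hr).2.1).ii hT0) _ _ (by linarith) (by linarith) le_rfl)
      ((isub hen _ _ (by linarith) (by linarith) le_rfl).const_mul _) fun r hr => ?_
    have hr' : r ∈ Icc 0 T := ⟨by linarith [hr.1], hr.2⟩
    have h1 := mul_le_mul_of_nonneg_left (e1 r hr') (by positivity : 0 ≤ 2 ^ 11 * K)
    have h2 := (h.bρ r hr').2.2.2.2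
    have h3 := mul_le_mul_of_nonneg_right (hμ r hr)
      (by positivity : 0 ≤ ‖deriv α r‖ ^ 2 + W r * ‖α r‖ ^ 2)
    have h4 : 0 ≤ W r * ‖α r‖ ^ 2 := by positivity
    linarith
  have e2 : ∀ r ∈ Icc 0 R₀, Λ * (ρ r * r ^ 11 * ‖α r‖ ^ 2) ≤ en l α θ ρ W r := by
    intro r hr
    have hr' : r ∈ Icc 0 T := ⟨hr.1, by linarith [hr.2]⟩
    rcases hr.1.eq_or_lt with rfl | h0
    · simpa using e0 0 hr'
    refine le_trans ?_ (e1 r hr')
    have h1 := hρ0 r hr'
    have h2 := mul_le_mul_of_nonneg_right (h.inner r ⟨h0, hr.2⟩).1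
      (by positivity : 0 ≤ ρ r * r ^ 11 * ‖α r‖ ^ 2)
    have h3 : 0 ≤ ρ r * r ^ 11 * ‖deriv α r‖ ^ 2 := by positivity
    linarith
  have i2 : Λ * ∫ s in (R₀ - τ)..R₀, ‖α s‖ ^ 2 ≤ 2 ^ 11 * K * E := by
    refine le_trans ?_ (mul_le_mul_of_nonneg_left (esub (R₀ - τ) R₀ (by linarith) (by linarith)
      hT.le) (by positivity))
    rw [← intervalIntegral.integral_const_mul, ← intervalIntegral.integral_const_mul]
    refine intervalIntegral.integral_mono_on (by linarith)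
      ((isub (b0.ii hT0) _ _ (by linarith) (by linarith) hT.le).const_mul _)
      ((isub hen _ _ (by linarith) (by linarith) hT.le).const_mul _) fun r hr => ?_
    have h1 := mul_le_mul_of_nonneg_left (e2 r ⟨by linarith [hr.1], hr.2⟩)
      (by positivity : 0 ≤ 2 ^ 11 * K)
    have h3 := mul_le_mul_of_nonneg_right (hμ r ⟨hr.1, by linarith [hr.2]⟩)
      (by positivity : 0 ≤ Λ * ‖α r‖ ^ 2)
    linarith
  have hd : 0 < 1 / (Λ * τ) := by positivity
  have s1 : ∀ y ∈ Icc R₀ T, ‖α y‖ ^ 2 ≤ 2 ^ 13 * K * ((τ + 1 / (Λ * τ)) * E) := by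
    intro y hy
    have h1 : ∫ _ in (R₀ - τ)..R₀, (‖α y‖ ^ 2 - 2 ^ 13 * K * (τ * E)) ≤
        ∫ s in (R₀ - τ)..R₀, 2 * ‖α s‖ ^ 2 := by
      refine intervalIntegral.integral_mono_on (by linarith) intervalIntegrable_const
        ((isub (b0.ii hT0) _ _ (by linarith) (by linarith) hT.le).const_mul _) fun x hx => ?_
      have h2 := osc h.sα (a := R₀ - τ) (b := T) (by linarith) (by linarith) hx.1
        (hx.2.trans hy.1) hy.2
      rw [show T - (R₀ - τ) = 2 * τ by linarith] at h2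
      have h3 := mul_le_mul_of_nonneg_left i1 hτ0.le
      linarith
    rw [intervalIntegral.integral_const, intervalIntegral.integral_const_mul, sub_sub_cancel,
      smul_eq_mul] at h1
    have h2 := mul_le_mul_of_nonneg_left h1 hΛ.le
    have h3 : ‖α y‖ ^ 2 - 2 ^ 13 * K * (τ * E) ≤ 2 ^ 13 * K * E * (1 / (Λ * τ)) := by
      rw [mul_one_div, le_div_iff₀ (by positivity)]
      have h4 : 0 ≤ K * E := by positivity
      linarith
    linarith
  have hX : 0 ≤ (τ + 1 / (Λ * τ)) * E := by positivity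
  have hK13 : K ^ 13 ≤ K ^ 14 := pow_le_pow_right₀ hK (by norm_num)
  have hK1 : K ≤ K ^ 14 := le_self_pow₀ hK (by norm_num)
  constructor
  · have h1 := mul_le_mul_of_nonneg_right hK1 hX
    have h2 := s1 T ⟨hT.le, le_rfl⟩
    linarith
  have i3 : Λ * ∫ r in (0 : ℝ)..R₀, ρ r * r ^ 11 * ‖α r‖ ^ 2 ≤ E := by
    refine le_trans ?_ (esub 0 R₀ le_rfl (by linarith) hT.le)
    rw [← intervalIntegral.integral_const_mul]
    exact intervalIntegral.integral_mono_on (by linarith)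
      ((isub hnn _ _ le_rfl (by linarith) hT.le).const_mul _)
      (isub hen _ _ le_rfl (by linarith) hT.le) e2
  have i4 : ∫ r in (0 : ℝ)..R₀, ρ r * r ^ 11 * ‖α r‖ ^ 2 ≤ 1 / (Λ * τ) * E := by
    rw [div_mul_eq_mul_div, le_div_iff₀ (by positivity)]
    have h1 := mul_le_mul_of_nonneg_left i3 hτ0.le
    have h2 := mul_le_mul_of_nonneg_right (by linarith : τ ≤ 1) hE
    linarith
  have i5 : ∫ r in R₀..T, ρ r * r ^ 11 * ‖α r‖ ^ 2 ≤
      ∫ _ in R₀..T, K * K ^ 11 * (2 ^ 13 * K * ((τ + 1 / (Λ * τ)) * E)) := by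
    refine intervalIntegral.integral_mono_on hT.le (isub hnn _ _ (by linarith) hT.le le_rfl)
      intervalIntegrable_const fun r hr => ?_
    have hr0 : 0 ≤ r := by linarith [hr.1]
    have h1 := (h.bρ r ⟨hr0, hr.2⟩).2.1
    have h2 := hr.2.trans h.hTK
    have h3 := s1 r hr
    gcongr
  rw [intervalIntegral.integral_const, ← hτ', smul_eq_mul] at i5
  rw [NN, ← intervalIntegral.integral_add_adjacent_intervals
    (isub hnn 0 R₀ le_rfl (by linarith) hT.le) (isub hnn R₀ T (by linarith) hT.le le_rfl)]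
  have h1 := mul_le_mul_of_nonneg_right hK13 hX
  have h2 := mul_le_mul_of_nonneg_right (by linarith : τ ≤ 1)
    (by positivity : 0 ≤ K * K ^ 11 * (2 ^ 13 * K * ((τ + 1 / (Λ * τ)) * E)))
  have h3 : 0 ≤ τ * E := by positivity
  linarith

end P139
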