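import Vale.Agent.P139.MADefs

/-! P139 part MA: the Wronskian with `r^l`. -/

open Complex Set Filter Topology MeasureTheory
open scoped ContDiff ComplexConjugate

noncomputable section
namespace P139
namespace Ma4

/-- continuous on `(0,∞)` and bounded on `(0,T]` -/
def CB {F : Type} [NormedRing F] (T : ℝ) (f : ℝ → F) : Prop :=
  ContinuousOn f (Ioi 0) ∧ ∃ B : ℝ, 0 ≤ B ∧ ∀ r ∈ Ioc 0 T, ‖f r‖ ≤ B

section cb
variable {F : Type} [NormedRing F] {T : ℝ} {f g : ℝ → F}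

theorem CB.of (hc : ContinuousOn f (Ioi 0)) {B : ℝ} (h : ∀ r ∈ Ioc 0 T, ‖f r‖ ≤ B) : CB T f :=
  ⟨hc, |B|, abs_nonneg _, fun r hr => (h r hr).trans (le_abs_self _)⟩

theorem CB.cont (hc : Continuous f) : CB T f := by
  obtain ⟨B, hB⟩ := (isCompact_Icc (a := (0 : ℝ)) (b := T)).exists_bound_of_continuousOn
    hc.continuousOn
  exact CB.of hc.continuousOn fun r hr => hB r (Ioc_subset_Icc_self hr)

theorem CB.add (hf : CB T f) (hg : CB T g) : CB T fun r => f r + g r := by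
  obtain ⟨h1, B, _, h⟩ := hf
  obtain ⟨h2, B', _, h'⟩ := hg
  exact CB.of (h1.add h2) fun r hr => (norm_add_le _ _).trans (add_le_add (h r hr) (h' r hr))

theorem CB.sub (hf : CB T f) (hg : CB T g) : CB T fun r => f r - g r := by
  obtain ⟨h1, B, _, h⟩ := hf
  obtain ⟨h2, B', _, h'⟩ := hg
  exact CB.of (h1.sub h2) fun r hr => (norm_sub_le _ _).trans (add_le_add (h r hr) (h' r hr))

theorem CB.mul (hf : CB T f) (hg : CB T g) : CB T fun r => f r * g r := by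
  obtain ⟨h1, B, hB, h⟩ := hf
  obtain ⟨h2, B', _, h'⟩ := hg
  exact CB.of (h1.mul h2) fun r hr =>
    (norm_mul_le _ _).trans (mul_le_mul (h r hr) (h' r hr) (norm_nonneg _) hB)

theorem CB.nsq (hf : CB T f) : CB T fun r => ‖f r‖ ^ 2 := by
  obtain ⟨h1, B, _, h⟩ := hf
  refine CB.of (h1.norm.pow 2) (B := B ^ 2) fun r hr => ?_
  rw [norm_pow, norm_norm]
  exact pow_le_pow_left₀ (norm_nonneg _) (h r hr) 2

theorem CB.ii [NormedSpace ℝ F] (hf : CB T f) {a b : ℝ} (ha : 0 ≤ a) (hab : a ≤ b) (hb : b ≤ T) :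
    IntervalIntegrable f volume a b := by
  obtain ⟨h1, B, _, h⟩ := hf
  rw [intervalIntegrable_iff_integrableOn_Ioc_of_le hab]
  have hs : Ioc a b ⊆ Ioi 0 := fun r hr => ha.trans_lt hr.1
  refine IntegrableOn.of_bound measure_Ioc_lt_top
    ((h1.mono hs).aestronglyMeasurable measurableSet_Ioc) B ?_
  filter_upwards [ae_restrict_mem measurableSet_Ioc] with r hr
  exact h r ⟨hs hr, hr.2.trans hb⟩

end cb

theorem young {x A B : ℝ} (hx : 0 ≤ x) (hA : 0 < A)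
    (h : ∀ s : ℝ, 0 < s → x ≤ A * (s / 2) + B / (2 * s)) (hB : 0 ≤ B) : x ^ 2 ≤ A * B := by
  rcases hx.eq_or_lt with h0 | h0
  · rw [← h0]
    simpa using mul_nonneg hA.le hB
  · have h1 := h (x / A) (div_pos h0 hA)
    have e1 : A * (x / A / 2) = x / 2 := by field_simp
    have e2 : B / (2 * (x / A)) = A * B / (2 * x) := by field_simp
    rw [e1, e2] at h1
    have h2 : x / 2 ≤ A * B / (2 * x) := by linarith
    rw [le_div_iff₀ (by positivity)] at h2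
    nlinarith

/-- Cauchy-Schwarz with the constant function -/
theorem cs {g : ℝ → ℂ} {h : ℝ → ℝ} {a b T : ℝ} (ha : 0 ≤ a) (hab : a < b) (hb : b ≤ T)
    (hh : CB T h) (h0 : ∀ r ∈ Ioc 0 T, 0 ≤ h r) (hg : ∀ r ∈ Ioc a b, ‖g r‖ ^ 2 ≤ h r) :
    ‖∫ r in a..b, g r‖ ^ 2 ≤ (b - a) * ∫ r in (0 : ℝ)..T, h r := by
  have hT : (0 : ℝ) ≤ T := (ha.trans hab.le).trans hb
  have hnn : 0 ≤ᵐ[volume.restrict (Ioc 0 T)] h := by
    filter_upwards [ae_restrict_mem measurableSet_Ioc] with r hr using h0 r hr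
  have hmono : ∫ r in a..b, h r ≤ ∫ r in (0 : ℝ)..T, h r :=
    intervalIntegral.integral_mono_interval ha hab.le hb hnn (hh.ii le_rfl hT le_rfl)
  have hpos : 0 ≤ ∫ r in (0 : ℝ)..T, h r := by
    rw [intervalIntegral.integral_of_le hT]
    exact integral_nonneg_of_ae hnn
  refine young (norm_nonneg _) (sub_pos.2 hab) (fun s hs => ?_) hpos
  have hi := hh.ii ha hab.le hb
  have h1 := intervalIntegral.norm_integral_le_of_norm_le (f := g) (μ := volume)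
    (g := fun r => s / 2 + h r / (2 * s)) hab.le (ae_of_all _ fun r hr => by
      have h2 := hg r hr
      have e : s / 2 + h r / (2 * s) = (s ^ 2 + h r) / (2 * s) := by field_simp
      show ‖g r‖ ≤ s / 2 + h r / (2 * s)
      rw [e, le_div_iff₀ (by positivity)]
      nlinarith [sq_nonneg (‖g r‖ - s)]) (intervalIntegrable_const.add (hi.div_const _))
  rw [intervalIntegral.integral_add intervalIntegrable_const (hi.div_const _),
    intervalIntegral.integral_const, intervalIntegral.integral_div, smul_eq_mul] at h1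
  refine h1.trans (add_le_add le_rfl ?_)
  gcongr

variable {l : ℕ} {K T R₀ Λ ε c κ : ℝ} {lam : ℂ} {α θ S₁ S₂ : ℝ → ℂ} {ρ lr U W : ℝ → ℝ}

/-- the Wronskian -/
def GG (l : ℕ) (α θ : ℝ → ℂ) (ρ U : ℝ → ℝ) (r : ℝ) : ℂ :=
  (ρ r : ℂ) * (r : ℂ) ^ (l + 11) * deriv θ r - l * ((ρ r : ℂ) * (r : ℂ) ^ (l + 10) * θ r)
    + ((ρ r * r ^ 11 * U r : ℝ) : ℂ) * (r : ℂ) ^ l * α r

/-- its derivative -/
def GD (l : ℕ) (κ : ℝ) (lam : ℂ) (α θ S₁ : ℝ → ℂ) (ρ lr U : ℝ → ℝ) (r : ℝ) : ℂ :=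
  (ρ r : ℂ) * (r : ℂ) ^ (l + 11) * ((2 * κ - lam) * α r) + l * ((ρ r : ℂ) * U r * (r : ℂ) ^ (l + 10) * α r)
    - (ρ r : ℂ) * (r : ℂ) ^ (l + 11) * S₁ r - l * ((ρ r : ℂ) * lr r * (r : ℂ) ^ (l + 10) * θ r)

theorem c2 {u : ℝ → ℂ} (h : ContDiffOn ℝ 2 u (Ioi 0)) :
    ContDiffOn ℝ 1 (deriv u) (Ioi 0) :=
  h.deriv_of_isOpen isOpen_Ioi (by norm_num)

theorem hd {u : ℝ → ℂ} {n : WithTop ℕ∞} (h : ContDiffOn ℝ n u (Ioi 0)) (hn : n ≠ 0) {r : ℝ}
    (hr : 0 < r) : HasDerivAt u (deriv u r) r :=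
  ((h.differentiableOn hn).differentiableAt (Ioi_mem_nhds hr)).hasDerivAt

theorem hpow (n : ℕ) (r : ℝ) :
    HasDerivAt (fun x : ℝ => (x : ℂ) ^ n) ((n : ℂ) * (r : ℂ) ^ (n - 1)) r :=
  (hasDerivAt_pow n (r : ℂ)).comp_ofReal

theorem hasDeriv (h : HydA l K T R₀ Λ ε c κ lam α θ S₁ S₂ ρ lr U W) {r : ℝ} (hr : 0 < r) :
    HasDerivAt (GG l α θ ρ U) (GD l κ lam α θ S₁ ρ lr U r) r := by
  have d1 := (h.dρ r).ofReal_comp
  have d2 := (h.dU r).ofReal_comp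
  have d3 := hd h.sα (by norm_num) hr
  have d4 := hd h.sθ (by norm_num) hr
  have d5 := hd (c2 h.sθ) (by norm_num) hr
  have hD := (((d1.fun_mul (hpow (l + 11) r)).fun_mul d5).fun_sub
    (((d1.fun_mul (hpow (l + 10) r)).fun_mul d4).const_mul (l : ℂ))).fun_add
    ((d2.fun_mul (hpow l r)).fun_mul d3)
  refine hD.congr_deriv ?_
  have hr' : (r : ℂ) ≠ 0 := by exact_mod_cast hr.ne'
  have e1 := h.e₁ r hr
  have e2 : deriv (deriv θ) r = -(lam * α r) - U r * deriv α r - S₁ r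
      - (11 / (r : ℂ) + lr r) * deriv θ r + (l : ℂ) * ((l : ℂ) + 10) / (r : ℂ) ^ 2 * θ r := by
    unfold DD at e1
    linear_combination e1
  have e3 : (l : ℂ) * (r : ℂ) ^ (l - 1) = l * (r : ℂ) ^ l / r := by
    cases l with
    | zero => simp
    | succ k => rw [Nat.add_sub_cancel, pow_succ]; field_simp
  rw [e2, e3, show l + 11 - 1 = l + 10 from rfl, show l + 10 - 1 = l + 9 from rfl]
  unfold GD
  push_cast
  field_simp
  ring

theorem cρ (h : HydA l K T R₀ Λ ε c κ lam α θ S₁ S₂ ρ lr U W) : Continuous ρ :=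
  continuous_iff_continuousAt.2 fun r => (h.dρ r).continuousAt

theorem cbs (h : HydA l K T R₀ Λ ε c κ lam α θ S₁ S₂ ρ lr U W) :
    CB T α ∧ CB T (deriv α) ∧ CB T θ ∧ CB T (deriv θ) ∧ CB T S₁ := by
  obtain ⟨B, hB⟩ := h.bd
  exact ⟨CB.of h.sα.continuousOn fun r hr => (hB r hr).1,
    CB.of (c2 h.sα).continuousOn fun r hr => (hB r hr).2.1,
    CB.of h.sθ.continuousOn fun r hr => (hB r hr).2.2.1,
    CB.of (c2 h.sθ).continuousOn fun r hr => (hB r hr).2.2.2,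
    CB.of h.cS₁ fun r hr => (h.bS r hr).1⟩

theorem cbGD (h : HydA l K T R₀ Λ ε c κ lam α θ S₁ S₂ ρ lr U W) :
    CB T (GD l κ lam α θ S₁ ρ lr U) := by
  obtain ⟨a1, -, a3, -, a5⟩ := cbs h
  have := cρ h
  have := h.clr
  have := h.cU
  exact ((((CB.cont (by fun_prop)).mul ((CB.cont (by fun_prop)).mul a1)).add
    ((CB.cont (by fun_prop)).mul ((CB.cont (by fun_prop)).mul a1))).sub
    ((CB.cont (by fun_prop)).mul a5)).sub
    ((CB.cont (by fun_prop)).mul ((CB.cont (by fun_prop)).mul a3))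

theorem cbN (h : HydA l K T R₀ Λ ε c κ lam α θ S₁ S₂ ρ lr U W) :
    CB T fun r => ρ r * r ^ 11 * ‖α r‖ ^ 2 := by
  have := cρ h
  exact (CB.cont (by fun_prop)).mul (cbs h).1.nsq

theorem cbE (h : HydA l K T R₀ Λ ε c κ lam α θ S₁ S₂ ρ lr U W) : CB T (en l α θ ρ W) := by
  obtain ⟨a1, a2, a3, a4, -⟩ := cbs h
  have := cρ h
  exact ((CB.cont (by fun_prop)).mul ((a2.nsq.add a4.nsq).add ((CB.cont h.cW).mul a1.nsq))).add
    ((CB.cont (by fun_prop)).mul (a1.nsq.add a3.nsq))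

theorem lim0 (h : HydA l K T R₀ Λ ε c κ lam α θ S₁ S₂ ρ lr U W) :
    Tendsto (GG l α θ ρ U) (𝓝[>] 0) (𝓝 0) := by
  obtain ⟨a1, -, a3, a4, -⟩ := cbs h
  have := cρ h
  have := h.cU
  have hT : 0 < T := by linarith [h.hR, h.hT]
  obtain ⟨-, B, -, hB⟩ : CB T fun r : ℝ => (ρ r : ℂ) * (r : ℂ) ^ (l + 10) * deriv θ r
      - l * ((ρ r : ℂ) * (r : ℂ) ^ (l + 9) * θ r)
      + ((ρ r * r ^ 10 * U r : ℝ) : ℂ) * (r : ℂ) ^ l * α r :=
    (((CB.cont (by fun_prop)).mul a4).sub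
      ((CB.cont (by fun_prop)).mul ((CB.cont (by fun_prop)).mul a3))).add
      ((CB.cont (by fun_prop)).mul a1)
  refine squeeze_zero_norm' (a := fun r => r * B) ?_ ?_
  · filter_upwards [Ioc_mem_nhdsGT hT] with r hr
    refine le_trans (le_of_eq ?_) (mul_le_mul_of_nonneg_left (hB r hr) hr.1.le)
    rw [← Complex.norm_of_nonneg hr.1.le, ← norm_mul]
    simp only [Complex.norm_of_nonneg hr.1.le]
    congr 1
    unfold GG
    push_cast
    ring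
  · have : Tendsto (fun r : ℝ => r * B) (𝓝 0) (𝓝 (0 * B)) := tendsto_id.mul_const B
    rw [zero_mul] at this
    exact this.mono_left nhdsWithin_le_nhds

theorem ftc (h : HydA l K T R₀ Λ ε c κ lam α θ S₁ S₂ ρ lr U W) :
    GG l α θ ρ U T = (∫ r in (0 : ℝ)..R₀, GD l κ lam α θ S₁ ρ lr U r) +
      ∫ r in R₀..T, GD l κ lam α θ S₁ ρ lr U r := by
  have hR : 0 < R₀ := by linarith [h.hR]
  have hT : 0 < T := by linarith [h.hT]
  rw [intervalIntegral.integral_add_adjacent_intervals ((cbGD h).ii le_rfl hR.le h.hT.le)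
    ((cbGD h).ii hR.le h.hT.le le_rfl),
    intervalIntegral.integral_eq_sub_of_hasDerivAt_of_tendsto hT (fun r hr => hasDeriv h hr.1)
      ((cbGD h).ii le_rfl hT.le le_rfl) (lim0 h)
      ((hasDeriv h hT).continuousAt.tendsto.mono_left nhdsWithin_le_nhds), sub_zero]

/-- the constant -/
def MM (l : ℕ) (K : ℝ) : ℝ := (3 + l) * K ^ 12 * K ^ l

theorem three {x a b d : ℝ} (hx : 0 ≤ x) (h : x ≤ a + b + d) : x ^ 2 ≤ 3 * (a ^ 2 + b ^ 2 + d ^ 2) := by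
  have := pow_le_pow_left₀ hx h 2
  nlinarith [sq_nonneg (a - b), sq_nonneg (a - d), sq_nonneg (b - d)]

theorem en_ge (h : HydA l K T R₀ Λ ε c κ lam α θ S₁ S₂ ρ lr U W) {r : ℝ} (hr : r ∈ Ioc 0 T) :
    ρ r * r ^ 9 * ((l : ℝ) * (l + 10)) * ‖θ r‖ ^ 2 ≤ en l α θ ρ W r := by
  obtain ⟨b1, -, -, -, b5⟩ := h.bρ r (Ioc_subset_Icc_self hr)
  have hK := h.hK
  have hρ : 0 ≤ ρ r := le_trans (by positivity) b1
  have hr0 := hr.1
  unfold en
  have h1 : 0 ≤ ρ r * r ^ 11 * (‖deriv α r‖ ^ 2 + ‖deriv θ r‖ ^ 2 + W r * ‖α r‖ ^ 2) := by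
    positivity
  have h2 : 0 ≤ ρ r * r ^ 9 * ((l : ℝ) * (l + 10)) * ‖α r‖ ^ 2 := by positivity
  linarith

theorem pt (h : HydA l K T R₀ Λ ε c κ lam α θ S₁ S₂ ρ lr U W) {r δ : ℝ} (hr : r ∈ Ioc 0 T)
    (h1 : |lr r| ≤ δ) (h2 : ‖S₁ r‖ ≤ δ * c) :
    ‖GD l κ lam α θ S₁ ρ lr U r‖ ^ 2 ≤ 3 * MM l K ^ 2 *
      (ρ r * r ^ 11 * ‖α r‖ ^ 2 + δ ^ 2 * c ^ 2 + δ ^ 2 * en l α θ ρ W r) := by
  obtain ⟨b1, b2, -, b4, -⟩ := h.bρ r (Ioc_subset_Icc_self hr)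
  have hK := h.hK
  have hK0 : 0 < K := by linarith
  have hρ : 0 ≤ ρ r := le_trans (by positivity) b1
  have hr0 := hr.1
  have hrK : r ≤ K := hr.2.trans h.hTK
  have hδ : 0 ≤ δ := (abs_nonneg _).trans h1
  have hc := h.hc
  have hE := en_ge h hr
  have hl0 : (0 : ℝ) ≤ l := Nat.cast_nonneg l
  have hP : r ^ l ≤ K ^ l := pow_le_pow_left₀ hr0.le hrK l
  have hP1 : 1 ≤ K ^ l := one_le_pow₀ hK
  have h11 : r ^ 11 ≤ K ^ 11 := pow_le_pow_left₀ hr0.le hrK 11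
  have hl10 : (l : ℝ) * r ^ (l + 10) ≤ l * (r ^ 11 * K ^ l) := by
    cases l with
    | zero => simp
    | succ k =>
      refine mul_le_mul_of_nonneg_left ?_ (Nat.cast_nonneg _)
      rw [show k + 1 + 10 = 11 + k by ring, pow_add]
      exact mul_le_mul_of_nonneg_left ((pow_le_pow_left₀ hr0.le hrK k).trans
        (pow_le_pow_right₀ hK (Nat.le_succ k))) (by positivity)
  have hkl : ‖(2 * κ - lam : ℂ)‖ ≤ 3 * K := by
    refine (norm_sub_le _ _).trans ?_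
    rw [norm_mul, Complex.norm_real, Real.norm_eq_abs, Complex.norm_ofNat]
    linarith [h.hκ, h.hlam]
  have nρ : ‖(ρ r : ℂ)‖ = ρ r := Complex.norm_of_nonneg hρ
  have nr : ‖(r : ℂ)‖ = r := Complex.norm_of_nonneg hr0.le
  have t1 : ‖(ρ r : ℂ) * (r : ℂ) ^ (l + 11) * ((2 * κ - lam) * α r)‖ ≤
      3 * (K * K ^ l * (ρ r * r ^ 11 * ‖α r‖)) := by
    rw [norm_mul, norm_mul, norm_mul, norm_pow, nρ, nr, pow_add]
    calc _ ≤ ρ r * (K ^ l * r ^ 11) * (3 * K * ‖α r‖) := by gcongr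
      _ = _ := by ring
  have t2 : ‖(l : ℂ) * ((ρ r : ℂ) * U r * (r : ℂ) ^ (l + 10) * α r)‖ ≤
      l * (K * K ^ l * (ρ r * r ^ 11 * ‖α r‖)) := by
    rw [norm_mul, norm_mul, norm_mul, norm_mul, norm_pow, nρ, nr, Complex.norm_natCast,
      Complex.norm_real, Real.norm_eq_abs]
    calc _ = (l * r ^ (l + 10)) * (ρ r * |U r| * ‖α r‖) := by ring
      _ ≤ (l * (r ^ 11 * K ^ l)) * (ρ r * K * ‖α r‖) := by gcongr
      _ = _ := by ring
  have t3 : ‖(ρ r : ℂ) * (r : ℂ) ^ (l + 11) * S₁ r‖ ≤ K ^ 12 * K ^ l * (δ * c) := by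
    rw [norm_mul, norm_mul, norm_pow, nρ, nr, pow_add]
    calc _ ≤ K * (K ^ l * K ^ 11) * (δ * c) := by gcongr
      _ = _ := by ring
  have t4 : ‖(l : ℂ) * ((ρ r : ℂ) * lr r * (r : ℂ) ^ (l + 10) * θ r)‖ ≤
      δ * (l * ρ r * r ^ (l + 10) * ‖θ r‖) := by
    rw [norm_mul, norm_mul, norm_mul, norm_mul, norm_pow, nρ, nr, Complex.norm_natCast,
      Complex.norm_real, Real.norm_eq_abs]
    calc _ = |lr r| * (l * ρ r * r ^ (l + 10) * ‖θ r‖) := by ring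
      _ ≤ _ := by gcongr
  have hs : ‖GD l κ lam α θ S₁ ρ lr U r‖ ≤ (3 + l) * (K * K ^ l * (ρ r * r ^ 11 * ‖α r‖)) +
      K ^ 12 * K ^ l * (δ * c) + δ * (l * ρ r * r ^ (l + 10) * ‖θ r‖) := by
    unfold GD
    refine (norm_sub_le _ _).trans (add_le_add ((norm_sub_le _ _).trans
      (add_le_add ((norm_add_le _ _).trans ?_) t3)) t4)
    linarith
  refine (three (norm_nonneg _) hs).trans ?_
  rw [mul_assoc 3]
  refine mul_le_mul_of_nonneg_left ?_ (by norm_num)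
  rw [mul_add, mul_add]
  have hM : K ^ 12 * K ^ l ≤ MM l K := by
    unfold MM
    have : 0 ≤ K ^ 12 * K ^ l := by positivity
    nlinarith
  refine add_le_add (add_le_add ?_ ?_) ?_
  · have e : K ^ 2 * (ρ r * r ^ 11) ≤ K ^ 24 := by
      calc _ ≤ K ^ 2 * (K * K ^ 11) := by gcongr
        _ = K ^ 14 := by ring
        _ ≤ _ := pow_le_pow_right₀ hK (by norm_num)
    calc _ = ((3 + l) * K ^ l) ^ 2 * (K ^ 2 * (ρ r * r ^ 11)) * (ρ r * r ^ 11 * ‖α r‖ ^ 2) := by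
          ring
      _ ≤ ((3 + l) * K ^ l) ^ 2 * K ^ 24 * (ρ r * r ^ 11 * ‖α r‖ ^ 2) := by gcongr
      _ = _ := by unfold MM; ring
  · calc _ ≤ (MM l K * (δ * c)) ^ 2 := by gcongr
      _ = _ := by ring
  · have e : ρ r * r ^ 11 * (r ^ l) ^ 2 ≤ MM l K ^ 2 := by
      calc _ ≤ K * K ^ 11 * (K ^ l) ^ 2 := by gcongr
        _ = K ^ 12 * (K ^ l) ^ 2 := by ring
        _ ≤ K ^ 24 * (K ^ l) ^ 2 := by gcongr; norm_num
        _ = (K ^ 12 * K ^ l) ^ 2 := by ring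
        _ ≤ _ := by gcongr
    have e' : (l : ℝ) * l ≤ l * (l + 10) := by nlinarith
    calc _ = (ρ r * r ^ 11 * (r ^ l) ^ 2) * (δ ^ 2 * (ρ r * r ^ 9 * (l * l) * ‖θ r‖ ^ 2)) := by
          ring
      _ ≤ MM l K ^ 2 * (δ ^ 2 * (ρ r * r ^ 9 * (l * (l + 10)) * ‖θ r‖ ^ 2)) := by gcongr
      _ ≤ _ := by gcongr

theorem nonneg (h : HydA l K T R₀ Λ ε c κ lam α θ S₁ S₂ ρ lr U W) {r : ℝ} (hr : r ∈ Ioc 0 T) :
    0 ≤ ρ r * r ^ 11 * ‖α r‖ ^ 2 ∧ 0 ≤ en l α θ ρ W r := by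
  have hK := h.hK
  have hρ : 0 ≤ ρ r := le_trans (by positivity) (h.bρ r (Ioc_subset_Icc_self hr)).1
  have hr0 := hr.1
  exact ⟨by positivity, le_trans (by positivity) (en_ge h hr)⟩

theorem piece (h : HydA l K T R₀ Λ ε c κ lam α θ S₁ S₂ ρ lr U W) {a b δ : ℝ} (ha : 0 ≤ a)
    (hab : a < b) (hb : b ≤ T) (h1 : ∀ r ∈ Ioc a b, |lr r| ≤ δ ∧ ‖S₁ r‖ ≤ δ * c) :
    ‖∫ r in a..b, GD l κ lam α θ S₁ ρ lr U r‖ ^ 2 ≤ (b - a) * (3 * MM l K ^ 2 *
      (NN α ρ T + T * (δ ^ 2 * c ^ 2) + δ ^ 2 * EN l α θ ρ W T)) := by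
  have hT : (0 : ℝ) ≤ T := (ha.trans hab.le).trans hb
  have i1 := (cbN h).ii le_rfl hT le_rfl
  have i2 := (cbE h).ii le_rfl hT le_rfl
  have := cs (g := GD l κ lam α θ S₁ ρ lr U) (h := fun r => 3 * MM l K ^ 2 *
      (ρ r * r ^ 11 * ‖α r‖ ^ 2 + δ ^ 2 * c ^ 2 + δ ^ 2 * en l α θ ρ W r)) ha hab hb
    ((CB.cont continuous_const).mul (((cbN h).add (CB.cont continuous_const)).add
      ((CB.cont continuous_const).mul (cbE h))))
    (fun r hr => by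
      obtain ⟨n1, n2⟩ := nonneg h hr
      positivity)
    fun r hr => pt h ⟨ha.trans_lt hr.1, hr.2.trans hb⟩ (h1 r hr).1 (h1 r hr).2
  rw [intervalIntegral.integral_const_mul,
    intervalIntegral.integral_add (i1.add intervalIntegrable_const) (i2.const_mul _),
    intervalIntegral.integral_add i1 intervalIntegrable_const, intervalIntegral.integral_const,
    intervalIntegral.integral_const_mul, sub_zero, smul_eq_mul] at this
  exact this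

end Ma4

open Ma4

theorem s_a4 : S_a4 := by
  intro l K
  refine ⟨1 + 24 * K ^ 6 * (1 + MM l K ^ 2), le_add_of_nonneg_right (by positivity), ?_⟩
  intro T R₀ Λ ε c κ lam α θ S₁ S₂ ρ lr U W h
  have hK := h.hK
  have hR := h.hR
  have hRT := h.hT
  have hTK := h.hTK
  have hτ := h.hτ
  have hT : 0 < T := by linarith
  have hN : 0 ≤ NN α ρ T := by
    unfold NN
    rw [intervalIntegral.integral_of_le hT.le]
    exact setIntegral_nonneg measurableSet_Ioc fun r hr => (nonneg h hr).1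
  have hE : 0 ≤ EN l α θ ρ W T := by
    unfold EN
    rw [intervalIntegral.integral_of_le hT.le]
    exact setIntegral_nonneg measurableSet_Ioc fun r hr => (nonneg h hr).2
  have p1 := piece h (δ := ε) le_rfl (by linarith : (0 : ℝ) < R₀) hRT.le fun r hr =>
    (h.inner r hr).2
  have p2 := piece h (δ := K) (by linarith : (0 : ℝ) ≤ R₀) hRT le_rfl fun r hr =>
    ⟨(h.bρ r ⟨by linarith [hr.1], hr.2⟩).2.2.1, (h.bS r ⟨by linarith [hr.1], hr.2⟩).1⟩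
  have hf := ftc h
  have hM : 0 ≤ MM l K ^ 2 := sq_nonneg _
  generalize (∫ r in (0 : ℝ)..R₀, GD l κ lam α θ S₁ ρ lr U r) = I₁ at p1 hf
  generalize (∫ r in R₀..T, GD l κ lam α θ S₁ ρ lr U r) = I₂ at p2 hf
  generalize NN α ρ T = N at *
  generalize EN l α θ ρ W T = En at *
  generalize MM l K ^ 2 = M at *
  obtain ⟨b1, -, -, b4, -⟩ := h.bρ T ⟨hT.le, le_rfl⟩
  have hρ : 0 < ρ T := lt_of_lt_of_le (by positivity) b1
  have hT' : (T : ℂ) ≠ 0 := by exact_mod_cast hT.ne'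
  have hρ' : (ρ T : ℂ) ≠ 0 := by exact_mod_cast hρ.ne'
  have e : deriv θ T - (l : ℂ) / T * θ T =
      (I₁ + I₂) / ((ρ T : ℂ) * (T : ℂ) ^ (l + 11)) - U T * α T := by
    rw [← hf]
    unfold GG
    push_cast
    field_simp
    ring
  have hlow : 1 / K ≤ ρ T * T ^ (l + 11) :=
    b1.trans (le_mul_of_one_le_right hρ.le (one_le_pow₀ (by linarith)))
  have hb : ‖deriv θ T - (l : ℂ) / T * θ T‖ ≤ K * ‖I₁‖ + K * ‖I₂‖ + K * ‖α T‖ := by
    rw [e]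
    refine (norm_sub_le _ _).trans (add_le_add ?_ ?_)
    · rw [norm_div, norm_mul, norm_pow, Complex.norm_of_nonneg hρ.le, Complex.norm_of_nonneg hT.le]
      calc _ ≤ (‖I₁‖ + ‖I₂‖) / (1 / K) := by gcongr; exact norm_add_le _ _
        _ = _ := by field_simp
    · rw [norm_mul, Complex.norm_real, Real.norm_eq_abs]
      gcongr
  refine (three (norm_nonneg _) hb).trans ?_
  have hτ0 : 0 ≤ T - R₀ := by linarith
  have hK1 : 1 ≤ K ^ 2 := one_le_pow₀ hK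
  have hK3 : 1 ≤ K ^ 3 := one_le_pow₀ hK
  have hK23 : K ^ 2 ≤ K ^ 3 := pow_le_pow_right₀ hK (by norm_num)
  generalize hX : ‖α T‖ ^ 2 + N + (ε ^ 2 + (T - R₀)) * (c ^ 2 + En) = X
  have x0 : 0 ≤ ε ^ 2 * (c ^ 2 + En) := by positivity
  have x1 : 0 ≤ (T - R₀) * (c ^ 2 + En) := by positivity
  have x2 := sq_nonneg ‖α T‖
  have y1 : N + ε ^ 2 * (c ^ 2 + En) ≤ X := by rw [← hX]; linarith
  have y2 : N + (T - R₀) * (c ^ 2 + En) ≤ X := by rw [← hX]; linarith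
  have y3 : ‖α T‖ ^ 2 ≤ X := by rw [← hX]; linarith
  have hX0 : 0 ≤ X := x2.trans y3
  have q1 : ‖I₁‖ ^ 2 ≤ 3 * M * K ^ 2 * X := by
    refine p1.trans ?_
    have w1 : N ≤ K * N := le_mul_of_one_le_left hN hK
    have w2 : ε ^ 2 * En ≤ K * (ε ^ 2 * En) := le_mul_of_one_le_left (by positivity) hK
    have w3 : T * (ε ^ 2 * c ^ 2) ≤ K * (ε ^ 2 * c ^ 2) := by gcongr
    have w4 : N + T * (ε ^ 2 * c ^ 2) + ε ^ 2 * En ≤
        K * N + K * (ε ^ 2 * c ^ 2) + K * (ε ^ 2 * En) := by linarith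
    have w5 : R₀ - 0 ≤ K := by linarith
    calc _ ≤ K * (3 * M * (K * N + K * (ε ^ 2 * c ^ 2) + K * (ε ^ 2 * En))) := by gcongr
      _ = 3 * M * K ^ 2 * (N + ε ^ 2 * (c ^ 2 + En)) := by ring
      _ ≤ _ := by gcongr
  have q2 : ‖I₂‖ ^ 2 ≤ 3 * M * K ^ 3 * X := by
    refine p2.trans ?_
    calc _ = 3 * M * ((T - R₀) * N + T * K ^ 2 * ((T - R₀) * c ^ 2) + K ^ 2 * ((T - R₀) * En)) := by
          ring
      _ ≤ 3 * M * (K ^ 3 * N + K * K ^ 2 * ((T - R₀) * c ^ 2) + K ^ 3 * ((T - R₀) * En)) := by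
          gcongr
          linarith
      _ = 3 * M * K ^ 3 * (N + (T - R₀) * (c ^ 2 + En)) := by ring
      _ ≤ _ := by gcongr
  have k4 : K ^ 4 ≤ K ^ 6 := pow_le_pow_right₀ hK (by norm_num)
  have k5 : K ^ 5 ≤ K ^ 6 := pow_le_pow_right₀ hK (by norm_num)
  have k2 : K ^ 2 ≤ K ^ 6 := pow_le_pow_right₀ hK (by norm_num)
  have hMX : 0 ≤ M * X := mul_nonneg hM hX0
  calc _ = 3 * K ^ 2 * (‖I₁‖ ^ 2 + ‖I₂‖ ^ 2 + ‖α T‖ ^ 2) := by ring
    _ ≤ 3 * K ^ 2 * (3 * M * K ^ 2 * X + 3 * M * K ^ 3 * X + X) := by gcongr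
    _ = 9 * K ^ 4 * (M * X) + 9 * K ^ 5 * (M * X) + 3 * K ^ 2 * X := by ring
    _ ≤ 9 * K ^ 6 * (M * X) + 9 * K ^ 6 * (M * X) + 3 * K ^ 6 * X := by gcongr
    _ ≤ _ := by
      have z1 : 0 ≤ K ^ 6 * (M * X) := by positivity
      have z2 : 0 ≤ K ^ 6 * X := by positivity
      nlinarith

end P139
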