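import Vale.Agent.P139.MADefs

/-! P139: the boundary-layer lemma from its four pieces. -/

namespace P139

theorem s_abc (h1 : S_a1) (h2 : S_a2) (h3 : S_a3) (h4 : S_a4) : S_abc := by
  intro l K
  obtain ⟨C1, c1, h1⟩ := h1 l K
  obtain ⟨C2, c2, h2⟩ := h2 l K
  obtain ⟨C3, c3, h3⟩ := h3 l K
  obtain ⟨C4, c4, h4⟩ := h4 l K
  set t : ℝ := 1 / (4 * (1 + C2)) with ht
  have t0 : 0 < t := by positivity
  have t1 : t * (1 + C2) = 1 / 4 := by rw [ht]; field_simp
  have t2 : t ≤ 1 := by nlinarith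
  set A : ℝ := 2 * (C1 + 1 + C1 / t) with hA
  have A0 : 1 ≤ A := by have : 0 < C1 / t := by positivity
                        linarith
  refine ⟨C3 * A + C4 * (2 * C3 * A + 1 + A), t / (4 * C1 * C3), by positivity, ?_⟩
  intro T R₀ Λ ε c κ lam α θ S₁ S₂ ρ lr U W h hs
  have a1 := h1 _ _ _ _ _ _ _ _ _ _ _ _ _ _ _ h t t0 t2
  obtain ⟨E0, a2⟩ := h2 _ _ _ _ _ _ _ _ _ _ _ _ _ _ _ h
  obtain ⟨a3, a3'⟩ := h3 _ _ _ _ _ _ _ _ _ _ _ _ _ _ _ h
  have a4 := h4 _ _ _ _ _ _ _ _ _ _ _ _ _ _ _ h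
  have τ0 : 0 < T - R₀ := sub_pos.2 h.hT
  have i0 : 0 < 1 / (Λ * (T - R₀)) := by have := h.hΛ; positivity
  have d0 : 0 ≤ dat α θ T := by unfold dat; positivity
  generalize EN l α θ ρ W T = E at *
  generalize NN α ρ T = Na at *
  generalize NN θ ρ T = Nt at *
  generalize dat α θ T = d at *
  generalize 1 / (Λ * (T - R₀)) = i at *
  generalize T - R₀ = τ at *
  generalize ‖α T‖ ^ 2 = x at *
  generalize ‖deriv θ T - (l : ℂ) / T * θ T‖ ^ 2 = y at *
  have c0 : 0 ≤ c ^ 2 := sq_nonneg c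
  have e0 : 0 ≤ ε ^ 2 := sq_nonneg ε
  generalize c ^ 2 = u at *
  generalize ε ^ 2 = e at *
  have b1 : C1 / t * Na ≤ E / 4 := by
    calc C1 / t * Na ≤ C1 / t * (C3 * (t / (4 * C1 * C3)) * E) := by
          refine mul_le_mul_of_nonneg_left (a3'.trans ?_) (by positivity)
          gcongr
      _ = E / 4 := by field_simp
  have b2 : t * (E + Nt) ≤ E / 4 + d := by
    have : t * Nt ≤ t * (C2 * (E + d)) := mul_le_mul_of_nonneg_left a2 t0.le
    have : t * C2 * d ≤ 1 * d := mul_le_mul_of_nonneg_right (by nlinarith) d0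
    have : t * (1 + C2) * E = E / 4 := by rw [t1]; ring
    nlinarith
  have b3 : E ≤ A * (d + u) := by
    have : 0 ≤ C1 / t * d := by positivity
    have : 0 ≤ (C1 + 1) * u := by positivity
    rw [hA]; nlinarith
  set s := τ + i + e with hs'
  have s0 : 0 ≤ s := by positivity
  have b4 : C3 * (τ + i) * E ≤ C3 * s * (A * (d + u)) := by gcongr; linarith
  have b5 : (e + τ) * (u + E) ≤ s * ((d + u) + A * (d + u)) := by gcongr <;> linarith
  have b6 : y ≤ C4 * (2 * (C3 * s * (A * (d + u))) + s * ((d + u) + A * (d + u))) :=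
    a4.trans (mul_le_mul_of_nonneg_left (by linarith) (by linarith))
  nlinarith

end P139
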