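import Vale.Agent.P139.MADefs

/-! P139: the boundary conditions of the limit. -/

open Set Filter Topology
open scoped ContDiff ComplexConjugate

namespace P139

namespace Mbc

theorem cont {F : ℝ → ℂ} (h : ContDiffOn ℝ ∞ F (Ioi 0)) {R : ℝ} (hR : 0 < R) :
    ContinuousAt (fun T : ℝ => F (T ^ 2)) R ∧ ContinuousAt (fun T : ℝ => deriv F (T ^ 2)) R := by
  have hm : Ioi (0 : ℝ) ∈ 𝓝 (R ^ 2) := Ioi_mem_nhds (by positivity)
  have h2 : ContinuousAt (fun T : ℝ => T ^ 2) R := by fun_prop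
  exact ⟨ContinuousAt.comp (f := fun T : ℝ => T ^ 2) (h.continuousOn.continuousAt hm) h2,
    ContinuousAt.comp (f := fun T : ℝ => T ^ 2)
      ((h.continuousOn_deriv_of_isOpen isOpen_Ioi (by simp)).continuousAt hm) h2⟩

end Mbc

theorem s_bc (h : S_bcT) : S_bc := by
  intro D L X
  obtain ⟨C, δ, hδ, h⟩ := h D L X
  have hR := L.R_pos
  have hne : D.U L.β (L.R ^ 2) ≠ 0 := by
    have := D.ne L.β L.hβ _ L.hx
    rwa [show 4 * (L.R ^ 2 / 4) = L.R ^ 2 by ring] at this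
  have hT : ContDiffOn ℝ ∞ L.Th (Ioi 0) := (D.smooth L.β L.hβ).div_const _
  have t1 : L.Th (L.R ^ 2) = 1 := div_self hne
  have t2 : deriv L.Th (L.R ^ 2) = 0 := by
    have : L.Th = fun s => D.U L.β s / D.U L.β (L.R ^ 2) := rfl
    rw [this, deriv_div_const, L.root, zero_div]
  obtain ⟨f1, f2⟩ := Mbc.cont X.sF hR
  obtain ⟨g1, g2⟩ := Mbc.cont X.sG hR
  obtain ⟨q1, q2⟩ := Mbc.cont hT hR
  have c1 := Complex.continuous_conj.continuousAt.comp q1
  have c2 := Complex.continuous_conj.continuousAt.comp q2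
  have n1 : L.Th (L.R ^ 2) ≠ 0 := by rw [t1]; exact one_ne_zero
  have n2 : conj (L.Th (L.R ^ 2)) ≠ 0 := by rw [t1]; simp
  have hl := ((((f1.div q1 n1).add (g1.div c1 n2)).norm.pow 2).add
    ((((f2.div q1 n1).sub ((f1.mul q2).div (q1.pow 2) (pow_ne_zero 2 n1))).sub
      ((g2.div c1 n2).sub ((g1.mul c2).div (c1.pow 2) (pow_ne_zero 2 n2)))).norm.pow 2)).tendsto
  have hr : Tendsto (fun T : ℝ => C * (T - L.R)) (𝓝 L.R) (𝓝 (C * (L.R - L.R))) :=
    Continuous.tendsto (by fun_prop) _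
  have key := le_of_tendsto_of_tendsto (b := 𝓝[>] L.R) (hl.mono_left nhdsWithin_le_nhds)
    (hr.mono_left nhdsWithin_le_nhds) (by
      filter_upwards [Ioc_mem_nhdsGT (show L.R < L.R + δ by linarith)] with T hT
      exact h T hT.1 hT.2)
  simp only [Function.comp, Pi.add_apply, Pi.pow_apply, Pi.div_apply, Pi.sub_apply, Pi.mul_apply,
    t1, t2, map_one, map_zero, div_one, mul_zero, sub_zero, sub_self, one_pow] at key
  have k1 := sq_nonneg ‖X.F (L.R ^ 2) + X.G (L.R ^ 2)‖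
  have k2 := sq_nonneg ‖deriv X.F (L.R ^ 2) - deriv X.G (L.R ^ 2)‖
  exact ⟨norm_eq_zero.1 (pow_eq_zero_iff two_ne_zero |>.1 (by linarith)),
    sub_eq_zero.1 (norm_eq_zero.1 (pow_eq_zero_iff two_ne_zero |>.1 (by linarith)))⟩

end P139
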