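import Vale.Agent.P139.MADefs

/-! P139 part MA: approximate boundary conditions at radii slightly larger than `R`. -/

open Complex Set Filter Topology MeasureTheory
open scoped ContDiff ComplexConjugate

noncomputable section
namespace P139
namespace MbcT

/-- limit of the quotient -/
def w0 (l : ℕ) (T : ℝ) (a θ : ℂ) : ℂ := (T : ℂ) ^ l * (a / θ)
/-- limit of the derivative of the quotient -/
def w1 (l : ℕ) (T : ℝ) (a a₁ θ θ₁ : ℂ) : ℂ :=
  (l : ℂ) / T * w0 l T a θ + 2 * (T : ℂ) ^ (l + 1) * (a₁ / θ - a * θ₁ / θ ^ 2)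

theorem quot_lim (l : ℕ) (T : ℝ) {x x' y y' a a₁ : ℕ → ℂ} {b b₁ θ θ₁ : ℂ} (hθ : θ ≠ 0)
    (hx : ∀ j, x j = (T : ℂ) ^ l * a j)
    (hx' : ∀ j, x' j = (l : ℂ) / T * x j + 2 * (T : ℂ) ^ (l + 1) * a₁ j)
    (ha : Tendsto a atTop (𝓝 b)) (ha₁ : Tendsto a₁ atTop (𝓝 b₁))
    (hy : Tendsto y atTop (𝓝 θ)) (hy' : Tendsto y' atTop (𝓝 (2 * T * θ₁))) :
    Tendsto (fun j => x j / y j) atTop (𝓝 (w0 l T b θ)) ∧
    Tendsto (fun j => (x' j * y j - x j * y' j) / y j ^ 2) atTop (𝓝 (w1 l T b b₁ θ θ₁)) := by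
  have h0 : Tendsto x atTop (𝓝 ((T : ℂ) ^ l * b)) := by
    rw [show x = fun j => (T : ℂ) ^ l * a j from funext hx]; exact ha.const_mul _
  have h1 : Tendsto x' atTop
      (𝓝 ((l : ℂ) / T * ((T : ℂ) ^ l * b) + 2 * (T : ℂ) ^ (l + 1) * b₁)) := by
    rw [show x' = fun j => (l : ℂ) / T * x j + 2 * (T : ℂ) ^ (l + 1) * a₁ j from funext hx']
    exact (h0.const_mul _).add (ha₁.const_mul _)
  constructor
  · have := h0.div hy hθ
    rwa [mul_div_assoc] at this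
  · have := ((h1.mul hy).sub (h0.mul hy')).div (hy.pow 2) (pow_ne_zero 2 hθ)
    have e : ((((l : ℂ) / T * ((T : ℂ) ^ l * b) + 2 * (T : ℂ) ^ (l + 1) * b₁) * θ -
        (T : ℂ) ^ l * b * (2 * T * θ₁)) / θ ^ 2) = w1 l T b b₁ θ θ₁ := by
      unfold w1 w0
      generalize (l : ℂ) / T = k
      field_simp
      ring
    rwa [e] at this

variable {D : FreeData}

theorem R_one (L : Lim D) : 1 ≤ L.R := by
  have h1 := L.hx.1
  have h2 := D.hx.1
  have h3 := L.R_pos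
  nlinarith

theorem th_smooth (L : Lim D) : ContDiffOn ℝ ∞ L.Th (Ioi 0) :=
  (D.smooth L.β L.hβ).div_const _

theorem qi_eq (L : Lim D) {T : ℝ} (hT : L.R < T) : L.qi T = L.Th (T ^ 2) := by
  rw [L.qi_def, if_neg (not_le.2 (hT.trans_le (le_abs_self T)))]; rfl

theorem th_ne (L : Lim D) {T : ℝ} (hT : L.R ≤ T) : L.Th (T ^ 2) ≠ 0 := by
  rcases hT.eq_or_lt with h | h
  · have h0 := D.ne L.β L.hβ _ L.hx
    rw [show 4 * (L.R ^ 2 / 4) = L.R ^ 2 by ring] at h0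
    rw [← h]
    exact div_ne_zero h0 h0
  · rw [← qi_eq L h]; exact L.qi_ne T

theorem qi_der (L : Lim D) {T : ℝ} (hT : L.R < T) :
    deriv L.qi T = 2 * T * deriv L.Th (T ^ 2) := by
  have hT0 : 0 < T := L.R_pos.trans hT
  have e : L.qi =ᶠ[𝓝 T] fun r => L.Th (r ^ 2) := by
    filter_upwards [lt_mem_nhds hT] with r hr using qi_eq L hr
  have hd : DifferentiableAt ℝ L.Th (T ^ 2) :=
    ((th_smooth L).contDiffAt (Ioi_mem_nhds (by positivity))).differentiableAt (by simp)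
  have h2 : HasDerivAt (fun r : ℝ => r ^ 2) (2 * T) T := by
    simpa using hasDerivAt_pow 2 T
  have h3 := (HasDerivAt.scomp (h := fun r : ℝ => r ^ 2) T hd.hasDerivAt h2).deriv
  rw [e.deriv_eq]
  refine h3.trans ?_
  rw [Complex.real_smul]; push_cast; ring

/-- limit of the squared data -/
def dl (u u' v v' : ℂ) : ℝ :=
  ‖(u + v) / 2‖ ^ 2 + ‖(u' + v') / 2‖ ^ 2 + ‖(u - v) / (2 * I)‖ ^ 2 + ‖(u' - v') / (2 * I)‖ ^ 2

def u0 {L : Lim D} (X : Seq L) (T : ℝ) : ℂ := w0 X.l T (X.F (T ^ 2)) (L.Th (T ^ 2))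
def u1 {L : Lim D} (X : Seq L) (T : ℝ) : ℂ :=
  w1 X.l T (X.F (T ^ 2)) (deriv X.F (T ^ 2)) (L.Th (T ^ 2)) (deriv L.Th (T ^ 2))
def v0 {L : Lim D} (X : Seq L) (T : ℝ) : ℂ := w0 X.l T (X.G (T ^ 2)) (conj (L.Th (T ^ 2)))
def v1 {L : Lim D} (X : Seq L) (T : ℝ) : ℂ :=
  w1 X.l T (X.G (T ^ 2)) (deriv X.G (T ^ 2)) (conj (L.Th (T ^ 2))) (conj (deriv L.Th (T ^ 2)))

theorem cont_sq {h : ℝ → ℂ} (hh : ContDiffOn ℝ ∞ h (Ioi 0)) {a b : ℝ} (ha : 0 < a) :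
    ContinuousOn (fun T : ℝ => h (T ^ 2)) (Icc a b) ∧
    ContinuousOn (fun T : ℝ => deriv h (T ^ 2)) (Icc a b) := by
  have hm : MapsTo (fun T : ℝ => T ^ 2) (Icc a b) (Ioi 0) := fun T hT =>
    pow_pos (ha.trans_le hT.1) 2
  exact ⟨hh.continuousOn.comp (by fun_prop) hm,
    (hh.continuousOn_deriv_of_isOpen isOpen_Ioi (by simp)).comp (by fun_prop) hm⟩

theorem cont_w {l : ℕ} {S : Set ℝ} {a a₁ θ θ₁ : ℝ → ℂ} (ha : ContinuousOn a S)
    (ha₁ : ContinuousOn a₁ S) (hθ : ContinuousOn θ S) (hθ₁ : ContinuousOn θ₁ S)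
    (hne : ∀ T ∈ S, θ T ≠ 0) (h0 : ∀ T ∈ S, T ≠ 0) :
    ContinuousOn (fun T => w0 l T (a T) (θ T)) S ∧
    ContinuousOn (fun T => w1 l T (a T) (a₁ T) (θ T) (θ₁ T)) S := by
  have hc : ContinuousOn (fun T : ℝ => (T : ℂ)) S := continuous_ofReal.continuousOn
  have h1 : ContinuousOn (fun T => w0 l T (a T) (θ T)) S := (hc.pow l).mul (ha.div hθ hne)
  refine ⟨h1, ?_⟩
  exact ((continuousOn_const.div hc fun T hT => ofReal_ne_zero.2 (h0 T hT)).mul h1).add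
    ((continuousOn_const.mul (hc.pow _)).mul ((ha₁.div hθ hne).sub
      ((ha.mul hθ₁).div (hθ.pow 2) fun T hT => pow_ne_zero 2 (hne T hT))))

theorem dl_bd {L : Lim D} (X : Seq L) : ∃ B : ℝ, 0 ≤ B ∧ ∀ T ∈ Icc L.R (L.R + 1),
    dl (u0 X T) (u1 X T) (v0 X T) (v1 X T) ≤ B := by
  have hR := L.R_pos
  obtain ⟨f0, f1⟩ := cont_sq X.sF (b := L.R + 1) hR
  obtain ⟨g0, g1⟩ := cont_sq X.sG (b := L.R + 1) hR
  obtain ⟨t0, t1⟩ := cont_sq (th_smooth L) (b := L.R + 1) hR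
  have hne : ∀ T ∈ Icc L.R (L.R + 1), L.Th (T ^ 2) ≠ 0 := fun T hT => th_ne L hT.1
  have h0 : ∀ T ∈ Icc L.R (L.R + 1), T ≠ 0 := fun T hT => (hR.trans_le hT.1).ne'
  obtain ⟨a0, a1⟩ := cont_w (l := X.l) f0 f1 t0 t1 hne h0
  obtain ⟨b0, b1⟩ := cont_w (l := X.l) g0 g1 (continuous_conj.comp_continuousOn t0)
    (continuous_conj.comp_continuousOn t1) (fun T hT => by simpa using hne T hT) h0
  have hc : ContinuousOn (fun T => dl (u0 X T) (u1 X T) (v0 X T) (v1 X T))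
      (Icc L.R (L.R + 1)) :=
    (((((a0.add b0).div_const _).norm.pow 2).add (((a1.add b1).div_const _).norm.pow 2)).add
      (((a0.sub b0).div_const _).norm.pow 2)).add (((a1.sub b1).div_const _).norm.pow 2)
  obtain ⟨B, hB⟩ := isCompact_Icc.bddAbove_image hc
  exact ⟨max B 0, le_max_right _ _, fun T hT => (hB (mem_image_of_mem _ hT)).trans (le_max_left _ _)⟩

theorem lims (hseq : S_seq) (hhyd : S_hyd) (hc : S_c01) {L : Lim D} (X : Seq L) {T : ℝ}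
    (hT : L.R < T) :
    Tendsto (fun j => (L.P j).al (X.f j) (X.g j) T) atTop (𝓝 ((u0 X T + v0 X T) / 2)) ∧
    Tendsto (fun j => deriv ((L.P j).al (X.f j) (X.g j)) T) atTop (𝓝 ((u1 X T + v1 X T) / 2)) ∧
    Tendsto (fun j => (L.P j).th (X.f j) (X.g j) T) atTop (𝓝 ((u0 X T - v0 X T) / (2 * I))) ∧
    Tendsto (fun j => deriv ((L.P j).th (X.f j) (X.g j)) T) atTop
      (𝓝 ((u1 X T - v1 X T) / (2 * I))) := by
  have hR := L.R_pos
  have hT0 : 0 < T := hR.trans hT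
  have hsq : L.R ^ 2 < T ^ 2 := by nlinarith
  obtain ⟨c1, c2, c3, c4⟩ := hc D L X (T ^ 2) (T ^ 2) hsq
  have hm : T ^ 2 ∈ Icc (T ^ 2) (T ^ 2) := left_mem_Icc.2 le_rfl
  have hmT : T ∈ Icc 0 T := ⟨hT0.le, le_rfl⟩
  have q0 : Tendsto (fun j => (L.P j).q T) atTop (𝓝 (L.Th (T ^ 2))) := by
    rw [← qi_eq L hT]; exact (L.conv T).tendsto_at hmT
  have q1 : Tendsto (fun j => deriv (L.P j).q T) atTop (𝓝 (2 * T * deriv L.Th (T ^ 2))) := by
    rw [← qi_der L hT]; exact (L.conv' T).tendsto_at hmT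
  have q0' : Tendsto (fun j => conj ((L.P j).q T)) atTop (𝓝 (conj (L.Th (T ^ 2)))) :=
    (continuous_conj.tendsto _).comp q0
  have q1' : Tendsto (fun j => conj (deriv (L.P j).q T)) atTop
      (𝓝 (2 * T * conj (deriv L.Th (T ^ 2)))) := by
    have := (continuous_conj.tendsto _).comp q1
    simpa [Function.comp_def, map_ofNat] using this
  have hne := th_ne L hT.le
  have sf := fun j => (hseq _ (L.P j) X.l).2.1 (X.f j) (X.sol j).af.1 T hT0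
  have sg := fun j => (hseq _ (L.P j) X.l).2.1 (X.g j) (X.sol j).ag.1 T hT0
  obtain ⟨a0, a1⟩ := quot_lim X.l T hne (fun j => (sf j).1) (fun j => (sf j).2)
    (c1.tendsto_at hm) (c2.tendsto_at hm) q0 q1
  obtain ⟨b0, b1⟩ := quot_lim X.l T (θ := conj (L.Th (T ^ 2))) (by simpa using hne)
    (fun j => (sg j).1) (fun j => (sg j).2) (c3.tendsto_at hm) (c4.tendsto_at hm) q0' q1'
  have hq := fun j => (hhyd _ (L.P j) (L.m_pos j)).1
  have dq : ∀ j, HasDerivAt (L.P j).q (deriv (L.P j).q T) T := fun j =>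
    ((hq j).1.differentiable (by simp) T).hasDerivAt
  have df : ∀ h : ℝ → ℂ, Adm h → HasDerivAt h (deriv h T) T := fun h hh =>
    ((hh.1.contDiffAt (Ioi_mem_nhds hT0)).differentiableAt (by simp)).hasDerivAt
  have du := fun j => (df _ (X.sol j).af).div (dq j) ((hq j).2.1 T)
  have dv := fun j => (df _ (X.sol j).ag).div (c := X.g j) (d := fun r => conj ((L.P j).q r))
    (dq j).star (by simpa using (hq j).2.1 T)
  refine ⟨(a0.add b0).div_const _, ((a1.add b1).div_const _).congr fun j => ?_,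
    (a0.sub b0).div_const _, ((a1.sub b1).div_const _).congr fun j => ?_⟩
  · exact (((du j).add (dv j)).div_const 2).deriv.symm
  · exact (((du j).sub (dv j)).div_const (2 * I)).deriv.symm

end MbcT

open MbcT in
theorem s_bcT (hseq : S_seq) (hhyd : S_hyd) (habc : S_abc) (hhv : S_hv) (hc : S_c01) : S_bcT := by
  intro D L X
  obtain ⟨K₀, hK₀⟩ := (X.tl.norm.bddAbove_range)
  obtain ⟨K, hK⟩ := hhv D L X.l K₀
  obtain ⟨C, δ₀, hδ₀, hC⟩ := habc X.l K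
  obtain ⟨B, hB0, hB⟩ := dl_bd X
  set c : ℝ := ‖X.c₀L‖ + ‖X.c₁L‖ with hcdef
  refine ⟨24 * |C| * (B + c ^ 2), min (1 / 4) (δ₀ / 4), by positivity, fun T hT hT' => ?_⟩
  have hR1 := R_one L
  have h4 : T ≤ L.R + 1 / 4 := hT'.trans (by gcongr; exact min_le_left _ _)
  have h5 : T ≤ L.R + δ₀ / 4 := hT'.trans (by gcongr; exact min_le_right _ _)
  set τ : ℝ := 2 * (T - L.R) with hτ
  have hτ0 : 0 < τ := by rw [hτ]; linarith
  have e1 : T - (2 * L.R - T) = τ := by rw [hτ]; ring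
  have e2 : 1 / (1 / τ ^ 2 * τ) = τ := by field_simp
  have e3 : √τ ^ 2 = τ := Real.sq_sqrt hτ0.le
  obtain ⟨l1, l2, l3, l4⟩ := lims hseq hhyd hc X hT
  have hev : ∀ᶠ j in atTop, ‖(L.P j).al (X.f j) (X.g j) T‖ ^ 2 +
      ‖deriv ((L.P j).th (X.f j) (X.g j)) T - (X.l : ℂ) / T * (L.P j).th (X.f j) (X.g j) T‖ ^ 2 ≤
      C * (3 * τ) * (dat ((L.P j).al (X.f j) (X.g j)) ((L.P j).th (X.f j) (X.g j)) T +
        (‖X.c₀ j‖ + ‖X.c₁ j‖) ^ 2) := by
    filter_upwards [hK T hT h4 (1 / τ ^ 2) √τ (by positivity) (Real.sqrt_pos.2 hτ0)] with j hj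
    obtain ⟨S₁, S₂, hH⟩ := hj _ _ _ _ _ (hK₀ (mem_range_self j)) (X.sol j)
    have := hC _ _ _ _ _ _ _ _ _ _ _ _ _ _ _ hH (by rw [e1, e2]; linarith)
    rw [e1, e2, e3] at this
    rwa [show 3 * τ = τ + τ + τ by ring]
  have hlim := le_of_tendsto_of_tendsto ((l1.norm.pow 2).add ((l4.sub (l3.const_mul _)).norm.pow 2))
    ((((((l1.norm.pow 2).add (l2.norm.pow 2)).add (l3.norm.pow 2)).add (l4.norm.pow 2)).add
      ((X.t₀.norm.add X.t₁.norm).pow 2)).const_mul (C * (3 * τ))) hev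
  have hd := hB T ⟨hT.le, by linarith⟩
  set A := X.F (T ^ 2) / L.Th (T ^ 2) + X.G (T ^ 2) / conj (L.Th (T ^ 2)) with hA
  set E := deriv X.F (T ^ 2) / L.Th (T ^ 2) - X.F (T ^ 2) * deriv L.Th (T ^ 2) / L.Th (T ^ 2) ^ 2 -
      (deriv X.G (T ^ 2) / conj (L.Th (T ^ 2)) -
        X.G (T ^ 2) * conj (deriv L.Th (T ^ 2)) / conj (L.Th (T ^ 2)) ^ 2) with hE
  have hT1 : 1 ≤ T := hR1.trans hT.le
  have n1 : ‖A‖ / 2 ≤ ‖(u0 X T + v0 X T) / 2‖ := by
    have : (u0 X T + v0 X T) / 2 = (T : ℂ) ^ X.l * A / 2 := by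
      rw [hA]; unfold u0 v0 w0; ring
    rw [this, norm_div, norm_mul, norm_pow, norm_real, Real.norm_of_nonneg (by linarith),
      Complex.norm_ofNat]
    have := one_le_pow₀ (n := X.l) hT1
    gcongr
    exact le_mul_of_one_le_left (norm_nonneg _) this
  have n2 : ‖E‖ ≤ ‖(u1 X T - v1 X T) / (2 * I) - (X.l : ℂ) / T * ((u0 X T - v0 X T) / (2 * I))‖ := by
    have : (u1 X T - v1 X T) / (2 * I) - (X.l : ℂ) / T * ((u0 X T - v0 X T) / (2 * I)) =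
        (T : ℂ) ^ (X.l + 1) * E / I := by
      rw [hE]; unfold u1 v1 u0 v0 w1; ring
    rw [this, norm_div, norm_mul, norm_pow, norm_real, Real.norm_of_nonneg (by linarith),
      Complex.norm_I, div_one]
    exact le_mul_of_one_le_left (norm_nonneg _) (one_le_pow₀ hT1)
  have n1' := pow_le_pow_left₀ (by positivity) n1 2
  have n2' := pow_le_pow_left₀ (norm_nonneg _) n2 2
  have hd0 : 0 ≤ dl (u0 X T) (u1 X T) (v0 X T) (v1 X T) + c ^ 2 := by unfold dl; positivity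
  have hfin : C * (3 * τ) * (dl (u0 X T) (u1 X T) (v0 X T) (v1 X T) + c ^ 2) ≤
      |C| * (3 * τ) * (B + c ^ 2) := by
    refine (mul_le_mul_of_nonneg_right (mul_le_mul_of_nonneg_right (le_abs_self C)
      (by positivity)) hd0).trans ?_
    gcongr
  have hl2 := hlim.trans hfin
  have : |C| * (3 * τ) * (B + c ^ 2) * 4 = 24 * |C| * (B + c ^ 2) * (T - L.R) := by
    rw [hτ]; ring
  nlinarith [sq_nonneg ‖E‖]

end P139
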