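import Vale.Agent.P139.MADefs

/-! P139 part MA: `C¹` convergence outside the ball. -/

open Complex Set Filter Topology MeasureTheory
open scoped ContDiff ComplexConjugate

noncomputable section
namespace P139

namespace Mc01

theorem est {σ b a aj F F1 F2 G Fj Fj1 Fj2 Gj V1 V2 y yj : ℂ} {s d B N η : ℝ} (hσ : ‖σ‖ = 1)
    (hs : 1 ≤ s) (hd : s ≤ d) (hη : η ≤ 1)
    (e : σ * (4 * s * F2 + b * F1) - s * F1 - a * F = y)
    (ej : σ * (4 * s * Fj2 + b * Fj1) - s * Fj1 - aj * Fj - σ * (V1 * Fj + V2 * Gj) = yj)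
    (ha : ‖aj - a‖ ≤ η) (h1 : ‖V1‖ ≤ η) (h2 : ‖V2‖ ≤ η) (hy : ‖yj - y‖ ≤ η)
    (hF : ‖F‖ ≤ B) (hG : ‖G‖ ≤ B) (n0 : ‖Fj - F‖ ≤ N) (n1 : ‖Fj1 - F1‖ ≤ N) (n2 : ‖Gj - G‖ ≤ N) :
    ‖Fj2 - F2‖ ≤ (‖b‖ + d + ‖a‖ + 3) * N + η * (3 * B + 1) := by
  have key : σ * (4 * s) * (Fj2 - F2) = -(σ * b) * (Fj1 - F1) + s * (Fj1 - F1) + a * (Fj - F) +
      (aj - a) * (Fj - F) + (aj - a) * F + σ * V1 * (Fj - F) + σ * V1 * F + σ * V2 * (Gj - G) +
      σ * V2 * G + (yj - y) := by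
    rw [← e, ← ej]
    ring
  have hN : 0 ≤ N := (norm_nonneg _).trans n0
  have hB : 0 ≤ B := (norm_nonneg _).trans hF
  have hsn : ‖(s : ℂ)‖ = s := by rw [norm_real, Real.norm_of_nonneg (by linarith)]
  have hl : ‖Fj2 - F2‖ ≤ ‖σ * (4 * s) * (Fj2 - F2)‖ := by
    rw [norm_mul, norm_mul, norm_mul, hσ, hsn, Complex.norm_ofNat]
    exact le_mul_of_one_le_left (norm_nonneg _) (by linarith)
  have m : ∀ {x y : ℂ} {p q : ℝ}, ‖x‖ ≤ p → ‖y‖ ≤ q → ‖x * y‖ ≤ p * q := fun h h' =>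
    (norm_mul_le _ _).trans (mul_le_mul h h' (norm_nonneg _) ((norm_nonneg _).trans h))
  have mσ : ∀ {x : ℂ} {p : ℝ}, ‖x‖ ≤ p → ‖σ * x‖ ≤ p := fun h => by
    rw [norm_mul, hσ, one_mul]
    exact h
  have t1 : ‖-(σ * b) * (Fj1 - F1)‖ ≤ ‖b‖ * N := m (by rw [norm_neg]; exact mσ le_rfl) n1
  have t2 : ‖(s : ℂ) * (Fj1 - F1)‖ ≤ d * N := m (hsn.le.trans hd) n1
  have t3 : ‖a * (Fj - F)‖ ≤ ‖a‖ * N := m le_rfl n0
  have t4 : ‖(aj - a) * (Fj - F)‖ ≤ 1 * N := m (ha.trans hη) n0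
  have t5 : ‖(aj - a) * F‖ ≤ η * B := m ha hF
  have t6 : ‖σ * V1 * (Fj - F)‖ ≤ 1 * N := m (mσ (h1.trans hη)) n0
  have t7 : ‖σ * V1 * F‖ ≤ η * B := m (mσ h1) hF
  have t8 : ‖σ * V2 * (Gj - G)‖ ≤ 1 * N := m (mσ (h2.trans hη)) n2
  have t9 : ‖σ * V2 * G‖ ≤ η * B := m (mσ h2) hG
  have := norm_add_le_of_le (norm_add_le_of_le (norm_add_le_of_le (norm_add_le_of_le
    (norm_add_le_of_le (norm_add_le_of_le (norm_add_le_of_le (norm_add_le_of_le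
      (norm_add_le_of_le t1 t2) t3) t4) t5) t6) t7) t8) t9) hy
  rw [← key] at this
  refine hl.trans (this.trans (le_of_eq ?_))
  ring

theorem ev_le {e : ℕ → ℂ} {e' : ℂ} (h : Tendsto e atTop (𝓝 e')) {η : ℝ} (hη : 0 < η) :
    ∀ᶠ j in atTop, ‖e j - e'‖ ≤ η :=
  (Metric.tendsto_nhds.1 h η hη).mono fun _ hj => by
    rw [← dist_eq_norm]
    exact hj.le

theorem src {S : Set ℝ} {Y : ℕ → ℝ → ℂ} {y : ℝ → ℂ} {e : ℕ → ℂ} {e' : ℂ} {B : ℝ}
    (hY : TendstoUniformlyOn Y y atTop S) (hB : ∀ s ∈ S, ‖y s‖ ≤ B) (hB0 : 0 ≤ B)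
    (he : Tendsto e atTop (𝓝 e')) {η : ℝ} (hη : 0 < η) :
    ∀ᶠ j in atTop, ∀ s ∈ S, ‖e j * Y j s - e' * y s‖ ≤ η ∧
      ‖e j * conj (Y j s) - e' * conj (y s)‖ ≤ η := by
  have hp : 0 < ‖e'‖ + 1 + B := by positivity
  have hη' : 0 < η / (‖e'‖ + 1 + B) := div_pos hη hp
  filter_upwards [Metric.tendstoUniformlyOn_iff.1 hY _ hη', ev_le he hη', ev_le he one_pos]
    with j h1 h2 h3 s hs
  have h4 : ‖e j‖ ≤ ‖e'‖ + 1 := by
    have := norm_sub_norm_le (e j) e'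
    linarith
  have h5 : ‖Y j s - y s‖ ≤ η / (‖e'‖ + 1 + B) := by
    rw [← dist_eq_norm, dist_comm]
    exact (h1 s hs).le
  have key : ∀ u v : ℂ, ‖u - v‖ ≤ η / (‖e'‖ + 1 + B) → ‖v‖ ≤ B → ‖e j * u - e' * v‖ ≤ η := by
    intro u v hu hv
    have e1 : e j * u - e' * v = e j * (u - v) + (e j - e') * v := by ring
    rw [e1]
    refine (norm_add_le_of_le
      ((norm_mul_le _ _).trans (mul_le_mul h4 hu (norm_nonneg _) (by positivity)))
      ((norm_mul_le _ _).trans (mul_le_mul h2 hv (norm_nonneg _) hη'.le))).trans (le_of_eq ?_)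
    field_simp
  refine ⟨key _ _ h5 (hB s hs), key _ _ ?_ ?_⟩
  · rw [← map_sub, norm_conj]
    exact h5
  · rw [norm_conj]
    exact hB s hs

theorem der {n : WithTop ℕ∞} (hn : 2 ≤ n) {f : ℝ → ℂ} (h : ContDiffOn ℝ n f (Ioi 0)) {s : ℝ}
    (hs : 0 < s) : HasDerivAt f (deriv f s) s ∧ HasDerivAt (deriv f) (deriv (deriv f) s) s := by
  have h2 : ContDiffOn ℝ 2 f (Ioi 0) := h.of_le hn
  have h1 : ContDiffOn ℝ 1 (deriv f) (Ioi 0) := h2.deriv_of_isOpen isOpen_Ioi le_rfl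
  exact ⟨((h2.contDiffAt (Ioi_mem_nhds hs)).differentiableAt two_ne_zero).hasDerivAt,
    ((h1.contDiffAt (Ioi_mem_nhds hs)).differentiableAt one_ne_zero).hasDerivAt⟩

theorem bdd {c d : ℝ} {f : ℝ → ℂ} (h : ContinuousOn f (Icc c d)) :
    ∃ B, 0 ≤ B ∧ ∀ s ∈ Icc c d, ‖f s‖ ≤ B := by
  obtain ⟨B, hB⟩ := isCompact_Icc.exists_bound_of_continuousOn h
  exact ⟨max B 0, le_max_right _ _, fun s hs => (hB s hs).trans (le_max_left _ _)⟩

theorem tu {S : Set ℝ} {u : ℕ → ℝ → ℂ} {v : ℝ → ℂ}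
    (h : ∀ ε : ℝ, 0 < ε → ∀ᶠ j in atTop, ∀ s ∈ S, ‖u j s - v s‖ ≤ ε) :
    TendstoUniformlyOn u v atTop S := by
  refine Metric.tendstoUniformlyOn_iff.2 fun ε hε => (h (ε / 2) (by positivity)).mono
    fun j hj s hs => ?_
  rw [dist_comm, dist_eq_norm]
  linarith [hj s hs]

theorem gam_lim {D : FreeData} (L : Lim D) :
    Tendsto (fun j => ((gam (L.m j) : ℝ) : ℂ)) atTop (𝓝 0) := by
  have h : Tendsto (fun j => gam (L.m j)) atTop (𝓝 0) :=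
    tendsto_const_nhds.div_atTop
      ((tendsto_natCast_atTop_atTop.comp L.m_lim).const_mul_atTop two_pos)
  exact ofReal_zero ▸ (continuous_ofReal.tendsto 0).comp h

theorem main (hgr : S_gr) (hseq : S_seq) (hext : S_ext) (hthc : S_thc) {D : FreeData} (L : Lim D)
    (X : Seq L) {c d : ℝ} (hc : L.R ^ 2 < c) (h1 : L.s₁ ∈ Icc c d) :
    ∀ ε : ℝ, 0 < ε → ∀ᶠ j in atTop, ∀ s ∈ Icc c d,
      ‖(toS X.l (X.f j) s - X.F s, deriv (toS X.l (X.f j)) s - deriv X.F s,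
        toS X.l (X.g j) s - X.G s, deriv (toS X.l (X.g j)) s - deriv X.G s)‖ ≤ ε := by
  have hc1 : 1 ≤ c := by linarith [L.hx.1, D.hx.1]
  have hpos : ∀ s ∈ Icc c d, 0 < s := fun s hs => by linarith [hs.1]
  have hsub : Icc c d ⊆ Ioi 0 := hpos
  have hS := fun j => (hseq _ (L.P j) X.l).1 _ _ _ _ _ (X.sol j)
  obtain ⟨hY0, hY1⟩ := (hthc D L X.l).2.2.1 c d hc
  obtain ⟨B0, hB0, b0⟩ := bdd (hY0.continuousOn (Frequently.of_forall fun j =>
    (hseq _ (L.P j) X.l).2.2.2.2.2.1.continuousOn.mono hsub))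
  obtain ⟨B1, hB1, b1⟩ := bdd (hY1.continuousOn (Frequently.of_forall fun j =>
    (hseq _ (L.P j) X.l).2.2.2.2.2.2.continuousOn.mono hsub))
  obtain ⟨BF, hBF, bF⟩ := bdd (X.sF.continuousOn.mono hsub)
  obtain ⟨BG, hBG, bG⟩ := bdd (X.sG.continuousOn.mono hsub)
  have hβ : Tendsto (fun j => (((L.P j).β : ℝ) : ℂ)) atTop (𝓝 (L.β : ℂ)) :=
    (continuous_ofReal.tendsto _).comp L.β_lim
  have haF : Tendsto (fun j => X.lam j + gam (L.m j) - I * (L.P j).β + (X.l : ℂ) / 2) atTop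
      (𝓝 (X.lamL - I * L.β + (X.l : ℂ) / 2)) := by
    have := (((X.tl.add (gam_lim L)).sub (hβ.const_mul I)).add_const ((X.l : ℂ) / 2))
    rwa [add_zero] at this
  have haG : Tendsto (fun j => X.lam j + gam (L.m j) + I * (L.P j).β + (X.l : ℂ) / 2) atTop
      (𝓝 (X.lamL + I * L.β + (X.l : ℂ) / 2)) := by
    have := (((X.tl.add (gam_lim L)).add (hβ.const_mul I)).add_const ((X.l : ℂ) / 2))
    rwa [add_zero] at this
  have hδ : 0 < √c - L.R := sub_pos.2 (Real.lt_sqrt_of_sq_lt hc)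
  have hδc : (L.R + (√c - L.R)) ^ 2 = c := by
    rw [add_sub_cancel, Real.sq_sqrt (by linarith)]
  set b : ℂ := 24 + 4 * (X.l : ℂ) with hb
  set aF : ℂ := X.lamL - I * L.β + (X.l : ℂ) / 2 with haFd
  set aG : ℂ := X.lamL + I * L.β + (X.l : ℂ) / 2 with haGd
  refine hgr _ _ (fun j s => (deriv (toS X.l (X.f j)) s - deriv X.F s,
    deriv (deriv (toS X.l (X.f j))) s - deriv (deriv X.F) s,
    deriv (toS X.l (X.g j)) s - deriv X.G s,
    deriv (deriv (toS X.l (X.g j))) s - deriv (deriv X.G) s)) c d L.s₁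
    (‖b‖ + d + (‖aF‖ + ‖aG‖) + 3) h1 (fun j s hs => ?_) (fun ε hε => ?_) ?_
  · have d1 := der (by norm_num) (hS j).sF (hpos s hs)
    have d2 := der (by norm_num) (hS j).sG (hpos s hs)
    have d3 := der (by norm_cast) X.sF (hpos s hs)
    have d4 := der (by norm_cast) X.sG (hpos s hs)
    exact (d1.1.sub d3.1).prodMk ((d1.2.sub d3.2).prodMk
      ((d2.1.sub d4.1).prodMk (d2.2.sub d4.2)))
  · have hp : 0 < 3 * (BF + BG) + 1 := by positivity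
    set η : ℝ := min 1 (ε / (3 * (BF + BG) + 1)) with hηd
    have hη : 0 < η := lt_min one_pos (div_pos hε hp)
    have hη1 : η ≤ 1 := min_le_left _ _
    have hηε : η * (3 * (BF + BG) + 1) ≤ ε := (le_div_iff₀ hp).1 (min_le_right _ _)
    filter_upwards [ev_le haF hη, ev_le haG hη, hext D L _ hδ 0 η hη,
      src hY0 b0 hB0 X.t₀ (half_pos hη), src hY1 b1 hB1 X.t₁ (half_pos hη)]
      with j e1 e2 e3 e4 e5 s hs
    have hs1 : 1 ≤ s := hc1.trans hs.1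
    obtain ⟨v1, v2⟩ := e3 0 le_rfl s (hδc.le.trans hs.1)
    have hr : η * s ^ (-1 - ((0 : ℕ) : ℝ)) ≤ η :=
      mul_le_of_le_one_right hη.le (Real.rpow_le_one_of_one_le_of_nonpos hs1 (by norm_num))
    rw [iteratedDeriv_zero] at v1 v2
    replace v1 := v1.trans hr
    replace v2 := v2.trans hr
    set N : ℝ := ‖(toS X.l (X.f j) s - X.F s, deriv (toS X.l (X.f j)) s - deriv X.F s,
        toS X.l (X.g j) s - X.G s, deriv (toS X.l (X.g j)) s - deriv X.G s)‖ with hN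
    have hN0 : 0 ≤ N := norm_nonneg _
    obtain ⟨n0, n1, n2, n3⟩ : ‖toS X.l (X.f j) s - X.F s‖ ≤ N ∧
        ‖deriv (toS X.l (X.f j)) s - deriv X.F s‖ ≤ N ∧ ‖toS X.l (X.g j) s - X.G s‖ ≤ N ∧
        ‖deriv (toS X.l (X.g j)) s - deriv X.G s‖ ≤ N := by
      have := hN.ge
      simpa only [norm_prod_le_iff] using this
    have hy : ∀ {p q p' q' : ℂ}, ‖p - p'‖ ≤ η / 2 → ‖q - q'‖ ≤ η / 2 →
        ‖p + q - (p' + q')‖ ≤ η := fun h h' => by
      rw [add_sub_add_comm]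
      exact (norm_add_le_of_le h h').trans (add_halves η).le
    have hF : ‖X.F s‖ ≤ BF + BG := (bF s hs).trans (le_add_of_nonneg_right hBG)
    have hG : ‖X.G s‖ ≤ BF + BG := (bG s hs).trans (le_add_of_nonneg_left hBF)
    have k1 := est norm_I hs1 hs.2 hη1 (X.eF s (hpos s hs)) ((hS j).eF s (hpos s hs))
      e1 v1 v2 (hy (e4 s hs).1 (e5 s hs).1) hF hG n0 n1 n2
    have k2 := est (σ := -I) (V1 := (L.P j).V1s s) (V2 := conj ((L.P j).V2s s))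
      (Gj := toS X.l (X.f j) s) (Fj2 := deriv (deriv (toS X.l (X.g j))) s)
      (by rw [norm_neg, norm_I]) hs1 hs.2 hη1
      (X.eG s (hpos s hs))
      (by
        have := (hS j).eG s (hpos s hs)
        unfold FreeG at this
        linear_combination this)
      e2 v1 (by rw [norm_conj]; exact v2) (hy (e4 s hs).2 (e5 s hs).2) hG hF n2 n3 n0
    have hd : 0 ≤ d := by linarith [hs.2]
    have p1 : 0 ≤ ‖aF‖ * N := by positivity
    have p2 : 0 ≤ ‖aG‖ * N := by positivity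
    have p3 : 0 ≤ (‖b‖ + d + 2) * N := by positivity
    simp only [norm_prod_le_iff]
    refine ⟨?_, ?_, ?_, ?_⟩ <;> nlinarith
  · have z : ∀ {e : ℕ → ℂ} {e' : ℂ}, Tendsto e atTop (𝓝 e') →
        Tendsto (fun j => e j - e') atTop (𝓝 0) := fun h => tendsto_sub_nhds_zero_iff.2 h
    exact (z X.dF).prodMk_nhds ((z X.dF').prodMk_nhds ((z X.dG).prodMk_nhds (z X.dG')))

end Mc01

open Mc01 in
theorem s_c01 (hgr : S_gr) (hseq : S_seq) (hext : S_ext) (hthc : S_thc) : S_c01 := by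
  intro D L X c d hc
  have hs : L.R ^ 2 < L.s₁ := by
    have := L.R_pos
    unfold Lim.s₁
    nlinarith
  have h := main hgr hseq hext hthc L X (c := min c L.s₁) (d := max d L.s₁) (lt_min hc hs)
    ⟨min_le_right _ _, le_max_right _ _⟩
  have hsub : Icc c d ⊆ Icc (min c L.s₁) (max d L.s₁) :=
    Icc_subset_Icc (min_le_left _ _) (le_max_left _ _)
  simp only [norm_prod_le_iff] at h
  exact ⟨tu fun ε hε => (h ε hε).mono fun j hj s hs => (hj s (hsub hs)).1,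
    tu fun ε hε => (h ε hε).mono fun j hj s hs => (hj s (hsub hs)).2.1,
    tu fun ε hε => (h ε hε).mono fun j hj s hs => (hj s (hsub hs)).2.2.1,
    tu fun ε hε => (h ε hε).mono fun j hj s hs => (hj s (hsub hs)).2.2.2⟩

end P139
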