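import Vale.Agent.P139.MADefs

/-! P139 part MA: pointwise convergence of the higher derivatives. -/

open Complex Set Filter Topology MeasureTheory
open scoped ContDiff ComplexConjugate InnerProductSpace

noncomputable section
namespace P139

namespace Mck

/-- smooth with locally uniform bounds -/
def SU (a : ℝ) (K : ℕ) (u : ℕ → ℝ → ℂ) : Prop :=
  (∀ j, ContDiffOn ℝ ∞ (u j) (Ioi a)) ∧ UB a K u

variable {a : ℝ} {K : ℕ} {u v : ℕ → ℝ → ℂ}

theorem le_inf (K : ℕ) : (K : WithTop ℕ∞) ≤ ∞ := by exact_mod_cast le_top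

theorem SU.add (h : S_ubt) (hu : SU a K u) (hv : SU a K v) : SU a K fun j s => u j s + v j s :=
  ⟨fun j => (hu.1 j).add (hv.1 j), ((h a K).1 u v (fun j => (hu.1 j).of_le (le_inf K))
    (fun j => (hv.1 j).of_le (le_inf K)) hu.2 hv.2).1⟩

theorem SU.mul (h : S_ubt) (hu : SU a K u) (hv : SU a K v) : SU a K fun j s => u j s * v j s :=
  ⟨fun j => (hu.1 j).mul (hv.1 j), ((h a K).1 u v (fun j => (hu.1 j).of_le (le_inf K))
    (fun j => (hv.1 j).of_le (le_inf K)) hu.2 hv.2).2⟩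

theorem SU.fix (h : S_ubt) {w : ℝ → ℂ} (hw : ContDiffOn ℝ ∞ w (Ioi a)) : SU a K fun _ => w :=
  ⟨fun _ => hw, (h a K).2.1 w (hw.of_le (le_inf K))⟩

theorem SU.seq (h : S_ubt) {e : ℕ → ℂ} {e' : ℂ} (he : Tendsto e atTop (𝓝 e')) :
    SU a K fun j _ => e j :=
  ⟨fun _ => contDiffOn_const, (h a K).2.2.1 e e' he⟩

theorem SU.cst (h : S_ubt) (e : ℂ) : SU a K fun _ _ => e := SU.seq h tendsto_const_nhds

theorem SU.cj (h : S_ubt) (hu : SU a K u) : SU a K fun j s => conj (u j s) :=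
  ⟨fun j => conjCLE.contDiff.comp_contDiffOn (hu.1 j), (h a K).2.2.2.1 u hu.2⟩

theorem bdd_of_unif {w : ℝ → ℂ} {c d : ℝ} (h : TendstoUniformlyOn u w atTop (Icc c d))
    (hw : ContinuousOn w (Icc c d)) : ∃ C : ℝ, ∀ᶠ j in atTop, ∀ s ∈ Icc c d, ‖u j s‖ ≤ C := by
  obtain ⟨C, hC⟩ := isCompact_Icc.exists_bound_of_continuousOn hw
  refine ⟨C + 1, (Metric.tendstoUniformlyOn_iff.1 h 1 one_pos).mono fun j hj s hs => ?_⟩
  have h1 := hj s hs
  rw [dist_comm, dist_eq_norm] at h1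
  have h2 := norm_le_insert' (u j s) (w s)
  linarith [hC s hs]

theorem ub_one {w : ℝ → ℂ} (ha : 0 ≤ a) (hw : ContDiffOn ℝ ∞ w (Ioi 0))
    (h : ∀ c d, a < c → TendstoUniformlyOn u w atTop (Icc c d) ∧
      TendstoUniformlyOn (fun j => deriv (u j)) (deriv w) atTop (Icc c d)) : UB a 1 u := by
  intro k hk c d hc
  have hs : Icc c d ⊆ Ioi 0 := fun s hs => lt_of_lt_of_le (ha.trans_lt hc) hs.1
  interval_cases k
  · simpa only [iteratedDeriv_zero] using bdd_of_unif (h c d hc).1 (hw.continuousOn.mono hs)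
  · simpa only [iteratedDeriv_one] using bdd_of_unif (h c d hc).2
      ((hw.continuousOn_deriv_of_isOpen isOpen_Ioi (le_inf 1)).mono hs)

theorem ub_V (hext : S_ext) {D : FreeData} (L : Lim D) (K : ℕ) :
    UB (L.R ^ 2) K (fun j => (L.P j).V1s) ∧ UB (L.R ^ 2) K fun j => (L.P j).V2s := by
  have key : ∀ k ≤ K, ∀ c d : ℝ, L.R ^ 2 < c → ∀ᶠ j in atTop, ∀ s ∈ Icc c d,
      ‖iteratedDeriv k (L.P j).V1s s‖ ≤ c ^ (-1 - (k : ℝ)) ∧
      ‖iteratedDeriv k (L.P j).V2s s‖ ≤ c ^ (-1 - (k : ℝ)) := by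
    intro k hk c d hc
    have hc0 : 0 < c := (sq_nonneg _).trans_lt hc
    have h1 : 0 < √c - L.R := sub_pos.2 (Real.lt_sqrt_of_sq_lt hc)
    refine (hext D L _ h1 K 1 one_pos).mono fun j hj s hs => ?_
    have h2 : (L.R + (√c - L.R)) ^ 2 ≤ s := by
      rw [add_sub_cancel, Real.sq_sqrt hc0.le]; exact hs.1
    have h3 : s ^ (-1 - (k : ℝ)) ≤ c ^ (-1 - (k : ℝ)) :=
      Real.rpow_le_rpow_of_nonpos hc0 hs.1 (by linarith [(Nat.cast_nonneg k : (0 : ℝ) ≤ k)])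
    have h4 := hj k hk s h2
    rw [one_mul] at h4
    exact ⟨h4.1.trans h3, h4.2.trans h3⟩
  exact ⟨fun k hk c d hc => ⟨_, (key k hk c d hc).mono fun j hj s hs => (hj s hs).1⟩,
    fun k hk c d hc => ⟨_, (key k hk c d hc).mono fun j hj s hs => (hj s hs).2⟩⟩

theorem gam_lim {D : FreeData} (L : Lim D) :
    Tendsto (fun j => (gam (L.m j) : ℂ)) atTop (𝓝 0) := by
  have h1 : Tendsto (fun j => 2 * (L.m j : ℝ)) atTop atTop :=
    (tendsto_natCast_atTop_atTop.comp L.m_lim).const_mul_atTop two_pos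
  have h2 : Tendsto (fun j => gam (L.m j)) atTop (𝓝 0) := tendsto_const_nhds.div_atTop h1
  exact (continuous_ofReal.tendsto 0).comp h2

end Mck

open Mck

theorem s_ck (hdc : S_dc) (hubt : S_ubt) (hub : S_ub) (hseq : S_seq) (hext : S_ext) (hthc : S_thc)
    (hc : S_c01) : S_ck := by
  intro D L X
  have ha : 0 < L.R ^ 2 := pow_pos L.R_pos 2
  have hs : Ioi (L.R ^ 2) ⊆ Ioi 0 := Ioi_subset_Ioi ha.le
  have hE := fun j => (hseq _ (L.P j) X.l).1 _ _ _ _ _ (X.sol j)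
  have hw : SU (L.R ^ 2) 40 fun _ s => (4 * (s : ℂ))⁻¹ := SU.fix hubt
    ((contDiffOn_const.mul ofRealCLM.contDiff.contDiffOn).inv fun s h =>
      mul_ne_zero (by norm_num) (ofReal_ne_zero.2 (ne_of_gt (hs h))))
  have hV1 : SU (L.R ^ 2) 40 fun j => (L.P j).V1s :=
    ⟨fun j => (hseq _ (L.P j) X.l).2.2.2.1.mono hs, (ub_V hext L 40).1⟩
  have hV2 : SU (L.R ^ 2) 40 fun j => (L.P j).V2s :=
    ⟨fun j => (hseq _ (L.P j) X.l).2.2.2.2.1.mono hs, (ub_V hext L 40).2⟩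
  have hY0 : SU (L.R ^ 2) 40 fun j => (L.P j).Y0 X.l :=
    ⟨fun j => (hseq _ (L.P j) X.l).2.2.2.2.2.1.mono hs, ((hthc D L X.l).2.1 40).1⟩
  have hY1 : SU (L.R ^ 2) 40 fun j => (L.P j).Y1 X.l :=
    ⟨fun j => (hseq _ (L.P j) X.l).2.2.2.2.2.2.mono hs, ((hthc D L X.l).2.1 40).2⟩
  have hβ : Tendsto (fun j => ((L.P j).β : ℂ)) atTop (𝓝 L.β) :=
    (continuous_ofReal.tendsto _).comp L.β_lim
  have hA := SU.seq (a := L.R ^ 2) (K := 40) hubt
    ((((X.tl.add (gam_lim L)).sub (hβ.const_mul I)).add_const ((X.l : ℂ) / 2)).const_mul (-I))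
  have hB := SU.seq (a := L.R ^ 2) (K := 40) hubt
    ((((X.tl.add (gam_lim L)).add (hβ.const_mul I)).add_const ((X.l : ℂ) / 2)).const_mul I)
  have h0 := SU.seq (a := L.R ^ 2) (K := 40) hubt X.t₀
  have h1 := SU.seq (a := L.R ^ 2) (K := 40) hubt X.t₁
  have p₁ := ((SU.cst hubt (-(24 + 4 * (X.l : ℂ)))).mul hubt hw).add hubt (SU.cst hubt (-I / 4))
  have q₁ := ((SU.cst hubt (-(24 + 4 * (X.l : ℂ)))).mul hubt hw).add hubt (SU.cst hubt (I / 4))
  have p₂ := (hA.add hubt hV1).mul hubt hw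
  have q₂ := (hB.add hubt hV1).mul hubt hw
  have p₃ := hV2.mul hubt hw
  have q₃ := (hV2.cj hubt).mul hubt hw
  have p₄ := ((SU.cst hubt (-I)).mul hubt ((h0.mul hubt hY0).add hubt (h1.mul hubt hY1))).mul
    hubt hw
  have q₄ := ((SU.cst hubt I).mul hubt
    ((h0.mul hubt (hY0.cj hubt)).add hubt (h1.mul hubt (hY1.cj hubt)))).mul hubt hw
  have h42 : ((42 : ℕ) : WithTop ℕ∞) ≤ 48 := by exact_mod_cast (by norm_num : 42 ≤ 48)
  have cF : ∀ j, ContDiffOn ℝ (42 : ℕ) (toS X.l (X.f j)) (Ioi (L.R ^ 2)) := fun j =>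
    ((hE j).sF.of_le h42).mono hs
  have cG : ∀ j, ContDiffOn ℝ (42 : ℕ) (toS X.l (X.g j)) (Ioi (L.R ^ 2)) := fun j =>
    ((hE j).sG.of_le h42).mono hs
  have hU := hub (L.R ^ 2) 40 (fun j => toS X.l (X.f j)) (fun j => toS X.l (X.g j))
    _ _ _ _ _ _ _ _ (fun j => ⟨cF j, cG j⟩)
    (List.forall_mem_cons.2 ⟨p₁, List.forall_mem_cons.2 ⟨p₂, List.forall_mem_cons.2 ⟨p₃,
      List.forall_mem_cons.2 ⟨p₄, List.forall_mem_cons.2 ⟨q₁, List.forall_mem_cons.2 ⟨q₂,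
      List.forall_mem_cons.2 ⟨q₃, List.forall_mem_singleton.2 q₄⟩⟩⟩⟩⟩⟩⟩)
    (fun j s h => by
      have h0 : (s : ℂ) ≠ 0 := ofReal_ne_zero.2 (ne_of_gt (hs h))
      have hi : 4 * (s : ℂ) * (4 * (s : ℂ))⁻¹ = 1 := mul_inv_cancel₀ (mul_ne_zero (by norm_num) h0)
      have e1 := (hE j).eF s (hs h)
      have e2 := (hE j).eG s (hs h)
      unfold FreeF at e1
      unfold FreeG at e2
      constructor
      · linear_combination (-I * (4 * (s : ℂ))⁻¹) * e1 +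
          ((4 * (s : ℂ))⁻¹ * (4 * s * deriv (deriv (toS X.l (X.f j))) s +
            (24 + 4 * (X.l : ℂ)) * deriv (toS X.l (X.f j)) s -
            ((L.P j).V1s s * toS X.l (X.f j) s + (L.P j).V2s s * toS X.l (X.g j) s))) * I_mul_I -
          (deriv (deriv (toS X.l (X.f j))) s + I / 4 * deriv (toS X.l (X.f j)) s) * hi
      · linear_combination (I * (4 * (s : ℂ))⁻¹) * e2 +
          ((4 * (s : ℂ))⁻¹ * (4 * s * deriv (deriv (toS X.l (X.g j))) s +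
            (24 + 4 * (X.l : ℂ)) * deriv (toS X.l (X.g j)) s -
            ((L.P j).V1s s * toS X.l (X.g j) s +
              conj ((L.P j).V2s s) * toS X.l (X.f j) s))) * I_mul_I -
          (deriv (deriv (toS X.l (X.g j))) s - I / 4 * deriv (toS X.l (X.g j)) s) * hi)
    (ub_one ha.le X.sF fun c d h => ⟨(hc D L X c d h).1, (hc D L X c d h).2.1⟩)
    (ub_one ha.le X.sG fun c d h => (hc D L X c d h).2.2)
  intro k hk s h
  exact ⟨hdc _ 41 _ _ cF ((X.sF.of_le (le_inf 42)).mono hs) hU.1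
      (fun s h => (hc D L X s s h).1.tendsto_at (left_mem_Icc.2 le_rfl)) k hk s h,
    hdc _ 41 _ _ cG ((X.sG.of_le (le_inf 42)).mono hs) hU.2
      (fun s h => (hc D L X s s h).2.2.1.tendsto_at (left_mem_Icc.2 le_rfl)) k hk s h⟩

end P139
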