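import Vale.Agent.P139.MADefs

/-! P139 part MA: a limit in the span of the modes that is orthogonal to them vanishes. -/

open Complex Set Filter Topology MeasureTheory
open scoped ContDiff ComplexConjugate InnerProductSpace

noncomputable section
namespace P139

namespace Mclose

theorem dlin {F u v : ℝ → ℂ} {a b : ℂ} (hu : ∀ s, 0 < s → DifferentiableAt ℝ u s)
    (hv : ∀ s, 0 < s → DifferentiableAt ℝ v s) (h : ∀ s, 0 < s → F s = a * u s + b * v s)
    (s : ℝ) (hs : 0 < s) : deriv F s = a * deriv u s + b * deriv v s := by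
  have e : F =ᶠ[𝓝 s] fun s => a * u s + b * v s := by
    filter_upwards [Ioi_mem_nhds hs] with x hx using h x hx
  rw [e.deriv_eq]
  exact (((hu s hs).hasDerivAt.const_mul a).add ((hv s hs).hasDerivAt.const_mul b)).deriv

theorem d1 {u : ℝ → ℂ} (hu : ContDiffOn ℝ ∞ u (Ioi 0)) (s : ℝ) (hs : 0 < s) :
    DifferentiableAt ℝ u s :=
  (hu.contDiffAt (Ioi_mem_nhds hs)).differentiableAt (by simp)

theorem d2 {u : ℝ → ℂ} (hu : ContDiffOn ℝ ∞ u (Ioi 0)) (s : ℝ) (hs : 0 < s) :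
    DifferentiableAt ℝ (deriv u) s := d1 (hu.deriv_of_isOpen isOpen_Ioi (by simp)) s hs

theorem d3 {u : ℝ → ℂ} (hu : ContDiffOn ℝ ∞ u (Ioi 0)) (s : ℝ) (hs : 0 < s) :
    DifferentiableAt ℝ (fun x => conj (u x)) s :=
  conjCLE.differentiableAt.comp s (d1 hu s hs)

end Mclose

open Mclose in
theorem s_close (hyi : S_yi) : S_close := by
  intro D L X hY i₀ i₁ oA oB
  obtain ⟨t₀, t₁, h⟩ := hY
  obtain ⟨s0, s1, he, hi⟩ := hyi D L X.l X.lamL
  have hs : 0 < L.s₁ := by have := L.R_pos; unfold Lim.s₁; positivity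
  have e1 := dlin (d1 s0) (d1 s1) fun s hs => (h s hs).1
  have e2 := dlin (d2 s0) (d2 s1) e1
  have e3 := dlin (d3 s0) (d3 s1) fun s hs => (h s hs).2
  obtain ⟨a0, a1⟩ := hi (X.c₀L - t₀ * (ev0 X.l - X.lamL)) (X.c₁L - t₁ * (1 - X.lamL))
    fun s hs => by
      have b1 := X.eF s hs
      obtain ⟨b2, b3⟩ := he s hs
      unfold FreeF at b1 b2 b3
      rw [e2 s hs, e1 s hs, (h s hs).1] at b1
      linear_combination t₀ * b2 + t₁ * b3 - b1
  have c0 : X.c₀L = t₀ * (ind0 X.l * (ev0 X.l - X.lamL)) := by linear_combination a0 - i₀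
  have c1 : X.c₁L = t₁ * (ind1 X.l * (1 - X.lamL)) := by linear_combination a1 - i₁
  have e : dv X.F X.G L.s₁ X.c₀L X.c₁L = t₀ • vA (y0 L.Th X.l) X.l X.lamL L.s₁ +
      t₁ • vB (y1 L.β L.Th X.l) X.l X.lamL L.s₁ := by
    unfold vA vB dv
    rw [e1 _ hs, e3 _ hs, (h _ hs).1, (h _ hs).2]
    ext i
    fin_cases i <;> simp [← c0, ← c1]
  rw [← inner_self_eq_zero (𝕜 := ℂ)]
  nth_rewrite 1 [e]
  rw [inner_add_left, inner_smul_left, inner_smul_left, oA, oB]
  simp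

end P139
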