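import Vale.Agent.P139.MADefs

/-! P139 part MA: extraction of a convergent normalised sequence. -/

open Complex Set Filter Topology MeasureTheory
open scoped ContDiff ComplexConjugate InnerProductSpace

noncomputable section
namespace P139

namespace Mextr

theorem sm_inv : ContDiffOn ℝ ∞ (fun s : ℝ => (s : ℂ)⁻¹) (Ioi 0) :=
  ofRealCLM.contDiff.contDiffOn.inv fun _ hx => ofReal_ne_zero.2 (ne_of_gt hx)

theorem sm_conj {u : ℝ → ℂ} (h : ContDiffOn ℝ ∞ u (Ioi 0)) :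
    ContDiffOn ℝ ∞ (fun s => conj (u s)) (Ioi 0) :=
  conjCLE.contDiff.comp_contDiffOn h

theorem exF (hode : S_ode) (e : ℂ) (he : e * e = -1) (l : ℕ) (μ : ℂ) {src : ℝ → ℂ}
    (hs : ContDiffOn ℝ ∞ src (Ioi 0)) {s₁ : ℝ} (h₁ : 0 < s₁) (u₀ u₁ : ℂ) :
    ∃ F : ℝ → ℂ, ContDiffOn ℝ ∞ F (Ioi 0) ∧ F s₁ = u₀ ∧ deriv F s₁ = u₁ ∧ ∀ s : ℝ, 0 < s →
      e * (4 * s * deriv (deriv F) s + (24 + 4 * (l : ℂ)) * deriv F s) - s * deriv F s
        - μ * F s = src s := by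
  obtain ⟨F, h1, h2, h3, h4⟩ := hode (fun s => -(6 + (l : ℂ)) * (s : ℂ)⁻¹ - e / 4)
    (fun s => -(e * μ / 4) * (s : ℂ)⁻¹) (fun s => -(e / 4) * (s : ℂ)⁻¹ * src s)
    ((contDiffOn_const.mul sm_inv).sub contDiffOn_const) (contDiffOn_const.mul sm_inv)
    ((contDiffOn_const.mul sm_inv).mul hs) s₁ h₁ u₀ u₁
  refine ⟨F, h1, h2, h3, fun s hs => ?_⟩
  have h0 : (s : ℂ) * (s : ℂ)⁻¹ = 1 := mul_inv_cancel₀ (ofReal_ne_zero.2 hs.ne')
  rw [h4 s hs]
  linear_combination (-(24 + 4 * (l : ℂ)) * e * deriv F s - e * e * μ * F s - e * e * src s) * h0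
    + (-s * deriv F s - μ * F s - src s) * he

theorem tendsto_vec {a b c d e f : ℕ → ℂ} {a' b' c' d' e' f' : ℂ}
    (ha : Tendsto a atTop (𝓝 a')) (hb : Tendsto b atTop (𝓝 b')) (hc : Tendsto c atTop (𝓝 c'))
    (hd : Tendsto d atTop (𝓝 d')) (he : Tendsto e atTop (𝓝 e')) (hf : Tendsto f atTop (𝓝 f')) :
    Tendsto (fun j => (!₂[a j, b j, c j, d j, e j, f j] : EuclideanSpace ℂ (Fin 6))) atTop
      (𝓝 !₂[a', b', c', d', e', f']) := by
  refine ((PiLp.continuous_toLp 2 fun _ : Fin 6 => ℂ).tendsto _).comp (tendsto_pi_nhds.2 ?_)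
  intro i
  fin_cases i
  exacts [ha, hb, hc, hd, he, hf]

theorem tendsto_dv {Y : ℕ → ℝ → ℂ} {Z : ℝ → ℂ} {s : ℝ} {a b : ℕ → ℂ} {a' b' : ℂ}
    (h0 : Tendsto (fun j => Y j s) atTop (𝓝 (Z s)))
    (h1 : Tendsto (fun j => deriv (Y j) s) atTop (𝓝 (deriv Z s)))
    (ha : Tendsto a atTop (𝓝 a')) (hb : Tendsto b atTop (𝓝 b')) :
    Tendsto (fun j => dv (Y j) (fun x => conj (Y j x)) s (a j) (b j)) atTop
      (𝓝 (dv Z (fun x => conj (Z x)) s a' b')) := by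
  have e : ∀ u : ℝ → ℂ, deriv (fun x => conj (u x)) s = conj (deriv u s) := fun u => deriv.star
  unfold dv
  simp only [e]
  exact tendsto_vec h0 h1 ((continuous_conj.tendsto _).comp h0)
    ((continuous_conj.tendsto _).comp h1) ha hb

end Mextr

open Mextr

theorem s_extr (hode : S_ode) (hthc : S_thc) (hyi : S_yi) : S_extr := by
  intro D L l K h
  obtain ⟨φ₁, hφ₁, h1⟩ := extraction_of_frequently_atTop h
  choose lam c₀ c₁ f g hre hK hN using h1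
  have hR := L.R_pos
  have hs : 0 < L.s₁ := by unfold Lim.s₁; positivity
  have hs' : L.R ^ 2 < L.s₁ := by unfold Lim.s₁; nlinarith
  obtain ⟨⟨lamL, v⟩, -, φ₂, hφ₂, hx⟩ := tendsto_subseq_of_bounded
    (s := Metric.closedBall (0 : ℂ) K ×ˢ Metric.closedBall (0 : EuclideanSpace ℂ (Fin 6)) 1)
    (Metric.isBounded_closedBall.prod Metric.isBounded_closedBall)
    (x := fun j => (lam j, dv (toS l (f j)) (toS l (g j)) L.s₁ (c₀ j) (c₁ j)))
    fun j => ⟨mem_closedBall_zero_iff.2 (hK j), mem_closedBall_zero_iff.2 (hN j).one.le⟩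
  have hl : Tendsto (fun j => lam (φ₂ j)) atTop (𝓝 lamL) := (continuous_fst.tendsto _).comp hx
  have hv : Tendsto (fun j => dv (toS l (f (φ₂ j))) (toS l (g (φ₂ j))) L.s₁ (c₀ (φ₂ j))
      (c₁ (φ₂ j))) atTop (𝓝 v) := (continuous_snd.tendsto _).comp hx
  have hc : ∀ i : Fin 6, Tendsto (fun j => dv (toS l (f (φ₂ j))) (toS l (g (φ₂ j))) L.s₁
      (c₀ (φ₂ j)) (c₁ (φ₂ j)) i) atTop (𝓝 (v i)) := fun i =>
    ((EuclideanSpace.proj (𝕜 := ℂ) i).continuous.tendsto _).comp hv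
  obtain ⟨y₀, y₁, -⟩ := hyi D L l 0
  obtain ⟨F, sF, F0, F1, eF⟩ := exF hode I I_mul_I l (lamL - I * L.β + (l : ℂ) / 2)
    (src := fun s => v 4 * y0 L.Th l s + v 5 * y1 L.β L.Th l s)
    ((contDiffOn_const.mul y₀).add (contDiffOn_const.mul y₁)) hs (v 0) (v 1)
  obtain ⟨G, sG, G0, G1, eG⟩ := exF hode (-I) (by rw [neg_mul_neg, I_mul_I]) l
    (lamL + I * L.β + (l : ℂ) / 2)
    (src := fun s => v 4 * conj (y0 L.Th l s) + v 5 * conj (y1 L.β L.Th l s))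
    ((contDiffOn_const.mul (sm_conj y₀)).add (contDiffOn_const.mul (sm_conj y₁))) hs (v 2) (v 3)
  have hφ : Tendsto (φ₁ ∘ φ₂) atTop atTop := (hφ₁.comp hφ₂).tendsto_atTop
  have hvv : dv F G L.s₁ (v 4) (v 5) = v := by
    unfold dv
    rw [F0, F1, G0, G1]
    ext i
    fin_cases i <;> rfl
  obtain ⟨-, -, t1, t2⟩ := hthc D L l
  refine ⟨φ₁ ∘ φ₂, hφ,
    { l := l
      lam := fun j => lam (φ₂ j)
      c₀ := fun j => c₀ (φ₂ j)
      c₁ := fun j => c₁ (φ₂ j)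
      f := fun j => f (φ₂ j)
      g := fun j => g (φ₂ j)
      lamL := lamL
      c₀L := v 4
      c₁L := v 5
      F := F
      G := G
      re := fun j => hre _
      sol := fun j => (hN _).sol
      tl := hl
      t₀ := hc 4
      t₁ := hc 5
      sF := sF
      sG := sG
      eF := eF
      eG := eG
      dF := F0 ▸ hc 0
      dF' := F1 ▸ hc 1
      dG := G0 ▸ hc 2
      dG' := G1 ▸ hc 3 }, ?_, ?_, ?_, ?_, ?_⟩
  · exact tendsto_nhds_unique ((hc 4).const_mul (ind0 l))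
      ((hc 4).congr fun j => (hN (φ₂ j)).i₀.symm)
  · exact tendsto_nhds_unique ((hc 5).const_mul (ind1 l))
      ((hc 5).congr fun j => (hN (φ₂ j)).i₁.symm)
  · show ⟪vA (y0 L.Th l) l lamL L.s₁, dv F G L.s₁ (v 4) (v 5)⟫_ℂ = 0
    rw [hvv]
    have a : Tendsto (fun j => vA ((L.P (φ₁ (φ₂ j))).Y0 l) l (lam (φ₂ j)) L.s₁) atTop
        (𝓝 (vA (y0 L.Th l) l lamL L.s₁)) :=
      tendsto_dv (((t1 L.s₁ L.s₁ hs').1.tendsto_at (left_mem_Icc.2 le_rfl)).comp hφ)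
        ((t2 L.s₁ hs').1.comp hφ) ((hl.const_sub _).const_mul _) tendsto_const_nhds
    exact tendsto_nhds_unique (a.inner hv)
      (tendsto_const_nhds.congr fun j => (hN (φ₂ j)).oA.symm)
  · show ⟪vB (y1 L.β L.Th l) l lamL L.s₁, dv F G L.s₁ (v 4) (v 5)⟫_ℂ = 0
    rw [hvv]
    have a : Tendsto (fun j => vB ((L.P (φ₁ (φ₂ j))).Y1 l) l (lam (φ₂ j)) L.s₁) atTop
        (𝓝 (vB (y1 L.β L.Th l) l lamL L.s₁)) :=
      tendsto_dv (((t1 L.s₁ L.s₁ hs').2.tendsto_at (left_mem_Icc.2 le_rfl)).comp hφ)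
        ((t2 L.s₁ hs').2.comp hφ) tendsto_const_nhds ((hl.const_sub _).const_mul _)
    exact tendsto_nhds_unique (a.inner hv)
      (tendsto_const_nhds.congr fun j => (hN (φ₂ j)).oB.symm)
  · show ‖dv F G L.s₁ (v 4) (v 5)‖ = 1
    rw [hvv]
    exact tendsto_nhds_unique hv.norm (tendsto_const_nhds.congr fun j => (hN (φ₂ j)).one.symm)

end P139
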