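import Vale.Agent.P139.MADefs

/-! P139 part MA: the limit solution is outgoing. -/

open Complex Set Filter Topology MeasureTheory
open scoped ContDiff ComplexConjugate InnerProductSpace

noncomputable section
namespace P139

namespace Mgood

theorem mk_nonneg (l k : ℕ) (F : ℝ → ℂ) {s : ℝ} (hs : 0 ≤ s) : 0 ≤ mk l k F s := by
  unfold mk
  positivity

theorem measurable_mk (l k : ℕ) (hk : 1 ≤ k) (F : ℝ → ℂ) : Measurable (mk l k F) := by
  obtain ⟨k, rfl⟩ : ∃ k', k = k' + 1 := ⟨k - 1, by omega⟩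
  unfold mk
  rw [iteratedDeriv_succ]
  exact ((measurable_deriv _).norm.pow_const 2).mul (measurable_id.pow_const _)

theorem good_of {l k : ℕ} (hk : 1 ≤ k) {u : ℕ → ℝ → ℂ} {F : ℝ → ℂ} (hF : ContDiffOn ℝ ∞ F (Ioi 0))
    {a b B : ℝ} (ha : 0 < a) (hab : a ≤ b)
    (hc : ∀ s, a < s → Tendsto (fun j => iteratedDeriv k (u j) s) atTop (𝓝 (iteratedDeriv k F s)))
    (hB : ∀ᶠ j in atTop, IntegrableOn (mk l k (u j)) (Ioi b) ∧ ∫ s in Ioi b, mk l k (u j) s ≤ B) :
    IntegrableOn (mk l k F) (Ioi a) := by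
  rw [← Ioc_union_Ioi_eq_Ioi hab]
  refine IntegrableOn.union ?_ ?_
  · have h1 : ContinuousOn (iteratedDeriv k F) (Ioi 0) :=
      (hF.continuousOn_iteratedDerivWithin (by exact_mod_cast le_top)
        isOpen_Ioi.uniqueDiffOn).congr (iteratedDerivWithin_of_isOpen isOpen_Ioi).symm
    have h2 : ContinuousOn (mk l k F) (Icc a b) :=
      ((h1.mono fun s hs => lt_of_lt_of_le ha hs.1).norm.pow 2).mul (continuousOn_id.pow _)
    exact h2.integrableOn_Icc.mono_set Ioc_subset_Icc_self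
  · refine integrable_of_tendsto (G := fun j => mk l k (u j)) ?_
      (fun j => (measurable_mk l k hk _).aestronglyMeasurable) ?_
    · filter_upwards [ae_restrict_mem measurableSet_Ioi] with s hs
      exact ((hc s (lt_of_le_of_lt hab hs)).norm.pow 2).mul_const _
    · refine ne_top_of_le_ne_top (ENNReal.ofReal_ne_top (r := B))
        (liminf_le_of_frequently_le' (hB.mono fun j hj => ?_).frequently)
      rw [← ofReal_integral_norm_eq_lintegral_enorm hj.1]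
      refine ENNReal.ofReal_le_ofReal (le_trans (le_of_eq ?_) hj.2)
      refine setIntegral_congr_fun measurableSet_Ioi fun s hs => ?_
      exact Real.norm_of_nonneg (mk_nonneg l k _ (ha.le.trans (hab.trans (le_of_lt hs))))

end Mgood

open Mgood

theorem s_good (hE : S_E) (hck : S_ck) : S_good := by
  intro D L X
  have hR := L.R_pos
  obtain ⟨C, hC⟩ := hE D L X.l (‖X.lamL‖ + 1)
  have hlam : ∀ᶠ j in atTop, ‖X.lam j‖ ≤ ‖X.lamL‖ + 1 :=
    X.tl.norm.eventually_le_const (lt_add_one _)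
  have hd : Tendsto (fun j => C * (dat (toS X.l (X.f j)) (toS X.l (X.g j)) ((L.R + 1) ^ 2) +
      ‖X.c₀ j‖ ^ 2 + ‖X.c₁ j‖ ^ 2)) atTop
      (𝓝 (C * (dat X.F X.G L.s₁ + ‖X.c₀L‖ ^ 2 + ‖X.c₁L‖ ^ 2))) :=
    ((((((X.dF.norm.pow 2).add (X.dF'.norm.pow 2)).add (X.dG.norm.pow 2)).add
      (X.dG'.norm.pow 2)).add (X.t₀.norm.pow 2)).add (X.t₁.norm.pow 2)).const_mul C
  have hB := hd.eventually_le_const (lt_add_one _)
  have hab : L.R ^ 2 ≤ (L.R + 1) ^ 2 := by nlinarith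
  have hnn : ∀ k (F : ℝ → ℂ), 0 ≤ ∫ s in Ioi ((L.R + 1) ^ 2), mk X.l k F s := fun k F =>
    setIntegral_nonneg measurableSet_Ioi fun s hs =>
      mk_nonneg _ _ _ ((sq_nonneg _).trans (le_of_lt hs))
  refine ⟨fun k h7 h41 => ?_, fun k h7 h41 => ?_⟩
  · refine good_of (by omega) X.sF (by positivity) hab
      (fun s hs => (hck D L X k h41 s hs).1)
      (B := C * (dat X.F X.G L.s₁ + ‖X.c₀L‖ ^ 2 + ‖X.c₁L‖ ^ 2) + 1) ?_
    filter_upwards [hC, hlam, hB] with j h1 h2 h3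
    obtain ⟨i1, -, i3⟩ := h1 _ _ _ (X.re j) h2 _ _ (X.sol j) k h7 h41
    exact ⟨i1, by linarith [hnn k (toS X.l (X.g j))]⟩
  · refine good_of (by omega) X.sG (by positivity) hab
      (fun s hs => (hck D L X k h41 s hs).2)
      (B := C * (dat X.F X.G L.s₁ + ‖X.c₀L‖ ^ 2 + ‖X.c₁L‖ ^ 2) + 1) ?_
    filter_upwards [hC, hlam, hB] with j h1 h2 h3
    obtain ⟨-, i2, i3⟩ := h1 _ _ _ (X.re j) h2 _ _ (X.sol j) k h7 h41
    exact ⟨i2, by linarith [hnn k (toS X.l (X.f j))]⟩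

end P139
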