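import Vale.Agent.P139.MADefs

/-! P139: two-sided Gronwall for sequences. -/

open Set Filter Topology

namespace P139

namespace Mgr

theorem fwd {V : Type} [NormedAddCommGroup V] [NormedSpace ℝ V] {w w' : ℝ → V} {a b K e : ℝ}
    (hK : 1 ≤ K) (he : 0 ≤ e) (hw : ∀ s ∈ Icc a b, HasDerivAt w (w' s) s)
    (hb : ∀ s ∈ Icc a b, ‖w' s‖ ≤ K * ‖w s‖ + e) (h0 : ‖w a‖ ≤ e) :
    ∀ s ∈ Icc a b, ‖w s‖ ≤ 2 * e * Real.exp (K * (b - a)) := by
  intro s hs
  have h := norm_le_gronwallBound_of_norm_deriv_right_le (f := w) (f' := w') (δ := e) (K := K)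
    (ε := e) (a := a) (b := b) (fun s hs => (hw s hs).continuousAt.continuousWithinAt)
    (fun s hs => (hw s (Ico_subset_Icc_self hs)).hasDerivWithinAt) h0
    (fun s hs => hb s (Ico_subset_Icc_self hs)) s hs
  rw [gronwallBound_of_K_ne_0 (by linarith)] at h
  have h1 : Real.exp (K * (s - a)) ≤ Real.exp (K * (b - a)) :=
    Real.exp_le_exp.2 (mul_le_mul_of_nonneg_left (by linarith [hs.2]) (by linarith))
  have h2 : e / K ≤ e := div_le_self he hK
  have h3 : 0 ≤ e / K := by positivity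
  have h4 := Real.exp_pos (K * (s - a))
  simp only at h
  nlinarith [mul_le_mul_of_nonneg_left h1 he, mul_le_mul_of_nonneg_right h2 h4.le]

end Mgr

theorem s_gr : S_gr := by
  intro V _ _ w w' c d s₁ K hs hw hb h0 ε hε
  set K' := max K 1
  have hK : 1 ≤ K' := le_max_right _ _
  set e := ε / (2 * Real.exp (K' * (d - c))) with he
  have e0 : 0 < e := by positivity
  have hm : ∀ x, x ≤ d - c → 2 * e * Real.exp (K' * x) ≤ ε := fun x hx => by
    calc 2 * e * Real.exp (K' * x) ≤ 2 * e * Real.exp (K' * (d - c)) := by gcongr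
      _ = ε := by rw [he]; field_simp
  have h1 : ∀ᶠ j in atTop, ‖w j s₁‖ ≤ e := by
    have := h0.norm
    rw [norm_zero] at this
    exact (this.eventually (gt_mem_nhds e0)).mono fun _ h => h.le
  filter_upwards [hb e e0, h1] with j hb h1 s hs'
  have hb' : ∀ s ∈ Icc c d, ‖w' j s‖ ≤ K' * ‖w j s‖ + e := fun s hs =>
    (hb s hs).trans (by gcongr; exact le_max_left _ _)
  rcases le_total s₁ s with h | h
  · have hsub : Icc s₁ d ⊆ Icc c d := Icc_subset_Icc_left hs.1
    exact (Mgr.fwd hK e0.le (fun s hs => hw j s (hsub hs)) (fun s hs => hb' s (hsub hs)) h1 s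
      ⟨h, hs'.2⟩).trans (hm _ (by linarith [hs.1]))
  · have hsub : ∀ t ∈ Icc (-s₁) (-c), -t ∈ Icc c d := fun t ht =>
      ⟨by linarith [ht.2], by linarith [ht.1, hs.2]⟩
    have := Mgr.fwd (w := fun t => w j (-t)) (w' := fun t => -w' j (-t)) (a := -s₁) (b := -c) hK
      e0.le (fun t ht => by
        simpa [Function.comp_def] using (hw j _ (hsub t ht)).scomp t (hasDerivAt_neg t))
      (fun t ht => by rw [norm_neg]; exact hb' _ (hsub t ht)) (by simpa using h1) (-s)
      ⟨by linarith, by linarith [hs'.1]⟩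
    rw [neg_neg] at this
    exact this.trans (hm _ (by linarith [hs.2]))

end P139
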