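import Vale.Agent.P139.MADefs

/-! P139 part MA: the profiles satisfy the hypotheses of the boundary-layer lemma. -/

open Complex Set Filter Topology MeasureTheory
open scoped ContDiff ComplexConjugate

noncomputable section
namespace P139
namespace Mhv

variable {m : ℕ}

/-- differentiable on `(0,∞)`, bounded with bounded derivative on `(0,T]` -/
def Bd (T : ℝ) (u : ℝ → ℂ) : Prop :=
  (∀ r : ℝ, 0 < r → DifferentiableAt ℝ u r) ∧
    ∃ B : ℝ, ∀ r ∈ Ioc (0 : ℝ) T, ‖u r‖ ≤ B ∧ ‖deriv u r‖ ≤ B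

theorem bd_adm (T : ℝ) {f : ℝ → ℂ} (hf : Adm f) : Bd T f := by
  refine ⟨fun r hr => ?_, ?_⟩
  · exact (hf.1.contDiffAt (Ioi_mem_nhds hr)).differentiableAt (by norm_num)
  · obtain ⟨C₀, h₀⟩ := hf.2 0 (by norm_num)
    obtain ⟨C₁, h₁⟩ := hf.2 1 (by norm_num)
    refine ⟨max C₀ C₁, fun r hr => ⟨?_, ?_⟩⟩
    · have := h₀ r hr.1
      rw [iteratedDeriv_zero] at this
      exact this.trans (le_max_left _ _)
    · have := h₁ r hr.1
      rw [iteratedDeriv_one] at this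
      exact this.trans (le_max_right _ _)

theorem bd_smooth (T : ℝ) {h : ℝ → ℂ} (hh : ContDiff ℝ 1 h) : Bd T h := by
  refine ⟨fun r _ => hh.differentiable (by norm_num) r, ?_⟩
  obtain ⟨C₀, h₀⟩ := (isCompact_Icc (a := (0 : ℝ)) (b := T)).exists_bound_of_continuousOn
    hh.continuous.continuousOn
  obtain ⟨C₁, h₁⟩ := (isCompact_Icc (a := (0 : ℝ)) (b := T)).exists_bound_of_continuousOn
    (hh.continuous_deriv le_rfl).continuousOn
  exact ⟨max C₀ C₁, fun r hr => ⟨(h₀ r (Ioc_subset_Icc_self hr)).trans (le_max_left _ _),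
    (h₁ r (Ioc_subset_Icc_self hr)).trans (le_max_right _ _)⟩⟩

theorem bd_add {T : ℝ} {u v : ℝ → ℂ} (hu : Bd T u) (hv : Bd T v) :
    Bd T (fun r => u r + v r) := by
  obtain ⟨du, B, hB⟩ := hu
  obtain ⟨dv, C, hC⟩ := hv
  refine ⟨fun r hr => (du r hr).add (dv r hr), B + C, fun r hr => ⟨?_, ?_⟩⟩
  · exact (norm_add_le _ _).trans (add_le_add (hB r hr).1 (hC r hr).1)
  · rw [((du r hr.1).hasDerivAt.fun_add (dv r hr.1).hasDerivAt).deriv]
    exact (norm_add_le _ _).trans (add_le_add (hB r hr).2 (hC r hr).2)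

theorem bd_mul {T : ℝ} {u v : ℝ → ℂ} (hu : Bd T u) (hv : Bd T v) :
    Bd T (fun r => u r * v r) := by
  obtain ⟨du, B, hB⟩ := hu
  obtain ⟨dv, C, hC⟩ := hv
  refine ⟨fun r hr => (du r hr).mul (dv r hr), 2 * (B * C), fun r hr => ?_⟩
  have hB0 : 0 ≤ B := (norm_nonneg _).trans (hB r hr).1
  have hC0 : 0 ≤ C := (norm_nonneg _).trans (hC r hr).1
  have h1 : ‖u r * v r‖ ≤ B * C := by
    rw [norm_mul]; exact mul_le_mul (hB r hr).1 (hC r hr).1 (norm_nonneg _) hB0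
  have h2 : ‖deriv u r * v r‖ ≤ B * C := by
    rw [norm_mul]; exact mul_le_mul (hB r hr).2 (hC r hr).1 (norm_nonneg _) hB0
  have h3 : ‖u r * deriv v r‖ ≤ B * C := by
    rw [norm_mul]; exact mul_le_mul (hB r hr).1 (hC r hr).2 (norm_nonneg _) hB0
  have h4 : 0 ≤ B * C := mul_nonneg hB0 hC0
  refine ⟨by linarith, ?_⟩
  rw [((du r hr.1).hasDerivAt.fun_mul (dv r hr.1).hasDerivAt).deriv]
  exact (norm_add_le _ _).trans (by linarith)

theorem conj_smooth {q : ℝ → ℂ} (hq : ContDiff ℝ 1 q) : ContDiff ℝ 1 (fun r => conj (q r)) :=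
  Complex.conjCLE.contDiff.comp hq

theorem bd_al_th (P : Prof m) (T : ℝ) (hq : ContDiff ℝ ∞ P.q) (hne : ∀ r, P.q r ≠ 0)
    {f g : ℝ → ℂ} (hf : Adm f) (hg : Adm g) : Bd T (P.al f g) ∧ Bd T (P.th f g) := by
  have hq1 : ContDiff ℝ 1 P.q := hq.of_le (by norm_num)
  have h1 : Bd T (fun r => (P.q r)⁻¹) := bd_smooth T (hq1.inv hne)
  have h2 : Bd T (fun r => (conj (P.q r))⁻¹) :=
    bd_smooth T ((conj_smooth hq1).inv fun r => by simpa using hne r)
  have hc : ∀ c : ℂ, Bd T (fun _ => c) := fun c => bd_smooth T contDiff_const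
  have e1 : P.al f g = fun r => (f r * (P.q r)⁻¹ + g r * (conj (P.q r))⁻¹) * (2 : ℂ)⁻¹ := by
    funext r; simp only [Prof.al, div_eq_mul_inv]
  have e2 : P.th f g = fun r =>
      (f r * (P.q r)⁻¹ + (-1 : ℂ) * (g r * (conj (P.q r))⁻¹)) * (2 * I)⁻¹ := by
    funext r; simp only [Prof.th, div_eq_mul_inv]; ring
  constructor
  · rw [e1]
    exact bd_mul (bd_add (bd_mul (bd_adm T hf) h1) (bd_mul (bd_adm T hg) h2)) (hc _)
  · rw [e2]
    exact bd_mul (bd_add (bd_mul (bd_adm T hf) h1) (bd_mul (hc _) (bd_mul (bd_adm T hg) h2))) (hc _)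

/-- `q'/q` -/
def w (P : Prof m) (r : ℝ) : ℂ := deriv P.q r / P.q r
/-- `z0/q` -/
def a0 (P : Prof m) (l : ℕ) (r : ℝ) : ℂ := if l = 0 then I else if l = 1 then w P r else 0
/-- `z1/q` -/
def a1 (P : Prof m) (l : ℕ) (r : ℝ) : ℂ :=
  if l = 0 then ((gam m : ℂ) - I * P.β) + (r : ℂ) / 2 * w P r else 0

def S1 (P : Prof m) (l : ℕ) (c₀ c₁ : ℂ) (r : ℝ) : ℂ :=
  c₀ * ((a0 P l r).re : ℂ) + c₁ * ((a1 P l r).re : ℂ)
def S2 (P : Prof m) (l : ℕ) (c₀ c₁ : ℂ) (r : ℝ) : ℂ :=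
  c₀ * ((a0 P l r).im : ℂ) + c₁ * ((a1 P l r).im : ℂ)

theorem z0_eq (P : Prof m) (l : ℕ) (r : ℝ) (h : P.q r ≠ 0) : P.z0 l r = a0 P l r * P.q r := by
  unfold Prof.z0 a0 w
  split_ifs
  · rfl
  · field_simp
  · simp

theorem z1_eq (P : Prof m) (l : ℕ) (r : ℝ) (h : P.q r ≠ 0) : P.z1 l r = a1 P l r * P.q r := by
  unfold Prof.z1 a1 w
  split_ifs
  · field_simp
  · simp

theorem w_cont (P : Prof m) (hq : ContDiff ℝ ∞ P.q) (hne : ∀ r, P.q r ≠ 0) :
    Continuous (w P) :=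
  (hq.continuous_deriv (by norm_num)).div hq.continuous hne

theorem a0_cont (P : Prof m) (l : ℕ) (hw : Continuous (w P)) : Continuous (a0 P l) := by
  unfold a0
  split_ifs
  · exact continuous_const
  · exact hw
  · exact continuous_const

theorem a1_cont (P : Prof m) (l : ℕ) (hw : Continuous (w P)) : Continuous (a1 P l) := by
  unfold a1
  split_ifs
  · exact continuous_const.add ((continuous_ofReal.div_const _).mul hw)
  · exact continuous_const

theorem S1_cont (P : Prof m) (l : ℕ) (c₀ c₁ : ℂ) (hw : Continuous (w P)) :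
    Continuous (S1 P l c₀ c₁) :=
  (continuous_const.mul (continuous_ofReal.comp (continuous_re.comp (a0_cont P l hw)))).add
    (continuous_const.mul (continuous_ofReal.comp (continuous_re.comp (a1_cont P l hw))))

theorem S2_cont (P : Prof m) (l : ℕ) (c₀ c₁ : ℂ) (hw : Continuous (w P)) :
    Continuous (S2 P l c₀ c₁) :=
  (continuous_const.mul (continuous_ofReal.comp (continuous_im.comp (a0_cont P l hw)))).add
    (continuous_const.mul (continuous_ofReal.comp (continuous_im.comp (a1_cont P l hw))))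

theorem al_src (P : Prof m) (l : ℕ) (lam c₀ c₁ : ℂ) (f g : ℝ → ℂ) (hne : ∀ r, P.q r ≠ 0)
    (hs : P.Sol l lam c₀ c₁ f g) (r : ℝ) (hr : 0 < r) :
    P.al (fun x => P.LF l f g x - lam * f x) (fun x => P.LG l f g x - lam * g x) r
      = S1 P l c₀ c₁ r := by
  have h1 := hne r
  have h2 : conj (P.q r) ≠ 0 := by simpa using h1
  unfold Prof.al S1
  beta_reduce
  rw [hs.eF r hr, hs.eG r hr, z0_eq P l r h1, z1_eq P l r h1, Complex.re_eq_add_conj,
    Complex.re_eq_add_conj, map_mul, map_mul]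
  field_simp
  ring

theorem th_src (P : Prof m) (l : ℕ) (lam c₀ c₁ : ℂ) (f g : ℝ → ℂ) (hne : ∀ r, P.q r ≠ 0)
    (hs : P.Sol l lam c₀ c₁ f g) (r : ℝ) (hr : 0 < r) :
    P.th (fun x => P.LF l f g x - lam * f x) (fun x => P.LG l f g x - lam * g x) r
      = S2 P l c₀ c₁ r := by
  have h1 := hne r
  have h2 : conj (P.q r) ≠ 0 := by simpa using h1
  unfold Prof.th S2
  beta_reduce
  rw [hs.eF r hr, hs.eG r hr, z0_eq P l r h1, z1_eq P l r h1, Complex.im_eq_sub_conj,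
    Complex.im_eq_sub_conj, map_mul, map_mul]
  field_simp
  ring

theorem comb_le (c₀ c₁ : ℂ) (x y K : ℝ) (hx : |x| ≤ K) (hy : |y| ≤ K) :
    ‖c₀ * (x : ℂ) + c₁ * (y : ℂ)‖ ≤ K * (‖c₀‖ + ‖c₁‖) := by
  refine (norm_add_le _ _).trans ?_
  rw [norm_mul, norm_mul, Complex.norm_real, Complex.norm_real, Real.norm_eq_abs, Real.norm_eq_abs]
  have h1 := mul_le_mul_of_nonneg_left hx (norm_nonneg c₀)
  have h2 := mul_le_mul_of_nonneg_left hy (norm_nonneg c₁)
  linarith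

theorem gam_bounds (hm : 1 ≤ m) : 0 < gam m ∧ gam m ≤ 1 / 2 := by
  have h : (1 : ℝ) ≤ m := by exact_mod_cast hm
  unfold gam
  refine ⟨by positivity, ?_⟩
  exact one_div_le_one_div_of_le (by norm_num) (by linarith)

theorem a0_norm (P : Prof m) (l : ℕ) (r M : ℝ) (hM : ‖w P r‖ ≤ M) : ‖a0 P l r‖ ≤ 1 + M := by
  have h0 : 0 ≤ M := (norm_nonneg _).trans hM
  unfold a0
  split_ifs
  · rw [Complex.norm_I]; linarith
  · linarith
  · rw [norm_zero]; linarith

theorem a1_norm (P : Prof m) (hm : 1 ≤ m) (l : ℕ) (r M : ℝ) (hM : ‖w P r‖ ≤ M) (hβ : |P.β| ≤ 1)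
    (hr0 : 0 ≤ r) (hr : r ≤ 6) : ‖a1 P l r‖ ≤ 2 + 3 * M := by
  have h0 : 0 ≤ M := (norm_nonneg _).trans hM
  obtain ⟨g0, g1⟩ := gam_bounds hm
  unfold a1
  split_ifs
  · have e1 : ‖((gam m : ℂ) - I * P.β)‖ ≤ 2 := by
      refine (norm_sub_le _ _).trans ?_
      rw [norm_mul, Complex.norm_I, Complex.norm_real, Complex.norm_real, Real.norm_eq_abs,
        Real.norm_eq_abs, abs_of_pos g0]
      linarith
    have e2 : ‖(r : ℂ) / 2 * w P r‖ ≤ 3 * M := by
      rw [norm_mul, norm_div, Complex.norm_real, Real.norm_eq_abs, abs_of_nonneg hr0,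
        Complex.norm_two]
      exact mul_le_mul (by linarith) hM (norm_nonneg _) (by norm_num)
    exact (norm_add_le _ _).trans (add_le_add e1 e2)
  · rw [norm_zero]; linarith

theorem a0_re (P : Prof m) (l : ℕ) (r M : ℝ) (hM : ‖w P r‖ ≤ M) : |(a0 P l r).re| ≤ M := by
  have h0 : 0 ≤ M := (norm_nonneg _).trans hM
  unfold a0
  split_ifs
  · simpa using h0
  · exact (Complex.abs_re_le_norm _).trans hM
  · simpa using h0

theorem a1_re (P : Prof m) (hm : 1 ≤ m) (l : ℕ) (r M : ℝ) (hM : ‖w P r‖ ≤ M)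
    (hr0 : 0 ≤ r) (hr : r ≤ 6) : |(a1 P l r).re| ≤ gam m + 3 * M := by
  have h0 : 0 ≤ M := (norm_nonneg _).trans hM
  obtain ⟨g0, g1⟩ := gam_bounds hm
  unfold a1
  split_ifs
  · have e2 : ‖(r : ℂ) / 2 * w P r‖ ≤ 3 * M := by
      rw [norm_mul, norm_div, Complex.norm_real, Real.norm_eq_abs, abs_of_nonneg hr0,
        Complex.norm_two]
      exact mul_le_mul (by linarith) hM (norm_nonneg _) (by norm_num)
    have e1 : ((gam m : ℂ) - I * P.β).re = gam m := by simp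
    rw [Complex.add_re, e1]
    refine (abs_add_le _ _).trans ?_
    rw [abs_of_pos g0]
    exact add_le_add le_rfl ((Complex.abs_re_le_norm _).trans e2)
  · rw [Complex.zero_re, abs_zero]; linarith

variable {D : FreeData}

theorem R_bounds (L : Lim D) : 2 ≤ L.R ∧ L.R ≤ 4 := by
  have h1 := L.hx.1
  have h2 := L.hx.2
  have h3 := D.hx.1
  have h4 := D.hx.2.2
  have h5 := L.R_pos
  constructor <;> nlinarith

theorem β_bounds (L : Lim D) : 3 / 10 < L.β ∧ L.β < 4 / 10 :=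
  ⟨D.hβ.1.trans_le L.hβ.1, L.hβ.2.trans_lt D.hβ.2.2⟩

theorem β_ev (L : Lim D) : ∀ᶠ j in atTop, |(L.P j).β| ≤ 1 := by
  obtain ⟨h1, h2⟩ := β_bounds L
  have h := L.β_lim.eventually (Icc_mem_nhds (a := (-1 : ℝ)) (b := 1) (by linarith) (by linarith))
  exact h.mono fun j hj => abs_le.2 hj

theorem gam_ev (L : Lim D) (ε : ℝ) (hε : 0 < ε) : ∀ᶠ j in atTop, gam (L.m j) ≤ ε := by
  have h : Tendsto (fun j => (L.m j : ℝ)) atTop atTop :=
    tendsto_natCast_atTop_atTop.comp L.m_lim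
  filter_upwards [h.eventually_ge_atTop (1 / ε)] with j hj
  have h1 : (1 : ℝ) ≤ L.m j := by exact_mod_cast L.m_pos j
  unfold gam
  rw [div_le_iff₀ (by linarith)]
  rw [div_le_iff₀ hε] at hj
  nlinarith

/-- uniform bounds on `[0,5]` -/
theorem unif (L : Lim D) (hq : ∀ j, ContDiff ℝ ∞ (L.P j).q) :
    ∃ c B : ℝ, 0 < c ∧ 0 < B ∧ ∀ᶠ j in atTop, ∀ r ∈ Icc (0 : ℝ) 5,
      c ≤ ‖(L.P j).q r‖ ∧ ‖(L.P j).q r‖ ≤ B ∧ ‖deriv (L.P j).q r‖ ≤ B := by
  have c0 : ContinuousOn L.qi (Icc 0 5) :=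
    (L.conv 5).continuousOn (Frequently.of_forall fun j => (hq j).continuous.continuousOn)
  have c1 : ContinuousOn (deriv L.qi) (Icc 0 5) :=
    (L.conv' 5).continuousOn (Frequently.of_forall fun j =>
      ((hq j).continuous_deriv (by norm_num)).continuousOn)
  obtain ⟨C₀, h₀⟩ := (isCompact_Icc (a := (0 : ℝ)) (b := 5)).exists_bound_of_continuousOn c0
  obtain ⟨C₁, h₁⟩ := (isCompact_Icc (a := (0 : ℝ)) (b := 5)).exists_bound_of_continuousOn c1
  obtain ⟨r₀, _, hmin⟩ := (isCompact_Icc (a := (0 : ℝ)) (b := 5)).exists_isMinOn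
    ⟨0, by constructor <;> norm_num⟩ c0.norm
  have hc : 0 < ‖L.qi r₀‖ := norm_pos_iff.2 (L.qi_ne r₀)
  have hC₀ : 0 ≤ C₀ := (norm_nonneg _).trans (h₀ 0 (by constructor <;> norm_num))
  have hC₁ : 0 ≤ C₁ := (norm_nonneg _).trans (h₁ 0 (by constructor <;> norm_num))
  refine ⟨‖L.qi r₀‖ / 2, C₀ + C₁ + ‖L.qi r₀‖, by positivity, by positivity, ?_⟩
  filter_upwards [Metric.tendstoUniformlyOn_iff.1 (L.conv 5) (‖L.qi r₀‖ / 2) (by positivity),
    Metric.tendstoUniformlyOn_iff.1 (L.conv' 5) (‖L.qi r₀‖ / 2) (by positivity)] with j h2 h3 r hr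
  have e2 := h2 r hr
  have e3 := h3 r hr
  rw [dist_eq_norm] at e2 e3
  have e4 : ‖L.qi r₀‖ ≤ ‖L.qi r‖ := hmin hr
  have e5 := h₀ r hr
  have e6 := h₁ r hr
  have e7 := norm_sub_norm_le (L.qi r) ((L.P j).q r)
  have e8 := norm_sub_norm_le ((L.P j).q r) (L.qi r)
  have e9 := norm_sub_norm_le (deriv (L.P j).q r) (deriv L.qi r)
  rw [norm_sub_rev] at e8 e9
  refine ⟨by linarith, by linarith, by linarith⟩

theorem qi_inner (L : Lim D) (r : ℝ) (h0 : 0 ≤ r) (hr : r < L.R) :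
    L.qi r = 1 ∧ deriv L.qi r = 0 := by
  have hR := L.R_pos
  have h : L.qi =ᶠ[𝓝 r] fun _ => (1 : ℂ) := by
    filter_upwards [Icc_mem_nhds (a := -L.R) (b := L.R) (x := r) (by linarith) hr] with x hx
    rw [L.qi_def x, if_pos (abs_le.2 hx)]
  exact ⟨h.eq_of_nhds, by rw [h.deriv_eq, deriv_const]⟩

theorem w_small (L : Lim D) (R₀ η : ℝ) (hR : R₀ < L.R) (hη : 0 < η) :
    ∀ᶠ j in atTop, ∀ r ∈ Icc (0 : ℝ) R₀, ‖w (L.P j) r‖ ≤ η := by
  filter_upwards [Metric.tendstoUniformlyOn_iff.1 (L.conv R₀) (1 / 2) (by positivity),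
    Metric.tendstoUniformlyOn_iff.1 (L.conv' R₀) (η / 2) (by positivity)] with j h2 h3 r hr
  have e2 := h2 r hr
  have e3 := h3 r hr
  obtain ⟨e4, e5⟩ := qi_inner L r hr.1 (hr.2.trans_lt hR)
  rw [dist_eq_norm, e4] at e2
  rw [dist_eq_norm, e5, zero_sub, norm_neg] at e3
  have e7 := norm_sub_norm_le (1 : ℂ) ((L.P j).q r)
  rw [norm_one] at e7
  unfold w
  rw [norm_div, div_le_iff₀ (by linarith)]
  nlinarith

theorem WW_large (L : Lim D) (R₀ Λ : ℝ) (hR : R₀ < L.R) :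
    ∀ᶠ j in atTop, ∀ r ∈ Icc (0 : ℝ) R₀, Λ ≤ (L.P j).WW r := by
  have h : Tendsto (fun j => (L.m j : ℝ)) atTop atTop :=
    tendsto_natCast_atTop_atTop.comp L.m_lim
  filter_upwards [L.inside R₀ hR, h.eventually_ge_atTop (10 * Λ)] with j h1 h2 r hr
  have e1 := h1 r hr
  have e2 := (β_bounds L).1
  have e3 : (0 : ℝ) ≤ L.m j := Nat.cast_nonneg _
  unfold Prof.WW
  have e4 : (1 : ℝ) / 20 ≤ ‖(L.P j).q r‖ ^ (2 * L.m j) := by linarith
  have e5 := mul_le_mul_of_nonneg_left e4 e3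
  linarith

end Mhv

open Mhv in
theorem s_hv (hhyd : S_hyd) : S_hv := by
  intro D L l K₀
  have hq : ∀ j, ContDiff ℝ ∞ (L.P j).q := fun j => (hhyd _ (L.P j) (L.m_pos j)).1.1
  obtain ⟨c, B, hc, hB, hu⟩ := unif L hq
  obtain ⟨hR2, hR4⟩ := R_bounds L
  have hM : 0 < B / c := by positivity
  have hc2 : 0 < 1 / c ^ 2 := by positivity
  have hB2 : 0 < B ^ 2 := by positivity
  have hK0 := abs_nonneg K₀
  have hK1 := le_abs_self K₀
  refine ⟨5 + |K₀| + 1 / c ^ 2 + B ^ 2 + 3 * (B / c), fun T hT1 hT2 Λ ε hΛ hε => ?_⟩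
  have hR₀ : 2 * L.R - T < L.R := by linarith
  filter_upwards [hu, β_ev L, gam_ev L (ε / 2) (by positivity),
    w_small L (2 * L.R - T) (ε / 6) hR₀ (by positivity), WW_large L (2 * L.R - T) Λ hR₀]
    with j hj hβ hγ hw hW lam c₀ c₁ f g hlam hs
  obtain ⟨⟨-, hne, slr, sU, sW, dρ, -, dU⟩, heq⟩ := hhyd _ (L.P j) (L.m_pos j)
  obtain ⟨sα, sθ, heq⟩ := heq l lam f g hs.af.1 hs.ag.1
  obtain ⟨g0, g1⟩ := gam_bounds (L.m_pos j)
  have hwc := w_cont (L.P j) (hq j) hne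
  have hwM : ∀ r ∈ Icc (0 : ℝ) T, ‖w (L.P j) r‖ ≤ B / c := by
    intro r hr
    obtain ⟨e1, -, e3⟩ := hj r ⟨hr.1, by linarith [hr.2]⟩
    unfold w
    rw [norm_div]
    exact div_le_div₀ hB.le e3 hc e1
  refine ⟨S1 (L.P j) l c₀ c₁, S2 (L.P j) l c₀ c₁,
    { hK := by linarith
      hR := by linarith
      hT := by linarith
      hTK := by linarith
      hτ := by linarith
      hΛ := hΛ
      hε := hε.le
      hc := by positivity
      hκ := by rw [abs_le]; constructor <;> linarith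
      hlam := by linarith
      sα := sα.of_le (by norm_num)
      sθ := sθ.of_le (by norm_num)
      bd := ?_
      cS₁ := (S1_cont _ _ _ _ hwc).continuousOn
      cS₂ := (S2_cont _ _ _ _ hwc).continuousOn
      clr := slr.continuous
      cU := sU.continuous
      cW := sW.continuous
      dρ := dρ
      dU := dU
      bρ := fun r hr => ?_
      bS := fun r hr => ?_
      inner := fun r hr => ?_
      e₁ := fun r hr => by
        rw [(heq r hr).1, al_src _ _ _ _ _ _ _ hne hs r hr]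
      e₂ := fun r hr => by
        rw [(heq r hr).2, th_src _ _ _ _ _ _ _ hne hs r hr] }⟩
  · obtain ⟨⟨-, B₁, h₁⟩, ⟨-, B₂, h₂⟩⟩ := bd_al_th (L.P j) T (hq j) hne hs.af hs.ag
    exact ⟨max B₁ B₂, fun r hr => ⟨(h₁ r hr).1.trans (le_max_left _ _),
      (h₁ r hr).2.trans (le_max_left _ _), (h₂ r hr).1.trans (le_max_right _ _),
      (h₂ r hr).2.trans (le_max_right _ _)⟩⟩
  · obtain ⟨e1, e2, -⟩ := hj r ⟨hr.1, by linarith [hr.2]⟩
    have e3 := hwM r hr
    have e4 : c ^ 2 ≤ (L.P j).rho r := pow_le_pow_left₀ hc.le e1 2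
    have e5 : (L.P j).rho r ≤ B ^ 2 := pow_le_pow_left₀ (norm_nonneg _) e2 2
    have e6 : |(w (L.P j) r).re| ≤ B / c := (Complex.abs_re_le_norm _).trans e3
    have e7 : |(w (L.P j) r).im| ≤ B / c := (Complex.abs_im_le_norm _).trans e3
    have e8 : (L.P j).lr r = 2 * (w (L.P j) r).re := rfl
    have e9 : (L.P j).UU r = r / 2 + 2 * (w (L.P j) r).im := rfl
    rw [abs_le] at e6 e7
    refine ⟨?_, by linarith, ?_, ?_, ?_⟩
    · refine le_trans ?_ e4
      have e10 : 1 / c ^ 2 ≤ 5 + |K₀| + 1 / c ^ 2 + B ^ 2 + 3 * (B / c) := by linarith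
      have e11 := one_div_le_one_div_of_le hc2 e10
      rwa [one_div_one_div] at e11
    · rw [e8, abs_le]; constructor <;> linarith [e6.1, e6.2]
    · rw [e9, abs_le]; constructor <;> linarith [e7.1, e7.2, hr.1, hr.2]
    · unfold Prof.WW; positivity
  · have e3 := hwM r (Ioc_subset_Icc_self hr)
    have e4 := a0_norm (L.P j) l r _ e3
    have e5 := a1_norm (L.P j) (L.m_pos j) l r _ e3 hβ hr.1.le (by linarith [hr.2])
    constructor
    · exact comb_le _ _ _ _ _ ((Complex.abs_re_le_norm _).trans (by linarith))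
        ((Complex.abs_re_le_norm _).trans (by linarith))
    · exact comb_le _ _ _ _ _ ((Complex.abs_im_le_norm _).trans (by linarith))
        ((Complex.abs_im_le_norm _).trans (by linarith))
  · have e3 := hw r (Ioc_subset_Icc_self hr)
    have e4 := a0_re (L.P j) l r _ e3
    have e5 := a1_re (L.P j) (L.m_pos j) l r _ e3 hr.1.le (by linarith [hr.2])
    have e6 : |(w (L.P j) r).re| ≤ ε / 6 := (Complex.abs_re_le_norm _).trans e3
    have e8 : (L.P j).lr r = 2 * (w (L.P j) r).re := rfl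
    rw [abs_le] at e6
    refine ⟨hW r (Ioc_subset_Icc_self hr), ?_, ?_⟩
    · rw [e8, abs_le]; constructor <;> linarith [e6.1, e6.2]
    · exact comb_le _ _ _ _ _ (by linarith) (by linarith)

end P139
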