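import Vale.Agent.P139.MDefs

/-! P139 part M: hydrodynamic form of the system. -/

open Complex Set Filter Topology MeasureTheory
open scoped ContDiff ComplexConjugate

noncomputable section
namespace P139

namespace Mhyd

theorem le48 : (48 : WithTop ℕ∞) ≤ ∞ := WithTop.coe_le_coe.2 (le_top : (48 : ℕ∞) ≤ ⊤)

theorem hd_sq {F : ℝ → ℂ} {F' : ℂ} {r : ℝ} (h : HasDerivAt F F' (r ^ 2)) :
    HasDerivAt (fun x : ℝ => F (x ^ 2)) (2 * r * F') r := by
  have h1 := HasDerivAt.scomp (h := fun x : ℝ => x ^ 2) r h (hasDerivAt_pow 2 r)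
  refine h1.congr_deriv ?_
  simp

theorem hd_on {n : WithTop ℕ∞} {F : ℝ → ℂ} {a s : ℝ} (h : ContDiffOn ℝ n F (Ioi a)) (hn : n ≠ 0)
    (hs : a < s) : HasDerivAt F (deriv F s) s :=
  ((h.contDiffAt (Ioi_mem_nhds hs)).differentiableAt hn).hasDerivAt

theorem hd1 {u : ℝ → ℂ} (hu : ContDiffOn ℝ 48 u (Ioi 0)) {r : ℝ} (hr : 0 < r) :
    HasDerivAt u (deriv u r) r := hd_on hu (by norm_num) hr

theorem hd2 {u : ℝ → ℂ} (hu : ContDiffOn ℝ 48 u (Ioi 0)) {r : ℝ} (hr : 0 < r) :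
    HasDerivAt (deriv u) (deriv (deriv u) r) r :=
  hd_on (n := 47) (hu.deriv_of_isOpen isOpen_Ioi (by norm_num)) (by norm_num) hr

theorem prod2 {p u : ℝ → ℂ} (hp : ContDiffOn ℝ 48 p (Ioi 0)) (hu : ContDiffOn ℝ 48 u (Ioi 0))
    {r : ℝ} (hr : 0 < r) :
    deriv (fun x => p x * u x) r = deriv p r * u r + p r * deriv u r ∧
    deriv (deriv fun x => p x * u x) r =
      deriv (deriv p) r * u r + 2 * (deriv p r * deriv u r) + p r * deriv (deriv u) r := by
  have h1 : ∀ r : ℝ, 0 < r → deriv (fun x => p x * u x) r = deriv p r * u r + p r * deriv u r :=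
    fun r hr => ((hd1 hp hr).mul (hd1 hu hr)).deriv
  refine ⟨h1 r hr, ?_⟩
  have h2 : (deriv fun x => p x * u x) =ᶠ[𝓝 r] fun x => deriv p x * u x + p x * deriv u x := by
    filter_upwards [Ioi_mem_nhds hr] with x hx using h1 x hx
  rw [((((hd2 hp hr).mul (hd1 hu hr)).add ((hd1 hp hr).mul (hd2 hu hr))).congr_of_eventuallyEq
    h2).deriv]
  ring

theorem lin2 (a b : ℂ) {u v : ℝ → ℂ} (hu : ContDiffOn ℝ 48 u (Ioi 0))
    (hv : ContDiffOn ℝ 48 v (Ioi 0)) {r : ℝ} (hr : 0 < r) :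
    deriv (fun x => a * u x + b * v x) r = a * deriv u r + b * deriv v r ∧
    deriv (deriv fun x => a * u x + b * v x) r =
      a * deriv (deriv u) r + b * deriv (deriv v) r := by
  have h1 : ∀ r : ℝ, 0 < r → deriv (fun x => a * u x + b * v x) r =
      a * deriv u r + b * deriv v r :=
    fun r hr => (((hd1 hu hr).const_mul a).add ((hd1 hv hr).const_mul b)).deriv
  refine ⟨h1 r hr, ?_⟩
  have h2 : (deriv fun x => a * u x + b * v x) =ᶠ[𝓝 r]
      fun x => a * deriv u x + b * deriv v x := by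
    filter_upwards [Ioi_mem_nhds hr] with x hx using h1 x hx
  exact ((((hd2 hu hr).const_mul a).add ((hd2 hv hr).const_mul b)).congr_of_eventuallyEq h2).deriv

variable {m : ℕ} (P : Prof m)

theorem lt_sq (r : ℝ) : -P.ε < r ^ 2 := lt_of_lt_of_le (neg_lt_zero.2 P.hε) (sq_nonneg r)

theorem q_smooth : ContDiff ℝ ∞ P.q :=
  P.smooth.comp_contDiff (contDiff_id.pow 2) fun r => lt_sq P r

theorem q_ne (r : ℝ) : P.q r ≠ 0 := P.ne _ (sq_nonneg r)

theorem q1_smooth : ContDiff ℝ ∞ (deriv P.q) := (contDiff_infty_iff_deriv.1 (q_smooth P)).2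

theorem hq0 (r : ℝ) : HasDerivAt P.q (deriv P.q r) r :=
  ((q_smooth P).differentiable (by simp) r).hasDerivAt

theorem hq1 (r : ℝ) : HasDerivAt (deriv P.q) (deriv (deriv P.q) r) r :=
  ((q1_smooth P).differentiable (by simp) r).hasDerivAt

theorem deriv_q (r : ℝ) : deriv P.q r = 2 * r * deriv P.Θ (r ^ 2) :=
  (hd_sq (hd_on P.smooth (by simp) (lt_sq P r))).deriv

theorem deriv2_q (r : ℝ) : deriv (deriv P.q) r =
    2 * deriv P.Θ (r ^ 2) + 4 * (r : ℂ) ^ 2 * deriv (deriv P.Θ) (r ^ 2) := by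
  have h1 : ContDiffOn ℝ ∞ (deriv P.Θ) (Ioi (-P.ε)) :=
    P.smooth.deriv_of_isOpen isOpen_Ioi (by simp)
  have h2 := (((hasDerivAt_id (r : ℂ)).comp_ofReal).const_mul 2).mul
    (hd_sq (hd_on h1 (by simp) (lt_sq P r)))
  rw [funext (deriv_q P)]
  refine (h2.congr_deriv ?_).deriv
  simp only [id]
  ring

theorem N_eq (r : ℝ) : (P.q r * conj (P.q r)) ^ m = ((‖P.q r‖ ^ (2 * m) : ℝ) : ℂ) := by
  rw [mul_conj', ← pow_mul]
  push_cast
  rfl

theorem ode_q (r : ℝ) : (r : ℂ) * deriv (deriv P.q) r + 11 * deriv P.q r +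
    I * r ^ 2 / 2 * deriv P.q r + r * (P.β + I * gam m) * P.q r =
      r * ((‖P.q r‖ ^ (2 * m) : ℝ) : ℂ) * P.q r := by
  have h := P.ode (r ^ 2) (lt_sq P r)
  rw [← N_eq, deriv2_q, deriv_q, Prof.q]
  push_cast at h
  linear_combination (r : ℂ) * h

theorem w_smooth : ContDiff ℝ ∞ fun r => deriv P.q r / P.q r := by
  simp only [div_eq_mul_inv]
  exact (q1_smooth P).mul ((q_smooth P).inv (q_ne P))

theorem hrho (r : ℝ) : HasDerivAt P.rho (P.rho r * P.lr r) r := by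
  refine (hq0 P r).norm_sq.congr_deriv ?_
  have h : deriv P.q r * conj (P.q r) = (‖P.q r‖ ^ 2 : ℝ) * (deriv P.q r / P.q r) := by
    have := q_ne P r
    push_cast
    rw [← mul_conj']
    field_simp
  rw [Complex.inner, h, re_ofReal_mul, Prof.rho, Prof.lr]
  ring

theorem WW_eq : P.WW = fun r => 2 * (m : ℝ) * P.rho r ^ m := by
  funext r
  rw [Prof.WW, Prof.rho, pow_mul]

theorem hflux (r : ℝ) : HasDerivAt (fun r => P.rho r * r ^ 11 * P.UU r)
    (2 * (3 - gam m) * (P.rho r * r ^ 11)) r := by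
  have hne := q_ne P r
  have hw := (hq1 P r).div (hq0 P r) hne
  set w' := (deriv (deriv P.q) r * P.q r - deriv P.q r * deriv P.q r) / P.q r ^ 2 with hw'
  set w := deriv P.q r / P.q r with hw0
  have h1 : (r : ℂ) * w' = r * ((‖P.q r‖ ^ (2 * m) : ℝ) : ℂ) - 11 * w - I * (r ^ 2 / 2 : ℝ) * w -
      r * (P.β + I * gam m) - r * w ^ 2 := by
    have h := ode_q P r
    generalize ((‖P.q r‖ ^ (2 * m) : ℝ) : ℂ) = N at h ⊢
    rw [hw', hw0]
    push_cast
    field_simp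
    linear_combination 2 * P.q r * h
  have h2 := congrArg Complex.im h1
  simp only [sub_im, mul_im, mul_re, ofReal_re, ofReal_im, I_re, I_im, add_im, add_re, pow_two w,
    re_ofNat, im_ofNat] at h2
  have hU : HasDerivAt P.UU (1 / 2 + 2 * w'.im) r :=
    ((hasDerivAt_id r).div_const 2).add
      ((imCLM.hasFDerivAt.comp_hasDerivAt r hw).const_mul 2)
  refine (((hrho P r).mul (hasDerivAt_pow 11 r)).mul hU).congr_deriv ?_
  simp only [Prof.lr, Prof.UU, ← hw0, Pi.mul_apply]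
  push_cast
  linear_combination 2 * P.rho r * r ^ 10 * h2

theorem V2_eq (hm : 1 ≤ m) (r : ℝ) :
    P.V2 r * conj (P.q r) = m * ((‖P.q r‖ ^ (2 * m) : ℝ) : ℂ) * P.q r := by
  rw [← N_eq, Prof.V2]
  obtain ⟨k, rfl⟩ : ∃ k, m = k + 1 := ⟨m - 1, by omega⟩
  rw [Nat.add_sub_cancel, pow_succ _ k]
  ring

theorem q1_eq (r : ℝ) : 2 * deriv P.q r = P.q r * (P.lr r + I * (P.UU r - r / 2)) := by
  have h := re_add_im (deriv P.q r / P.q r)
  have hne := q_ne P r
  have h1 : deriv P.q r = P.q r * (deriv P.q r / P.q r) := by field_simp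
  rw [Prof.lr, Prof.UU]
  push_cast
  linear_combination 2 * h1 - 2 * P.q r * h

theorem LF_eq (hm : 1 ≤ m) (l : ℕ) {u v : ℝ → ℂ} (hu : ContDiffOn ℝ 48 u (Ioi 0)) {r : ℝ}
    (hr : 0 < r) : P.LF l (fun x => P.q x * u x) (fun x => conj (P.q x) * v x) r =
      P.q r * (-(P.UU r * deriv u r) + I * DD l P.lr u r - I * (P.WW r * ((u r + v r) / 2))) := by
  have hq : ContDiffOn ℝ 48 P.q (Ioi 0) := ((q_smooth P).of_le le48).contDiffOn
  obtain ⟨h1, h2⟩ := prod2 hq hu hr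
  have h3 := ode_q P r
  have h4 := V2_eq P hm r
  have h5 := q1_eq P r
  have h6 : (r : ℂ) * (r : ℂ)⁻¹ = 1 := mul_inv_cancel₀ (ofReal_ne_zero.2 hr.ne')
  rw [Prof.LF, rad, h1, h2, DD, Prof.V1, N_eq, Prof.WW, ofReal_mul]
  generalize ((‖P.q r‖ ^ (2 * m) : ℝ) : ℂ) = N at h3 h4 ⊢
  push_cast
  linear_combination (I * u r * (r : ℂ)⁻¹) * h3 - I * v r * h4 + I * deriv u r * h5 -
    (I * u r * (deriv (deriv P.q) r + I * r / 2 * deriv P.q r + (P.β + I * gam m) * P.q r -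
      N * P.q r)) * h6 + (-(u r * (r / 2 * deriv P.q r + gam m * P.q r)) +
        P.q r * deriv u r * (P.UU r - r / 2)) * I_mul_I

theorem LG_eq (hm : 1 ≤ m) (l : ℕ) {u v : ℝ → ℂ} (hv : ContDiffOn ℝ 48 v (Ioi 0)) {r : ℝ}
    (hr : 0 < r) : P.LG l (fun x => P.q x * u x) (fun x => conj (P.q x) * v x) r =
      conj (P.q r) *
        (-(P.UU r * deriv v r) - I * DD l P.lr v r + I * (P.WW r * ((u r + v r) / 2))) := by
  have hq : ContDiffOn ℝ 48 (fun x => conj (P.q x)) (Ioi 0) :=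
    (conjCLE.contDiff.comp ((q_smooth P).of_le le48)).contDiffOn
  obtain ⟨h1, h2⟩ := prod2 hq hv hr
  have e1 : (deriv fun x => conj (P.q x)) = fun x => conj (deriv P.q x) := deriv.star'
  have e2 : (deriv fun x => conj (deriv P.q x)) = fun x => conj (deriv (deriv P.q) x) :=
    deriv.star'
  rw [e1] at h1 h2
  rw [e2] at h2
  have h3 := congrArg conj (ode_q P r)
  have h4 := congrArg conj (V2_eq P hm r)
  have h5 := congrArg conj (q1_eq P r)
  simp only [map_mul, map_add, map_sub, map_div₀, map_pow, conj_ofReal, conj_I, map_ofNat,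
    conj_conj, map_natCast] at h3 h4 h5
  have h6 : (r : ℂ) * (r : ℂ)⁻¹ = 1 := mul_inv_cancel₀ (ofReal_ne_zero.2 hr.ne')
  rw [Prof.LG, rad, h1, h2, DD, Prof.V1, N_eq, Prof.WW, ofReal_mul]
  generalize ((‖P.q r‖ ^ (2 * m) : ℝ) : ℂ) = N at h3 h4 ⊢
  push_cast
  linear_combination (-I * v r * (r : ℂ)⁻¹) * h3 + I * u r * h4 - I * deriv v r * h5 +
    (I * v r * (conj (deriv (deriv P.q) r) - I * r / 2 * conj (deriv P.q r) +
      (P.β - I * gam m) * conj (P.q r) - N * conj (P.q r))) * h6 +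
    (-(v r * (r / 2 * conj (deriv P.q r) + gam m * conj (P.q r))) +
        conj (P.q r) * deriv v r * (P.UU r - r / 2)) * I_mul_I

end Mhyd

open Mhyd in
theorem s_hyd : S_hyd := by
  intro m P hm
  have hrs : ContDiff ℝ ∞ P.rho := (q_smooth P).norm_sq ℝ
  refine ⟨⟨q_smooth P, q_ne P, contDiff_const.mul (reCLM.contDiff.comp (w_smooth P)),
    (contDiff_id.div_const 2).add (contDiff_const.mul (imCLM.contDiff.comp (w_smooth P))), ?_,
    hrho P, fun r => ?_, hflux P⟩, fun l lam f g hf hg => ?_⟩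
  · rw [WW_eq]
    exact contDiff_const.mul (hrs.pow m)
  · rw [WW_eq]
    refine (((hrho P r).pow m).const_mul (2 * (m : ℝ))).congr_deriv ?_
    obtain ⟨k, rfl⟩ : ∃ k, m = k + 1 := ⟨m - 1, by omega⟩
    rw [Nat.add_sub_cancel]
    beta_reduce
    rw [pow_succ]
    ring
  have hq : ContDiff ℝ 48 P.q := (q_smooth P).of_le le48
  have hne : ∀ x, conj (P.q x) ≠ 0 := fun x => (map_ne_zero _).2 (q_ne P x)
  obtain ⟨u, hu0⟩ : ∃ u : ℝ → ℂ, u = fun x => f x / P.q x := ⟨_, rfl⟩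
  obtain ⟨v, hv0⟩ : ∃ v : ℝ → ℂ, v = fun x => g x / conj (P.q x) := ⟨_, rfl⟩
  have hu : ContDiffOn ℝ 48 u (Ioi 0) := by
    simp only [hu0, div_eq_mul_inv]
    exact hf.mul (hq.inv (q_ne P)).contDiffOn
  have hv : ContDiffOn ℝ 48 v (Ioi 0) := by
    simp only [hv0, div_eq_mul_inv]
    exact hg.mul ((conjCLE.contDiff.comp hq).inv hne).contDiffOn
  have ef : f = fun x => P.q x * u x := by
    funext x
    rw [hu0, mul_div_cancel₀ _ (q_ne P x)]
  have eg : g = fun x => conj (P.q x) * v x := by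
    funext x
    rw [hv0, mul_div_cancel₀ _ (hne x)]
  have ea : P.al f g = fun x => 1 / 2 * u x + 1 / 2 * v x := by
    funext x
    rw [Prof.al, hu0, hv0]
    ring
  have hI : (2 * I)⁻¹ = -I / 2 := by rw [mul_inv, inv_I]; ring
  have et : P.th f g = fun x => -I / 2 * u x + I / 2 * v x := by
    funext x
    rw [Prof.th, hu0, hv0, div_eq_mul_inv _ (2 * I), hI]
    ring
  rw [ea, et]
  refine ⟨(contDiffOn_const.mul hu).add (contDiffOn_const.mul hv),
    (contDiffOn_const.mul hu).add (contDiffOn_const.mul hv), fun r hr => ?_⟩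
  obtain ⟨a1, a2⟩ := lin2 (1 / 2) (1 / 2) hu hv hr
  obtain ⟨t1, t2⟩ := lin2 (-I / 2) (I / 2) hu hv hr
  have h1 : (P.LF l f g r - lam * f r) / P.q r = -(P.UU r * deriv u r) + I * DD l P.lr u r -
      I * (P.WW r * ((u r + v r) / 2)) - lam * u r := by
    rw [div_eq_iff (q_ne P r), ef, eg, LF_eq P hm l hu hr]
    ring
  have h2 : (P.LG l f g r - lam * g r) / conj (P.q r) = -(P.UU r * deriv v r) -
      I * DD l P.lr v r + I * (P.WW r * ((u r + v r) / 2)) - lam * v r := by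
    rw [div_eq_iff (hne r), ef, eg, LG_eq P hm l hv hr]
    ring
  have d1 : DD l P.lr (fun x => 1 / 2 * u x + 1 / 2 * v x) r =
      1 / 2 * DD l P.lr u r + 1 / 2 * DD l P.lr v r := by
    rw [DD, DD, DD, a1, a2]
    ring
  have d2 : DD l P.lr (fun x => -I / 2 * u x + I / 2 * v x) r =
      -I / 2 * DD l P.lr u r + I / 2 * DD l P.lr v r := by
    rw [DD, DD, DD, t1, t2]
    ring
  rw [Prof.al, Prof.th, h1, h2, a1, t1, d1, d2, div_eq_mul_inv _ (2 * I), hI]
  constructor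
  · ring
  · linear_combination (P.WW r * ((u r + v r) / 2) -
      (DD l P.lr u r + DD l P.lr v r) / 2) * I_mul_I

end P139
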