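import Vale.Agent.P139.MDefs

/-! P139 part M: linearity of the admissible solution class. -/

open Complex Set Filter Topology MeasureTheory
open scoped ContDiff ComplexConjugate

noncomputable section
namespace P139

namespace Mlin

theorem iter {f u : ℝ → ℂ} (hf : ContDiffOn ℝ 48 f (Ioi 0)) (hu : ContDiffOn ℝ 48 u (Ioi 0))
    (a b : ℂ) {j : ℕ} (hj : j ≤ 48) {r : ℝ} (hr : 0 < r) :
    iteratedDeriv j (fun r => a * f r + b * u r) r =
      a * iteratedDeriv j f r + b * iteratedDeriv j u r := by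
  have hj' : (j : WithTop ℕ∞) ≤ 48 := by exact_mod_cast hj
  have h1 : ContDiffAt ℝ j f r := (hf.contDiffAt (Ioi_mem_nhds hr)).of_le hj'
  have h2 : ContDiffAt ℝ j u r := (hu.contDiffAt (Ioi_mem_nhds hr)).of_le hj'
  rw [iteratedDeriv_fun_add (contDiffAt_const.mul h1) (contDiffAt_const.mul h2),
    iteratedDeriv_const_mul a h1, iteratedDeriv_const_mul b h2]

theorem adm {f u : ℝ → ℂ} (hf : Adm f) (hu : Adm u) (a b : ℂ) :
    Adm fun r => a * f r + b * u r := by
  refine ⟨(contDiffOn_const.mul hf.1).add (contDiffOn_const.mul hu.1), fun j hj => ?_⟩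
  obtain ⟨C, hC⟩ := hf.2 j hj
  obtain ⟨D, hD⟩ := hu.2 j hj
  refine ⟨‖a‖ * C + ‖b‖ * D, fun r hr => ?_⟩
  rw [iter hf.1 hu.1 a b hj hr]
  refine (norm_add_le _ _).trans ?_
  rw [norm_mul, norm_mul]
  exact add_le_add (mul_le_mul_of_nonneg_left (hC r hr) (norm_nonneg _))
    (mul_le_mul_of_nonneg_left (hD r hr) (norm_nonneg _))

theorem d1 {f u : ℝ → ℂ} (hf : Adm f) (hu : Adm u) (a b : ℂ) {r : ℝ} (hr : 0 < r) :
    deriv (fun r => a * f r + b * u r) r = a * deriv f r + b * deriv u r := by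
  simpa only [iteratedDeriv_one] using iter hf.1 hu.1 a b (j := 1) (by norm_num) hr

theorem d2 {f u : ℝ → ℂ} (hf : Adm f) (hu : Adm u) (a b : ℂ) {r : ℝ} (hr : 0 < r) :
    deriv (deriv fun r => a * f r + b * u r) r =
      a * deriv (deriv f) r + b * deriv (deriv u) r := by
  have := iter hf.1 hu.1 a b (j := 1 + 1) (by norm_num) hr
  simpa only [iteratedDeriv_succ, iteratedDeriv_zero] using this

end Mlin

theorem s_lin : S_lin := by
  intro m P l lam c₀ c₁ d₀ d₁ a b f g u v h k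
  refine ⟨Mlin.adm h.af k.af a b, Mlin.adm h.ag k.ag a b, fun r hr => ?_, fun r hr => ?_⟩
  · have e1 := h.eF r hr
    have e2 := k.eF r hr
    simp only [Prof.LF, rad] at e1 e2 ⊢
    rw [Mlin.d1 h.af k.af a b hr, Mlin.d2 h.af k.af a b hr]
    linear_combination a * e1 + b * e2
  · have e1 := h.eG r hr
    have e2 := k.eG r hr
    simp only [Prof.LG, rad] at e1 e2 ⊢
    rw [Mlin.d1 h.ag k.ag a b hr, Mlin.d2 h.ag k.ag a b hr]
    linear_combination a * e1 + b * e2

end P139
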