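import Vale.Agent.P139.MADefs

/-! P139 part MA: normalisation of a solution outside the span of the modes. -/

open Complex Set Filter Topology MeasureTheory
open scoped ContDiff ComplexConjugate InnerProductSpace

noncomputable section
namespace P139

namespace Mnorm

variable {m : ℕ}

theorem ind0_z0 (P : Prof m) (l : ℕ) (r : ℝ) : ind0 l * P.z0 l r = P.z0 l r := by
  unfold ind0 Prof.z0
  rcases l with _ | _ | l <;> simp

theorem ind0_cz0 (P : Prof m) (l : ℕ) (r : ℝ) :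
    ind0 l * conj (P.z0 l r) = conj (P.z0 l r) := by
  unfold ind0 Prof.z0
  rcases l with _ | _ | l <;> simp

theorem ind1_z1 (P : Prof m) (l : ℕ) (r : ℝ) : ind1 l * P.z1 l r = P.z1 l r := by
  unfold ind1 Prof.z1
  rcases l with _ | l <;> simp

theorem ind1_cz1 (P : Prof m) (l : ℕ) (r : ℝ) :
    ind1 l * conj (P.z1 l r) = conj (P.z1 l r) := by
  unfold ind1 Prof.z1
  rcases l with _ | l <;> simp

theorem ind0_sq (l : ℕ) : ind0 l * ind0 l = ind0 l := by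
  unfold ind0; split_ifs <;> simp

theorem ind1_sq (l : ℕ) : ind1 l * ind1 l = ind1 l := by
  unfold ind1; split_ifs <;> simp

theorem dv_congr {F G F' G' : ℝ → ℂ} {s : ℝ} (hs : 0 < s) (hF : ∀ x, 0 < x → F x = F' x)
    (hG : ∀ x, 0 < x → G x = G' x) (c₀ c₁ : ℂ) : dv F G s c₀ c₁ = dv F' G' s c₀ c₁ := by
  have e1 : F =ᶠ[𝓝 s] F' := by
    filter_upwards [Ioi_mem_nhds hs] with x hx using hF x hx
  have e2 : G =ᶠ[𝓝 s] G' := by
    filter_upwards [Ioi_mem_nhds hs] with x hx using hG x hx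
  unfold dv
  rw [e1.deriv_eq, e2.deriv_eq, hF s hs, hG s hs]

theorem deriv_comb {F U : ℝ → ℂ} {s : ℝ} (hF : DifferentiableAt ℝ F s)
    (hU : DifferentiableAt ℝ U s) (a b : ℂ) :
    deriv (fun x => a * F x + b * U x) s = a * deriv F s + b * deriv U s :=
  ((hF.hasDerivAt.const_mul a).add (hU.hasDerivAt.const_mul b)).deriv

theorem dv_comb {F G U V : ℝ → ℂ} {s : ℝ} (hF : DifferentiableAt ℝ F s)
    (hG : DifferentiableAt ℝ G s) (hU : DifferentiableAt ℝ U s) (hV : DifferentiableAt ℝ V s)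
    (a b c₀ c₁ d₀ d₁ : ℂ) :
    dv (fun x => a * F x + b * U x) (fun x => a * G x + b * V x) s (a * c₀ + b * d₀)
      (a * c₁ + b * d₁) = a • dv F G s c₀ c₁ + b • dv U V s d₀ d₁ := by
  unfold dv
  rw [deriv_comb hF hU, deriv_comb hG hV]
  ext i
  fin_cases i <;> simp

theorem toS_comb (l : ℕ) (f u : ℝ → ℂ) (a b : ℂ) :
    toS l (fun r => a * f r + b * u r) = fun x => a * toS l f x + b * toS l u x := by
  funext x
  unfold toS
  ring

theorem toS_conj (l : ℕ) (f : ℝ → ℂ) (x : ℝ) :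
    toS l (fun r => conj (f r)) x = conj (toS l f x) := by
  unfold toS
  simp [map_div₀, map_pow]

theorem diffAt {F : ℝ → ℂ} {s : ℝ} (hs : 0 < s) (h : ContDiffOn ℝ 48 F (Ioi 0)) :
    DifferentiableAt ℝ F s :=
  (h.contDiffAt (Ioi_mem_nhds hs)).differentiableAt (by norm_num)

theorem sol_dv (hseq : S_seq) {P : Prof m} {l : ℕ} {lam c₀ c₁ d₀ d₁ : ℂ} {f g u v : ℝ → ℂ}
    {s : ℝ} (hs : 0 < s) (h1 : P.Sol l lam c₀ c₁ f g) (h2 : P.Sol l lam d₀ d₁ u v) (a b : ℂ) :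
    dv (toS l fun r => a * f r + b * u r) (toS l fun r => a * g r + b * v r) s (a * c₀ + b * d₀)
      (a * c₁ + b * d₁) =
      a • dv (toS l f) (toS l g) s c₀ c₁ + b • dv (toS l u) (toS l v) s d₀ d₁ := by
  have k1 := (hseq m P l).1 _ _ _ _ _ h1
  have k2 := (hseq m P l).1 _ _ _ _ _ h2
  rw [toS_comb, toS_comb]
  exact dv_comb (diffAt hs k1.sF) (diffAt hs k1.sG) (diffAt hs k2.sF) (diffAt hs k2.sG) _ _ _ _ _ _

end Mnorm

open Mnorm in
theorem s_norm (hseq : S_seq) (hza : S_zadm) (hze : S_zeq) (hlin : S_lin) (hz : S_zero) :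
    S_norm := by
  intro m P hm l lam c₀ c₁ f g s hs hsol hnot
  have h0 : P.Sol l lam (ind0 l * c₀) (ind1 l * c₁) f g := by
    refine ⟨hsol.af, hsol.ag, fun r hr => ?_, fun r hr => ?_⟩
    · rw [hsol.eF r hr]
      linear_combination (-c₀) * ind0_z0 P l r - c₁ * ind1_z1 P l r
    · rw [hsol.eG r hr]
      linear_combination (-c₀) * ind0_cz0 P l r - c₁ * ind1_cz1 P l r
  obtain ⟨a1, a2, a3, a4⟩ := hza m P l hm
  have hA : P.Sol l lam (ind0 l * (ev0 l - lam)) 0 (P.z0 l) (fun r => conj (P.z0 l r)) := by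
    refine ⟨a1, a2, fun r hr => ?_, fun r hr => ?_⟩
    · rw [(hze m P l hm r hr).1]
      linear_combination (-(ev0 l - lam)) * ind0_z0 P l r
    · rw [(hze m P l hm r hr).2.1]
      linear_combination (-(ev0 l - lam)) * ind0_cz0 P l r
  have hB : P.Sol l lam 0 (ind1 l * (1 - lam)) (P.z1 l) (fun r => conj (P.z1 l r)) := by
    refine ⟨a3, a4, fun r hr => ?_, fun r hr => ?_⟩
    · rw [(hze m P l hm r hr).2.2.1]
      linear_combination (-(1 - lam)) * ind1_z1 P l r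
    · rw [(hze m P l hm r hr).2.2.2]
      linear_combination (-(1 - lam)) * ind1_cz1 P l r
  have hY := (hseq m P l).2.2.1
  have eA : dv (toS l (P.z0 l)) (toS l fun r => conj (P.z0 l r)) s (ind0 l * (ev0 l - lam)) 0 =
      vA (P.Y0 l) l lam s :=
    dv_congr hs (fun x hx => (hY x hx).1) (fun x hx => by rw [toS_conj, (hY x hx).1]) _ _
  have eB : dv (toS l (P.z1 l)) (toS l fun r => conj (P.z1 l r)) s 0 (ind1 l * (1 - lam)) =
      vB (P.Y1 l) l lam s :=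
    dv_congr hs (fun x hx => (hY x hx).2) (fun x hx => by rw [toS_conj, (hY x hx).2]) _ _
  obtain ⟨y, hy, w, hw, hv⟩ := Submodule.exists_add_mem_mem_orthogonal
    (K := Submodule.span ℂ {vA (P.Y0 l) l lam s, vB (P.Y1 l) l lam s})
    (dv (toS l f) (toS l g) s (ind0 l * c₀) (ind1 l * c₁))
  obtain ⟨t0, t1, rfl⟩ := Submodule.mem_span_pair.1 hy
  have h1 := hlin m P l lam _ _ _ _ 1 (-t0) _ _ _ _ h0 hA
  have h2 := hlin m P l lam _ _ _ _ 1 (-t1) _ _ _ _ h1 hB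
  have e1 := sol_dv hseq hs h0 hA 1 (-t0)
  have e2 := sol_dv hseq hs h1 hB 1 (-t1)
  rw [e1, eA, eB, hv] at e2
  have e3 : (1 : ℂ) • ((1 : ℂ) • (t0 • vA (P.Y0 l) l lam s + t1 • vB (P.Y1 l) l lam s + w) +
      -t0 • vA (P.Y0 l) l lam s) + -t1 • vB (P.Y1 l) l lam s = w := by
    simp only [one_smul, neg_smul]; abel
  rw [e3] at e2
  have hoA : ⟪vA (P.Y0 l) l lam s, w⟫_ℂ = 0 :=
    (Submodule.mem_orthogonal _ _).1 hw _ (Submodule.subset_span (by simp))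
  have hoB : ⟪vB (P.Y1 l) l lam s, w⟫_ℂ = 0 :=
    (Submodule.mem_orthogonal _ _).1 hw _ (Submodule.subset_span (by simp))
  have i0 : ind0 l * (1 * (1 * (ind0 l * c₀) + -t0 * (ind0 l * (ev0 l - lam))) + -t1 * 0) =
      1 * (1 * (ind0 l * c₀) + -t0 * (ind0 l * (ev0 l - lam))) + -t1 * 0 := by
    linear_combination (c₀ - t0 * (ev0 l - lam)) * ind0_sq l
  have i1 : ind1 l * (1 * (1 * (ind1 l * c₁) + -t0 * 0) + -t1 * (ind1 l * (1 - lam))) =
      1 * (1 * (ind1 l * c₁) + -t0 * 0) + -t1 * (ind1 l * (1 - lam)) := by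
    linear_combination (c₁ - t1 * (1 - lam)) * ind1_sq l
  generalize hd0 : 1 * (1 * (ind0 l * c₀) + -t0 * (ind0 l * (ev0 l - lam))) + -t1 * 0 = d₀
    at h2 e2 i0
  generalize hd1 : 1 * (1 * (ind1 l * c₁) + -t0 * 0) + -t1 * (ind1 l * (1 - lam)) = d₁
    at h2 e2 i1
  have hu : ∀ r, (fun r => 1 * (1 * f r + -t0 * P.z0 l r) + -t1 * P.z1 l r) r =
      f r - (t0 * P.z0 l r + t1 * P.z1 l r) := fun r => by ring
  have hv' : ∀ r, (fun r => 1 * (1 * g r + -t0 * conj (P.z0 l r)) + -t1 * conj (P.z1 l r)) r =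
      g r - (t0 * conj (P.z0 l r) + t1 * conj (P.z1 l r)) := fun r => by ring
  generalize (fun r => 1 * (1 * f r + -t0 * P.z0 l r) + -t1 * P.z1 l r) = u at h2 e2 hu
  generalize (fun r => 1 * (1 * g r + -t0 * conj (P.z0 l r)) + -t1 * conj (P.z1 l r)) = v
    at h2 e2 hv'
  have hw0 : w ≠ 0 := by
    rintro rfl
    have q : ∀ i, dv (toS l u) (toS l v) s d₀ d₁ i = 0 := fun i => by rw [e2]; rfl
    have q0 : toS l u s = 0 := q 0
    have q1 : deriv (toS l u) s = 0 := q 1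
    have q2 : toS l v s = 0 := q 2
    have q3 : deriv (toS l v) s = 0 := q 3
    have q4 : d₀ = 0 := q 4
    have q5 : d₁ = 0 := q 5
    subst q4 q5
    have hd : dat (toS l u) (toS l v) s = 0 := by
      unfold dat; rw [q0, q1, q2, q3]; simp
    have hzero := hz m P l lam _ _ s hs ((hseq m P l).1 _ _ _ _ _ h2) hd
    refine hnot ⟨t0, t1, fun r hr => ?_⟩
    have r2 : 0 < r ^ 2 := by positivity
    have k1 := ((hseq m P l).2.1 u h2.af.1 r hr).1
    have k2 := ((hseq m P l).2.1 v h2.ag.1 r hr).1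
    rw [(hzero _ r2).1, mul_zero, hu] at k1
    rw [(hzero _ r2).2, mul_zero, hv'] at k2
    exact ⟨sub_eq_zero.1 k1, sub_eq_zero.1 k2⟩
  have hn : 0 < ‖w‖ := norm_pos_iff.2 hw0
  have h3 := hlin m P l lam _ _ _ _ ((‖w‖⁻¹ : ℝ) : ℂ) 0 _ _ _ _ h2 h2
  have e4 := sol_dv hseq hs h2 h2 ((‖w‖⁻¹ : ℝ) : ℂ) 0
  rw [e2, zero_smul, add_zero] at e4
  refine ⟨_, _, _, _, h3, ?_, ?_, ?_, ?_, ?_⟩
  · linear_combination ((‖w‖⁻¹ : ℝ) : ℂ) * i0
  · linear_combination ((‖w‖⁻¹ : ℝ) : ℂ) * i1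
  · rw [e4, norm_smul, Complex.norm_real, Real.norm_eq_abs, abs_of_pos (inv_pos.2 hn),
      inv_mul_cancel₀ hn.ne']
  · rw [e4, inner_smul_right, hoA, mul_zero]
  · rw [e4, inner_smul_right, hoB, mul_zero]

end P139
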