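import Vale.Agent.P139.MADefs
import Vale.Agent.P225.Ode

/-! P139: linear second order ODE on the half line. -/

open Complex Set Filter Topology
open scoped ContDiff

noncomputable section
namespace P139
namespace Mode

abbrev V3 := ℂ × ℂ × ℂ

/-- the three coordinate projections -/
def p1 : V3 →L[ℝ] ℂ := ContinuousLinearMap.fst ℝ ℂ (ℂ × ℂ)
def p2 : V3 →L[ℝ] ℂ := (ContinuousLinearMap.fst ℝ ℂ ℂ).comp (ContinuousLinearMap.snd ℝ ℂ (ℂ × ℂ))
def p3 : V3 →L[ℝ] ℂ := (ContinuousLinearMap.snd ℝ ℂ ℂ).comp (ContinuousLinearMap.snd ℝ ℂ (ℂ × ℂ))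
def i1 : ℂ →L[ℝ] V3 := ContinuousLinearMap.inl ℝ ℂ (ℂ × ℂ)
def i2 : ℂ →L[ℝ] V3 := (ContinuousLinearMap.inr ℝ ℂ (ℂ × ℂ)).comp (ContinuousLinearMap.inl ℝ ℂ ℂ)

/-- the coefficient matrix -/
def AA (e a b c : ℂ) : V3 →L[ℝ] V3 :=
  i1.comp ((ContinuousLinearMap.mul ℝ ℂ e).comp p2) +
  i2.comp ((ContinuousLinearMap.mul ℝ ℂ a).comp p2 + (ContinuousLinearMap.mul ℝ ℂ b).comp p1 +
    (ContinuousLinearMap.mul ℝ ℂ c).comp p3)

theorem AA_apply (e a b c : ℂ) (y : V3) :
    AA e a b c y = (e * y.2.1, a * y.2.1 + b * y.1 + c * y.2.2, 0) := by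
  simp [AA, p1, p2, p3, i1, i2]

theorem AA_cont {e a b c : ℝ → ℂ} (he : Continuous e) (ha : Continuous a) (hb : Continuous b)
    (hc : Continuous c) : Continuous fun t => AA (e t) (a t) (b t) (c t) := by
  unfold AA
  have h : ∀ {u : ℝ → ℂ}, Continuous u → ∀ P : V3 →L[ℝ] ℂ,
      Continuous fun t => (ContinuousLinearMap.mul ℝ ℂ (u t)).comp P := fun hu P =>
    ((ContinuousLinearMap.mul ℝ ℂ).continuous.comp hu).clm_comp continuous_const
  exact (continuous_const.clm_comp (h he _)).add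
    (continuous_const.clm_comp (((h ha _).add (h hb _)).add (h hc _)))

theorem cex1 {p : ℝ → ℂ} (hp : ContDiffOn ℝ ∞ p (Ioi 0)) :
    Continuous fun t : ℝ => ((Real.exp t : ℝ) : ℂ) * p (Real.exp t) :=
  (continuous_ofReal.comp Real.continuous_exp).mul
    (hp.continuousOn.comp_continuous Real.continuous_exp fun t => Real.exp_pos t)

theorem smooth {p q h F G : ℝ → ℂ} (hp : ContDiffOn ℝ ∞ p (Ioi 0)) (hq : ContDiffOn ℝ ∞ q (Ioi 0))
    (hh : ContDiffOn ℝ ∞ h (Ioi 0)) (hF : ∀ s : ℝ, 0 < s → HasDerivAt F (G s) s)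
    (hG : ∀ s : ℝ, 0 < s → HasDerivAt G (p s * G s + q s * F s + h s) s) (n : ℕ) :
    ContDiffOn ℝ n F (Ioi 0) ∧ ContDiffOn ℝ n G (Ioi 0) := by
  induction n with
  | zero =>
    exact ⟨contDiffOn_zero.2 fun s hs => (hF s hs).continuousAt.continuousWithinAt,
      contDiffOn_zero.2 fun s hs => (hG s hs).continuousAt.continuousWithinAt⟩
  | succ n ih =>
    have hn : (n : WithTop ℕ∞) ≤ ∞ := by exact_mod_cast le_top
    rw [Nat.cast_succ]
    constructor
    · refine (contDiffOn_succ_iff_deriv_of_isOpen isOpen_Ioi).2 ⟨fun s hs =>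
        (hF s hs).differentiableAt.differentiableWithinAt, by simp, ?_⟩
      exact ih.2.congr fun s hs => (hF s hs).deriv
    · refine (contDiffOn_succ_iff_deriv_of_isOpen isOpen_Ioi).2 ⟨fun s hs =>
        (hG s hs).differentiableAt.differentiableWithinAt, by simp, ?_⟩
      exact ((((hp.of_le hn).mul ih.2).add ((hq.of_le hn).mul ih.1)).add (hh.of_le hn)).congr
        fun s hs => (hG s hs).deriv

end Mode

open Mode in
theorem s_ode : S_ode := by
  intro p q h hp hq hh s₁ hs₁ u₀ u₁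
  obtain ⟨y, y0, hy⟩ := Vale.Agent.P225.Ode.glob
    (AA_cont (continuous_ofReal.comp Real.continuous_exp) (cex1 hp) (cex1 hq) (cex1 hh))
    ((u₀, u₁, 1) : V3) (Real.log s₁)
  simp only [AA_apply] at hy
  have h3 : ∀ t, (y t).2.2 = 1 := by
    have hd : ∀ t, HasDerivAt (fun t => (y t).2.2) 0 t := fun t =>
      (p3.hasFDerivAt.comp_hasDerivAt t (hy t))
    intro t
    rw [is_const_of_deriv_eq_zero (fun t => (hd t).differentiableAt) (fun t => (hd t).deriv) t
      (Real.log s₁), y0]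
  have hF : ∀ s : ℝ, 0 < s → HasDerivAt (fun s => (y (Real.log s)).1) ((y (Real.log s)).2.1) s := by
    intro s hs
    have h1 : HasDerivAt (fun t => (y t).1) ((s : ℂ) * (y (Real.log s)).2.1) (Real.log s) := by
      have := p1.hasFDerivAt.comp_hasDerivAt _ (hy (Real.log s))
      simp only [Function.comp_apply, Real.exp_log hs] at this
      exact this
    have h2 := h1.scomp s (Real.hasDerivAt_log hs.ne')
    have : (s : ℂ) ≠ 0 := by exact_mod_cast hs.ne'
    have e : s⁻¹ • ((s : ℂ) * (y (Real.log s)).2.1) = (y (Real.log s)).2.1 := by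
      rw [real_smul, ofReal_inv]; field_simp
    rw [e] at h2
    exact h2
  have hG : ∀ s : ℝ, 0 < s → HasDerivAt (fun s => (y (Real.log s)).2.1)
      (p s * (y (Real.log s)).2.1 + q s * (y (Real.log s)).1 + h s) s := by
    intro s hs
    have h1 : HasDerivAt (fun t => (y t).2.1) ((s : ℂ) * p s * (y (Real.log s)).2.1 +
        (s : ℂ) * q s * (y (Real.log s)).1 + (s : ℂ) * h s * 1) (Real.log s) := by
      have := p2.hasFDerivAt.comp_hasDerivAt _ (hy (Real.log s))
      simp only [Real.exp_log hs, h3] at this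
      exact this
    have h2 := h1.scomp s (Real.hasDerivAt_log hs.ne')
    have : (s : ℂ) ≠ 0 := by exact_mod_cast hs.ne'
    have e : s⁻¹ • ((s : ℂ) * p s * (y (Real.log s)).2.1 +
        (s : ℂ) * q s * (y (Real.log s)).1 + (s : ℂ) * h s * 1) =
        p s * (y (Real.log s)).2.1 + q s * (y (Real.log s)).1 + h s := by
      rw [real_smul, ofReal_inv]; field_simp
    rw [e] at h2
    exact h2
  refine ⟨fun s => (y (Real.log s)).1, contDiffOn_infty.2 fun n => (smooth hp hq hh hF hG n).1,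
    by simp only [y0], by rw [(hF s₁ hs₁).deriv, y0], fun s hs => ?_⟩
  have e : deriv (fun s => (y (Real.log s)).1) =ᶠ[𝓝 s] fun s => (y (Real.log s)).2.1 := by
    filter_upwards [Ioi_mem_nhds hs] with t ht using (hF t ht).deriv
  rw [e.deriv_eq, (hG s hs).deriv, (hF s hs).deriv]

end P139
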