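import Vale.Agent.P139.MADefs

/-! P139 part MA: reduction to bounded parameters. -/

open Complex Set Filter Topology MeasureTheory
open scoped ContDiff ComplexConjugate

noncomputable section
namespace P139

namespace Mrem

variable {m : ℕ} {P : Prof m} {l : ℕ} {lam c₀ c₁ : ℂ} {f g : ℝ → ℂ}

theorem exists_sol (h : ¬ P.ModeStable) : ∃ (l : ℕ) (lam c₀ c₁ : ℂ) (f g : ℝ → ℂ),
    0 ≤ lam.re ∧ P.Sol l lam c₀ c₁ f g ∧ ¬ P.InZ l f g := by
  by_contra hcon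
  refine h fun l lam hre f g hf hg hb ⟨c₀, c₁, hz⟩ => ?_
  by_contra hn
  exact hcon ⟨l, lam, c₀, c₁, f, g, hre, ⟨⟨hf, fun j hj => (hb j hj).imp fun _ h r hr => (h r hr).1⟩,
    ⟨hg, fun j hj => (hb j hj).imp fun _ h r hr => (h r hr).2⟩, fun r hr => (hz r hr).1,
    fun r hr => (hz r hr).2⟩, hn⟩

theorem big_l (hl : 2 ≤ l) (h : P.Sol l lam c₀ c₁ f g) : P.Sol l lam 0 0 f g := by
  have h0 : ∀ r, P.z0 l r = 0 := fun r => by
    rw [Prof.z0, if_neg (by omega), if_neg (by omega)]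
  have h1 : ∀ r, P.z1 l r = 0 := fun r => by rw [Prof.z1, if_neg (by omega)]
  refine ⟨h.af, h.ag, fun r hr => ?_, fun r hr => ?_⟩
  · rw [h.eF r hr, h0, h1]; simp
  · rw [h.eG r hr, h0, h1]; simp

theorem remove (hza : S_zadm) (hze : S_zeq) (hlin : S_lin) (hm : 1 ≤ m)
    (h : P.Sol l lam c₀ c₁ f g) (h0 : ev0 l - lam ≠ 0) (h1 : 1 - lam ≠ 0)
    (hB : ∀ f g : ℝ → ℂ, P.Sol l lam 0 0 f g → ∀ r : ℝ, 0 < r → f r = 0 ∧ g r = 0) :
    P.InZ l f g := by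
  obtain ⟨a1, a2, a3, a4⟩ := hza m P l hm
  have s0 : P.Sol l lam (ev0 l - lam) 0 (P.z0 l) fun r => conj (P.z0 l r) :=
    ⟨a1, a2, fun r hr => by rw [(hze m P l hm r hr).1]; ring,
      fun r hr => by rw [(hze m P l hm r hr).2.1]; ring⟩
  have s1 : P.Sol l lam 0 (1 - lam) (P.z1 l) fun r => conj (P.z1 l r) :=
    ⟨a3, a4, fun r hr => by rw [(hze m P l hm r hr).2.2.1]; ring,
      fun r hr => by rw [(hze m P l hm r hr).2.2.2]; ring⟩
  have s2 := hlin m P l lam _ _ _ _ 1 (-1) _ _ _ _ h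
    (hlin m P l lam _ _ _ _ (c₀ / (ev0 l - lam)) (c₁ / (1 - lam)) _ _ _ _ s0 s1)
  rw [div_mul_cancel₀ _ h0, div_mul_cancel₀ _ h1, mul_zero, mul_zero, add_zero, zero_add, one_mul,
    one_mul, neg_one_mul, neg_one_mul, add_neg_cancel, add_neg_cancel] at s2
  refine ⟨c₀ / (ev0 l - lam), c₁ / (1 - lam), fun r hr => ?_⟩
  obtain ⟨h2, h3⟩ := hB _ _ s2 r hr
  exact ⟨by linear_combination h2, by linear_combination h3⟩

theorem ne_of_big {σ w : ℝ} (hσ : 2 ≤ σ) (hw : 1 ≤ w) (h : σ ≤ lam.re ∨ w ≤ |lam.im|) {e : ℝ}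
    (he : e ≤ 1) : (e : ℂ) - lam ≠ 0 := by
  intro h0
  rw [← sub_eq_zero.1 h0, ofReal_re, ofReal_im, abs_zero] at h
  rcases h with h | h <;> linarith

end Mrem

open Mrem in
theorem s_rem (hB : S_B) (hza : S_zadm) (hze : S_zeq) (hlin : S_lin) : S_rem := by
  intro D L hL
  obtain ⟨σ₀, l₀, w₁, hB⟩ := hB D L
  by_contra hcon
  have h1 : ∀ l ∈ Finset.range (max l₀ 2), ∀ᶠ j in atTop, ¬ ∃ (lam c₀ c₁ : ℂ) (f g : ℝ → ℂ),
      0 ≤ lam.re ∧ ‖lam‖ ≤ max σ₀ 2 + max w₁ 1 ∧ (L.P j).Sol l lam c₀ c₁ f g ∧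
        ¬ (L.P j).InZ l f g := fun l _ => not_frequently.1 fun h => hcon ⟨l, _, h⟩
  obtain ⟨j, j1, j2⟩ := (hB.and ((eventually_all_finset _).2 h1)).exists
  obtain ⟨l, lam, c₀, c₁, f, g, hre, hs, hn⟩ := exists_sol (hL j)
  by_cases hl : max l₀ 2 ≤ l
  · refine hn ⟨0, 0, fun r hr => ?_⟩
    obtain ⟨h2, h3⟩ := j1 l lam hre (Or.inr (Or.inl ((le_max_left _ _).trans hl))) f g
      (big_l ((le_max_right _ _).trans hl) hs) r hr
    rw [h2, h3]
    simp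
  by_cases hb : max σ₀ 2 ≤ lam.re ∨ max w₁ 1 ≤ |lam.im|
  · have h2 : ∀ {e : ℝ}, e ≤ 1 → (e : ℂ) - lam ≠ 0 := fun he =>
      ne_of_big (le_max_right _ _) (le_max_right _ _) hb he
    refine hn (remove hza hze hlin (L.m_pos j) hs ?_ (by simpa using h2 le_rfl)
      (j1 l lam hre ?_))
    · rw [ev0]
      split_ifs
      · simpa using h2 (e := 1 / 2) (by norm_num)
      · simpa using h2 (e := 0) (by norm_num)
    · rcases hb with hb | hb
      · exact Or.inl ((le_max_left _ _).trans hb)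
      · exact Or.inr (Or.inr ((le_max_left _ _).trans hb))
  · rw [not_or, not_le, not_le] at hb
    refine j2 l (Finset.mem_range.2 (not_le.1 hl)) ⟨lam, c₀, c₁, f, g, hre, ?_, hs, hn⟩
    refine (norm_le_abs_re_add_abs_im lam).trans (add_le_add ?_ hb.2.le)
    rw [abs_of_nonneg hre]
    exact hb.1.le

end P139
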