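import Vale.Agent.P139.MDefs

/-! P139 part M: passage to the variable `s = r²`. -/

open Complex Set Filter Topology MeasureTheory
open scoped ContDiff ComplexConjugate

noncomputable section
namespace P139

namespace Mseq

theorem hd_pow (l : ℕ) {r : ℝ} (hr : r ≠ 0) :
    HasDerivAt (fun x : ℝ => (x : ℂ) ^ l) ((l : ℂ) / r * (r : ℂ) ^ l) r := by
  have h := (hasDerivAt_pow l (r : ℂ)).comp_ofReal
  have hr' : (r : ℂ) ≠ 0 := ofReal_ne_zero.2 hr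
  refine h.congr_deriv ?_
  rcases l with _ | l
  · simp
  · rw [Nat.add_sub_cancel, pow_succ]
    field_simp

theorem hd_sq {F : ℝ → ℂ} {F' : ℂ} {r : ℝ} (h : HasDerivAt F F' (r ^ 2)) :
    HasDerivAt (fun x : ℝ => F (x ^ 2)) (2 * r * F') r := by
  have h1 := HasDerivAt.scomp (h := fun x : ℝ => x ^ 2) r h (hasDerivAt_pow 2 r)
  refine h1.congr_deriv ?_
  simp

theorem hd_on {n : WithTop ℕ∞} {F : ℝ → ℂ} {a s : ℝ} (h : ContDiffOn ℝ n F (Ioi a)) (hn : n ≠ 0)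
    (hs : a < s) : HasDerivAt F (deriv F s) s :=
  ((h.contDiffAt (Ioi_mem_nhds hs)).differentiableAt hn).hasDerivAt

theorem deriv_eq (l : ℕ) {F f : ℝ → ℂ} (hF : ContDiffOn ℝ 48 F (Ioi 0))
    (hf : ∀ r : ℝ, 0 < r → f r = (r : ℂ) ^ l * F (r ^ 2)) {r : ℝ} (hr : 0 < r) :
    HasDerivAt f ((l : ℂ) / r * f r + 2 * (r : ℂ) ^ (l + 1) * deriv F (r ^ 2)) r := by
  have h1 := (hd_pow l hr.ne').mul (hd_sq (hd_on hF (by norm_num) (pow_pos hr 2)))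
  refine (h1.congr_of_eventuallyEq ?_).congr_deriv ?_
  · filter_upwards [Ioi_mem_nhds hr] with x hx using hf x hx
  · rw [hf r hr]; ring

theorem rad_eq (l : ℕ) {F f : ℝ → ℂ} (hF : ContDiffOn ℝ 48 F (Ioi 0))
    (hf : ∀ r : ℝ, 0 < r → f r = (r : ℂ) ^ l * F (r ^ 2)) {r : ℝ} (hr : 0 < r) :
    rad l f r = (r : ℂ) ^ l * (4 * ((r ^ 2 : ℝ) : ℂ) * deriv (deriv F) (r ^ 2) +
      (24 + 4 * (l : ℂ)) * deriv F (r ^ 2)) := by
  have hr' : (r : ℂ) ≠ 0 := ofReal_ne_zero.2 hr.ne'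
  have hF' : ContDiffOn ℝ 47 (deriv F) (Ioi 0) := hF.deriv_of_isOpen isOpen_Ioi (by norm_num)
  have h0 : HasDerivAt (fun x : ℝ => (l : ℂ) / x) (-(l : ℂ) / (r : ℂ) ^ 2) r := by
    have h := ((hasDerivAt_inv hr').const_mul (l : ℂ)).comp_ofReal
    refine (h.congr_of_eventuallyEq (Eventually.of_forall fun x => div_eq_mul_inv _ _)).congr_deriv
      ?_
    field_simp
  have h1 := (h0.mul (deriv_eq l hF hf hr)).add (((hd_pow (l + 1) hr.ne').const_mul 2).mul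
    (hd_sq (hd_on hF' (by norm_num) (pow_pos hr 2))))
  have h2 : deriv f =ᶠ[𝓝 r] fun x : ℝ =>
      (l : ℂ) / x * f x + 2 * (x : ℂ) ^ (l + 1) * deriv F (x ^ 2) := by
    filter_upwards [Ioi_mem_nhds hr] with x hx using (deriv_eq l hF hf hx).deriv
  rw [rad, (h1.congr_of_eventuallyEq h2).deriv, (deriv_eq l hF hf hr).deriv, hf r hr]
  push_cast
  field_simp
  ring

theorem toS_eq (l : ℕ) (f : ℝ → ℂ) {r : ℝ} (hr : 0 < r) :
    f r = (r : ℂ) ^ l * toS l f (r ^ 2) := by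
  have hr' : (r : ℂ) ≠ 0 := ofReal_ne_zero.2 hr.ne'
  rw [toS, Real.sqrt_sq hr.le]
  field_simp

theorem toS_smooth (l : ℕ) {f : ℝ → ℂ} (hf : ContDiffOn ℝ 48 f (Ioi 0)) :
    ContDiffOn ℝ 48 (toS l f) (Ioi 0) := by
  have hs : ContDiffOn ℝ 48 (fun s : ℝ => √s) (Ioi 0) :=
    contDiffOn_id.sqrt fun x hx => ne_of_gt hx
  have h1 : ContDiffOn ℝ 48 (fun s : ℝ => ((√s : ℝ) : ℂ) ^ l) (Ioi 0) :=
    (ofRealCLM.contDiff.comp_contDiffOn hs).pow l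
  have h2 := (hf.comp hs fun x hx => Real.sqrt_pos.2 hx).mul (h1.inv fun x hx =>
    pow_ne_zero _ (ofReal_ne_zero.2 (Real.sqrt_pos.2 hx).ne'))
  exact h2.congr fun x _ => div_eq_mul_inv _ _

variable {m : ℕ} (P : Prof m)

theorem deriv_q (r : ℝ) : deriv P.q r = 2 * r * deriv P.Θ (r ^ 2) :=
  (hd_sq (hd_on P.smooth (by simp) (lt_of_lt_of_le (neg_lt_zero.2 P.hε) (sq_nonneg r)))).deriv

theorem z0_eq (l : ℕ) (r : ℝ) : P.z0 l r = (r : ℂ) ^ l * P.Y0 l (r ^ 2) := by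
  rw [Prof.z0, Prof.Y0, y0]
  split_ifs with h1 h2
  · rw [h1, pow_zero, one_mul, Prof.q]
  · rw [h2, deriv_q]; ring
  · rw [mul_zero]

theorem z1_eq (l : ℕ) (r : ℝ) : P.z1 l r = (r : ℂ) ^ l * P.Y1 l (r ^ 2) := by
  rw [Prof.z1, Prof.Y1]
  split_ifs with h1
  · rw [h1, deriv_q, Prof.q]; push_cast; ring
  · rw [mul_zero]

theorem toS_of (l : ℕ) {z Y : ℝ → ℂ} (h : ∀ r : ℝ, z r = (r : ℂ) ^ l * Y (r ^ 2)) {s : ℝ}
    (hs : 0 < s) : toS l z s = Y s := by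
  have hr' : ((√s : ℝ) : ℂ) ≠ 0 := ofReal_ne_zero.2 (Real.sqrt_pos.2 hs).ne'
  rw [toS, h, Real.sq_sqrt hs.le]
  field_simp

end Mseq

open Mseq in
theorem s_seq : S_seq := by
  intro m P l
  have hΘ : ContDiffOn ℝ ∞ P.Θ (Ioi 0) := P.smooth.mono (Ioi_subset_Ioi (neg_nonpos.2 P.hε.le))
  have hΘc : ContDiffOn ℝ ∞ (fun s => conj (P.Θ s)) (Ioi 0) :=
    conjCLE.contDiff.comp_contDiffOn hΘ
  have hΘ' : ContDiffOn ℝ ∞ (deriv P.Θ) (Ioi 0) := hΘ.deriv_of_isOpen isOpen_Ioi (by simp)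
  refine ⟨fun lam c₀ c₁ f g h => ?_, fun f hf r hr => ⟨toS_eq l f hr,
    (deriv_eq l (toS_smooth l hf) (fun r hr => toS_eq l f hr) hr).deriv⟩,
    fun s hs => ⟨toS_of l (z0_eq P l) hs, toS_of l (z1_eq P l) hs⟩,
    contDiffOn_const.mul ((hΘ.mul hΘc).pow m),
    (contDiffOn_const.mul ((hΘ.mul hΘc).pow (m - 1))).mul (hΘ.pow 2), ?_, ?_⟩
  · have hF := toS_smooth l h.af.1
    have hG := toS_smooth l h.ag.1
    refine ⟨hF, hG, fun s hs => ?_, fun s hs => ?_⟩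
    · obtain ⟨r, hr, rfl⟩ : ∃ r : ℝ, 0 < r ∧ s = r ^ 2 :=
        ⟨√s, Real.sqrt_pos.2 hs, (Real.sq_sqrt hs.le).symm⟩
      have hr' : (r : ℂ) ≠ 0 := ofReal_ne_zero.2 hr.ne'
      have h1 := h.eF r hr
      rw [Prof.LF, rad_eq l hF (fun r hr => toS_eq l f hr) hr,
        (deriv_eq l hF (fun r hr => toS_eq l f hr) hr).deriv, toS_eq l f hr, toS_eq l g hr,
        z0_eq, z1_eq] at h1
      refine mul_left_cancel₀ (pow_ne_zero l hr') ?_
      have h2 : (r : ℂ) / 2 * ((l : ℂ) / r) = l / 2 := by field_simp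
      simp only [FreeF, Prof.V1s, Prof.V2s, Prof.V1, Prof.V2, Prof.q] at h1 ⊢
      push_cast at h1 ⊢
      linear_combination h1 + ((r : ℂ) ^ l * toS l f (r ^ 2)) * h2
    · obtain ⟨r, hr, rfl⟩ : ∃ r : ℝ, 0 < r ∧ s = r ^ 2 :=
        ⟨√s, Real.sqrt_pos.2 hs, (Real.sq_sqrt hs.le).symm⟩
      have hr' : (r : ℂ) ≠ 0 := ofReal_ne_zero.2 hr.ne'
      have h1 := h.eG r hr
      rw [Prof.LG, rad_eq l hG (fun r hr => toS_eq l g hr) hr,
        (deriv_eq l hG (fun r hr => toS_eq l g hr) hr).deriv, toS_eq l f hr, toS_eq l g hr,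
        z0_eq, z1_eq, map_mul conj ((r : ℂ) ^ l), map_mul conj ((r : ℂ) ^ l), map_pow,
        conj_ofReal] at h1
      refine mul_left_cancel₀ (pow_ne_zero l hr') ?_
      have h2 : (r : ℂ) / 2 * ((l : ℂ) / r) = l / 2 := by field_simp
      simp only [FreeG, Prof.V1s, Prof.V2s, Prof.V1, Prof.V2, Prof.q] at h1 ⊢
      push_cast at h1 ⊢
      linear_combination h1 + ((r : ℂ) ^ l * toS l g (r ^ 2)) * h2
  · unfold Prof.Y0 y0
    split_ifs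
    · exact contDiffOn_const.mul hΘ
    · exact contDiffOn_const.mul hΘ'
    · exact contDiffOn_const
  · unfold Prof.Y1
    split_ifs
    · exact (contDiffOn_const.mul hΘ).add (ofRealCLM.contDiff.contDiffOn.mul hΘ')
    · exact contDiffOn_const

end P139
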