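import Vale.Agent.P139.MADefs

/-! P139 part MA: convergence of the profile and of the modes outside the ball. -/

open Complex Set Filter Topology MeasureTheory
open scoped ContDiff ComplexConjugate InnerProductSpace

noncomputable section
namespace P139

namespace Mthc

variable {D : FreeData}

theorem umul {F G : ℕ → ℝ → ℂ} {f g : ℝ → ℂ} {c d : ℝ}
    (hF : TendstoUniformlyOn F f atTop (Icc c d)) (hG : TendstoUniformlyOn G g atTop (Icc c d))
    (hf : ContinuousOn f (Icc c d)) (hg : ContinuousOn g (Icc c d)) :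
    TendstoUniformlyOn (fun j s => F j s * G j s) (fun s => f s * g s) atTop (Icc c d) :=
  (tendstoLocallyUniformlyOn_iff_tendstoUniformlyOn_of_compact isCompact_Icc).1
    (hF.tendstoLocallyUniformlyOn.mul₀ hG.tendstoLocallyUniformlyOn hf hg)

theorem uself (f : ℝ → ℂ) (s : Set ℝ) : TendstoUniformlyOn (fun _ : ℕ => f) f atTop s :=
  fun _ hu => Eventually.of_forall fun _ _ _ => refl_mem_uniformity hu

theorem one_lt (L : Lim D) : 1 < L.R ^ 2 := by
  have := L.hx.1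
  have := D.hx.1
  linarith

theorem smTh (L : Lim D) : ContDiffOn ℝ ∞ L.Th (Ioi 0) := (D.smooth L.β L.hβ).div_const _

theorem smP {m : ℕ} (P : Prof m) : ContDiffOn ℝ ∞ P.Θ (Ioi 0) :=
  P.smooth.mono (Ioi_subset_Ioi (by linarith [P.hε]))

theorem sm_deriv {u : ℝ → ℂ} (h : ContDiffOn ℝ ∞ u (Ioi 0)) : ContDiffOn ℝ ∞ (deriv u) (Ioi 0) :=
  h.deriv_of_isOpen isOpen_Ioi (by simp)

theorem lower {u : ℝ → ℂ} (h : ContDiffOn ℝ ∞ u (Ioi 0)) {a : ℝ} (ha : 0 ≤ a) (K : ℕ) :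
    ContDiffOn ℝ K u (Ioi a) :=
  (h.of_le (by exact_mod_cast le_top)).mono (Ioi_subset_Ioi ha)

theorem ub0 (L : Lim D) (K : ℕ) : UB (L.R ^ 2) K fun j => (L.P j).Θ := by
  intro k _ c d hc
  have h1 := one_lt L
  have hR : L.R < √c := Real.lt_sqrt_of_sq_lt hc
  obtain ⟨C, hC⟩ := L.ext_symb (√c - L.R) (sub_pos.2 hR) k
  refine ⟨|C|, hC.mono fun j hj s hs => (hj s ?_).trans ?_⟩
  · rw [add_sub_cancel, Real.sq_sqrt (by linarith)]
    exact hs.1
  · have h2 : 1 ≤ s := by linarith [hs.1]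
    have h3 : 0 ≤ gam (L.m j) := by unfold gam; positivity
    have h4 : s ^ (-gam (L.m j) - (k : ℝ)) ≤ 1 :=
      Real.rpow_le_one_of_one_le_of_nonpos h2 (by linarith [(Nat.cast_nonneg k : (0 : ℝ) ≤ k)])
    have h5 : 0 ≤ s ^ (-gam (L.m j) - (k : ℝ)) := by positivity
    calc C * s ^ (-gam (L.m j) - (k : ℝ)) ≤ |C| * s ^ (-gam (L.m j) - (k : ℝ)) :=
          mul_le_mul_of_nonneg_right (le_abs_self C) h5
      _ ≤ |C| := mul_le_of_le_one_right (abs_nonneg C) h4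

theorem ub1 (L : Lim D) (K : ℕ) : UB (L.R ^ 2) K fun j => deriv (L.P j).Θ := by
  intro k hk c d hc
  obtain ⟨C, hC⟩ := ub0 L (K + 1) (k + 1) (by omega) c d hc
  refine ⟨C, hC.mono fun j hj s hs => ?_⟩
  have := hj s hs
  rwa [iteratedDeriv_succ'] at this

theorem deriv_sq {u : ℝ → ℂ} (h : ContDiffOn ℝ ∞ u (Ioi 0)) {r : ℝ} (hr : 0 < r) :
    deriv (fun x : ℝ => u (x ^ 2)) r = 2 * r * deriv u (r ^ 2) := by
  have h1 : DifferentiableAt ℝ u (r ^ 2) :=
    (h.contDiffAt (Ioi_mem_nhds (by positivity))).differentiableAt (by simp)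
  have h2 := (HasDerivAt.scomp (h := fun x : ℝ => x ^ 2) r h1.hasDerivAt (hasDerivAt_pow 2 r)).deriv
  refine h2.trans ?_
  simp

theorem qi_eq (L : Lim D) {r : ℝ} (hr : L.R < r) : L.qi r = L.Th (r ^ 2) := by
  rw [L.qi_def, if_neg (not_le.2 (hr.trans_le (le_abs_self r)))]
  rfl

theorem sub_pre {c d : ℝ} : Icc c d ⊆ (fun s : ℝ => √s) ⁻¹' Icc 0 (√d) := fun s hs =>
  ⟨Real.sqrt_nonneg s, Real.sqrt_le_sqrt hs.2⟩

theorem cv0 (L : Lim D) {c : ℝ} (d : ℝ) (hc : L.R ^ 2 < c) :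
    TendstoUniformlyOn (fun j => (L.P j).Θ) L.Th atTop (Icc c d) := by
  have h1 := one_lt L
  refine ((((L.conv (√d)).comp fun s : ℝ => √s).mono (sub_pre (c := c))).congr
    (Eventually.of_forall fun j s hs => ?_)).congr_right fun s hs => ?_
  · show (L.P j).Θ (√s ^ 2) = (L.P j).Θ s
    rw [Real.sq_sqrt (by linarith [hs.1])]
  · show L.qi (√s) = L.Th s
    rw [qi_eq L (Real.lt_sqrt_of_sq_lt (hc.trans_le hs.1)), Real.sq_sqrt (by linarith [hs.1])]

theorem cv1 (L : Lim D) {c : ℝ} (d : ℝ) (hc : L.R ^ 2 < c) :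
    TendstoUniformlyOn (fun j => deriv (L.P j).Θ) (deriv L.Th) atTop (Icc c d) := by
  have h1 := one_lt L
  have hp : ∀ s ∈ Icc c d, 0 < s := fun s hs => by linarith [hs.1]
  have hn : ∀ s ∈ Icc c d, (2 * (√s : ℝ) : ℂ) ≠ 0 := fun s hs =>
    mul_ne_zero two_ne_zero (ofReal_ne_zero.2 (Real.sqrt_pos.2 (hp s hs)).ne')
  have hq : ∀ s ∈ Icc c d, deriv L.qi (√s) = 2 * (√s : ℝ) * deriv L.Th s := fun s hs => by
    have hr : L.R < √s := Real.lt_sqrt_of_sq_lt (hc.trans_le hs.1)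
    have e : L.qi =ᶠ[𝓝 (√s)] fun x => L.Th (x ^ 2) :=
      (lt_mem_nhds hr).mono fun x hx => qi_eq L hx
    rw [e.deriv_eq, deriv_sq (smTh L) (L.R_pos.trans hr), Real.sq_sqrt (hp s hs).le]
  have c1 : ContinuousOn (fun s : ℝ => (2 * (√s : ℝ) : ℂ)) (Icc c d) := by fun_prop
  have c2 : ContinuousOn (deriv L.Th) (Icc c d) := (sm_deriv (smTh L)).continuousOn.mono hp
  have h2 := (((L.conv' (√d)).comp fun s : ℝ => √s).mono (sub_pre (c := c))).congr_right
    (g := fun s : ℝ => 2 * (√s : ℝ) * deriv L.Th s) hq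
  refine ((umul (uself (fun s : ℝ => (2 * (√s : ℝ) : ℂ)⁻¹) _) h2 (c1.inv₀ hn) (c1.mul c2)).congr
    (Eventually.of_forall fun j s hs => ?_)).congr_right fun s hs => ?_
  · show (2 * (√s : ℝ) : ℂ)⁻¹ * deriv (fun x : ℝ => (L.P j).Θ (x ^ 2)) (√s) = deriv (L.P j).Θ s
    rw [deriv_sq (smP _) (Real.sqrt_pos.2 (hp s hs)), Real.sq_sqrt (hp s hs).le,
      inv_mul_cancel_left₀ (hn s hs)]
  · exact inv_mul_cancel_left₀ (hn s hs) _

theorem comb (hdc : S_dc) (hubt : S_ubt) (L : Lim D) {e : ℕ → ℂ} {e' : ℂ}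
    (he : Tendsto e atTop (𝓝 e')) {h : ℝ → ℂ} (hh : ContDiff ℝ ∞ h) {W : ℕ → ℝ → ℂ} {Z : ℝ → ℂ}
    (hW : ∀ j s, W j s = e j * (L.P j).Θ s + h s * deriv (L.P j).Θ s)
    (hZ : ∀ s, Z s = e' * L.Th s + h s * deriv L.Th s) :
    (∀ K, UB (L.R ^ 2) K W) ∧
    (∀ c d : ℝ, L.R ^ 2 < c → TendstoUniformlyOn W Z atTop (Icc c d)) ∧
    ∀ s : ℝ, L.R ^ 2 < s → Tendsto (fun j => deriv (W j) s) atTop (𝓝 (deriv Z s)) := by
  obtain rfl : W = fun j s => e j * (L.P j).Θ s + h s * deriv (L.P j).Θ s := by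
    funext j s
    exact hW j s
  obtain rfl : Z = fun s => e' * L.Th s + h s * deriv L.Th s := funext hZ
  have h0 : 0 ≤ L.R ^ 2 := sq_nonneg _
  have h1 : ∀ K, UB (L.R ^ 2) K fun j s => e j * (L.P j).Θ s + h s * deriv (L.P j).Θ s := by
    intro K
    obtain ⟨a, b, c, -⟩ := hubt (L.R ^ 2) K
    have s1 := fun j => lower (smP (L.P j)) h0 K
    have s2 := fun j => lower (sm_deriv (smP (L.P j))) h0 K
    have s3 := lower hh.contDiffOn h0 K
    exact (a _ _ (fun j => contDiffOn_const.mul (s1 j)) (fun j => s3.mul (s2 j))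
      (a _ _ (fun _ => contDiffOn_const) s1 (c e e' he) (ub0 L K)).2
      (a _ _ (fun _ => s3) s2 (b h s3) (ub1 L K)).2).1
  have h2 : ∀ c d : ℝ, L.R ^ 2 < c → TendstoUniformlyOn
      (fun j s => e j * (L.P j).Θ s + h s * deriv (L.P j).Θ s)
      (fun s => e' * L.Th s + h s * deriv L.Th s) atTop (Icc c d) := by
    intro c d hc
    have hp : Icc c d ⊆ Ioi 0 := fun s hs => (h0.trans_lt hc).trans_le hs.1
    exact (umul (he.tendstoUniformlyOn_const _) (cv0 L d hc) continuousOn_const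
      ((smTh L).continuousOn.mono hp)).add (umul (uself h _) (cv1 L d hc)
        hh.continuous.continuousOn ((sm_deriv (smTh L)).continuousOn.mono hp))
  refine ⟨h1, h2, fun s hs => ?_⟩
  have := hdc (L.R ^ 2) 1 _ _
    (fun j => lower ((contDiffOn_const.mul (smP (L.P j))).add
      (hh.contDiffOn.mul (sm_deriv (smP (L.P j))))) h0 _)
    (lower ((contDiffOn_const.mul (smTh L)).add (hh.contDiffOn.mul (sm_deriv (smTh L)))) h0 _)
    (h1 _) (fun x hx => (h2 x x hx).tendsto_at (left_mem_Icc.2 le_rfl)) 1 le_rfl s hs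
  simpa only [iteratedDeriv_one] using this

theorem gam_lim (L : Lim D) :
    Tendsto (fun j => (gam (L.m j) : ℂ) - I * (L.P j).β) atTop (𝓝 (-(I * L.β))) := by
  have h1 : Tendsto (fun j => gam (L.m j)) atTop (𝓝 0) :=
    tendsto_const_nhds.div_atTop
      ((tendsto_natCast_atTop_atTop.comp L.m_lim).const_mul_atTop two_pos)
  have h2 := ((continuous_ofReal.tendsto _).comp h1).sub
    (((continuous_ofReal.tendsto _).comp L.β_lim).const_mul I)
  simpa using h2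

end Mthc

open Mthc

theorem s_thc (hdc : S_dc) (hubt : S_ubt) (hseq : S_seq) : S_thc := by
  have _ := hseq
  intro D L l
  obtain ⟨a1, a2, a3⟩ := comb hdc hubt L (e := fun _ => if l = 0 then I else 0)
    tendsto_const_nhds (h := fun _ => if l = 1 then 2 else 0) contDiff_const
    (W := fun j => (L.P j).Y0 l) (Z := y0 L.Th l)
    (fun j s => by
      unfold Prof.Y0 y0
      split_ifs with h1 h2 <;> simp_all)
    (fun s => by
      unfold y0
      split_ifs with h1 h2 <;> simp_all)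
  obtain ⟨b1, b2, b3⟩ := comb hdc hubt L
    (e := fun j => if l = 0 then (gam (L.m j) : ℂ) - I * (L.P j).β else 0)
    (e' := if l = 0 then -(I * L.β) else 0)
    (by
      split_ifs
      · exact gam_lim L
      · exact tendsto_const_nhds)
    (h := fun s => if l = 0 then s else 0)
    (by
      split_ifs
      · exact ofRealCLM.contDiff
      · exact contDiff_const)
    (W := fun j => (L.P j).Y1 l) (Z := y1 L.β L.Th l)
    (fun j s => by
      unfold Prof.Y1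
      split_ifs <;> simp)
    (fun s => by
      unfold y1
      split_ifs <;> simp)
  exact ⟨smTh L, fun K => ⟨a1 K, b1 K⟩, fun c d hc => ⟨a2 c d hc, b2 c d hc⟩,
    fun s hs => ⟨a3 s hs, b3 s hs⟩⟩

end P139
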