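import Vale.Agent.P139.MADefs

/-! P139 part MA: bounds for all derivatives of solutions of a linear system. -/

open Complex Set Filter Topology MeasureTheory
open scoped ContDiff ComplexConjugate

namespace P139

namespace Mub

theorem mono {a : ℝ} {K K' : ℕ} {u : ℕ → ℝ → ℂ} (h : K' ≤ K) (hu : UB a K u) : UB a K' u :=
  fun k hk => hu k (hk.trans h)

theorem der {a : ℝ} {k : ℕ} {u : ℕ → ℝ → ℂ} (hu : UB a (k + 1) u) :
    UB a k fun j => deriv (u j) := by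
  intro i hi c d hc
  obtain ⟨C, hC⟩ := hu (i + 1) (by omega) c d hc
  refine ⟨C, hC.mono fun j hj s hs => ?_⟩
  have := hj s hs
  rwa [iteratedDeriv_succ'] at this

theorem up {a : ℝ} {k : ℕ} {u : ℕ → ℝ → ℂ} (h1 : UB a (k + 1) u)
    (h2 : UB a k fun j => deriv (deriv (u j))) : UB a (k + 2) u := by
  intro i hi c d hc
  rcases Nat.lt_or_ge i (k + 2) with h | h
  · exact h1 i (by omega) c d hc
  · obtain rfl : i = k + 2 := le_antisymm hi h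
    obtain ⟨C, hC⟩ := h2 k le_rfl c d hc
    refine ⟨C, hC.mono fun j hj s hs => ?_⟩
    rw [iteratedDeriv_succ', iteratedDeriv_succ']
    exact hj s hs

theorem step (hubt : S_ubt) {a : ℝ} {k : ℕ} {F G p₁ p₂ p₃ p₄ : ℕ → ℝ → ℂ}
    (sF : ∀ j, ContDiffOn ℝ (k + 1 : ℕ) (F j) (Ioi a))
    (sG : ∀ j, ContDiffOn ℝ (k + 1 : ℕ) (G j) (Ioi a))
    (s₁ : ∀ j, ContDiffOn ℝ k (p₁ j) (Ioi a)) (s₂ : ∀ j, ContDiffOn ℝ k (p₂ j) (Ioi a))
    (s₃ : ∀ j, ContDiffOn ℝ k (p₃ j) (Ioi a)) (s₄ : ∀ j, ContDiffOn ℝ k (p₄ j) (Ioi a))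
    (b₁ : UB a k p₁) (b₂ : UB a k p₂) (b₃ : UB a k p₃) (b₄ : UB a k p₄)
    (e : ∀ j s, a < s →
      deriv (deriv (F j)) s = p₁ j s * deriv (F j) s + p₂ j s * F j s + p₃ j s * G j s + p₄ j s)
    (bF : UB a (k + 1) F) (bG : UB a (k + 1) G) : UB a (k + 2) F := by
  obtain ⟨h1, -, -, -, h5⟩ := hubt a k
  have hk : ((k : ℕ) : WithTop ℕ∞) ≤ ((k + 1 : ℕ) : WithTop ℕ∞) := by
    exact_mod_cast Nat.le_succ k
  have sF0 : ∀ j, ContDiffOn ℝ k (F j) (Ioi a) := fun j => (sF j).of_le hk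
  have sG0 : ∀ j, ContDiffOn ℝ k (G j) (Ioi a) := fun j => (sG j).of_le hk
  have sF1 : ∀ j, ContDiffOn ℝ k (deriv (F j)) (Ioi a) := fun j =>
    (sF j).deriv_of_isOpen isOpen_Ioi (by push_cast; exact le_rfl)
  have t1 := (h1 p₁ (fun j => deriv (F j)) s₁ sF1 b₁ (der bF)).2
  have t2 := (h1 p₂ F s₂ sF0 b₂ (mono (Nat.le_succ k) bF)).2
  have t3 := (h1 p₃ G s₃ sG0 b₃ (mono (Nat.le_succ k) bG)).2
  have c1 : ∀ j, ContDiffOn ℝ k (fun s => p₁ j s * deriv (F j) s) (Ioi a) := fun j =>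
    (s₁ j).mul (sF1 j)
  have c2 : ∀ j, ContDiffOn ℝ k (fun s => p₂ j s * F j s) (Ioi a) := fun j => (s₂ j).mul (sF0 j)
  have c3 : ∀ j, ContDiffOn ℝ k (fun s => p₃ j s * G j s) (Ioi a) := fun j => (s₃ j).mul (sG0 j)
  have t4 := (h1 _ _ c1 c2 t1 t2).1
  have t5 := (h1 _ _ (fun j => (c1 j).add (c2 j)) c3 t4 t3).1
  have t6 := (h1 _ _ (fun j => ((c1 j).add (c2 j)).add (c3 j)) s₄ t5 b₄).1
  exact up bF (h5 _ _ (fun j s hs => (e j s hs).symm) t6)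

end Mub

theorem s_ub (hubt : S_ubt) : S_ub := by
  intro a K F G p₁ p₂ p₃ p₄ q₁ q₂ q₃ q₄ hs hp he bF bG
  have key : ∀ k ≤ K + 1, UB a (k + 1) F ∧ UB a (k + 1) G := by
    intro k hk
    induction k with
    | zero => exact ⟨bF, bG⟩
    | succ k ih =>
      obtain ⟨iF, iG⟩ := ih (by omega)
      have hk1 : ((k + 1 : ℕ) : WithTop ℕ∞) ≤ ((K + 2 : ℕ) : WithTop ℕ∞) := by
        exact_mod_cast (by omega : k + 1 ≤ K + 2)
      have hc : ∀ u ∈ [p₁, p₂, p₃, p₄, q₁, q₂, q₃, q₄],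
          (∀ j, ContDiffOn ℝ k (u j) (Ioi a)) ∧ UB a k u := fun u hu =>
        ⟨fun j => ((hp u hu).1 j).of_le (by exact_mod_cast le_top),
          Mub.mono (by omega) (hp u hu).2⟩
      have sF := fun j => (hs j).1.of_le hk1
      have sG := fun j => (hs j).2.of_le hk1
      exact ⟨Mub.step hubt sF sG (hc p₁ (by simp)).1 (hc p₂ (by simp)).1 (hc p₃ (by simp)).1
          (hc p₄ (by simp)).1 (hc p₁ (by simp)).2 (hc p₂ (by simp)).2 (hc p₃ (by simp)).2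
          (hc p₄ (by simp)).2 (fun j s h => (he j s h).1) iF iG,
        Mub.step hubt sG sF (hc q₁ (by simp)).1 (hc q₂ (by simp)).1 (hc q₃ (by simp)).1
          (hc q₄ (by simp)).1 (hc q₁ (by simp)).2 (hc q₂ (by simp)).2 (hc q₃ (by simp)).2
          (hc q₄ (by simp)).2 (fun j s h => (he j s h).2) iG iF⟩
  exact key (K + 1) le_rfl

end P139
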