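import Vale.Agent.P139.MADefs

/-! P139 part MA: closure properties of locally uniform bounds. -/

open Complex Set Filter Topology MeasureTheory
open scoped ContDiff ComplexConjugate

noncomputable section
namespace P139
namespace Mubt

/-- one constant for all orders -/
theorem unif {a : ℝ} {K : ℕ} {u : ℕ → ℝ → ℂ} (h : UB a K u) {c : ℝ} (d : ℝ) (hc : a < c) :
    ∃ C : ℝ, 0 ≤ C ∧ ∀ᶠ j in atTop, ∀ k ≤ K, ∀ s ∈ Icc c d, ‖iteratedDeriv k (u j) s‖ ≤ C := by
  choose! C hC using fun k (hk : k ≤ K) => h k hk c d hc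
  refine ⟨∑ k ∈ Finset.range (K + 1), |C k|, Finset.sum_nonneg fun _ _ => abs_nonneg _, ?_⟩
  have := (eventually_all_finset (Finset.range (K + 1))).2
    fun k hk => hC k (Nat.lt_succ_iff.1 (Finset.mem_range.1 hk))
  filter_upwards [this] with j hj k hk s hs
  have hk' : k ∈ Finset.range (K + 1) := Finset.mem_range.2 (Nat.lt_succ_iff.2 hk)
  exact ((hj k hk' s hs).trans (le_abs_self _)).trans
    (Finset.single_le_sum (f := fun k => |C k|) (fun _ _ => abs_nonneg _) hk')

theorem cda {a : ℝ} {K k : ℕ} {f : ℝ → ℂ} (h : ContDiffOn ℝ K f (Ioi a)) (hk : k ≤ K) {s : ℝ}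
    (hs : a < s) : ContDiffAt ℝ k f s :=
  (h.contDiffAt (Ioi_mem_nhds hs)).of_le (by exact_mod_cast hk)

theorem it_conj (k : ℕ) (f : ℝ → ℂ) :
    iteratedDeriv k (fun s => conj (f s)) = fun s => conj (iteratedDeriv k f s) := by
  induction k with
  | zero => simp
  | succ k ih =>
    rw [iteratedDeriv_succ, ih, iteratedDeriv_succ]
    exact deriv.star'

end Mubt

open Mubt in
theorem s_ubt : S_ubt := by
  intro a K
  refine ⟨fun u v hu hv bu bv => ⟨fun k hk c d hc => ?_, fun k hk c d hc => ?_⟩,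
    fun h hh k hk c d hc => ?_, fun e e' he k hk c d hc => ?_, fun u bu k hk c d hc => ?_,
    fun u v huv bu k hk c d hc => ?_⟩
  · obtain ⟨C, hC⟩ := bu k hk c d hc
    obtain ⟨C', hC'⟩ := bv k hk c d hc
    refine ⟨C + C', ?_⟩
    filter_upwards [hC, hC'] with j h1 h2 s hs
    have hs' : a < s := hc.trans_le hs.1
    have := iteratedDeriv_add (cda (hu j) hk hs') (cda (hv j) hk hs')
    rw [show (fun s => u j s + v j s) = u j + v j from rfl, this]
    exact (norm_add_le _ _).trans (add_le_add (h1 s hs) (h2 s hs))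
  · obtain ⟨C, h0, hC⟩ := unif bu d hc
    obtain ⟨C', -, hC'⟩ := unif bv d hc
    refine ⟨∑ i ∈ Finset.range (k + 1), (k.choose i : ℝ) * C * C', ?_⟩
    filter_upwards [hC, hC'] with j h1 h2 s hs
    have hs' : a < s := hc.trans_le hs.1
    have := iteratedDeriv_mul (cda (hu j) hk hs') (cda (hv j) hk hs')
    rw [show (fun s => u j s * v j s) = u j * v j from rfl, this]
    refine (norm_sum_le _ _).trans (Finset.sum_le_sum fun i hi => ?_)
    have hi' : i ≤ k := Nat.lt_succ_iff.1 (Finset.mem_range.1 hi)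
    rw [norm_mul, norm_mul, Complex.norm_natCast]
    exact mul_le_mul (mul_le_mul_of_nonneg_left (h1 i (hi'.trans hk) s hs) (Nat.cast_nonneg _))
      (h2 (k - i) ((Nat.sub_le _ _).trans hk) s hs) (norm_nonneg _) (by positivity)
  · have h1 : ContinuousOn (iteratedDerivWithin k h (Ioi a)) (Ioi a) :=
      hh.continuousOn_iteratedDerivWithin (by exact_mod_cast hk) (uniqueDiffOn_Ioi a)
    have h2 : ContinuousOn (iteratedDeriv k h) (Ioi a) :=
      h1.congr fun s hs => (iteratedDerivWithin_of_isOpen isOpen_Ioi hs).symm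
    obtain ⟨C, hC⟩ := isCompact_Icc.exists_bound_of_continuousOn
      (h2.mono (fun s (hs : s ∈ Icc c d) => hc.trans_le hs.1))
    exact ⟨C, Eventually.of_forall fun _ => hC⟩
  · refine ⟨‖e'‖ + 1, ?_⟩
    filter_upwards [he.norm.eventually (eventually_le_nhds (lt_add_one ‖e'‖))] with j hj s _
    rw [iteratedDeriv_const]
    split_ifs
    · exact hj
    · rw [norm_zero]; positivity
  · obtain ⟨C, hC⟩ := bu k hk c d hc
    refine ⟨C, hC.mono fun j hj s hs => ?_⟩
    rw [it_conj, Complex.norm_conj]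
    exact hj s hs
  · obtain ⟨C, hC⟩ := bu k hk c d hc
    refine ⟨C, hC.mono fun j hj s hs => ?_⟩
    have e : u j =ᶠ[𝓝 s] v j :=
      (Ioi_mem_nhds (hc.trans_le hs.1) : Ioi a ∈ 𝓝 s) |> fun h => mem_of_superset h (huv j)
    rw [← e.iteratedDeriv_eq]
    exact hj s hs

end P139
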