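import Vale.Agent.P139.MADefs

/-! P139 part MA: the limit modes are independent eigenfunctions. -/

open Complex Set Filter Topology MeasureTheory
open scoped ContDiff ComplexConjugate InnerProductSpace

noncomputable section
namespace P139

namespace Myi

theorem sm {u : ℝ → ℂ} (hu : ContDiffOn ℝ ∞ u (Ioi 0)) : ContDiffOn ℝ ∞ (deriv u) (Ioi 0) :=
  hu.deriv_of_isOpen isOpen_Ioi (by simp)

theorem hd {u : ℝ → ℂ} (hu : ContDiffOn ℝ ∞ u (Ioi 0)) {s : ℝ} (hs : 0 < s) :
    HasDerivAt u (deriv u s) s :=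
  ((hu.contDiffAt (Ioi_mem_nhds hs)).differentiableAt (by simp)).hasDerivAt

theorem hid (s : ℝ) : HasDerivAt (fun x : ℝ => (x : ℂ)) 1 s := ofRealCLM.hasDerivAt

theorem dq {F G : ℝ → ℂ} (h : ∀ s, 0 < s → F s = G s) {s : ℝ} (hs : 0 < s) {c : ℂ}
    (hG : HasDerivAt G c s) : deriv F s = c := by
  have e : F =ᶠ[𝓝 s] G := by filter_upwards [Ioi_mem_nhds hs] with x hx using h x hx
  rw [e.deriv_eq, hG.deriv]

theorem gen {β s₀ : ℝ} {T : ℝ → ℂ} (hβ : β ≠ 0) (h0 : 0 < s₀) (hT : ContDiffOn ℝ ∞ T (Ioi 0))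
    (E0 : ∀ s : ℝ, 0 < s →
      I * (4 * s * deriv (deriv T) s + 24 * deriv T s) - s * deriv T s + I * β * T s = 0)
    (h1 : T s₀ = 1) (h2 : deriv T s₀ = 0) (l : ℕ) (lam : ℂ) :
    ContDiffOn ℝ ∞ (y0 T l) (Ioi 0) ∧ ContDiffOn ℝ ∞ (y1 β T l) (Ioi 0) ∧
    (∀ s : ℝ, 0 < s → FreeF β l lam (y0 T l) s = (ev0 l - lam) * y0 T l s ∧
      FreeF β l lam (y1 β T l) s = (1 - lam) * y1 β T l s) ∧
    ∀ a b : ℂ, (∀ s : ℝ, 0 < s → a * y0 T l s + b * y1 β T l s = 0) →
      ind0 l * a = 0 ∧ ind1 l * b = 0 := by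
  have hT1 := sm hT
  have hT2 := sm hT1
  have E1 : ∀ s : ℝ, 0 < s → I * (4 * s * deriv (deriv (deriv T)) s + 28 * deriv (deriv T) s)
      - s * deriv (deriv T) s - (1 - I * β) * deriv T s = 0 := fun s hs => by
    have a1 := ((((((hid s).const_mul 4).mul (hd hT2 hs)).add
      ((hd hT1 hs).const_mul 24)).const_mul I).sub ((hid s).mul (hd hT1 hs))).add
      ((hd hT hs).const_mul (I * β))
    have a2 := dq (fun s hs => (E0 s hs).symm) hs a1
    rw [deriv_const] at a2
    linear_combination -a2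
  have nz : ∀ c : ℂ, (∀ s : ℝ, 0 < s → c * deriv T s = 0) → c = 0 := fun c h => by
    by_contra hc
    have a1 : ∀ s : ℝ, 0 < s → deriv T s = 0 := fun s hs => (mul_eq_zero.1 (h s hs)).resolve_left hc
    have a2 := E0 s₀ h0
    rw [dq a1 h0 (hasDerivAt_const _ _), h1, h2] at a2
    simp [hβ] at a2
  have zf : ∀ (l : ℕ) (s : ℝ), FreeF β l lam (fun _ => 0) s = 0 := fun l s => by simp [FreeF]
  obtain rfl | rfl | hl : l = 0 ∨ l = 1 ∨ 2 ≤ l := by omega
  · have e0 : y0 T 0 = fun s => I * T s := by funext s; simp [y0]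
    have e1 : y1 β T 0 = fun s => -(I * β) * T s + s * deriv T s := by funext s; simp [y1]
    have d1 : ∀ s : ℝ, 0 < s → deriv (fun s : ℝ => -(I * β) * T s + s * deriv T s) s =
        -(I * β) * deriv T s + (1 * deriv T s + s * deriv (deriv T) s) := fun s hs =>
      (((hd hT hs).const_mul _).add ((hid s).mul (hd hT1 hs))).deriv
    rw [e0, e1]
    refine ⟨contDiffOn_const.mul hT, (contDiffOn_const.mul hT).add
      (ofRealCLM.contDiff.contDiffOn.mul hT1), fun s hs => ⟨?_, ?_⟩, fun a b h => ?_⟩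
    · simp only [FreeF, deriv_const_mul_field', ev0]
      push_cast
      linear_combination I * E0 s hs
    · have d2 := dq d1 hs (((hd hT1 hs).const_mul _).add
        (((hd hT1 hs).const_mul _).add ((hid s).mul (hd hT2 hs))))
      unfold FreeF
      rw [d2, d1 s hs]
      push_cast
      linear_combination (1 - I * β) * E0 s hs + s * E1 s hs
    · have a1 := h s₀ h0
      simp only [h1, h2] at a1
      have a2 : a = b * β := by linear_combination -I * a1 + (a - b * β) * I_mul_I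
      have a3 : b = 0 := nz b fun s hs => by
        have a4 := h s hs
        rw [a2] at a4
        exact mul_left_cancel₀ (ofReal_ne_zero.2 hs.ne') (by linear_combination a4)
      simp [a2, a3]
  · have e0 : y0 T 1 = fun s => 2 * deriv T s := by funext s; simp [y0]
    have e1 : y1 β T 1 = fun _ => 0 := by funext s; simp [y1]
    rw [e0, e1]
    refine ⟨contDiffOn_const.mul hT1, contDiffOn_const, fun s hs => ⟨?_, by rw [zf, mul_zero]⟩,
      fun a b h => ?_⟩
    · simp only [FreeF, deriv_const_mul_field', ev0, if_true]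
      push_cast
      linear_combination 2 * E1 s hs
    · have a3 : a = 0 := nz a fun s hs => by linear_combination h s hs / 2
      simp [a3, ind1]
  · have l0 : l ≠ 0 := by omega
    have l1 : l ≠ 1 := by omega
    have e0 : y0 T l = fun _ => 0 := by funext s; simp [y0, l0, l1]
    have e1 : y1 β T l = fun _ => 0 := by funext s; simp [y1, l0]
    rw [e0, e1]
    refine ⟨contDiffOn_const, contDiffOn_const,
      fun s hs => ⟨by rw [zf, mul_zero], by rw [zf, mul_zero]⟩, fun a b _ => ?_⟩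
    rw [ind0, ind1, if_neg (by omega), if_neg l0, zero_mul, zero_mul]
    exact ⟨rfl, rfl⟩

end Myi

theorem s_yi : S_yi := by
  intro D L l lam
  have hR := L.R_pos
  have hU : D.U L.β (L.R ^ 2) ≠ 0 := by
    have := D.ne L.β L.hβ _ L.hx
    rwa [show 4 * (L.R ^ 2 / 4) = L.R ^ 2 by ring] at this
  have e : L.Th = fun s => D.U L.β s / D.U L.β (L.R ^ 2) := rfl
  have e1 : deriv L.Th = fun s => deriv (D.U L.β) s / D.U L.β (L.R ^ 2) := by
    funext s
    rw [e, deriv_div_const]
  refine Myi.gen (s₀ := L.R ^ 2) (T := L.Th) (by linarith [D.hβ.1, L.hβ.1]) (by positivity)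
    ((D.smooth L.β L.hβ).div_const _) (fun s hs => ?_) (div_self hU) ?_ l lam
  · have h := D.ode L.β L.hβ s hs
    unfold FreeF at h
    push_cast at h
    rw [e1, deriv_div_const, e]
    linear_combination h / D.U L.β (L.R ^ 2)
  · rw [e1]
    simp only [L.root, zero_div]

end P139
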