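import Vale.Agent.P139.MDefs

/-! P139 part M: the symmetry modes are admissible. -/

open Complex Set Filter Topology MeasureTheory
open scoped ContDiff ComplexConjugate

noncomputable section
namespace P139
namespace Mzadm

variable {m : ℕ}

theorem smooth_iter (P : Prof m) (j : ℕ) :
    ContDiffOn ℝ ∞ (iteratedDeriv j P.Θ) (Ioi (-P.ε)) := by
  induction j with
  | zero => simpa using P.smooth
  | succ j ih =>
    rw [iteratedDeriv_succ]
    exact ih.deriv_of_isOpen isOpen_Ioi (by simp)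

theorem mem_sq (P : Prof m) (r : ℝ) : r ^ 2 ∈ Ioi (-P.ε) := by
  have := P.hε
  have h2 : 0 ≤ r ^ 2 := sq_nonneg r
  simp only [mem_Ioi]
  linarith

/-- the basic terms -/
def T (P : Prof m) (a j : ℕ) (r : ℝ) : ℂ := (r : ℂ) ^ a * iteratedDeriv j P.Θ (r ^ 2)

theorem comp_smooth (P : Prof m) (j : ℕ) :
    ContDiff ℝ ∞ (fun r : ℝ => iteratedDeriv j P.Θ (r ^ 2)) := by
  have h := (smooth_iter P j).comp_contDiff (f := fun r : ℝ => r ^ 2) (by fun_prop) (mem_sq P)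
  exact h

theorem T_smooth (P : Prof m) (a j : ℕ) : ContDiff ℝ ∞ (T P a j) := by
  unfold T
  refine ContDiff.mul ?_ (comp_smooth P j)
  exact (Complex.ofRealCLM.contDiff).pow a

theorem comp_deriv (P : Prof m) (j : ℕ) (r : ℝ) :
    HasDerivAt (fun r : ℝ => iteratedDeriv j P.Θ (r ^ 2))
      (2 * (r : ℂ) * iteratedDeriv (j + 1) P.Θ (r ^ 2)) r := by
  have h1 : DifferentiableAt ℝ (iteratedDeriv j P.Θ) (r ^ 2) :=
    ((smooth_iter P j).contDiffAt (isOpen_Ioi.mem_nhds (mem_sq P r))).differentiableAt (by simp)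
  have h2 : HasDerivAt (fun r : ℝ => r ^ 2) (2 * r) r := by
    simpa using hasDerivAt_pow 2 r
  have h3 := HasDerivAt.scomp (h := fun r : ℝ => r ^ 2) r h1.hasDerivAt h2
  rw [iteratedDeriv_succ]
  refine HasDerivAt.congr_deriv h3 ?_
  simp [Complex.real_smul]

theorem T_deriv (P : Prof m) (a j : ℕ) (r : ℝ) :
    HasDerivAt (T P a j) ((a : ℂ) * T P (a - 1) j r + 2 * T P (a + 1) (j + 1) r) r := by
  have h1 : HasDerivAt (fun r : ℝ => (r : ℂ) ^ a) ((a : ℂ) * (r : ℂ) ^ (a - 1)) r := by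
    have := (hasDerivAt_pow a (r : ℂ)).comp_ofReal
    simpa using this
  have h2 := h1.fun_mul (comp_deriv P j r)
  refine HasDerivAt.congr_deriv h2 ?_
  unfold T
  ring

theorem T_bdd (P : Prof m) (hm : 1 ≤ m) (a j : ℕ) (ha : a ≤ 2 * j) :
    ∃ C : ℝ, ∀ r : ℝ, ‖T P a j r‖ ≤ C := by
  obtain ⟨C, hC⟩ := P.symb j
  refine ⟨|C|, fun r => ?_⟩
  have hs : 0 ≤ r ^ 2 := sq_nonneg r
  have h1 : (1 : ℝ) ≤ 1 + r ^ 2 := by linarith
  have hg : 0 ≤ gam m := by unfold gam; positivity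
  have h2 : |r| ^ a ≤ (1 + r ^ 2) ^ j := by
    rcases le_total |r| 1 with h | h
    · exact (pow_le_one₀ (abs_nonneg r) h).trans (one_le_pow₀ h1)
    · calc |r| ^ a ≤ |r| ^ (2 * j) := pow_le_pow_right₀ h ha
        _ = (r ^ 2) ^ j := by rw [pow_mul, sq_abs]
        _ ≤ (1 + r ^ 2) ^ j := pow_le_pow_left₀ hs (by linarith) j
  have h3 : (1 + r ^ 2) ^ (-(gam m) - (j : ℝ)) ≤ ((1 + r ^ 2) ^ j)⁻¹ := by
    rw [← Real.rpow_natCast (1 + r ^ 2) j, ← Real.rpow_neg (by linarith)]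
    exact Real.rpow_le_rpow_of_exponent_le h1 (by linarith)
  have h4 : (0 : ℝ) < (1 + r ^ 2) ^ j := by positivity
  have h5 : ‖iteratedDeriv j P.Θ (r ^ 2)‖ ≤ |C| * ((1 + r ^ 2) ^ j)⁻¹ :=
    (hC _ hs).trans (mul_le_mul (le_abs_self C) h3 (by positivity) (abs_nonneg C))
  unfold T
  rw [norm_mul, norm_pow, Complex.norm_real, Real.norm_eq_abs]
  calc |r| ^ a * ‖iteratedDeriv j P.Θ (r ^ 2)‖
      ≤ (1 + r ^ 2) ^ j * (|C| * ((1 + r ^ 2) ^ j)⁻¹) :=
        mul_le_mul h2 h5 (norm_nonneg _) h4.le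
    _ = |C| := by field_simp

/-- the class of finite combinations -/
def Cl (P : Prof m) : Submodule ℂ (ℝ → ℂ) :=
  Submodule.span ℂ {f | ∃ a j : ℕ, a ≤ 2 * j ∧ f = T P a j}

theorem T_mem (P : Prof m) (a j : ℕ) (ha : a ≤ 2 * j) : T P a j ∈ Cl P :=
  Submodule.subset_span ⟨a, j, ha, rfl⟩

theorem Cl_prop (P : Prof m) (hm : 1 ≤ m) (f : ℝ → ℂ) (hf : f ∈ Cl P) :
    ContDiff ℝ ∞ f ∧ (∃ C : ℝ, ∀ r : ℝ, ‖f r‖ ≤ C) ∧ deriv f ∈ Cl P := by
  induction hf using Submodule.span_induction with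
  | mem f hf =>
    obtain ⟨a, j, ha, rfl⟩ := hf
    refine ⟨T_smooth P a j, T_bdd P hm a j ha, ?_⟩
    have h : deriv (T P a j) = (a : ℂ) • T P (a - 1) j + (2 : ℂ) • T P (a + 1) (j + 1) := by
      funext r
      rw [(T_deriv P a j r).deriv]
      simp
    rw [h]
    exact (Cl P).add_mem ((Cl P).smul_mem _ (T_mem P _ _ (by omega)))
      ((Cl P).smul_mem _ (T_mem P _ _ (by omega)))
  | zero =>
    refine ⟨contDiff_const, ⟨0, fun r => by simp⟩, ?_⟩
    have h : deriv (0 : ℝ → ℂ) = 0 := by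
      funext r
      simp
    rw [h]
    exact (Cl P).zero_mem
  | add f g _ _ hf hg =>
    obtain ⟨sf, ⟨C, hC⟩, df⟩ := hf
    obtain ⟨sg, ⟨D, hD⟩, dg⟩ := hg
    refine ⟨sf.add sg, ⟨C + D, fun r => (norm_add_le _ _).trans (add_le_add (hC r) (hD r))⟩, ?_⟩
    have h : deriv (f + g) = deriv f + deriv g := by
      funext r
      exact deriv_add (sf.differentiable (by simp) r) (sg.differentiable (by simp) r)
    rw [h]
    exact (Cl P).add_mem df dg
  | smul c f _ hf =>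
    obtain ⟨sf, ⟨C, hC⟩, df⟩ := hf
    refine ⟨sf.const_smul c, ⟨‖c‖ * C, fun r => ?_⟩, ?_⟩
    · rw [Pi.smul_apply, norm_smul]
      exact mul_le_mul_of_nonneg_left (hC r) (norm_nonneg c)
    · have h : deriv (c • f) = c • deriv f := by
        funext r
        exact deriv_const_smul c (sf.differentiable (by simp) r)
      rw [h]
      exact (Cl P).smul_mem c df

theorem Cl_iter (P : Prof m) (hm : 1 ≤ m) (f : ℝ → ℂ) (hf : f ∈ Cl P) (k : ℕ) :
    iteratedDeriv k f ∈ Cl P := by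
  induction k with
  | zero => simpa using hf
  | succ k ih =>
    rw [iteratedDeriv_succ]
    exact (Cl_prop P hm _ ih).2.2

theorem iter_conj (f : ℝ → ℂ) (k : ℕ) :
    iteratedDeriv k (fun r => conj (f r)) = fun r => conj (iteratedDeriv k f r) := by
  induction k with
  | zero => simp
  | succ k ih =>
    rw [iteratedDeriv_succ, iteratedDeriv_succ, ih]
    funext r
    exact deriv.star

theorem adm_of_Cl (P : Prof m) (hm : 1 ≤ m) (f : ℝ → ℂ) (hf : f ∈ Cl P) :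
    Adm f ∧ Adm (fun r => conj (f r)) := by
  have hs : ContDiff ℝ 48 f := (Cl_prop P hm f hf).1.of_le (by
    have h : ((48 : ℕ∞) : WithTop ℕ∞) ≤ ((⊤ : ℕ∞) : WithTop ℕ∞) := WithTop.coe_le_coe.2 le_top
    exact h)
  refine ⟨⟨hs.contDiffOn, fun j _ => ?_⟩, ⟨?_, fun j _ => ?_⟩⟩
  · obtain ⟨C, hC⟩ := (Cl_prop P hm _ (Cl_iter P hm f hf j)).2.1
    exact ⟨C, fun r _ => hC r⟩
  · exact (Complex.conjCLE.contDiff.comp hs).contDiffOn
  · obtain ⟨C, hC⟩ := (Cl_prop P hm _ (Cl_iter P hm f hf j)).2.1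
    refine ⟨C, fun r _ => ?_⟩
    rw [iter_conj]
    simpa using hC r

theorem q_eq (P : Prof m) : P.q = T P 0 0 := by
  funext r
  simp [Prof.q, T]

theorem dq_eq (P : Prof m) (r : ℝ) : deriv P.q r = 2 * T P 1 1 r := by
  rw [q_eq, (T_deriv P 0 0 r).deriv]
  simp

theorem z0_mem (P : Prof m) (l : ℕ) : P.z0 l ∈ Cl P := by
  by_cases h0 : l = 0
  · have h : P.z0 l = I • T P 0 0 := by
      funext r
      simp [Prof.z0, h0, q_eq]
    rw [h]
    exact (Cl P).smul_mem _ (T_mem P _ _ (by omega))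
  · by_cases h1 : l = 1
    · have h : P.z0 l = (2 : ℂ) • T P 1 1 := by
        funext r
        simp [Prof.z0, h1, dq_eq]
      rw [h]
      exact (Cl P).smul_mem _ (T_mem P _ _ (by omega))
    · have h : P.z0 l = 0 := by
        funext r
        simp [Prof.z0, h0, h1]
      rw [h]
      exact (Cl P).zero_mem

theorem z1_mem (P : Prof m) (l : ℕ) : P.z1 l ∈ Cl P := by
  by_cases h0 : l = 0
  · have h : P.z1 l = ((gam m : ℂ) - I * P.β) • T P 0 0 + T P 2 1 := by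
      funext r
      simp only [Prof.z1, h0, if_true, dq_eq, Pi.add_apply, Pi.smul_apply, smul_eq_mul]
      rw [q_eq]
      unfold T
      ring
    rw [h]
    exact (Cl P).add_mem ((Cl P).smul_mem _ (T_mem P _ _ (by omega))) (T_mem P _ _ (by omega))
  · have h : P.z1 l = 0 := by
      funext r
      simp [Prof.z1, h0]
    rw [h]
    exact (Cl P).zero_mem

end Mzadm

theorem s_zadm : S_zadm := fun _ P l hm =>
  ⟨(Mzadm.adm_of_Cl P hm _ (Mzadm.z0_mem P l)).1, (Mzadm.adm_of_Cl P hm _ (Mzadm.z0_mem P l)).2,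
    (Mzadm.adm_of_Cl P hm _ (Mzadm.z1_mem P l)).1, (Mzadm.adm_of_Cl P hm _ (Mzadm.z1_mem P l)).2⟩

end P139
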