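import Vale.Agent.P139.MDefs

/-! P139 part M: the symmetry modes are eigenfunctions. -/

open Complex Set Filter Topology MeasureTheory
open scoped ContDiff ComplexConjugate

noncomputable section
namespace P139
namespace Mzeq

variable {m : ℕ}

lemma sq_mem (P : Prof m) (r : ℝ) : r ^ 2 ∈ Ioi (-P.ε) := by
  have := P.hε
  have h2 : 0 ≤ r ^ 2 := sq_nonneg r
  simp only [mem_Ioi]; linarith

lemma q_smooth (P : Prof m) : ContDiff ℝ ∞ P.q := by
  have h : ContDiff ℝ ∞ (fun r : ℝ => r ^ 2) := by fun_prop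
  exact P.smooth.comp_contDiff h (sq_mem P)

lemma th_smooth' (P : Prof m) : ContDiffOn ℝ ∞ (deriv P.Θ) (Ioi (-P.ε)) :=
  P.smooth.deriv_of_isOpen isOpen_Ioi (by simp)

lemma hth (P : Prof m) (r : ℝ) : HasDerivAt P.Θ (deriv P.Θ (r ^ 2)) (r ^ 2) :=
  ((P.smooth.differentiableOn (by simp)).differentiableAt
    (isOpen_Ioi.mem_nhds (sq_mem P r))).hasDerivAt

lemma hth' (P : Prof m) (r : ℝ) :
    HasDerivAt (deriv P.Θ) (deriv (deriv P.Θ) (r ^ 2)) (r ^ 2) :=
  (((th_smooth' P).differentiableOn (by simp)).differentiableAt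
    (isOpen_Ioi.mem_nhds (sq_mem P r))).hasDerivAt

lemma hsq (r : ℝ) : HasDerivAt (fun r : ℝ => r ^ 2) (2 * r) r := by
  simpa using hasDerivAt_pow 2 r

lemma hre (r : ℝ) : HasDerivAt (fun r : ℝ => (r : ℂ)) 1 r := by
  simpa using (hasDerivAt_id r).ofReal_comp

lemma q1_eq (P : Prof m) : deriv P.q = fun r : ℝ => 2 * (r : ℂ) * deriv P.Θ (r ^ 2) := by
  funext r
  have h := HasDerivAt.scomp (h := fun r : ℝ => r ^ 2) r (hth P r) (hsq r)
  have h' : HasDerivAt P.q ((2 * r : ℝ) • deriv P.Θ (r ^ 2)) r := h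
  rw [h'.deriv]; simp

lemma q2_eq (P : Prof m) (r : ℝ) : deriv (deriv P.q) r
    = 2 * deriv P.Θ (r ^ 2) + 4 * (r : ℂ) ^ 2 * deriv (deriv P.Θ) (r ^ 2) := by
  rw [q1_eq]
  have h := HasDerivAt.scomp (h := fun r : ℝ => r ^ 2) r (hth' P r) (hsq r)
  have h1 : HasDerivAt (fun r : ℝ => deriv P.Θ (r ^ 2))
      ((2 * r : ℝ) • deriv (deriv P.Θ) (r ^ 2)) r := h
  have h2 := ((hre r).const_mul 2).mul h1
  have h3 : HasDerivAt (fun r : ℝ => 2 * (r : ℂ) * deriv P.Θ (r ^ 2)) _ r := h2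
  rw [h3.deriv]; simp; ring

lemma hq0 (P : Prof m) (r : ℝ) : HasDerivAt P.q (deriv P.q r) r :=
  (((q_smooth P).differentiable (by simp)) r).hasDerivAt

lemma q1_smooth (P : Prof m) : ContDiff ℝ ∞ (deriv P.q) :=
  (contDiff_infty_iff_deriv.1 (q_smooth P)).2

lemma q2_smooth (P : Prof m) : ContDiff ℝ ∞ (deriv (deriv P.q)) :=
  (contDiff_infty_iff_deriv.1 (q1_smooth P)).2

lemma hq1 (P : Prof m) (r : ℝ) : HasDerivAt (deriv P.q) (deriv (deriv P.q) r) r :=
  (((q1_smooth P).differentiable (by simp)) r).hasDerivAt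

lemma hq2 (P : Prof m) (r : ℝ) :
    HasDerivAt (deriv (deriv P.q)) (deriv (deriv (deriv P.q)) r) r :=
  (((q2_smooth P).differentiable (by simp)) r).hasDerivAt

/-- the profile equation multiplied by `r` -/
lemma odeA (P : Prof m) (r : ℝ) :
    (r : ℂ) * deriv (deriv P.q) r + 11 * deriv P.q r + I * (r : ℂ) ^ 2 / 2 * deriv P.q r
      + (r : ℂ) * ((P.β + I * gam m) * P.q r)
      = (r : ℂ) * ((P.q r * conj (P.q r)) ^ m * P.q r) := by
  have h := P.ode (r ^ 2) (sq_mem P r)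
  rw [q2_eq, q1_eq]
  simp only [Prof.q]
  push_cast at h
  linear_combination (r : ℂ) * h

lemma hnl (P : Prof m) (hm : 1 ≤ m) (r : ℝ) :
    HasDerivAt (fun r => (P.q r * conj (P.q r)) ^ m * P.q r)
      (P.V1 r * deriv P.q r + P.V2 r * conj (deriv P.q r)) r := by
  have h0 := hq0 P r
  have hc : HasDerivAt (fun r => conj (P.q r)) (conj (deriv P.q r)) r := h0.star
  have h1 := ((h0.mul hc).pow m).mul h0
  refine h1.congr_deriv ?_
  obtain ⟨k, rfl⟩ : ∃ k, m = k + 1 := ⟨m - 1, by omega⟩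
  simp only [Prof.V1, Prof.V2, Nat.add_sub_cancel, Pi.mul_apply, Pi.pow_apply]
  push_cast
  ring

/-- the differentiated equation -/
lemma odeB (P : Prof m) (hm : 1 ≤ m) (r : ℝ) :
    deriv (deriv P.q) r + (r : ℂ) * deriv (deriv (deriv P.q)) r + 11 * deriv (deriv P.q) r
      + (I * r * deriv P.q r + I * (r : ℂ) ^ 2 / 2 * deriv (deriv P.q) r)
      + ((P.β + I * gam m) * P.q r + (r : ℂ) * ((P.β + I * gam m) * deriv P.q r))
      = (P.q r * conj (P.q r)) ^ m * P.q r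
        + (r : ℂ) * (P.V1 r * deriv P.q r + P.V2 r * conj (deriv P.q r)) := by
  have hL : HasDerivAt (fun r : ℝ => (r : ℂ) * deriv (deriv P.q) r + 11 * deriv P.q r
      + I * (r : ℂ) ^ 2 / 2 * deriv P.q r + (r : ℂ) * ((P.β + I * gam m) * P.q r)) _ r :=
    ((((hre r).mul (hq2 P r)).add ((hq1 P r).const_mul 11)).add
      (((((hre r).pow 2).const_mul I).div_const 2).mul (hq1 P r))).add
      ((hre r).mul ((hq0 P r).const_mul (P.β + I * gam m)))
  have hR : HasDerivAt (fun r : ℝ => (r : ℂ) * ((P.q r * conj (P.q r)) ^ m * P.q r)) _ r :=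
    (hre r).mul (hnl P hm r)
  have he : (fun r : ℝ => (r : ℂ) * deriv (deriv P.q) r + 11 * deriv P.q r
      + I * (r : ℂ) ^ 2 / 2 * deriv P.q r + (r : ℂ) * ((P.β + I * gam m) * P.q r))
      = fun r : ℝ => (r : ℂ) * ((P.q r * conj (P.q r)) ^ m * P.q r) := funext (odeA P)
  rw [he] at hL
  have h := hL.unique hR
  simp only [Pi.pow_apply, Pi.mul_apply] at h
  push_cast at h
  linear_combination h

lemma deriv_conj (f : ℝ → ℂ) : deriv (fun r => conj (f r)) = fun r => conj (deriv f r) := by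
  funext r
  exact deriv.star

lemma LG_conj (P : Prof m) (l : ℕ) (f : ℝ → ℂ) (r : ℝ) :
    P.LG l f (fun r => conj (f r)) r = conj (P.LF l f (fun r => conj (f r)) r) := by
  simp only [Prof.LG, Prof.LF, rad, deriv_conj, Prof.V1, map_add, map_sub, map_mul, map_neg,
    map_div₀, map_pow, conj_ofReal, conj_I, conj_conj, map_natCast, map_ofNat, map_one]
  ring

lemma V2_mul (P : Prof m) (hm : 1 ≤ m) (r : ℝ) :
    P.V2 r * conj (P.q r) = (m : ℂ) * ((P.q r * conj (P.q r)) ^ m * P.q r) := by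
  obtain ⟨k, rfl⟩ : ∃ k, m = k + 1 := ⟨m - 1, by omega⟩
  simp only [Prof.V2, Nat.add_sub_cancel]
  ring

lemma V1_mul (P : Prof m) (r : ℝ) :
    P.V1 r * P.q r = ((m : ℂ) + 1) * ((P.q r * conj (P.q r)) ^ m * P.q r) := by
  simp only [Prof.V1]; ring

lemma LF_zero (P : Prof m) (l : ℕ) (r : ℝ) :
    P.LF l (fun _ => 0) (fun _ => conj 0) r = 0 := by
  simp [Prof.LF, rad]

lemma odeA' (P : Prof m) (r : ℝ) (hr : 0 < r) :
    deriv (deriv P.q) r + 11 / (r : ℂ) * deriv P.q r + I * (r : ℂ) / 2 * deriv P.q r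
      + (P.β + I * gam m) * P.q r = (P.q r * conj (P.q r)) ^ m * P.q r := by
  have hr' : (r : ℂ) ≠ 0 := by exact_mod_cast hr.ne'
  have hu : (r : ℂ) * (r : ℂ)⁻¹ = 1 := mul_inv_cancel₀ hr'
  apply mul_left_cancel₀ hr'
  linear_combination odeA P r + 11 * deriv P.q r * hu

lemma odeB' (P : Prof m) (hm : 1 ≤ m) (r : ℝ) (hr : 0 < r) :
    deriv (deriv (deriv P.q)) r + 11 / (r : ℂ) * deriv (deriv P.q) r
      - 11 / (r : ℂ) ^ 2 * deriv P.q r + I / 2 * deriv P.q r
      + I * (r : ℂ) / 2 * deriv (deriv P.q) r + (P.β + I * gam m) * deriv P.q r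
      = P.V1 r * deriv P.q r + P.V2 r * conj (deriv P.q r) := by
  have hr' : (r : ℂ) ≠ 0 := by exact_mod_cast hr.ne'
  have hu : (r : ℂ) * (r : ℂ)⁻¹ = 1 := mul_inv_cancel₀ hr'
  apply mul_left_cancel₀ hr'
  linear_combination odeB P hm r - odeA' P r hr
    + (11 * deriv (deriv P.q) r - 11 * (r : ℂ)⁻¹ * deriv P.q r) * hu

lemma two_m_gam (hm : 1 ≤ m) : 2 * (m : ℂ) * (gam m : ℂ) = 1 := by
  have : (m : ℂ) ≠ 0 := by exact_mod_cast (show m ≠ 0 by omega)
  simp only [gam]; push_cast; field_simp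

lemma LF_z0 (P : Prof m) (hm : 1 ≤ m) (l : ℕ) (r : ℝ) (hr : 0 < r) :
    P.LF l (P.z0 l) (fun r => conj (P.z0 l r)) r = ev0 l * P.z0 l r := by
  have hA := odeA' P r hr
  have hB := odeB' P hm r hr
  by_cases h0 : l = 0
  · subst h0
    have hz : P.z0 0 = fun r => I * P.q r := by funext r; simp [Prof.z0]
    have hd : deriv (fun r => I * P.q r) = fun r => I * deriv P.q r := by
      funext x; exact ((hq0 P x).const_mul I).deriv
    have hdd : deriv (fun r => I * deriv P.q r) r = I * deriv (deriv P.q) r :=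
      ((hq1 P r).const_mul I).deriv
    have h1 := V1_mul P r
    have h2 := V2_mul P hm r
    rw [hz]
    simp only [Prof.LF, rad, hd, hdd, ev0, map_mul, conj_I,
      if_neg (show ¬ (0 : ℕ) = 1 by norm_num)]
    push_cast
    linear_combination (-1) * hA + h1 - h2
      + (P.β * P.q r + deriv (deriv P.q) r + 11 / (r : ℂ) * deriv P.q r
        - P.V1 r * P.q r + P.V2 r * conj (P.q r)) * I_mul_I
  · by_cases h1 : l = 1
    · subst h1
      have hz : P.z0 1 = deriv P.q := by funext r; simp [Prof.z0]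
      rw [hz]
      simp only [Prof.LF, rad, ev0, if_true]
      push_cast
      linear_combination I * hB - (deriv P.q r / 2 + (r : ℂ) / 2 * deriv (deriv P.q) r
        + gam m * deriv P.q r) * I_mul_I
    · have hz : P.z0 l = fun _ => 0 := by funext r; simp [Prof.z0, h0, h1]
      rw [hz, LF_zero]; simp

lemma LF_z1 (P : Prof m) (hm : 1 ≤ m) (l : ℕ) (r : ℝ) (hr : 0 < r) :
    P.LF l (P.z1 l) (fun r => conj (P.z1 l r)) r = P.z1 l r := by
  have hr' : (r : ℂ) ≠ 0 := by exact_mod_cast hr.ne'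
  have hu : (r : ℂ) * (r : ℂ)⁻¹ = 1 := mul_inv_cancel₀ hr'
  have hA := odeA' P r hr
  have hB := odeB' P hm r hr
  by_cases h0 : l = 0
  · subst h0
    have hz : P.z1 0 = fun r : ℝ =>
        ((gam m : ℂ) - I * P.β) * P.q r + (r : ℂ) / 2 * deriv P.q r := by
      funext r; simp [Prof.z1]
    have hd : deriv (fun r : ℝ => ((gam m : ℂ) - I * P.β) * P.q r + (r : ℂ) / 2 * deriv P.q r)
        = fun r : ℝ => ((gam m : ℂ) - I * P.β) * deriv P.q r
          + (1 / 2 * deriv P.q r + (r : ℂ) / 2 * deriv (deriv P.q) r) := by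
      funext x
      exact (((hq0 P x).const_mul _).add (((hre x).div_const 2).mul (hq1 P x))).deriv
    have hdd : deriv (fun r : ℝ => ((gam m : ℂ) - I * P.β) * deriv P.q r
          + (1 / 2 * deriv P.q r + (r : ℂ) / 2 * deriv (deriv P.q) r)) r
        = ((gam m : ℂ) - I * P.β) * deriv (deriv P.q) r
          + (1 / 2 * deriv (deriv P.q) r + (1 / 2 * deriv (deriv P.q) r
            + (r : ℂ) / 2 * deriv (deriv (deriv P.q)) r)) :=
      (((hq1 P r).const_mul _).add (((hq1 P r).const_mul _).add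
        (((hre r).div_const 2).mul (hq2 P r)))).deriv
    have h1 := V1_mul P r
    have h2 := V2_mul P hm r
    have h3 := two_m_gam hm
    rw [hz]
    simp only [Prof.LF, rad, hd, hdd, map_mul, map_add, map_sub, map_div₀, conj_I, conj_ofReal,
      map_ofNat]
    push_cast
    linear_combination (I * ((gam m : ℂ) - I * P.β + 1)) * hA + (I * (r : ℂ) / 2) * hB
      - I * ((gam m : ℂ) - I * P.β) * h1 - I * ((gam m : ℂ) + I * P.β) * h2
      - I * ((P.q r * conj (P.q r)) ^ m * P.q r) * h3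
      + (11 * I / 2 * (r : ℂ)⁻¹ * deriv P.q r) * hu
      - (((gam m : ℂ) - I * P.β + 1) * ((r : ℂ) / 2 * deriv P.q r + gam m * P.q r)
        + (r : ℂ) / 2 * (deriv P.q r / 2 + (r : ℂ) / 2 * deriv (deriv P.q) r
          + gam m * deriv P.q r)) * I_mul_I
  · have hz : P.z1 l = fun _ => 0 := by funext r; simp [Prof.z1, h0]
    rw [hz, LF_zero]

end Mzeq

theorem s_zeq : S_zeq := by
  intro m P l hm r hr
  refine ⟨Mzeq.LF_z0 P hm l r hr, ?_, Mzeq.LF_z1 P hm l r hr, ?_⟩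
  · rw [Mzeq.LG_conj, Mzeq.LF_z0 P hm l r hr, map_mul]
    congr 1
    unfold ev0; split_ifs
    · rw [map_div₀, map_one, map_ofNat]
    · exact map_zero _
  · rw [Mzeq.LG_conj, Mzeq.LF_z1 P hm l r hr]

end P139
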