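import Vale.Agent.P139.MDefs

/-! P139 part M: zero data and zero source give the zero solution. -/

open Complex Set Filter Topology MeasureTheory
open scoped ContDiff ComplexConjugate

noncomputable section
namespace P139

namespace Mzero

theorem gron {X : Type} [NormedAddCommGroup X] [NormedSpace ℝ X] {w w' : ℝ → X} {k : ℝ → ℝ}
    (hk : ContinuousOn k (Ioi 0)) (hw : ∀ s : ℝ, 0 < s → HasDerivAt w (w' s) s)
    (hb : ∀ s : ℝ, 0 < s → ‖w' s‖ ≤ k s * ‖w s‖) {t : ℝ} (ht : 0 < t) (h0 : w t = 0) (s : ℝ)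
    (hs : 0 < s) : w s = 0 := by
  rcases le_total t s with h | h
  · have hp : ∀ x ∈ Icc t s, 0 < x := fun x hx => ht.trans_le hx.1
    obtain ⟨M, hM⟩ := isCompact_Icc.exists_bound_of_continuousOn (hk.mono hp)
    exact eq_zero_of_abs_deriv_le_mul_abs_self_of_eq_zero_right (K := M) (f' := w')
      (fun x hx => (hw x (hp x hx)).continuousAt.continuousWithinAt)
      (fun x hx => (hw x (hp x (Ico_subset_Icc_self hx))).hasDerivWithinAt) h0
      (fun x hx => (hb x (hp x (Ico_subset_Icc_self hx))).trans (mul_le_mul_of_nonneg_right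
        ((le_abs_self _).trans (hM x (Ico_subset_Icc_self hx))) (norm_nonneg _))) s ⟨h, le_rfl⟩
  · have hp : ∀ x ∈ Icc s t, 0 < x := fun x hx => hs.trans_le hx.1
    obtain ⟨M, hM⟩ := isCompact_Icc.exists_bound_of_continuousOn (hk.mono hp)
    have hm : ∀ x ∈ Icc (-t) (-s), -x ∈ Icc s t := fun x hx =>
      ⟨by linarith [hx.2], by linarith [hx.1]⟩
    have hd : ∀ x ∈ Icc (-t) (-s), HasDerivAt (fun y => w (-y)) (-w' (-x)) x := fun x hx => by
      simpa [Function.comp_def] using (hw (-x) (hp _ (hm x hx))).scomp x (hasDerivAt_neg x)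
    have := eq_zero_of_abs_deriv_le_mul_abs_self_of_eq_zero_right (K := M)
      (f := fun y => w (-y)) (f' := fun x => -w' (-x)) (a := -t) (b := -s)
      (fun x hx => (hd x hx).continuousAt.continuousWithinAt)
      (fun x hx => (hd x (Ico_subset_Icc_self hx)).hasDerivWithinAt) (by simpa using h0)
      (fun x hx => by
        have hx' := hm x (Ico_subset_Icc_self hx)
        rw [norm_neg]
        exact (hb _ (hp _ hx')).trans (mul_le_mul_of_nonneg_right
          ((le_abs_self _).trans (hM _ hx')) (norm_nonneg _))) (-s) ⟨by linarith, le_rfl⟩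
    simpa using this

theorem d1 {F : ℝ → ℂ} (h : ContDiffOn ℝ 48 F (Ioi 0)) {s : ℝ} (hs : 0 < s) :
    HasDerivAt F (deriv F s) s :=
  ((h.contDiffAt (Ioi_mem_nhds hs)).differentiableAt (by norm_num)).hasDerivAt

theorem d2 {F : ℝ → ℂ} (h : ContDiffOn ℝ 48 F (Ioi 0)) {s : ℝ} (hs : 0 < s) :
    HasDerivAt (deriv F) (deriv (deriv F) s) s := by
  have h' : ContDiffOn ℝ 1 (deriv F) (Ioi 0) := h.deriv_of_isOpen isOpen_Ioi (by norm_num)
  exact ((h'.contDiffAt (Ioi_mem_nhds hs)).differentiableAt one_ne_zero).hasDerivAt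

theorem bnd {s N : ℝ} (hs : 0 < s) {e a b c d u x y z : ℂ} (he : ‖e‖ = 1)
    (h : e * (4 * s * u) = a * x + b * y + c * y + d * z) (hx : ‖x‖ ≤ N) (hy : ‖y‖ ≤ N)
    (hz : ‖z‖ ≤ N) : ‖u‖ ≤ (‖a‖ + ‖b‖ + ‖c‖ + ‖d‖) / (4 * s) * N := by
  have h1 : ‖e * (4 * s * u)‖ = 4 * s * ‖u‖ := by
    rw [norm_mul, he, one_mul, norm_mul, norm_mul, Complex.norm_real, Real.norm_of_nonneg hs.le]
    simp
  have h2 : ‖a * x + b * y + c * y + d * z‖ ≤ (‖a‖ + ‖b‖ + ‖c‖ + ‖d‖) * N := by
    have e1 := mul_le_mul_of_nonneg_left hx (norm_nonneg a)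
    have e2 := mul_le_mul_of_nonneg_left hy (norm_nonneg b)
    have e3 := mul_le_mul_of_nonneg_left hy (norm_nonneg c)
    have e4 := mul_le_mul_of_nonneg_left hz (norm_nonneg d)
    have t1 := norm_add_le (a * x + b * y + c * y) (d * z)
    have t2 := norm_add_le (a * x + b * y) (c * y)
    have t3 := norm_add_le (a * x) (b * y)
    simp only [norm_mul] at t1 t2 t3
    linarith
  rw [div_mul_eq_mul_div, le_div_iff₀ (by positivity), mul_comm, ← h1, h]
  exact h2

end Mzero

open Mzero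

theorem s_zero : S_zero := by
  intro m P l lam F G s₁ hs₁ h hdat s hs
  have hΘ : ContinuousOn P.Θ (Ioi 0) :=
    P.smooth.continuousOn.mono (Ioi_subset_Ioi (by linarith [P.hε]))
  have hc : ContinuousOn (fun s => conj (P.Θ s)) (Ioi 0) :=
    Complex.continuous_conj.comp_continuousOn hΘ
  have hV1 : ContinuousOn P.V1s (Ioi 0) := continuousOn_const.mul ((hΘ.mul hc).pow m)
  have hV2 : ContinuousOn P.V2s (Ioi 0) :=
    (continuousOn_const.mul ((hΘ.mul hc).pow (m - 1))).mul (hΘ.pow 2)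
  have hV2' : ContinuousOn (fun s => conj (P.V2s s)) (Ioi 0) :=
    Complex.continuous_conj.comp_continuousOn hV2
  have hr : ContinuousOn (fun s : ℝ => (s : ℂ)) (Ioi 0) := Complex.continuous_ofReal.continuousOn
  let k1 : ℝ → ℝ := fun s => (‖(s : ℂ) - I * (24 + 4 * (l : ℂ))‖ +
    ‖lam + gam m - I * P.β + (l : ℂ) / 2‖ + ‖I * P.V1s s‖ + ‖I * P.V2s s‖) / (4 * s)
  let k2 : ℝ → ℝ := fun s => (‖(s : ℂ) + I * (24 + 4 * (l : ℂ))‖ +
    ‖lam + gam m + I * P.β + (l : ℂ) / 2‖ + ‖-I * P.V1s s‖ + ‖-I * conj (P.V2s s)‖) / (4 * s)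
  have h4 : ContinuousOn (fun s : ℝ => 4 * s) (Ioi 0) := by fun_prop
  have h4' : ∀ s ∈ Ioi (0 : ℝ), 4 * s ≠ 0 := fun s hs => by
    have : 0 < s := hs
    positivity
  have hk1 : ContinuousOn k1 (Ioi 0) :=
    ((((hr.sub continuousOn_const).norm.add continuousOn_const).add
      (continuousOn_const.mul hV1).norm).add (continuousOn_const.mul hV2).norm).div h4 h4'
  have hk2 : ContinuousOn k2 (Ioi 0) :=
    ((((hr.add continuousOn_const).norm.add continuousOn_const).add
      (continuousOn_const.mul hV1).norm).add (continuousOn_const.mul hV2').norm).div h4 h4'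
  have key := gron (w := fun s => (F s, deriv F s, G s, deriv G s))
    (w' := fun s => (deriv F s, deriv (deriv F) s, deriv G s, deriv (deriv G) s))
    (k := fun s => 1 + k1 s + k2 s) ((continuousOn_const.add hk1).add hk2)
    (fun s hs => (d1 h.sF hs).prodMk ((d2 h.sF hs).prodMk ((d1 h.sG hs).prodMk (d2 h.sG hs))))
    (fun s hs => by
      set N := ‖(F s, deriv F s, G s, deriv G s)‖ with hN
      have N0 : 0 ≤ N := norm_nonneg _
      have n1 : ‖F s‖ ≤ N := norm_fst_le (F s, deriv F s, G s, deriv G s)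
      have n0 : ‖(deriv F s, G s, deriv G s)‖ ≤ N := norm_snd_le (F s, deriv F s, G s, deriv G s)
      have n2 : ‖deriv F s‖ ≤ N := (norm_fst_le (deriv F s, G s, deriv G s)).trans n0
      have n0' : ‖(G s, deriv G s)‖ ≤ N := (norm_snd_le (deriv F s, G s, deriv G s)).trans n0
      have n3 : ‖G s‖ ≤ N := (norm_fst_le (G s, deriv G s)).trans n0'
      have n4 : ‖deriv G s‖ ≤ N := (norm_snd_le (G s, deriv G s)).trans n0'
      have eF := h.eF s hs
      have eG := h.eG s hs
      unfold FreeF at eF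
      unfold FreeG at eG
      have b1 : ‖deriv (deriv F) s‖ ≤ k1 s * N :=
        bnd hs Complex.norm_I (by linear_combination eF) n2 n1 n3
      have b2 : ‖deriv (deriv G) s‖ ≤ k2 s * N :=
        bnd (e := -I) hs (by rw [norm_neg, Complex.norm_I]) (by linear_combination eG) n4 n3 n1
      have p1 : 0 ≤ k1 s * N := (norm_nonneg _).trans b1
      have p2 : 0 ≤ k2 s * N := (norm_nonneg _).trans b2
      simp only [norm_prod_le_iff]
      refine ⟨?_, ?_, ?_, ?_⟩ <;> linarith)
    hs₁ (by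
      unfold dat at hdat
      have a1 := sq_nonneg ‖F s₁‖
      have a2 := sq_nonneg ‖deriv F s₁‖
      have a3 := sq_nonneg ‖G s₁‖
      have a4 := sq_nonneg ‖deriv G s₁‖
      have z : ∀ x : ℂ, ‖x‖ ^ 2 ≤ 0 → x = 0 := fun x hx =>
        norm_eq_zero.1 (pow_eq_zero_iff two_ne_zero |>.1 (le_antisymm hx (sq_nonneg _)))
      rw [z (F s₁) (by linarith), z (deriv F s₁) (by linarith), z (G s₁) (by linarith),
        z (deriv G s₁) (by linarith)]
      rfl) s hs
  exact ⟨congrArg Prod.fst key, congrArg (fun p => p.2.2.1) key⟩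

end P139
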