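import Vale.Agent.P139.Mext
import Vale.Agent.P139.Mseq
import Vale.Agent.P139.Mhyd
import Vale.Agent.P139.Mzadm
import Vale.Agent.P139.Mzeq
import Vale.Agent.P139.Mlin
import Vale.Agent.P139.Mzero
import Vale.Agent.P139.Ma1
import Vale.Agent.P139.Ma2
import Vale.Agent.P139.Ma3
import Vale.Agent.P139.Ma4
import Vale.Agent.P139.Mabc
import Vale.Agent.P139.Mhv
import Vale.Agent.P139.MbcT
import Vale.Agent.P139.Mbc
import Vale.Agent.P139.Mode
import Vale.Agent.P139.Mgr
import Vale.Agent.P139.Mdc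
import Vale.Agent.P139.Mubt
import Vale.Agent.P139.Mub
import Vale.Agent.P139.Mthc
import Vale.Agent.P139.Mc01
import Vale.Agent.P139.Mck
import Vale.Agent.P139.Mgood
import Vale.Agent.P139.Mnorm
import Vale.Agent.P139.Mrem
import Vale.Agent.P139.Myi
import Vale.Agent.P139.Mclose
import Vale.Agent.P139.Mextr

/-! P139 part MA: assembly. -/

namespace P139

theorem ma_partM (hB : S_B) (hE : S_E) : PartM :=
  have hthc : S_thc := s_thc s_dc s_ubt s_seq
  have hc : S_c01 := s_c01 s_gr s_seq s_ext hthc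
  partM_of (s_rem hB s_zadm s_zeq s_lin) (s_norm s_seq s_zadm s_zeq s_lin s_zero)
    (s_extr s_ode hthc s_yi) (s_good hE (s_ck s_dc s_ubt (s_ub s_ubt) s_seq s_ext hthc hc))
    (s_bc (s_bcT s_seq s_hyd (s_abc s_a1 s_a2 s_a3 s_a4) (s_hv s_hyd) hc)) (s_close s_yi)

end P139
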