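import Vale.Agent.P139.MDefs

/-! P139 part MA: the limit argument. -/

open Complex Set Filter Topology MeasureTheory
open scoped ContDiff ComplexConjugate InnerProductSpace

noncomputable section
namespace P139

variable {m : ℕ} {D : FreeData}

/-! ### general tools -/

/-- linear second order ODE on `(0,∞)` with smooth coefficients -/
def S_ode : Prop := ∀ (p q h : ℝ → ℂ), ContDiffOn ℝ ∞ p (Ioi 0) → ContDiffOn ℝ ∞ q (Ioi 0) →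
  ContDiffOn ℝ ∞ h (Ioi 0) → ∀ s₁ : ℝ, 0 < s₁ → ∀ u₀ u₁ : ℂ, ∃ F : ℝ → ℂ,
    ContDiffOn ℝ ∞ F (Ioi 0) ∧ F s₁ = u₀ ∧ deriv F s₁ = u₁ ∧
    ∀ s : ℝ, 0 < s → deriv (deriv F) s = p s * deriv F s + q s * F s + h s

/-- two-sided Gronwall for sequences -/
def S_gr : Prop := ∀ (V : Type) [NormedAddCommGroup V] [NormedSpace ℝ V] (w w' : ℕ → ℝ → V)
  (c d s₁ K : ℝ), s₁ ∈ Icc c d →
  (∀ j, ∀ s ∈ Icc c d, HasDerivAt (w j) (w' j s) s) →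
  (∀ ε : ℝ, 0 < ε → ∀ᶠ j in atTop, ∀ s ∈ Icc c d, ‖w' j s‖ ≤ K * ‖w j s‖ + ε) →
  Tendsto (fun j => w j s₁) atTop (𝓝 0) →
  ∀ ε : ℝ, 0 < ε → ∀ᶠ j in atTop, ∀ s ∈ Icc c d, ‖w j s‖ ≤ ε

/-- locally uniform bounds for the derivatives up to order `K` on `(a,∞)` -/
def UB (a : ℝ) (K : ℕ) (u : ℕ → ℝ → ℂ) : Prop :=
  ∀ k ≤ K, ∀ c d : ℝ, a < c → ∃ C : ℝ, ∀ᶠ j in atTop, ∀ s ∈ Icc c d, ‖iteratedDeriv k (u j) s‖ ≤ C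

/-- closure properties of `UB` -/
def S_ubt : Prop := ∀ (a : ℝ) (K : ℕ),
  (∀ u v : ℕ → ℝ → ℂ, (∀ j, ContDiffOn ℝ K (u j) (Ioi a)) → (∀ j, ContDiffOn ℝ K (v j) (Ioi a)) →
    UB a K u → UB a K v → UB a K (fun j s => u j s + v j s) ∧ UB a K (fun j s => u j s * v j s)) ∧
  (∀ h : ℝ → ℂ, ContDiffOn ℝ K h (Ioi a) → UB a K fun _ => h) ∧
  (∀ (e : ℕ → ℂ) (e' : ℂ), Tendsto e atTop (𝓝 e') → UB a K fun j _ => e j) ∧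
  (∀ u : ℕ → ℝ → ℂ, UB a K u → UB a K fun j s => conj (u j s)) ∧
  ∀ u v : ℕ → ℝ → ℂ, (∀ j s, a < s → u j s = v j s) → UB a K u → UB a K v

/-- pointwise convergence and bounds give convergence of the derivatives -/
def S_dc : Prop := ∀ (a : ℝ) (K : ℕ) (u : ℕ → ℝ → ℂ) (v : ℝ → ℂ),
  (∀ j, ContDiffOn ℝ (K + 1 : ℕ) (u j) (Ioi a)) → ContDiffOn ℝ (K + 1 : ℕ) v (Ioi a) →
  UB a (K + 1) u → (∀ s, a < s → Tendsto (fun j => u j s) atTop (𝓝 (v s))) →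
  ∀ k ≤ K, ∀ s, a < s → Tendsto (fun j => iteratedDeriv k (u j) s) atTop (𝓝 (iteratedDeriv k v s))

/-- bounds for all derivatives of solutions of a linear system with bounded coefficients -/
def S_ub : Prop := ∀ (a : ℝ) (K : ℕ) (F G p₁ p₂ p₃ p₄ q₁ q₂ q₃ q₄ : ℕ → ℝ → ℂ),
  (∀ j, ContDiffOn ℝ (K + 2 : ℕ) (F j) (Ioi a) ∧ ContDiffOn ℝ (K + 2 : ℕ) (G j) (Ioi a)) →
  (∀ u ∈ [p₁, p₂, p₃, p₄, q₁, q₂, q₃, q₄], (∀ j, ContDiffOn ℝ ∞ (u j) (Ioi a)) ∧ UB a K u) →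
  (∀ j s, a < s →
    deriv (deriv (F j)) s = p₁ j s * deriv (F j) s + p₂ j s * F j s + p₃ j s * G j s + p₄ j s ∧
    deriv (deriv (G j)) s = q₁ j s * deriv (G j) s + q₂ j s * G j s + q₃ j s * F j s + q₄ j s) →
  UB a 1 F → UB a 1 G → UB a (K + 2) F ∧ UB a (K + 2) G

/-! ### the abstract boundary-layer lemma -/

structure HydA (l : ℕ) (K T R₀ Λ ε c κ : ℝ) (lam : ℂ) (α θ S₁ S₂ : ℝ → ℂ) (ρ lr U W : ℝ → ℝ) :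
    Prop where
  hK : 1 ≤ K
  hR : 1 ≤ R₀
  hT : R₀ < T
  hTK : T ≤ K
  hτ : T - R₀ ≤ 1 / 2
  hΛ : 0 < Λ
  hε : 0 ≤ ε
  hc : 0 ≤ c
  hκ : |κ| ≤ K
  hlam : ‖lam‖ ≤ K
  sα : ContDiffOn ℝ 2 α (Ioi 0)
  sθ : ContDiffOn ℝ 2 θ (Ioi 0)
  bd : ∃ B : ℝ, ∀ r ∈ Ioc 0 T, ‖α r‖ ≤ B ∧ ‖deriv α r‖ ≤ B ∧ ‖θ r‖ ≤ B ∧ ‖deriv θ r‖ ≤ B
  cS₁ : ContinuousOn S₁ (Ioi 0)
  cS₂ : ContinuousOn S₂ (Ioi 0)
  clr : Continuous lr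
  cU : Continuous U
  cW : Continuous W
  dρ : ∀ r, HasDerivAt ρ (ρ r * lr r) r
  dU : ∀ r, HasDerivAt (fun r => ρ r * r ^ 11 * U r) (2 * κ * (ρ r * r ^ 11)) r
  bρ : ∀ r ∈ Icc 0 T, 1 / K ≤ ρ r ∧ ρ r ≤ K ∧ |lr r| ≤ K ∧ |U r| ≤ K ∧ 0 ≤ W r
  bS : ∀ r ∈ Ioc 0 T, ‖S₁ r‖ ≤ K * c ∧ ‖S₂ r‖ ≤ K * c
  inner : ∀ r ∈ Ioc 0 R₀, Λ ≤ W r ∧ |lr r| ≤ ε ∧ ‖S₁ r‖ ≤ ε * c
  e₁ : ∀ r, 0 < r → lam * α r + U r * deriv α r = -DD l lr θ r - S₁ r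
  e₂ : ∀ r, 0 < r → lam * θ r + U r * deriv θ r = DD l lr α r - W r * α r - S₂ r

/-- energy density -/
def en (l : ℕ) (α θ : ℝ → ℂ) (ρ W : ℝ → ℝ) (r : ℝ) : ℝ :=
  ρ r * r ^ 11 * (‖deriv α r‖ ^ 2 + ‖deriv θ r‖ ^ 2 + W r * ‖α r‖ ^ 2) +
    ρ r * r ^ 9 * ((l : ℝ) * (l + 10)) * (‖α r‖ ^ 2 + ‖θ r‖ ^ 2)
def EN (l : ℕ) (α θ : ℝ → ℂ) (ρ W : ℝ → ℝ) (T : ℝ) : ℝ := ∫ r in (0 : ℝ)..T, en l α θ ρ W r
def NN (u : ℝ → ℂ) (ρ : ℝ → ℝ) (T : ℝ) : ℝ := ∫ r in (0 : ℝ)..T, ρ r * r ^ 11 * ‖u r‖ ^ 2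

/-- energy test -/
def S_a1 : Prop := ∀ (l : ℕ) (K : ℝ), ∃ C : ℝ, 1 ≤ C ∧ ∀ T R₀ Λ ε c κ lam α θ S₁ S₂ ρ lr U W,
  HydA l K T R₀ Λ ε c κ lam α θ S₁ S₂ ρ lr U W → ∀ t : ℝ, 0 < t → t ≤ 1 →
    EN l α θ ρ W T ≤ C * dat α θ T + t * (EN l α θ ρ W T + NN θ ρ T) + C / t * (NN α ρ T + c ^ 2)

/-- Poincaré inequality -/
def S_a2 : Prop := ∀ (l : ℕ) (K : ℝ), ∃ C : ℝ, 1 ≤ C ∧ ∀ T R₀ Λ ε c κ lam α θ S₁ S₂ ρ lr U W,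
  HydA l K T R₀ Λ ε c κ lam α θ S₁ S₂ ρ lr U W →
    0 ≤ EN l α θ ρ W T ∧ NN θ ρ T ≤ C * (EN l α θ ρ W T + dat α θ T)

/-- `α` is small -/
def S_a3 : Prop := ∀ (l : ℕ) (K : ℝ), ∃ C : ℝ, 1 ≤ C ∧ ∀ T R₀ Λ ε c κ lam α θ S₁ S₂ ρ lr U W,
  HydA l K T R₀ Λ ε c κ lam α θ S₁ S₂ ρ lr U W →
    ‖α T‖ ^ 2 ≤ C * ((T - R₀) + 1 / (Λ * (T - R₀))) * EN l α θ ρ W T ∧
    NN α ρ T ≤ C * ((T - R₀) + 1 / (Λ * (T - R₀))) * EN l α θ ρ W T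

/-- Wronskian with `r^l` -/
def S_a4 : Prop := ∀ (l : ℕ) (K : ℝ), ∃ C : ℝ, 1 ≤ C ∧ ∀ T R₀ Λ ε c κ lam α θ S₁ S₂ ρ lr U W,
  HydA l K T R₀ Λ ε c κ lam α θ S₁ S₂ ρ lr U W →
    ‖deriv θ T - (l : ℂ) / T * θ T‖ ^ 2 ≤
      C * (‖α T‖ ^ 2 + NN α ρ T + (ε ^ 2 + (T - R₀)) * (c ^ 2 + EN l α θ ρ W T))

def S_abc : Prop := ∀ (l : ℕ) (K : ℝ), ∃ C δ₀ : ℝ, 0 < δ₀ ∧
  ∀ T R₀ Λ ε c κ lam α θ S₁ S₂ ρ lr U W, HydA l K T R₀ Λ ε c κ lam α θ S₁ S₂ ρ lr U W →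
    (T - R₀) + 1 / (Λ * (T - R₀)) ≤ δ₀ →
    ‖α T‖ ^ 2 + ‖deriv θ T - (l : ℂ) / T * θ T‖ ^ 2 ≤
      C * ((T - R₀) + 1 / (Λ * (T - R₀)) + ε ^ 2) * (dat α θ T + c ^ 2)

/-- the profiles satisfy the hypotheses of the boundary-layer lemma -/
def S_hv : Prop := ∀ (D : FreeData) (L : Lim D) (l : ℕ) (K₀ : ℝ), ∃ K : ℝ,
  ∀ T : ℝ, L.R < T → T ≤ L.R + 1 / 4 → ∀ Λ ε : ℝ, 0 < Λ → 0 < ε → ∀ᶠ j in atTop,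
    ∀ (lam c₀ c₁ : ℂ) (f g : ℝ → ℂ), ‖lam‖ ≤ K₀ → (L.P j).Sol l lam c₀ c₁ f g →
      ∃ S₁ S₂ : ℝ → ℂ, HydA l K T (2 * L.R - T) Λ ε (‖c₀‖ + ‖c₁‖) (3 - gam (L.m j)) lam
        ((L.P j).al f g) ((L.P j).th f g) S₁ S₂ (L.P j).rho (L.P j).lr (L.P j).UU (L.P j).WW

/-! ### the limit -/

/-- exterior limit profile -/
def Lim.Th (L : Lim D) (s : ℝ) : ℂ := D.U L.β s / D.U L.β (L.R ^ 2)
def Lim.s₁ (L : Lim D) : ℝ := (L.R + 1) ^ 2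

/-- subsequences -/
def Lim.sub (L : Lim D) (φ : ℕ → ℕ) (hφ : Tendsto φ atTop atTop) : Lim D :=
  { L with
    m := fun j => L.m (φ j)
    P := fun j => L.P (φ j)
    m_pos := fun _ => L.m_pos _
    m_lim := L.m_lim.comp hφ
    β_lim := L.β_lim.comp hφ
    conv := fun A u hu => hφ.eventually (L.conv A u hu)
    conv' := fun A u hu => hφ.eventually (L.conv' A u hu)
    inside := fun r hr => hφ.eventually (L.inside r hr)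
    Nbd := L.Nbd.imp fun _ h _ => h _
    mono := L.mono.imp fun _ h => h.imp fun _ h => ⟨h.1, hφ.eventually h.2⟩
    ext_lt := fun δ hδ => (L.ext_lt δ hδ).imp fun _ h => ⟨h.1, hφ.eventually h.2⟩
    ext_ge := L.ext_ge.imp fun _ h => ⟨h.1, hφ.eventually h.2⟩
    ext_symb := fun δ hδ k => (L.ext_symb δ hδ k).imp fun _ h => hφ.eventually h }

/-- convergence of the profile and of the modes outside the ball -/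
def S_thc : Prop := ∀ (D : FreeData) (L : Lim D) (l : ℕ),
  ContDiffOn ℝ ∞ L.Th (Ioi 0) ∧
  (∀ K, UB (L.R ^ 2) K (fun j => (L.P j).Y0 l) ∧ UB (L.R ^ 2) K (fun j => (L.P j).Y1 l)) ∧
  (∀ c d : ℝ, L.R ^ 2 < c →
    TendstoUniformlyOn (fun j => (L.P j).Y0 l) (y0 L.Th l) atTop (Icc c d) ∧
    TendstoUniformlyOn (fun j => (L.P j).Y1 l) (y1 L.β L.Th l) atTop (Icc c d)) ∧
  ∀ s : ℝ, L.R ^ 2 < s →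
    Tendsto (fun j => deriv ((L.P j).Y0 l) s) atTop (𝓝 (deriv (y0 L.Th l) s)) ∧
    Tendsto (fun j => deriv ((L.P j).Y1 l) s) atTop (𝓝 (deriv (y1 L.β L.Th l) s))

/-- a convergent sequence of solutions together with the limit solution -/
structure Seq (L : Lim D) where
  l : ℕ
  lam : ℕ → ℂ
  c₀ : ℕ → ℂ
  c₁ : ℕ → ℂ
  f : ℕ → ℝ → ℂ
  g : ℕ → ℝ → ℂ
  lamL : ℂ
  c₀L : ℂ
  c₁L : ℂ
  F : ℝ → ℂ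
  G : ℝ → ℂ
  re : ∀ j, 0 ≤ (lam j).re
  sol : ∀ j, (L.P j).Sol l (lam j) (c₀ j) (c₁ j) (f j) (g j)
  tl : Tendsto lam atTop (𝓝 lamL)
  t₀ : Tendsto c₀ atTop (𝓝 c₀L)
  t₁ : Tendsto c₁ atTop (𝓝 c₁L)
  sF : ContDiffOn ℝ ∞ F (Ioi 0)
  sG : ContDiffOn ℝ ∞ G (Ioi 0)
  eF : ∀ s : ℝ, 0 < s → FreeF L.β l lamL F s = c₀L * y0 L.Th l s + c₁L * y1 L.β L.Th l s
  eG : ∀ s : ℝ, 0 < s →
    FreeG L.β l lamL G s = c₀L * conj (y0 L.Th l s) + c₁L * conj (y1 L.β L.Th l s)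
  dF : Tendsto (fun j => toS l (f j) L.s₁) atTop (𝓝 (F L.s₁))
  dF' : Tendsto (fun j => deriv (toS l (f j)) L.s₁) atTop (𝓝 (deriv F L.s₁))
  dG : Tendsto (fun j => toS l (g j) L.s₁) atTop (𝓝 (G L.s₁))
  dG' : Tendsto (fun j => deriv (toS l (g j)) L.s₁) atTop (𝓝 (deriv G L.s₁))

/-- `C¹` convergence outside the ball -/
def S_c01 : Prop := ∀ (D : FreeData) (L : Lim D) (X : Seq L) (c d : ℝ), L.R ^ 2 < c →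
  TendstoUniformlyOn (fun j => toS X.l (X.f j)) X.F atTop (Icc c d) ∧
  TendstoUniformlyOn (fun j => deriv (toS X.l (X.f j))) (deriv X.F) atTop (Icc c d) ∧
  TendstoUniformlyOn (fun j => toS X.l (X.g j)) X.G atTop (Icc c d) ∧
  TendstoUniformlyOn (fun j => deriv (toS X.l (X.g j))) (deriv X.G) atTop (Icc c d)

/-- pointwise convergence of the higher derivatives -/
def S_ck : Prop := ∀ (D : FreeData) (L : Lim D) (X : Seq L), ∀ k ≤ 41, ∀ s : ℝ, L.R ^ 2 < s →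
  Tendsto (fun j => iteratedDeriv k (toS X.l (X.f j)) s) atTop (𝓝 (iteratedDeriv k X.F s)) ∧
  Tendsto (fun j => iteratedDeriv k (toS X.l (X.g j)) s) atTop (𝓝 (iteratedDeriv k X.G s))

def S_good : Prop := ∀ (D : FreeData) (L : Lim D) (X : Seq L),
  Good X.l (L.R ^ 2) X.F ∧ Good X.l (L.R ^ 2) X.G

/-- the boundary conditions up to an error, at radii `T` slightly larger than `R` -/
def S_bcT : Prop := ∀ (D : FreeData) (L : Lim D) (X : Seq L), ∃ C δ : ℝ, 0 < δ ∧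
  ∀ T : ℝ, L.R < T → T ≤ L.R + δ →
    ‖X.F (T ^ 2) / L.Th (T ^ 2) + X.G (T ^ 2) / conj (L.Th (T ^ 2))‖ ^ 2 +
    ‖deriv X.F (T ^ 2) / L.Th (T ^ 2) - X.F (T ^ 2) * deriv L.Th (T ^ 2) / L.Th (T ^ 2) ^ 2 -
      (deriv X.G (T ^ 2) / conj (L.Th (T ^ 2)) -
        X.G (T ^ 2) * conj (deriv L.Th (T ^ 2)) / conj (L.Th (T ^ 2)) ^ 2)‖ ^ 2 ≤ C * (T - L.R)

def S_bc : Prop := ∀ (D : FreeData) (L : Lim D) (X : Seq L),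
  X.F (L.R ^ 2) + X.G (L.R ^ 2) = 0 ∧ deriv X.F (L.R ^ 2) = deriv X.G (L.R ^ 2)

/-! ### normalisation and the final contradiction -/

def ind0 (l : ℕ) : ℂ := if l ≤ 1 then 1 else 0
def ind1 (l : ℕ) : ℂ := if l = 0 then 1 else 0

/-- data and source coefficients as a vector of `ℂ⁶` -/
def dv (F G : ℝ → ℂ) (s : ℝ) (c₀ c₁ : ℂ) : EuclideanSpace ℂ (Fin 6) :=
  !₂[F s, deriv F s, G s, deriv G s, c₀, c₁]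

def vA (Y : ℝ → ℂ) (l : ℕ) (lam : ℂ) (s : ℝ) : EuclideanSpace ℂ (Fin 6) :=
  dv Y (fun x => conj (Y x)) s (ind0 l * (ev0 l - lam)) 0
def vB (Y : ℝ → ℂ) (l : ℕ) (lam : ℂ) (s : ℝ) : EuclideanSpace ℂ (Fin 6) :=
  dv Y (fun x => conj (Y x)) s 0 (ind1 l * (1 - lam))

/-- a normalised solution -/
structure Prof.Nrm (P : Prof m) (l : ℕ) (lam c₀ c₁ : ℂ) (f g : ℝ → ℂ) (s : ℝ) : Prop where
  sol : P.Sol l lam c₀ c₁ f g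
  i₀ : ind0 l * c₀ = c₀
  i₁ : ind1 l * c₁ = c₁
  one : ‖dv (toS l f) (toS l g) s c₀ c₁‖ = 1
  oA : ⟪vA (P.Y0 l) l lam s, dv (toS l f) (toS l g) s c₀ c₁⟫_ℂ = 0
  oB : ⟪vB (P.Y1 l) l lam s, dv (toS l f) (toS l g) s c₀ c₁⟫_ℂ = 0

def S_norm : Prop := ∀ (m : ℕ) (P : Prof m), 1 ≤ m → ∀ (l : ℕ) (lam c₀ c₁ : ℂ) (f g : ℝ → ℂ)
  (s : ℝ), 0 < s → P.Sol l lam c₀ c₁ f g → ¬ P.InZ l f g →
    ∃ (d₀ d₁ : ℂ) (u v : ℝ → ℂ), P.Nrm l lam d₀ d₁ u v s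

/-- reduction to bounded parameters -/
def S_rem : Prop := ∀ (D : FreeData) (L : Lim D), (∀ j, ¬ (L.P j).ModeStable) →
  ∃ (l : ℕ) (K : ℝ), ∃ᶠ j in atTop, ∃ (lam c₀ c₁ : ℂ) (f g : ℝ → ℂ), 0 ≤ lam.re ∧ ‖lam‖ ≤ K ∧
    (L.P j).Sol l lam c₀ c₁ f g ∧ ¬ (L.P j).InZ l f g

/-- the limit modes are independent eigenfunctions -/
def S_yi : Prop := ∀ (D : FreeData) (L : Lim D) (l : ℕ) (lam : ℂ),
  ContDiffOn ℝ ∞ (y0 L.Th l) (Ioi 0) ∧ ContDiffOn ℝ ∞ (y1 L.β L.Th l) (Ioi 0) ∧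
  (∀ s : ℝ, 0 < s → FreeF L.β l lam (y0 L.Th l) s = (ev0 l - lam) * y0 L.Th l s ∧
    FreeF L.β l lam (y1 L.β L.Th l) s = (1 - lam) * y1 L.β L.Th l s) ∧
  ∀ a b : ℂ, (∀ s : ℝ, 0 < s → a * y0 L.Th l s + b * y1 L.β L.Th l s = 0) →
    ind0 l * a = 0 ∧ ind1 l * b = 0

/-- a limit in the span of the modes that is orthogonal to them vanishes -/
def S_close : Prop := ∀ (D : FreeData) (L : Lim D) (X : Seq L), InY L.β L.Th X.l X.F X.G →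
  ind0 X.l * X.c₀L = X.c₀L → ind1 X.l * X.c₁L = X.c₁L →
  ⟪vA (y0 L.Th X.l) X.l X.lamL L.s₁, dv X.F X.G L.s₁ X.c₀L X.c₁L⟫_ℂ = 0 →
  ⟪vB (y1 L.β L.Th X.l) X.l X.lamL L.s₁, dv X.F X.G L.s₁ X.c₀L X.c₁L⟫_ℂ = 0 →
  dv X.F X.G L.s₁ X.c₀L X.c₁L = 0

/-- extraction of a convergent normalised sequence -/
def S_extr : Prop := ∀ (D : FreeData) (L : Lim D) (l : ℕ) (K : ℝ),
  (∃ᶠ j in atTop, ∃ (lam c₀ c₁ : ℂ) (f g : ℝ → ℂ), 0 ≤ lam.re ∧ ‖lam‖ ≤ K ∧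
    (L.P j).Nrm l lam c₀ c₁ f g L.s₁) →
  ∃ (φ : ℕ → ℕ) (hφ : Tendsto φ atTop atTop) (X : Seq (L.sub φ hφ)),
    ind0 X.l * X.c₀L = X.c₀L ∧ ind1 X.l * X.c₁L = X.c₁L ∧
    ⟪vA (y0 L.Th X.l) X.l X.lamL L.s₁, dv X.F X.G L.s₁ X.c₀L X.c₁L⟫_ℂ = 0 ∧
    ⟪vB (y1 L.β L.Th X.l) X.l X.lamL L.s₁, dv X.F X.G L.s₁ X.c₀L X.c₁L⟫_ℂ = 0 ∧
    ‖dv X.F X.G L.s₁ X.c₀L X.c₁L‖ = 1

theorem partM_of (hrem : S_rem) (hnorm : S_norm) (hextr : S_extr) (hgood : S_good) (hbc : S_bc)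
    (hclose : S_close) : PartM := by
  intro D L
  by_contra hcon
  obtain ⟨l, K, h⟩ := hrem D L fun j hj => hcon ⟨j, hj⟩
  have hs : 0 < L.s₁ := by have := L.R_pos; unfold Lim.s₁; positivity
  obtain ⟨φ, hφ, X, i₀, i₁, oA, oB, one⟩ := hextr D L l K (h.mono fun j hj => by
    obtain ⟨lam, c₀, c₁, f, g, h1, h2, h3, h4⟩ := hj
    obtain ⟨d₀, d₁, u, v, hn⟩ := hnorm _ _ (L.m_pos j) l lam c₀ c₁ f g _ hs h3 h4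
    exact ⟨lam, d₀, d₁, u, v, h1, h2, hn⟩)
  have e : 4 * (L.R ^ 2 / 4) = L.R ^ 2 := by ring
  have hms := D.ms L.β L.hβ _ L.hx (by rw [e]; exact L.root)
  rw [e] at hms
  have hre : 0 ≤ X.lamL.re :=
    ge_of_tendsto' ((continuous_re.tendsto _).comp X.tl) X.re
  have hY := hms X.l X.lamL hre X.F X.G X.sF X.sG (hgood D _ X).1 (hgood D _ X).2
    (hbc D _ X).1 (hbc D _ X).2 ⟨X.c₀L, X.c₁L, fun s hs => ⟨X.eF s hs, X.eG s hs⟩⟩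
  have := hclose D _ X hY i₀ i₁ oA oB
  exact one_ne_zero (one.symm.trans (norm_eq_zero.2 this))

end P139
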