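import Vale.Agent.P139.MB1a

/-! P139 part MB, case B1 (large angular momentum). -/

open Complex Set Filter Topology MeasureTheory
open scoped ContDiff ComplexConjugate

noncomputable section
namespace P139
namespace MB1

variable {Z W Gr D : ℝ → ℝ} {b k : ℝ}

theorem Cvx.int (h : Cvx Z W Gr D b k) {x : ℝ} (hx : 0 < x) (hb : x ≤ b - 1) :
    Z (b - 1) ≤ ∫ r in x..b, Z r := by
  have hc : ContinuousOn Z (Icc x b) := fun r hr =>
    (h.dZ r (hx.trans_le hr.1)).continuousAt.continuousWithinAt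
  have i1 : IntervalIntegrable Z volume x (b - 1) :=
    (hc.mono (Icc_subset_Icc le_rfl (by linarith))).intervalIntegrable_of_Icc hb
  have i2 : IntervalIntegrable Z volume (b - 1) b :=
    (hc.mono (Icc_subset_Icc hb le_rfl)).intervalIntegrable_of_Icc (by linarith)
  rw [← intervalIntegral.integral_add_adjacent_intervals i1 i2]
  have h1 : 0 ≤ ∫ r in x..(b - 1), Z r := intervalIntegral.integral_nonneg hb fun r _ => h.Z0 r
  have h2 : ∫ _ in (b - 1)..b, Z (b - 1) ≤ ∫ r in (b - 1)..b, Z r :=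
    intervalIntegral.integral_mono_on (by linarith) intervalIntegrable_const i2 fun r hr =>
      h.Zmono (hx.trans_le hb) hr.1 hr.2
  rw [intervalIntegral.integral_const, sub_sub_cancel, one_smul] at h2
  linarith

/-- convexity and a polynomial upper bound force zero data at some radius -/
theorem Cvx.zero {R M : ℝ} (h : Cvx Z W Gr D (R + 4) k) (hR : 0 < R) (n : ℕ) (hn : 0 < n)
    (hM0 : 0 ≤ M)
    (hM : ∀ r ∈ Icc (R + 1) (R + 4), ∫ x in r..(R + 4), Z x ≤ M * (Z r + Gr r))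
    (hk : M * (1 + 4 * ((R + 4) / (R + 1)) ^ 11) <
      (k * ((R + 2) / (R + 4)) ^ 11 * (1 / n) ^ 2) ^ n) :
    ∃ r, 0 < r ∧ Z r = 0 ∧ Gr r = 0 := by
  obtain ⟨r, hr, hG⟩ := h.point (a := R + 1) (t := 1 / 2) (by linarith) (by norm_num)
    (by linarith)
  have hr0 : 0 < r := by linarith [hr.1]
  have hr2 : r ≤ R + 2 := by linarith [hr.2]
  rw [show R + 1 + 2 * (1 / 2) = R + 2 by ring] at hG
  have hn' : (n : ℝ) * (1 / n) = 1 := by
    have : (n : ℝ) ≠ 0 := by exact_mod_cast hn.ne'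
    field_simp
  have h1 := h.iter (a := R + 2) (t := 1 / n) (by linarith) (by positivity) n
    (by rw [hn']; linarith)
  rw [hn', show R + 2 + 1 = R + 4 - 1 by ring] at h1
  have h2 := h.int hr0 (by linarith)
  have h3 := hM r ⟨hr.1.le, by linarith⟩
  have h4 := h.Zmono hr0 hr2 (by linarith)
  have h5 : Z r + Gr r ≤ (1 + 4 * ((R + 4) / (R + 1)) ^ 11) * Z (R + 2) := by
    generalize ((R + 4) / (R + 1)) ^ 11 = X at hG ⊢
    rw [show X / (1 / 2) ^ 2 = 4 * X by ring] at hG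
    linarith
  have h6 : M * (Z r + Gr r) ≤ M * (1 + 4 * ((R + 4) / (R + 1)) ^ 11) * Z (R + 2) := by
    rw [mul_assoc]; exact mul_le_mul_of_nonneg_left h5 hM0
  have h7 : Z (R + 2) = 0 := by
    by_contra h0
    have hp : 0 < Z (R + 2) := lt_of_le_of_ne (h.Z0 _) (Ne.symm h0)
    have := mul_lt_mul_of_pos_right hk hp
    linarith
  rw [h7, mul_zero] at h5
  have := h.Z0 r
  have := h.G0 r
  exact ⟨r, hr0, by linarith, by linarith⟩

end MB1

open MB1 in
theorem s_B1 (hO : S_O1) (hz : S_zr) : S_B1 := by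
  intro D L σ₀
  obtain ⟨C, N, hC⟩ := hO D L σ₀
  have hR := L.R_pos
  obtain ⟨c₀, hc₀⟩ : ∃ c₀ : ℝ, c₀ = 1 / (L.R + 4) ^ 2 - 1 / (L.R + 5) ^ 2 := ⟨_, rfl⟩
  have c0 : 0 < c₀ := by
    rw [hc₀, sub_pos]
    gcongr
    linarith
  obtain ⟨c₁, hc₁⟩ : ∃ c₁ : ℝ,
    c₁ = (c₀ * ((L.R + 2) / (L.R + 4)) ^ 11 * (1 / ((N + 1 : ℕ) : ℝ)) ^ 2) ^ (N + 1) := ⟨_, rfl⟩
  have c1 : 0 < c₁ := by rw [hc₁]; positivity
  obtain ⟨l₀, hl₀⟩ := exists_nat_gt (max 1 (max ((1 + (L.R + 4) ^ 2 / 8) / c₀)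
    (|C| * (1 + 4 * ((L.R + 4) / (L.R + 1)) ^ 11) / c₁)))
  have hβ : ∀ᶠ j in atTop, |(L.P j).β| ≤ 1 := by
    have h1 : |L.β| < 1 := by
      have := L.hβ
      have := D.hβ
      rw [abs_lt]
      constructor <;> linarith [L.hβ.1, L.hβ.2, D.hβ.1, D.hβ.2.2]
    exact (L.β_lim.abs.eventually_lt_const h1).mono fun j hj => hj.le
  refine ⟨l₀, ?_⟩
  filter_upwards [hC, hβ] with j hj hβj l lam hl hre hσ hν f g hS
  have hl' : (l₀ : ℝ) ≤ l := by exact_mod_cast hl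
  have l1 : (1 : ℝ) < l := ((le_max_left _ _).trans_lt hl₀).trans_le hl'
  have l2 : 1 + (L.R + 4) ^ 2 / 8 < l * c₀ := (div_lt_iff₀ c0).1
    ((((le_max_left _ _).trans (le_max_right _ _)).trans_lt hl₀).trans_le hl')
  have l3 : |C| * (1 + 4 * ((L.R + 4) / (L.R + 1)) ^ 11) < l * c₁ := (div_lt_iff₀ c1).1
    ((((le_max_right _ _).trans (le_max_right _ _)).trans_lt hl₀).trans_le hl')
  have hω : |lam.im| ≤ (l : ℝ) * (l + 10) / (L.R + 5) ^ 2 := by
    rw [le_div_iff₀ (by positivity)]; linarith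
  have hω' : |lam.im| ≤ (l : ℝ) * (l + 10) := by
    have : (1 : ℝ) ≤ (L.R + 5) ^ 2 := by nlinarith
    nlinarith [abs_nonneg lam.im]
  obtain ⟨D', hD⟩ := cvx_of_sol (L.m_pos j) hS (b := L.R + 4) (k := c₀ * l) (by positivity) (by
    have e : (l : ℝ) * (l + 10) / (L.R + 4) ^ 2 = (l : ℝ) * (l + 10) / (L.R + 5) ^ 2
        + c₀ * (l * (l + 10)) := by rw [hc₀]; ring
    have : c₀ * (2 * l) ≤ c₀ * (l * (l + 10)) :=
      mul_le_mul_of_nonneg_left (by nlinarith) c0.le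
    rw [e]
    linarith)
  obtain ⟨r, hr, h1, h2⟩ := hD.zero hR (N + 1) N.succ_pos (M := |C| * (l : ℝ) ^ N) (by positivity)
    (fun r hr => (hj l lam (by exact_mod_cast l1.le) hre hσ hω' f g hS r hr).trans (by
      have := hD.Z0 r
      have := hD.G0 r
      gcongr
      exact le_abs_self C))
    (by
      have e : (c₀ * l * ((L.R + 2) / (L.R + 4)) ^ 11 * (1 / ((N + 1 : ℕ) : ℝ)) ^ 2) ^ (N + 1)
          = (l : ℝ) ^ N * (l * c₁) := by
        rw [hc₁, mul_comm c₀, mul_assoc, mul_assoc, mul_pow, ← mul_assoc c₀]; ring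
      rw [e, mul_comm |C|, mul_assoc]
      exact mul_lt_mul_of_pos_left l3 (by positivity))
  exact hz _ _ l lam f g hS r hr h1 h2

end P139
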