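import Vale.Agent.P139.MBBase

/-! P139 part MB: assembly of the high frequency estimate. -/

open Set Filter Topology MeasureTheory

noncomputable section
namespace P139

namespace MBb2a

open Hyd

theorem exists_δ {δ₀ a b : ℝ} (h0 : 0 < δ₀) (ha : 0 ≤ a) (hb : 0 ≤ b) :
    ∃ δ : ℝ, 0 < δ ∧ δ ≤ δ₀ ∧ δ ≤ 1 / 2 ∧ δ * a ≤ 1 ∧ b * δ ^ 2 ≤ 1 / 64 := by
  refine ⟨min δ₀ (1 / (64 * (a + b + 1))), lt_min h0 (by positivity), min_le_left _ _, ?_⟩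
  obtain ⟨δ, hδ⟩ : ∃ δ, δ = min δ₀ (1 / (64 * (a + b + 1))) := ⟨_, rfl⟩
  have h1 : 0 < δ := hδ ▸ lt_min h0 (by positivity)
  have h2 : δ ≤ 1 / (64 * (a + b + 1)) := hδ ▸ min_le_right _ _
  rw [le_div_iff₀ (by positivity)] at h2
  rw [← hδ]
  have h3 : 0 ≤ δ * a := by positivity
  have h4 : 0 ≤ δ * b := by positivity
  refine ⟨by nlinarith, by nlinarith, ?_⟩
  have h5 : δ ≤ 1 := by nlinarith
  have h6 : δ * b * δ ≤ δ * b := mul_le_of_le_one_right h4 h5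
  nlinarith

variable (h : Hyd) {R C E : ℝ}

theorem E_mono (hE : E = ∫ r in (0 : ℝ)..(R + 3), h.e r) {a b : ℝ} (ha : 0 ≤ a) (hab : a ≤ b)
    (hb : b ≤ R + 3) : ∫ r in a..b, h.e r ≤ E :=
  hE ▸ int_mono (fun _ _ => h.ii_e) (fun _ => h.e0) le_rfl ha hab hb

theorem kZ (hω : 1 ≤ |h.ω|) {r : ℝ} (hr : 0 < r) : h.μ r * (h.Gr r + h.Z r) ≤ h.k r :=
  mul_le_mul_of_nonneg_left (by nlinarith [h.Z0 r]) (h.μ_pos r hr).le

theorem kω {r : ℝ} (hr : 0 < r) : |h.ω| * h.mZ r ≤ h.k r := by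
  have := mul_nonneg (h.μ_pos r hr).le (h.Gr0 r)
  unfold Hyd.k Hyd.mZ
  linarith

theorem hf (hHF : S_HF) (hR : 2 ≤ R) (hC : 1 ≤ C) (hE : E = ∫ r in (0 : ℝ)..(R + 3), h.e r)
    (hω : 4 + (C * (R + 3)) ^ 2 ≤ |h.ω|) {d : ℝ} (hd0 : 0 < d) (hd2 : d ≤ 1 / 2)
    (hU : ∀ r ∈ Ioc 0 (R + 3), h.U r ≤ C * r) (hW : ∀ r, R + d ≤ r → h.W r ≤ 1) :
    |h.ω| * ∫ r in (R + d + d)..(R + 2), h.mZ r ≤ 100 / d ^ 2 * E := by
  refine (hHF h (R + d) d (R + 2) (C * (R + 3)) (by linarith) hd0 (by linarith) (by linarith)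
    (by linarith) (fun r hr => ⟨?_, hW r hr.1⟩) hω).trans
    (mul_le_mul_of_nonneg_left (E_mono h hE (by linarith) (by linarith) (by linarith))
      (by positivity))
  exact (hU r ⟨by linarith [hr.1], by linarith [hr.2]⟩).trans
    (mul_le_mul_of_nonneg_left (by linarith [hr.2]) (by linarith))

theorem exists_r₂ (hR : 2 ≤ R) (hE : E = ∫ r in (0 : ℝ)..(R + 3), h.e r)
    (hf2 : |h.ω| * ∫ r in (R + 1)..(R + 2), h.mZ r ≤ 400 * E) :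
    ∃ r₂ ∈ Icc (R + 1) (R + 2), h.k r₂ ≤ 401 * E := by
  obtain ⟨r₂, hr₂, hk₂⟩ := exists_le_avg (φ := h.k) (a := R + 1)
    (h.c_k.mono fun r hr => show 0 < r by linarith [hr.1])
  rw [show R + 1 + 1 = R + 2 by ring] at hr₂ hk₂
  refine ⟨r₂, hr₂, ?_⟩
  have a1 : 0 ≤ R + 1 := by linarith
  have a2 : 0 ≤ R + 2 := by linarith
  have h1 : ∫ r in (R + 1)..(R + 2), h.k r ≤
      ∫ r in (R + 1)..(R + 2), (h.e r + |h.ω| * h.mZ r) := by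
    refine intervalIntegral.integral_mono_on (by linarith) (h.ii_k a1 a2)
      ((h.ii_e a1 a2).add ((h.ii_mZ a1 a2).const_mul _)) fun r hr => ?_
    have := h.mGr_le (r := r) (by linarith [hr.1])
    unfold Hyd.k Hyd.mZ
    linarith
  rw [intervalIntegral.integral_add (h.ii_e a1 a2) ((h.ii_mZ a1 a2).const_mul _),
    intervalIntegral.integral_const_mul] at h1
  have := E_mono h hE a1 (b := R + 2) (by linarith) (by linarith)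
  linarith

theorem hardy (hHa : S_Hardy) (hR : 2 ≤ R) (hE : E = ∫ r in (0 : ℝ)..(R + 3), h.e r)
    (hω : 1 ≤ |h.ω|) (hb : ∀ r ∈ Ioc 0 (R + 3), r ^ 11 ≤ C * h.μ r ∧ h.μ r ≤ C * r ^ 11)
    {r₂ : ℝ} (hr₂ : r₂ ∈ Icc (R + 1) (R + 2)) (hk : h.k r₂ ≤ 401 * E) :
    ∫ r in (0 : ℝ)..r₂, h.mZ r ≤ C ^ 2 * ((R + 2) * 401 + (R + 2) ^ 2) * E := by
  have hr₂0 : 0 < r₂ := by linarith [hr₂.1]
  have hE₂ := E_mono h hE le_rfl hr₂0.le (by linarith [hr₂.2])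
  have hE₂0 : 0 ≤ ∫ r in (0 : ℝ)..r₂, h.e r := int_nonneg (fun _ => h.e0) le_rfl hr₂0.le
  refine (hHa h C r₂ hr₂0 fun r hr => hb r ⟨hr.1, by linarith [hr.2, hr₂.2]⟩).trans ?_
  have h1 : h.mZ r₂ ≤ 401 * E :=
    (le_mul_of_one_le_left (h.mZ0 hr₂0) hω).trans ((kω h hr₂0).trans hk)
  have h2 : r₂ * h.mZ r₂ ≤ (R + 2) * (401 * E) :=
    mul_le_mul hr₂.2 h1 (h.mZ0 hr₂0) (by linarith)
  have h3 : r₂ ^ 2 * ∫ r in (0 : ℝ)..r₂, h.e r ≤ (R + 2) ^ 2 * E :=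
    mul_le_mul (pow_le_pow_left₀ hr₂0.le hr₂.2 2) hE₂ hE₂0 (by positivity)
  rw [mul_assoc]
  exact mul_le_mul_of_nonneg_left (by linarith) (by positivity)

theorem flux (hEn : S_En) (hR : 2 ≤ R) (hC : 1 ≤ C) (hE : E = ∫ r in (0 : ℝ)..(R + 3), h.e r)
    (hω : 1 ≤ |h.ω|) {σ₀ CH : ℝ} (hσ0 : 0 ≤ h.σ) (hσ1 : h.σ ≤ σ₀)
    (hb : ∀ r ∈ Ioc 0 (R + 3), h.U r ≤ C * r ∧ |r * h.H r - 11| ≤ C ∧ h.W' r ≤ C)
    {r₂ : ℝ} (hr₂ : r₂ ∈ Icc (R + 1) (R + 2)) (hk : h.k r₂ ≤ 401 * E)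
    (hH : ∫ r in (0 : ℝ)..r₂, h.mZ r ≤ CH * E) :
    -h.ω * (h.μ r₂ * h.Fl r₂) ≤ ((3 + (C + 11) ^ 2) + (C + 11) ^ 2 * (R + 2) * CH +
      (|σ₀| + (C + 11) * (R + 2)) * 401) * E := by
  have hr₂0 : 0 < r₂ := by linarith [hr₂.1]
  have hE₂ := E_mono h hE le_rfl hr₂0.le (by linarith [hr₂.2])
  have hH0 : 0 ≤ ∫ r in (0 : ℝ)..r₂, h.mZ r := int_nonneg (fun _ => h.mZ0) le_rfl hr₂0.le
  refine (hEn h (C + 11) r₂ hr₂0 (by linarith) hσ0 fun r hr => ?_).trans ?_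
  · obtain ⟨h1, h2, h3⟩ := hb r ⟨hr.1, by linarith [hr.2, hr₂.2]⟩
    exact ⟨by nlinarith [hr.1], by linarith [(abs_le.1 h2).2], by linarith⟩
  · have h1 : (3 + (C + 11) ^ 2) * ∫ r in (0 : ℝ)..r₂, h.e r ≤ (3 + (C + 11) ^ 2) * E :=
      mul_le_mul_of_nonneg_left hE₂ (by positivity)
    have h2 : (C + 11) ^ 2 * r₂ * ∫ r in (0 : ℝ)..r₂, h.mZ r ≤
        (C + 11) ^ 2 * (R + 2) * (CH * E) :=
      mul_le_mul (mul_le_mul_of_nonneg_left hr₂.2 (by positivity)) hH hH0 (by positivity)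
    have h3 : (h.σ + (C + 11) * r₂) * (h.μ r₂ * (h.Gr r₂ + h.Z r₂)) ≤
        (|σ₀| + (C + 11) * (R + 2)) * (401 * E) :=
      mul_le_mul (add_le_add (hσ1.trans (le_abs_self _))
        (mul_le_mul_of_nonneg_left hr₂.2 (by linarith))) ((kZ h hω hr₂0).trans hk)
        (mul_nonneg (h.μ_pos _ hr₂0).le (add_nonneg (h.Gr0 _) (h.Z0 _))) (by positivity)
    linarith

theorem exists_y (hR : 2 ≤ R) (hE0 : 0 ≤ E) {R₃ C₄ Y₂ : ℝ} (hC₄ : 0 ≤ C₄) (hY₂ : 0 ≤ Y₂)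
    (hR3 : R + 3 ≤ R₃) (hlog : Real.log (R₃ / (R + 3)) = 32 * C₄ * Y₂ + 1)
    (hT : ∫ r in (R + 3)..R₃, h.k r ≤ Y₂ * E) :
    ∃ y ∈ Icc (R + 3) R₃, C₄ * (y * h.k y) ≤ E / 32 := by
  obtain ⟨y, hy, hky⟩ := exists_le_log (φ := h.k) (a := R + 3) (b := R₃) (by linarith) hR3
    (h.c_k.mono fun r hr => show 0 < r by linarith [hr.1])
  have hy0 : 0 < y := by linarith [hy.1]
  refine ⟨y, hy, ?_⟩
  have h1 := hky.trans hT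
  rw [hlog] at h1
  have h3 : C₄ * (y * h.k y) * (32 * C₄ * Y₂ + 1) ≤ E / 32 * (32 * C₄ * Y₂ + 1) := by
    have := mul_le_mul_of_nonneg_left h1 hC₄
    linarith
  exact le_of_mul_le_mul_right h3 (by positivity)

theorem thin (hTh : S_Thin) (hR : 2 ≤ R) (hC : 1 ≤ C) (hE : E = ∫ r in (0 : ℝ)..(R + 3), h.e r)
    (hE0 : 0 ≤ E) {δ K c : ℝ} (hδ0 : 0 < δ) (hδ2 : δ ≤ 1 / 2) (hK0 : 0 < K) (hc : 0 ≤ c)
    (hδ3 : δ * (16 * (2 * (11 + C))) ≤ 1) (hδ4 : c * 128 * δ ^ 2 ≤ 1 / 64)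
    (hK1 : c * (11 / K) ≤ 1 / 64) (hb : ∀ r ∈ Ioc 0 (R + 3), |r * h.H r - 11| ≤ C)
    (hb4 : ∀ r ∈ Ioc 0 (R - δ / 2), K ≤ h.W r) :
    c * ∫ r in (0 : ℝ)..(R + δ), h.mA r ≤ E / 32 := by
  have h1 := hTh h (2 * (11 + C)) K R δ hδ0 hK0 (by linarith) (by linarith) (fun r hr => by
    have hr0 : 1 / 2 ≤ r := by linarith [hr.1]
    have h2 := hb r ⟨by linarith, by linarith [hr.2]⟩
    have h3 : |r * h.H r| ≤ 11 + C := by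
      rw [abs_le] at h2 ⊢
      constructor <;> linarith [h2.1, h2.2]
    rw [abs_mul, abs_of_pos (by linarith : (0 : ℝ) < r)] at h3
    have h4 := mul_le_mul_of_nonneg_right hr0 (abs_nonneg (h.H r))
    linarith) hb4
  have h2 := h1.trans (mul_le_mul_of_nonneg_left
    (E_mono h hE le_rfl (by linarith) (by linarith)) (by positivity))
  refine (mul_le_mul_of_nonneg_left h2 hc).trans ?_
  have h3 : c * (11 / K + 128 * δ ^ 2) ≤ 1 / 32 := by linarith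
  rw [← mul_assoc]
  linarith [mul_le_mul_of_nonneg_right h3 hE0]

theorem outer (hR : 2 ≤ R) (hE0 : 0 ≤ E) (hω : 1 ≤ |h.ω|) {δ y c Y₂ : ℝ} (hδ0 : 0 < δ)
    (hδ2 : δ ≤ 1 / 2) (hy : R + 3 ≤ y) (hc : 0 ≤ c) (hω3 : 32 * c * (400 / δ ^ 2 + Y₂) ≤ |h.ω|)
    (hf1 : |h.ω| * ∫ r in (R + δ)..(R + 2), h.mZ r ≤ 400 / δ ^ 2 * E)
    (hT : ∫ r in (R + 2)..y, h.k r ≤ Y₂ * E) : c * ∫ r in (R + δ)..y, h.mZ r ≤ E / 32 := by
  have hy0 : 0 ≤ y := by linarith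
  have h1 : |h.ω| * ∫ r in (R + 2)..y, h.mZ r ≤ Y₂ * E := by
    rw [← intervalIntegral.integral_const_mul]
    exact le_trans (intervalIntegral.integral_mono_on (by linarith)
      ((h.ii_mZ (by linarith) hy0).const_mul _) (h.ii_k (by linarith) hy0)
      fun r hr => kω h (by linarith [hr.1])) hT
  have h2 := intervalIntegral.integral_add_adjacent_intervals
    (h.ii_mZ (a := R + δ) (b := R + 2) (by linarith) (by linarith))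
    (h.ii_mZ (a := R + 2) (b := y) (by linarith) hy0)
  obtain ⟨X, hX⟩ : ∃ X, X = ∫ r in (R + δ)..y, h.mZ r := ⟨_, rfl⟩
  rw [← hX] at h2 ⊢
  have h3 : |h.ω| * X ≤ (400 / δ ^ 2 + Y₂) * E := by rw [← h2]; linarith
  have h4 : c * X * |h.ω| ≤ E / 32 * |h.ω| := by
    have h5 := mul_le_mul_of_nonneg_left h3 hc
    have h6 := mul_le_mul_of_nonneg_left hω3 hE0
    linarith
  exact le_of_mul_le_mul_right h4 (by linarith)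

theorem finish (hω : 1 ≤ |h.ω|) {r₂ : ℝ} (hr₂0 : 0 < r₂) (hk : h.k r₂ ≤ 401 * E)
    {τ CH E' m₀ m₁ m₂ m₃ : ℝ} (hE0 : 0 ≤ E) (hτ0 : 0 < τ) (hCH : 0 ≤ CH)
    (hτ1 : τ * (1 + CH) = 1 / 16) (hm : (1 / 4 - τ) * E' ≤ m₀ + τ * m₁ + m₂ + m₃) (t4 : E ≤ E')
    (t0 : m₀ ≤ E / 32) (t1 : m₁ ≤ CH * E) (t2 : m₂ ≤ E / 32) (t3 : m₃ ≤ E / 32) :
    ∃ r, 0 < r ∧ h.Z r = 0 ∧ h.Gr r = 0 := by
  have hτ2 : 0 ≤ τ * CH := by positivity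
  have t5 : (1 / 4 - τ) * E ≤ (1 / 4 - τ) * E' := mul_le_mul_of_nonneg_left t4 (by linarith)
  have t6 := mul_le_mul_of_nonneg_left t1 hτ0.le
  have hEz : E ≤ 0 := by
    have : τ * E + τ * (CH * E) = E / 16 := by linear_combination E * hτ1
    linarith
  have hz : h.Gr r₂ + h.Z r₂ ≤ 0 := by
    have h1 := (kZ h hω hr₂0).trans hk
    by_contra h2
    have := mul_pos (h.μ_pos _ hr₂0) (not_le.1 h2)
    linarith
  exact ⟨r₂, hr₂0, by linarith [h.Gr0 r₂, h.Z0 r₂], by linarith [h.Gr0 r₂, h.Z0 r₂]⟩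

theorem exists_K {c : ℝ} (hc : 0 ≤ c) : ∃ K : ℝ, 0 < K ∧ c * (11 / K) ≤ 1 / 64 := by
  refine ⟨64 * 11 * c + 1, by positivity, ?_⟩
  rw [← mul_div_assoc, div_le_iff₀ (by positivity)]
  linarith

theorem exists_R₃ (hR : 2 ≤ R) {x : ℝ} (hx : 0 ≤ x) :
    ∃ R₃ : ℝ, R + 3 ≤ R₃ ∧ Real.log (R₃ / (R + 3)) = x :=
  ⟨(R + 3) * Real.exp x, le_mul_of_one_le_right (by linarith) (Real.one_le_exp hx), by
    rw [mul_div_cancel_left₀ _ (by linarith), Real.log_exp]⟩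

theorem exists_τ {CH : ℝ} (h : 0 ≤ CH) : ∃ τ : ℝ, 0 < τ ∧ τ ≤ 1 ∧ τ * (1 + CH) = 1 / 16 := by
  have e : 1 / (16 * (1 + CH)) * (1 + CH) = 1 / 16 := by field_simp
  refine ⟨1 / (16 * (1 + CH)), by positivity, ?_, e⟩
  rw [div_le_one (by positivity)]
  linarith

end MBb2a

open MBb2a Hyd in
theorem s_B2a (hHF : S_HF) (hHa : S_Hardy) (hTh : S_Thin) (hEn : S_En) (hMor : S_Mor) : S_B2a := by
  intro R C C₁ σ₀ δ₀ hR hC hδ₀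
  obtain ⟨C₄, hC₄, hM⟩ := hMor (C + R + 1) σ₀ (by linarith)
  obtain ⟨CH, hCH⟩ : ∃ CH, CH = C ^ 2 * ((R + 2) * 401 + (R + 2) ^ 2) := ⟨_, rfl⟩
  have hCH0 : 0 ≤ CH := by rw [hCH]; positivity
  obtain ⟨Y₁, hY₁⟩ : ∃ Y₁, Y₁ = (3 + (C + 11) ^ 2) + (C + 11) ^ 2 * (R + 2) * CH +
    (|σ₀| + (C + 11) * (R + 2)) * 401 := ⟨_, rfl⟩
  have hY₁0 : 0 ≤ Y₁ := by rw [hY₁]; positivity
  obtain ⟨Y₂, hY₂⟩ : ∃ Y₂, Y₂ = |C₁| * (Y₁ + 401) := ⟨_, rfl⟩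
  have hY₂0 : 0 ≤ Y₂ := by rw [hY₂]; positivity
  obtain ⟨τ, hτ0, hτ, hτ1⟩ := exists_τ hCH0
  obtain ⟨δ, hδ0, hδ1, hδ2, hδ3, hδ4⟩ := exists_δ (a := 16 * (2 * (11 + C))) (b := C₄ / τ * 128)
    hδ₀ (by positivity) (by positivity)
  obtain ⟨K, hK0, hK1⟩ := exists_K (c := C₄ / τ) (by positivity)
  obtain ⟨R₃, hR3, hlog⟩ := exists_R₃ hR (x := 32 * C₄ * Y₂ + 1) (by positivity)
  refine ⟨δ, K, R₃, hδ0, hδ1, hR3, fun C₃ => ?_⟩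
  obtain ⟨C₇, hC₇, hM⟩ := hM δ R₃ C₃ hδ0
  obtain ⟨ω₁, hω₁⟩ : ∃ ω₁, ω₁ = 32 * (C₇ / τ) * (400 / δ ^ 2 + Y₂) := ⟨_, rfl⟩
  have hω₁0 : 0 ≤ ω₁ := by rw [hω₁]; positivity
  have hsq := sq_nonneg (C * (R + 3))
  refine ⟨4 + (C * (R + 3)) ^ 2 + ω₁, by linarith only [hsq, hω₁0], ?_⟩
  intro h P' hσ0 hσ1 hω hb1 hb2 hb3 hb4 hb5 hout
  have hω1 : 1 ≤ |h.ω| := by linarith only [hsq, hω₁0, hω]
  have hω2 : 4 + (C * (R + 3)) ^ 2 ≤ |h.ω| := by linarith only [hω₁0, hω]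
  have hω3 : ω₁ ≤ |h.ω| := by linarith only [hsq, hω]
  obtain ⟨E, hE⟩ : ∃ E, E = ∫ r in (0 : ℝ)..(R + 3), h.e r := ⟨_, rfl⟩
  have hE0 : 0 ≤ E := hE ▸ int_nonneg (fun _ => h.e0) le_rfl (by linarith only [hR])
  have hb1' : ∀ r ∈ Ioc 0 (R + 3), h.U r ≤ C * r ∧ |r * h.H r - 11| ≤ C ∧ h.W' r ≤ C :=
    fun r hr => by
      obtain ⟨h1, h2, h3, -⟩ := hb1 r ⟨hr.1, hr.2.trans hR3⟩
      exact ⟨h1, h2, h3⟩
  have hf1 := hf h hHF hR hC hE hω2 (d := δ / 2) (half_pos hδ0) (by linarith only [hδ2, hδ0])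
    (fun r hr => (hb1' r hr).1) hb5
  have hf2 := hf h hHF hR hC hE hω2 (d := 1 / 2) (by norm_num) le_rfl
    (fun r hr => (hb1' r hr).1) fun r hr => hb5 r (by linarith only [hr, hδ2])
  rw [show R + δ / 2 + δ / 2 = R + δ by ring, show 100 / (δ / 2) ^ 2 = 400 / δ ^ 2 by
    field_simp; norm_num] at hf1
  rw [show R + 1 / 2 + 1 / 2 = R + 1 by ring, show (100 : ℝ) / (1 / 2) ^ 2 = 400 by norm_num] at hf2
  obtain ⟨r₂, hr₂, hk₂⟩ := exists_r₂ h hR hE hf2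
  have hr₂0 : 0 < r₂ := by linarith only [hr₂.1, hR]
  have hH := hardy h hHa hR hE hω1 (fun r hr => ⟨(hb2 r hr).1, (hb2 r hr).2.1⟩) hr₂ hk₂
  rw [← hCH] at hH
  have hFl := flux h hEn hR hC hE hω1 hσ0 hσ1 hb1' hr₂ hk₂ hH
  rw [← hY₁] at hFl
  have hYE := mul_nonneg hY₁0 hE0
  have hT : ∫ r in r₂..R₃, h.k r ≤ Y₂ * E := by
    refine (hout r₂ hr₂ ((Y₁ + 401) * E) (by linarith only [hFl, hE0])
      (by linarith only [hk₂, hYE])).trans ?_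
    rw [hY₂, mul_assoc]
    exact mul_le_mul_of_nonneg_right (le_abs_self _) (by positivity)
  have hTm : ∀ a b : ℝ, R + 2 ≤ a → a ≤ b → b ≤ R₃ → ∫ r in a..b, h.k r ≤ Y₂ * E :=
    fun a b ha hab hb => (int_mono (fun _ _ => h.ii_k) (fun _ => h.k0) hr₂0.le
      (hr₂.2.trans ha) hab hb).trans hT
  obtain ⟨y, hy, hky⟩ := exists_y h hR hE0 hC₄ hY₂0 hR3 hlog
    (hTm _ _ (by linarith only) hR3 le_rfl)
  have hy1 := hy.1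
  have hmor := hM h P' (R + δ) y τ (by linarith only [hR, hδ0]) (by linarith only [hC, hδ2])
    (by linarith only [hy1, hδ2]) (by linarith only [hy1, hR]) hy.2 hτ0 hτ hσ0 hσ1 hω1
    (fun r hr => by
      obtain ⟨h1, h2, h3, h4, h5⟩ := hb1 r ⟨hr.1, hr.2.trans hy.2⟩
      exact ⟨h1.trans (mul_le_mul_of_nonneg_right (by linarith only [hR]) hr.1.le),
        by linarith only [h2, hR], by linarith only [h3, hR], h4, h5⟩)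
    (fun r hr => hb3 r ⟨hr.1, by linarith only [hr.2, hδ1]⟩)
    (fun r hr => by linarith only [(hb2 r ⟨hr.1, by linarith only [hr.2, hδ2]⟩).2.2, hR])
  refine finish h hω1 hr₂0 hk₂ hE0 hτ0 hCH0 hτ1 hmor ?_ hky ?_ ?_ ?_
  · exact hE ▸ int_mono (fun _ _ => h.ii_e) (fun _ => h.e0) le_rfl le_rfl
      (by linarith only [hR]) hy1
  · exact (int_mono (fun _ _ => h.ii_mZ) (fun _ => h.mZ0) le_rfl le_rfl
      (by linarith only [hR, hδ0]) (by linarith only [hr₂.1, hδ2])).trans hH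
  · exact thin h hTh hR hC hE hE0 hδ0 hδ2 hK0 (by positivity) hδ3 hδ4 hK1
      (fun r hr => (hb1' r hr).2.1) hb4
  · exact outer h hR hE0 hω1 hδ0 hδ2 hy1 (by positivity) (hω₁ ▸ hω3) hf1
      (hTm _ _ le_rfl (by linarith only [hy1]) hy.2)

end P139
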