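import Vale.Agent.P139.MBBase

/-! P139 part MB: uniform bounds for the background. -/

open Set Filter Topology MeasureTheory
open scoped ContDiff

noncomputable section
namespace P139
namespace MBbg1

theorem gam_pos {m : ℕ} (hm : 1 ≤ m) : 0 < gam m := by
  have : (1 : ℝ) ≤ m := by exact_mod_cast hm
  unfold gam; positivity

theorem gam_le {m : ℕ} (hm : 1 ≤ m) : 2 * gam m ≤ 1 := by
  have : (1 : ℝ) ≤ m := by exact_mod_cast hm
  unfold gam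
  rw [mul_one_div, div_le_one (by positivity)]
  linarith

/-- bounds on a compact interval -/
theorem cpt (h1 : S_hyd) {D : FreeData} (L : Lim D) (A : ℝ) :
    ∃ c B : ℝ, 0 < c ∧ 0 < B ∧ ∀ᶠ j in atTop, ∀ r ∈ Icc (0 : ℝ) A,
      c ≤ ‖(L.P j).q r‖ ∧ ‖(L.P j).q r‖ ≤ B ∧ ‖deriv (L.P j).q r‖ ≤ B := by
  have hq : ∀ j, ContDiff ℝ ∞ (L.P j).q := fun j => (h1 _ _ (L.m_pos j)).1.1
  have c0 : ContinuousOn L.qi (Icc 0 A) :=
    (L.conv A).continuousOn (Frequently.of_forall fun j => (hq j).continuous.continuousOn)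
  have c1 : ContinuousOn (deriv L.qi) (Icc 0 A) :=
    (L.conv' A).continuousOn (Frequently.of_forall fun j =>
      ((hq j).continuous_deriv (by norm_num)).continuousOn)
  obtain ⟨B0, hB0⟩ := isCompact_Icc.exists_bound_of_continuousOn c0
  obtain ⟨B1, hB1⟩ := isCompact_Icc.exists_bound_of_continuousOn c1
  obtain ⟨B2, hB2⟩ := isCompact_Icc.exists_bound_of_continuousOn
    (c0.inv₀ fun r _ => L.qi_ne r)
  obtain ⟨c, hc, hc'⟩ : ∃ c : ℝ, 0 < c ∧ ∀ r ∈ Icc (0 : ℝ) A, 2 * c ≤ ‖L.qi r‖ := by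
    refine ⟨1 / (2 * (|B2| + 1)), by positivity, fun r hr => ?_⟩
    have h2 := hB2 r hr
    have h3 : 0 < ‖L.qi r‖ := norm_pos_iff.2 (L.qi_ne r)
    rw [Pi.inv_apply, norm_inv, inv_le_iff_one_le_mul₀ h3] at h2
    have h4 : 2 * (1 / (2 * (|B2| + 1))) = 1 / (|B2| + 1) := by field_simp
    rw [h4, div_le_iff₀ (by positivity)]
    nlinarith [le_abs_self B2]
  refine ⟨c, |B0| + |B1| + c, hc, by positivity, ?_⟩
  filter_upwards [Metric.tendstoUniformlyOn_iff.1 (L.conv A) c hc,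
    Metric.tendstoUniformlyOn_iff.1 (L.conv' A) c hc] with j e0 e1 r hr
  have a0 := e0 r hr
  have a1 := e1 r hr
  rw [dist_eq_norm] at a0 a1
  have b0 := norm_sub_norm_le (L.qi r) ((L.P j).q r)
  have b1 := norm_sub_norm_le ((L.P j).q r) (L.qi r)
  have b2 := norm_sub_norm_le (deriv (L.P j).q r) (deriv L.qi r)
  rw [norm_sub_rev] at b1 b2
  have := hc' r hr
  have := hB0 r hr
  have := hB1 r hr
  refine ⟨by linarith, ?_, ?_⟩
  · linarith [le_abs_self B0, abs_nonneg B1]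
  · linarith [le_abs_self B1, abs_nonneg B0]

/-- the flux identity bounds `U` on a ball -/
theorem uu_le {ρ U : ℝ → ℝ} {κ c B A : ℝ} (hκ : κ ≤ 3) (hc : 0 < c)
    (hd : ∀ r : ℝ, HasDerivAt (fun r => ρ r * r ^ 11 * U r) (2 * κ * (ρ r * r ^ 11)) r)
    (hρ : ∀ r ∈ Icc (0 : ℝ) A, c ≤ ρ r ∧ ρ r ≤ B) {r : ℝ} (hr : r ∈ Ioc 0 A) :
    U r ≤ B / c * r := by
  have hB : 0 < B := by
    have := hρ r ⟨hr.1.le, hr.2⟩
    linarith [this.1, this.2]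
  have hF : ∀ x : ℝ, HasDerivAt (fun x => B / 2 * x ^ 12 - ρ x * x ^ 11 * U x)
      (6 * B * x ^ 11 - 2 * κ * (ρ x * x ^ 11)) x := fun x => by
    refine HasDerivAt.congr_deriv (((hasDerivAt_pow 12 x).const_mul (B / 2)).fun_sub (hd x)) ?_
    norm_num; ring
  have hm : MonotoneOn (fun x => B / 2 * x ^ 12 - ρ x * x ^ 11 * U x) (Icc 0 A) := by
    refine monotoneOn_of_deriv_nonneg (convex_Icc 0 A)
      (fun x _ => (hF x).continuousAt.continuousWithinAt)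
      (fun x _ => (hF x).differentiableAt.differentiableWithinAt) fun x hx => ?_
    rw [(hF x).deriv]
    have hx' := interior_subset hx
    have h1 := hρ x hx'
    have h2 : 0 ≤ x ^ 11 := pow_nonneg hx'.1 11
    have h3 : 0 ≤ ρ x := hc.le.trans h1.1
    have h4 : κ * ρ x ≤ 3 * B := by nlinarith [h1.2]
    nlinarith [mul_le_mul_of_nonneg_right h4 h2]
  have h0 := hm ⟨le_rfl, hr.1.le.trans hr.2⟩ ⟨hr.1.le, hr.2⟩ hr.1.le
  simp only [ne_eq, OfNat.ofNat_ne_zero, not_false_eq_true, zero_pow, mul_zero, zero_mul,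
    sub_self] at h0
  have h1 := hρ r ⟨hr.1.le, hr.2⟩
  have h2 : 0 < r ^ 11 := pow_pos hr.1 11
  have h3 : ρ r * U r ≤ B / 2 * r := by
    have : r ^ 11 * (ρ r * U r) ≤ r ^ 11 * (B / 2 * r) := by
      have e : r ^ 12 = r ^ 11 * r := by ring
      rw [e] at h0
      nlinarith
    exact le_of_mul_le_mul_left this h2
  rcases le_or_gt (U r) 0 with hU | hU
  · exact hU.trans (mul_nonneg (div_nonneg hB.le hc.le) hr.1.le)
  · rw [div_mul_eq_mul_div, le_div_iff₀ hc]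
    nlinarith [mul_le_mul_of_nonneg_right h1.1 hU.le, mul_pos hB hr.1]

theorem deriv_q {m : ℕ} (P : Prof m) (r : ℝ) :
    deriv P.q r = 2 * (r : ℂ) * deriv P.Θ (r ^ 2) := by
  have hs : -P.ε < r ^ 2 := lt_of_lt_of_le (neg_neg_of_pos P.hε) (sq_nonneg r)
  have h1 : DifferentiableAt ℝ P.Θ (r ^ 2) :=
    (P.smooth.contDiffAt (Ioi_mem_nhds hs)).differentiableAt (by norm_num)
  have h2 : HasDerivAt P.q (((2 : ℕ) * r ^ (2 - 1) : ℝ) • deriv P.Θ (r ^ 2)) r :=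
    HasDerivAt.scomp (h := fun x : ℝ => x ^ 2) r h1.hasDerivAt (hasDerivAt_pow 2 r)
  rw [h2.deriv]
  simp

/-- the exterior bounds -/
theorem outer {γ c C r a b : ℝ} (hγ : 0 < γ) (hγ' : 2 * γ ≤ 1) (hc : 0 < c) (hr : 1 ≤ r)
    (ha : 0 ≤ a) (h1 : c ≤ (r ^ 2) ^ γ * a) (h2 : (r ^ 2) ^ γ * a ≤ 1)
    (h3 : b ≤ C * (r ^ 2) ^ (-γ - ((1 : ℕ) : ℝ))) :
    (1 + r ^ 2) ^ (-(2 * γ)) ≤ 1 / c ^ 2 * a ^ 2 ∧ a ^ 2 ≤ 2 * (1 + r ^ 2) ^ (-(2 * γ)) ∧
      (1 + r) * (2 * r * b / a) ≤ 4 * |C| / c := by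
  have hs : (1 : ℝ) ≤ r ^ 2 := by nlinarith
  have hs0 : (0 : ℝ) < r ^ 2 := by positivity
  obtain ⟨x, hx⟩ : ∃ x, x = (r ^ 2) ^ γ := ⟨_, rfl⟩
  obtain ⟨y, hy⟩ : ∃ y, y = (1 + r ^ 2) ^ γ := ⟨_, rfl⟩
  have hx0 : 0 < x := hx ▸ Real.rpow_pos_of_pos hs0 γ
  have hy0 : 0 < y := hy ▸ Real.rpow_pos_of_pos (by positivity) γ
  have hxy : x ≤ y := by
    rw [hx, hy]; exact Real.rpow_le_rpow hs0.le (by linarith) hγ.le
  have e1 : (1 + r ^ 2) ^ (-(2 * γ)) = (y ^ 2)⁻¹ := by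
    rw [Real.rpow_neg (by positivity), hy, mul_comm, Real.rpow_mul (by positivity), Real.rpow_two]
  have e2 : (r ^ 2) ^ (-γ - ((1 : ℕ) : ℝ)) = x⁻¹ / r ^ 2 := by
    rw [Nat.cast_one, Real.rpow_sub_one hs0.ne', Real.rpow_neg hs0.le, hx]
  have hyx : y ^ 2 ≤ 2 * x ^ 2 := by
    have f1 : y ≤ (2 : ℝ) ^ γ * x := by
      rw [hx, hy, ← Real.mul_rpow (by norm_num) hs0.le]
      exact Real.rpow_le_rpow (by positivity) (by linarith) hγ.le
    have f2 : ((2 : ℝ) ^ γ) ^ 2 ≤ 2 := by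
      rw [← Real.rpow_two, ← Real.rpow_mul (by norm_num)]
      calc (2 : ℝ) ^ (γ * 2) ≤ 2 ^ (1 : ℝ) :=
            Real.rpow_le_rpow_of_exponent_le (by norm_num) (by linarith)
        _ = 2 := Real.rpow_one 2
    calc y ^ 2 ≤ ((2 : ℝ) ^ γ * x) ^ 2 := pow_le_pow_left₀ hy0.le f1 2
      _ = ((2 : ℝ) ^ γ) ^ 2 * x ^ 2 := by ring
      _ ≤ 2 * x ^ 2 := mul_le_mul_of_nonneg_right f2 (sq_nonneg x)
  rw [← hx] at h1 h2
  rw [e2] at h3
  rw [e1]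
  have ha0 : 0 < a := by
    rcases ha.eq_or_lt with h | h
    · rw [← h, mul_zero] at h1; linarith
    · exact h
  refine ⟨?_, ?_, ?_⟩
  · have f1 : c ≤ y * a := h1.trans (mul_le_mul_of_nonneg_right hxy ha)
    have f2 : c ^ 2 ≤ (y * a) ^ 2 := pow_le_pow_left₀ hc.le f1 2
    rw [inv_eq_one_div, one_div_mul_eq_div, div_le_div_iff₀ (by positivity) (by positivity)]
    nlinarith
  · have f2 : (x * a) ^ 2 ≤ 1 := pow_le_one₀ (by positivity) h2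
    rw [← div_eq_mul_inv, le_div_iff₀ (by positivity)]
    nlinarith [mul_le_mul_of_nonneg_left hyx (sq_nonneg a)]
  · have hr0 : 0 < r := by linarith
    have f1 : b ≤ |C| * (x⁻¹ / r ^ 2) :=
      h3.trans (mul_le_mul_of_nonneg_right (le_abs_self C) (by positivity))
    have f2 : 2 * r * b / a ≤ 2 * r * (|C| * (x⁻¹ / r ^ 2)) / a := by gcongr
    have f3 : 2 * r * (|C| * (x⁻¹ / r ^ 2)) / a = 2 * |C| / (r * (x * a)) := by field_simp
    have f4 : 2 * |C| / (r * (x * a)) ≤ 2 * |C| / (r * c) := by gcongr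
    have f5 : (1 + r) * (2 * |C| / (r * c)) ≤ 2 * r * (2 * |C| / (r * c)) :=
      mul_le_mul_of_nonneg_right (by linarith) (by positivity)
    have f6 : 2 * r * (2 * |C| / (r * c)) = 4 * |C| / c := by field_simp; ring
    calc (1 + r) * (2 * r * b / a) ≤ (1 + r) * (2 * |C| / (r * c)) :=
          mul_le_mul_of_nonneg_left (f2.trans (f3.le.trans f4)) (by linarith)
      _ ≤ _ := f5.trans f6.le

/-- the weight on a ball -/
theorem inner {γ A r : ℝ} (hγ : 0 < γ) (hγ' : 2 * γ ≤ 1) (hr : r ∈ Ioc 0 A) :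
    (1 + r ^ 2) ^ (-(2 * γ)) ≤ 1 ∧ 1 ≤ (1 + A ^ 2) * (1 + r ^ 2) ^ (-(2 * γ)) := by
  have h1 : (1 : ℝ) ≤ 1 + r ^ 2 := by nlinarith [sq_nonneg r]
  refine ⟨Real.rpow_le_one_of_one_le_of_nonpos h1 (by linarith), ?_⟩
  have h2 : (1 + r ^ 2) ^ (-1 : ℝ) ≤ (1 + r ^ 2) ^ (-(2 * γ)) :=
    Real.rpow_le_rpow_of_exponent_le h1 (by linarith)
  rw [Real.rpow_neg_one] at h2
  have h3 : 1 + r ^ 2 ≤ 1 + A ^ 2 := by nlinarith [hr.1, hr.2]
  calc (1 : ℝ) = (1 + r ^ 2) * (1 + r ^ 2)⁻¹ := by field_simp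
    _ ≤ _ := mul_le_mul h3 h2 (by positivity) (by positivity)

end MBbg1

open MBbg1 in
theorem s_bg1 (h1 : S_hyd) : S_bg1 := by
  intro D L
  have hR := L.R_pos
  obtain ⟨c, B, hc, hB, e0⟩ := cpt h1 L (L.R + 1)
  obtain ⟨θ, hθ, e1⟩ := L.ext_lt 1 one_pos
  obtain ⟨c', hc', e2⟩ := L.ext_ge
  obtain ⟨C₁, e3⟩ := L.ext_symb 1 one_pos 1
  obtain ⟨C, hC⟩ : ∃ C : ℝ, C = 2 + 1 / c ^ 2 + B ^ 2 * (1 + (L.R + 1) ^ 2) + B ^ 2 / c ^ 2 +
    (1 + (L.R + 1)) * (B / c) + 1 / c' ^ 2 + 8 * |C₁| / c' := ⟨_, rfl⟩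
  have p1 : 0 < 1 / c ^ 2 := by positivity
  have p2 : 0 < B ^ 2 * (1 + (L.R + 1) ^ 2) := by positivity
  have p3 : 0 < B ^ 2 / c ^ 2 := by positivity
  have p4 : 0 < (1 + (L.R + 1)) * (B / c) := by positivity
  have p5 : 0 < 1 / c' ^ 2 := by positivity
  have p6 : 0 ≤ 8 * |C₁| / c' := by positivity
  refine ⟨C, by linarith, ?_⟩
  filter_upwards [e0, e1, e2, e3] with j a0 a1 a2 a3 r hr
  have hγ := gam_pos (L.m_pos j)
  have hγ' := gam_le (L.m_pos j)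
  have hw : 0 < (1 + r ^ 2) ^ (-(2 * gam (L.m j))) := Real.rpow_pos_of_pos (by positivity) _
  have hρ0 : 0 ≤ (L.P j).rho r := sq_nonneg _
  rcases le_total r (L.R + 1) with hrA | hrA
  · obtain ⟨i1, i2⟩ := inner hγ hγ' (A := L.R + 1) ⟨hr, hrA⟩
    have hρ : ∀ x ∈ Icc (0 : ℝ) (L.R + 1), c ^ 2 ≤ (L.P j).rho x ∧ (L.P j).rho x ≤ B ^ 2 :=
      fun x hx => ⟨pow_le_pow_left₀ hc.le (a0 x hx).1 2,
        pow_le_pow_left₀ (norm_nonneg _) (a0 x hx).2.1 2⟩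
    obtain ⟨b1, b2⟩ := hρ r ⟨hr.le, hrA⟩
    obtain ⟨d1, -, d3⟩ := a0 r ⟨hr.le, hrA⟩
    refine ⟨?_, ?_, ?_, ?_⟩
    · calc _ ≤ (1 : ℝ) := i1
        _ = 1 / c ^ 2 * c ^ 2 := by field_simp
        _ ≤ C * (L.P j).rho r := mul_le_mul (by linarith) b1 (by positivity) (by linarith)
    · calc _ ≤ B ^ 2 * 1 := by linarith
        _ ≤ B ^ 2 * ((1 + (L.R + 1) ^ 2) * (1 + r ^ 2) ^ (-(2 * gam (L.m j)))) :=
            mul_le_mul_of_nonneg_left i2 (sq_nonneg B)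
        _ = B ^ 2 * (1 + (L.R + 1) ^ 2) * (1 + r ^ 2) ^ (-(2 * gam (L.m j))) := by ring
        _ ≤ _ := mul_le_mul_of_nonneg_right (by linarith) hw.le
    · have := uu_le (κ := 3 - gam (L.m j)) (by linarith) (by positivity : 0 < c ^ 2)
        (h1 _ _ (L.m_pos j)).1.2.2.2.2.2.2.2 hρ ⟨hr, hrA⟩
      exact this.trans (mul_le_mul_of_nonneg_right (by linarith) hr.le)
    · rw [norm_div]
      calc _ ≤ (1 + (L.R + 1)) * (B / c) :=
            mul_le_mul (by linarith) (div_le_div₀ hB.le d3 hc d1) (by positivity) (by linarith)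
        _ ≤ C := by linarith
  · have hr1 : 1 ≤ r := by linarith
    have hs : (L.R + 1) ^ 2 ≤ r ^ 2 := pow_le_pow_left₀ (by linarith) hrA 2
    have b3 := a3 _ hs
    rw [iteratedDeriv_one] at b3
    obtain ⟨o1, o2, o3⟩ := outer hγ hγ' hc' hr1 (norm_nonneg _) (a2 _ (by nlinarith))
      ((a1 _ hs).trans hθ.le) b3
    have e : ‖deriv (L.P j).q r / (L.P j).q r‖ =
        2 * r * ‖deriv (L.P j).Θ (r ^ 2)‖ / ‖(L.P j).Θ (r ^ 2)‖ := by
      rw [deriv_q, norm_div, norm_mul, norm_mul, Complex.norm_real, Real.norm_of_nonneg hr.le]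
      simp [Prof.q]
    rw [← e] at o3
    have e' : (L.P j).rho r = ‖(L.P j).Θ (r ^ 2)‖ ^ 2 := rfl
    rw [← e'] at o1 o2
    have hn := norm_nonneg (deriv (L.P j).q r / (L.P j).q r)
    have q8 : 8 * |C₁| / c' = 2 * (4 * |C₁| / c') := by ring
    refine ⟨o1.trans (mul_le_mul_of_nonneg_right (by linarith) hρ0),
      o2.trans (mul_le_mul_of_nonneg_right (by linarith) hw.le), ?_, by linarith⟩
    have f1 := (le_abs_self _).trans (Complex.abs_im_le_norm (deriv (L.P j).q r / (L.P j).q r))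
    have f2 : ‖deriv (L.P j).q r / (L.P j).q r‖ ≤ 4 * |C₁| / c' := by nlinarith
    have f3 : (1 / 2 + 8 * |C₁| / c') * r ≤ C * r :=
      mul_le_mul_of_nonneg_right (by linarith) hr.le
    unfold Prof.UU
    nlinarith [mul_le_mul_of_nonneg_left hr1 p6]

end P139
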