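import Vale.Agent.P139.MBBase

/-! P139 part MB: bounds for the potential `W`. -/

open Set Filter Topology
open scoped ComplexConjugate

noncomputable section
namespace P139
namespace MBbg2

theorem R_ge (D : FreeData) (L : Lim D) : 1 ≤ L.R := by
  have h1 := L.hx.1
  have h2 := D.hx.1
  have h3 := L.R_pos
  nlinarith

/-- outside, `r² N` is exponentially small -/
theorem ext (D : FreeData) (L : Lim D) {δ : ℝ} (hδ : 0 < δ) :
    ∀ᶠ j in atTop, ∀ r : ℝ, L.R + δ ≤ r →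
      2 * (L.m j : ℝ) ^ 2 * (r ^ 2 * ‖(L.P j).q r‖ ^ (2 * L.m j)) ≤ 1 := by
  obtain ⟨θ, hθ, h⟩ := L.ext_lt δ hδ
  have hθ' : |(max θ 0) ^ 2| < 1 := by
    have h0 : 0 ≤ max θ 0 := le_max_right _ _
    have h1 : max θ 0 < 1 := max_lt hθ one_pos
    rw [abs_of_nonneg (by positivity)]
    nlinarith
  have ht := (tendsto_pow_const_mul_const_pow_of_abs_lt_one 2 hθ').comp L.m_lim
  have he := ht.eventually (eventually_le_nhds (show (0 : ℝ) < 1 / 2 by norm_num))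
  filter_upwards [h, he] with j hj hj' r hr
  have hR := L.R_pos
  have hr0 : 0 < r := by linarith
  have hs : (L.R + δ) ^ 2 ≤ r ^ 2 := by gcongr
  have h1 := (hj _ hs).trans (le_max_left θ 0)
  have hm : (0 : ℝ) < L.m j := by exact_mod_cast L.m_pos j
  have h2 : ((r ^ 2) ^ gam (L.m j) * ‖(L.P j).Θ (r ^ 2)‖) ^ (2 * L.m j) ≤
      (max θ 0) ^ (2 * L.m j) := by
    gcongr
  have h3 : ((r ^ 2) ^ gam (L.m j)) ^ (2 * L.m j) = r ^ 2 := by
    rw [← Real.rpow_natCast, ← Real.rpow_mul (by positivity)]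
    have : gam (L.m j) * ((2 * L.m j : ℕ) : ℝ) = 1 := by
      unfold gam
      push_cast
      field_simp
    rw [this, Real.rpow_one]
  rw [mul_pow, h3, pow_mul (max θ 0)] at h2
  simp only [Function.comp_apply] at hj'
  have h4 : (L.m j : ℝ) ^ 2 * (r ^ 2 * ‖(L.P j).q r‖ ^ (2 * L.m j)) ≤
      (L.m j : ℝ) ^ 2 * ((max θ 0) ^ 2) ^ (L.m j) :=
    mul_le_mul_of_nonneg_left h2 (by positivity)
  linarith

theorem re_div (a b : ℂ) : (a / b).re = (conj b * a).re / ‖b‖ ^ 2 := by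
  rw [Complex.div_re, Complex.sq_norm]
  simp only [Complex.mul_re, Complex.conj_re, Complex.conj_im]
  ring

theorem aux1 {M N x ρ C C₁ CN B : ℝ} (hρ : 0 < ρ) (hN0 : 0 ≤ N) (hN : N ≤ CN)
    (hx : M ^ 2 * x ≤ C₁) (hC₁ : 0 ≤ C₁) (hB : 1 ≤ B * (C * ρ)) :
    M * (2 * M * N) * (2 * (x / ρ)) ≤ 4 * CN * C₁ * (B * C) := by
  have h1 : M * (2 * M * N) * (2 * (x / ρ)) = 4 * N * (M ^ 2 * x) * ρ⁻¹ := by
    field_simp
    ring
  have h2 : ρ⁻¹ ≤ B * C := by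
    rw [inv_le_iff_one_le_mul₀ hρ]
    linarith
  have h3 : 0 ≤ ρ⁻¹ := by positivity
  rw [h1]
  calc 4 * N * (M ^ 2 * x) * ρ⁻¹ ≤ 4 * N * C₁ * ρ⁻¹ := by gcongr
    _ ≤ 4 * CN * C₁ * (B * C) := by
      have : 0 ≤ CN := hN0.trans hN
      gcongr

theorem aux2 {M N r y z C : ℝ} (hr : 1 ≤ r) (hN0 : 0 ≤ N) (hN : 2 * M ^ 2 * (r ^ 2 * N) ≤ 1)
    (hy : y ≤ z) (hz0 : 0 ≤ z) (hz : (1 + r) * z ≤ C) :
    (1 + r ^ 3) * (M * (2 * M * N) * (2 * y)) ≤ 2 * C := by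
  have h0 : 0 ≤ M ^ 2 * N := by positivity
  have h1 : M * (2 * M * N) * (2 * y) ≤ 4 * (M ^ 2 * N) * z := by nlinarith
  have h2 : 1 + r ^ 3 ≤ r ^ 2 * (1 + r) := by nlinarith
  have h3 : 0 ≤ (1 + r) * z := by positivity
  calc (1 + r ^ 3) * (M * (2 * M * N) * (2 * y)) ≤ (1 + r ^ 3) * (4 * (M ^ 2 * N) * z) := by
        gcongr
    _ ≤ (r ^ 2 * (1 + r)) * (4 * (M ^ 2 * N) * z) := by gcongr
    _ = 2 * (2 * M ^ 2 * (r ^ 2 * N)) * ((1 + r) * z) := by ring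
    _ ≤ 2 * 1 * C := by gcongr
    _ = 2 * C := by ring

end MBbg2

open MBbg2 in
theorem s_bg2 (h1 : S_bg1) : S_bg2 := by
  intro D L
  have hR := R_ge D L
  constructor
  · obtain ⟨C, hC, h1⟩ := h1 D L
    obtain ⟨δ₁, C₁, hδ₁, h2⟩ := L.mono
    obtain ⟨CN, h3⟩ := L.Nbd
    refine ⟨max ((1 + (L.R + δ₁) ^ 3) * (4 * CN * max C₁ 0 * ((1 + (L.R + δ₁) ^ 2) * C)))
      (2 * C), ?_⟩
    filter_upwards [h1, h2, ext D L hδ₁] with j a1 a2 a3 r hr
    obtain ⟨b1, -, -, b4⟩ := a1 r hr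
    have hm : (1 : ℝ) ≤ L.m j := by exact_mod_cast L.m_pos j
    have hCN : 0 ≤ CN := le_trans (by positivity) (h3 j 0)
    rcases le_total r (L.R + δ₁) with hle | hle
    · refine le_trans ?_ (le_max_left _ _)
      have hq : (L.P j).q r ≠ 0 := (L.P j).ne _ (sq_nonneg r)
      have hρ : 0 < ‖(L.P j).q r‖ ^ 2 := pow_pos (norm_pos_iff.2 hq) 2
      have hB : 1 ≤ (1 + (L.R + δ₁) ^ 2) * (C * ‖(L.P j).q r‖ ^ 2) := by
        have e1 : (1 + r ^ 2) ^ (-1 : ℝ) ≤ (1 + r ^ 2) ^ (-(2 * gam (L.m j))) := by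
          refine Real.rpow_le_rpow_of_exponent_le (by nlinarith) ?_
          unfold gam
          rw [neg_le_neg_iff, mul_one_div, div_le_one (by positivity)]
          linarith
        rw [Real.rpow_neg_one] at e1
        have e2 : (1 + r ^ 2)⁻¹ ≤ C * ‖(L.P j).q r‖ ^ 2 := e1.trans b1
        rw [inv_le_iff_one_le_mul₀' (by positivity)] at e2
        refine e2.trans ?_
        gcongr
      have key := aux1 (M := (L.m j : ℝ)) hρ (by positivity) (h3 j r)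
        ((a2 r ⟨hr.le, hle⟩).trans (le_max_left C₁ 0)) (le_max_right _ _) hB
      unfold Prof.WW Prof.lr
      rw [re_div]
      refine (mul_le_mul_of_nonneg_left key (by positivity)).trans ?_
      have : 0 ≤ max C₁ 0 := le_max_right _ _
      gcongr
    · refine le_trans ?_ (le_max_right _ _)
      unfold Prof.WW Prof.lr
      exact aux2 (by linarith) (by positivity) (a3 r hle) (Complex.re_le_norm _) (norm_nonneg _) b4
  · intro δ hδ K
    have hβ : 3 / 10 ≤ L.β := (D.hβ.1.le).trans L.hβ.1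
    have hm : ∀ᶠ j in atTop, 10 * K ≤ (L.m j : ℝ) :=
      (tendsto_natCast_atTop_atTop.comp L.m_lim).eventually (eventually_ge_atTop _)
    filter_upwards [L.inside (L.R - δ) (by linarith), hm, ext D L hδ] with j a1 a2 a3
    have hm : (1 : ℝ) ≤ L.m j := by exact_mod_cast L.m_pos j
    constructor
    · intro r hr
      have := a1 r ⟨hr.1.le, hr.2⟩
      unfold Prof.WW
      nlinarith
    · intro r hr
      have h4 := a3 r hr
      have hN : 0 ≤ ‖(L.P j).q r‖ ^ (2 * L.m j) := by positivity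
      have hr1 : 1 ≤ r ^ 2 := by nlinarith
      unfold Prof.WW
      calc 2 * (L.m j : ℝ) * ‖(L.P j).q r‖ ^ (2 * L.m j)
          = 2 * ((L.m j : ℝ) * 1) * (1 * ‖(L.P j).q r‖ ^ (2 * L.m j)) := by ring
        _ ≤ 2 * ((L.m j : ℝ) * L.m j) * (r ^ 2 * ‖(L.P j).q r‖ ^ (2 * L.m j)) := by gcongr
        _ ≤ 1 := by rw [← sq]; exact h4

end P139
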