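import Vale.Agent.P139.MBBase

/-! P139 part MB: bounds for `r ρ'/ρ` and its derivative. -/

open Complex Set Filter Topology MeasureTheory
open scoped ContDiff ComplexConjugate

noncomputable section
namespace P139

namespace MBbg3

variable {m : ℕ}

theorem dT (P : Prof m) {s : ℝ} (hs : -P.ε < s) :
    HasDerivAt P.Θ (deriv P.Θ s) s ∧ HasDerivAt (deriv P.Θ) (deriv (deriv P.Θ) s) s := by
  have h1 : ContDiffOn ℝ ∞ (deriv P.Θ) (Ioi (-P.ε)) :=
    P.smooth.deriv_of_isOpen isOpen_Ioi (by simp)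
  exact ⟨((P.smooth.differentiableOn (by simp)).differentiableAt (Ioi_mem_nhds hs)).hasDerivAt,
    ((h1.differentiableOn (by simp)).differentiableAt (Ioi_mem_nhds hs)).hasDerivAt⟩

theorem sq_gt (P : Prof m) (r : ℝ) : -P.ε < r ^ 2 := by nlinarith [P.hε, sq_nonneg r]

theorem dsq (r : ℝ) : HasDerivAt (fun x : ℝ => x ^ 2) (2 * r) r := by
  simpa using hasDerivAt_pow 2 r

theorem dq (P : Prof m) (r : ℝ) : HasDerivAt P.q (2 * (r : ℂ) * deriv P.Θ (r ^ 2)) r := by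
  have := HasDerivAt.scomp (h := fun x : ℝ => x ^ 2) r (dT P (sq_gt P r)).1 (dsq r)
  refine HasDerivAt.congr_deriv this ?_
  simp

theorem deriv_q (P : Prof m) : deriv P.q = fun r : ℝ => 2 * (r : ℂ) * deriv P.Θ (r ^ 2) :=
  funext fun r => (dq P r).deriv

theorem dq' (P : Prof m) (r : ℝ) : HasDerivAt (deriv P.q)
    (2 * deriv P.Θ (r ^ 2) + 4 * (r : ℂ) ^ 2 * deriv (deriv P.Θ) (r ^ 2)) r := by
  rw [deriv_q]
  have h1 := HasDerivAt.scomp (h := fun x : ℝ => x ^ 2) r (dT P (sq_gt P r)).2 (dsq r)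
  have h2 : HasDerivAt (fun x : ℝ => 2 * (x : ℂ)) 2 r := by
    simpa using (ofRealCLM.hasDerivAt (x := r)).const_mul (2 : ℂ)
  refine HasDerivAt.congr_deriv (h2.fun_mul h1) ?_
  simp only [Function.comp, real_smul]
  push_cast
  ring

/-- the derivative of `r ρ'/ρ` -/
theorem d_rlr (P : Prof m) (r : ℝ) : HasDerivAt (fun r => r * P.lr r)
    (2 * (-10 * (deriv P.q r / P.q r) - I * (r : ℂ) ^ 2 / 2 * (deriv P.q r / P.q r)
      - r * (P.β + I * gam m) + r * (P.q r * conj (P.q r)) ^ m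
      - r * (deriv P.q r / P.q r) ^ 2).re) r := by
  have hq : P.q r ≠ 0 := P.ne _ (sq_nonneg r)
  have h0 : HasDerivAt P.q (deriv P.q r) r := (dq P r).differentiableAt.hasDerivAt
  have h1 := (dq' P r).fun_div h0 hq
  have h2 : HasDerivAt (fun x : ℝ => (x : ℂ)) 1 r := ofRealCLM.hasDerivAt (x := r)
  have h3 := (reCLM.hasFDerivAt.comp_hasDerivAt r (h2.fun_mul h1)).const_mul (2 : ℝ)
  have h4 : (fun r => r * P.lr r) = fun y : ℝ =>
      2 * (reCLM ∘ fun x : ℝ => (x : ℂ) * (deriv P.q x / P.q x)) y := by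
    funext y
    simp only [Prof.lr, Function.comp, reCLM_apply, re_ofReal_mul]
    ring
  rw [h4]
  refine HasDerivAt.congr_deriv h3 ?_
  rw [reCLM_apply]
  congr 2
  have hode := P.ode (r ^ 2) (sq_gt P r)
  have e1 : deriv P.q r = 2 * (r : ℂ) * deriv P.Θ (r ^ 2) := (dq P r).deriv
  have e2 : P.Θ (r ^ 2) = P.q r := rfl
  rw [e2] at hode
  push_cast at hode
  rw [e1]
  generalize (P.q r * conj (P.q r)) ^ m = N at hode ⊢
  generalize deriv (deriv P.Θ) (r ^ 2) = T2 at hode ⊢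
  generalize deriv P.Θ (r ^ 2) = T1 at hode ⊢
  generalize P.q r = q at hode hq ⊢
  field_simp
  linear_combination ((r : ℂ) * q) * hode

theorem gam_le (hm : 1 ≤ m) : 0 ≤ gam m ∧ gam m ≤ 1 := by
  have h : (1 : ℝ) ≤ m := by exact_mod_cast hm
  unfold gam
  exact ⟨by positivity, by rw [div_le_one (by positivity)]; linarith⟩

theorem bound (P : Prof m) (hm : 1 ≤ m) {r A C B N : ℝ} (hr : 0 < r) (hA : r ≤ A)
    (hC : ‖deriv P.q r / P.q r‖ ≤ C) (hB : |P.β| ≤ B) (hN : ‖P.q r‖ ^ (2 * m) ≤ N) :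
    |deriv (fun r => r * P.lr r) r| ≤
      2 * (10 * C + A ^ 2 / 2 * C + A * (B + 1) + A * N + A * C ^ 2) := by
  rw [(d_rlr P r).deriv, abs_mul, abs_two]
  refine mul_le_mul_of_nonneg_left ((abs_re_le_norm _).trans ?_) zero_le_two
  generalize deriv P.q r / P.q r = w at hC ⊢
  have hw := norm_nonneg w
  have hA0 : 0 ≤ A := hr.le.trans hA
  have hr' : ‖(r : ℂ)‖ ≤ A := by rwa [norm_real, Real.norm_eq_abs, abs_of_pos hr]
  have a1 : ‖-10 * w‖ ≤ 10 * C := by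
    rw [norm_mul, norm_neg]
    simp only [Complex.norm_ofNat]
    linarith
  have a2 : ‖I * (r : ℂ) ^ 2 / 2 * w‖ ≤ A ^ 2 / 2 * C := by
    rw [norm_mul, norm_div, norm_mul, norm_I, one_mul, norm_pow]
    simp only [Complex.norm_ofNat]
    gcongr
  have a3 : ‖(r : ℂ) * (P.β + I * gam m)‖ ≤ A * (B + 1) := by
    rw [norm_mul]
    refine mul_le_mul hr' ((norm_add_le _ _).trans ?_) (norm_nonneg _) hA0
    rw [norm_mul, norm_I, one_mul, norm_real, norm_real, Real.norm_eq_abs, Real.norm_eq_abs,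
      abs_of_nonneg (gam_le hm).1]
    linarith [(gam_le hm).2]
  have a4 : ‖(r : ℂ) * (P.q r * conj (P.q r)) ^ m‖ ≤ A * N := by
    rw [norm_mul]
    refine mul_le_mul hr' ?_ (norm_nonneg _) hA0
    rwa [norm_pow, norm_mul, norm_conj, ← sq, ← pow_mul]
  have a5 : ‖(r : ℂ) * w ^ 2‖ ≤ A * C ^ 2 := by
    rw [norm_mul, norm_pow]
    gcongr
  calc _ ≤ ‖-10 * w - I * (r : ℂ) ^ 2 / 2 * w - r * (P.β + I * gam m)
        + r * (P.q r * conj (P.q r)) ^ m‖ + ‖(r : ℂ) * w ^ 2‖ := norm_sub_le _ _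
    _ ≤ ‖-10 * w - I * (r : ℂ) ^ 2 / 2 * w - r * (P.β + I * gam m)‖
        + ‖(r : ℂ) * (P.q r * conj (P.q r)) ^ m‖ + ‖(r : ℂ) * w ^ 2‖ := by
      gcongr; exact norm_add_le _ _
    _ ≤ ‖-10 * w - I * (r : ℂ) ^ 2 / 2 * w‖ + ‖(r : ℂ) * (P.β + I * gam m)‖
        + ‖(r : ℂ) * (P.q r * conj (P.q r)) ^ m‖ + ‖(r : ℂ) * w ^ 2‖ := by
      gcongr; exact norm_sub_le _ _
    _ ≤ ‖-10 * w‖ + ‖I * (r : ℂ) ^ 2 / 2 * w‖ + ‖(r : ℂ) * (P.β + I * gam m)‖
        + ‖(r : ℂ) * (P.q r * conj (P.q r)) ^ m‖ + ‖(r : ℂ) * w ^ 2‖ := by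
      gcongr; exact norm_sub_le _ _
    _ ≤ _ := by linarith

/-- a function continuous on `[0, R+1]` and zero on `[0, R)` is small a little beyond `R` -/
theorem small {φ : ℝ → ℂ} {R η : ℝ} (hR : 0 < R) (hη : 0 < η) (hc : ContinuousOn φ (Icc 0 (R + 1)))
    (h0 : ∀ r ∈ Ico 0 R, φ r = 0) :
    ∃ δ : ℝ, 0 < δ ∧ 2 * δ ≤ 1 ∧ ∀ r ∈ Icc 0 (R + 2 * δ), ‖φ r‖ ≤ η := by
  have hR' : R ∈ Icc 0 (R + 1) := ⟨hR.le, by linarith⟩
  obtain ⟨d, hd, H⟩ := Metric.continuousWithinAt_iff.1 (hc R hR') (η / 2) (by positivity)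
  have hR0 : ‖φ R‖ < η / 2 := by
    have hx : max 0 (R - d / 2) ∈ Ico 0 R := ⟨le_max_left _ _, max_lt hR (by linarith)⟩
    have h1 : dist (max 0 (R - d / 2)) R < d := by
      rw [Real.dist_eq, abs_lt]
      constructor <;> linarith [hx.2, le_max_right 0 (R - d / 2)]
    have := H ⟨hx.1, by linarith [hx.2]⟩ h1
    rwa [h0 _ hx, dist_zero_left] at this
  refine ⟨min (d / 4) (1 / 2), by positivity, by linarith [min_le_right (d / 4) (1 / 2)],
    fun r hr => ?_⟩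
  rcases lt_or_ge r R with h | h
  · rw [h0 r ⟨hr.1, h⟩, norm_zero]; exact hη.le
  · have h1 : dist r R < d := by
      rw [Real.dist_eq, abs_lt]
      constructor <;> linarith [hr.2, min_le_left (d / 4) (1 / 2)]
    have h2 := H ⟨hr.1, by linarith [hr.2, min_le_right (d / 4) (1 / 2)]⟩ h1
    rw [dist_eq_norm] at h2
    have h3 := norm_add_le (φ r - φ R) (φ R)
    rw [sub_add_cancel] at h3
    linarith

end MBbg3

open MBbg3 in
theorem s_bg3 (h1 : S_hyd) (h2 : S_bg1) : S_bg3 := by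
  intro D L
  have hR := L.R_pos
  constructor
  · have hs : ∀ j, ContDiff ℝ ∞ (L.P j).q := fun j => (h1 _ (L.P j) (L.m_pos j)).1.1
    have c0 : ContinuousOn L.qi (Icc 0 (L.R + 1)) :=
      (L.conv _).continuousOn (Frequently.of_forall fun j => (hs j).continuous.continuousOn)
    have c1 : ContinuousOn (deriv L.qi) (Icc 0 (L.R + 1)) :=
      (L.conv' _).continuousOn (Frequently.of_forall fun j =>
        ((hs j).continuous_deriv (by simp)).continuousOn)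
    have z0 : ∀ r ∈ Ico 0 L.R, L.qi r - 1 = 0 := fun r hr => by
      rw [L.qi_def, if_pos ((abs_of_nonneg hr.1).trans_le hr.2.le), sub_self]
    have z1 : ∀ r ∈ Ico 0 L.R, deriv L.qi r = 0 := fun r hr => by
      have : L.qi =ᶠ[𝓝 r] fun _ => 1 := by
        filter_upwards [Ioo_mem_nhds (by linarith [hr.1] : -L.R < r) hr.2] with x hx
        rw [L.qi_def, if_pos (abs_le.2 ⟨hx.1.le, hx.2.le⟩)]
      rw [this.deriv_eq, deriv_const]
    have hη : 0 < 1 / (16 * (L.R + 1)) := by positivity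
    obtain ⟨δ₁, p1, q1, H1⟩ := small hR (by norm_num : (0 : ℝ) < 1 / 4)
      (φ := fun r => L.qi r - 1) (c0.sub continuousOn_const) z0
    obtain ⟨δ₂, p2, -, H2⟩ := small hR hη c1 z1
    refine ⟨min δ₁ δ₂, lt_min p1 p2, ?_⟩
    filter_upwards [Metric.tendstoUniformlyOn_iff.1 (L.conv (L.R + 1)) (1 / 4) (by norm_num),
      Metric.tendstoUniformlyOn_iff.1 (L.conv' (L.R + 1)) _ hη] with j a0 a1 r hr
    have m1 := min_le_left δ₁ δ₂
    have m2 := min_le_right δ₁ δ₂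
    have hr1 : r ≤ L.R + 1 := by linarith [hr.2]
    have b0 := a0 r ⟨hr.1.le, hr1⟩
    have b1 := a1 r ⟨hr.1.le, hr1⟩
    have b2 := H1 r ⟨hr.1.le, by linarith [hr.2]⟩
    have b3 := H2 r ⟨hr.1.le, by linarith [hr.2]⟩
    rw [dist_eq_norm] at b0 b1
    have d0 : 1 / 2 ≤ ‖(L.P j).q r‖ := by
      have := norm_add_le ((L.P j).q r + (L.qi r - (L.P j).q r)) (-(L.qi r - 1))
      have e : (L.P j).q r + (L.qi r - (L.P j).q r) + -(L.qi r - 1) = 1 := by ring
      rw [e, norm_one, norm_neg] at this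
      linarith [norm_add_le ((L.P j).q r) (L.qi r - (L.P j).q r)]
    have d1 : ‖deriv (L.P j).q r‖ ≤ 2 * (1 / (16 * (L.R + 1))) := by
      have := norm_sub_le (deriv L.qi r) (deriv L.qi r - deriv (L.P j).q r)
      rw [sub_sub_cancel] at this
      linarith
    have d2 : ‖deriv (L.P j).q r / (L.P j).q r‖ ≤ 4 * (1 / (16 * (L.R + 1))) := by
      rw [norm_div, div_le_iff₀ (by linarith)]
      nlinarith
    rw [Prof.lr, abs_mul, abs_mul, abs_two, abs_of_pos hr.1]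
    calc r * (2 * |(deriv (L.P j).q r / (L.P j).q r).re|)
        ≤ (L.R + 1) * (2 * (4 * (1 / (16 * (L.R + 1))))) := by
          gcongr
          exact (abs_re_le_norm _).trans d2
      _ = 1 / 2 := by field_simp; norm_num
  · intro A
    obtain ⟨C, -, hC⟩ := h2 D L
    obtain ⟨N, hN⟩ := L.Nbd
    refine ⟨2 * (10 * C + A ^ 2 / 2 * C + A * (|L.β| + 1 + 1) + A * N + A * C ^ 2), ?_⟩
    filter_upwards [hC, Metric.tendsto_nhds.1 L.β_lim 1 one_pos] with j a0 a1 r hr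
    refine bound (L.P j) (L.m_pos j) hr.1 hr.2 ?_ ?_ (hN j r)
    · have := (a0 r hr.1).2.2.2
      nlinarith [norm_nonneg (deriv (L.P j).q r / (L.P j).q r), hr.1]
    · rw [Real.dist_eq] at a1
      linarith [abs_sub_abs_le_abs_sub (L.P j).β L.β]

end P139
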