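import Vale.Agent.P139.MBBase

/-! P139 part MB: the energy flux bound and the estimate for large real part. -/

open Set Filter Topology MeasureTheory

noncomputable section
namespace P139

namespace MBen

theorem sq2 (a b t : ℝ) : 2 * (t * (a * b)) ≤ t ^ 2 * b ^ 2 + a ^ 2 := by
  nlinarith [sq_nonneg (t * b - a)]

theorem P_le (h : Hyd) (r t : ℝ) : 2 * (t * (h.Pa r + h.Pt r)) ≤ t ^ 2 * h.Gr r + h.Z r := by
  unfold Hyd.Pa Hyd.Pt Hyd.Gr Hyd.Ga Hyd.Gt Hyd.Z Hyd.A Hyd.T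
  linarith [sq2 (h.a₁ r) (h.p₁ r) t, sq2 (h.a₂ r) (h.p₂ r) t, sq2 (h.t₁ r) (h.s₁ r) t,
    sq2 (h.t₂ r) (h.s₂ r) t]

theorem F_le (h : Hyd) (r t : ℝ) : 2 * (t * h.Fl r) ≤ t ^ 2 * h.Gr r + h.Z r := by
  unfold Hyd.Fl Hyd.Gr Hyd.Ga Hyd.Gt Hyd.Z Hyd.A Hyd.T
  linarith [sq2 (h.a₁ r) (h.p₂ r) t, sq2 (h.a₂ r) (h.p₁ r) (-t), sq2 (h.t₁ r) (h.s₂ r) t,
    sq2 (h.t₂ r) (h.s₁ r) (-t)]

theorem HU_le (h : Hyd) {C r : ℝ} (hr : 0 < r) (hC : 0 ≤ C) (h1 : h.U r ≤ C * r)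
    (h2 : r * h.H r ≤ C) : h.H r * h.U r ≤ C ^ 2 := by
  have hU := h.U0 r hr
  have h3 : r * (h.H r * h.U r) ≤ r * C ^ 2 := by
    have a1 := mul_le_mul_of_nonneg_right h2 hU
    have a2 := mul_le_mul_of_nonneg_left h1 hC
    linarith
  exact le_of_mul_le_mul_left h3 hr

theorem en_pt {σ κ HU Ur W UW G N A C2 D s : ℝ} (hσ : s ≤ σ) (hκ0 : 0 ≤ κ) (hκ : κ ≤ 3)
    (hHU : HU ≤ C2) (hUr : 0 ≤ Ur) (hW : 0 ≤ W) (hUW : UW ≤ D) (hG : 0 ≤ G) (hN : 0 ≤ N)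
    (hA : 0 ≤ A) :
    (s - C2) * G + (s - 3) * (N + W * A) - D / 2 * A ≤
      (σ + κ - HU) * G + (σ - κ + Ur) * N + ((σ - κ) * W - UW / 2) * A := by
  have a1 : (s - C2) * G ≤ (σ + κ - HU) * G := mul_le_mul_of_nonneg_right (by linarith) hG
  have a2 : (s - 3) * N ≤ (σ - κ + Ur) * N := mul_le_mul_of_nonneg_right (by linarith) hN
  have a3 : (s - 3) * (W * A) ≤ (σ - κ) * (W * A) :=
    mul_le_mul_of_nonneg_right (by linarith) (mul_nonneg hW hA)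
  have a4 : UW * A ≤ D * A := mul_le_mul_of_nonneg_right hUW hA
  linarith

theorem En'_ge (h : Hyd) {C D s r : ℝ} (hr : 0 < r) (hC : 0 ≤ C) (hs : s ≤ h.σ)
    (h1 : h.U r ≤ C * r) (h2 : r * h.H r ≤ C) (h3 : h.U r * h.W' r ≤ D) :
    h.μ r * ((s - C ^ 2) * h.Gr r + (s - 3) * (h.ν / r ^ 2 * h.Z r + h.W r * h.A r)
      - D / 2 * h.A r) ≤ h.En' r :=
  mul_le_mul_of_nonneg_left (en_pt hs h.κ0 h.κ3 (HU_le h hr hC h1 h2)
    (div_nonneg (h.U0 r hr) hr.le) (h.W0 r hr) h3 (h.Gr0 r) (h.nuZ0 r) (h.A0 r)) (h.μ_pos r hr).le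

theorem A_le_Z (h : Hyd) (r : ℝ) : h.A r ≤ h.Z r := by
  unfold Hyd.Z
  linarith [h.T0 r]

/-- the weight -/
def v (γ r : ℝ) : ℝ := (1 + r ^ 2) ^ (-(2 * γ))

theorem v_pos (γ r : ℝ) : 0 < v γ r := Real.rpow_pos_of_pos (by positivity) _

theorem v_le {γ : ℝ} (hγ : 0 ≤ γ) (r : ℝ) : v γ r ≤ 1 :=
  Real.rpow_le_one_of_one_le_of_nonpos (by nlinarith [sq_nonneg r]) (by linarith)

theorem dv (γ r : ℝ) : HasDerivAt (v γ) (-(4 * γ * r / (1 + r ^ 2)) * v γ r) r := by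
  have h0 : (0 : ℝ) < 1 + r ^ 2 := by positivity
  have h1 := ((hasDerivAt_pow 2 r).const_add 1).rpow_const (p := -(2 * γ)) (Or.inl h0.ne')
  refine HasDerivAt.congr_deriv h1 ?_
  rw [Real.rpow_sub_one h0.ne']
  unfold v
  field_simp
  norm_num
  ring

def Hd (h : Hyd) (γ r : ℝ) : ℝ := r ^ 10 * v γ r * h.Z r

def Hd' (h : Hyd) (γ r : ℝ) : ℝ :=
  r ^ 9 * v γ r * ((10 - 4 * γ * (r ^ 2 / (1 + r ^ 2))) * h.Z r + 2 * (r * (h.Pa r + h.Pt r)))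

theorem dHd (h : Hyd) (γ : ℝ) {r : ℝ} (hr : 0 < r) : HasDerivAt (Hd h γ) (Hd' h γ r) r := by
  refine HasDerivAt.congr_deriv (((hasDerivAt_pow 10 r).fun_mul (dv γ r)).fun_mul (h.dZ hr)) ?_
  unfold Hd'
  norm_num
  ring

theorem Hd'_ge (h : Hyd) {γ r : ℝ} (h0 : 0 ≤ γ) (h1 : γ ≤ 1 / 2) (hr : 0 < r) :
    4 * (r ^ 11 * v γ r * (h.Z r / r ^ 2)) - r ^ 11 * v γ r * h.Gr r / 4 ≤ Hd' h γ r := by
  have hq : r ^ 2 / (1 + r ^ 2) ≤ 1 := (div_le_one (by positivity)).2 (by linarith)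
  have hq0 : 0 ≤ r ^ 2 / (1 + r ^ 2) := by positivity
  have a1 : 4 * γ * (r ^ 2 / (1 + r ^ 2)) ≤ 2 := by nlinarith
  have a2 : 8 * h.Z r ≤ (10 - 4 * γ * (r ^ 2 / (1 + r ^ 2))) * h.Z r :=
    mul_le_mul_of_nonneg_right (by linarith) (h.Z0 r)
  have a3 := P_le h r (-(r / 4))
  have a4 : 4 * h.Z r - r ^ 2 * h.Gr r / 4 ≤
      (10 - 4 * γ * (r ^ 2 / (1 + r ^ 2))) * h.Z r + 2 * (r * (h.Pa r + h.Pt r)) := by
    linarith
  have a5 : 0 ≤ r ^ 9 * v γ r := (mul_pos (pow_pos hr 9) (v_pos γ r)).le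
  refine le_trans (le_of_eq ?_) (mul_le_mul_of_nonneg_left a4 a5)
  field_simp

theorem tend_Hd (h : Hyd) {γ : ℝ} (h0 : 0 ≤ γ) : Tendsto (Hd h γ) (𝓝[>] 0) (𝓝 0) := by
  have hv : Bn (v γ) := Bn.of_bound (C := 1) one_pos fun r _ => by
    rw [abs_of_pos (v_pos γ r)]
    exact v_le h0 r
  refine (((Bn.id.pow 9).mul hv).mul h.bn_Z).tend fun r _ => ?_
  unfold Hd
  ring

def kk (h : Hyd) (r : ℝ) : ℝ := h.μ r * (h.Gr r + h.Z r / r ^ 2)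

theorem kk0 (h : Hyd) (r : ℝ) (hr : 0 < r) : 0 ≤ kk h r :=
  mul_nonneg (h.μ_pos r hr).le (add_nonneg (h.Gr0 r) (div_nonneg (h.Z0 r) (sq_nonneg r)))

theorem c_kk (h : Hyd) : ContinuousOn (kk h) (Ioi 0) :=
  h.c_μ.mul (h.c_Gr.add (h.c_Z.div (continuousOn_id.pow 2) fun _ hr => pow_ne_zero 2 (ne_of_gt hr)))

theorem bn_kk (h : Hyd) : Bn (kk h) :=
  (h.bn_μ3.mul (((Bn.id.pow 3).mul h.bn_Gr).add (Bn.id.mul h.bn_Z))).congr fun r hr => by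
    unfold kk
    field_simp

theorem G'_ge (h : Hyd) {C γ r : ℝ} (hC : 1 ≤ C) (h0 : 0 ≤ γ) (h1 : γ ≤ 1 / 2) (hr : 0 < r)
    (hσ : 4 + C ^ 2 + C ^ 4 ≤ h.σ) (b1 : r ^ 11 * v γ r ≤ C * h.μ r)
    (b2 : h.μ r ≤ C * (r ^ 11 * v γ r)) (b3 : h.U r ≤ C * r) (b4 : r * h.H r ≤ C)
    (b5 : r ^ 3 * h.W' r ≤ C) : kk h r ≤ h.En' r + C ^ 3 * Hd' h γ r := by
  have hC0 : 0 ≤ C := by linarith
  have hr2 : 0 < r ^ 2 := pow_pos hr 2
  have c1 : h.U r * h.W' r ≤ C ^ 2 / r ^ 2 := by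
    rw [le_div_iff₀ hr2]
    have a1 := mul_le_mul_of_nonneg_left b5 (h.U0 r hr)
    have a2 := mul_le_mul_of_nonneg_right b3 hC0
    have a3 : r * (h.U r * h.W' r * r ^ 2) ≤ r * C ^ 2 := by linarith
    exact le_of_mul_le_mul_left a3 hr
  have e1 := En'_ge h hr hC0 hσ b3 b4 c1
  have e2 := mul_le_mul_of_nonneg_left (Hd'_ge h h0 h1 hr) (pow_nonneg hC0 3)
  have hμ := (h.μ_pos r hr).le
  have hz : 0 ≤ h.Z r / r ^ 2 := div_nonneg (h.Z0 r) hr2.le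
  have hG := h.Gr0 r
  have hN : 0 ≤ h.ν / r ^ 2 * h.Z r + h.W r * h.A r :=
    add_nonneg (h.nuZ0 r) (mul_nonneg (h.W0 r hr) (h.A0 r))
  have hA : C ^ 2 / r ^ 2 / 2 * h.A r ≤ C ^ 2 / 2 * (h.Z r / r ^ 2) := by
    have := mul_le_mul_of_nonneg_left (A_le_Z h r) (show 0 ≤ C ^ 2 / r ^ 2 / 2 by positivity)
    refine this.trans (le_of_eq ?_)
    ring
  unfold kk
  generalize h.Z r / r ^ 2 = z at *
  generalize h.ν / r ^ 2 * h.Z r + h.W r * h.A r = N at *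
  generalize C ^ 2 / r ^ 2 / 2 * h.A r = B at *
  generalize r ^ 11 * v γ r = w at *
  generalize h.Gr r = G at *
  generalize h.μ r = m at *
  have hC2 : 1 ≤ C ^ 2 := one_le_pow₀ hC
  have hC4 : 0 ≤ C ^ 4 := by positivity
  have f1 : C ^ 2 * z * m ≤ C ^ 2 * z * (C * w) :=
    mul_le_mul_of_nonneg_left b2 (by positivity)
  have f2 : C ^ 3 * G * w ≤ C ^ 3 * G * (C * m) :=
    mul_le_mul_of_nonneg_left b1 (by positivity)
  have f3 : m * B ≤ m * (C ^ 2 / 2 * z) := mul_le_mul_of_nonneg_left hA hμ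
  have f4 : 0 ≤ m * ((1 + C ^ 2 + C ^ 4) * N) := by positivity
  have f5 : m * z * 1 ≤ m * z * C ^ 2 := mul_le_mul_of_nonneg_left hC2 (by positivity)
  have f6 : 0 ≤ m * G := by positivity
  have f7 : 0 ≤ m * G * C ^ 4 := by positivity
  have f8 : 0 ≤ m * z * C ^ 2 := by positivity
  linarith

theorem G_le (h : Hyd) {C γ r : ℝ} (hC : 1 ≤ C) (hr : 0 < r) (hσ : 0 ≤ h.σ)
    (b1 : r ^ 11 * v γ r ≤ C * h.μ r) (b3 : h.U r ≤ C * r) :
    h.En r + C ^ 3 * Hd h γ r ≤ (h.σ + |h.ω| + C + C ^ 4) * (r * kk h r) := by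
  have hC0 : 0 ≤ C := by linarith
  have hr2 : 0 < r ^ 2 := pow_pos hr 2
  have hμ := (h.μ_pos r hr).le
  have hG := h.Gr0 r
  have hz : 0 ≤ h.Z r / r ^ 2 := div_nonneg (h.Z0 r) hr2.le
  have hZ : h.Z r = r ^ 2 * (h.Z r / r ^ 2) := by field_simp
  have key : ∀ P : ℝ, 2 * (r * P) ≤ r ^ 2 * h.Gr r + h.Z r →
      P ≤ r * (h.Gr r + h.Z r / r ^ 2) := fun P hP => by
    have a1 : 0 ≤ r ^ 2 * h.Gr r := by positivity
    have a2 := h.Z0 r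
    refine le_of_mul_le_mul_left ?_ hr
    have a3 : r * (r * (h.Gr r + h.Z r / r ^ 2)) = r ^ 2 * h.Gr r + h.Z r := by field_simp
    rw [a3]
    linarith
  have p1 := key _ (P_le h r r)
  have p2 : |h.Fl r| ≤ r * (h.Gr r + h.Z r / r ^ 2) := by
    refine abs_le.2 ⟨neg_le.1 (key _ ?_), key _ (F_le h r r)⟩
    have := F_le h r (-r)
    linarith
  have p3 : h.ω * h.Fl r ≤ |h.ω| * (r * (h.Gr r + h.Z r / r ^ 2)) := by
    refine (le_abs_self _).trans ?_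
    rw [abs_mul]
    exact mul_le_mul_of_nonneg_left p2 (abs_nonneg _)
  have p4 := mul_le_mul_of_nonneg_left p1 hσ
  have p5 : h.U r * h.Gr r ≤ C * (r * (h.Gr r + h.Z r / r ^ 2)) := by
    have a1 := mul_le_mul_of_nonneg_right b3 hG
    have a2 : 0 ≤ C * (r * (h.Z r / r ^ 2)) := by positivity
    linarith
  have p6 : 0 ≤ h.U r * h.e r := mul_nonneg (h.U0 r hr) (h.e0 hr)
  have p7 : C ^ 3 * Hd h γ r ≤ C ^ 4 * (r * kk h r) := by
    have a1 : Hd h γ r = r ^ 11 * v γ r * (r * (h.Z r / r ^ 2)) := by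
      unfold Hd
      field_simp
    have a2 := mul_le_mul_of_nonneg_right b1 (show 0 ≤ r * (h.Z r / r ^ 2) by positivity)
    have a3 := mul_le_mul_of_nonneg_left a2 (pow_nonneg hC0 3)
    have a4 : 0 ≤ C ^ 4 * (r * (h.μ r * h.Gr r)) := by positivity
    rw [a1]
    unfold kk
    linarith
  have p8 := mul_le_mul_of_nonneg_left (add_le_add (add_le_add p4 p3) p5) hμ
  unfold Hyd.En
  unfold kk at p7 ⊢
  linarith

end MBen

open MBen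

theorem s_En : S_En := by
  intro h C y hy hC hσ hb
  have h1 := ftc0_le (F := h.En) (f := h.En')
    (φ := fun r => -(3 + C ^ 2) * h.e r - C ^ 2 * y * h.mZ r) hy (fun r hr => h.dEn hr.1) h.tend_En
    (((h.ii_e le_rfl hy.le).const_mul _).sub ((h.ii_mZ le_rfl hy.le).const_mul _)) fun r hr => by
      obtain ⟨b1, b2, b3⟩ := hb r ⟨hr.1, hr.2.le⟩
      have c1 : h.U r * h.W' r ≤ C ^ 2 * y := by
        have a1 := mul_le_mul_of_nonneg_left b3 (h.U0 r hr.1)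
        have a2 := mul_le_mul_of_nonneg_right b1 hC
        have a3 := mul_le_mul_of_nonneg_left hr.2.le (sq_nonneg C)
        linarith
      refine le_trans ?_ (En'_ge h hr.1 hC hσ b1 b2 c1)
      have hμ := (h.μ_pos r hr.1).le
      have hG := h.Gr0 r
      have hN : 0 ≤ h.ν / r ^ 2 * h.Z r + h.W r * h.A r :=
        add_nonneg (h.nuZ0 r) (mul_nonneg (h.W0 r hr.1) (h.A0 r))
      have hA := h.A0 r
      have hy0 := hy.le
      have f1 : 0 ≤ h.μ r * h.Gr r := by positivity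
      have f2 : 0 ≤ h.μ r * (C ^ 2 * (h.ν / r ^ 2 * h.Z r + h.W r * h.A r)) := by positivity
      have f3 : h.μ r * (C ^ 2 * y) * h.A r ≤ h.μ r * (C ^ 2 * y) * h.Z r :=
        mul_le_mul_of_nonneg_left (A_le_Z h r) (by positivity)
      have f4 : 0 ≤ h.μ r * (C ^ 2 * y) * h.A r := by positivity
      unfold Hyd.e Hyd.mZ
      linarith
  rw [intervalIntegral.integral_sub ((h.ii_e le_rfl hy.le).const_mul _)
    ((h.ii_mZ le_rfl hy.le).const_mul _), intervalIntegral.integral_const_mul,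
    intervalIntegral.integral_const_mul] at h1
  obtain ⟨b1, -, -⟩ := hb y ⟨hy, le_rfl⟩
  have hμ := (h.μ_pos y hy).le
  have hG := h.Gr0 y
  have hZ := h.Z0 y
  have p1 : h.Pa y + h.Pt y ≤ h.Gr y + h.Z y := by
    have := P_le h y 1
    linarith
  have p2 := mul_le_mul_of_nonneg_left (mul_le_mul_of_nonneg_left p1 hσ) hμ
  have p3 := mul_le_mul_of_nonneg_left (mul_le_mul_of_nonneg_right b1 hG) hμ
  have p4 : 0 ≤ h.U y * h.e y := mul_nonneg (h.U0 y hy) (h.e0 hy)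
  have p5 : 0 ≤ C * y * (h.μ y * h.Z y) := by positivity
  unfold Hyd.En at h1
  linarith

theorem s_B0a : S_B0a := by
  intro C hC
  refine ⟨4 + C ^ 2 + C ^ 4, by nlinarith [sq_nonneg C, sq_nonneg (C ^ 2)], ?_⟩
  rintro h γ h0 h1 hσ hb ⟨x, hx, hi⟩
  have hσ0 : 0 ≤ h.σ := le_trans (by positivity) hσ
  have hii : ∀ a b : ℝ, 0 ≤ a → 0 ≤ b → IntervalIntegrable (kk h) volume a b :=
    fun a b ha hb' => (bn_kk h).ii (c_kk h) ha hb'
  have main : ∀ r, 0 < r →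
      ∫ t in (0 : ℝ)..r, kk h t ≤ (h.σ + |h.ω| + C + C ^ 4) * (r * kk h r) := fun r hr => by
    have h2 := ftc0_le (F := fun t => h.En t + C ^ 3 * Hd h γ t)
      (f := fun t => h.En' t + C ^ 3 * Hd' h γ t) (φ := kk h) hr
      (fun t ht => (h.dEn ht.1).fun_add ((dHd h γ ht.1).const_mul _))
      (by simpa using h.tend_En.add ((tend_Hd h h0).const_mul (C ^ 3)))
      (hii 0 r le_rfl hr.le) fun t ht => by
        obtain ⟨b1, b2, b3, b4, b5⟩ := hb t ht.1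
        exact G'_ge h hC h0 h1 ht.1 hσ b1 b2 b3 b4 b5
    obtain ⟨b1, -, b3, -, -⟩ := hb r hr
    exact h2.trans (G_le h hC hr hσ0 b1 b3)
  have hK : 0 < h.σ + |h.ω| + C + C ^ 4 := by positivity
  have hz : ∫ t in (1 : ℝ)..(1 + 1), kk h t ≤ 0 := by
    refine le_of_forall_pos_le_add fun ε hε => ?_
    obtain ⟨r, hr2, hr, hs⟩ := exists_small hx (c_kk h) (kk0 h) hi (1 + 1) (div_pos hε hK)
    have a1 := Hyd.int_mono hii (kk0 h) le_rfl zero_le_one (le_add_of_nonneg_right zero_le_one) hr2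
    have a2 := mul_le_mul_of_nonneg_left hs hK.le
    rw [mul_div_cancel₀ _ hK.ne'] at a2
    linarith [main r hr]
  obtain ⟨r, hr, hk⟩ := exists_le_avg (φ := kk h) (a := 1)
    ((c_kk h).mono fun t ht => lt_of_lt_of_le one_pos ht.1)
  have hr0 : 0 < r := lt_of_lt_of_le one_pos hr.1
  have h3 : h.Gr r + h.Z r / r ^ 2 ≤ 0 :=
    nonpos_of_mul_nonpos_right (hk.trans hz) (h.μ_pos r hr0)
  have hq : 0 ≤ h.Z r / r ^ 2 := div_nonneg (h.Z0 r) (sq_nonneg r)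
  have hG := h.Gr0 r
  refine ⟨r, hr0, ?_, by linarith⟩
  have h4 : h.Z r / r ^ 2 = 0 := by linarith
  exact (div_eq_zero_iff.1 h4).resolve_right (pow_ne_zero 2 hr0.ne')

end P139
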