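import Vale.Agent.P139.MBBase

/-! P139 part MB: no solutions for large real part. -/

open Complex Set Filter Topology MeasureTheory

noncomputable section
namespace P139

namespace MBfin0

theorem num {ρ r Gr Z G Y n C : ℝ} (hr : 0 < r) (hG : 0 ≤ G) (hY : 0 ≤ Y) (hn : 0 ≤ n)
    (h1 : ρ * Z = Y / 2) (h2 : ρ * Gr ≤ G + n ^ 2 * Y) (h3 : (1 + r) * n ≤ C) :
    ρ * r ^ 11 * (Gr + Z / r ^ 2) ≤ (1 + C ^ 2) * (r ^ 11 * G + r ^ 9 * Y) := by
  have e1 : ρ * r ^ 11 * (Gr + Z / r ^ 2) = r ^ 11 * (ρ * Gr) + r ^ 9 * (ρ * Z) := by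
    field_simp
  have a1 : (r * n) ^ 2 ≤ C ^ 2 := pow_le_pow_left₀ (by positivity) (by linarith) 2
  have a2 := mul_le_mul_of_nonneg_left h2 (by positivity : 0 ≤ r ^ 11)
  have a3 := mul_le_mul_of_nonneg_right a1 (by positivity : 0 ≤ r ^ 9 * Y)
  have a4 : 0 ≤ r ^ 9 * Y := by positivity
  have a5 : 0 ≤ C ^ 2 * (r ^ 11 * G) := by positivity
  rw [e1, h1]
  linarith

end MBfin0

theorem s_B0 (h1 : S_toH) (h2 : S_bg1) (h3 : S_bg2) (h4 : S_E0) (h5 : S_B0a) (h6 : S_zr) :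
    S_B0 := by
  intro D L
  obtain ⟨C₁, hC₁, e1⟩ := h2 D L
  obtain ⟨⟨C₂, e2⟩, -⟩ := h3 D L
  have c2 := abs_nonneg C₂
  obtain ⟨σ₀, hσ₀, hB⟩ := h5 (11 + 2 * C₁ + |C₂|) (by linarith)
  refine ⟨σ₀, ?_⟩
  filter_upwards [e1, e2, h4 D L] with j a1 a2 a4 l lam hre f g hS
  obtain ⟨h, -, hσ, -, hh, hz⟩ := h1 _ (L.P j) (L.m_pos j) l lam f g hS
  have m1 : (1 : ℝ) ≤ L.m j := by exact_mod_cast L.m_pos j
  have G0 : ∀ r, 0 ≤ GG f g r := fun r => by unfold GG; positivity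
  have Z0 : ∀ r, 0 ≤ ZZ f g r := fun r => by unfold ZZ; positivity
  have hR := L.R_pos
  obtain ⟨r₀, hr₀, z1, z2⟩ := hB h (gam (L.m j)) (by unfold gam; positivity)
    (one_div_le_one_div_of_le two_pos (by linarith)) (hσ ▸ hre) (fun r hr => by
      obtain ⟨b1, b2, b3, b4⟩ := a1 r hr
      obtain ⟨d1, d2, d3, -, d5⟩ := hh r
      have ρ0 : 0 ≤ (L.P j).rho r := sq_nonneg _
      have p0 : 0 ≤ (1 + r ^ 2) ^ (-(2 * gam (L.m j))) := by positivity
      have r0 : 0 ≤ r ^ 11 := by positivity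
      have hC : C₁ ≤ 11 + 2 * C₁ + |C₂| := by linarith
      rw [d1, d2, d3, d5]
      refine ⟨?_, ?_, b3.trans (mul_le_mul_of_nonneg_right hC hr.le), ?_, ?_⟩
      · have := mul_le_mul_of_nonneg_left (b1.trans (mul_le_mul_of_nonneg_right hC ρ0)) r0
        linarith
      · have := mul_le_mul_of_nonneg_left (b2.trans (mul_le_mul_of_nonneg_right hC p0)) r0
        linarith
      · have n0 := norm_nonneg (deriv (L.P j).q r / (L.P j).q r)
        have n1 := mul_le_mul_of_nonneg_left (re_le_norm (deriv (L.P j).q r / (L.P j).q r)) hr.le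
        rw [mul_add, mul_div_cancel₀ _ hr.ne', Prof.lr]
        linarith
      · have n1 := (a2 r hr).trans (le_abs_self C₂)
        rcases le_total 0 ((L.m j : ℝ) * (L.P j).WW r * (L.P j).lr r) with n2 | n2
        · linarith
        · have := mul_nonpos_of_nonneg_of_nonpos (pow_pos hr 3).le n2
          linarith)
    ⟨L.R + 1, by linarith, Integrable.mono'
      ((a4 l lam (by linarith) f g hS).const_mul (1 + C₁ ^ 2))
      (((h.c_μ.mul (h.c_Gr.add (h.c_Z.div (continuousOn_pow 2)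
        fun r hr => (pow_pos hr 2).ne'))).mono
          (Ioi_subset_Ioi (by linarith))).aestronglyMeasurable measurableSet_Ioi) (by
        filter_upwards [ae_restrict_mem measurableSet_Ioi] with r hr
        have hr0 : 0 < r := lt_trans (by linarith) hr
        rw [Real.norm_of_nonneg (mul_nonneg (h.μ_pos r hr0).le
          (add_nonneg (h.Gr0 r) (div_nonneg (h.Z0 r) (sq_nonneg r)))), (hh r).1]
        exact MBfin0.num hr0 (G0 r) (Z0 r) (norm_nonneg _) (hz r hr0).1 (hz r hr0).2.1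
          (a1 r hr0).2.2.2)⟩
  obtain ⟨w1, -, w3, -⟩ := hz r₀ hr₀
  have z3 : ZZ f g r₀ = 0 := by rw [z1] at w1; linarith
  rw [z2, z3] at w3
  exact h6 _ _ l lam f g hS r₀ hr₀ z3 (le_antisymm (by linarith) (G0 r₀))

end P139
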