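import Vale.Agent.P139.MBBase

/-! P139: B2 from its abstract form. -/

open Set Filter Topology MeasureTheory

namespace P139

namespace MBfin2

theorem cont {f : ℝ → ℂ} (hf : Adm f) :
    ContinuousOn f (Ioi 0) ∧ ContinuousOn (deriv f) (Ioi 0) :=
  ⟨hf.1.continuousOn, hf.1.continuousOn_deriv_of_isOpen isOpen_Ioi (by norm_num)⟩

theorem rpow_lo {r γ A : ℝ} (hγ : γ ≤ 1 / 2) (hγ0 : 0 ≤ γ) (hr : 0 < r) (hA : r ≤ A) :
    1 ≤ (1 + A ^ 2) * (1 + r ^ 2) ^ (-(2 * γ)) ∧ (1 + r ^ 2) ^ (-(2 * γ)) ≤ 1 := by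
  have h1 : 1 ≤ 1 + r ^ 2 := by nlinarith
  refine ⟨?_, Real.rpow_le_one_of_one_le_of_nonpos h1 (by linarith)⟩
  have h2 : (1 + r ^ 2) ^ (-1 : ℝ) ≤ (1 + r ^ 2) ^ (-(2 * γ)) :=
    Real.rpow_le_rpow_of_exponent_le h1 (by linarith)
  rw [Real.rpow_neg_one] at h2
  have h3 : 1 ≤ (1 + A ^ 2) * (1 + r ^ 2)⁻¹ := by
    rw [← div_eq_mul_inv, le_div_iff₀ (by positivity)]; nlinarith
  exact h3.trans (mul_le_mul_of_nonneg_left h2 (by positivity))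

/-- the exterior data are controlled by the hydrodynamic ones -/
theorem out {ρ R Z Gr Fl ZZ GG FL w ω C Y : ℝ} (hR : 1 ≤ R) (hρ : 0 ≤ ρ) (hZ : 0 ≤ Z)
    (hG : 0 ≤ Gr) (hw : 0 ≤ w) (hwC : w ≤ C) (hω : 1 ≤ |ω|) (e1 : ρ * Z = ZZ / 2)
    (e3 : GG ≤ 4 * (ρ * Gr) + 2 * w ^ 2 * ZZ) (e4 : |ρ * Fl - FL / 2| ≤ w * ZZ / 2)
    (y1 : -ω * (ρ * R * Fl) ≤ Y) (y2 : ρ * R * (Gr + |ω| * Z) ≤ Y) :
    0 ≤ Y ∧ -ω * FL ≤ (6 + 4 * C ^ 2 + 2 * C) * Y ∧ GG + |ω| * ZZ ≤ (6 + 4 * C ^ 2 + 2 * C) * Y := by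
  have hC : 0 ≤ C := hw.trans hwC
  have a0 : 0 ≤ ρ * Gr := by positivity
  have a1 : 0 ≤ |ω| * (ρ * Z) := by positivity
  have a2 : ρ * Gr + |ω| * (ρ * Z) ≤ Y := by nlinarith [mul_le_mul_of_nonneg_right hR (add_nonneg a0 a1)]
  have Y0 : 0 ≤ Y := by linarith
  have z0 : 0 ≤ ZZ := by nlinarith [mul_nonneg hρ hZ]
  have b1 : |ω| * ZZ ≤ 2 * Y := by rw [e1] at a2; linarith
  have b2 : ZZ ≤ 2 * Y := by nlinarith
  have b3 : w ^ 2 * ZZ ≤ C ^ 2 * (2 * Y) := by gcongr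
  have b4 : -ω * (ρ * Fl) ≤ Y := by
    rcases le_total (-ω * (ρ * Fl)) 0 with h | h
    · linarith
    · nlinarith [mul_le_mul_of_nonneg_right hR h]
  have b5 : ω * (ρ * Fl - FL / 2) ≤ |ω| * (w * ZZ / 2) :=
    (le_abs_self _).trans (by rw [abs_mul]; gcongr)
  have b6 : w * (|ω| * ZZ) ≤ C * (2 * Y) := by gcongr
  have b7 : 0 ≤ C * Y := by positivity
  have b8 : 0 ≤ C ^ 2 * Y := by positivity
  exact ⟨Y0, by nlinarith, by nlinarith⟩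

theorem pt {ρ R Z Gr ZZ GG w ω C : ℝ} (hR : 0 ≤ R) (g0 : 0 ≤ GG) (z0 : 0 ≤ ZZ) (hw : 0 ≤ w)
    (hwC : w ≤ C) (hω : 1 ≤ |ω|) (d1 : ρ * Z = ZZ / 2) (d2 : ρ * Gr ≤ GG + w ^ 2 * ZZ) :
    ρ * R * (Gr + |ω| * Z) ≤ (1 + C ^ 2) * (R * (GG + |ω| * ZZ)) := by
  have d3 : w ^ 2 * ZZ ≤ C ^ 2 * (|ω| * ZZ) :=
    mul_le_mul (pow_le_pow_left₀ hw hwC 2) (by nlinarith) z0 (sq_nonneg _)
  have d4 : ρ * (Gr + |ω| * Z) ≤ (1 + C ^ 2) * (GG + |ω| * ZZ) := by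
    have : ρ * (|ω| * Z) = |ω| * ZZ / 2 := by rw [mul_left_comm, d1]; ring
    have : 0 ≤ |ω| * ZZ := by positivity
    have : 0 ≤ C ^ 2 * GG := by positivity
    nlinarith
  nlinarith [mul_le_mul_of_nonneg_left d4 hR]

end MBfin2

open MBfin2 in
theorem s_B2 (h0 : S_hyd) (h1 : S_toH) (h2 : S_bg1) (h3 : S_bg2) (h4 : S_bg3) (h5 : S_O2)
    (h6 : S_B2a) (h7 : S_zr) : S_B2 := by
  intro D L σ₀ A
  obtain ⟨C1, hC1, e1⟩ := h2 D L
  obtain ⟨⟨C2, e2⟩, e3⟩ := h3 D L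
  obtain ⟨⟨d0, hd0, e4⟩, e5⟩ := h4 D L
  obtain ⟨CO, e6⟩ := h5 D L σ₀ A
  obtain ⟨C3, e7⟩ := e5 (L.R + 3)
  have hR : 2 ≤ L.R := by
    have := L.hx.1; have := D.hx.1; have := L.R_pos; nlinarith
  have p1 : 0 ≤ C1 * (1 + (L.R + 3) ^ 2) := by positivity
  have p2 := abs_nonneg C2
  have p3 := abs_nonneg C3
  obtain ⟨δ, K, R₃, hδ, -, hR₃, h6⟩ := h6 L.R (2 * C1 + C1 * (1 + (L.R + 3) ^ 2) + |C2| + |C3|)
    ((1 + C1 ^ 2) * (|CO| * (6 + 4 * C1 ^ 2 + 2 * C1))) σ₀ d0 hR (by linarith) hd0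
  obtain ⟨C4, e8⟩ := e5 R₃
  obtain ⟨ω₁, hω₁, h6⟩ := h6 C4
  obtain ⟨ω₂, e6⟩ := e6 R₃
  refine ⟨max ω₁ ω₂, ?_⟩
  filter_upwards [e1, e2, e3 (δ / 2) (by positivity) K, e4, e6, e7, e8] with j e1 e2 e3 e4 e6 e7 e8
    l lam hre hσ hω hν f g hS
  have hm := L.m_pos j
  obtain ⟨h, -, hσ', hω', hb, hc⟩ := h1 _ _ hm l lam f g hS
  obtain ⟨⟨-, hq, slr, -⟩, -⟩ := h0 _ (L.P j) hm
  have hγ : gam (L.m j) ≤ 1 / 2 := by
    have : (1 : ℝ) ≤ L.m j := by exact_mod_cast hm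
    unfold gam; gcongr; linarith
  have hγ0 : 0 ≤ gam (L.m j) := by unfold gam; positivity
  have ρ0 : ∀ r, 0 < (L.P j).rho r := fun r => pow_pos (norm_pos_iff.2 (hq r)) 2
  have hH : ∀ r, 0 < r → r * h.H r - 11 = r * (L.P j).lr r := fun r hr => by
    rw [(hb r).2.1]; field_simp; ring
  have hw : ∀ r, 0 < r → ‖deriv (L.P j).q r / (L.P j).q r‖ ≤ C1 ∧ |r * (L.P j).lr r| ≤ 2 * C1 := by
    intro r hr
    have a := (e1 r hr).2.2.2
    have b := norm_nonneg (deriv (L.P j).q r / (L.P j).q r)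
    have c := Complex.abs_re_le_norm (deriv (L.P j).q r / (L.P j).q r)
    refine ⟨by nlinarith, ?_⟩
    rw [Prof.lr, abs_mul, abs_mul, abs_of_pos hr, abs_two]
    nlinarith
  have ρ1 : ∀ r, 0 < r → (L.P j).rho r ≤ C1 := fun r hr =>
    (e1 r hr).2.1.trans (mul_le_of_le_one_right (by linarith) (rpow_lo hγ hγ0 hr le_rfl).2)
  have ω1 : 1 ≤ |lam.im| := hω₁.trans ((le_max_left _ _).trans hω)
  refine (h6 h (deriv fun r => r * (L.P j).lr r) (hσ' ▸ hre) (hσ' ▸ hσ)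
    (hω' ▸ (le_max_left _ _).trans hω) ?_ ?_ ?_ ?_ ?_ ?_).elim fun r ⟨hr, z1, z2⟩ => ?_
  rotate_right
  · obtain ⟨a1, -, a3, -⟩ := hc r hr
    have b1 : ZZ f g r = 0 := by rw [z1] at a1; linarith
    refine h7 _ _ l lam f g hS r hr b1 (le_antisymm ?_ (by unfold GG; positivity))
    rw [z2, b1] at a3; simpa using a3
  · intro r hr
    refine ⟨?_, ?_, ?_, ?_, e8 r hr⟩
    · rw [(hb r).2.2.1]
      exact (e1 r hr.1).2.2.1.trans (mul_le_mul_of_nonneg_right (by linarith) hr.1.le)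
    · rw [hH r hr.1]; linarith [(hw r hr.1).2]
    · rw [(hb r).2.2.2.2]
      have a := e2 r hr.1
      have b := le_abs_self C2
      have c : 0 ≤ r ^ 3 := pow_nonneg hr.1.le 3
      rcases le_total ((L.m j : ℝ) * (L.P j).WW r * (L.P j).lr r) 0 with d | d
      · linarith
      · nlinarith [mul_nonneg c d]
    · have a : HasDerivAt (fun r => r * (L.P j).lr r) (deriv (fun r => r * (L.P j).lr r) r) r :=
        ((contDiff_id.mul slr).differentiable (by simp) r).hasDerivAt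
      refine (a.const_add 11).congr_of_eventuallyEq ?_
      filter_upwards [Ioi_mem_nhds hr.1] with x hx
      linarith [hH x hx]
  · intro r hr
    have a : 0 < r ^ 11 := pow_pos hr.1 11
    have b := ρ0 r
    have c : 1 ≤ (1 + (L.R + 3) ^ 2) * (C1 * (L.P j).rho r) :=
      (rpow_lo hγ hγ0 hr.1 hr.2).1.trans (mul_le_mul_of_nonneg_left (e1 r hr.1).1 (by positivity))
    rw [(hb r).1]
    refine ⟨?_, ?_, by linarith [e7 r hr, le_abs_self C3]⟩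
    · have d : 0 ≤ (2 * C1 + |C2| + |C3|) * ((L.P j).rho r * r ^ 11) := by positivity
      nlinarith [mul_le_mul_of_nonneg_right c a.le]
    · exact mul_le_mul_of_nonneg_right (by linarith [ρ1 r hr.1]) a.le
  · intro r hr
    rw [hH r hr.1]; exact e4 r hr
  · intro r hr
    rw [(hb r).2.2.2.1]; exact e3.1 r hr
  · intro r hr
    rw [(hb r).2.2.2.1]; exact e3.2 r hr
  · intro r₂ hr₂ Y y1 y2
    have r0 : 0 < r₂ := by linarith [hr₂.1]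
    have r1 : r₂ ≤ R₃ := by linarith [hr₂.2]
    obtain ⟨a1, -, a3, a4⟩ := hc r₂ r0
    rw [Hyd.k] at y2
    rw [(hb r₂).1, hω'] at y1 y2
    obtain ⟨Y0, b1, b2⟩ := out (one_le_pow₀ (by linarith [hr₂.1])) (ρ0 r₂).le (h.Z0 _) (h.Gr0 _)
      (norm_nonneg _) (hw r₂ r0).1 ω1 a1 a3 a4 y1 y2
    have c := e6 l lam hre hσ ((le_max_right _ _).trans hω) hν f g hS r₂ hr₂ r1 _ b1 b2
    have hsub : uIcc r₂ R₃ ⊆ Ioi 0 := by
      rw [uIcc_of_le r1]; exact fun x hx => lt_of_lt_of_le r0 hx.1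
    obtain ⟨cf, cf'⟩ := cont hS.af
    obtain ⟨cg, cg'⟩ := cont hS.ag
    have ci : ContinuousOn (fun r => r ^ 11 * (GG f g r + |lam.im| * ZZ f g r)) (Ioi 0) :=
      (continuousOn_id.pow 11).mul (((cf'.norm.pow 2).add (cg'.norm.pow 2)).add
        (continuousOn_const.mul ((cf.norm.pow 2).add (cg.norm.pow 2))))
    calc ∫ r in r₂..R₃, h.k r
        ≤ ∫ r in r₂..R₃, (1 + C1 ^ 2) * (r ^ 11 * (GG f g r + |lam.im| * ZZ f g r)) := by
          refine intervalIntegral.integral_mono_on r1 (h.ii_k r0.le (r0.le.trans r1))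
            ((ci.mono hsub).intervalIntegrable.const_mul _) fun x hx => ?_
          have x0 : 0 < x := lt_of_lt_of_le r0 hx.1
          obtain ⟨d1, d2, -, -⟩ := hc x x0
          have g0 : 0 ≤ GG f g x := by unfold GG; positivity
          have z0 : 0 ≤ ZZ f g x := by unfold ZZ; positivity
          rw [Hyd.k, (hb x).1, hω']
          exact pt (pow_pos x0 11).le g0 z0 (norm_nonneg _) (hw x x0).1 ω1 d1 d2
      _ ≤ (1 + C1 ^ 2) * (|CO| * ((6 + 4 * C1 ^ 2 + 2 * C1) * Y)) := by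
          rw [intervalIntegral.integral_const_mul]
          exact mul_le_mul_of_nonneg_left (c.trans (mul_le_mul_of_nonneg_right (le_abs_self _)
            (by positivity))) (by positivity)
      _ = _ := by ring

end P139
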