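import Vale.Agent.P139.MBBase

/-! P139 part MB: Hardy inequality on a ball and the thin layer estimate. -/

open Set Filter Topology MeasureTheory

noncomputable section
namespace P139
namespace MBhardy

theorem young1 (h : Hyd) (r : ℝ) :
    -(6 * h.Z r) - r ^ 2 * h.Gr r / 6 ≤ r * (2 * (h.Pa r + h.Pt r)) := by
  unfold Hyd.Z Hyd.A Hyd.T Hyd.Gr Hyd.Ga Hyd.Gt Hyd.Pa Hyd.Pt
  nlinarith [sq_nonneg (6 * h.a₁ r + r * h.p₁ r), sq_nonneg (6 * h.a₂ r + r * h.p₂ r),
    sq_nonneg (6 * h.t₁ r + r * h.s₁ r), sq_nonneg (6 * h.t₂ r + r * h.s₂ r)]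

theorem young2 (h : Hyd) (r w : ℝ) :
    -(h.A r / 4) - 4 * w ^ 2 * h.Ga r ≤ w * (2 * h.Pa r) := by
  unfold Hyd.A Hyd.Ga Hyd.Pa
  nlinarith [sq_nonneg (h.a₁ r + 4 * w * h.p₁ r), sq_nonneg (h.a₂ r + 4 * w * h.p₂ r)]

theorem mA_le (h : Hyd) {K r : ℝ} (hK : 0 < K) (hr : 0 < r) (hW : K ≤ h.W r) :
    h.mA r ≤ 1 / K * h.e r := by
  have h1 := h.mWA_le hr
  have h2 : K * h.mA r ≤ h.W r * h.mA r := mul_le_mul_of_nonneg_right hW (h.mA0 hr)
  rw [one_div, ← div_eq_inv_mul, le_div_iff₀ hK]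
  unfold Hyd.mA at *
  nlinarith

theorem thin_pt (h : Hyd) {δ r w w' x : ℝ} (hr : 0 < r) (hw : w ^ 2 ≤ 16 * δ ^ 2)
    (hH : -(1 / 4) ≤ w * h.H r) (hx : h.mA r - x ≤ w' * h.mA r) :
    h.mA r / 2 - (x + 64 * δ ^ 2 * h.e r) ≤
      w' * h.mA r + w * (h.H r * h.μ r * h.A r + h.μ r * (2 * h.Pa r)) := by
  have hμ := h.μ_pos r hr
  have h1 := mul_le_mul_of_nonneg_left (young2 h r w) hμ.le
  have h2 := mul_le_mul_of_nonneg_right hH (h.mA0 hr)
  have h3 : h.μ r * h.Ga r ≤ h.e r :=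
    (mul_le_mul_of_nonneg_left (le_add_of_nonneg_right (h.Gt0 r)) hμ.le).trans (h.mGr_le hr)
  have h4 : w ^ 2 * (h.μ r * h.Ga r) ≤ 16 * δ ^ 2 * h.e r :=
    mul_le_mul hw h3 (mul_nonneg hμ.le (h.Ga0 r)) (by positivity)
  unfold Hyd.mA at *
  nlinarith

end MBhardy

open MBhardy in
theorem s_Hardy : S_Hardy := by
  intro h C y hy hb
  have hC : 0 < C := by
    have h1 := (hb y ⟨hy, le_rfl⟩).1
    exact (mul_pos_iff_of_pos_right (h.μ_pos y hy)).1 (lt_of_lt_of_le (pow_pos hy 11) h1)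
  have key := ftc0_le (F := fun r => C * (r ^ 12 * h.Z r))
    (f := fun r => C * (12 * r ^ 11 * h.Z r + r ^ 12 * (2 * (h.Pa r + h.Pt r))))
    (φ := fun r => 6 * h.mZ r - C ^ 2 * y ^ 2 / 6 * h.e r) hy
    (fun r hr => by
      have := ((hasDerivAt_pow 12 r).fun_mul (h.dZ hr.1)).const_mul C
      simpa using this)
    ((((Bn.id.pow 11).mul h.bn_Z).const_mul C).tend fun r _ => by ring)
    (((h.ii_mZ le_rfl hy.le).const_mul _).sub ((h.ii_e le_rfl hy.le).const_mul _))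
    (fun r hr => by
      have hr0 := hr.1
      obtain ⟨h1, h2⟩ := hb r ⟨hr.1, hr.2.le⟩
      have h3 := mul_le_mul_of_nonneg_left (young1 h r) (mul_pos hC (pow_pos hr0 11)).le
      have h4 : h.mZ r ≤ C * r ^ 11 * h.Z r := mul_le_mul_of_nonneg_right h2 (h.Z0 r)
      have h5 : r ^ 11 * h.Gr r ≤ C * h.e r := by
        have := mul_le_mul_of_nonneg_right h1 (h.Gr0 r)
        have := mul_le_mul_of_nonneg_left (h.mGr_le hr0) hC.le
        nlinarith
      have h6 : r ^ 2 * (r ^ 11 * h.Gr r) ≤ y ^ 2 * (C * h.e r) :=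
        mul_le_mul (pow_le_pow_left₀ hr0.le hr.2.le 2) h5
          (mul_nonneg (pow_pos hr0 11).le (h.Gr0 r)) (sq_nonneg y)
      have h7 := mul_le_mul_of_nonneg_left h6 hC.le
      nlinarith)
  rw [intervalIntegral.integral_sub ((h.ii_mZ le_rfl hy.le).const_mul _)
    ((h.ii_e le_rfl hy.le).const_mul _), intervalIntegral.integral_const_mul,
    intervalIntegral.integral_const_mul] at key
  have e0 := Hyd.int_nonneg (fun r hr => h.e0 hr) le_rfl hy.le
  have m0 := h.mZ0 hy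
  have h8 : C * (y ^ 12 * h.Z y) ≤ C ^ 2 * (y * h.mZ y) := by
    have := mul_le_mul_of_nonneg_right (hb y ⟨hy, le_rfl⟩).1 (h.Z0 y)
    have := mul_le_mul_of_nonneg_left this (mul_pos hC hy).le
    unfold Hyd.mZ
    nlinarith
  have h9 : 0 ≤ C ^ 2 * (y * h.mZ y) := by positivity
  have h10 : 0 ≤ C ^ 2 * y ^ 2 * ∫ r in (0 : ℝ)..y, h.e r := by positivity
  nlinarith

open MBhardy in
theorem s_Thin : S_Thin := by
  intro h C K R δ hδ hK ha hC hH hW
  have hab : R - 3 * δ ≤ R + δ := by linarith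
  have hb : 0 ≤ R + δ := by linarith
  have key := ftc_le (F := fun r => (r - (R - 3 * δ)) * (r - (R + δ)) / δ * h.mA r)
    (f := fun r => (2 * r - 2 * R + 2 * δ) / δ * h.mA r + (r - (R - 3 * δ)) * (r - (R + δ)) / δ *
      (h.H r * h.μ r * h.A r + h.μ r * (2 * h.Pa r)))
    (φ := fun r => 1 / 2 * h.mA r - (5 / K + 64 * δ ^ 2) * h.e r) hab
    (fun r hr => by
      have hr0 : 0 < r := ha.trans_le hr.1
      have h1 := ((((hasDerivAt_id' r).sub_const (R - 3 * δ)).fun_mul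
        ((hasDerivAt_id' r).sub_const (R + δ))).div_const δ).fun_mul
        ((h.dμ r hr0).fun_mul (h.dA hr0))
      refine HasDerivAt.congr_deriv h1 ?_
      unfold Hyd.mA
      ring)
    (((h.ii_mA ha.le hb).const_mul _).sub ((h.ii_e ha.le hb).const_mul _))
    (fun r hr => by
      have hr0 : 0 < r := ha.trans hr.1
      obtain ⟨w, hw⟩ : ∃ w, w = (r - (R - 3 * δ)) * (r - (R + δ)) / δ := ⟨_, rfl⟩
      have hw1 : |w| ≤ 4 * δ := by
        rw [abs_le, hw, le_div_iff₀ hδ, div_le_iff₀ hδ]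
        constructor
        · nlinarith [sq_nonneg (r - R + δ)]
        · nlinarith [mul_pos (sub_pos.2 hr.1) (sub_pos.2 hr.2)]
      have hw2 : w ^ 2 ≤ 16 * δ ^ 2 := by
        have := pow_le_pow_left₀ (abs_nonneg w) hw1 2
        rw [sq_abs] at this
        linarith
      have hw3 : -(1 / 4) ≤ w * h.H r := by
        have h1 : |w * h.H r| ≤ 4 * δ * C := by
          rw [abs_mul]
          exact mul_le_mul hw1 (hH r ⟨hr.1.le, hr.2.le⟩) (abs_nonneg _) (by positivity)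
        have := neg_abs_le (w * h.H r)
        linarith
      have hx : h.mA r - 5 / K * h.e r ≤ (2 * r - 2 * R + 2 * δ) / δ * h.mA r := by
        have m0 := h.mA0 hr0
        have e0 : 0 ≤ 5 / K * h.e r := mul_nonneg (by positivity) (h.e0 hr0)
        rcases le_total r (R - δ / 2) with h1 | h1
        · have h2 := mA_le h hK hr0 (hW r ⟨hr0, h1⟩)
          have h3 : -4 ≤ (2 * r - 2 * R + 2 * δ) / δ := by
            rw [le_div_iff₀ hδ]; linarith [hr.1]
          have h4 := mul_le_mul_of_nonneg_right h3 m0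
          have h5 : 5 / K * h.e r = 5 * (1 / K * h.e r) := by ring
          linarith
        · have h3 : 1 ≤ (2 * r - 2 * R + 2 * δ) / δ := by
            rw [le_div_iff₀ hδ]; linarith
          have h4 := mul_le_mul_of_nonneg_right h3 m0
          linarith
      have := thin_pt h hr0 hw2 hw3 hx
      rw [← hw]
      linarith)
  rw [intervalIntegral.integral_sub ((h.ii_mA ha.le hb).const_mul _)
    ((h.ii_e ha.le hb).const_mul _), intervalIntegral.integral_const_mul,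
    intervalIntegral.integral_const_mul] at key
  simp only [sub_self, zero_mul, mul_zero, zero_div] at key
  have k2 : ∫ r in (0 : ℝ)..(R - 3 * δ), h.mA r ≤ 1 / K * ∫ r in (0 : ℝ)..(R - 3 * δ), h.e r := by
    rw [← intervalIntegral.integral_const_mul]
    refine intervalIntegral.integral_mono_on_of_le_Ioo ha.le (h.ii_mA le_rfl ha.le)
      ((h.ii_e le_rfl ha.le).const_mul _) fun r hr => ?_
    exact mA_le h hK hr.1 (hW r ⟨hr.1, by linarith [hr.2]⟩)
  rw [← intervalIntegral.integral_add_adjacent_intervals (h.ii_mA le_rfl ha.le) (h.ii_mA ha.le hb),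
    ← intervalIntegral.integral_add_adjacent_intervals (h.ii_e le_rfl ha.le) (h.ii_e ha.le hb)]
  have e1 := Hyd.int_nonneg (fun r hr => h.e0 hr) le_rfl ha.le
  have e2 := Hyd.int_nonneg (fun r hr => h.e0 hr) ha.le hab
  generalize (∫ r in (0 : ℝ)..(R - 3 * δ), h.e r) = E₁ at *
  generalize (∫ r in (R - 3 * δ)..(R + δ), h.e r) = E₂ at *
  have k0 : 0 < 1 / K := by positivity
  have p1 := mul_nonneg k0.le e1
  have p2 := mul_nonneg k0.le e2
  have p3 := mul_nonneg (sq_nonneg δ) e1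
  have q1 : (11 / K + 128 * δ ^ 2) * (E₁ + E₂) = 11 * (1 / K * E₁) + 11 * (1 / K * E₂) +
      128 * (δ ^ 2 * E₁) + 128 * (δ ^ 2 * E₂) := by ring
  have q2 : (5 / K + 64 * δ ^ 2) * E₂ = 5 * (1 / K * E₂) + 64 * (δ ^ 2 * E₂) := by ring
  linarith

end P139
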