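import Vale.Agent.P139.MBBase

/-! P139 part MB: the high frequency estimate. -/

open Set Filter Topology MeasureTheory

noncomputable section
namespace P139
namespace MBhf

theorem young {u F Z G : ℝ} (hZ : 0 ≤ Z) (hG : 0 ≤ G) (hF : F ^ 2 ≤ Z * G) :
    |2 * u * F| ≤ u ^ 2 * Z + G := by
  refine abs_le_of_sq_le_sq' ?_ (by positivity) |> fun h => abs_le.2 h
  have h1 : (2 * u * F) ^ 2 = 4 * u ^ 2 * F ^ 2 := by ring
  have h2 : 4 * u ^ 2 * F ^ 2 ≤ 4 * u ^ 2 * (Z * G) := by gcongr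
  nlinarith [sq_nonneg (u ^ 2 * Z - G)]

theorem young2 {u v F Z G : ℝ} (hZ : 0 ≤ Z) (hG : 0 ≤ G) (hF : F ^ 2 ≤ Z * G) :
    |2 * u * v * F| ≤ u ^ 2 * Z + v ^ 2 * G := by
  refine abs_le_of_sq_le_sq' ?_ (by positivity) |> fun h => abs_le.2 h
  have h1 : (2 * u * v * F) ^ 2 = 4 * (u * v) ^ 2 * F ^ 2 := by ring
  have h2 : 4 * (u * v) ^ 2 * F ^ 2 ≤ 4 * (u * v) ^ 2 * (Z * G) := by gcongr
  nlinarith [sq_nonneg (u ^ 2 * Z - v ^ 2 * G)]

theorem cs4 (a b c d p q r s : ℝ) : (a * p + b * q + c * r + d * s) ^ 2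
    ≤ (a ^ 2 + b ^ 2 + c ^ 2 + d ^ 2) * (p ^ 2 + q ^ 2 + r ^ 2 + s ^ 2) := by
  nlinarith [sq_nonneg (a * q - b * p), sq_nonneg (a * r - c * p), sq_nonneg (a * s - d * p),
    sq_nonneg (b * r - c * q), sq_nonneg (b * s - d * q), sq_nonneg (c * s - d * r)]

theorem fl_sq (h : Hyd) (r : ℝ) : h.Fl r ^ 2 ≤ h.Z r * h.Gr r := by
  have := cs4 (h.a₁ r) (h.a₂ r) (h.t₁ r) (h.t₂ r) (h.p₂ r) (-h.p₁ r) (h.s₂ r) (-h.s₁ r)
  simp only [Hyd.Fl, Hyd.Z, Hyd.A, Hyd.T, Hyd.Gr, Hyd.Ga, Hyd.Gt]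
  nlinarith

theorem ib_sq (h : Hyd) (r : ℝ) : h.Ib r ^ 2 ≤ h.Z r * h.Gr r := by
  have := cs4 (h.a₁ r) (h.a₂ r) (h.t₁ r) (h.t₂ r) (-h.s₂ r) (h.s₁ r) (h.p₂ r) (-h.p₁ r)
  simp only [Hyd.Ib, Hyd.Z, Hyd.A, Hyd.T, Hyd.Gr, Hyd.Ga, Hyd.Gt]
  nlinarith

theorem ia_le (h : Hyd) (r : ℝ) : |h.Ia r| ≤ h.Z r / 2 := by
  simp only [Hyd.Ia, Hyd.Z, Hyd.A, Hyd.T]
  rw [abs_le]
  constructor
  · nlinarith [sq_nonneg (h.a₂ r + h.t₁ r), sq_nonneg (h.a₁ r - h.t₂ r)]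
  · nlinarith [sq_nonneg (h.a₂ r - h.t₁ r), sq_nonneg (h.a₁ r + h.t₂ r)]

theorem ic_le (h : Hyd) (r : ℝ) : |2 * h.Ic r| ≤ h.Gr r := by
  simp only [Hyd.Ic, Hyd.Gr, Hyd.Ga, Hyd.Gt]
  rw [abs_le]
  constructor
  · nlinarith [sq_nonneg (h.p₂ r + h.s₁ r), sq_nonneg (h.p₁ r - h.s₂ r)]
  · nlinarith [sq_nonneg (h.p₂ r - h.s₁ r), sq_nonneg (h.p₁ r + h.s₂ r)]

theorem sg_le {sg x b : ℝ} (hs : |sg| = 1) (hx : |x| ≤ b) : -b ≤ sg * x := by
  have : |sg * x| ≤ b := by rw [abs_mul, hs, one_mul]; exact hx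
  exact (abs_le.1 this).1

theorem pt {sg om c c' U W n Z G A Fl Ia Ic Ib C : ℝ} (hs : |sg| = 1) (hso : sg * om = |om|)
    (hZ : 0 ≤ Z) (hG : 0 ≤ G) (hA : 0 ≤ A) (hU0 : 0 ≤ U) (hU : U ≤ C) (hW0 : 0 ≤ W) (hW : W ≤ 1)
    (hn : 0 ≤ n) (hF : Fl ^ 2 ≤ Z * G) (hIb : Ib ^ 2 ≤ Z * G) (hIa : |Ia| ≤ Z / 2)
    (hIc : |2 * Ic| ≤ G) (hc : c ^ 2 ≤ 16) (hc' : c' ^ 2 ≤ 16) (hom : 4 + C ^ 2 ≤ |om|) :
    |om| / 2 * (c ^ 2 * Z) - 48 * (G + n * Z + W * A) ≤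
      sg * (2 * c * c' * Ib + c ^ 2 * (om * Z + U * Fl + (W + 2 * n) * Ia + 2 * Ic)) := by
  have h1 := sg_le hs (young2 (u := c) (v := c') hZ hG hIb)
  have h2 := sg_le hs (young (u := U / 2) hZ hG hF)
  have h3 := sg_le hs hIa
  have h4 := sg_le hs hIc
  have hU2 : U ^ 2 ≤ C ^ 2 := pow_le_pow_left₀ hU0 hU 2
  have h5 : |om| * Z - (C ^ 2 / 4 * Z + G) - (Z / 2 + n * Z) - G ≤
      sg * (om * Z + U * Fl + (W + 2 * n) * Ia + 2 * Ic) := by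
    have e : sg * (om * Z + U * Fl + (W + 2 * n) * Ia + 2 * Ic)
        = (sg * om) * Z + sg * (2 * (U / 2) * Fl) + (W + 2 * n) * (sg * Ia) + sg * (2 * Ic) := by
      ring
    rw [e, hso]
    have h6 : (W + 2 * n) * (-(Z / 2)) ≤ (W + 2 * n) * (sg * Ia) :=
      mul_le_mul_of_nonneg_left h3 (by positivity)
    have h7 : (U / 2) ^ 2 * Z ≤ C ^ 2 / 4 * Z := by
      apply mul_le_mul_of_nonneg_right _ hZ
      linarith
    have h8 : W * Z ≤ Z := by nlinarith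
    nlinarith
  have h9 := mul_le_mul_of_nonneg_left h5 (sq_nonneg c)
  have e : sg * (2 * c * c' * Ib + c ^ 2 * (om * Z + U * Fl + (W + 2 * n) * Ia + 2 * Ic))
      = sg * (2 * c * c' * Ib) + c ^ 2 * (sg * (om * Z + U * Fl + (W + 2 * n) * Ia + 2 * Ic)) := by
    ring
  rw [e]
  have h10 : c ^ 2 * G ≤ 16 * G := mul_le_mul_of_nonneg_right hc hG
  have h11 : c' ^ 2 * G ≤ 16 * G := mul_le_mul_of_nonneg_right hc' hG
  have hnZ : 0 ≤ n * Z := mul_nonneg hn hZ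
  have h12 : c ^ 2 * (n * Z) ≤ 16 * (n * Z) := mul_le_mul_of_nonneg_right hc hnZ
  have h13 : 0 ≤ W * A := mul_nonneg hW0 hA
  have h14 : 0 ≤ (|om| / 2 - C ^ 2 / 4 - 3 / 2) * (c ^ 2 * Z) :=
    mul_nonneg (by nlinarith [sq_nonneg C]) (by positivity)
  nlinarith

end MBhf

open MBhf in
theorem s_HF : S_HF := by
  intro h x d y C hx hd hd1 hxy hy hb hom
  have hom0 : h.ω ≠ 0 := by
    intro h0
    rw [h0, abs_zero] at hom
    nlinarith [sq_nonneg C]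
  obtain ⟨sg, hs, hso⟩ : ∃ sg : ℝ, |sg| = 1 ∧ sg * h.ω = |h.ω| := by
    rcases lt_or_gt_of_ne hom0 with h1 | h1
    · exact ⟨-1, by simp, by rw [abs_of_neg h1]; ring⟩
    · exact ⟨1, by simp, by rw [abs_of_pos h1]; ring⟩
  have hxy1 : x ≤ y + 1 := by linarith
  have hci : IntervalIntegrable (fun r => ((r - x) * (y + 1 - r)) ^ 2 * h.mZ r) volume x (y + 1) :=
    (h.ii_mZ hx.le (by linarith)).continuousOn_mul (by fun_prop)
  have hei : IntervalIntegrable h.e volume x (y + 1) := h.ii_e hx.le (by linarith)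
  have key := ftc_le (F := fun r => sg * (((r - x) * (y + 1 - r)) ^ 2 * h.Nf r))
    (f := fun r => sg * (2 * ((r - x) * (y + 1 - r)) * (y + 1 - r - (r - x)) * h.Nf r
      + ((r - x) * (y + 1 - r)) ^ 2 * h.Nf' r))
    (φ := fun r => |h.ω| / 2 * (((r - x) * (y + 1 - r)) ^ 2 * h.mZ r) - 48 * h.e r) hxy1
    (fun r hr => by
      have hr0 : 0 < r := lt_of_lt_of_le hx hr.1
      have h1 : HasDerivAt (fun r : ℝ => (r - x) * (y + 1 - r)) (y + 1 - r - (r - x)) r := by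
        refine HasDerivAt.congr_deriv (((hasDerivAt_id' r).sub_const x).fun_mul
          ((hasDerivAt_id' r).const_sub (y + 1))) ?_
        ring
      refine HasDerivAt.congr_deriv (((h1.fun_pow 2).fun_mul (h.dNf hr0)).const_mul sg) ?_
      norm_num)
    ((hci.const_mul _).sub (hei.const_mul _))
    (fun r hr => by
      have hr0 : 0 < r := hx.trans hr.1
      have hb' := hb r (Ioo_subset_Icc_self hr)
      have h1 := hr.1
      have h2 := hr.2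
      have hc0 : 0 ≤ (r - x) * (y + 1 - r) := by nlinarith
      have hc4 : (r - x) * (y + 1 - r) ≤ 4 := by nlinarith [sq_nonneg (y + 1 - r - (r - x))]
      have hp := pt (c := (r - x) * (y + 1 - r)) (c' := y + 1 - r - (r - x)) hs hso (h.Z0 r)
        (h.Gr0 r) (h.A0 r) (h.U0 r hr0) hb'.1 (h.W0 r hr0) hb'.2
        (div_nonneg h.ν0 (sq_nonneg r)) (fl_sq h r) (ib_sq h r) (ia_le h r) (ic_le h r)
        (by nlinarith) (by nlinarith) hom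
      have hm := mul_le_mul_of_nonneg_left hp (h.μ_pos r hr0).le
      simp only [Hyd.mZ, Hyd.e, Hyd.Nf, Hyd.Nf']
      linarith)
  rw [intervalIntegral.integral_sub (hci.const_mul _) (hei.const_mul _),
    intervalIntegral.integral_const_mul, intervalIntegral.integral_const_mul] at key
  simp only [sub_self, mul_zero, zero_mul, ne_eq, OfNat.ofNat_ne_zero, not_false_eq_true,
    zero_pow] at key
  have hxd : 0 < x + d := by linarith
  have h1 : d ^ 2 * ∫ r in (x + d)..y, h.mZ r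
      ≤ ∫ r in (x + d)..y, ((r - x) * (y + 1 - r)) ^ 2 * h.mZ r := by
    rw [← intervalIntegral.integral_const_mul]
    refine intervalIntegral.integral_mono_on hxy
      ((h.ii_mZ hxd.le (by linarith)).const_mul _)
      ((h.ii_mZ hxd.le (by linarith)).continuousOn_mul (by fun_prop)) fun r hr => ?_
    have h2 := hr.1
    have h3 := hr.2
    refine mul_le_mul_of_nonneg_right (pow_le_pow_left₀ hd.le (by nlinarith) 2)
      (h.mZ0 (by linarith))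
  have h2 : ∫ r in (x + d)..y, ((r - x) * (y + 1 - r)) ^ 2 * h.mZ r
      ≤ ∫ r in x..(y + 1), ((r - x) * (y + 1 - r)) ^ 2 * h.mZ r :=
    Hyd.int_mono (fun a b ha hb => (h.ii_mZ ha hb).continuousOn_mul (by fun_prop))
      (fun r hr => mul_nonneg (sq_nonneg _) (h.mZ0 hr)) hx.le (by linarith) hxy (by linarith)
  have h3 : 0 ≤ ∫ r in x..(y + 1), h.e r := Hyd.int_nonneg (fun r hr => h.e0 hr) hx.le hxy1
  have h4 := mul_le_mul_of_nonneg_left (h1.trans h2) (abs_nonneg h.ω)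
  rw [div_mul_eq_mul_div, le_div_iff₀ (by positivity)]
  nlinarith

end P139
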