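import Vale.Agent.P139.MBBase

/-! P139 part MB: the Morawetz estimate. -/

open Set Filter Topology MeasureTheory

noncomputable section
namespace P139
namespace MBmor

theorem young {b K τ u₁ u₂ v₁ v₂ : ℝ} (hb : |b| ≤ K) (hτ : 0 < τ) :
    -(τ / 2 * (v₁ ^ 2 + v₂ ^ 2) + K ^ 2 / τ * (u₁ ^ 2 + u₂ ^ 2)) ≤ b * (u₁ * v₁ + u₂ * v₂) := by
  have hb2 : b ^ 2 ≤ K ^ 2 := by
    rw [← sq_abs b]; exact pow_le_pow_left₀ (abs_nonneg b) hb 2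
  obtain ⟨q, hq⟩ : ∃ q, q = b / τ := ⟨_, rfl⟩
  have hbq : b = q * τ := by rw [hq]; field_simp
  have h1 : b ^ 2 / τ * (u₁ ^ 2 + u₂ ^ 2) ≤ K ^ 2 / τ * (u₁ ^ 2 + u₂ ^ 2) := by gcongr
  have h2 : b ^ 2 / τ = q ^ 2 * τ := by rw [hbq]; field_simp
  rw [h2] at h1
  have h3 : 0 ≤ τ * ((v₁ + q * u₁) ^ 2 + (v₂ + q * u₂) ^ 2) := by positivity
  have h4 : 0 ≤ τ * (q ^ 2 * (u₁ ^ 2 + u₂ ^ 2)) := by positivity
  rw [hbq]
  nlinarith [h1, h3, h4]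

theorem pw (h : Hyd) {r α₁ α₂ α₃ w b₁ b₂ b₃ b₄ K K₁ τ : ℝ} (hr : 0 < r) (h1 : 1 / 4 ≤ α₁)
    (h2 : 1 / 4 ≤ α₂) (h3 : 1 / 4 ≤ α₃) (hw : w ≤ K) (hK : 0 ≤ K) (hb₁ : |b₁| ≤ K₁)
    (hb₂ : |b₂| ≤ K) (hb₃ : |b₃| ≤ K) (hb₄ : |b₄| ≤ K) (hτ : 0 < τ) (hτ1 : τ ≤ 1) :
    (1 / 4 - τ) * h.e r - (τ / 2 + K₁ ^ 2 / τ) * (h.μ r * h.T r) - (K + 3 * K ^ 2) / τ * h.mA r ≤
      h.μ r * (α₁ * (h.Gt r + h.ν / r ^ 2 * h.T r) + α₂ * (h.Ga r + h.ν / r ^ 2 * h.A r)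
        + (α₃ * h.W r - w) * h.A r + b₁ * h.Pt r + b₂ * h.Pa r + b₃ * h.Ra r + b₄ * h.Rb r) := by
  have y1 : -(τ / 2 * h.Gt r + K₁ ^ 2 / τ * h.T r) ≤ b₁ * h.Pt r := young hb₁ hτ
  have y2 : -(τ / 2 * h.Ga r + K ^ 2 / τ * h.A r) ≤ b₂ * h.Pa r := young hb₂ hτ
  have y3 : -(τ / 2 * h.T r + K ^ 2 / τ * h.A r) ≤ b₃ * h.Ra r := young hb₃ hτ
  have y4 : -(τ / 2 * h.Gt r + K ^ 2 / τ * h.A r) ≤ b₄ * h.Rb r := young hb₄ hτ
  have hn : 0 ≤ h.ν / r ^ 2 := div_nonneg h.ν0 (sq_nonneg r)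
  have hA := h.A0 r
  have hT := h.T0 r
  have hGa := h.Ga0 r
  have hGt := h.Gt0 r
  have hW := h.W0 r hr
  have hnT := mul_nonneg hn hT
  have hnA := mul_nonneg hn hA
  have hWA := mul_nonneg hW hA
  have m1 : 1 / 4 * (h.Gt r + h.ν / r ^ 2 * h.T r) ≤ α₁ * (h.Gt r + h.ν / r ^ 2 * h.T r) :=
    mul_le_mul_of_nonneg_right h1 (add_nonneg hGt hnT)
  have m2 : 1 / 4 * (h.Ga r + h.ν / r ^ 2 * h.A r) ≤ α₂ * (h.Ga r + h.ν / r ^ 2 * h.A r) :=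
    mul_le_mul_of_nonneg_right h2 (add_nonneg hGa hnA)
  have m3 : 1 / 4 * (h.W r * h.A r) ≤ α₃ * (h.W r * h.A r) := mul_le_mul_of_nonneg_right h3 hWA
  have m4 : w * h.A r ≤ K / τ * h.A r :=
    mul_le_mul_of_nonneg_right (hw.trans (le_div_self hK hτ hτ1)) hA
  have m5 := mul_nonneg hτ.le hGa
  have m6 := mul_nonneg hτ.le hnT
  have m7 := mul_nonneg hτ.le hnA
  have m8 := mul_nonneg hτ.le hWA
  have key : (1 / 4 - τ) * (h.Gr r + h.ν / r ^ 2 * h.Z r + h.W r * h.A r)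
      - (τ / 2 + K₁ ^ 2 / τ) * h.T r - (K / τ + 3 * (K ^ 2 / τ)) * h.A r ≤
      α₁ * (h.Gt r + h.ν / r ^ 2 * h.T r) + α₂ * (h.Ga r + h.ν / r ^ 2 * h.A r)
        + (α₃ * h.W r - w) * h.A r + b₁ * h.Pt r + b₂ * h.Pa r + b₃ * h.Ra r + b₄ * h.Rb r := by
    unfold Hyd.Gr Hyd.Z
    generalize h.ν / r ^ 2 = n at *
    generalize K ^ 2 / τ = q at *
    generalize K₁ ^ 2 / τ = q₁ at *
    generalize K / τ = q₂ at *
    linarith
  refine le_of_eq_of_le ?_ (mul_le_mul_of_nonneg_left key (h.μ_pos r hr).le)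
  unfold Hyd.e Hyd.mA
  ring

/-- a common bound for the coefficients -/
def KK (C S ρ Q K₁ : ℝ) : ℝ :=
  ρ * C + Q + K₁ + (6 + 2 * S) * (6 + C) + C * ρ * K₁ + C * ρ * (12 + C) + 2 * S * ρ

theorem pw2 (h : Hyd) {c c' P' : ℝ → ℝ} {r C S ρ Q K₁ τ : ℝ} (hr : 0 < r) (hρ : r ≤ ρ) (hC : 1 ≤ C)
    (hσ : 0 ≤ h.σ) (hS : h.σ ≤ S) (hU : h.U r ≤ C * r) (hH : |r * h.H r - 11| ≤ C)
    (hW : h.W' r ≤ C) (hP : |P' r| ≤ Q) (hc' : |c' r| ≤ K₁) (hc : |c r| ≤ 6 + C)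
    (hd : |r * h.H r / 2 - c r| ≤ 1 / 4) (hτ : 0 < τ) (hτ1 : τ ≤ 1) :
    (1 / 4 - τ) * h.e r - (τ / 2 + K₁ ^ 2 / τ) * (h.μ r * h.T r)
      - (KK C S ρ Q K₁ + 3 * KK C S ρ Q K₁ ^ 2) / τ * h.mA r ≤ h.Mor' c c' P' r := by
  have hρ0 : 0 ≤ ρ := hr.le.trans hρ
  have hC0 : 0 ≤ C := zero_le_one.trans hC
  have hS0 : 0 ≤ S := hσ.trans hS
  have hQ0 : 0 ≤ Q := (abs_nonneg _).trans hP
  have hK0 : 0 ≤ K₁ := (abs_nonneg _).trans hc'
  have e1 : 0 ≤ ρ * C := by positivity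
  have e2 : 0 ≤ (6 + 2 * S) * (6 + C) := by positivity
  have e3 : 0 ≤ C * ρ * K₁ := by positivity
  have e4 : 0 ≤ C * ρ * (12 + C) := by positivity
  have e5 : 0 ≤ 2 * S * ρ := by positivity
  have hU0 := h.U0 r hr
  have hUρ : h.U r ≤ C * ρ := hU.trans (mul_le_mul_of_nonneg_left hρ hC0)
  obtain ⟨hd1, hd2⟩ := abs_le.1 hd
  refine pw h hr (by linarith) (by linarith) (by linarith) ?_ ?_ hc' ?_ ?_ ?_ hτ hτ1
  · have : r * h.W' r ≤ ρ * C :=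
      (mul_le_mul_of_nonneg_left hW hr.le).trans (mul_le_mul_of_nonneg_right hρ hC0)
    unfold KK; linarith
  · unfold KK; linarith
  · have := abs_sub (P' r) (c' r)
    unfold KK; linarith
  · have f1 : |(2 * h.κ - 2 * h.σ) * c r| ≤ (6 + 2 * S) * (6 + C) := by
      rw [abs_mul]
      refine mul_le_mul (abs_le.2 ⟨?_, ?_⟩) hc (abs_nonneg _) (by positivity)
      · linarith [h.κ0]
      · linarith [h.κ3]
    have f2 : |h.U r * c' r| ≤ C * ρ * K₁ := by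
      rw [abs_mul, abs_of_nonneg hU0]
      exact mul_le_mul hUρ hc' (abs_nonneg _) (by positivity)
    have f3 := abs_add_le ((2 * h.κ - 2 * h.σ) * c r) (h.U r * c' r)
    have f4 : 2 * h.κ * c r + h.U r * c' r - 2 * h.σ * c r =
        (2 * h.κ - 2 * h.σ) * c r + h.U r * c' r := by ring
    rw [f4]
    unfold KK; linarith
  · have f1 : |h.U r * (1 + r * h.H r)| ≤ C * ρ * (12 + C) := by
      rw [abs_mul, abs_of_nonneg hU0]
      obtain ⟨g1, g2⟩ := abs_le.1 hH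
      exact mul_le_mul hUρ (abs_le.2 ⟨by linarith, by linarith⟩) (abs_nonneg _) (by positivity)
    have f2 : |2 * h.σ * r| ≤ 2 * S * ρ := by
      rw [abs_of_nonneg (by positivity)]
      gcongr
    have f3 := abs_sub (h.U r * (1 + r * h.H r)) (2 * h.σ * r)
    unfold KK; linarith

theorem half {b K u₁ u₂ v₁ v₂ : ℝ} (hb : |b| ≤ K) :
    b * (u₁ * v₁ + u₂ * v₂) ≤ K * ((u₁ ^ 2 + u₂ ^ 2) + (v₁ ^ 2 + v₂ ^ 2)) := by
  have h1 : |u₁ * v₁ + u₂ * v₂| ≤ (u₁ ^ 2 + u₂ ^ 2) + (v₁ ^ 2 + v₂ ^ 2) :=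
    abs_le.2 ⟨by nlinarith [sq_nonneg (u₁ + v₁), sq_nonneg (u₂ + v₂)],
      by nlinarith [sq_nonneg (u₁ - v₁), sq_nonneg (u₂ - v₂)]⟩
  refine (le_abs_self _).trans ?_
  rw [abs_mul]
  exact mul_le_mul hb h1 (abs_nonneg _) ((abs_nonneg _).trans hb)

/-- the boundary term -/
theorem bdry (h : Hyd) {c : ℝ → ℝ} {y C S : ℝ} (hy : 1 ≤ y) (hC : 1 ≤ C) (hσ : 0 ≤ h.σ)
    (hS : h.σ ≤ S) (hω : 1 ≤ |h.ω|) (hU : h.U y ≤ C * y) (hc : |c y| ≤ 7 + C)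
    (hc2 : |1 + y * h.H y - c y| ≤ 7 + C) :
    h.Mor c y ≤ (8 + C + C * (7 + C) + S) * (y * h.k y) := by
  have hy0 : 0 < y := one_pos.trans_le hy
  have hC0 : 0 ≤ C := zero_le_one.trans hC
  have hS0 : 0 ≤ S := hσ.trans hS
  have hU0 := h.U0 y hy0
  have y1 : c y * h.Pt y ≤ (7 + C) * (h.T y + h.Gt y) := half hc
  have y2 : (1 + y * h.H y - c y) * h.Pa y ≤ (7 + C) * (h.A y + h.Ga y) := half hc2
  have y3 : (h.U y * c y) * h.Ra y ≤ (C * y * (7 + C)) * (h.A y + h.T y) := half (by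
    rw [abs_mul, abs_of_nonneg hU0]
    exact mul_le_mul hU hc (abs_nonneg _) (by positivity))
  have y4 : (-(h.σ * y)) * h.Ra y ≤ (S * y) * (h.A y + h.T y) := half (by
    rw [abs_neg, abs_of_nonneg (by positivity)]
    gcongr)
  have y5 : (-(h.ω * y)) * (h.a₂ y * h.t₁ y + -h.a₁ y * h.t₂ y) ≤ (|h.ω| * y) *
      ((h.a₂ y ^ 2 + (-h.a₁ y) ^ 2) + (h.t₁ y ^ 2 + h.t₂ y ^ 2)) := half (by
    rw [abs_neg, abs_mul, abs_of_pos hy0])
  have y6 : -(h.ω * y * h.Ia y) ≤ |h.ω| * y * h.Z y := by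
    refine le_of_eq_of_le ?_ (le_of_le_of_eq y5 ?_)
    · unfold Hyd.Ia; ring
    · unfold Hyd.Z Hyd.A Hyd.T; ring
  have hZ := h.Z0 y
  have hG := h.Gr0 y
  have n1 := mul_nonneg hy0.le (h.nuZ0 y)
  have n2 : 0 ≤ y * h.W y * h.A y := mul_nonneg (mul_nonneg hy0.le (h.W0 y hy0)) (h.A0 y)
  have hZω : h.Z y ≤ |h.ω| * h.Z y := le_mul_of_one_le_left hZ hω
  have n3 : h.Gr y + h.Z y ≤ y * (h.Gr y + |h.ω| * h.Z y) :=
    (add_le_add le_rfl hZω).trans (le_mul_of_one_le_left (by positivity) hy)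
  have n4 : (7 + C) * (h.Gr y + h.Z y) ≤ (7 + C) * (y * (h.Gr y + |h.ω| * h.Z y)) :=
    mul_le_mul_of_nonneg_left n3 (by positivity)
  have n5 : (C * (7 + C) + S) * (y * h.Z y) ≤ (C * (7 + C) + S) * (y * (h.Gr y + |h.ω| * h.Z y)) :=
    mul_le_mul_of_nonneg_left (mul_le_mul_of_nonneg_left (by linarith) hy0.le) (by positivity)
  have n6 := mul_nonneg hy0.le hG
  have key : y * h.Gr y / 2 + c y * h.Pt y + (1 + y * h.H y - c y) * h.Pa y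
      - y * (h.ν / y ^ 2 * h.Z y) / 2 - y * h.W y * h.A y / 2 + h.U y * c y * h.Ra y
      - h.σ * y * h.Ra y - h.ω * y * h.Ia y ≤
      (8 + C + C * (7 + C) + S) * (y * (h.Gr y + |h.ω| * h.Z y)) := by
    unfold Hyd.Gr Hyd.Z at *
    generalize h.ν / y ^ 2 = n at *
    linarith
  refine le_of_le_of_eq (mul_le_mul_of_nonneg_left key (h.μ_pos y hy0).le) ?_
  unfold Hyd.k
  ring

theorem mor_congr (h : Hyd) {c d : ℝ → ℝ} {r : ℝ} (e : c r = d r) : h.Mor c r = h.Mor d r := by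
  unfold Hyd.Mor; rw [e]

theorem KK0 {C S ρ Q K₁ : ℝ} (hC : 0 ≤ C) (hS : 0 ≤ S) (hρ : 0 ≤ ρ) (hQ : 0 ≤ Q) (hK : 0 ≤ K₁) :
    0 ≤ KK C S ρ Q K₁ := by
  unfold KK; positivity

/-- the outer pointwise bound -/
theorem outer (h : Hyd) {r K K₁ τ : ℝ} (hr : 0 < r) (hK : 0 ≤ K) (hτ : 0 < τ) (hτ1 : τ ≤ 1) :
    (1 / 4 - τ) * h.e r - (1 + K₁ ^ 2 + (K + 3 * K ^ 2)) / τ * h.mZ r ≤
      (1 / 4 - τ) * h.e r - (τ / 2 + K₁ ^ 2 / τ) * (h.μ r * h.T r)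
        - (K + 3 * K ^ 2) / τ * h.mA r := by
  have hμ := (h.μ_pos r hr).le
  have hT := mul_nonneg hμ (h.T0 r)
  have hA := h.mA0 hr
  have e : h.mZ r = h.mA r + h.μ r * h.T r := by unfold Hyd.mZ Hyd.mA Hyd.Z; ring
  have h1 : τ / 2 ≤ 1 / τ := by
    have : (1 : ℝ) ≤ 1 / τ := le_div_self zero_le_one hτ hτ1
    linarith
  have h2 : τ / 2 * (h.μ r * h.T r) ≤ 1 / τ * (h.μ r * h.T r) := mul_le_mul_of_nonneg_right h1 hT
  have h3 : 0 ≤ (K + 3 * K ^ 2) / τ * (h.μ r * h.T r) := by positivity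
  have h4 : 0 ≤ 1 / τ * h.mA r := by positivity
  have h5 : 0 ≤ K₁ ^ 2 / τ * h.mA r := by positivity
  have h6 : (1 + K₁ ^ 2 + (K + 3 * K ^ 2)) / τ = 1 / τ + K₁ ^ 2 / τ + (K + 3 * K ^ 2) / τ := by
    ring
  rw [e, h6]
  generalize (K + 3 * K ^ 2) / τ = q at *
  generalize K₁ ^ 2 / τ = q₁ at *
  generalize 1 / τ = q₂ at *
  linarith

end MBmor

open MBmor in
theorem s_Mor : S_Mor := by
  intro C σ₀ hC
  have hC0 : 0 ≤ C := zero_le_one.trans hC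
  obtain ⟨K₀, hK₀⟩ : ∃ K₀, K₀ = KK C |σ₀| C C 0 := ⟨_, rfl⟩
  have hK₀0 : 0 ≤ K₀ := hK₀ ▸ KK0 hC0 (abs_nonneg _) hC0 hC0 le_rfl
  obtain ⟨B, hB⟩ : ∃ B, B = 8 + C + C * (7 + C) + |σ₀| := ⟨_, rfl⟩
  have hB0 : 0 ≤ B := by rw [hB]; positivity
  refine ⟨B + (K₀ + 3 * K₀ ^ 2), by positivity, fun δ R₃ C₃ hδ => ?_⟩
  obtain ⟨K₁, hK₁⟩ : ∃ K₁, K₁ = C / δ + |C₃| := ⟨_, rfl⟩
  have hK₁0 : 0 ≤ K₁ := by rw [hK₁]; positivity
  obtain ⟨K, hK⟩ : ∃ K, K = KK C |σ₀| |R₃| |C₃| K₁ := ⟨_, rfl⟩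
  have hK0 : 0 ≤ K := hK ▸ KK0 hC0 (abs_nonneg _) (abs_nonneg _) (abs_nonneg _) hK₁0
  refine ⟨1 + K₁ ^ 2 + (K + 3 * K ^ 2), by positivity, ?_⟩
  intro h P' x y τ hx hxC hxy hy1 hyR hτ hτ1 hσ hσ₀ hω hb hb2 hb3
  have hS : h.σ ≤ |σ₀| := hσ₀.trans (le_abs_self _)
  have hxδ : x ≤ x + δ := by linarith
  have hxδ0 : 0 < x + δ := by linarith
  have hxy' : x ≤ y := hxδ.trans hxy
  have hy0 : 0 < y := hx.trans_le hxy'
  obtain ⟨C₇, hC₇⟩ : ∃ C₇, C₇ = 1 + K₁ ^ 2 + (K + 3 * K ^ 2) := ⟨_, rfl⟩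
  rw [← hC₇]
  -- the inner interval
  have i1 : ∫ r in (0 : ℝ)..x, ((1 / 4 - τ) * h.e r - τ * h.mZ r
      - (K₀ + 3 * K₀ ^ 2) / τ * h.mA r) ≤ h.Mor (fun _ => 11 / 2) x := by
    refine ftc0_le (f := h.Mor' (fun _ => 11 / 2) (fun _ => 0) P') hx
      (fun r hr => h.dMor hr.1 (hasDerivAt_const r _) (hb r ⟨hr.1, hr.2.trans hxy'⟩).2.2.2.1)
      (h.tend_Mor (Bn.const _) (Bn.of_bound (C := 11 + C) hy0 fun r hr => ?_))
      ((((h.ii_e le_rfl hx.le).const_mul _).sub ((h.ii_mZ le_rfl hx.le).const_mul _)).sub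
        ((h.ii_mA le_rfl hx.le).const_mul _)) fun r hr => ?_
    · obtain ⟨g1, g2⟩ := abs_le.1 (hb r hr).2.1
      exact abs_le.2 ⟨by linarith, by linarith⟩
    · obtain ⟨g1, g2, g3, -, -⟩ := hb r ⟨hr.1, hr.2.le.trans hxy'⟩
      obtain ⟨g4, g5⟩ := abs_le.1 (hb2 r ⟨hr.1, hr.2.le.trans hxδ⟩)
      have := pw2 h (c := fun _ => 11 / 2) (c' := fun _ => 0) (P' := P') (K₁ := 0) hr.1
        (hr.2.le.trans hxC) hC hσ hS g1 g2 g3 (hb3 r ⟨hr.1, hr.2.le⟩) (by simp)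
        (abs_le.2 ⟨by linarith, by linarith⟩) (abs_le.2 ⟨by linarith, by linarith⟩) hτ hτ1
      rw [← hK₀] at this
      refine le_trans ?_ this
      have e : h.mZ r = h.mA r + h.μ r * h.T r := by unfold Hyd.mZ Hyd.mA Hyd.Z; ring
      have h1 := mul_nonneg hτ.le (mul_nonneg (h.μ_pos r hr.1).le (h.T0 r))
      have h2 := mul_nonneg hτ.le (h.mA0 hr.1)
      have h3 : (0 : ℝ) ^ 2 / τ = 0 := by simp
      rw [e, h3]
      linarith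
  -- the outer intervals
  have io : ∀ (c c' : ℝ → ℝ) (a b : ℝ), 0 < a → a ≤ b → b ≤ y →
      (∀ r ∈ Icc a b, HasDerivAt c (c' r) r) →
      (∀ r ∈ Ioo a b, |c' r| ≤ K₁ ∧ |c r| ≤ 6 + C ∧ |r * h.H r / 2 - c r| ≤ 1 / 4) →
      ∫ r in a..b, ((1 / 4 - τ) * h.e r - C₇ / τ * h.mZ r) ≤ h.Mor c b - h.Mor c a := by
    intro c c' a b ha hab hby hc hc2
    refine ftc_le (f := h.Mor' c c' P') hab
      (fun r hr => h.dMor (ha.trans_le hr.1) (hc r hr)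
        (hb r ⟨ha.trans_le hr.1, hr.2.trans hby⟩).2.2.2.1)
      (((h.ii_e ha.le (ha.le.trans hab)).const_mul _).sub
        ((h.ii_mZ ha.le (ha.le.trans hab)).const_mul _)) fun r hr => ?_
    have hr0 : 0 < r := ha.trans hr.1
    have hry : r ≤ y := hr.2.le.trans hby
    obtain ⟨g1, g2, g3, -, g4⟩ := hb r ⟨hr0, hry⟩
    obtain ⟨g5, g6, g7⟩ := hc2 r hr
    have := pw2 h (c := c) (c' := c') (P' := P') hr0 ((hry.trans hyR).trans (le_abs_self R₃)) hC hσ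
      hS g1 g2 g3 (g4.trans (le_abs_self C₃)) g5 g6 g7 hτ hτ1
    rw [← hK] at this
    rw [hC₇]
    exact (outer h hr0 hK0 hτ hτ1).trans this
  have i2 := io (fun r => 11 / 2 + (r - x) / δ * ((r * h.H r - 11) / 2))
    (fun r => 1 / δ * ((r * h.H r - 11) / 2) + (r - x) / δ * (P' r / 2)) x (x + δ) hx hxδ hxy
    (fun r hr => by
      have d1 := (hb r ⟨hx.trans_le hr.1, hr.2.trans hxy⟩).2.2.2.1
      exact ((((hasDerivAt_id' r).sub_const x).div_const δ).fun_mul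
        ((d1.sub_const 11).div_const 2)).const_add _)
    (fun r hr => by
      have hr0 : 0 < r := hx.trans hr.1
      obtain ⟨-, g2, -, -, g4⟩ := hb r ⟨hr0, hr.2.le.trans hxy⟩
      have g5 := hb2 r ⟨hr0, hr.2.le⟩
      have t0 : 0 ≤ (r - x) / δ := div_nonneg (by linarith [hr.1]) hδ.le
      have t1 : (r - x) / δ ≤ 1 := (div_le_one hδ).2 (by linarith [hr.2])
      generalize (r - x) / δ = t at *
      have e : r * h.H r / 2 - (11 / 2 + t * ((r * h.H r - 11) / 2)) =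
          (1 - t) * ((r * h.H r - 11) / 2) := by ring
      rw [e]
      generalize r * h.H r - 11 = p at *
      have u1 : |p / 2| ≤ 1 / 4 := by
        obtain ⟨g6, g7⟩ := abs_le.1 g5
        exact abs_le.2 ⟨by linarith, by linarith⟩
      have u2 : |t * (p / 2)| ≤ 1 * (1 / 4) := by
        rw [abs_mul, abs_of_nonneg t0]
        exact mul_le_mul t1 u1 (abs_nonneg _) zero_le_one
      refine ⟨?_, ?_, ?_⟩
      · have u3 : |1 / δ * (p / 2)| ≤ 1 / δ * C := by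
          rw [abs_mul, abs_of_nonneg (by positivity : 0 ≤ 1 / δ)]
          exact mul_le_mul_of_nonneg_left (by linarith) (by positivity)
        have u4 : |t * (P' r / 2)| ≤ 1 * |C₃| := by
          rw [abs_mul, abs_of_nonneg t0]
          refine mul_le_mul t1 ?_ (abs_nonneg _) zero_le_one
          obtain ⟨g6, g7⟩ := abs_le.1 (g4.trans (le_abs_self C₃))
          exact abs_le.2 ⟨by linarith [abs_nonneg C₃], by linarith [abs_nonneg C₃]⟩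
        have u5 := abs_add_le (1 / δ * (p / 2)) (t * (P' r / 2))
        have u6 : 1 / δ * C = C / δ := by ring
        rw [hK₁]
        linarith
      · obtain ⟨g6, g7⟩ := abs_le.1 u2
        exact abs_le.2 ⟨by linarith, by linarith⟩
      · rw [abs_mul, abs_of_nonneg (by linarith : 0 ≤ 1 - t)]
        exact (mul_le_mul (by linarith : 1 - t ≤ 1) u1 (abs_nonneg _) zero_le_one).trans_eq
          (one_mul _))
  have i3 := io (fun r => r * h.H r / 2) (fun r => P' r / 2) (x + δ) y hxδ0 hxy le_rfl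
    (fun r hr => (hb r ⟨hxδ0.trans_le hr.1, hr.2⟩).2.2.2.1.div_const 2)
    (fun r hr => by
      obtain ⟨-, g2, -, -, g4⟩ := hb r ⟨hxδ0.trans hr.1, hr.2.le⟩
      obtain ⟨g5, g6⟩ := abs_le.1 g2
      obtain ⟨g7, g8⟩ := abs_le.1 (g4.trans (le_abs_self C₃))
      have u1 : 0 ≤ C / δ := by positivity
      refine ⟨?_, abs_le.2 ⟨by linarith, by linarith⟩, by simp⟩
      rw [hK₁]
      exact abs_le.2 ⟨by linarith [abs_nonneg C₃], by linarith [abs_nonneg C₃]⟩)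
  have e1 : h.Mor (fun r => 11 / 2 + (r - x) / δ * ((r * h.H r - 11) / 2)) x =
      h.Mor (fun _ => 11 / 2) x := mor_congr h (by simp)
  have e2 : h.Mor (fun r => 11 / 2 + (r - x) / δ * ((r * h.H r - 11) / 2)) (x + δ) =
      h.Mor (fun r => r * h.H r / 2) (x + δ) := mor_congr h (by
    show 11 / 2 + (x + δ - x) / δ * (((x + δ) * h.H (x + δ) - 11) / 2) = (x + δ) * h.H (x + δ) / 2
    rw [add_sub_cancel_left, div_self hδ.ne']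
    ring)
  have i4 : h.Mor (fun r => r * h.H r / 2) y ≤ B * (y * h.k y) := by
    obtain ⟨g1, g2, -⟩ := hb y ⟨hy0, le_rfl⟩
    obtain ⟨g5, g6⟩ := abs_le.1 g2
    rw [hB]
    exact bdry h hy1 hC hσ hS hω g1 (abs_le.2 ⟨by linarith, by linarith⟩)
      (abs_le.2 ⟨by linarith, by linarith⟩)
  have s1 : ∀ a b : ℝ, 0 ≤ a → 0 ≤ b → ∫ r in a..b, ((1 / 4 - τ) * h.e r - C₇ / τ * h.mZ r) =
      (1 / 4 - τ) * (∫ r in a..b, h.e r) - C₇ / τ * ∫ r in a..b, h.mZ r := fun a b ha hb' => by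
    rw [intervalIntegral.integral_sub ((h.ii_e ha hb').const_mul _) ((h.ii_mZ ha hb').const_mul _),
      intervalIntegral.integral_const_mul, intervalIntegral.integral_const_mul]
  rw [intervalIntegral.integral_sub (((h.ii_e le_rfl hx.le).const_mul _).sub
    ((h.ii_mZ le_rfl hx.le).const_mul _)) ((h.ii_mA le_rfl hx.le).const_mul _),
    intervalIntegral.integral_sub ((h.ii_e le_rfl hx.le).const_mul _)
      ((h.ii_mZ le_rfl hx.le).const_mul _), intervalIntegral.integral_const_mul,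
    intervalIntegral.integral_const_mul, intervalIntegral.integral_const_mul] at i1
  rw [s1 _ _ hx.le hxδ0.le, e1, e2] at i2
  rw [s1 _ _ hxδ0.le hy0.le] at i3
  rw [← intervalIntegral.integral_add_adjacent_intervals (h.ii_e le_rfl hx.le) (h.ii_e hx.le hy0.le),
    ← intervalIntegral.integral_add_adjacent_intervals (h.ii_e hx.le hxδ0.le)
      (h.ii_e hxδ0.le hy0.le),
    ← intervalIntegral.integral_add_adjacent_intervals (h.ii_mZ hx.le hxδ0.le)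
      (h.ii_mZ hxδ0.le hy0.le)]
  have n1 : 0 ≤ (K₀ + 3 * K₀ ^ 2) * (y * h.k y) :=
    mul_nonneg (by positivity) (mul_nonneg hy0.le (h.k0 hy0))
  have n2 : 0 ≤ B / τ * ∫ r in (0 : ℝ)..x, h.mA r :=
    mul_nonneg (by positivity) (Hyd.int_nonneg (fun r hr => h.mA0 hr) le_rfl hx.le)
  have n3 : (B + (K₀ + 3 * K₀ ^ 2)) / τ = B / τ + (K₀ + 3 * K₀ ^ 2) / τ := by ring
  rw [n3]
  generalize (K₀ + 3 * K₀ ^ 2) / τ = q at *
  generalize B / τ = q₁ at *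
  generalize C₇ / τ = q₂ at *
  linarith

end P139
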