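import Vale.Agent.P139.MBBase

/-! P139 part MB: the hydrodynamic system of an admissible solution. -/

open Complex Set Filter Topology
open scoped ComplexConjugate

noncomputable section
namespace P139

namespace MBtoH

theorem hre {F : ℝ → ℂ} {F' : ℂ} {r : ℝ} (h : HasDerivAt F F' r) :
    HasDerivAt (fun x => (F x).re) F'.re r := Complex.reCLM.hasFDerivAt.comp_hasDerivAt r h

theorem him {F : ℝ → ℂ} {F' : ℂ} {r : ℝ} (h : HasDerivAt F F' r) :
    HasDerivAt (fun x => (F x).im) F'.im r := Complex.imCLM.hasFDerivAt.comp_hasDerivAt r h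

theorem hcj {F : ℝ → ℂ} {F' : ℂ} {r : ℝ} (h : HasDerivAt F F' r) :
    HasDerivAt (fun x => conj (F x)) (conj F') r :=
  Complex.conjCLE.toContinuousLinearMap.hasFDerivAt.comp_hasDerivAt r h

theorem d1 {F : ℝ → ℂ} (h : ContDiffOn ℝ 48 F (Ioi 0)) {r : ℝ} (hr : 0 < r) :
    HasDerivAt F (deriv F r) r :=
  ((h.contDiffAt (Ioi_mem_nhds hr)).differentiableAt (by norm_num)).hasDerivAt

theorem d2 {F : ℝ → ℂ} (h : ContDiffOn ℝ 48 F (Ioi 0)) {r : ℝ} (hr : 0 < r) :
    HasDerivAt (deriv F) (deriv (deriv F) r) r :=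
  (((h.deriv_of_isOpen (m := 1) isOpen_Ioi (by norm_num)).contDiffAt
    (Ioi_mem_nhds hr)).differentiableAt (by norm_num)).hasDerivAt

theorem div2I (z : ℂ) : z / (2 * I) = -I * z / 2 := by
  rw [div_eq_div_iff (by simp) (by simp)]
  linear_combination (2 * z) * I_mul_I

theorem alg1 (u v : ℂ) : ((u + v) / 2).re ^ 2 + ((u + v) / 2).im ^ 2 +
    (((u - v) / (2 * I)).re ^ 2 + ((u - v) / (2 * I)).im ^ 2) = (‖u‖ ^ 2 + ‖v‖ ^ 2) / 2 := by
  rw [div2I, Complex.sq_norm, Complex.sq_norm, normSq_apply, normSq_apply]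
  simp
  ring

theorem alg2 (u v p s : ℂ) : ((u + v) / 2).re * ((p + s) / 2).im - ((u + v) / 2).im * ((p + s) / 2).re
    + (((u - v) / (2 * I)).re * ((p - s) / (2 * I)).im -
      ((u - v) / (2 * I)).im * ((p - s) / (2 * I)).re) =
    ((conj u * p).im + (conj v * s).im) / 2 := by
  rw [div2I, div2I]
  simp
  ring

theorem sq_div {q : ℂ} (hq : q ≠ 0) (F : ℂ) : ‖q‖ ^ 2 * ‖F / q‖ ^ 2 = ‖F‖ ^ 2 := by
  have : ‖q‖ ≠ 0 := norm_ne_zero_iff.2 hq
  rw [norm_div]
  field_simp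

theorem im_div {q : ℂ} (hq : q ≠ 0) (F A : ℂ) :
    ‖q‖ ^ 2 * (conj (F / q) * (A / q)).im = (conj F * A).im := by
  have h1 : conj q ≠ 0 := by simpa using hq
  have h2 : ((‖q‖ ^ 2 : ℝ) : ℂ) * (conj (F / q) * (A / q)) = conj F * A := by
    rw [Complex.sq_norm, ← mul_conj, map_div₀]
    field_simp
  rw [← h2, im_ofReal_mul]

theorem sq_sub_le (F A k : ℂ) : ‖A - k * F‖ ^ 2 ≤ 2 * ‖A‖ ^ 2 + 2 * (‖k‖ ^ 2 * ‖F‖ ^ 2) := by
  have h1 : ‖A - k * F‖ ≤ ‖A‖ + ‖k‖ * ‖F‖ := (norm_sub_le _ _).trans (by rw [norm_mul])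
  have h2 := pow_le_pow_left₀ (norm_nonneg _) h1 2
  nlinarith [sq_nonneg (‖A‖ - ‖k‖ * ‖F‖)]

theorem le_sq_sub (F A k : ℂ) :
    ‖A‖ ^ 2 ≤ 2 * ‖A - k * F‖ ^ 2 + 2 * (‖k‖ ^ 2 * ‖F‖ ^ 2) := by
  have := sq_sub_le F (A - k * F) (-k)
  rw [norm_neg] at this
  simpa using this

theorem im_sub (F A k : ℂ) : |(conj F * (A - k * F)).im - (conj F * A).im| ≤ ‖k‖ * ‖F‖ ^ 2 := by
  rw [← Complex.sub_im]
  refine (abs_im_le_norm _).trans (le_of_eq ?_)
  have : conj F * (A - k * F) - conj F * A = -(k * (conj F * F)) := by ring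
  rw [this, norm_neg, norm_mul, norm_mul, norm_conj, sq]

/-- bounded on `(0, 1]` -/
def Bd (φ : ℝ → ℂ) : Prop := ∃ C : ℝ, ∀ r ∈ Ioc (0 : ℝ) 1, ‖φ r‖ ≤ C

theorem Bd.add {φ ψ : ℝ → ℂ} (h : Bd φ) (h' : Bd ψ) : Bd fun r => φ r + ψ r := by
  obtain ⟨C, hC⟩ := h
  obtain ⟨D, hD⟩ := h'
  exact ⟨C + D, fun r hr => (norm_add_le _ _).trans (add_le_add (hC r hr) (hD r hr))⟩

theorem Bd.sub {φ ψ : ℝ → ℂ} (h : Bd φ) (h' : Bd ψ) : Bd fun r => φ r - ψ r := by
  obtain ⟨C, hC⟩ := h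
  obtain ⟨D, hD⟩ := h'
  exact ⟨C + D, fun r hr => (norm_sub_le _ _).trans (add_le_add (hC r hr) (hD r hr))⟩

theorem Bd.mul {φ ψ : ℝ → ℂ} (h : Bd φ) (h' : Bd ψ) : Bd fun r => φ r * ψ r := by
  obtain ⟨C, hC⟩ := h
  obtain ⟨D, hD⟩ := h'
  refine ⟨C * D, fun r hr => ?_⟩
  rw [norm_mul]
  exact mul_le_mul (hC r hr) (hD r hr) (norm_nonneg _) ((norm_nonneg _).trans (hC r hr))

theorem Bd.cj {φ : ℝ → ℂ} (h : Bd φ) : Bd fun r => conj (φ r) :=
  h.imp fun _ hC r hr => by rw [norm_conj]; exact hC r hr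

theorem Bd.divc {φ : ℝ → ℂ} (h : Bd φ) (c : ℂ) : Bd fun r => φ r / c := by
  obtain ⟨C, hC⟩ := h
  refine ⟨C / ‖c‖, fun r hr => ?_⟩
  rw [norm_div]
  exact div_le_div_of_nonneg_right (hC r hr) (norm_nonneg _)

theorem Bd.congr {φ ψ : ℝ → ℂ} (h : Bd φ) (e : ∀ r, 0 < r → ψ r = φ r) : Bd ψ :=
  h.imp fun _ hC r hr => by rw [e r hr.1]; exact hC r hr

theorem bd_cont {E : Type} [NormedAddCommGroup E] {φ : ℝ → E} (h : Continuous φ) :
    ∃ C : ℝ, ∀ r ∈ Ioc (0 : ℝ) 1, ‖φ r‖ ≤ C := by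
  obtain ⟨C, hC⟩ := (isCompact_Icc (a := (0 : ℝ)) (b := 1)).exists_bound_of_continuousOn
    h.continuousOn
  exact ⟨C, fun r hr => hC r (Ioc_subset_Icc_self hr)⟩

theorem bd0 {f : ℝ → ℂ} (h : Adm f) : Bd f := by
  obtain ⟨C, hC⟩ := h.2 0 (by norm_num)
  exact ⟨C, fun r hr => by simpa using hC r hr.1⟩

theorem bd1 {f : ℝ → ℂ} (h : Adm f) : Bd (deriv f) := by
  obtain ⟨C, hC⟩ := h.2 1 (by norm_num)
  exact ⟨C, fun r hr => by simpa using hC r hr.1⟩

theorem dquot {f q : ℝ → ℂ} {f' q' : ℂ} {r : ℝ} (hf : HasDerivAt f f' r) (hq : HasDerivAt q q' r)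
    (h0 : q r ≠ 0) : HasDerivAt (fun x => f x / q x) ((f' - q' / q r * f r) / q r) r := by
  refine (hf.fun_div hq h0).congr_deriv ?_
  field_simp

theorem derivs {m : ℕ} (P : Prof m) (hq : ContDiff ℝ (⊤ : ℕ∞) P.q) (h0 : ∀ r, P.q r ≠ 0) {f g : ℝ → ℂ}
    (hf : Adm f) (hg : Adm g) {r : ℝ} (hr : 0 < r) :
    deriv (P.al f g) r = ((deriv f r - deriv P.q r / P.q r * f r) / P.q r +
      (deriv g r - conj (deriv P.q r / P.q r) * g r) / conj (P.q r)) / 2 ∧
    deriv (P.th f g) r = ((deriv f r - deriv P.q r / P.q r * f r) / P.q r -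
      (deriv g r - conj (deriv P.q r / P.q r) * g r) / conj (P.q r)) / (2 * I) := by
  have dq : HasDerivAt P.q (deriv P.q r) r := (hq.differentiable (by simp) r).hasDerivAt
  have a := dquot (d1 hf.1 hr) dq (h0 r)
  have b := dquot (d1 hg.1 hr) (hcj dq) (by simpa using h0 r)
  rw [← map_div₀] at b
  exact ⟨((a.fun_add b).div_const 2).deriv, ((a.fun_sub b).div_const (2 * I)).deriv⟩

end MBtoH

open MBtoH in
theorem s_toH (h1 : S_hyd) : S_toH := by
  intro m P hm l lam f g hs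
  obtain ⟨⟨hq, h0, hlr, hU, hW, dρ, dW, dμU⟩, h2⟩ := h1 m P hm
  obtain ⟨cα, cθ, heq⟩ := h2 l lam f g hs.af.1 hs.ag.1
  have hm' : (1 : ℝ) ≤ m := by exact_mod_cast hm
  have g0 : 0 ≤ gam m := by unfold gam; positivity
  have g1 : gam m ≤ 3 := by
    unfold gam
    rw [div_le_iff₀ (by linarith)]
    linarith
  have ρ0 : ∀ r, 0 < P.rho r := fun r => pow_pos (norm_pos_iff.2 (h0 r)) 2
  have μ0 : ∀ r, 0 < r → 0 < P.rho r * r ^ 11 := fun r hr => mul_pos (ρ0 r) (pow_pos hr 11)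
  have dμ : ∀ r, 0 < r → HasDerivAt (fun r => P.rho r * r ^ 11)
      ((11 / r + P.lr r) * (P.rho r * r ^ 11)) r := fun r hr => by
    refine ((dρ r).fun_mul (hasDerivAt_pow 11 r)).congr_deriv ?_
    have := hr.ne'
    field_simp
    ring
  have e1 : ∀ r, 0 < r → deriv (deriv (P.al f g)) r =
      ((-(11 / r + P.lr r) : ℝ) : ℂ) * deriv (P.al f g) r +
        (((l : ℝ) * (l + 10) / r ^ 2 + P.WW r : ℝ) : ℂ) * P.al f g r + lam * P.th f g r +
        P.UU r * deriv (P.th f g) r := fun r hr => by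
    have a := (heq r hr).2
    have b : P.th (fun x => P.LF l f g x - lam * f x) (fun x => P.LG l f g x - lam * g x) r = 0 := by
      simp only [Prof.th, hs.eF r hr, hs.eG r hr]; simp
    rw [b] at a
    unfold DD at a
    push_cast
    linear_combination -a
  have e2 : ∀ r, 0 < r → deriv (deriv (P.th f g)) r =
      ((-(11 / r + P.lr r) : ℝ) : ℂ) * deriv (P.th f g) r +
        (((l : ℝ) * (l + 10) / r ^ 2 : ℝ) : ℂ) * P.th f g r - lam * P.al f g r -
        P.UU r * deriv (P.al f g) r := fun r hr => by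
    have a := (heq r hr).1
    have b : P.al (fun x => P.LF l f g x - lam * f x) (fun x => P.LG l f g x - lam * g x) r = 0 := by
      simp only [Prof.al, hs.eF r hr, hs.eG r hr]; simp
    rw [b] at a
    unfold DD at a
    push_cast
    linear_combination a
  have U0 : ∀ r, 0 < r → 0 ≤ P.UU r := fun r hr => by
    have hmono : MonotoneOn (fun r => P.rho r * r ^ 11 * P.UU r) (Icc 0 r) :=
      monotoneOn_of_deriv_nonneg (convex_Icc 0 r)
        (fun x _ => (dμU x).continuousAt.continuousWithinAt)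
        (fun x _ => (dμU x).differentiableAt.differentiableWithinAt) fun x hx => by
          rw [interior_Icc] at hx
          rw [(dμU x).deriv]
          exact mul_nonneg (by linarith) (μ0 x hx.1).le
    have := hmono ⟨le_rfl, hr.le⟩ ⟨hr.le, le_rfl⟩ hr.le
    simp only [ne_eq, OfNat.ofNat_ne_zero, not_false_eq_true, zero_pow, mul_zero, zero_mul] at this
    exact nonneg_of_mul_nonneg_right this (μ0 r hr) |> fun h => h
  have dU : ∀ r, 0 < r → HasDerivAt P.UU (2 * (3 - gam m) - (11 / r + P.lr r) * P.UU r) r :=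
    fun r hr => by
      have a := (hU.differentiable (by simp) r).hasDerivAt
      have b := ((dμ r hr).fun_mul a).unique (dμU r)
      refine a.congr_deriv (mul_left_cancel₀ (μ0 r hr).ne' ?_)
      linear_combination b
  have bq : Bd fun r => (P.q r)⁻¹ := bd_cont (hq.continuous.inv₀ h0)
  have bk : Bd fun r => deriv P.q r / P.q r :=
    bd_cont ((hq.continuous_deriv (by simp)).div hq.continuous h0)
  have bu : Bd fun r => f r / P.q r := ((bd0 hs.af).mul bq).congr fun r _ => div_eq_mul_inv _ _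
  have bv : Bd fun r => g r / conj (P.q r) :=
    ((bd0 hs.ag).mul bq.cj).congr fun r _ => by rw [div_eq_mul_inv, map_inv₀]
  have bu' : Bd fun r => (deriv f r - deriv P.q r / P.q r * f r) / P.q r :=
    (((bd1 hs.af).sub (bk.mul (bd0 hs.af))).mul bq).congr fun r _ => div_eq_mul_inv _ _
  have bv' : Bd fun r => (deriv g r - conj (deriv P.q r / P.q r) * g r) / conj (P.q r) :=
    (((bd1 hs.ag).sub (bk.cj.mul (bd0 hs.ag))).mul bq.cj).congr fun r _ => by
      rw [div_eq_mul_inv _ (conj (P.q r)), map_inv₀]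
  obtain ⟨C1, b1⟩ : Bd (P.al f g) := (bu.add bv).divc 2
  obtain ⟨C2, b2⟩ : Bd (P.th f g) := (bu.sub bv).divc (2 * I)
  obtain ⟨C3, b3⟩ : Bd (deriv (P.al f g)) :=
    ((bu'.add bv').divc 2).congr fun r hr => (derivs P hq h0 hs.af hs.ag hr).1
  obtain ⟨C4, b4⟩ : Bd (deriv (P.th f g)) :=
    ((bu'.sub bv').divc (2 * I)).congr fun r hr => (derivs P hq h0 hs.af hs.ag hr).2
  obtain ⟨C5, b5⟩ := bd_cont hU.continuous
  obtain ⟨C6, b6⟩ := bd_cont hW.continuous
  obtain ⟨C7, b7⟩ := bd_cont (φ := P.rho) (continuous_iff_continuousAt.2 fun r =>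
    (dρ r).continuousAt)
  refine ⟨{
    κ := 3 - gam m
    ν := (l : ℝ) * (l + 10)
    σ := lam.re
    ω := lam.im
    μ := fun r => P.rho r * r ^ 11
    H := fun r => 11 / r + P.lr r
    U := P.UU
    W := P.WW
    W' := fun r => m * P.WW r * P.lr r
    a₁ := fun r => (P.al f g r).re
    a₂ := fun r => (P.al f g r).im
    t₁ := fun r => (P.th f g r).re
    t₂ := fun r => (P.th f g r).im
    p₁ := fun r => (deriv (P.al f g) r).re
    p₂ := fun r => (deriv (P.al f g) r).im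
    s₁ := fun r => (deriv (P.th f g) r).re
    s₂ := fun r => (deriv (P.th f g) r).im
    κ0 := by linarith
    κ3 := by linarith
    ν0 := by positivity
    μ_pos := μ0
    W0 := fun r _ => by unfold Prof.WW; positivity
    U0 := U0
    dμ := dμ
    dU := dU
    dW := fun r _ => dW r
    da₁ := fun r hr => hre (d1 cα hr)
    da₂ := fun r hr => him (d1 cα hr)
    dt₁ := fun r hr => hre (d1 cθ hr)
    dt₂ := fun r hr => him (d1 cθ hr)
    dp₁ := fun r hr => (hre (d2 cα hr)).congr_deriv (by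
      rw [e1 r hr]
      simp only [add_re, re_ofReal_mul, mul_re lam]
      ring)
    dp₂ := fun r hr => (him (d2 cα hr)).congr_deriv (by
      rw [e1 r hr]
      simp only [add_im, im_ofReal_mul, mul_im lam]
      ring)
    ds₁ := fun r hr => (hre (d2 cθ hr)).congr_deriv (by
      rw [e2 r hr]
      simp only [add_re, sub_re, re_ofReal_mul, mul_re lam]
      ring)
    ds₂ := fun r hr => (him (d2 cθ hr)).congr_deriv (by
      rw [e2 r hr]
      simp only [add_im, sub_im, im_ofReal_mul, mul_im lam]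
      ring)
    bd := ⟨|C1| + |C2| + |C3| + |C4| + |C5| + |C6| + |C7|, fun r hr => by
      have a1 := (b1 r hr).trans (le_abs_self _)
      have a2 := (b2 r hr).trans (le_abs_self _)
      have a3 := (b3 r hr).trans (le_abs_self _)
      have a4 := (b4 r hr).trans (le_abs_self _)
      have a5 := (le_abs_self _).trans ((b5 r hr).trans (le_abs_self _))
      have a6 := (le_abs_self _).trans ((b6 r hr).trans (le_abs_self _))
      have a7 := (le_abs_self _).trans ((b7 r hr).trans (le_abs_self _))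
      have n1 := abs_nonneg C1
      have n2 := abs_nonneg C2
      have n3 := abs_nonneg C3
      have n4 := abs_nonneg C4
      have n5 := abs_nonneg C5
      have n6 := abs_nonneg C6
      have n7 := abs_nonneg C7
      refine ⟨by linarith [abs_re_le_norm (P.al f g r)], by linarith [abs_im_le_norm (P.al f g r)],
        by linarith [abs_re_le_norm (P.th f g r)], by linarith [abs_im_le_norm (P.th f g r)],
        by linarith [abs_re_le_norm (deriv (P.al f g) r)],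
        by linarith [abs_im_le_norm (deriv (P.al f g) r)],
        by linarith [abs_re_le_norm (deriv (P.th f g) r)],
        by linarith [abs_im_le_norm (deriv (P.th f g) r)], by linarith, by linarith, ?_⟩
      exact mul_le_mul (by linarith) (pow_le_pow_of_le_one hr.1.le hr.2 (by norm_num))
        (pow_nonneg hr.1.le _) (by linarith)⟩ }, rfl, rfl, rfl,
    fun r => ⟨rfl, rfl, rfl, rfl, rfl⟩, fun r hr => ?_⟩
  obtain ⟨x1, x2⟩ := derivs P hq h0 hs.af hs.ag hr
  have hc : conj (P.q r) ≠ 0 := by simpa using h0 r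
  have nc : ‖conj (P.q r)‖ = ‖P.q r‖ := norm_conj _
  simp only [Hyd.Z, Hyd.A, Hyd.T, Hyd.Gr, Hyd.Ga, Hyd.Gt, Hyd.Fl, x1, x2, Prof.al, Prof.th, alg1,
    alg2, Prof.rho, ZZ, GG, FL]
  have y1 := sq_div (h0 r) (f r)
  have y2 := sq_div hc (g r)
  have y3 := sq_div (h0 r) (deriv f r - deriv P.q r / P.q r * f r)
  have y4 := sq_div hc (deriv g r - conj (deriv P.q r / P.q r) * g r)
  have y5 := im_div (h0 r) (f r) (deriv f r - deriv P.q r / P.q r * f r)
  have y6 := im_div hc (g r) (deriv g r - conj (deriv P.q r / P.q r) * g r)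
  rw [nc] at y2 y4 y6
  have z1 := sq_sub_le (f r) (deriv f r) (deriv P.q r / P.q r)
  have z2 := sq_sub_le (g r) (deriv g r) (conj (deriv P.q r / P.q r))
  have z3 := le_sq_sub (f r) (deriv f r) (deriv P.q r / P.q r)
  have z4 := le_sq_sub (g r) (deriv g r) (conj (deriv P.q r / P.q r))
  have z5 := abs_le.1 (im_sub (f r) (deriv f r) (deriv P.q r / P.q r))
  have z6 := abs_le.1 (im_sub (g r) (deriv g r) (conj (deriv P.q r / P.q r)))
  rw [norm_conj] at z2 z4 z6
  refine ⟨by linarith only [y1, y2], by linarith only [y3, y4, z1, z2],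
    by linarith only [y3, y4, z3, z4], abs_le.2 ⟨?_, ?_⟩⟩
  · linarith only [y5, y6, z5.1, z6.1]
  · linarith only [y5, y6, z5.2, z6.2]

end P139
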