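import Vale.Agent.P139.MA
import Vale.Agent.P139.MB1
import Vale.Agent.P139.MBb2a
import Vale.Agent.P139.MBbg1
import Vale.Agent.P139.MBbg2
import Vale.Agent.P139.MBbg3
import Vale.Agent.P139.MBen
import Vale.Agent.P139.MBfin0
import Vale.Agent.P139.MBfin2
import Vale.Agent.P139.MBhardy
import Vale.Agent.P139.MBhf
import Vale.Agent.P139.MBmor
import Vale.Agent.P139.MBtoH

/-! P139 part MB: the three regimes glued. -/

namespace P139

theorem mb_B (h0 : S_E0) (h1 : S_O1) (h2 : S_O2) : S_B :=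
  s_B (s_B0 (s_toH s_hyd) (s_bg1 s_hyd) (s_bg2 (s_bg1 s_hyd)) h0 s_B0a (s_zr s_seq s_zero))
    (s_B1 h1 (s_zr s_seq s_zero))
    (s_B2 s_hyd (s_toH s_hyd) (s_bg1 s_hyd) (s_bg2 (s_bg1 s_hyd)) (s_bg3 s_hyd (s_bg1 s_hyd)) h2
      (s_B2a s_HF s_Hardy s_Thin s_En s_Mor) (s_zr s_seq s_zero))

end P139
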