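import Vale.Agent.P139.MBDefs

/-! P139 part MB, case B1 (large angular momentum): the convexity argument. -/

open Complex Set Filter Topology MeasureTheory
open scoped ContDiff ComplexConjugate

noncomputable section
namespace P139
namespace MB1

theorem le_of_deriv {u u' : ℝ → ℝ} {a b : ℝ} (hab : a ≤ b)
    (hu : ∀ r ∈ Icc a b, HasDerivAt u (u' r) r) (h : ∀ r ∈ Icc a b, 0 ≤ u' r) : u a ≤ u b := by
  have hm : MonotoneOn u (Icc a b) :=
    monotoneOn_of_deriv_nonneg (convex_Icc a b)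
      (fun r hr => (hu r hr).continuousAt.continuousWithinAt)
      (fun r hr => (hu r (interior_subset hr)).differentiableAt.differentiableWithinAt)
      (fun r hr => by rw [(hu r (interior_subset hr)).deriv]; exact h r (interior_subset hr))
  exact hm (left_mem_Icc.2 hab) (right_mem_Icc.2 hab) hab

/-- the abstract differential inequality on `(0, b]` -/
structure Cvx (Z W Gr D : ℝ → ℝ) (b k : ℝ) : Prop where
  k0 : 0 ≤ k
  Z0 : ∀ r, 0 ≤ Z r
  G0 : ∀ r, 0 ≤ Gr r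
  dZ : ∀ r, 0 < r → HasDerivAt Z (2 * W r) r
  dP : ∀ r, 0 < r → HasDerivAt (fun r => r ^ 11 * W r) (D r) r
  bd : ∃ C, ∀ r, 0 < r → |W r| ≤ C
  ineq : ∀ r, 0 < r → r ≤ b → r ^ 11 * (Gr r / 2 + k * Z r) ≤ D r

variable {Z W Gr D : ℝ → ℝ} {b k : ℝ}

theorem Cvx.D0 (h : Cvx Z W Gr D b k) {r : ℝ} (h0 : 0 < r) (hb : r ≤ b) : 0 ≤ D r := by
  refine le_trans ?_ (h.ineq r h0 hb)
  have := h.G0 r
  have := h.Z0 r
  have := h.k0
  positivity

theorem Cvx.Pmono (h : Cvx Z W Gr D b k) {x y : ℝ} (hx : 0 < x) (hxy : x ≤ y) (hy : y ≤ b) :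
    x ^ 11 * W x ≤ y ^ 11 * W y :=
  le_of_deriv (u := fun r => r ^ 11 * W r) hxy (fun r hr => h.dP r (hx.trans_le hr.1))
    fun _ hr => h.D0 (hx.trans_le hr.1) (hr.2.trans hy)

theorem Cvx.P0 (h : Cvx Z W Gr D b k) {y : ℝ} (hy0 : 0 < y) (hy : y ≤ b) :
    0 ≤ y ^ 11 * W y := by
  obtain ⟨C, hC⟩ := h.bd
  have t : Tendsto (fun x : ℝ => -(x ^ 11 * C)) (𝓝[>] 0) (𝓝 0) := by
    have : Tendsto (fun x : ℝ => -(x ^ 11 * C)) (𝓝 0) (𝓝 (-((0 : ℝ) ^ 11 * C))) :=
      Continuous.tendsto (by fun_prop) 0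
    simpa using this.mono_left nhdsWithin_le_nhds
  refine le_of_tendsto t ?_
  filter_upwards [Ioc_mem_nhdsGT hy0] with x hx
  refine le_trans ?_ (h.Pmono hx.1 hx.2 hy)
  have h1 := neg_abs_le (W x)
  have h2 := hC x hx.1
  have h3 : 0 < x ^ 11 := pow_pos hx.1 11
  nlinarith

theorem Cvx.W0 (h : Cvx Z W Gr D b k) {y : ℝ} (hy0 : 0 < y) (hy : y ≤ b) : 0 ≤ W y :=
  nonneg_of_mul_nonneg_right (by simpa [mul_comm] using h.P0 hy0 hy) (pow_pos hy0 11)

theorem Cvx.Zmono (h : Cvx Z W Gr D b k) {x y : ℝ} (hx : 0 < x) (hxy : x ≤ y) (hy : y ≤ b) :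
    Z x ≤ Z y :=
  le_of_deriv hxy (fun r hr => h.dZ r (hx.trans_le hr.1)) fun r hr => by
    have := h.W0 (hx.trans_le hr.1) (hr.2.trans hy)
    linarith

/-- one growth step -/
theorem Cvx.step (h : Cvx Z W Gr D b k) {a₀ a t : ℝ} (h0 : 0 < a₀) (ha : a₀ ≤ a) (ht : 0 ≤ t)
    (hb : a + t ≤ b) : k * (a₀ / b) ^ 11 * t ^ 2 * Z a ≤ Z (a + t) := by
  have ha0 : 0 < a := h0.trans_le ha
  have hb0 : 0 < b := by linarith
  have hk := h.k0
  have hZ := h.Z0 a
  have hW : ∀ r ∈ Icc a (a + t), k * (a₀ / b) ^ 11 * Z a * (r - a) ≤ W r := fun r hr => by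
    have hr0 : 0 < r := ha0.trans_le hr.1
    have h1 := le_of_deriv (u := fun x => x ^ 11 * W x - k * a₀ ^ 11 * Z a * (x - a))
      (u' := fun x => D x - k * a₀ ^ 11 * Z a) hr.1
      (fun x hx => by
        exact ((h.dP x (ha0.trans_le hx.1)).fun_sub
          (((hasDerivAt_id' x).sub_const a).const_mul (k * a₀ ^ 11 * Z a))).congr_deriv (by ring))
      (fun x hx => by
        have hx0 : 0 < x := ha0.trans_le hx.1
        have hxb : x ≤ b := hx.2.trans (hr.2.trans hb)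
        have e1 := h.ineq x hx0 hxb
        have e2 := h.Zmono ha0 hx.1 hxb
        have e3 : a₀ ^ 11 ≤ x ^ 11 := pow_le_pow_left₀ h0.le (ha.trans hx.1) 11
        have e4 := h.G0 x
        have e5 : k * a₀ ^ 11 * Z a ≤ k * x ^ 11 * Z x := by gcongr
        have e6 : 0 ≤ x ^ 11 * Gr x := by positivity
        nlinarith)
    have h2 := h.P0 ha0 (by linarith)
    have h3 : k * a₀ ^ 11 * Z a * (r - a) ≤ r ^ 11 * W r := by
      simp only [sub_self, mul_zero, sub_zero] at h1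
      linarith
    have h4 : r ^ 11 * W r ≤ b ^ 11 * W r :=
      mul_le_mul_of_nonneg_right (pow_le_pow_left₀ hr0.le (hr.2.trans hb) 11)
        (h.W0 hr0 (hr.2.trans hb))
    have h5 : 0 < b ^ 11 := pow_pos hb0 11
    rw [div_pow]
    calc k * (a₀ ^ 11 / b ^ 11) * Z a * (r - a) = k * a₀ ^ 11 * Z a * (r - a) / b ^ 11 := by ring
      _ ≤ W r := by rw [div_le_iff₀ h5]; linarith
  have h1 := le_of_deriv (u := fun x => Z x - k * (a₀ / b) ^ 11 * Z a * (x - a) ^ 2)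
    (u' := fun x => 2 * W x - k * (a₀ / b) ^ 11 * Z a * (2 * (x - a))) (a := a) (b := a + t)
    (by linarith)
    (fun x hx => by
      exact ((h.dZ x (ha0.trans_le hx.1)).fun_sub
        ((((hasDerivAt_id' x).sub_const a).fun_pow 2).const_mul
          (k * (a₀ / b) ^ 11 * Z a))).congr_deriv (by norm_num))
    (fun x hx => by
      have := hW x hx
      linarith)
  simp only [sub_self, add_sub_cancel_left] at h1
  nlinarith

/-- iterated growth -/
theorem Cvx.iter (h : Cvx Z W Gr D b k) {a t : ℝ} (h0 : 0 < a) (ht : 0 ≤ t) (n : ℕ)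
    (hb : a + n * t ≤ b) : (k * (a / b) ^ 11 * t ^ 2) ^ n * Z a ≤ Z (a + n * t) := by
  induction n with
  | zero => simp
  | succ n ih =>
    have hn : (0 : ℝ) ≤ n * t := by positivity
    have e : a + ((n + 1 : ℕ) : ℝ) * t = a + n * t + t := by push_cast; ring
    rw [e] at hb ⊢
    have hb0 : 0 < b := by linarith
    have h1 := h.step h0 (le_add_of_nonneg_right hn) ht hb
    have h2 := ih (by linarith)
    have h3 : 0 ≤ k * (a / b) ^ 11 * t ^ 2 := by have := h.k0; positivity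
    calc _ = (k * (a / b) ^ 11 * t ^ 2) * ((k * (a / b) ^ 11 * t ^ 2) ^ n * Z a) := by ring
      _ ≤ (k * (a / b) ^ 11 * t ^ 2) * Z (a + n * t) := mul_le_mul_of_nonneg_left h2 h3
      _ ≤ _ := h1

/-- a point with controlled gradient -/
theorem Cvx.point (h : Cvx Z W Gr D b k) {a t : ℝ} (h0 : 0 < a) (ht : 0 < t)
    (hb : a + 2 * t ≤ b) :
    ∃ r ∈ Ioo a (a + t), Gr r ≤ (b / a) ^ 11 / t ^ 2 * Z (a + 2 * t) := by
  have hb0 : 0 < b := by linarith
  obtain ⟨r, hr, e⟩ := exists_hasDerivAt_eq_slope (fun r => r ^ 11 * W r) D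
    (show a < a + t by linarith)
    (fun x hx => (h.dP x (h0.trans_le hx.1)).continuousAt.continuousWithinAt)
    (fun x hx => h.dP x (h0.trans hx.1))
  refine ⟨r, hr, ?_⟩
  have hr0 : 0 < r := h0.trans hr.1
  have h5 : 0 < b ^ 11 := pow_pos hb0 11
  have h1 := le_of_deriv (u := fun x => Z x - 2 * ((a + t) ^ 11 * W (a + t) / b ^ 11) * x)
    (u' := fun x => 2 * W x - 2 * ((a + t) ^ 11 * W (a + t) / b ^ 11)) (a := a + t)
    (b := a + 2 * t) (by linarith)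
    (fun x hx => by
      exact ((h.dZ x (by linarith [hx.1])).fun_sub ((hasDerivAt_id' x).const_mul
        (2 * ((a + t) ^ 11 * W (a + t) / b ^ 11)))).congr_deriv (by ring))
    (fun x hx => by
      have hx0 : 0 < x := by linarith [hx.1]
      have hxb : x ≤ b := hx.2.trans hb
      have e1 := h.Pmono (show 0 < a + t by linarith) hx.1 hxb
      have e2 : x ^ 11 * W x ≤ b ^ 11 * W x :=
        mul_le_mul_of_nonneg_right (pow_le_pow_left₀ hx0.le hxb 11) (h.W0 hx0 hxb)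
      have : (a + t) ^ 11 * W (a + t) / b ^ 11 ≤ W x := by rw [div_le_iff₀ h5]; linarith
      linarith)
  have h2 := h.Z0 (a + t)
  have h3 : 2 * t * ((a + t) ^ 11 * W (a + t)) ≤ b ^ 11 * Z (a + 2 * t) := by
    have : 2 * t * ((a + t) ^ 11 * W (a + t) / b ^ 11) ≤ Z (a + 2 * t) := by linarith
    rw [← mul_div_assoc, div_le_iff₀ h5] at this
    linarith
  have h4 := h.P0 h0 (by linarith)
  have h6 := h.ineq r hr0 (by linarith [hr.2])
  have h7 : D r * t = (a + t) ^ 11 * W (a + t) - a ^ 11 * W a := by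
    rw [e, add_sub_cancel_left, div_mul_cancel₀ _ ht.ne']
  have h8 : a ^ 11 * Gr r ≤ r ^ 11 * Gr r :=
    mul_le_mul_of_nonneg_right (pow_le_pow_left₀ h0.le hr.1.le 11) (h.G0 r)
  have h9 : 0 ≤ r ^ 11 * (k * Z r) := by have := h.k0; have := h.Z0 r; positivity
  have h10 : a ^ 11 * Gr r ≤ 2 * D r := by linarith
  have h11 : a ^ 11 * Gr r * t ^ 2 ≤ b ^ 11 * Z (a + 2 * t) := by
    calc a ^ 11 * Gr r * t ^ 2 ≤ 2 * D r * t ^ 2 := by gcongr
      _ = 2 * t * (D r * t) := by ring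
      _ ≤ 2 * t * ((a + t) ^ 11 * W (a + t)) := by rw [h7]; gcongr; linarith
      _ ≤ _ := h3
  have ha11 : 0 < a ^ 11 := pow_pos h0 11
  rw [div_pow, div_div, div_mul_eq_mul_div, le_div_iff₀ (by positivity)]
  linarith

/-! ### the inequality for solutions -/

theorem hd_of {f : ℝ → ℂ} (hf : ContDiffOn ℝ 48 f (Ioi 0)) {r : ℝ} (hr : 0 < r) :
    HasDerivAt f (deriv f r) r ∧ HasDerivAt (deriv f) (deriv (deriv f) r) r := by
  have h1 : ContDiffAt ℝ 48 f r := hf.contDiffAt (Ioi_mem_nhds hr)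
  refine ⟨(h1.differentiableAt (by norm_num)).hasDerivAt, ?_⟩
  have h2 : ContDiffOn ℝ 47 (deriv f) (Ioi 0) := hf.deriv_of_isOpen isOpen_Ioi (by norm_num)
  exact ((h2.contDiffAt (Ioi_mem_nhds hr)).differentiableAt (by norm_num)).hasDerivAt

def WW (f g : ℝ → ℂ) (r : ℝ) : ℝ := (deriv f r * conj (f r)).re + (deriv g r * conj (g r)).re

theorem hd_conj {f : ℝ → ℂ} {f' : ℂ} {r : ℝ} (h : HasDerivAt f f' r) :
    HasDerivAt (fun x => conj (f x)) (conj f') r := h.star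

theorem hd_re {f : ℝ → ℂ} {f' : ℂ} {r : ℝ} (h : HasDerivAt f f' r) :
    HasDerivAt (fun x => (f x).re) f'.re r :=
  Complex.reCLM.hasFDerivAt.comp_hasDerivAt r h

theorem nsq_eq (z : ℂ) : ‖z‖ ^ 2 = (z * conj z).re := by
  rw [Complex.mul_conj, Complex.normSq_eq_norm_sq, ofReal_re]

theorem hd_nsq {f : ℝ → ℂ} {f' : ℂ} {r : ℝ} (h : HasDerivAt f f' r) :
    HasDerivAt (fun x => ‖f x‖ ^ 2) (2 * (f' * conj (f r)).re) r := by
  have e : (fun x => ‖f x‖ ^ 2) = fun x => (f x * conj (f x)).re := funext fun x => nsq_eq _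
  rw [e]
  refine (hd_re (h.fun_mul (hd_conj h))).congr_deriv ?_
  simp only [add_re, mul_re, conj_re, conj_im]
  ring

theorem V_facts {m : ℕ} (hm : 1 ≤ m) (P : Prof m) (r : ℝ) :
    ∃ v : ℝ, P.V1 r = v ∧ ‖P.V2 r‖ ≤ v := by
  refine ⟨(m + 1) * (‖P.q r‖ ^ 2) ^ m, ?_, ?_⟩
  · rw [Prof.V1, Complex.mul_conj, Complex.normSq_eq_norm_sq]; push_cast; ring
  · obtain ⟨n, rfl⟩ := Nat.exists_eq_add_of_le' hm
    rw [Prof.V2, Complex.mul_conj, Complex.normSq_eq_norm_sq]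
    simp only [norm_mul, norm_pow, Nat.add_sub_cancel, Complex.norm_natCast, Complex.norm_real,
      Real.norm_eq_abs, abs_norm]
    have : 0 ≤ (‖P.q r‖ ^ 2) ^ n * ‖P.q r‖ ^ 2 := by positivity
    rw [pow_succ _ n]
    nlinarith

theorem alg {f g f' g' Rf Rg V2 lam : ℂ} {v γ β r : ℝ} (hV : ‖V2‖ ≤ v)
    (eF : -((γ : ℂ) - I * β) * f - (r : ℂ) / 2 * f' + I * Rf - I * (v * f + V2 * g) - lam * f = 0)
    (eG : -((γ : ℂ) + I * β) * g - (r : ℂ) / 2 * g' - I * Rg + I * (v * g + conj V2 * f)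
      - lam * g = 0) :
    -(‖f'‖ ^ 2 + ‖g'‖ ^ 2) / 2 - (|lam.im| + |β| + r ^ 2 / 8) * (‖f‖ ^ 2 + ‖g‖ ^ 2) ≤
      (Rf * conj f).re + (Rg * conj g).re := by
  have hI : I * I = -1 := I_mul_I
  have e1 : Rf = -I * ((lam + γ - I * β) * f + (r : ℂ) / 2 * f') + v * f + V2 * g := by
    linear_combination (-I) * eF + (Rf - v * f - V2 * g) * hI
  have e2 : Rg = I * ((lam + γ + I * β) * g + (r : ℂ) / 2 * g') + v * g + conj V2 * f := by
    linear_combination I * eG + (Rg - v * g - conj V2 * f) * hI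
  have c1 : (Rf * conj f).re = (lam.im - β) * ‖f‖ ^ 2 + r / 2 * (f' * conj f).im + v * ‖f‖ ^ 2
      + (V2 * g * conj f).re := by
    rw [e1, nsq_eq]
    simp only [add_re, add_im, mul_re, mul_im, sub_re, sub_im, neg_re, neg_im, I_re, I_im,
      ofReal_re, ofReal_im, conj_re, conj_im, div_ofNat_re, div_ofNat_im]
    ring
  have c2 : (Rg * conj g).re = -(lam.im + β) * ‖g‖ ^ 2 - r / 2 * (g' * conj g).im + v * ‖g‖ ^ 2
      + (V2 * g * conj f).re := by
    rw [e2, nsq_eq]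
    simp only [add_re, add_im, mul_re, mul_im, I_re, I_im,
      ofReal_re, ofReal_im, conj_re, conj_im, div_ofNat_re, div_ofNat_im]
    ring
  have b1 : |(f' * conj f).im| ≤ ‖f'‖ * ‖f‖ := by
    simpa using Complex.abs_im_le_norm (f' * conj f)
  have b2 : |(g' * conj g).im| ≤ ‖g'‖ * ‖g‖ := by
    simpa using Complex.abs_im_le_norm (g' * conj g)
  have b3 : |(V2 * g * conj f).re| ≤ v * (‖g‖ * ‖f‖) := by
    have := Complex.abs_re_le_norm (V2 * g * conj f)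
    simp only [norm_mul, Complex.norm_conj] at this
    refine this.trans ?_
    rw [mul_assoc]
    gcongr
  have v0 : 0 ≤ v := (norm_nonneg _).trans hV
  have p1 : -(‖f'‖ ^ 2 / 2 + r ^ 2 / 8 * ‖f‖ ^ 2) ≤ r / 2 * (f' * conj f).im := by
    have : |r / 2 * (f' * conj f).im| ≤ |r| / 2 * (‖f'‖ * ‖f‖) := by
      rw [abs_mul, abs_div, abs_two]; gcongr
    have h2 := neg_abs_le (r / 2 * (f' * conj f).im)
    nlinarith [sq_nonneg (‖f'‖ - |r| / 2 * ‖f‖), sq_abs r]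
  have p2 : r / 2 * (g' * conj g).im ≤ ‖g'‖ ^ 2 / 2 + r ^ 2 / 8 * ‖g‖ ^ 2 := by
    have : |r / 2 * (g' * conj g).im| ≤ |r| / 2 * (‖g'‖ * ‖g‖) := by
      rw [abs_mul, abs_div, abs_two]; gcongr
    have h2 := le_abs_self (r / 2 * (g' * conj g).im)
    nlinarith [sq_nonneg (‖g'‖ - |r| / 2 * ‖g‖), sq_abs r]
  have p3 : 0 ≤ v * ‖f‖ ^ 2 + v * ‖g‖ ^ 2 + 2 * (V2 * g * conj f).re := by
    have h2 := neg_abs_le (V2 * g * conj f).re
    nlinarith [mul_nonneg v0 (sq_nonneg (‖f‖ - ‖g‖))]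
  have p4 : -(|lam.im| + |β|) * ‖f‖ ^ 2 ≤ (lam.im - β) * ‖f‖ ^ 2 :=
    mul_le_mul_of_nonneg_right (by linarith [neg_abs_le lam.im, le_abs_self β]) (sq_nonneg _)
  have p5 : -(|lam.im| + |β|) * ‖g‖ ^ 2 ≤ -(lam.im + β) * ‖g‖ ^ 2 :=
    mul_le_mul_of_nonneg_right (by linarith [le_abs_self lam.im, le_abs_self β]) (sq_nonneg _)
  rw [c1, c2]
  linarith

/-- source free solutions satisfy the differential inequality -/
theorem cvx_of_sol {m : ℕ} (hm : 1 ≤ m) {P : Prof m} {l : ℕ} {lam : ℂ} {f g : ℝ → ℂ}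
    (h : P.Sol l lam 0 0 f g) {b k : ℝ} (hk : 0 ≤ k)
    (hb : k + |lam.im| + |P.β| + b ^ 2 / 8 ≤ (l : ℝ) * (l + 10) / b ^ 2) :
    ∃ D, Cvx (ZZ f g) (WW f g) (GG f g) D b k := by
  refine ⟨fun r => 11 * r ^ 10 * WW f g r + r ^ 11 *
    ((deriv (deriv f) r * conj (f r) + deriv f r * conj (deriv f r)).re +
      (deriv (deriv g) r * conj (g r) + deriv g r * conj (deriv g r)).re), hk,
    fun r => by unfold ZZ; positivity, fun r => by unfold GG; positivity, fun r hr => ?_,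
    fun r hr => ?_, ?_, fun r hr hrb => ?_⟩
  · refine ((hd_nsq (hd_of h.af.1 hr).1).fun_add (hd_nsq (hd_of h.ag.1 hr).1)).congr_deriv ?_
    unfold WW; ring
  · have h1 := (hd_re ((hd_of h.af.1 hr).2.fun_mul (hd_conj (hd_of h.af.1 hr).1))).fun_add
      (hd_re ((hd_of h.ag.1 hr).2.fun_mul (hd_conj (hd_of h.ag.1 hr).1)))
    refine ((hasDerivAt_pow 11 r).fun_mul h1).congr_deriv ?_
    norm_num [WW]
  · obtain ⟨A0, hA0⟩ := h.af.2 0 (by norm_num)
    obtain ⟨A1, hA1⟩ := h.af.2 1 (by norm_num)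
    obtain ⟨B0, hB0⟩ := h.ag.2 0 (by norm_num)
    obtain ⟨B1, hB1⟩ := h.ag.2 1 (by norm_num)
    refine ⟨A1 * A0 + B1 * B0, fun r hr => ?_⟩
    have a0 := hA0 r hr
    have a1 := hA1 r hr
    have b0 := hB0 r hr
    have b1 := hB1 r hr
    rw [iteratedDeriv_zero] at a0 b0
    rw [iteratedDeriv_one] at a1 b1
    refine (abs_add_le _ _).trans (add_le_add ?_ ?_)
    · refine (Complex.abs_re_le_norm _).trans ?_
      rw [norm_mul, Complex.norm_conj]
      exact mul_le_mul a1 a0 (norm_nonneg _) ((norm_nonneg _).trans a1)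
    · refine (Complex.abs_re_le_norm _).trans ?_
      rw [norm_mul, Complex.norm_conj]
      exact mul_le_mul b1 b0 (norm_nonneg _) ((norm_nonneg _).trans b1)
  · obtain ⟨v, hv, hV⟩ := V_facts hm P r
    have eF := h.eF r hr
    have eG := h.eG r hr
    simp only [zero_mul, add_zero, Prof.LF, Prof.LG, hv] at eF eG
    have ha := alg hV eF eG
    have hr' : (r : ℂ) ≠ 0 := by exact_mod_cast hr.ne'
    have ex : ∀ u : ℝ → ℂ, (deriv (deriv u) r * conj (u r) + deriv u r * conj (deriv u r)).re =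
        (rad l u r * conj (u r)).re - 11 / r * (deriv u r * conj (u r)).re
          + (l : ℝ) * (l + 10) / r ^ 2 * ‖u r‖ ^ 2 + ‖deriv u r‖ ^ 2 := fun u => by
      have : deriv (deriv u) r = rad l u r - ((11 / r : ℝ) : ℂ) * deriv u r
          + (((l : ℝ) * (l + 10) / r ^ 2 : ℝ) : ℂ) * u r := by
        rw [rad]; push_cast; ring
      rw [this, nsq_eq, nsq_eq]
      simp only [add_re, add_im, mul_re, mul_im, sub_re, sub_im,
        ofReal_re, ofReal_im, conj_re, conj_im]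
      ring
    rw [ex f, ex g]
    have hb0 : 0 < b := hr.trans_le hrb
    have q1 : (l : ℝ) * (l + 10) / b ^ 2 ≤ (l : ℝ) * (l + 10) / r ^ 2 := by gcongr
    have q2 : r ^ 2 / 8 ≤ b ^ 2 / 8 := by gcongr
    have q3 : k * (‖f r‖ ^ 2 + ‖g r‖ ^ 2) ≤ ((l : ℝ) * (l + 10) / r ^ 2
        - (|lam.im| + |P.β| + r ^ 2 / 8)) * (‖f r‖ ^ 2 + ‖g r‖ ^ 2) :=
      mul_le_mul_of_nonneg_right (by linarith) (by positivity)
    have q4 : 11 * r ^ 10 * WW f g r = r ^ 11 * (11 / r * WW f g r) := by field_simp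
    rw [q4, ← mul_add]
    refine mul_le_mul_of_nonneg_left ?_ (by positivity)
    unfold ZZ GG WW
    linarith

end MB1
end P139
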