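import Vale.Agent.P139.MBHyd

/-! P139 part MB: integration tools on `(0, ∞)` and the statements of the abstract estimates. -/

open Set Filter Topology MeasureTheory Asymptotics

noncomputable section
namespace P139

/-- bounded near `0+` -/
def Bn (φ : ℝ → ℝ) : Prop := φ =O[𝓝[>] 0] fun _ => (1 : ℝ)

namespace Bn

variable {φ ψ : ℝ → ℝ}

theorem of_bound {ε C : ℝ} (hε : 0 < ε) (h : ∀ r ∈ Ioc 0 ε, |φ r| ≤ C) : Bn φ :=
  IsBigO.of_bound C (by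
    filter_upwards [Ioc_mem_nhdsGT hε] with r hr
    simpa using h r hr)

theorem const (c : ℝ) : Bn fun _ => c := of_bound one_pos fun _ _ => le_rfl
theorem id : Bn fun r => r := of_bound one_pos fun _ hr => (abs_of_pos hr.1).trans_le hr.2
theorem add (h : Bn φ) (h' : Bn ψ) : Bn fun r => φ r + ψ r := IsBigO.add h h'
theorem sub (h : Bn φ) (h' : Bn ψ) : Bn fun r => φ r - ψ r := IsBigO.sub h h'
theorem mul (h : Bn φ) (h' : Bn ψ) : Bn fun r => φ r * ψ r := by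
  simpa only [mul_one, Bn] using IsBigO.mul h h'
theorem const_mul (c : ℝ) (h : Bn φ) : Bn fun r => c * φ r := (const c).mul h
theorem div_const (h : Bn φ) (c : ℝ) : Bn fun r => φ r / c := by
  simpa only [div_eq_mul_inv] using h.mul (const c⁻¹)
theorem pow (h : Bn φ) (n : ℕ) : Bn fun r => φ r ^ n := by
  simpa only [one_pow, Bn] using IsBigO.pow h n
theorem congr (h : Bn φ) (e : ∀ r, 0 < r → ψ r = φ r) : Bn ψ :=
  IsBigO.congr' h (by filter_upwards [self_mem_nhdsWithin] with r hr using (e r hr).symm)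
    EventuallyEq.rfl

/-- `F = r φ` tends to zero -/
theorem tend {F : ℝ → ℝ} (h : Bn φ) (e : ∀ r, 0 < r → F r = r * φ r) :
    Tendsto F (𝓝[>] 0) (𝓝 0) := by
  have h0 : (fun r : ℝ => r) =o[𝓝[>] 0] fun _ => (1 : ℝ) :=
    (isLittleO_one_iff ℝ).2 (tendsto_nhdsWithin_of_tendsto_nhds tendsto_id)
  have h1 := (isLittleO_one_iff ℝ).1 (by simpa only [mul_one] using h0.mul_isBigO h)
  refine h1.congr' ?_
  filter_upwards [self_mem_nhdsWithin] with r hr using (e r hr).symm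

theorem ii0 (h : Bn φ) (hc : ContinuousOn φ (Ioi 0)) {b : ℝ} (hb : 0 ≤ b) :
    IntervalIntegrable φ volume 0 b := by
  obtain ⟨C, hC⟩ := h.bound
  obtain ⟨ε, hε, hs⟩ := mem_nhdsGT_iff_exists_Ioc_subset.1 hC
  have h1 : IntervalIntegrable φ volume 0 ε := by
    rw [intervalIntegrable_iff_integrableOn_Ioc_of_le (le_of_lt hε)]
    refine IntegrableOn.of_bound measure_Ioc_lt_top ?_ C ?_
    · exact (hc.mono Ioc_subset_Ioi_self).aestronglyMeasurable measurableSet_Ioc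
    · filter_upwards [ae_restrict_mem measurableSet_Ioc] with r hr
      simpa using hs hr
  rcases le_total b ε with hbe | hbe
  · exact h1.mono_set (by rw [uIcc_of_le hb, uIcc_of_le (le_of_lt hε)]; exact Icc_subset_Icc_right hbe)
  · refine h1.trans (ContinuousOn.intervalIntegrable (hc.mono ?_))
    rw [uIcc_of_le hbe]
    exact fun r hr => lt_of_lt_of_le hε hr.1

theorem ii (h : Bn φ) (hc : ContinuousOn φ (Ioi 0)) {a b : ℝ} (ha : 0 ≤ a) (hb : 0 ≤ b) :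
    IntervalIntegrable φ volume a b := (h.ii0 hc ha).symm.trans (h.ii0 hc hb)

end Bn

/-- `φ ≤ F'` on `(a, b)` -/
theorem ftc_le {F f φ : ℝ → ℝ} {a b : ℝ} (hab : a ≤ b) (hF : ∀ r ∈ Icc a b, HasDerivAt F (f r) r)
    (hφ : IntervalIntegrable φ volume a b) (hle : ∀ r ∈ Ioo a b, φ r ≤ f r) :
    ∫ r in a..b, φ r ≤ F b - F a :=
  intervalIntegral.integral_le_sub_of_hasDeriv_right_of_le hab
    (fun r hr => (hF r hr).continuousAt.continuousWithinAt)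
    (fun r hr => (hF r (Ioo_subset_Icc_self hr)).hasDerivWithinAt)
    ((intervalIntegrable_iff_integrableOn_Icc_of_le hab).1 hφ) hle

/-- `φ ≤ F'` on `(0, b)`, `F (0+) = 0` -/
theorem ftc0_le {F f φ : ℝ → ℝ} {b : ℝ} (hb : 0 < b) (hF : ∀ r ∈ Ioc 0 b, HasDerivAt F (f r) r)
    (h0 : Tendsto F (𝓝[>] 0) (𝓝 0)) (hφ : IntervalIntegrable φ volume 0 b)
    (hle : ∀ r ∈ Ioo 0 b, φ r ≤ f r) : ∫ r in (0 : ℝ)..b, φ r ≤ F b := by
  have hd : ∀ r ∈ Ioc 0 b, HasDerivAt (Function.update F 0 0) (f r) r := fun r hr =>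
    (hF r hr).congr_of_eventuallyEq (by
      filter_upwards [Ioi_mem_nhds hr.1] with x hx using Function.update_of_ne (ne_of_gt hx) _ _)
  have hc : ContinuousOn (Function.update F 0 0) (Icc 0 b) := by
    intro r hr
    rcases hr.1.eq_or_lt with rfl | hr0
    · refine ContinuousWithinAt.mono ?_ Icc_subset_Ici_self
      rw [← continuousWithinAt_Ioi_iff_Ici, ContinuousWithinAt, Function.update_self]
      refine h0.congr' ?_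
      filter_upwards [self_mem_nhdsWithin] with x hx using
        (Function.update_of_ne (ne_of_gt hx) _ _).symm
    · exact (hd r ⟨hr0, hr.2⟩).continuousAt.continuousWithinAt
  have := intervalIntegral.integral_le_sub_of_hasDeriv_right_of_le hb.le hc
    (fun r hr => (hd r (Ioo_subset_Ioc_self hr)).hasDerivWithinAt)
    ((intervalIntegrable_iff_integrableOn_Icc_of_le hb.le).1 hφ) hle
  rwa [Function.update_of_ne hb.ne', Function.update_self, sub_zero] at this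

/-- a point below the average on an interval of length one -/
theorem exists_le_avg {φ : ℝ → ℝ} {a : ℝ} (hc : ContinuousOn φ (Icc a (a + 1))) :
    ∃ r ∈ Icc a (a + 1), φ r ≤ ∫ x in a..(a + 1), φ x := by
  have hab : a ≤ a + 1 := by linarith
  obtain ⟨c, hc1, hc2⟩ := exists_eq_const_mul_intervalIntegral_of_nonneg (μ := volume)
    (f := φ) (g := fun _ => (1 : ℝ)) (a := a) (b := a + 1) (by rwa [uIcc_of_le hab])
    intervalIntegrable_const fun _ _ => zero_le_one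
  refine ⟨c, by rwa [uIcc_of_le hab] at hc1, le_of_eq ?_⟩
  simpa using hc2.symm

/-- a point with a logarithmic gain -/
theorem exists_le_log {φ : ℝ → ℝ} {a b : ℝ} (ha : 0 < a) (hab : a ≤ b)
    (hc : ContinuousOn φ (Icc a b)) :
    ∃ r ∈ Icc a b, r * φ r * Real.log (b / a) ≤ ∫ x in a..b, φ x := by
  have h0 : (0 : ℝ) ∉ uIcc a b := by
    rw [uIcc_of_le hab]; exact fun h => absurd h.1 (not_le.2 ha)
  obtain ⟨c, hc1, hc2⟩ := exists_eq_const_mul_intervalIntegral_of_nonneg (μ := volume)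
    (f := fun x => x * φ x) (g := fun x => x⁻¹) (a := a) (b := b)
    (by rw [uIcc_of_le hab]; exact continuousOn_id.mul hc)
    (intervalIntegral.intervalIntegrable_inv (fun x hx hx0 => h0 (hx0 ▸ hx)) continuousOn_id)
    fun x hx => by
      rw [uIoc_of_le hab] at hx
      exact inv_nonneg.2 (ha.trans hx.1).le
  refine ⟨c, by rwa [uIcc_of_le hab] at hc1, le_of_eq ?_⟩
  rw [← integral_inv h0, ← hc2]
  refine intervalIntegral.integral_congr fun x hx => ?_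
  have : x ≠ 0 := fun hx0 => h0 (hx0 ▸ hx)
  field_simp

/-- an integrable function is `o(1/r)` along a sequence -/
theorem exists_small {φ : ℝ → ℝ} {x : ℝ} (hx : 0 < x) (hc : ContinuousOn φ (Ioi 0))
    (h0 : ∀ r, 0 < r → 0 ≤ φ r) (hi : IntegrableOn φ (Ioi x)) (y : ℝ) {ε : ℝ} (hε : 0 < ε) :
    ∃ r, y ≤ r ∧ 0 < r ∧ r * φ r ≤ ε := by
  obtain ⟨a, ha⟩ : ∃ a, a = max (x + 1) y := ⟨_, rfl⟩
  have hxa : x < a := ha ▸ lt_of_lt_of_le (lt_add_one x) (le_max_left _ _)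
  have ha0 : 0 < a := hx.trans hxa
  obtain ⟨M, hM⟩ : ∃ M, M = ∫ r in Ioi x, φ r := ⟨_, rfl⟩
  have hM0 : 0 ≤ M := hM ▸ setIntegral_nonneg measurableSet_Ioi fun r hr => h0 r (hx.trans hr)
  have hab : a ≤ a * Real.exp (M / ε + 1) :=
    le_mul_of_one_le_right ha0.le (Real.one_le_exp (by positivity))
  obtain ⟨r, hr, h1⟩ := exists_le_log ha0 hab (hc.mono fun r hr => lt_of_lt_of_le ha0 hr.1)
  have hr0 : 0 < r := lt_of_lt_of_le ha0 hr.1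
  refine ⟨r, (ha ▸ le_max_right _ _ : y ≤ a).trans hr.1, hr0, ?_⟩
  rw [mul_div_cancel_left₀ _ ha0.ne', Real.log_exp, intervalIntegral.integral_of_le hab] at h1
  have h2 : ∫ t in Ioc a (a * Real.exp (M / ε + 1)), φ t ≤ M := by
    rw [hM]
    refine setIntegral_mono_set hi ?_ (HasSubset.Subset.eventuallyLE fun t ht => hxa.trans ht.1)
    filter_upwards [ae_restrict_mem measurableSet_Ioi] with t ht using h0 t (hx.trans ht)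
  by_contra hlt
  have h3 : ε * (M / ε + 1) ≤ r * φ r * (M / ε + 1) :=
    mul_le_mul_of_nonneg_right (not_le.1 hlt).le (by positivity)
  have h4 : ε * (M / ε + 1) = M + ε := by field_simp
  linarith

namespace Hyd

variable (h : Hyd)

theorem bn_a₁ : Bn h.a₁ := h.bd.elim fun _ H => .of_bound one_pos fun r hr => (H r hr).1
theorem bn_a₂ : Bn h.a₂ := h.bd.elim fun _ H => .of_bound one_pos fun r hr => (H r hr).2.1
theorem bn_t₁ : Bn h.t₁ := h.bd.elim fun _ H => .of_bound one_pos fun r hr => (H r hr).2.2.1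
theorem bn_t₂ : Bn h.t₂ := h.bd.elim fun _ H => .of_bound one_pos fun r hr => (H r hr).2.2.2.1
theorem bn_p₁ : Bn h.p₁ := h.bd.elim fun _ H => .of_bound one_pos fun r hr => (H r hr).2.2.2.2.1
theorem bn_p₂ : Bn h.p₂ := h.bd.elim fun _ H => .of_bound one_pos fun r hr => (H r hr).2.2.2.2.2.1
theorem bn_s₁ : Bn h.s₁ :=
  h.bd.elim fun _ H => .of_bound one_pos fun r hr => (H r hr).2.2.2.2.2.2.1
theorem bn_s₂ : Bn h.s₂ :=
  h.bd.elim fun _ H => .of_bound one_pos fun r hr => (H r hr).2.2.2.2.2.2.2.1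
theorem bn_U : Bn h.U := h.bd.elim fun _ H => .of_bound one_pos fun r hr =>
  (abs_of_nonneg (h.U0 r hr.1)).trans_le (H r hr).2.2.2.2.2.2.2.2.1
theorem bn_W : Bn h.W := h.bd.elim fun _ H => .of_bound one_pos fun r hr =>
  (abs_of_nonneg (h.W0 r hr.1)).trans_le (H r hr).2.2.2.2.2.2.2.2.2.1
/-- `μ / r ^ 3` is bounded near zero -/
theorem bn_μ3 : Bn fun r => h.μ r / r ^ 3 := h.bd.elim fun C H => .of_bound (C := C) one_pos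
  fun r hr => by
    have h3 : 0 < r ^ 3 := pow_pos hr.1 3
    rw [abs_of_nonneg (div_nonneg (h.μ_pos r hr.1).le h3.le), div_le_iff₀ h3]
    exact (H r hr).2.2.2.2.2.2.2.2.2.2
theorem bn_μ : Bn h.μ := (h.bn_μ3.mul (Bn.id.pow 3)).congr fun r hr => by field_simp
theorem bn_A : Bn h.A := (h.bn_a₁.pow 2).add (h.bn_a₂.pow 2)
theorem bn_T : Bn h.T := (h.bn_t₁.pow 2).add (h.bn_t₂.pow 2)
theorem bn_Z : Bn h.Z := h.bn_A.add h.bn_T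
theorem bn_Gr : Bn h.Gr :=
  ((h.bn_p₁.pow 2).add (h.bn_p₂.pow 2)).add ((h.bn_s₁.pow 2).add (h.bn_s₂.pow 2))
theorem bn_Pa : Bn h.Pa := (h.bn_a₁.mul h.bn_p₁).add (h.bn_a₂.mul h.bn_p₂)
theorem bn_Pt : Bn h.Pt := (h.bn_t₁.mul h.bn_s₁).add (h.bn_t₂.mul h.bn_s₂)
theorem bn_Fl : Bn h.Fl := ((h.bn_a₁.mul h.bn_p₂).sub (h.bn_a₂.mul h.bn_p₁)).add
  ((h.bn_t₁.mul h.bn_s₂).sub (h.bn_t₂.mul h.bn_s₁))
theorem bn_Ra : Bn h.Ra := (h.bn_a₁.mul h.bn_t₁).add (h.bn_a₂.mul h.bn_t₂)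
theorem bn_Ia : Bn h.Ia := (h.bn_a₂.mul h.bn_t₁).sub (h.bn_a₁.mul h.bn_t₂)
/-- `e / r` is bounded near zero -/
theorem bn_e1 : Bn fun r => h.e r / r :=
  (h.bn_μ3.mul ((((Bn.id.pow 2).mul h.bn_Gr).add (h.bn_Z.const_mul h.ν)).add
    ((Bn.id.pow 2).mul (h.bn_W.mul h.bn_A)))).congr fun r hr => by
      unfold e; field_simp
theorem bn_e : Bn h.e := (h.bn_e1.mul Bn.id).congr fun r hr => by field_simp

theorem c_μ : ContinuousOn h.μ (Ioi 0) := fun r hr => (h.dμ r hr).continuousAt.continuousWithinAt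
theorem c_W : ContinuousOn h.W (Ioi 0) := fun r hr => (h.dW r hr).continuousAt.continuousWithinAt
theorem c_A : ContinuousOn h.A (Ioi 0) := fun _ hr => (h.dA hr).continuousAt.continuousWithinAt
theorem c_Z : ContinuousOn h.Z (Ioi 0) := fun _ hr => (h.dZ hr).continuousAt.continuousWithinAt
theorem c_Gr : ContinuousOn h.Gr (Ioi 0) := fun _ hr => (h.dGr hr).continuousAt.continuousWithinAt
theorem c_e : ContinuousOn h.e (Ioi 0) :=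
  h.c_μ.mul ((h.c_Gr.add (ContinuousOn.mul
    (fun _ hr => (h.d_inv hr).continuousAt.continuousWithinAt) h.c_Z)).add (h.c_W.mul h.c_A))
theorem c_mZ : ContinuousOn h.mZ (Ioi 0) := h.c_μ.mul h.c_Z
theorem c_mA : ContinuousOn h.mA (Ioi 0) := h.c_μ.mul h.c_A
theorem c_k : ContinuousOn h.k (Ioi 0) :=
  h.c_μ.mul (h.c_Gr.add (continuousOn_const.mul h.c_Z))

variable {a b : ℝ}

theorem ii_e (ha : 0 ≤ a) (hb : 0 ≤ b) : IntervalIntegrable h.e volume a b :=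
  h.bn_e.ii h.c_e ha hb
theorem ii_mZ (ha : 0 ≤ a) (hb : 0 ≤ b) : IntervalIntegrable h.mZ volume a b :=
  (h.bn_μ.mul h.bn_Z).ii h.c_mZ ha hb
theorem ii_mA (ha : 0 ≤ a) (hb : 0 ≤ b) : IntervalIntegrable h.mA volume a b :=
  (h.bn_μ.mul h.bn_A).ii h.c_mA ha hb
theorem ii_k (ha : 0 ≤ a) (hb : 0 ≤ b) : IntervalIntegrable h.k volume a b :=
  (h.bn_μ.mul (h.bn_Gr.add (h.bn_Z.const_mul _))).ii h.c_k ha hb

theorem tend_En : Tendsto h.En (𝓝[>] 0) (𝓝 0) :=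
  (((h.bn_μ3.mul (Bn.id.pow 2)).mul ((((h.bn_Pa.add h.bn_Pt).const_mul h.σ).add
    (h.bn_Fl.const_mul h.ω)).add (h.bn_U.mul h.bn_Gr))).sub
      ((h.bn_U.mul h.bn_e1).div_const 2)).tend fun r hr => by
    unfold En; field_simp

theorem tend_Mor {c : ℝ → ℝ} (hc : Bn c) (hH : Bn fun r => r * h.H r) :
    Tendsto (h.Mor c) (𝓝[>] 0) (𝓝 0) :=
  (h.bn_μ3.mul (((((((((((Bn.id.pow 2).mul Bn.id).mul h.bn_Gr).div_const 2).add
    ((Bn.id.pow 2).mul (hc.mul h.bn_Pt))).add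
    ((Bn.id.pow 2).mul ((((Bn.const 1).add hH).sub hc).mul h.bn_Pa))).sub
    ((Bn.id.mul (h.bn_Z.const_mul h.ν)).div_const 2)).sub
    ((Bn.id.pow 2).mul (((Bn.id.mul h.bn_W).mul h.bn_A).div_const 2))).add
    ((Bn.id.pow 2).mul ((h.bn_U.mul hc).mul h.bn_Ra))).sub
    ((Bn.id.pow 2).mul ((Bn.id.const_mul h.σ).mul h.bn_Ra))).sub
    ((Bn.id.pow 2).mul ((Bn.id.const_mul h.ω).mul h.bn_Ia)))).tend fun r hr => by
    unfold Mor; field_simp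

/-- monotonicity of the integral of a nonnegative density in the interval -/
theorem int_mono {φ : ℝ → ℝ} (hi : ∀ a b : ℝ, 0 ≤ a → 0 ≤ b → IntervalIntegrable φ volume a b)
    (h0 : ∀ r, 0 < r → 0 ≤ φ r) {a b c d : ℝ} (hc : 0 ≤ c) (hca : c ≤ a) (hab : a ≤ b)
    (hbd : b ≤ d) : ∫ r in a..b, φ r ≤ ∫ r in c..d, φ r := by
  refine intervalIntegral.integral_mono_interval hca hab hbd ?_ (hi c d hc (by linarith))
  filter_upwards [ae_restrict_mem measurableSet_Ioc] with r hr using h0 r (lt_of_le_of_lt hc hr.1)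

theorem int_nonneg {φ : ℝ → ℝ} (h0 : ∀ r, 0 < r → 0 ≤ φ r) {a b : ℝ} (ha : 0 ≤ a) (hab : a ≤ b) :
    0 ≤ ∫ r in a..b, φ r := by
  rw [intervalIntegral.integral_of_le hab]
  exact setIntegral_nonneg measurableSet_Ioc fun r hr => h0 r (lt_of_le_of_lt ha hr.1)

end Hyd

/-! ### Statements -/

/-- high frequency: test with `χ² = ((r - x) (y + 1 - r))²` and the functional `Nf` -/
def S_HF : Prop := ∀ (h : Hyd) (x d y C : ℝ), 0 < x → 0 < d → d ≤ 1 → x + d ≤ y → y ≤ x + 3 →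
  (∀ r ∈ Icc x (y + 1), h.U r ≤ C ∧ h.W r ≤ 1) → 4 + C ^ 2 ≤ |h.ω| →
  |h.ω| * ∫ r in (x + d)..y, h.mZ r ≤ 100 / d ^ 2 * ∫ r in x..(y + 1), h.e r

/-- Hardy inequality on a ball -/
def S_Hardy : Prop := ∀ (h : Hyd) (C y : ℝ), 0 < y →
  (∀ r ∈ Ioc 0 y, r ^ 11 ≤ C * h.μ r ∧ h.μ r ≤ C * r ^ 11) →
  ∫ r in (0 : ℝ)..y, h.mZ r ≤ C ^ 2 * (y * h.mZ y + y ^ 2 * ∫ r in (0 : ℝ)..y, h.e r)

/-- smallness of `α` inside and in the thin layer -/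
def S_Thin : Prop := ∀ (h : Hyd) (C K R δ : ℝ), 0 < δ → 0 < K → 0 < R - 3 * δ → 16 * δ * C ≤ 1 →
  (∀ r ∈ Icc (R - 3 * δ) (R + δ), |h.H r| ≤ C) → (∀ r ∈ Ioc 0 (R - δ / 2), K ≤ h.W r) →
  ∫ r in (0 : ℝ)..(R + δ), h.mA r ≤ (11 / K + 128 * δ ^ 2) * ∫ r in (0 : ℝ)..(R + δ), h.e r

/-- the energy identity bounds the flux -/
def S_En : Prop := ∀ (h : Hyd) (C y : ℝ), 0 < y → 0 ≤ C → 0 ≤ h.σ →
  (∀ r ∈ Ioc 0 y, h.U r ≤ C * r ∧ r * h.H r ≤ C ∧ h.W' r ≤ C) →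
  -h.ω * (h.μ y * h.Fl y) ≤ (3 + C ^ 2) * (∫ r in (0 : ℝ)..y, h.e r) +
    C ^ 2 * y * (∫ r in (0 : ℝ)..y, h.mZ r) + (h.σ + C * y) * (h.μ y * (h.Gr y + h.Z y))

/-- the Morawetz estimate -/
def S_Mor : Prop := ∀ C σ₀ : ℝ, 1 ≤ C → ∃ C₄ : ℝ, 0 ≤ C₄ ∧ ∀ δ R₃ C₃ : ℝ, 0 < δ → ∃ C₇ : ℝ, 0 ≤ C₇ ∧
  ∀ (h : Hyd) (P' : ℝ → ℝ) (x y τ : ℝ), 0 < x → x ≤ C → x + δ ≤ y → 1 ≤ y → y ≤ R₃ → 0 < τ →
    τ ≤ 1 → 0 ≤ h.σ → h.σ ≤ σ₀ → 1 ≤ |h.ω| →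
    (∀ r ∈ Ioc 0 y, h.U r ≤ C * r ∧ |r * h.H r - 11| ≤ C ∧ h.W' r ≤ C ∧
      HasDerivAt (fun r => r * h.H r) (P' r) r ∧ |P' r| ≤ C₃) →
    (∀ r ∈ Ioc 0 (x + δ), |r * h.H r - 11| ≤ 1 / 2) → (∀ r ∈ Ioc 0 x, |P' r| ≤ C) →
    (1 / 4 - τ) * (∫ r in (0 : ℝ)..y, h.e r) ≤ C₄ * (y * h.k y) + τ * (∫ r in (0 : ℝ)..x, h.mZ r) +
      C₄ / τ * (∫ r in (0 : ℝ)..x, h.mA r) + C₇ / τ * ∫ r in x..y, h.mZ r

/-- B0 in abstract form -/
def S_B0a : Prop := ∀ C : ℝ, 1 ≤ C → ∃ σ₀ : ℝ, 4 ≤ σ₀ ∧ ∀ (h : Hyd) (γ : ℝ), 0 ≤ γ → γ ≤ 1 / 2 →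
  σ₀ ≤ h.σ → (∀ r, 0 < r → r ^ 11 * (1 + r ^ 2) ^ (-(2 * γ)) ≤ C * h.μ r ∧
    h.μ r ≤ C * (r ^ 11 * (1 + r ^ 2) ^ (-(2 * γ))) ∧ h.U r ≤ C * r ∧ r * h.H r ≤ C ∧
    r ^ 3 * h.W' r ≤ C) →
  (∃ x : ℝ, 0 < x ∧ IntegrableOn (fun r => h.μ r * (h.Gr r + h.Z r / r ^ 2)) (Ioi x)) →
  ∃ r, 0 < r ∧ h.Z r = 0 ∧ h.Gr r = 0

/-- B2 in abstract form -/
def S_B2a : Prop := ∀ R C C₁ σ₀ δ₀ : ℝ, 2 ≤ R → 1 ≤ C → 0 < δ₀ →
  ∃ δ K R₃ : ℝ, 0 < δ ∧ δ ≤ δ₀ ∧ R + 3 ≤ R₃ ∧ ∀ C₃ : ℝ, ∃ ω₀ : ℝ, 1 ≤ ω₀ ∧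
  ∀ (h : Hyd) (P' : ℝ → ℝ), 0 ≤ h.σ → h.σ ≤ σ₀ → ω₀ ≤ |h.ω| →
    (∀ r ∈ Ioc 0 R₃, h.U r ≤ C * r ∧ |r * h.H r - 11| ≤ C ∧ h.W' r ≤ C ∧
      HasDerivAt (fun r => r * h.H r) (P' r) r ∧ |P' r| ≤ C₃) →
    (∀ r ∈ Ioc 0 (R + 3), r ^ 11 ≤ C * h.μ r ∧ h.μ r ≤ C * r ^ 11 ∧ |P' r| ≤ C) →
    (∀ r ∈ Ioc 0 (R + 2 * δ₀), |r * h.H r - 11| ≤ 1 / 2) →
    (∀ r ∈ Ioc 0 (R - δ / 2), K ≤ h.W r) → (∀ r, R + δ / 2 ≤ r → h.W r ≤ 1) →
    (∀ r₂ ∈ Icc (R + 1) (R + 2), ∀ Y : ℝ, -h.ω * (h.μ r₂ * h.Fl r₂) ≤ Y → h.k r₂ ≤ Y →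
      ∫ r in r₂..R₃, h.k r ≤ C₁ * Y) →
    ∃ r, 0 < r ∧ h.Z r = 0 ∧ h.Gr r = 0

/-- the hydrodynamic system of an admissible solution -/
def S_toH : Prop := ∀ (m : ℕ) (P : Prof m), 1 ≤ m → ∀ (l : ℕ) (lam : ℂ) (f g : ℝ → ℂ),
  P.Sol l lam 0 0 f g → ∃ h : Hyd, h.ν = (l : ℝ) * (l + 10) ∧ h.σ = lam.re ∧ h.ω = lam.im ∧
    (∀ r, h.μ r = P.rho r * r ^ 11 ∧ h.H r = 11 / r + P.lr r ∧ h.U r = P.UU r ∧ h.W r = P.WW r ∧
      h.W' r = m * P.WW r * P.lr r) ∧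
    ∀ r, 0 < r → P.rho r * h.Z r = ZZ f g r / 2 ∧
      P.rho r * h.Gr r ≤ GG f g r + ‖deriv P.q r / P.q r‖ ^ 2 * ZZ f g r ∧
      GG f g r ≤ 4 * (P.rho r * h.Gr r) + 2 * ‖deriv P.q r / P.q r‖ ^ 2 * ZZ f g r ∧
      |P.rho r * h.Fl r - FL f g r / 2| ≤ ‖deriv P.q r / P.q r‖ * ZZ f g r / 2

/-- uniform bounds for the background -/
def S_bg1 : Prop := ∀ (D : FreeData) (L : Lim D), ∃ C : ℝ, 1 ≤ C ∧ ∀ᶠ j in atTop, ∀ r : ℝ, 0 < r →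
  (1 + r ^ 2) ^ (-(2 * gam (L.m j))) ≤ C * (L.P j).rho r ∧
  (L.P j).rho r ≤ C * (1 + r ^ 2) ^ (-(2 * gam (L.m j))) ∧
  (L.P j).UU r ≤ C * r ∧ (1 + r) * ‖deriv (L.P j).q r / (L.P j).q r‖ ≤ C

/-- bounds for the potential `W` -/
def S_bg2 : Prop := ∀ (D : FreeData) (L : Lim D),
  (∃ C : ℝ, ∀ᶠ j in atTop, ∀ r : ℝ, 0 < r →
    (1 + r ^ 3) * ((L.m j : ℝ) * (L.P j).WW r * (L.P j).lr r) ≤ C) ∧
  ∀ δ : ℝ, 0 < δ → ∀ K : ℝ, ∀ᶠ j in atTop,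
    (∀ r ∈ Ioc 0 (L.R - δ), K ≤ (L.P j).WW r) ∧ ∀ r, L.R + δ ≤ r → (L.P j).WW r ≤ 1

/-- bounds for `r ρ'/ρ` -/
def S_bg3 : Prop := ∀ (D : FreeData) (L : Lim D),
  (∃ δ₀ : ℝ, 0 < δ₀ ∧ ∀ᶠ j in atTop, ∀ r ∈ Ioc 0 (L.R + 2 * δ₀), |r * (L.P j).lr r| ≤ 1 / 2) ∧
  ∀ A : ℝ, ∃ C : ℝ, ∀ᶠ j in atTop, ∀ r ∈ Ioc 0 A, |deriv (fun r => r * (L.P j).lr r) r| ≤ C

end P139
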