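import Vale.Agent.P139.MDefs

/-! P139 part MB: statements of the pieces of `S_B`. -/

open Complex Set Filter Topology MeasureTheory
open scoped ContDiff ComplexConjugate

noncomputable section
namespace P139

def ZZ (f g : ℝ → ℂ) (r : ℝ) : ℝ := ‖f r‖ ^ 2 + ‖g r‖ ^ 2
def GG (f g : ℝ → ℂ) (r : ℝ) : ℝ := ‖deriv f r‖ ^ 2 + ‖deriv g r‖ ^ 2
def FL (f g : ℝ → ℂ) (r : ℝ) : ℝ := (conj (f r) * deriv f r).im + (conj (g r) * deriv g r).im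

/-- finite energy for `Re λ > 3` -/
def S_E0 : Prop := ∀ (D : FreeData) (L : Lim D), ∀ᶠ j in atTop,
  ∀ (l : ℕ) (lam : ℂ), 3 < lam.re → ∀ f g : ℝ → ℂ, (L.P j).Sol l lam 0 0 f g →
    IntegrableOn (fun r => r ^ 11 * GG f g r + r ^ 9 * ZZ f g r) (Ioi (L.R + 1))

/-- outgoing solutions grow at most polynomially in `l` -/
def S_O1 : Prop := ∀ (D : FreeData) (L : Lim D) (σ₀ : ℝ), ∃ (C : ℝ) (N : ℕ), ∀ᶠ j in atTop,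
  ∀ (l : ℕ) (lam : ℂ), 1 ≤ l → 0 ≤ lam.re → lam.re ≤ σ₀ → |lam.im| ≤ (l : ℝ) * (l + 10) →
    ∀ f g : ℝ → ℂ, (L.P j).Sol l lam 0 0 f g → ∀ r₁ ∈ Icc (L.R + 1) (L.R + 4),
      ∫ r in r₁..(L.R + 4), ZZ f g r ≤ C * (l : ℝ) ^ N * (ZZ f g r₁ + GG f g r₁)

/-- at high frequency the flux controls the energy of the tail, uniformly in its length -/
def S_O2 : Prop := ∀ (D : FreeData) (L : Lim D) (σ₀ A : ℝ), ∃ C : ℝ, ∀ R₃ : ℝ, ∃ ω₀ : ℝ,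
  ∀ᶠ j in atTop, ∀ (l : ℕ) (lam : ℂ), 0 ≤ lam.re → lam.re ≤ σ₀ → ω₀ ≤ |lam.im| →
    (l : ℝ) * (l + 10) ≤ A * |lam.im| → ∀ f g : ℝ → ℂ, (L.P j).Sol l lam 0 0 f g →
    ∀ r₂ ∈ Icc (L.R + 1) (L.R + 2), r₂ ≤ R₃ → ∀ Y : ℝ, -lam.im * FL f g r₂ ≤ Y →
      GG f g r₂ + |lam.im| * ZZ f g r₂ ≤ Y →
      ∫ r in r₂..R₃, r ^ 11 * (GG f g r + |lam.im| * ZZ f g r) ≤ C * Y

def S_B0 : Prop := ∀ (D : FreeData) (L : Lim D), ∃ σ₀ : ℝ, ∀ᶠ j in atTop,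
  ∀ (l : ℕ) (lam : ℂ), σ₀ ≤ lam.re →
    ∀ f g : ℝ → ℂ, (L.P j).Sol l lam 0 0 f g → ∀ r : ℝ, 0 < r → f r = 0 ∧ g r = 0

def S_B1 : Prop := ∀ (D : FreeData) (L : Lim D) (σ₀ : ℝ), ∃ l₀ : ℕ, ∀ᶠ j in atTop,
  ∀ (l : ℕ) (lam : ℂ), l₀ ≤ l → 0 ≤ lam.re → lam.re ≤ σ₀ →
    (L.R + 5) ^ 2 * |lam.im| ≤ (l : ℝ) * (l + 10) →
    ∀ f g : ℝ → ℂ, (L.P j).Sol l lam 0 0 f g → ∀ r : ℝ, 0 < r → f r = 0 ∧ g r = 0

def S_B2 : Prop := ∀ (D : FreeData) (L : Lim D) (σ₀ A : ℝ), ∃ ω₀ : ℝ, ∀ᶠ j in atTop,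
  ∀ (l : ℕ) (lam : ℂ), 0 ≤ lam.re → lam.re ≤ σ₀ → ω₀ ≤ |lam.im| →
    (l : ℝ) * (l + 10) ≤ A * |lam.im| →
    ∀ f g : ℝ → ℂ, (L.P j).Sol l lam 0 0 f g → ∀ r : ℝ, 0 < r → f r = 0 ∧ g r = 0

/-- zero Cauchy data at one radius -/
def S_zr : Prop := ∀ (m : ℕ) (P : Prof m) (l : ℕ) (lam : ℂ) (f g : ℝ → ℂ), P.Sol l lam 0 0 f g →
  ∀ r₀ : ℝ, 0 < r₀ → ZZ f g r₀ = 0 → GG f g r₀ = 0 → ∀ r : ℝ, 0 < r → f r = 0 ∧ g r = 0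

theorem s_zr (h1 : S_seq) (h2 : S_zero) : S_zr := by
  intro m P l lam f g hS r₀ hr₀ hZ hG r hr
  obtain ⟨hs1, hs2, -⟩ := h1 m P l
  have hf : f r₀ = 0 ∧ g r₀ = 0 := by
    unfold ZZ at hZ
    constructor <;> rw [← norm_eq_zero, ← pow_eq_zero_iff two_ne_zero] <;>
      nlinarith [sq_nonneg ‖f r₀‖, sq_nonneg ‖g r₀‖]
  have hf' : deriv f r₀ = 0 ∧ deriv g r₀ = 0 := by
    unfold GG at hG
    constructor <;> rw [← norm_eq_zero, ← pow_eq_zero_iff two_ne_zero] <;>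
      nlinarith [sq_nonneg ‖deriv f r₀‖, sq_nonneg ‖deriv g r₀‖]
  have hc : (r₀ : ℂ) ≠ 0 := ofReal_ne_zero.2 hr₀.ne'
  have key : ∀ u : ℝ → ℂ, ContDiffOn ℝ 48 u (Ioi 0) → u r₀ = 0 → deriv u r₀ = 0 →
      toS l u (r₀ ^ 2) = 0 ∧ deriv (toS l u) (r₀ ^ 2) = 0 := by
    intro u hu h0 h0'
    obtain ⟨e1, e2⟩ := hs2 u hu r₀ hr₀
    rw [h0] at e1
    rw [h0', h0, mul_zero, zero_add] at e2
    exact ⟨(mul_eq_zero.1 e1.symm).resolve_left (pow_ne_zero _ hc),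
      (mul_eq_zero.1 e2.symm).resolve_left (mul_ne_zero two_ne_zero (pow_ne_zero _ hc))⟩
  obtain ⟨a1, a2⟩ := key f hS.af.1 hf.1 hf'.1
  obtain ⟨b1, b2⟩ := key g hS.ag.1 hf.2 hf'.2
  have hz := h2 m P l lam _ _ (r₀ ^ 2) (by positivity) (hs1 lam 0 0 f g hS)
    (by simp [dat, a1, a2, b1, b2]) (r ^ 2) (by positivity)
  rw [(hs2 f hS.af.1 r hr).1, (hs2 g hS.ag.1 r hr).1, hz.1, hz.2]
  simp

theorem s_B (h0 : S_B0) (h1 : S_B1) (h2 : S_B2) : S_B := by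
  intro D L
  obtain ⟨σ₀, e0⟩ := h0 D L
  obtain ⟨l₀, e1⟩ := h1 D L σ₀
  obtain ⟨ω₀, e2⟩ := h2 D L σ₀ ((L.R + 5) ^ 2)
  have hR := L.R_pos
  obtain ⟨l₁, hl₁⟩ := exists_nat_ge ((L.R + 5) ^ 2 * max ω₀ ((l₀ : ℝ) * (l₀ + 10) + 1))
  refine ⟨σ₀, max l₀ l₁, max ω₀ ((l₀ : ℝ) * (l₀ + 10) + 1), ?_⟩
  filter_upwards [e0, e1, e2] with j a0 a1 a2 l lam hre hc f g hS
  by_cases hσ : σ₀ ≤ lam.re
  · exact a0 l lam hσ f g hS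
  have hσ' : lam.re ≤ σ₀ := (not_le.1 hσ).le
  have hl0 : (0 : ℝ) ≤ l := Nat.cast_nonneg l
  have hA : (1 : ℝ) ≤ (L.R + 5) ^ 2 := by nlinarith
  by_cases hν : (L.R + 5) ^ 2 * |lam.im| ≤ (l : ℝ) * (l + 10)
  · by_cases hl : l₀ ≤ l
    · exact a1 l lam hl hre hσ' hν f g hS
    · exfalso
      rcases hc with h | h | h
      · exact hσ h
      · exact hl ((le_max_left _ _).trans h)
      · have h3 : (l : ℝ) ≤ l₀ := by exact_mod_cast (not_le.1 hl).le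
        have h4 := (le_max_right _ _).trans h
        nlinarith [abs_nonneg lam.im]
  · have hν' := (not_le.1 hν).le
    refine a2 l lam hre hσ' ?_ hν' f g hS
    rcases hc with h | h | h
    · exact absurd h hσ
    · have h3 : (l₁ : ℝ) ≤ l := by exact_mod_cast (le_max_right _ _).trans h
      have h4 : (L.R + 5) ^ 2 * max ω₀ ((l₀ : ℝ) * (l₀ + 10) + 1) ≤
          (L.R + 5) ^ 2 * |lam.im| := by nlinarith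
      exact (le_max_left _ _).trans (le_of_mul_le_mul_left h4 (by linarith))
    · exact (le_max_left _ _).trans h

end P139
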