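import Vale.Agent.P139.MBBase

/-! P139 part MB: the exterior hierarchy. `X false k = F^{(k)}`, `X true k = conj G^{(k)}`. -/

open Complex Set Filter Topology MeasureTheory
open scoped ContDiff ComplexConjugate

noncomputable section
namespace P139

/-- left side of the equation of level `k` -/
def levT (l : ℕ) (η w : ℝ) (X : ℕ → ℝ → ℂ) (k : ℕ) (s : ℝ) : ℂ :=
  4 * s * X (k + 2) s + (4 * ((l : ℂ) + 6 + k) + I * s) * X (k + 1) s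
    + I * ((η : ℂ) + (l : ℂ) / 2 + k + I * w) * X k s

/-- weighted square of level `k` -/
def levm (l : ℕ) (X : ℕ → ℝ → ℂ) (k : ℕ) (s : ℝ) : ℝ := ‖X k s‖ ^ 2 * s ^ (l + k + 5)

structure Lev where
  l : ℕ
  η : ℝ
  s₁ : ℝ
  ε : ℝ
  c : ℝ
  w : Bool → ℝ
  X : Bool → ℕ → ℝ → ℂ
  η0 : 0 ≤ η
  s1 : 1 ≤ s₁
  ε0 : 0 ≤ ε
  c0 : 0 ≤ c
  der : ∀ i k s, 0 < s → HasDerivAt (X i k) (X i (k + 1) s) s
  bT : ∀ i, ∀ k ≤ 48, ∀ s, s₁ ≤ s → ‖levT l η (w i) (X i) k s‖ ^ 2 * s ^ (l + k + 5) ≤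
    ε * ∑ j ∈ Finset.range (k + 1),
      (levm l (X false) j s + levm l (X true) j s) / s ^ (k - j + 2) + c * s ^ 5 / s ^ k
  crude : ∃ B : ℝ, ∀ i, ∀ k ≤ 48, ∀ s, s₁ ≤ s → ‖X i k s‖ ^ 2 * s ^ (l + k) ≤ B

namespace Lev

variable (h : Lev)

def T (i : Bool) (k : ℕ) (s : ℝ) : ℂ := levT h.l h.η (h.w i) (h.X i) k s
def m (i : Bool) (k : ℕ) (s : ℝ) : ℝ := levm h.l (h.X i) k s
def M (k : ℕ) (s : ℝ) : ℝ := h.m false k s + h.m true k s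
/-- weighted square of the right side -/
def tT (i : Bool) (k : ℕ) (s : ℝ) : ℝ := ‖h.T i k s‖ ^ 2 * s ^ (h.l + k + 5)
/-- weighted flux -/
def J (i : Bool) (k : ℕ) (s : ℝ) : ℝ :=
  s ^ (h.l + k + 6) * (conj (h.X i k s) * h.X i (k + 1) s).im
def B (i : Bool) (k : ℕ) (s : ℝ) : ℝ := 4 * h.J i k s + s * h.m i k s / 2
/-- data of the lower levels -/
def dt (k : ℕ) (s : ℝ) : ℝ := ∑ j ∈ Finset.range k, h.M j s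

variable {s : ℝ}

theorem m0 (i : Bool) (k : ℕ) (hs : 0 ≤ s) : 0 ≤ h.m i k s := by
  unfold m levm; positivity
theorem M0 (k : ℕ) (hs : 0 ≤ s) : 0 ≤ h.M k s := add_nonneg (h.m0 _ _ hs) (h.m0 _ _ hs)
theorem m_le_M (i : Bool) (k : ℕ) (hs : 0 ≤ s) : h.m i k s ≤ h.M k s := by
  cases i
  · exact le_add_of_nonneg_right (h.m0 _ _ hs)
  · exact le_add_of_nonneg_left (h.m0 _ _ hs)
theorem dt0 (k : ℕ) (hs : 0 ≤ s) : 0 ≤ h.dt k s := Finset.sum_nonneg fun _ _ => h.M0 _ hs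
theorem tT0 (i : Bool) (k : ℕ) (hs : 0 ≤ s) : 0 ≤ h.tT i k s := by unfold tT; positivity
theorem tT_le (i : Bool) {k : ℕ} (hk : k ≤ 48) (hs : h.s₁ ≤ s) : h.tT i k s ≤
    h.ε * ∑ j ∈ Finset.range (k + 1), h.M j s / s ^ (k - j + 2) + h.c * s ^ 5 / s ^ k :=
  h.bT i k hk s hs

theorem c_X (i : Bool) (k : ℕ) : ContinuousOn (h.X i k) (Ioi 0) :=
  fun s hs => (h.der i k s hs).continuousAt.continuousWithinAt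
theorem c_m (i : Bool) (k : ℕ) : ContinuousOn (h.m i k) (Ioi 0) :=
  ((h.c_X i k).norm.pow 2).mul (continuousOn_pow _)
theorem c_M (k : ℕ) : ContinuousOn (h.M k) (Ioi 0) := (h.c_m _ k).add (h.c_m _ k)
theorem c_T (i : Bool) (k : ℕ) : ContinuousOn (h.T i k) (Ioi 0) := by
  have h0 := h.c_X i k
  have h1 := h.c_X i (k + 1)
  have h2 := h.c_X i (k + 2)
  have hs : ContinuousOn (fun s : ℝ => (s : ℂ)) (Ioi 0) := continuous_ofReal.continuousOn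
  exact (((continuousOn_const.mul hs).mul h2).add
    ((continuousOn_const.add (continuousOn_const.mul hs)).mul h1)).add (continuousOn_const.mul h0)
theorem c_tT (i : Bool) (k : ℕ) : ContinuousOn (h.tT i k) (Ioi 0) :=
  ((h.c_T i k).norm.pow 2).mul (continuousOn_pow _)

/-- the source term of the flux identity -/
def Q (i : Bool) (k : ℕ) (s : ℝ) : ℝ := s ^ (h.l + k + 5) * (conj (h.X i k s) * h.T i k s).im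

theorem Q_sq_le (i : Bool) (k : ℕ) (s : ℝ) : h.Q i k s ^ 2 ≤ h.m i k s * h.tT i k s := by
  have h1 : |(conj (h.X i k s) * h.T i k s).im| ≤ ‖h.X i k s‖ * ‖h.T i k s‖ :=
    (abs_im_le_norm _).trans (by rw [norm_mul, norm_conj])
  have h2 := pow_le_pow_left₀ (abs_nonneg _) h1 2
  rw [sq_abs] at h2
  have h3 := mul_le_mul_of_nonneg_left h2 (sq_nonneg (s ^ (h.l + k + 5)))
  unfold Q m levm tT
  calc _ = (s ^ (h.l + k + 5)) ^ 2 * (conj (h.X i k s) * h.T i k s).im ^ 2 := by ring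
    _ ≤ _ := h3
    _ = _ := by ring

theorem J_sq_le (i : Bool) (k : ℕ) (hs : 0 ≤ s) :
    h.J i k s ^ 2 ≤ s * (h.m i k s * h.m i (k + 1) s) := by
  have h1 : |(conj (h.X i k s) * h.X i (k + 1) s).im| ≤ ‖h.X i k s‖ * ‖h.X i (k + 1) s‖ :=
    (abs_im_le_norm _).trans (by rw [norm_mul, norm_conj])
  have h2 := pow_le_pow_left₀ (abs_nonneg _) h1 2
  rw [sq_abs] at h2
  have h3 := mul_le_mul_of_nonneg_left h2 (sq_nonneg (s ^ (h.l + k + 6)))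
  unfold J m levm
  calc _ = (s ^ (h.l + k + 6)) ^ 2 * (conj (h.X i k s) * h.X i (k + 1) s).im ^ 2 := by ring
    _ ≤ _ := h3
    _ = _ := by ring

theorem d_nsq (i : Bool) (k : ℕ) (hs : 0 < s) : HasDerivAt (fun s => ‖h.X i k s‖ ^ 2)
    (2 * (conj (h.X i k s) * h.X i (k + 1) s).re) s := by
  refine (h.der i k s hs).norm_sq.congr_deriv ?_
  simp [Complex.inner, mul_comm]

/-- the flux identity -/
theorem dB (i : Bool) (k : ℕ) (hs : 0 < s) :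
    HasDerivAt (h.B i k) (-(h.η + k / 2 - 3) * h.m i k s + h.Q i k s) s := by
  have h0 := h.der i k s hs
  have h1 := h.der i (k + 1) s hs
  have hc : HasDerivAt (fun s => conj (h.X i k s)) (conj (h.X i (k + 1) s)) s :=
    conjCLE.hasFDerivAt.comp_hasDerivAt s h0
  have h2 : HasDerivAt (fun s => (conj (h.X i k s) * h.X i (k + 1) s).im)
      ((conj (h.X i (k + 1) s) * h.X i (k + 1) s + conj (h.X i k s) * h.X i (k + 1 + 1) s).im) s :=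
    imCLM.hasFDerivAt.comp_hasDerivAt s (hc.fun_mul h1)
  have h3 := ((((hasDerivAt_pow (h.l + k + 6) s).fun_mul h2).const_mul 4).fun_add
    (((hasDerivAt_id' s).fun_mul ((h.d_nsq i k hs).fun_mul
      (hasDerivAt_pow (h.l + k + 5) s))).div_const 2))
  refine HasDerivAt.congr_deriv h3 ?_
  simp only [m, levm, Q, T, levT, Complex.sq_norm, normSq_apply, Nat.add_succ_sub_one]
  simp only [mul_im, mul_re, add_im, add_re, conj_re, conj_im, ofReal_re, ofReal_im, I_re, I_im,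
    natCast_re, natCast_im, re_ofNat, im_ofNat, div_ofNat_re, div_ofNat_im]
  push_cast
  ring

/-- the recursion for the flux -/
theorem J_succ (i : Bool) (k : ℕ) (s : ℝ) : 4 * h.J i (k + 1) s + h.w i * h.J i k s =
    -(s * h.m i (k + 1) s)
      - (h.η + h.l / 2 + k) * (s ^ (h.l + k + 6) * (conj (h.X i (k + 1) s) * h.X i k s).re)
      + s ^ (h.l + k + 6) * (conj (h.X i (k + 1) s) * h.T i k s).im := by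
  simp only [J, m, levm, T, levT, Complex.sq_norm, normSq_apply]
  simp only [mul_im, mul_re, add_im, add_re, conj_re, conj_im, ofReal_re, ofReal_im, I_re, I_im,
    natCast_re, natCast_im, re_ofNat, im_ofNat, div_ofNat_re, div_ofNat_im]
  ring

end Lev

/-! ### Statements for the abstract system -/

/-- E0: finiteness of the weighted norms -/
def S_e0 : Prop := ∀ (h : Lev) (q k : ℕ), k ≤ 41 + q → k ≤ 48 → 6 < (k : ℝ) + q + 2 * h.η →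
  (h.c = 0 ∨ 7 ≤ k + q) → IntegrableOn (fun s => h.M k s / s ^ q) (Ioi h.s₁)

/-- Hardy chain -/
def S_har : Prop := ∀ (h : Lev) (k : ℕ), 7 ≤ k → k ≤ 41 → ∀ s₀, h.s₁ ≤ s₀ → ∀ j ≤ k,
  IntegrableOn (fun s => h.M j s / s ^ (k - j + 2)) (Ioi s₀) ∧
  ∫ s in Ioi s₀, h.M j s / s ^ (k - j + 2) ≤ 4 ^ 41 * ((∫ s in Ioi s₀, h.M k s) + h.dt k s₀)

/-- E1: the flux controls the weighted norm and conversely -/
def S_e1 : Prop := ∃ ε₀ C : ℝ, 0 < ε₀ ∧ 0 ≤ C ∧ ∀ h : Lev, h.ε ≤ ε₀ → ∀ k : ℕ, 7 ≤ k → k ≤ 41 →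
  ∀ s₀, h.s₁ ≤ s₀ → IntegrableOn (h.M k) (Ioi s₀) ∧
    ∫ s in Ioi s₀, h.M k s ≤ 4 * (h.B false k s₀ + h.B true k s₀) + h.dt k s₀ + C * h.c ∧
    ∀ i, |h.B i k s₀| ≤ (h.η + 20) * (∫ s in Ioi s₀, h.M k s) + h.dt k s₀ + C * h.c

/-- forward recursion -/
def S_fwd : Prop := ∃ C : ℝ, 1 ≤ C ∧ ∀ h : Lev, h.ε ≤ 1 → ∀ s Λ : ℝ, h.s₁ ≤ s → s ≤ Λ →
  ((h.l : ℝ) + 54) ^ 2 ≤ Λ → (∀ i, h.η + |h.w i| ≤ Λ) → ∀ k ≤ 48,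
    Λ * h.M k s ≤ C * Λ ^ k * (Λ * h.M 0 s + h.M 1 s + h.c * s ^ 5)

/-- backward recursion -/
def S_bwd : Prop := ∀ D : ℝ, 1 ≤ D → ∃ ε₀ C : ℝ, 0 < ε₀ ∧ 0 ≤ C ∧ ∀ h : Lev, h.c = 0 → h.ε ≤ ε₀ →
  ∀ s θ Λ : ℝ, h.s₁ ≤ s → s ≤ Λ → 1 ≤ θ → ((h.l : ℝ) + 54) ^ 2 ≤ Λ →
    (∀ i, θ ^ 2 ≤ D * (((h.l : ℝ) / 2) ^ 2 + h.w i ^ 2) ∧
      Λ * θ ≤ D * (((h.l : ℝ) / 2) ^ 2 + h.w i ^ 2)) →
    θ * h.M 0 s + h.M 1 s ≤ C * (h.M 7 s / θ ^ 6 + h.M 8 s / θ ^ 7)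

/-- bounded parameters, with source -/
def S_ea : Prop := ∀ K : ℝ, ∃ ε₀ C : ℝ, 0 < ε₀ ∧ 0 ≤ C ∧ ∀ h : Lev, h.ε ≤ ε₀ → (h.l : ℝ) ≤ K →
  h.η ≤ K → (∀ i, |h.w i| ≤ K) → h.s₁ ≤ K → ∀ k : ℕ, 7 ≤ k → k ≤ 41 →
    IntegrableOn (h.M k) (Ioi h.s₁) ∧
    ∫ s in Ioi h.s₁, h.M k s ≤ C * (h.M 0 h.s₁ + h.M 1 h.s₁ + h.c)

/-- polynomial growth -/
def S_o1a : Prop := ∀ K : ℝ, ∃ (ε₀ C : ℝ) (N : ℕ), 0 < ε₀ ∧ 0 ≤ C ∧ ∀ h : Lev, h.c = 0 →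
  h.ε ≤ ε₀ → 1 ≤ h.l → h.η ≤ K → (∀ i, |h.w i| ≤ K * (h.l : ℝ) ^ 2) →
  ∀ s₂ s₃ : ℝ, h.s₁ ≤ s₂ → s₂ ≤ s₃ → s₃ ≤ K →
    ∫ s in s₂..s₃, h.M 0 s ≤ C * (h.l : ℝ) ^ N * (h.M 0 s₂ + h.M 1 s₂)

/-- the flux at high frequency -/
def S_Jb : Prop := ∀ K : ℝ, 1 ≤ K → ∃ C : ℝ, 0 ≤ C ∧ ∀ h : Lev, h.c = 0 → h.ε ≤ 1 →
  ∀ (om s Y : ℝ) (i : Bool) (w : ℝ), 1 ≤ |om| → |w| = |om| → |h.w i - w| ≤ 1 →
    (∀ i, |h.w i| ≤ 2 * |om|) → ((h.l : ℝ) + 54) ^ 2 ≤ K * |om| → h.η ≤ K → h.s₁ ≤ s → s ≤ K →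
    |om| * h.M 0 s + h.M 1 s ≤ Y → ∀ k ≤ 8,
      |om| * h.M k s ≤ C * |om| ^ k * Y ∧
      |om| * |h.J i k s - (-w / 4) ^ k * h.J i 0 s| ≤ C * |om| ^ k * Y

/-- the tail estimate -/
def S_o2a : Prop := ∀ K : ℝ, 1 ≤ K → ∃ ε₀ C : ℝ, 0 < ε₀ ∧ 0 ≤ C ∧ ∀ h : Lev, h.c = 0 → h.ε ≤ ε₀ →
  ∀ om β : ℝ, h.w false = om - β → h.w true = -om - β → |β| ≤ 1 → 2 ≤ |om| →
    ((h.l : ℝ) + 54) ^ 2 ≤ K * |om| → h.η ≤ K → ∀ s₂ s₃ Y : ℝ, h.s₁ ≤ s₂ → s₂ ≤ K → s₂ ≤ s₃ →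
    s₃ ≤ |om| → -om * (h.J false 0 s₂ - h.J true 0 s₂) ≤ Y → |om| * h.M 0 s₂ + h.M 1 s₂ ≤ Y →
    ∫ s in s₂..s₃, (|om| * h.M 0 s + h.M 1 s) ≤ C * Y

/-! ### From solutions to the abstract system -/

/-- bootstrap -/
def S_smo : Prop := ∀ (m : ℕ) (P : Prof m) (l : ℕ) (lam c₀ c₁ : ℂ) (F G : ℝ → ℂ),
  P.SEq l lam c₀ c₁ F G → ContDiffOn ℝ ∞ F (Ioi 0) ∧ ContDiffOn ℝ ∞ G (Ioi 0)

/-- a priori bounds -/
def S_crude : Prop := ∀ (l : ℕ) (f : ℝ → ℂ), Adm f → ∃ B : ℝ, ∀ k ≤ 48, ∀ s : ℝ, 1 ≤ s →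
  ‖iteratedDeriv k (toS l f) s‖ ^ 2 * s ^ (l + k) ≤ B

/-- uniform bounds for the modes -/
def S_src : Prop := ∀ (D : FreeData) (L : Lim D), ∃ C : ℝ, 0 ≤ C ∧ ∀ᶠ j in atTop, ∀ l : ℕ,
  ∀ k ≤ 48, ∀ s : ℝ, (L.R + 1) ^ 2 ≤ s →
    ‖iteratedDeriv k ((L.P j).Y0 l) s‖ ^ 2 * s ^ (l + 2 * k) ≤ C ∧
    ‖iteratedDeriv k ((L.P j).Y1 l) s‖ ^ 2 * s ^ (l + 2 * k) ≤ C

/-- the differentiated equation and the Leibniz bound -/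
def S_leib : Prop := ∃ C : ℝ, 0 ≤ C ∧ ∀ (l : ℕ) (η w ε c : ℝ) (F G V₁ V₂ S : ℝ → ℂ),
  ContDiffOn ℝ ∞ F (Ioi 0) → ContDiffOn ℝ ∞ G (Ioi 0) → ContDiffOn ℝ ∞ V₁ (Ioi 0) →
  ContDiffOn ℝ ∞ V₂ (Ioi 0) → ContDiffOn ℝ ∞ S (Ioi 0) →
  (∀ s, 0 < s → levT l η w (fun k => iteratedDeriv k F) 0 s = V₁ s * F s + V₂ s * G s + S s) →
  ∀ k ≤ 48, ∀ s : ℝ, 1 ≤ s → (∀ i ≤ k, ‖iteratedDeriv i V₁ s‖ ≤ ε * s ^ (-1 - (i : ℝ)) ∧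
      ‖iteratedDeriv i V₂ s‖ ≤ ε * s ^ (-1 - (i : ℝ))) →
    ‖iteratedDeriv k S s‖ ^ 2 * s ^ (l + 2 * k) ≤ c →
    ‖levT l η w (fun k => iteratedDeriv k F) k s‖ ^ 2 * s ^ (l + k + 5) ≤
      C * ε ^ 2 * ∑ j ∈ Finset.range (k + 1), (levm l (fun k => iteratedDeriv k F) j s +
        levm l (fun k => iteratedDeriv k G) j s) / s ^ (k - j + 2) + 2 * c * s ^ 5 / s ^ k

/-- the level system of an admissible solution -/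
def S_toL : Prop := ∀ (D : FreeData) (L : Lim D), ∃ C : ℝ, 0 ≤ C ∧ ∀ ε : ℝ, 0 < ε →
  ∀ᶠ j in atTop, ∀ (l : ℕ) (lam c₀ c₁ : ℂ) (f g : ℝ → ℂ), 0 ≤ lam.re →
    (L.P j).Sol l lam c₀ c₁ f g → ∃ h : Lev, h.l = l ∧ h.η = lam.re + gam (L.m j) ∧
      h.s₁ = (L.R + 1) ^ 2 ∧ h.ε = ε ∧ h.c = C * (‖c₀‖ ^ 2 + ‖c₁‖ ^ 2) ∧
      h.w false = lam.im - (L.P j).β ∧ h.w true = -lam.im - (L.P j).β ∧
      ∀ k s, h.X false k s = iteratedDeriv k (toS l f) s ∧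
        h.X true k s = conj (iteratedDeriv k (toS l g) s)

/-- dictionary between the variables `r` and `s = r²` -/
def S_rs : Prop := ∀ (m : ℕ) (_ : Prof m) (h : Lev) (f g : ℝ → ℂ), Adm f → Adm g →
  (∀ k s, h.X false k s = iteratedDeriv k (toS h.l f) s ∧
    h.X true k s = conj (iteratedDeriv k (toS h.l g) s)) →
  ContinuousOn (ZZ f g) (Ioi 0) ∧ ContinuousOn (GG f g) (Ioi 0) ∧ ∀ r : ℝ, 0 < r →
    r ^ 10 * ZZ f g r = h.M 0 (r ^ 2) ∧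
    r ^ 10 * GG f g r ≤ 2 * (h.l : ℝ) ^ 2 / r ^ 2 * h.M 0 (r ^ 2) + 8 * h.M 1 (r ^ 2) ∧
    4 * h.M 1 (r ^ 2) ≤ 2 * (r ^ 10 * GG f g r) + 2 * (h.l : ℝ) ^ 2 / r ^ 2 * h.M 0 (r ^ 2) ∧
    r ^ 11 * FL f g r = 2 * (h.J false 0 (r ^ 2) - h.J true 0 (r ^ 2))

end P139
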