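import Vale.Agent.P139.MBDefs

/-! P139 part MB: the hydrodynamic system in real form, its functionals and their derivatives.
`α = a₁ + i a₂`, `θ = t₁ + i t₂`, `α' = p₁ + i p₂`, `θ' = s₁ + i s₂`, `λ = σ + i ω`. -/

open Set Filter Topology MeasureTheory

noncomputable section
namespace P139

structure Hyd where
  κ : ℝ
  ν : ℝ
  σ : ℝ
  ω : ℝ
  μ : ℝ → ℝ
  H : ℝ → ℝ
  U : ℝ → ℝ
  W : ℝ → ℝ
  W' : ℝ → ℝ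
  a₁ : ℝ → ℝ
  a₂ : ℝ → ℝ
  t₁ : ℝ → ℝ
  t₂ : ℝ → ℝ
  p₁ : ℝ → ℝ
  p₂ : ℝ → ℝ
  s₁ : ℝ → ℝ
  s₂ : ℝ → ℝ
  κ0 : 0 ≤ κ
  κ3 : κ ≤ 3
  ν0 : 0 ≤ ν
  μ_pos : ∀ r, 0 < r → 0 < μ r
  W0 : ∀ r, 0 < r → 0 ≤ W r
  U0 : ∀ r, 0 < r → 0 ≤ U r
  dμ : ∀ r, 0 < r → HasDerivAt μ (H r * μ r) r
  dU : ∀ r, 0 < r → HasDerivAt U (2 * κ - H r * U r) r
  dW : ∀ r, 0 < r → HasDerivAt W (W' r) r
  da₁ : ∀ r, 0 < r → HasDerivAt a₁ (p₁ r) r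
  da₂ : ∀ r, 0 < r → HasDerivAt a₂ (p₂ r) r
  dt₁ : ∀ r, 0 < r → HasDerivAt t₁ (s₁ r) r
  dt₂ : ∀ r, 0 < r → HasDerivAt t₂ (s₂ r) r
  dp₁ : ∀ r, 0 < r → HasDerivAt p₁
    (-H r * p₁ r + (ν / r ^ 2 + W r) * a₁ r + σ * t₁ r - ω * t₂ r + U r * s₁ r) r
  dp₂ : ∀ r, 0 < r → HasDerivAt p₂
    (-H r * p₂ r + (ν / r ^ 2 + W r) * a₂ r + σ * t₂ r + ω * t₁ r + U r * s₂ r) r
  ds₁ : ∀ r, 0 < r → HasDerivAt s₁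
    (-H r * s₁ r + ν / r ^ 2 * t₁ r - σ * a₁ r + ω * a₂ r - U r * p₁ r) r
  ds₂ : ∀ r, 0 < r → HasDerivAt s₂
    (-H r * s₂ r + ν / r ^ 2 * t₂ r - σ * a₂ r - ω * a₁ r - U r * p₂ r) r
  bd : ∃ C : ℝ, ∀ r ∈ Ioc (0 : ℝ) 1, |a₁ r| ≤ C ∧ |a₂ r| ≤ C ∧ |t₁ r| ≤ C ∧ |t₂ r| ≤ C ∧
    |p₁ r| ≤ C ∧ |p₂ r| ≤ C ∧ |s₁ r| ≤ C ∧ |s₂ r| ≤ C ∧ U r ≤ C ∧ W r ≤ C ∧ μ r ≤ C * r ^ 3

namespace Hyd

variable (h : Hyd)

/-- `|α|²` -/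
def A (r : ℝ) : ℝ := h.a₁ r ^ 2 + h.a₂ r ^ 2
/-- `|θ|²` -/
def T (r : ℝ) : ℝ := h.t₁ r ^ 2 + h.t₂ r ^ 2
def Z (r : ℝ) : ℝ := h.A r + h.T r
/-- `|α'|²` -/
def Ga (r : ℝ) : ℝ := h.p₁ r ^ 2 + h.p₂ r ^ 2
/-- `|θ'|²` -/
def Gt (r : ℝ) : ℝ := h.s₁ r ^ 2 + h.s₂ r ^ 2
def Gr (r : ℝ) : ℝ := h.Ga r + h.Gt r
/-- `Re (conj α α')` -/
def Pa (r : ℝ) : ℝ := h.a₁ r * h.p₁ r + h.a₂ r * h.p₂ r
/-- `Re (conj θ θ')` -/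
def Pt (r : ℝ) : ℝ := h.t₁ r * h.s₁ r + h.t₂ r * h.s₂ r
/-- `Im (conj α α' + conj θ θ')` -/
def Fl (r : ℝ) : ℝ := h.a₁ r * h.p₂ r - h.a₂ r * h.p₁ r + (h.t₁ r * h.s₂ r - h.t₂ r * h.s₁ r)
/-- `Re (α conj θ)` -/
def Ra (r : ℝ) : ℝ := h.a₁ r * h.t₁ r + h.a₂ r * h.t₂ r
/-- `Im (α conj θ)` -/
def Ia (r : ℝ) : ℝ := h.a₂ r * h.t₁ r - h.a₁ r * h.t₂ r
/-- `Re (α conj θ')` -/
def Rb (r : ℝ) : ℝ := h.a₁ r * h.s₁ r + h.a₂ r * h.s₂ r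
/-- `Im (α' conj θ + α conj θ')` -/
def Ib (r : ℝ) : ℝ := h.p₂ r * h.t₁ r - h.p₁ r * h.t₂ r + (h.a₂ r * h.s₁ r - h.a₁ r * h.s₂ r)
/-- `Im (α' conj θ')` -/
def Ic (r : ℝ) : ℝ := h.p₂ r * h.s₁ r - h.p₁ r * h.s₂ r
/-- energy density -/
def e (r : ℝ) : ℝ := h.μ r * (h.Gr r + h.ν / r ^ 2 * h.Z r + h.W r * h.A r)
def mZ (r : ℝ) : ℝ := h.μ r * h.Z r
def mA (r : ℝ) : ℝ := h.μ r * h.A r
/-- high frequency density -/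
def k (r : ℝ) : ℝ := h.μ r * (h.Gr r + |h.ω| * h.Z r)
/-- energy flux -/
def En (r : ℝ) : ℝ :=
  h.μ r * (h.σ * (h.Pa r + h.Pt r) + h.ω * h.Fl r + h.U r * h.Gr r) - h.U r * h.e r / 2
def En' (r : ℝ) : ℝ :=
  h.μ r * ((h.σ + h.κ - h.H r * h.U r) * h.Gr r + (h.σ - h.κ + h.U r / r) * (h.ν / r ^ 2 * h.Z r)
    + ((h.σ - h.κ) * h.W r - h.U r * h.W' r / 2) * h.A r)
/-- high frequency functional -/
def Nf (r : ℝ) : ℝ := h.μ r * h.Ib r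
def Nf' (r : ℝ) : ℝ :=
  h.μ r * (h.ω * h.Z r + h.U r * h.Fl r + (h.W r + 2 * (h.ν / r ^ 2)) * h.Ia r + 2 * h.Ic r)
/-- Morawetz functional with `b = r`, `D = 1 + r H`, `c₂ = D - c` -/
def Mor (c : ℝ → ℝ) (r : ℝ) : ℝ :=
  h.μ r * (r * h.Gr r / 2 + c r * h.Pt r + (1 + r * h.H r - c r) * h.Pa r
    - r * (h.ν / r ^ 2 * h.Z r) / 2 - r * h.W r * h.A r / 2 + h.U r * c r * h.Ra r
    - h.σ * r * h.Ra r - h.ω * r * h.Ia r)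
def Mor' (c c' P' : ℝ → ℝ) (r : ℝ) : ℝ :=
  h.μ r * ((1 / 2 - r * h.H r / 2 + c r) * (h.Gt r + h.ν / r ^ 2 * h.T r)
    + (3 / 2 + r * h.H r / 2 - c r) * (h.Ga r + h.ν / r ^ 2 * h.A r)
    + ((1 / 2 + r * h.H r / 2 - c r) * h.W r - r * h.W' r / 2) * h.A r
    + c' r * h.Pt r + (P' r - c' r) * h.Pa r
    + (2 * h.κ * c r + h.U r * c' r - 2 * h.σ * c r) * h.Ra r
    + (h.U r * (1 + r * h.H r) - 2 * h.σ * r) * h.Rb r)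

variable {r : ℝ}

theorem A0 (r : ℝ) : 0 ≤ h.A r := by unfold A; positivity
theorem T0 (r : ℝ) : 0 ≤ h.T r := by unfold T; positivity
theorem Z0 (r : ℝ) : 0 ≤ h.Z r := add_nonneg (h.A0 r) (h.T0 r)
theorem Ga0 (r : ℝ) : 0 ≤ h.Ga r := by unfold Ga; positivity
theorem Gt0 (r : ℝ) : 0 ≤ h.Gt r := by unfold Gt; positivity
theorem Gr0 (r : ℝ) : 0 ≤ h.Gr r := add_nonneg (h.Ga0 r) (h.Gt0 r)
theorem nuZ0 (r : ℝ) : 0 ≤ h.ν / r ^ 2 * h.Z r :=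
  mul_nonneg (div_nonneg h.ν0 (sq_nonneg r)) (h.Z0 r)
theorem e0 (hr : 0 < r) : 0 ≤ h.e r :=
  mul_nonneg (h.μ_pos r hr).le (add_nonneg (add_nonneg (h.Gr0 r) (h.nuZ0 r))
    (mul_nonneg (h.W0 r hr) (h.A0 r)))
theorem mZ0 (hr : 0 < r) : 0 ≤ h.mZ r := mul_nonneg (h.μ_pos r hr).le (h.Z0 r)
theorem mA0 (hr : 0 < r) : 0 ≤ h.mA r := mul_nonneg (h.μ_pos r hr).le (h.A0 r)
theorem k0 (hr : 0 < r) : 0 ≤ h.k r :=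
  mul_nonneg (h.μ_pos r hr).le (add_nonneg (h.Gr0 r) (mul_nonneg (abs_nonneg _) (h.Z0 r)))
theorem mGr_le (hr : 0 < r) : h.μ r * h.Gr r ≤ h.e r :=
  mul_le_mul_of_nonneg_left (by linarith [h.nuZ0 r, mul_nonneg (h.W0 r hr) (h.A0 r)])
    (h.μ_pos r hr).le
theorem mWA_le (hr : 0 < r) : h.μ r * (h.W r * h.A r) ≤ h.e r :=
  mul_le_mul_of_nonneg_left (by linarith [h.nuZ0 r, h.Gr0 r]) (h.μ_pos r hr).le

theorem d_inv (hr : 0 < r) : HasDerivAt (fun r : ℝ => h.ν / r ^ 2) (-2 * (h.ν / r ^ 2) / r) r := by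
  have := ((hasDerivAt_pow 2 r).fun_inv (pow_ne_zero 2 hr.ne')).const_mul h.ν
  refine HasDerivAt.congr_deriv (by simpa only [div_eq_mul_inv] using this) ?_
  field_simp
  ring

theorem dA (hr : 0 < r) : HasDerivAt h.A (2 * h.Pa r) r := by
  refine HasDerivAt.congr_deriv (((h.da₁ r hr).fun_pow 2).fun_add ((h.da₂ r hr).fun_pow 2)) ?_
  simp only [Pa]; norm_num; ring
theorem dT (hr : 0 < r) : HasDerivAt h.T (2 * h.Pt r) r := by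
  refine HasDerivAt.congr_deriv (((h.dt₁ r hr).fun_pow 2).fun_add ((h.dt₂ r hr).fun_pow 2)) ?_
  simp only [Pt]; norm_num; ring
theorem dZ (hr : 0 < r) : HasDerivAt h.Z (2 * (h.Pa r + h.Pt r)) r := by
  refine HasDerivAt.congr_deriv ((h.dA hr).fun_add (h.dT hr)) ?_
  ring
theorem dGr (hr : 0 < r) : HasDerivAt h.Gr (2 * (-h.H r * h.Gr r + h.ν / r ^ 2 * (h.Pa r + h.Pt r)
    + h.W r * h.Pa r + h.σ * (h.t₁ r * h.p₁ r + h.t₂ r * h.p₂ r - h.Rb r) + h.ω * h.Ib r)) r := by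
  refine HasDerivAt.congr_deriv ((((h.dp₁ r hr).fun_pow 2).fun_add ((h.dp₂ r hr).fun_pow 2)).fun_add
    (((h.ds₁ r hr).fun_pow 2).fun_add ((h.ds₂ r hr).fun_pow 2))) ?_
  simp only [Gr, Ga, Gt, Pa, Pt, Rb, Ib]; norm_num; ring
theorem dPa (hr : 0 < r) : HasDerivAt h.Pa (h.Ga r - h.H r * h.Pa r + (h.ν / r ^ 2 + h.W r) * h.A r
    + h.σ * h.Ra r + h.ω * h.Ia r + h.U r * h.Rb r) r := by
  refine HasDerivAt.congr_deriv (((h.da₁ r hr).fun_mul (h.dp₁ r hr)).fun_add ((h.da₂ r hr).fun_mul (h.dp₂ r hr))) ?_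
  simp only [Ga, Pa, A, Ra, Ia, Rb]; ring
theorem dPt (hr : 0 < r) : HasDerivAt h.Pt (h.Gt r - h.H r * h.Pt r + h.ν / r ^ 2 * h.T r
    - h.σ * h.Ra r + h.ω * h.Ia r - h.U r * (h.t₁ r * h.p₁ r + h.t₂ r * h.p₂ r)) r := by
  refine HasDerivAt.congr_deriv (((h.dt₁ r hr).fun_mul (h.ds₁ r hr)).fun_add ((h.dt₂ r hr).fun_mul (h.ds₂ r hr))) ?_
  simp only [Gt, Pt, T, Ra, Ia]; ring
theorem dFl (hr : 0 < r) : HasDerivAt h.Fl (-h.H r * h.Fl r - 2 * h.σ * h.Ia r - h.U r * h.Ib r)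
    r := by
  refine HasDerivAt.congr_deriv ((((h.da₁ r hr).fun_mul (h.dp₂ r hr)).fun_sub ((h.da₂ r hr).fun_mul (h.dp₁ r hr))).fun_add
    (((h.dt₁ r hr).fun_mul (h.ds₂ r hr)).fun_sub ((h.dt₂ r hr).fun_mul (h.ds₁ r hr)))) ?_
  simp only [Fl, Ia, Ib]; ring
theorem dRa (hr : 0 < r) :
    HasDerivAt h.Ra (h.t₁ r * h.p₁ r + h.t₂ r * h.p₂ r + h.Rb r) r := by
  refine HasDerivAt.congr_deriv (((h.da₁ r hr).fun_mul (h.dt₁ r hr)).fun_add ((h.da₂ r hr).fun_mul (h.dt₂ r hr))) ?_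
  simp only [Rb]; ring
theorem dIa (hr : 0 < r) : HasDerivAt h.Ia (h.Ib r) r := by
  refine HasDerivAt.congr_deriv (((h.da₂ r hr).fun_mul (h.dt₁ r hr)).fun_sub ((h.da₁ r hr).fun_mul (h.dt₂ r hr))) ?_
  simp only [Ib]; ring
theorem dIb (hr : 0 < r) : HasDerivAt h.Ib (-h.H r * h.Ib r + h.ω * h.Z r + h.U r * h.Fl r
    + (h.W r + 2 * (h.ν / r ^ 2)) * h.Ia r + 2 * h.Ic r) r := by
  refine HasDerivAt.congr_deriv ((((h.dp₂ r hr).fun_mul (h.dt₁ r hr)).fun_sub ((h.dp₁ r hr).fun_mul (h.dt₂ r hr))).fun_add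
    (((h.da₂ r hr).fun_mul (h.ds₁ r hr)).fun_sub ((h.da₁ r hr).fun_mul (h.ds₂ r hr)))) ?_
  simp only [Ib, Z, A, T, Fl, Ia, Ic]; ring

theorem dNf (hr : 0 < r) : HasDerivAt h.Nf (h.Nf' r) r := by
  refine HasDerivAt.congr_deriv ((h.dμ r hr).fun_mul (h.dIb hr)) ?_
  simp only [Nf']; ring

theorem dEn (hr : 0 < r) : HasDerivAt h.En (h.En' r) r := by
  have h1 := (h.dμ r hr).fun_mul (((((h.dPa hr).fun_add (h.dPt hr)).const_mul h.σ).fun_add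
    ((h.dFl hr).const_mul h.ω)).fun_add ((h.dU r hr).fun_mul (h.dGr hr)))
  have h2 := (h.dμ r hr).fun_mul (((h.dGr hr).fun_add ((h.d_inv hr).fun_mul (h.dZ hr))).fun_add
    ((h.dW r hr).fun_mul (h.dA hr)))
  refine HasDerivAt.congr_deriv (h1.fun_sub (((h.dU r hr).fun_mul h2).div_const 2)) ?_
  simp only [En', Gr, Z]
  field_simp
  ring

theorem dMor {c c' P' : ℝ → ℝ} (hr : 0 < r) (hc : HasDerivAt c (c' r) r)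
    (hP : HasDerivAt (fun r => r * h.H r) (P' r) r) :
    HasDerivAt (h.Mor c) (h.Mor' c c' P' r) r := by
  have hi := hasDerivAt_id' r
  have h1 := (((hi.fun_mul (h.dGr hr)).div_const 2).fun_add (hc.fun_mul (h.dPt hr))).fun_add
    (((hP.const_add 1).fun_sub hc).fun_mul (h.dPa hr))
  have h2 := (h1.fun_sub ((hi.fun_mul ((h.d_inv hr).fun_mul (h.dZ hr))).div_const 2)).fun_sub
    (((hi.fun_mul (h.dW r hr)).fun_mul (h.dA hr)).div_const 2)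
  have h3 := ((h2.fun_add (((h.dU r hr).fun_mul hc).fun_mul (h.dRa hr))).fun_sub
    ((hi.const_mul h.σ).fun_mul (h.dRa hr))).fun_sub ((hi.const_mul h.ω).fun_mul (h.dIa hr))
  refine HasDerivAt.congr_deriv ((h.dμ r hr).fun_mul h3) ?_
  simp only [Mor', Gr, Z]
  field_simp
  ring

end Hyd

end P139
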