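import Vale.Agent.P139.Defs

/-! P139 part M: definitions shared by MA and MB, the MB → MA interface (`S_B`, `S_E`) and shared
elementary statements. -/

open Complex Set Filter Topology MeasureTheory
open scoped ContDiff ComplexConjugate

noncomputable section
namespace P139

variable {m : ℕ}

/-- admissible radial functions -/
def Adm (f : ℝ → ℂ) : Prop :=
  ContDiffOn ℝ 48 f (Ioi 0) ∧ ∀ j ≤ 48, ∃ C : ℝ, ∀ r : ℝ, 0 < r → ‖iteratedDeriv j f r‖ ≤ C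

/-- admissible solution of `(𝓛 - λ)(f,g) = c₀ z0 + c₁ z1` -/
structure Prof.Sol (P : Prof m) (l : ℕ) (lam c₀ c₁ : ℂ) (f g : ℝ → ℂ) : Prop where
  af : Adm f
  ag : Adm g
  eF : ∀ r : ℝ, 0 < r → P.LF l f g r - lam * f r = c₀ * P.z0 l r + c₁ * P.z1 l r
  eG : ∀ r : ℝ, 0 < r → P.LG l f g r - lam * g r = c₀ * conj (P.z0 l r) + c₁ * conj (P.z1 l r)

/-- `f = r^l F(r²)`, `F = toS l f` -/
def toS (l : ℕ) (f : ℝ → ℂ) (s : ℝ) : ℂ := f (√s) / ((√s : ℝ) : ℂ) ^ l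

def Prof.V1s (P : Prof m) (s : ℝ) : ℂ := ((m : ℂ) + 1) * (P.Θ s * conj (P.Θ s)) ^ m
def Prof.V2s (P : Prof m) (s : ℝ) : ℂ := (m : ℂ) * (P.Θ s * conj (P.Θ s)) ^ (m - 1) * P.Θ s ^ 2
/-- the modes `z0`, `z1` in the variable `s` -/
def Prof.Y0 (P : Prof m) (l : ℕ) (s : ℝ) : ℂ := y0 P.Θ l s
def Prof.Y1 (P : Prof m) (l : ℕ) (s : ℝ) : ℂ :=
  if l = 0 then ((gam m : ℂ) - I * P.β) * P.Θ s + s * deriv P.Θ s else 0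

/-- the system in the variable `s` -/
structure Prof.SEq (P : Prof m) (l : ℕ) (lam c₀ c₁ : ℂ) (F G : ℝ → ℂ) : Prop where
  sF : ContDiffOn ℝ 48 F (Ioi 0)
  sG : ContDiffOn ℝ 48 G (Ioi 0)
  eF : ∀ s : ℝ, 0 < s → FreeF P.β l (lam + gam m) F s - I * (P.V1s s * F s + P.V2s s * G s)
    = c₀ * P.Y0 l s + c₁ * P.Y1 l s
  eG : ∀ s : ℝ, 0 < s → FreeG P.β l (lam + gam m) G s + I * (P.V1s s * G s + conj (P.V2s s) * F s)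
    = c₀ * conj (P.Y0 l s) + c₁ * conj (P.Y1 l s)

/-- eigenvalue of `z0` -/
def ev0 (l : ℕ) : ℂ := if l = 1 then 1 / 2 else 0

/-! hydrodynamic variables: `f = q (α + iθ)`, `g = q̄ (α - iθ)` -/
def Prof.al (P : Prof m) (f g : ℝ → ℂ) (r : ℝ) : ℂ := (f r / P.q r + g r / conj (P.q r)) / 2
def Prof.th (P : Prof m) (f g : ℝ → ℂ) (r : ℝ) : ℂ := (f r / P.q r - g r / conj (P.q r)) / (2 * I)
def Prof.rho (P : Prof m) (r : ℝ) : ℝ := ‖P.q r‖ ^ 2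
/-- `ρ'/ρ` -/
def Prof.lr (P : Prof m) (r : ℝ) : ℝ := 2 * (deriv P.q r / P.q r).re
def Prof.UU (P : Prof m) (r : ℝ) : ℝ := r / 2 + 2 * (deriv P.q r / P.q r).im
def Prof.WW (P : Prof m) (r : ℝ) : ℝ := 2 * (m : ℝ) * ‖P.q r‖ ^ (2 * m)
/-- `𝒟 u = μ⁻¹ (μ u')' - ν u / r²`, `μ = ρ r^11`, `lr = ρ'/ρ` -/
def DD (l : ℕ) (lr : ℝ → ℝ) (u : ℝ → ℂ) (r : ℝ) : ℂ :=
  deriv (deriv u) r + (11 / (r : ℂ) + lr r) * deriv u r - (l : ℂ) * ((l : ℂ) + 10) / (r : ℂ) ^ 2 * u r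

/-- squared data at `s` -/
def dat (F G : ℝ → ℂ) (s : ℝ) : ℝ :=
  ‖F s‖ ^ 2 + ‖deriv F s‖ ^ 2 + ‖G s‖ ^ 2 + ‖deriv G s‖ ^ 2

/-- integrand of `M_k` -/
def mk (l k : ℕ) (F : ℝ → ℂ) (s : ℝ) : ℝ := ‖iteratedDeriv k F s‖ ^ 2 * s ^ (l + k + 5)

/-! ### MB → MA -/

/-- B0, B1, B2 glued: no source-free admissible solutions outside a bounded parameter range -/
def S_B : Prop := ∀ (D : FreeData) (L : Lim D), ∃ (σ₀ : ℝ) (l₀ : ℕ) (ω₁ : ℝ), ∀ᶠ j in atTop,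
  ∀ (l : ℕ) (lam : ℂ), 0 ≤ lam.re → (σ₀ ≤ lam.re ∨ l₀ ≤ l ∨ ω₁ ≤ |lam.im|) →
    ∀ f g : ℝ → ℂ, (L.P j).Sol l lam 0 0 f g → ∀ r : ℝ, 0 < r → f r = 0 ∧ g r = 0

/-- E0, E1 for bounded parameters, with sources -/
def S_E : Prop := ∀ (D : FreeData) (L : Lim D) (l : ℕ) (K : ℝ), ∃ C : ℝ, ∀ᶠ j in atTop,
  ∀ lam c₀ c₁ : ℂ, 0 ≤ lam.re → ‖lam‖ ≤ K → ∀ f g : ℝ → ℂ, (L.P j).Sol l lam c₀ c₁ f g →
    ∀ k : ℕ, 7 ≤ k → k ≤ 41 →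
      IntegrableOn (mk l k (toS l f)) (Ioi ((L.R + 1) ^ 2)) ∧
      IntegrableOn (mk l k (toS l g)) (Ioi ((L.R + 1) ^ 2)) ∧
      (∫ s in Ioi ((L.R + 1) ^ 2), mk l k (toS l f) s) +
        (∫ s in Ioi ((L.R + 1) ^ 2), mk l k (toS l g) s) ≤
        C * (dat (toS l f) (toS l g) ((L.R + 1) ^ 2) + ‖c₀‖ ^ 2 + ‖c₁‖ ^ 2)

/-! ### shared elementary statements -/

/-- the potentials are small symbols outside the ball -/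
def S_ext : Prop := ∀ (D : FreeData) (L : Lim D) (δ : ℝ), 0 < δ → ∀ (K : ℕ) (ε : ℝ), 0 < ε →
  ∀ᶠ j in atTop, ∀ i ≤ K, ∀ s : ℝ, (L.R + δ) ^ 2 ≤ s →
    ‖iteratedDeriv i (L.P j).V1s s‖ ≤ ε * s ^ (-1 - (i : ℝ)) ∧
    ‖iteratedDeriv i (L.P j).V2s s‖ ≤ ε * s ^ (-1 - (i : ℝ))

/-- passage to the variable `s` -/
def S_seq : Prop := ∀ (m : ℕ) (P : Prof m) (l : ℕ),
  (∀ (lam c₀ c₁ : ℂ) (f g : ℝ → ℂ), P.Sol l lam c₀ c₁ f g →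
    P.SEq l lam c₀ c₁ (toS l f) (toS l g)) ∧
  (∀ f : ℝ → ℂ, ContDiffOn ℝ 48 f (Ioi 0) → ∀ r : ℝ, 0 < r →
    f r = (r : ℂ) ^ l * toS l f (r ^ 2) ∧
    deriv f r = (l : ℂ) / r * f r + 2 * (r : ℂ) ^ (l + 1) * deriv (toS l f) (r ^ 2)) ∧
  (∀ s : ℝ, 0 < s → toS l (P.z0 l) s = P.Y0 l s ∧ toS l (P.z1 l) s = P.Y1 l s) ∧
  ContDiffOn ℝ ∞ P.V1s (Ioi 0) ∧ ContDiffOn ℝ ∞ P.V2s (Ioi 0) ∧
  ContDiffOn ℝ ∞ (P.Y0 l) (Ioi 0) ∧ ContDiffOn ℝ ∞ (P.Y1 l) (Ioi 0)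

/-- hydrodynamic form of the system -/
def S_hyd : Prop := ∀ (m : ℕ) (P : Prof m), 1 ≤ m →
  (ContDiff ℝ ∞ P.q ∧ (∀ r, P.q r ≠ 0) ∧ ContDiff ℝ ∞ P.lr ∧ ContDiff ℝ ∞ P.UU ∧ ContDiff ℝ ∞ P.WW ∧
    (∀ r : ℝ, HasDerivAt P.rho (P.rho r * P.lr r) r) ∧
    (∀ r : ℝ, HasDerivAt P.WW ((m : ℝ) * P.WW r * P.lr r) r) ∧
    ∀ r : ℝ, HasDerivAt (fun r => P.rho r * r ^ 11 * P.UU r)
      (2 * (3 - gam m) * (P.rho r * r ^ 11)) r) ∧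
  ∀ (l : ℕ) (lam : ℂ) (f g : ℝ → ℂ), ContDiffOn ℝ 48 f (Ioi 0) → ContDiffOn ℝ 48 g (Ioi 0) →
    ContDiffOn ℝ 48 (P.al f g) (Ioi 0) ∧ ContDiffOn ℝ 48 (P.th f g) (Ioi 0) ∧
    ∀ r : ℝ, 0 < r →
      lam * P.al f g r + P.UU r * deriv (P.al f g) r = -DD l P.lr (P.th f g) r
        - P.al (fun x => P.LF l f g x - lam * f x) (fun x => P.LG l f g x - lam * g x) r ∧
      lam * P.th f g r + P.UU r * deriv (P.th f g) r = DD l P.lr (P.al f g) r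
        - P.WW r * P.al f g r
        - P.th (fun x => P.LF l f g x - lam * f x) (fun x => P.LG l f g x - lam * g x) r

/-- the symmetry modes are admissible -/
def S_zadm : Prop := ∀ (m : ℕ) (P : Prof m) (l : ℕ), 1 ≤ m →
  Adm (P.z0 l) ∧ Adm (fun r => conj (P.z0 l r)) ∧ Adm (P.z1 l) ∧ Adm (fun r => conj (P.z1 l r))

/-- the symmetry modes are eigenfunctions -/
def S_zeq : Prop := ∀ (m : ℕ) (P : Prof m) (l : ℕ), 1 ≤ m → ∀ r : ℝ, 0 < r →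
  P.LF l (P.z0 l) (fun r => conj (P.z0 l r)) r = ev0 l * P.z0 l r ∧
  P.LG l (P.z0 l) (fun r => conj (P.z0 l r)) r = ev0 l * conj (P.z0 l r) ∧
  P.LF l (P.z1 l) (fun r => conj (P.z1 l r)) r = P.z1 l r ∧
  P.LG l (P.z1 l) (fun r => conj (P.z1 l r)) r = conj (P.z1 l r)

/-- linearity -/
def S_lin : Prop := ∀ (m : ℕ) (P : Prof m) (l : ℕ) (lam c₀ c₁ d₀ d₁ a b : ℂ) (f g u v : ℝ → ℂ),
  P.Sol l lam c₀ c₁ f g → P.Sol l lam d₀ d₁ u v →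
  P.Sol l lam (a * c₀ + b * d₀) (a * c₁ + b * d₁) (fun r => a * f r + b * u r)
    (fun r => a * g r + b * v r)

/-- zero data and zero source give the zero solution -/
def S_zero : Prop := ∀ (m : ℕ) (P : Prof m) (l : ℕ) (lam : ℂ) (F G : ℝ → ℂ) (s₁ : ℝ), 0 < s₁ →
  P.SEq l lam 0 0 F G → dat F G s₁ = 0 → ∀ s : ℝ, 0 < s → F s = 0 ∧ G s = 0

end P139
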