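import Vale.Agent.P139.MICa

/-! P139 part MI: kernel evaluation of the disc certificate for `l = 1`, first column. -/

namespace P139.MIC

theorem col10 : col 1 0 = true := by decide +kernel

end P139.MIC
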