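import Vale.Agent.P139.MICa

/-! P139 part MI: kernel evaluation of the disc certificate for `l = 2`. -/

namespace P139.MIC

theorem col20 : col 2 0 = true := by decide +kernel
theorem col21 : col 2 1 = true := by decide +kernel
theorem col22 : col 2 2 = true := by decide +kernel
theorem col23 : col 2 3 = true := by decide +kernel
theorem col24 : col 2 4 = true := by decide +kernel

end P139.MIC
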