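import Vale.Agent.P139.MICa

/-! P139 part MI: kernel evaluation of the disc certificate for `l = 3`. -/

namespace P139.MIC

theorem col30 : col 3 0 = true := by decide +kernel
theorem col31 : col 3 1 = true := by decide +kernel
theorem col32 : col 3 2 = true := by decide +kernel
theorem col33 : col 3 3 = true := by decide +kernel
theorem col34 : col 3 4 = true := by decide +kernel

end P139.MIC
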