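import Vale.Agent.P139.MICa

/-! P139 part MI: kernel evaluation of the disc certificate for `l = 1`, other columns. -/

namespace P139.MIC

theorem col11 : col 1 1 = true := by decide +kernel
theorem col12 : col 1 2 = true := by decide +kernel
theorem col13 : col 1 3 = true := by decide +kernel
theorem col14 : col 1 4 = true := by decide +kernel
theorem mirAll_ok : mirAll = true := by decide +kernel

end P139.MIC
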