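import Vale.Agent.P139.MICd
import Vale.Agent.P139.MICe0
import Vale.Agent.P139.MICe1
import Vale.Agent.P139.MICe2
import Vale.Agent.P139.MICe3
import Vale.Agent.P139.MICe4
import Vale.Agent.P139.MICe5

/-! P139 part MI: the disc certificate and the Miranda certificate. -/

open Complex Set
open scoped ComplexConjugate

namespace P139

namespace MIC

theorem col_all (l : ℕ) (hl : l ≤ 4) (i : ℕ) (hi : i ≤ 4) : col l i = true := by
  interval_cases l <;> interval_cases i
  exacts [col00, col01, col02, col03, col04, col10, col11, col12, col13, col14,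
    col20, col21, col22, col23, col24, col30, col31, col32, col33, col34,
    col40, col41, col42, col43, col44]

end MIC

open MIC

theorem s_far : S_far := by
  intro β s hB l hl lam r0 r1 i0 i1 hn p q p' q' tf tg h1 h2
  have hS : (SC : ℂ) ≠ 0 := by exact_mod_cast SC_pos.ne'
  have key := far_ok ⟨hB, hn, ts_of tf, ts_of tg, by simpa using h1, by simp [h2]⟩
    (col_all l hl) r0 r1 i0 i1
  simpa [hS] using key

theorem s_mir : S_mir := by
  have hm := mirAll_ok
  simp only [mirAll, Bool.and_eq_true, List.all_eq_true, List.mem_range] at hm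
  obtain ⟨⟨m0, m1⟩, m2⟩ := hm
  refine ⟨11618069691 / 4294967296, 11618309691 / 4294967296, 1437786682 / 4294967296,
    1437906682 / 4294967296, 42 / 25, by norm_num, by norm_num, by norm_num [Bx], by norm_num [Bx],
    fun β hβ x hx p q h => ⟨fun h0 => ?_, fun h0 => ?_⟩⟩
  · obtain ⟨d, hd⟩ := Option.isSome_iff_exists.1 m0
    obtain ⟨y, -, hy⟩ := enc_ok h (b0 := 1437846682) (z0 := 11618189691) (rb := 60000)
      (rz := 120000) (by
        simp only [SC, Nat.cast_ofNat, Int.cast_ofNat]
        exact abs_le.2 ⟨by linarith [hβ.1], by linarith [hβ.2]⟩) (by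
        simp only [SC, Nat.cast_ofNat, Int.cast_ofNat]
        exact abs_le.2 ⟨by linarith [hx.1], by linarith [hx.2]⟩) hd
    have hS : (SC : ℂ) ≠ 0 := by exact_mod_cast SC_pos.ne'
    rw [h0, mul_zero] at hy
    exact (mul_eq_zero.1 hy).resolve_left hS
  · obtain ⟨i, hi, a1, a2⟩ := cell 3 (t := (4294967296 * β - 1437786682) / 30000)
      (by linarith [hβ.1]) (by push_cast; linarith [hβ.2])
    obtain ⟨j, hj, b1, b2⟩ := cell 7 (t := (4294967296 * x - 11618069691) / 30000)
      (by linarith [hx.1]) (by push_cast; linarith [hx.2])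
    have hb : |SC * β - ((1437801682 + 30000 * i : ℕ) : ℤ)| ≤ ((15000 : ℕ) : ℝ) := by
      simp only [SC]
      push_cast
      exact abs_le.2 ⟨by linarith, by linarith⟩
    have hz : |SC * x - ((11618084691 + 30000 * j : ℕ) : ℤ)| ≤ ((15000 : ℕ) : ℝ) := by
      simp only [SC]
      push_cast
      exact abs_le.2 ⟨by linarith, by linarith⟩
    refine ⟨fun e => ?_, fun e => ?_, fun e => ?_, fun e => ?_⟩
    · have := mir_ok h h0 hb (by rw [e]; norm_num [SC]) (m1 i (by omega)).1
      push_cast at this
      linarith
    · have := mir_ok h h0 hb (by rw [e]; norm_num [SC]) (m1 i (by omega)).2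
      push_cast at this
      linarith
    · have := mir_ok h h0 (by rw [e]; norm_num [SC]) hz (m2 j (by omega)).1
      push_cast at this
      linarith
    · have := mir_ok h h0 (by rw [e]; norm_num [SC]) hz (m2 j (by omega)).2
      push_cast at this
      linarith

end P139
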