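import Vale.Agent.P139.MINear

/-! P139 part MI: kernel evaluation of the near-root certificates and the final statements. -/

open Complex Set
open scoped ComplexConjugate

namespace P139
namespace MINear

open Dsc

theorem cert00 : quad (ok0 0) 6 268435456 268435456 268435456 = true := by decide +kernel
theorem cert00' : quad (ok0 0) 6 268435456 (-268435456) 268435456 = true := by decide +kernel
theorem cert01 : quad (ok0 1) 6 4294967296 0 536870912 = true := by decide +kernel
theorem cert1 : quad ok1 6 2147483648 0 536870912 = true := by decide +kernel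

end MINear

open MINear Dsc

theorem s_near0 : S_near0 := by
  intro β s hb c hc lam h0 hs
  have key : ∀ p q P Q : ℕ → ℂ, TowS (lam - I * β) (c - I * β) 0 s p q P Q → p 0 = 0 →
      ∃ d : ℂ, 0 < (1 - 2 * c) * d.re ∧ q 0 = d * P 0 := by
    obtain ⟨s1, s2⟩ := hs
    rw [abs_le] at s1 s2
    rcases hc with rfl | rfl
    · have h := fun x y w h => quad_sound (sound0 hb 0 (Or.inl rfl)) 6 x y w h lam
      rw [Int.cast_zero] at h
      rcases le_total 0 lam.im with h1 | h1
      · exact h _ _ _ cert00 ⟨abs_le.2 (by rw [S_real]; push_cast; constructor <;> linarith),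
          abs_le.2 (by rw [S_real]; push_cast; constructor <;> linarith)⟩ h0 s2.2
      · exact h _ _ _ cert00' ⟨abs_le.2 (by rw [S_real]; push_cast; constructor <;> linarith),
          abs_le.2 (by rw [S_real]; push_cast; constructor <;> linarith)⟩ h0 s2.2
    · have h := fun x y w h => quad_sound (sound0 hb 1 (Or.inr rfl)) 6 x y w h lam
      rw [Int.cast_one] at h
      exact h _ _ _ cert01 ⟨abs_le.2 (by rw [S_real]; push_cast; constructor <;> linarith),
        abs_le.2 (by rw [S_real]; push_cast; constructor <;> linarith)⟩ h0 s2.2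
  refine ⟨fun p q hT hp => ?_, key⟩
  obtain ⟨d, -, e⟩ := key p q _ _ (tow_src hT (by simpa using h0)
    (by rcases hc with rfl | rfl <;> simp)) hp
  rw [e, mul_zero]

theorem s_near1 : S_near1 := by
  intro β s hb lam hs
  obtain ⟨s1, s2⟩ := hs
  rw [abs_le] at s1 s2
  have h0 : 0 ≤ lam.re := by linarith
  have key := quad_sound (sound1 hb) 6 _ _ _ cert1 lam
    ⟨abs_le.2 (by rw [S_real]; push_cast; constructor <;> linarith),
      abs_le.2 (by rw [S_real]; push_cast; constructor <;> linarith)⟩ h0 s2.2
  refine ⟨fun p q hT hq => ?_, key⟩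
  obtain ⟨d, -, e⟩ := key p q _ _ (tow_src hT (by simpa using h0) (by norm_num)) rfl hq
  rw [e, mul_zero]

end P139
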