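import Vale.Agent.P139.MIMain
import Vale.Agent.P139.MINear2
import Vale.Agent.P139.MIC

/-! P139: part MI is complete. -/

namespace P139

theorem s_partMI : PartMI := partMI_of s_line s_far s_mir s_near0 s_near1

end P139
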