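import Vale.Agent.P139.MICa

/-! P139 part MI: soundness of one step of the disc arithmetic. -/

open Complex
open scoped ComplexConjugate

namespace P139.MIC

/-- a Gaussian integer as a complex number -/
def ci (x y : ℤ) : ℂ := ⟨x, y⟩

@[simp] theorem ci_re (x y : ℤ) : (ci x y).re = x := rfl
@[simp] theorem ci_im (x y : ℤ) : (ci x y).im = y := rfl

def Dk.mem (d : Dk) (w : ℂ) : Prop := ‖w - ci d.x d.y‖ ≤ d.r

theorem le_of_sq {a b : ℝ} (h : a ^ 2 ≤ b ^ 2) (hb : 0 ≤ b) : a ≤ b :=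
  (abs_le_of_sq_le_sq' h hb).2

theorem nw_pos (n y : ℕ) : 0 < nw n y := Nat.succ_pos _

theorem nw_spec (n y : ℕ) (hy : 0 < y) : n ≤ nw n y * nw n y := by
  have h1 : n < y * (n / y + 1) := Nat.lt_mul_div_succ n hy
  have h2 : y + n / y + 1 ≤ 2 * nw n y := by unfold nw; omega
  have h3 : (y + n / y + 1) * (y + n / y + 1) ≤ (2 * nw n y) * (2 * nw n y) :=
    Nat.mul_le_mul h2 h2
  have h4 : 4 * (y * (n / y + 1)) ≤ (y + n / y + 1) * (y + n / y + 1) := by
    generalize n / y = k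
    zify
    nlinarith [sq_nonneg ((y : ℤ) - k - 1)]
  nlinarith

theorem nsq_eq (x y : ℤ) :
    ((x.natAbs * x.natAbs + y.natAbs * y.natAbs : ℕ) : ℝ) = ‖ci x y‖ ^ 2 := by
  rw [Complex.sq_norm, Complex.normSq_apply, ci_re, ci_im]
  have h : ((x.natAbs * x.natAbs + y.natAbs * y.natAbs : ℕ) : ℤ) = x * x + y * y := by
    push_cast
    rw [abs_mul_abs_self, abs_mul_abs_self]
  rw [← Int.cast_natCast, h]
  push_cast
  rfl

theorem nup_pos (x y : ℤ) : 0 < nup x y := nw_pos _ _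

theorem nup_spec (x y : ℤ) : ‖ci x y‖ ≤ nup x y := by
  have h : x.natAbs * x.natAbs + y.natAbs * y.natAbs ≤ nup x y * nup x y :=
    nw_spec _ _ (nw_pos _ _)
  have h' : ‖ci x y‖ ^ 2 ≤ (nup x y : ℝ) ^ 2 := by
    rw [← nsq_eq, sq]
    exact_mod_cast h
  exact le_of_sq h' (Nat.cast_nonneg _)

theorem low_spec (x y : ℤ) :
    (((x.natAbs * x.natAbs + y.natAbs * y.natAbs) / nup x y : ℕ) : ℝ) ≤ ‖ci x y‖ := by
  have h0 : (0 : ℝ) < nup x y := by exact_mod_cast nup_pos x y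
  refine Nat.cast_div_le.trans ?_
  rw [nsq_eq, div_le_iff₀ h0, sq]
  exact mul_le_mul_of_nonneg_left (nup_spec x y) (norm_nonneg _)

theorem ediv_err (X : ℤ) {d : ℕ} (hd : 0 < d) : |(X : ℝ) / d - ((X / d : ℤ) : ℝ)| ≤ 1 := by
  have h0 : (0 : ℤ) < d := by exact_mod_cast hd
  have h0' : (0 : ℝ) < d := by exact_mod_cast hd
  have h1 : ((X / d * d : ℤ) : ℝ) ≤ X := by exact_mod_cast Int.ediv_mul_le X h0.ne'
  have h2 : (X : ℝ) < ((X / d + 1) * d : ℤ) := by exact_mod_cast Int.lt_ediv_add_one_mul_self X h0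
  push_cast at h1 h2
  have h3 : ((X / d : ℤ) : ℝ) ≤ X / d := by rw [le_div_iff₀ h0']; exact h1
  have h4 : (X : ℝ) / d ≤ ((X / d : ℤ) : ℝ) + 1 := by rw [div_le_iff₀ h0']; exact h2.le
  rw [abs_le]
  constructor <;> linarith

theorem round_err (X Y : ℤ) {d : ℕ} (hd : 0 < d) : ‖ci X Y / d - ci (X / d) (Y / d)‖ ≤ 2 := by
  refine (Complex.norm_le_abs_re_add_abs_im _).trans ?_
  have h1 := ediv_err X hd
  have h2 := ediv_err Y hd
  simp only [sub_re, sub_im, div_natCast_re, div_natCast_im, ci_re, ci_im]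
  linarith

theorem ndiv_le (X : ℕ) {d : ℕ} (hd : 0 < d) : (X : ℝ) / d ≤ ((X / d : ℕ) : ℝ) + 1 := by
  have h0' : (0 : ℝ) < d := by exact_mod_cast hd
  have h : X < d * (X / d + 1) := Nat.lt_mul_div_succ X hd
  have h' : (X : ℝ) < d * (((X / d : ℕ) : ℝ) + 1) := by exact_mod_cast h
  rw [div_le_iff₀ h0']
  linarith

/-- exact image of a disc under inversion -/
theorem inv_disc {w₀ e : ℂ} {ρ : ℝ} (he : ‖e‖ ≤ ρ) (hw : ρ < ‖w₀‖) :
    ‖1 / (w₀ - e) - conj w₀ / ((‖w₀‖ ^ 2 - ρ ^ 2 : ℝ) : ℂ)‖ ≤ ρ / (‖w₀‖ ^ 2 - ρ ^ 2) := by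
  have hρ : 0 ≤ ρ := (norm_nonneg _).trans he
  have hd : 0 < ‖w₀‖ ^ 2 - ρ ^ 2 := by nlinarith
  have hne : w₀ - e ≠ 0 := fun h => by
    rw [sub_eq_zero] at h
    rw [h] at hw
    linarith
  have hdc : ((‖w₀‖ ^ 2 - ρ ^ 2 : ℝ) : ℂ) ≠ 0 := ofReal_ne_zero.2 hd.ne'
  have hn : ((‖w₀‖ ^ 2 : ℝ) : ℂ) = conj w₀ * w₀ := by
    rw [Complex.sq_norm, Complex.normSq_eq_conj_mul_self]
  have e1 : 1 / (w₀ - e) - conj w₀ / ((‖w₀‖ ^ 2 - ρ ^ 2 : ℝ) : ℂ) =
      (conj w₀ * e - (ρ ^ 2 : ℝ)) / ((w₀ - e) * ((‖w₀‖ ^ 2 - ρ ^ 2 : ℝ) : ℂ)) := by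
    rw [div_sub_div _ _ hne hdc]
    congr 1
    rw [ofReal_sub, hn]
    ring
  have key : ‖conj w₀ * e - (ρ ^ 2 : ℝ)‖ ≤ ρ * ‖w₀ - e‖ := by
    refine le_of_sq ?_ (by positivity)
    have h1 : ‖e‖ ^ 2 ≤ ρ ^ 2 := by gcongr
    have h2 := mul_nonneg hd.le (sub_nonneg.2 h1)
    rw [mul_pow]
    simp only [Complex.sq_norm, Complex.normSq_apply, sub_re, sub_im, mul_re, mul_im, conj_re,
      conj_im, ofReal_re, ofReal_im] at h2 ⊢
    linarith
  have hp : 0 < ‖w₀ - e‖ := norm_pos_iff.2 hne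
  rw [e1, norm_div, norm_mul, Complex.norm_real, Real.norm_of_nonneg hd.le,
    div_le_div_iff₀ (by positivity) hd]
  calc _ ≤ ρ * ‖w₀ - e‖ * (‖w₀‖ ^ 2 - ρ ^ 2) := by gcongr
    _ = _ := by ring

theorem step_an {a a₀ u u₀ C M : ℂ} {ρ ra W r₂ V : ℝ} (ha : ‖a - a₀‖ ≤ ra) (hu : ‖u - u₀‖ ≤ ρ)
    (hW : W ≤ ‖a₀ - M - u₀‖) (hlt : ρ + ra < W)
    (hC : ‖a₀ * (a₀ - M) * conj (a₀ - M - u₀) / ((‖a₀ - M - u₀‖ ^ 2 - ρ ^ 2 : ℝ) : ℂ) - a₀ - C‖ ≤ 2)
    (hr : ‖a₀ * (a₀ - M)‖ * ρ / (‖a₀ - M - u₀‖ ^ 2 - ρ ^ 2) + 2 ≤ r₂) (hV : ‖C - u₀‖ ≤ V) :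
    a - M - u ≠ 0 ∧ ‖a * u / (a - M - u) - C‖ ≤ r₂ + ra * (V + r₂ + ρ) / (W - ρ - ra) := by
  have hra : 0 ≤ ra := (norm_nonneg _).trans ha
  have hρ : 0 ≤ ρ := (norm_nonneg _).trans hu
  have h1 : W - ρ - ra ≤ ‖a - M - u‖ := by
    have e : a₀ - M - u₀ = (a - M - u) - (a - a₀) + (u - u₀) := by ring
    have := (norm_add_le ((a - M - u) - (a - a₀)) (u - u₀)).trans
      (add_le_add (norm_sub_le _ _) le_rfl)
    rw [← e] at this
    linarith
  have hp : 0 < W - ρ - ra := by linarith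
  have hne : a - M - u ≠ 0 := norm_pos_iff.1 (hp.trans_le h1)
  have h2 := inv_disc hu (show ρ < ‖a₀ - M - u₀‖ by linarith)
  have e0 : a₀ - M - u₀ - (u - u₀) = a₀ - M - u := by ring
  rw [e0] at h2
  have hne0 : a₀ - M - u ≠ 0 := fun h => by
    have e : a₀ - M - u₀ = u - u₀ := by linear_combination h
    rw [e] at hW
    linarith
  have h3 : ‖a₀ * u / (a₀ - M - u) - C‖ ≤ r₂ := by
    have e : a₀ * u / (a₀ - M - u) - C = a₀ * (a₀ - M) * (1 / (a₀ - M - u)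
        - conj (a₀ - M - u₀) / ((‖a₀ - M - u₀‖ ^ 2 - ρ ^ 2 : ℝ) : ℂ))
        + (a₀ * (a₀ - M) * conj (a₀ - M - u₀) / ((‖a₀ - M - u₀‖ ^ 2 - ρ ^ 2 : ℝ) : ℂ) - a₀ - C) := by
      have : a₀ * u / (a₀ - M - u) = a₀ * (a₀ - M) * (1 / (a₀ - M - u)) - a₀ := by
        field_simp
        ring
      rw [this]
      ring
    rw [e]
    refine (norm_add_le _ _).trans ?_
    rw [norm_mul (a₀ * (a₀ - M))]
    have := mul_le_mul_of_nonneg_left h2 (norm_nonneg (a₀ * (a₀ - M)))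
    rw [← mul_div_assoc] at this
    linarith
  have h4 : ‖a₀ * u / (a₀ - M - u) - u‖ ≤ V + r₂ + ρ := by
    have e : a₀ * u / (a₀ - M - u) - u = (a₀ * u / (a₀ - M - u) - C) + (C - u₀) - (u - u₀) := by
      ring
    rw [e]
    have := (norm_sub_le ((a₀ * u / (a₀ - M - u) - C) + (C - u₀)) (u - u₀)).trans
      (add_le_add (norm_add_le _ _) le_rfl)
    linarith
  refine ⟨hne, ?_⟩
  have e : a * u / (a - M - u) - C = (a₀ * u / (a₀ - M - u) - C)
      - (a - a₀) * (a₀ * u / (a₀ - M - u) - u) / (a - M - u) := by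
    field_simp
    ring
  rw [e]
  refine (norm_sub_le _ _).trans (add_le_add h3 ?_)
  rw [norm_div, norm_mul]
  have : 0 ≤ V + r₂ + ρ := (norm_nonneg _).trans h4
  gcongr

theorem step_ok {M ax ay z0 : ℤ} {ra rz : ℕ} {d e : Dk} (h : step M ax ay ra z0 rz d = some e)
    {a y : ℂ} {z : ℝ} (ha : ‖a - ci ax ay‖ ≤ ra) (hz : |z - z0| ≤ rz) (hy : d.mem y) :
    a - M - (y + I * z) ≠ 0 ∧ e.mem (a * (y + I * z) / (a - M - (y + I * z))) := by
  unfold step step0 step1 at h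
  generalize hn : (ax - M - d.x).natAbs * (ax - M - d.x).natAbs
      + (ay - (d.y + z0)).natAbs * (ay - (d.y + z0)).natAbs = n at h
  generalize hW : n / nup (ax - M - d.x) (ay - (d.y + z0)) = W at h
  cases hb : Nat.blt (d.r + rz + ra) W with
  | false => simp [hb] at h
  | true =>
  rw [hb, cond_true, Option.some.injEq] at h
  have hlt : d.r + rz + ra < W := by simpa [Nat.blt_eq] using hb
  have hw0 : ci ax ay - M - ci d.x (d.y + z0) = ci (ax - M - d.x) (ay - (d.y + z0)) := by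
    apply Complex.ext <;> simp
  have hnr : (n : ℝ) = ‖ci ax ay - M - ci d.x (d.y + z0)‖ ^ 2 := by rw [hw0, ← hn, nsq_eq]
  have hWr : (W : ℝ) ≤ ‖ci ax ay - M - ci d.x (d.y + z0)‖ := by
    rw [hw0, ← hW, ← hn]
    exact low_spec _ _
  have hltr : ((d.r + rz : ℕ) : ℝ) + ra < W := by exact_mod_cast hlt
  have hρ : (0 : ℝ) ≤ ((d.r + rz : ℕ) : ℝ) := Nat.cast_nonneg _
  have hra : (0 : ℝ) ≤ ra := Nat.cast_nonneg _
  have hsq : (d.r + rz) * (d.r + rz) < n := by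
    have : ((d.r + rz : ℕ) : ℝ) * ((d.r + rz : ℕ) : ℝ) < n := by
      rw [hnr]
      nlinarith
    exact_mod_cast this
  have hd : ((n - (d.r + rz) * (d.r + rz) : ℕ) : ℝ)
      = ‖ci ax ay - M - ci d.x (d.y + z0)‖ ^ 2 - ((d.r + rz : ℕ) : ℝ) ^ 2 := by
    rw [Nat.cast_sub hsq.le, hnr, Nat.cast_mul, sq ((d.r + rz : ℕ) : ℝ)]
  have hd0 : 0 < n - (d.r + rz) * (d.r + rz) := Nat.sub_pos_of_lt hsq
  generalize n - (d.r + rz) * (d.r + rz) = D at h hd hd0
  have hu : ‖(y + I * z) - ci d.x (d.y + z0)‖ ≤ ((d.r + rz : ℕ) : ℝ) := by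
    have e : (y + I * z) - ci d.x (d.y + z0) = (y - ci d.x d.y) + I * ((z - z0 : ℝ) : ℂ) := by
      apply Complex.ext <;> simp
      ring
    rw [e]
    refine (norm_add_le _ _).trans ?_
    rw [norm_mul, Complex.norm_I, one_mul, Complex.norm_real, Real.norm_eq_abs]
    push_cast
    exact add_le_add hy hz
  have hN : ci ax ay * (ci ax ay - M) = ci (ax * (ax - M) - ay * ay) (ay * (ax + (ax - M))) := by
    apply Complex.ext <;> simp
    ring
  generalize ax * (ax - M) - ay * ay = nx at h hN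
  generalize ay * (ax + (ax - M)) = ny at h hN
  generalize ax - M - d.x = wx at h hw0
  generalize ay - (d.y + z0) = wy at h hw0
  have key := step_an (M := (M : ℂ)) (C := ci ((nx * wx + ny * wy) / D - ax) ((ny * wx - nx * wy) / D - ay))
    (r₂ := ((nup nx ny * (d.r + rz) / D + 3 : ℕ) : ℝ))
    (V := nup ((nx * wx + ny * wy) / D - ax - d.x) ((ny * wx - nx * wy) / D - ay - (d.y + z0)))
    ha hu hWr hltr ?_ ?_ ?_
  · refine ⟨key.1, ?_⟩
    subst h
    unfold step2 step3 Dk.mem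
    refine key.2.trans ?_
    have hp : 0 < W - (d.r + rz) - ra := by omega
    have := ndiv_le (ra * (nup ((nx * wx + ny * wy) / D - ax - d.x)
      ((ny * wx - nx * wy) / D - ay - (d.y + z0)) + (nup nx ny * (d.r + rz) / D + 3) + (d.r + rz))) hp
    rw [Nat.cast_sub (by omega), Nat.cast_sub (by omega)] at this
    simp only [Nat.cast_add, Nat.cast_mul, Nat.cast_one] at this ⊢
    linarith
  · rw [← hd, hN, hw0]
    have e : ci nx ny * conj (ci wx wy) / ((D : ℝ) : ℂ) - ci ax ay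
        - ci ((nx * wx + ny * wy) / D - ax) ((ny * wx - nx * wy) / D - ay)
        = ci (nx * wx + ny * wy) (ny * wx - nx * wy) / D
          - ci ((nx * wx + ny * wy) / D) ((ny * wx - nx * wy) / D) := by
      have e1 : ci nx ny * conj (ci wx wy) = ci (nx * wx + ny * wy) (ny * wx - nx * wy) := by
        apply Complex.ext <;> simp
        ring
      have e2 : ∀ X Y : ℤ, ci (X - ax) (Y - ay) = ci X Y - ci ax ay := fun X Y => by
        apply Complex.ext <;> simp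
      rw [e1, e2, ofReal_natCast]
      ring
    rw [e]
    exact round_err _ _ hd0
  · rw [← hd, hN]
    have h1 := ndiv_le (nup nx ny * (d.r + rz)) hd0
    have h2 : ‖ci nx ny‖ * ((d.r + rz : ℕ) : ℝ) / D ≤ ((nup nx ny * (d.r + rz) : ℕ) : ℝ) / D := by
      rw [Nat.cast_mul]
      have := nup_spec nx ny
      gcongr
    rw [Nat.cast_add (nup nx ny * (d.r + rz) / D)]
    push_cast at h1 h2 ⊢
    linarith
  · have e2 : ∀ X Y : ℤ, ci X Y - ci d.x (d.y + z0) = ci (X - d.x) (Y - (d.y + z0)) := fun X Y => by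
      apply Complex.ext <;> simp
    rw [e2]
    exact nup_spec _ _

theorem first_ok {M ax ay : ℤ} {ra : ℕ} {e : Dk} (h : first M ax ay ra = some e)
    {a u : ℂ} (ha : ‖a - ci ax ay‖ ≤ ra) (hu : 2 * u.re ≤ -M) :
    a - M - u ≠ 0 ∧ e.mem (a * u / (a - M - u)) := by
  unfold first at h
  generalize ht : (2 * ax - 2 * ra - M).toNat = t at h
  cases hb : Nat.blt 0 t with
  | false => simp [hb] at h
  | true =>
  rw [hb, cond_true, Option.some.injEq] at h
  have ht0 : 0 < t := by simpa [Nat.blt_eq] using hb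
  have ht1 : (t : ℤ) = 2 * ax - 2 * ra - M := by omega
  have ht2 : (t : ℝ) = 2 * ax - 2 * ra - M := by exact_mod_cast ht1
  have ht3 : (0 : ℝ) < t := by exact_mod_cast ht0
  have hre : |(a - ci ax ay).re| ≤ ra := (Complex.abs_re_le_norm _).trans ha
  rw [sub_re, ci_re, abs_le] at hre
  have hw : (t : ℝ) ≤ 2 * (a - M - u).re := by
    simp only [sub_re, intCast_re]
    linarith [hre.1]
  generalize hwd : a - M - u = w at hw
  have hne : w ≠ 0 := fun h0 => by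
    rw [h0] at hw
    simp at hw
    omega
  have htc : (t : ℂ) ≠ 0 := by exact_mod_cast ht0.ne'
  refine ⟨hne, ?_⟩
  have hN : ci ax ay * (ci ax ay - M) = ci (ax * (ax - M) - ay * ay) (ay * (ax + (ax - M))) := by
    apply Complex.ext <;> simp
    ring
  generalize ax * (ax - M) - ay * ay = nx at h hN
  generalize ay * (ax + (ax - M)) = ny at h hN
  subst h
  unfold first1 Dk.mem
  have h1 : ‖1 / w - 1 / (t : ℂ)‖ ≤ 1 / t := by
    have k : ‖(t : ℂ) - w‖ ≤ ‖w‖ := by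
      refine le_of_sq ?_ (norm_nonneg _)
      simp only [Complex.sq_norm, Complex.normSq_apply, sub_re, sub_im, natCast_re, natCast_im]
      nlinarith
    have hp : 0 < ‖w‖ := norm_pos_iff.2 hne
    rw [div_sub_div _ _ hne htc, norm_div, norm_mul, Complex.norm_natCast, one_mul, mul_one,
      div_le_div_iff₀ (by positivity) ht3]
    nlinarith
  have h2 : ‖a * (a - M) - ci nx ny‖ ≤ ra * (nup (ax + (ax - M)) (2 * ay) + ra) := by
    have e : a * (a - M) - ci nx ny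
        = (a - ci ax ay) * (ci (ax + (ax - M)) (2 * ay) + (a - ci ax ay)) := by
      have e1 : ci (ax + (ax - M)) (2 * ay) = 2 * ci ax ay - M := by
        apply Complex.ext <;> simp
        ring
      rw [← hN, e1]
      ring
    rw [e, norm_mul]
    have := (norm_add_le _ _).trans (add_le_add (nup_spec (ax + (ax - M)) (2 * ay)) ha)
    gcongr
  have h3 : ‖a * (a - M)‖ ≤ nup nx ny + ra * (nup (ax + (ax - M)) (2 * ay) + ra) := by
    have := norm_add_le (ci nx ny) (a * (a - M) - ci nx ny)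
    rw [add_sub_cancel] at this
    linarith [nup_spec nx ny]
  have e : a * u / w - ci (nx / t - ax) (ny / t - ay) = a * (a - M) * (1 / w - 1 / (t : ℂ))
      + (a * (a - M) - ci nx ny) / t + (ci nx ny / t - ci (nx / t) (ny / t)) - (a - ci ax ay) := by
    have e2 : ∀ X Y : ℤ, ci (X - ax) (Y - ay) = ci X Y - ci ax ay := fun X Y => by
      apply Complex.ext <;> simp
    have e3 : u = a - M - w := by rw [← hwd]; ring
    rw [e2, e3]
    field_simp
    ring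
  simp only
  rw [e]
  have h4 := round_err nx ny ht0
  have h5 := ndiv_le (nup nx ny + 2 * (ra * (nup (ax + (ax - M)) (2 * ay) + ra))) ht0
  have h6 : ‖a * (a - M) * (1 / w - 1 / (t : ℂ))‖
      ≤ (nup nx ny + ra * (nup (ax + (ax - M)) (2 * ay) + ra)) * (1 / t) := by
    rw [norm_mul]
    gcongr
  have h7 : ‖(a * (a - M) - ci nx ny) / t‖ ≤ ra * (nup (ax + (ax - M)) (2 * ay) + ra) / t := by
    rw [norm_div, Complex.norm_natCast]
    gcongr
  refine (norm_sub_le _ _).trans ?_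
  refine (add_le_add norm_add₃_le ha).trans ?_
  simp only [Nat.cast_add, Nat.cast_mul, Nat.cast_ofNat] at h5 ⊢
  have e4 : ((nup nx ny : ℝ) + 2 * (ra * (nup (ax + (ax - M)) (2 * ay) + ra))) / t
      = (nup nx ny + ra * (nup (ax + (ax - M)) (2 * ay) + ra)) * (1 / t)
        + ra * (nup (ax + (ax - M)) (2 * ay) + ra) / t := by ring
  linarith

theorem mem_mul {p q : Dk} {v w : ℂ} (hv : p.mem v) (hw : q.mem w) : (p.mul q).mem (v * w) := by
  unfold Dk.mem Dk.mul at *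
  have e : v * w - ci (p.x * q.x - p.y * q.y) (p.x * q.y + p.y * q.x) = ci p.x p.y * (w - ci q.x q.y)
      + ci q.x q.y * (v - ci p.x p.y) + (v - ci p.x p.y) * (w - ci q.x q.y) := by
    have e1 : ci (p.x * q.x - p.y * q.y) (p.x * q.y + p.y * q.x) = ci p.x p.y * ci q.x q.y := by
      apply Complex.ext <;> simp
    rw [e1]
    ring
  simp only
  rw [e]
  refine norm_add₃_le.trans ?_
  rw [norm_mul, norm_mul, norm_mul]
  push_cast
  have h1 := nup_spec p.x p.y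
  have h2 := nup_spec q.x q.y
  gcongr

theorem mem_add {p q : Dk} {v w : ℂ} (hv : p.mem v) (hw : q.mem w) : (p.add q).mem (v + w) := by
  unfold Dk.mem Dk.add at *
  have e : v + w - ci (p.x + q.x) (p.y + q.y) = (v - ci p.x p.y) + (w - ci q.x q.y) := by
    apply Complex.ext <;> simp <;> ring
  simp only
  rw [e]
  push_cast
  exact (norm_add_le _ _).trans (add_le_add hv hw)

theorem mem_cj {p : Dk} {v : ℂ} (hv : p.mem v) : p.cj.mem (conj v) := by
  unfold Dk.mem Dk.cj at *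
  have e : conj v - ci p.x (-p.y) = conj (v - ci p.x p.y) := by
    apply Complex.ext <;> simp
  simp only
  rw [e, Complex.norm_conj]
  exact hv

theorem mem_nz {p : Dk} {v : ℂ} (hv : p.mem v) (h : p.nz = true) : v ≠ 0 := by
  rintro rfl
  unfold Dk.mem at hv
  rw [zero_sub, norm_neg] at hv
  have h1 : p.r * p.r < p.x.natAbs * p.x.natAbs + p.y.natAbs * p.y.natAbs := by
    simpa [Dk.nz, Nat.blt_eq] using h
  have h2 : ((p.r * p.r : ℕ) : ℝ) < ‖ci p.x p.y‖ ^ 2 := by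
    rw [← nsq_eq]
    exact_mod_cast h1
  push_cast at h2
  nlinarith [norm_nonneg (ci p.x p.y)]

end P139.MIC
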