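import Vale.Agent.P139.MIDefs
import Vale.Agent.P139.MICb

/-! P139 part MI: soundness of the runs along a tower. -/

open Complex
open scoped ComplexConjugate

namespace P139.MIC

/-- scaled tower -/
structure TS (a : ℂ) (M : ℤ) (z : ℝ) (p q : ℕ → ℂ) : Prop where
  hp : ∀ k : ℕ, p (k + 1) = q k + (a + (k * SC : ℕ)) * p k
  hq : ∀ k : ℕ, q (k + 1) = (a + (k * SC : ℕ) - M - I * z) * p (k + 1)
    - (a + (k * SC : ℕ)) * (a + (k * SC : ℕ) - M) * p k
  hf : ∀ K : ℕ, 7 ≤ K → K ≤ 20 →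
    0 ≤ (conj (p K) * q K).im + z / 2 * ‖p K‖ ^ 2 ∧ (p K = 0 → q K = 0)

theorem SC_pos : (0 : ℝ) < SC := by norm_num [SC]

theorem ts_of {a : ℂ} {l : ℕ} {s : ℝ} {p q : ℕ → ℂ} (h : Tow a l s p q) :
    TS (SC * a) ((l + 5) * SC : ℕ) (SC * (s / 4)) (fun k => (SC : ℂ) ^ k * p k)
      (fun k => (SC : ℂ) ^ (k + 1) * q k) := by
  refine ⟨fun k => ?_, fun k => ?_, fun K h7 h20 => ⟨?_, fun h0 => ?_⟩⟩
  · rw [h.hp k]
    push_cast
    ring
  · rw [h.hq k]
    push_cast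
    ring
  · have h1 := (h.hf K h7 h20).1
    have e1 : conj ((SC : ℂ) ^ K * p K) * ((SC : ℂ) ^ (K + 1) * q K)
        = (((SC : ℝ) ^ (2 * K + 1) : ℝ) : ℂ) * (conj (p K) * q K) := by
      simp only [map_mul, map_pow, map_natCast]
      push_cast
      ring
    rw [e1, Complex.im_ofReal_mul, norm_mul, norm_pow, Complex.norm_natCast]
    have e2 : (SC : ℝ) ^ (2 * K + 1) * (conj (p K) * q K).im
        + SC * (s / 4) / 2 * ((SC : ℝ) ^ K * ‖p K‖) ^ 2
        = (SC : ℝ) ^ (2 * K + 1) * fl s (p K) (q K) := by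
      unfold fl
      ring
    rw [e2]
    exact mul_nonneg (pow_nonneg SC_pos.le _) h1
  · have hS : (SC : ℂ) ≠ 0 := by exact_mod_cast SC_pos.ne'
    have : p K = 0 := (mul_eq_zero.1 h0).resolve_left (pow_ne_zero _ hS)
    rw [(h.hf K h7 h20).2 this, mul_zero]

def St (d : Dk) (p q : ℂ) : Prop := ∃ y, d.mem y ∧ q = y * p
def Sf (M : ℤ) (z : ℝ) (d : Dk) (p q : ℂ) : Prop :=
  p ≠ 0 ∧ ∃ y, d.mem y ∧ q = (-y - M - I * z) * p

variable {a : ℂ} {M ax ay z0 : ℤ} {z : ℝ} {p q : ℕ → ℂ} {ra rz : ℕ}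

theorem TS.det (h : TS a M z p q) (k : ℕ) {y : ℂ} (hy : q (k + 1) = y * p (k + 1)) :
    (a + (k * SC : ℕ) - M - (y + I * z)) * q k = (a + (k * SC : ℕ)) * (y + I * z) * p k := by
  have h1 := h.hp k
  have h2 := h.hq k
  generalize a + (k * SC : ℕ) = A at h1 h2 ⊢
  linear_combination (-(A - M - (y + I * z))) * h1 - h2 + hy

theorem TS.bk (h : TS a M z p q) (k : ℕ) {y : ℂ} (hy : q (k + 1) = y * p (k + 1))
    (hne : a + (k * SC : ℕ) - M - (y + I * z) ≠ 0) :
    q k = (a + (k * SC : ℕ)) * (y + I * z) / (a + (k * SC : ℕ) - M - (y + I * z)) * p k := by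
  rw [div_mul_eq_mul_div, eq_div_iff hne, mul_comm, h.det k hy]

theorem TS.fw (h : TS a M z p q) (k : ℕ) {y : ℂ} (h0 : p k ≠ 0)
    (hy : q k = (-y - M - I * z) * p k) (hne : a + (k * SC : ℕ) - M - (y + I * z) ≠ 0) :
    p (k + 1) ≠ 0 ∧ q (k + 1) = (-((a + (k * SC : ℕ)) * (y + I * z)
      / (a + (k * SC : ℕ) - M - (y + I * z))) - M - I * z) * p (k + 1) := by
  have h1 := h.hp k
  have h2 := h.hq k
  generalize a + (k * SC : ℕ) = A at h1 h2 hne ⊢
  have h3 : p (k + 1) = (A - M - (y + I * z)) * p k := by linear_combination h1 + hy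
  refine ⟨h3 ▸ mul_ne_zero hne h0, ?_⟩
  rw [h2, h3]
  field_simp
  ring

theorem shift (ha : ‖a - ci ax ay‖ ≤ ra) (n : ℕ) : ‖a + (n : ℕ) - ci (ax + (n : ℕ)) ay‖ ≤ ra := by
  have e : a + (n : ℕ) - ci (ax + (n : ℕ)) ay = a - ci ax ay := by
    apply Complex.ext <;> simp
  rwa [e]

theorem back_ok (h : TS a M z p q) (ha : ‖a - ci ax ay‖ ≤ ra) (hz : |z - z0| ≤ rz) (L n : ℕ) :
    ∀ {d e : Dk}, back M ax ay ra z0 rz L n d = some e → St d (p (L + n)) (q (L + n)) →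
      St e (p L) (q L) := by
  induction n with
  | zero =>
    intro d e hb hs
    rw [back, Option.some.injEq] at hb
    exact hb ▸ hs
  | succ n ih =>
    intro d e hb ⟨y, hy, hq⟩
    rw [back] at hb
    split at hb
    · exact absurd hb (by simp)
    · rename_i f hf
      obtain ⟨h1, h2⟩ := step_ok hf (shift ha _) hz hy
      exact ih hb ⟨_, h2, h.bk (L + n) hq h1⟩

theorem up_false (h : TS a M z p q) (hz : |z - z0| ≤ rz) {K : ℕ} (h7 : 7 ≤ K) (h20 : K ≤ 20)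
    {d : Dk} (hb : Nat.blt (2 * d.r + rz) (2 * d.y + z0).toNat = true)
    (hs : Sf M z d (p K) (q K)) : False := by
  obtain ⟨h0, y, hy, hq⟩ := hs
  have h1 : 2 * d.r + rz < (2 * d.y + z0).toNat := by simpa [Nat.blt_eq] using hb
  have h2 : 2 * (d.r : ℤ) + rz < 2 * d.y + z0 := by omega
  have h3 : 2 * (d.r : ℝ) + rz < 2 * d.y + z0 := by exact_mod_cast h2
  have h4 : |(y - ci d.x d.y).im| ≤ d.r := (Complex.abs_im_le_norm _).trans hy
  rw [sub_im, ci_im, abs_le] at h4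
  rw [abs_le] at hz
  have h5 := (h.hf K h7 h20).1
  have e : conj (p K) * q K = ((‖p K‖ ^ 2 : ℝ) : ℂ) * (-y - M - I * z) := by
    rw [hq, Complex.sq_norm, Complex.normSq_eq_conj_mul_self]
    ring
  rw [e, Complex.im_ofReal_mul] at h5
  simp only [sub_im, neg_im, intCast_im, mul_im, I_re, I_im, ofReal_re, ofReal_im] at h5
  have h6 : 0 < ‖p K‖ ^ 2 := by positivity
  have h7 : 0 < y.im + z / 2 := by linarith [h4.1, hz.1]
  nlinarith [mul_pos h6 h7]

theorem fwd_ok (h : TS a M z p q) (ha : ‖a - ci ax ay‖ ≤ ra) (hz : |z - z0| ≤ rz) (n : ℕ) :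
    n ≤ 13 → ∀ {d : Dk}, fwd M ax ay ra z0 rz n d = true →
      Sf M z d (p (20 - n)) (q (20 - n)) → False := by
  induction n with
  | zero =>
    intro _ d hb hs
    rw [fwd] at hb
    exact up_false h hz (by omega) (by omega) hb hs
  | succ n ih =>
    intro hn d hb hs
    rw [fwd] at hb
    cases hc : Nat.blt (2 * d.r + rz) (2 * d.y + z0).toNat with
    | true => exact up_false h hz (by omega) (by omega) hc hs
    | false =>
      rw [hc, cond_false] at hb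
      split at hb
      · exact absurd hb (by simp)
      · rename_i f hf
        obtain ⟨h0, y, hy, hq⟩ := hs
        have e1 : 20 - (n + 1) = 19 - n := by omega
        have e2 : 20 - n = 19 - n + 1 := by omega
        rw [e1] at h0 hq
        obtain ⟨h1, h2⟩ := step_ok hf (shift ha _) hz hy
        obtain ⟨h3, h4⟩ := h.fw (19 - n) h0 hq h1
        refine ih (by omega) hb ?_
        rw [e2]
        exact ⟨h3, _, h2, h4⟩

theorem start_ok (h : TS a M z p q) (ha : ‖a - ci ax ay‖ ≤ ra) (hz : |z - z0| ≤ rz) {L n : ℕ}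
    (h6 : 6 ≤ L + n) (h18 : L + n ≤ 18) {e : Dk} (hb : start M ax ay ra z0 rz L n = some e) :
    St e (p L) (q L) := by
  rw [start] at hb
  split at hb
  · exact absurd hb (by simp)
  rename_i f hf
  cases hc : fwd M ax ay ra z0 rz (18 - (L + n)) f with
  | false => simp [hc] at hb
  | true =>
  rw [hc, cond_true] at hb
  split at hb
  · exact absurd hb (by simp)
  rename_i g hg
  have hl : ∃ y : ℂ, q (L + n + 1) = y * p (L + n + 1) ∧ 2 * y.re ≤ -M := by
    by_contra hcon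
    have h0 : p (L + n + 1) ≠ 0 := fun h0 => hcon ⟨((-M / 2 : ℝ) : ℂ), by
      rw [(h.hf _ (by omega) (by omega)).2 h0, h0, mul_zero], by
      rw [ofReal_re]
      linarith⟩
    have h1 : -(M : ℝ) < 2 * (q (L + n + 1) / p (L + n + 1)).re :=
      lt_of_not_ge fun hle => hcon ⟨_, (div_mul_cancel₀ _ h0).symm, hle⟩
    have hq : q (L + n + 1) = (-(-(q (L + n + 1) / p (L + n + 1)) - M - I * z) - M - I * z)
        * p (L + n + 1) := by
      field_simp
      ring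
    generalize q (L + n + 1) / p (L + n + 1) = t at h1 hq
    obtain ⟨h2, h3⟩ := first_ok (u := (-t - M - I * z) + I * z) hf (shift ha _) (by
      simp only [add_re, sub_re, neg_re, intCast_re]
      linarith)
    obtain ⟨h4, h5⟩ := h.fw (L + n + 1) h0 hq h2
    refine fwd_ok h ha hz _ (by omega) hc ?_
    have e : 20 - (18 - (L + n)) = L + n + 1 + 1 := by omega
    rw [e]
    exact ⟨h4, _, h3, h5⟩
  obtain ⟨y, hy, hr⟩ := hl
  obtain ⟨h2, h3⟩ := first_ok (u := y + I * z) hg (shift ha _) (by simpa using hr)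
  exact back_ok h ha hz L n hb ⟨_, h3, h.bk (L + n) hy h2⟩

theorem mem_u {d : Dk} {y : ℂ} (hy : d.mem y) (hz : |z - Z0| ≤ RZ) :
    Dk.mem ⟨d.x, d.y + Z0, d.r + RZ⟩ (y + I * z) := by
  unfold Dk.mem at *
  have e : (y + I * z) - ci d.x (d.y + Z0) = (y - ci d.x d.y) + I * ((z - Z0 : ℝ) : ℂ) := by
    apply Complex.ext <;> simp
    ring
  simp only
  rw [e]
  refine (norm_add_le _ _).trans ?_
  rw [norm_mul, Complex.norm_I, one_mul, Complex.norm_real, Real.norm_eq_abs]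
  push_cast
  exact add_le_add hy hz

theorem mem_A {d : Dk} {y : ℂ} (ha : ‖a - ci ax ay‖ ≤ ra) (hy : d.mem y) (hz : |z - Z0| ≤ RZ) :
    (dA M ax ay ra d).mem (a - M - (y + I * z)) := by
  have h := mem_u hy hz
  unfold Dk.mem dA at *
  have e : a - M - (y + I * z) - ci (ax - M - d.x) (ay - (d.y + Z0))
      = (a - ci ax ay) - ((y + I * z) - ci d.x (d.y + Z0)) := by
    apply Complex.ext <;> simp <;> ring
  simp only at h ⊢
  rw [e, Nat.cast_add]
  exact (norm_sub_le _ _).trans (add_le_add ha h)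

theorem final_ok {a' : ℂ} {p' q' : ℕ → ℂ} {ay' : ℤ} (h : TS a M z p q) (h' : TS a' M z p' q')
    (ha : ‖a - ci ax ay‖ ≤ ra) (ha' : ‖a' - ci ax ay'‖ ≤ ra) (hz : |z - Z0| ≤ RZ) {f g : Dk}
    (hb : final M ax ay ay' ra f g = true) (hf : St f (p 1) (q 1)) (hg : St g (p' 1) (q' 1))
    (h1 : p 0 + conj (p' 0) = 0) (h2 : q 0 = conj (q' 0)) : p 0 = 0 ∧ q 0 = 0 := by
  obtain ⟨y, hy, hq⟩ := hf
  obtain ⟨y', hy', hq'⟩ := hg
  have d1 := h.det 0 hq
  have d2 := congrArg conj (h'.det 0 hq')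
  simp only [Nat.zero_mul, Nat.cast_zero, add_zero] at d1 d2
  have hD := mem_nz (mem_add (mem_mul (mem_A (M := M) ha hy hz)
    (mem_cj (mem_mul (p := ⟨ax, ay', ra⟩) ha' (mem_u hy' hz))))
    (mem_mul (mem_cj (mem_A (M := M) ha' hy' hz)) (mem_mul (p := ⟨ax, ay, ra⟩) ha (mem_u hy hz)))) hb
  rw [map_mul conj (a' - M - (y' + I * z)), map_mul conj (a' * (y' + I * z)), ← h2] at d2
  generalize a - M - (y + I * z) = A at d1 hD
  generalize a * (y + I * z) = B at d1 hD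
  generalize conj (a' - M - (y' + I * z)) = A' at d2 hD
  generalize conj (a' * (y' + I * z)) = B' at d2 hD
  have k1 : (A * B' + A' * B) * p 0 = 0 := by
    linear_combination A * B' * h1 + A * d2 - A' * d1
  have k2 : p 0 = 0 := (mul_eq_zero.1 k1).resolve_left hD
  have k3 : (A * B' + A' * B) * q 0 = 0 := by
    linear_combination B' * d1 + B * d2 + B * B' * h1
  exact ⟨k2, (mul_eq_zero.1 k3).resolve_left hD⟩

theorem check1_ok {a' : ℂ} {p' q' : ℕ → ℂ} {ay' : ℤ} (h : TS a M z p q) (h' : TS a' M z p' q')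
    (ha : ‖a - ci ax ay‖ ≤ ra) (ha' : ‖a' - ci ax ay'‖ ≤ ra) (hz : |z - Z0| ≤ RZ) {F G : Dk}
    (hb : check1 M ax ay ay' ra F G = true) (hf : St F (p 7) (q 7)) (hg : St G (p' 7) (q' 7))
    (h1 : p 0 + conj (p' 0) = 0) (h2 : q 0 = conj (q' 0)) : p 0 = 0 ∧ q 0 = 0 := by
  rw [check1] at hb
  split at hb
  · exact absurd hb (by simp)
  rename_i f hf'
  split at hb
  · exact absurd hb (by simp)
  rename_i g hg'
  exact final_ok h h' ha ha' hz hb (back_ok h ha hz 1 6 hf' hf) (back_ok h' ha' hz 1 6 hg' hg) h1 h2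

end P139.MIC
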