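import Vale.Agent.P139.MICc

/-! P139 part MI: soundness of the adaptive cover and of the sign checks. -/

open Complex
open scoped ComplexConjugate

namespace P139.MIC

variable {β s : ℝ} {l : ℕ} {lam : ℂ} {p q p' q' : ℕ → ℂ}

theorem bx_z (h : Bx β s) : |SC * (s / 4) - Z0| ≤ RZ := by
  obtain ⟨-, -, h3, h4⟩ := h
  rw [abs_le]
  simp only [SC, Z0, RZ]
  push_cast
  constructor <;> linarith

theorem bx_b (h : Bx β s) : |SC * β - B0| ≤ RB := by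
  obtain ⟨h1, h2, -, -⟩ := h
  rw [abs_le]
  simp only [SC, B0, RB]
  push_cast
  constructor <;> linarith

theorem geo {u v b : ℝ} {h : ℕ} (hu : |u| ≤ h) (hv : |v| ≤ h) (hb : |b| ≤ RB) :
    ‖(⟨u, v - b⟩ : ℂ)‖ ≤ ((h * 1449 / 1024 + 1 + RB : ℕ) : ℝ) := by
  have e : (⟨u, v - b⟩ : ℂ) = ⟨u, v⟩ - I * (b : ℝ) := by
    apply Complex.ext <;> simp
  rw [e]
  refine (norm_sub_le _ _).trans ?_
  rw [norm_mul, Complex.norm_I, one_mul, Complex.norm_real, Real.norm_eq_abs]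
  have h1 := ndiv_le (h * 1449) (show 0 < 1024 by norm_num)
  have h0 : (0 : ℝ) ≤ h := Nat.cast_nonneg _
  have h2 : ‖(⟨u, v⟩ : ℂ)‖ ≤ h * 1449 / 1024 := by
    refine le_of_sq ?_ (by positivity)
    rw [Complex.sq_norm, Complex.normSq_apply]
    have h3 : u ^ 2 ≤ h ^ 2 := by rw [← sq_abs u]; gcongr
    have h4 : v ^ 2 ≤ h ^ 2 := by rw [← sq_abs v]; gcongr
    simp only
    nlinarith [sq_nonneg (h : ℝ)]
  rw [Nat.cast_add, Nat.cast_add]
  simp only [Nat.cast_mul, Nat.cast_ofNat, Nat.cast_one] at h1 ⊢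
  linarith

/-- the scaled point lies in the square -/
def InB (lam : ℂ) (x y h : ℕ) : Prop :=
  (x : ℝ) ≤ SC * lam.re ∧ SC * lam.re ≤ x + 2 * h ∧ (y : ℝ) ≤ SC * lam.im ∧ SC * lam.im ≤ y + 2 * h

theorem geo_f (hB : Bx β s) {x y h : ℕ} (hi : InB lam x y h) :
    ‖SC * (lam - I * β + (l : ℂ) / 2) - ci (x + h + l * 2147483648 : ℕ) ((y + h : ℕ) - B0)‖
      ≤ ((h * 1449 / 1024 + 1 + RB : ℕ) : ℝ) := by
  obtain ⟨h1, h2, h3, h4⟩ := hi
  have e : SC * (lam - I * β + (l : ℂ) / 2) - ci (x + h + l * 2147483648 : ℕ) ((y + h : ℕ) - B0)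
      = ⟨SC * lam.re - (x + h), SC * lam.im - (y + h) - (SC * β - B0)⟩ := by
    apply Complex.ext <;> simp [SC] <;> ring
  rw [e]
  exact geo (abs_le.2 ⟨by linarith, by linarith⟩) (abs_le.2 ⟨by linarith, by linarith⟩) (bx_b hB)

theorem geo_g (hB : Bx β s) {x y h : ℕ} (hi : InB lam x y h) :
    ‖SC * (conj lam - I * β + (l : ℂ) / 2) - ci (x + h + l * 2147483648 : ℕ) (-(y + h : ℕ) - B0)‖
      ≤ ((h * 1449 / 1024 + 1 + RB : ℕ) : ℝ) := by
  obtain ⟨h1, h2, h3, h4⟩ := hi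
  have e : SC * (conj lam - I * β + (l : ℂ) / 2)
      - ci (x + h + l * 2147483648 : ℕ) (-(y + h : ℕ) - B0)
      = ⟨SC * lam.re - (x + h), -(SC * lam.im) + (y + h) - (SC * β - B0)⟩ := by
    apply Complex.ext <;> simp [SC] <;> ring
  rw [e]
  exact geo (abs_le.2 ⟨by linarith, by linarith⟩) (abs_le.2 ⟨by linarith, by linarith⟩) (bx_b hB)

theorem near_ok {x y h : ℕ} (hi : InB lam x y h) (hn : near l x y h = true) : Near l lam := by
  obtain ⟨h1, h2, h3, h4⟩ := hi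
  simp only [near, Bool.and_eq_true, Bool.or_eq_true, Nat.ble_eq, Nat.beq_eq] at hn
  obtain ⟨k0, hn⟩ := hn
  have hx : (0 : ℝ) ≤ x := Nat.cast_nonneg _
  have hy : (0 : ℝ) ≤ y := Nat.cast_nonneg _
  have k0' : (y : ℝ) + 2 * h ≤ 536870912 := by exact_mod_cast k0
  simp only [SC, Nat.cast_ofNat] at h1 h2 h3 h4
  have him : |lam.im| ≤ 1 / 8 := abs_le.2 ⟨by linarith, by linarith⟩
  rcases hn with ⟨rfl, k1 | ⟨k1, k2⟩⟩ | ⟨rfl, k1, k2⟩
  · have k1' : (x : ℝ) + 2 * h ≤ 536870912 := by exact_mod_cast k1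
    exact Or.inl ⟨rfl, Or.inl ⟨abs_le.2 ⟨by linarith, by linarith⟩, him⟩⟩
  · have k1' : (3758096384 : ℝ) ≤ x := by exact_mod_cast k1
    have k2' : (x : ℝ) + 2 * h ≤ 4831838208 := by exact_mod_cast k2
    exact Or.inl ⟨rfl, Or.inr ⟨abs_le.2 ⟨by linarith, by linarith⟩, him⟩⟩
  · have k1' : (1610612736 : ℝ) ≤ x := by exact_mod_cast k1
    have k2' : (x : ℝ) + 2 * h ≤ 2684354560 := by exact_mod_cast k2
    exact Or.inr ⟨rfl, abs_le.2 ⟨by linarith, by linarith⟩, him⟩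

/-- the fixed data of the cover argument -/
structure Ctx (β s : ℝ) (l : ℕ) (lam : ℂ) (p q p' q' : ℕ → ℂ) : Prop where
  hB : Bx β s
  hn : ¬ Near l lam
  tf : TS (SC * (lam - I * β + (l : ℂ) / 2)) ((l + 5) * SC : ℕ) (SC * (s / 4)) p q
  tg : TS (SC * (conj lam - I * β + (l : ℂ) / 2)) ((l + 5) * SC : ℕ) (SC * (s / 4)) p' q'
  h1 : p 0 + conj (p' 0) = 0
  h2 : q 0 = conj (q' 0)

theorem leaf_ok (c : Ctx β s l lam p q p' q') {F G : Dk} (hf : St F (p 7) (q 7))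
    (hg : St G (p' 7) (q' 7)) {x y h : ℕ} (hi : InB lam x y h)
    (hb : (near l x y h || check l x y h F G) = true) : p 0 = 0 ∧ q 0 = 0 := by
  rcases Bool.or_eq_true_iff.1 hb with hb | hb
  · exact absurd (near_ok hi hb) c.hn
  · exact check1_ok c.tf c.tg (geo_f c.hB hi) (geo_g c.hB hi) (bx_z c.hB) hb hf hg c.h1 c.h2

theorem cover_ok (c : Ctx β s l lam p q p' q') {F G : Dk} (hf : St F (p 7) (q 7))
    (hg : St G (p' 7) (q' 7)) (n : ℕ) : ∀ x y : ℕ, cover l F G n x y = true →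
      InB lam x y (2 ^ (n + 22)) → p 0 = 0 ∧ q 0 = 0 := by
  induction n with
  | zero => exact fun x y hb hi => leaf_ok c hf hg (h := 4194304) hi hb
  | succ n ih =>
    intro x y hb hi
    rw [cover] at hb
    rcases Bool.or_eq_true_iff.1 hb with hb | hb
    · exact leaf_ok c hf hg hi hb
    simp only [Bool.and_eq_true] at hb
    obtain ⟨⟨⟨b1, b2⟩, b3⟩, b4⟩ := hb
    obtain ⟨h1, h2, h3, h4⟩ := hi
    have e : ((2 ^ (n + 1 + 22) : ℕ) : ℝ) = 2 * ((2 ^ (n + 22) : ℕ) : ℝ) := by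
      push_cast
      ring
    have e' : ((2 ^ (n + 23) : ℕ) : ℝ) = 2 * ((2 ^ (n + 22) : ℕ) : ℝ) := e
    rw [e] at h2 h4
    rcases le_total (SC * lam.re) (x + 2 * ((2 ^ (n + 22) : ℕ) : ℝ)) with k1 | k1 <;>
      rcases le_total (SC * lam.im) (y + 2 * ((2 ^ (n + 22) : ℕ) : ℝ)) with k2 | k2
    · exact ih _ _ b1 ⟨h1, k1, h3, k2⟩
    · exact ih _ _ b3 ⟨h1, k1, by rw [Nat.cast_add, e']; exact k2,
        by rw [Nat.cast_add, e']; linarith⟩
    · exact ih _ _ b2 ⟨by rw [Nat.cast_add, e']; exact k1, by rw [Nat.cast_add, e']; linarith,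
        h3, k2⟩
    · exact ih _ _ b4 ⟨by rw [Nat.cast_add, e']; exact k1, by rw [Nat.cast_add, e']; linarith,
        by rw [Nat.cast_add, e']; exact k2, by rw [Nat.cast_add, e']; linarith⟩

theorem root1_ok (c : Ctx β s l lam p q p' q') {x y ra : ℕ} {ax ay ay' : ℤ}
    (hb : root1 l x y ((l + 5) * SC : ℕ) ax ay ay' ra = true)
    (ha : ‖SC * (lam - I * β + (l : ℂ) / 2) - ci ax ay‖ ≤ ra)
    (ha' : ‖SC * (conj lam - I * β + (l : ℂ) / 2) - ci ax ay'‖ ≤ ra)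
    (hi : InB lam x y (2 ^ (8 + 22))) : p 0 = 0 ∧ q 0 = 0 := by
  have tf := c.tf
  have tg := c.tg
  generalize (((l + 5) * SC : ℕ) : ℤ) = M at hb tf tg
  rw [root1] at hb
  split at hb
  · exact absurd hb (by simp)
  rename_i F hF
  split at hb
  · exact absurd hb (by simp)
  rename_i G hG
  exact cover_ok c (start_ok tf ha (bx_z c.hB) (by omega) (by omega) hF)
    (start_ok tg ha' (bx_z c.hB) (by omega) (by omega) hG) 8 _ _ hb hi

theorem root_ok (c : Ctx β s l lam p q p' q') {i j : ℕ} (hb : root l i j = true)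
    (hi : InB lam (i * 2147483648) (j * 2147483648) 1073741824) : p 0 = 0 ∧ q 0 = 0 := by
  rw [root] at hb
  have e : 2 ^ (8 + 22) = 1073741824 := by norm_num
  exact root1_ok c hb (geo_f c.hB hi) (geo_g c.hB hi) (by rw [e]; exact hi)

theorem cell (n : ℕ) {t : ℝ} (h0 : 0 ≤ t) (h1 : t ≤ n + 1) :
    ∃ i : ℕ, i ≤ n ∧ (i : ℝ) ≤ t ∧ t ≤ i + 1 := by
  induction n with
  | zero => exact ⟨0, le_rfl, by simpa using h0, h1⟩
  | succ n ih =>
    rcases le_total t (n + 1) with h | h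
    · obtain ⟨i, hi, k⟩ := ih h
      exact ⟨i, by omega, k⟩
    · exact ⟨n + 1, le_rfl, by exact_mod_cast h, h1⟩

theorem far_ok (c : Ctx β s l lam p q p' q') (hc : ∀ i, i ≤ 4 → col l i = true)
    (r0 : 0 ≤ lam.re) (r1 : lam.re ≤ 5 / 2) (i0 : 0 ≤ lam.im) (i1 : lam.im ≤ 5) :
    p 0 = 0 ∧ q 0 = 0 := by
  obtain ⟨i, hi, a1, a2⟩ := cell 4 (t := 2 * lam.re) (by linarith) (by push_cast; linarith)
  obtain ⟨j, hj, b1, b2⟩ := cell 9 (t := 2 * lam.im) (by linarith) (by push_cast; linarith)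
  have h := List.all_eq_true.1 (hc i hi) j (List.mem_range.2 (by omega))
  refine root_ok c h ?_
  simp only [InB, SC, Nat.cast_mul, Nat.cast_ofNat]
  exact ⟨by linarith, by linarith, by linarith, by linarith⟩

theorem enc_ok {x : ℝ} (h : Tow (-(I * β)) 0 (4 * x) p q) {b0 z0 : ℤ} {rb rz : ℕ} {d : Dk}
    (hb : |SC * β - b0| ≤ rb) (hz : |SC * x - z0| ≤ rz)
    (hs : start 21474836480 0 (-b0) rb z0 rz 0 14 = some d) :
    ∃ y, d.mem y ∧ SC * q 0 = y * p 0 := by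
  have t := ts_of h
  have e1 : (((0 + 5) * SC : ℕ) : ℤ) = 21474836480 := by norm_num [SC]
  have e2 : (SC : ℝ) * (4 * x / 4) = SC * x := by ring
  rw [e1, e2] at t
  have ha : ‖(SC : ℂ) * -(I * β) - ci 0 (-b0)‖ ≤ rb := by
    have e : (SC : ℂ) * -(I * β) - ci 0 (-b0) = -I * ((SC * β - b0 : ℝ) : ℂ) := by
      apply Complex.ext <;> simp
      ring
    rw [e, norm_mul, norm_neg, Complex.norm_I, one_mul, Complex.norm_real, Real.norm_eq_abs]
    exact hb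
  obtain ⟨y, hy, hq⟩ := start_ok t ha hz (by omega) (by omega) hs
  exact ⟨y, hy, by simpa using hq⟩

theorem mir_ok {x : ℝ} (h : Tow (-(I * β)) 0 (4 * x) p q) (h0 : p 0 ≠ 0) {c₁ c₂ b0 z0 : ℤ}
    {rb rz : ℕ} (hb : |SC * β - b0| ≤ rb) (hz : |SC * x - z0| ≤ rz)
    (hm : mir c₁ c₂ b0 z0 rb rz = true) : 0 < c₁ * (q 0 / p 0).re + c₂ * (q 0 / p 0).im := by
  rw [mir] at hm
  split at hm
  · exact absurd hm (by simp)
  rename_i d hd
  obtain ⟨y, hy, hq⟩ := enc_ok h hb hz hd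
  have e : y = (SC : ℝ) * (q 0 / p 0) := by
    rw [ofReal_natCast, ← mul_div_assoc, hq, mul_div_cancel_right₀ _ h0]
  have h1 : (c₁.natAbs + c₂.natAbs) * d.r < (c₁ * d.x + c₂ * d.y).toNat := by
    simpa [Nat.blt_eq] using hm
  have h2 : (((c₁.natAbs + c₂.natAbs) * d.r : ℕ) : ℤ) < c₁ * d.x + c₂ * d.y := by omega
  have h3 : (|(c₁ : ℝ)| + |(c₂ : ℝ)|) * d.r < c₁ * d.x + c₂ * d.y := by
    push_cast at h2
    exact_mod_cast h2
  have h4 : |(y - ci d.x d.y).re| ≤ d.r := (Complex.abs_re_le_norm _).trans hy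
  have h5 : |(y - ci d.x d.y).im| ≤ d.r := (Complex.abs_im_le_norm _).trans hy
  rw [sub_re, ci_re] at h4
  rw [sub_im, ci_im] at h5
  have h6 : |(c₁ : ℝ) * (y.re - d.x)| ≤ |(c₁ : ℝ)| * d.r := by rw [abs_mul]; gcongr
  have h7 : |(c₂ : ℝ) * (y.im - d.y)| ≤ |(c₂ : ℝ)| * d.r := by rw [abs_mul]; gcongr
  have h8 : 0 < c₁ * y.re + c₂ * y.im := by linarith [(abs_le.1 h6).1, (abs_le.1 h7).1]
  rw [e, Complex.re_ofReal_mul, Complex.im_ofReal_mul] at h8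
  refine (mul_pos_iff_of_pos_left SC_pos).1 ?_
  linarith

end P139.MIC
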