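import Mathlib

/-! P139 part MI: complex disc arithmetic in fixed point (scale `2^32`) and a quadtree checker. -/

open Complex
open scoped ComplexConjugate

namespace P139

/-- centre `x + i y` and radius `r`, all scaled by `2^32` -/
structure Dsc where
  x : ℤ
  y : ℤ
  r : ℤ

namespace Dsc

/-- the scale -/
def S : ℤ := 4294967296

theorem S_pos : (0 : ℤ) < S := by decide

theorem S_real : ((S : ℤ) : ℝ) = 4294967296 := by norm_num [S]

def ctr (D : Dsc) : ℂ := (D.x : ℂ) + (D.y : ℂ) * I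

def Mem (D : Dsc) (z : ℂ) : Prop := ‖(S : ℂ) * z - D.ctr‖ ≤ (D.r : ℝ)

/-- strict evaluation of an integer -/
def frc {α : Type} (n : ℤ) (f : ℤ → α) : α :=
  match n with
  | .ofNat 0 => f 0
  | .ofNat (k + 1) => f (.ofNat (k + 1))
  | .negSucc 0 => f (.negSucc 0)
  | .negSucc (k + 1) => f (.negSucc (k + 1))

theorem frc_eq {α : Type} (n : ℤ) (f : ℤ → α) : frc n f = f n := by
  unfold frc
  split <;> rfl

/-- strict constructor -/
def mk' (x y r : ℤ) : Dsc := frc x fun x => frc y fun y => frc r fun r => ⟨x, y, r⟩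

theorem mk'_eq (x y r : ℤ) : mk' x y r = ⟨x, y, r⟩ := by simp only [mk', frc_eq]

/-- upper bound for the modulus -/
def nrm (x y : ℤ) : ℤ :=
  frc (x * x + y * y) fun M => frc (|x| + |y| + 1) fun n₀ => frc ((n₀ + M / n₀) / 2 + 1) fun n₁ =>
    frc ((n₁ + M / n₁) / 2 + 1) fun n₂ => if M ≤ n₂ * n₂ ∧ 0 ≤ n₂ then n₂ else n₀

theorem normSq_ctr (D : Dsc) : ‖D.ctr‖ ^ 2 = ((D.x * D.x + D.y * D.y : ℤ) : ℝ) := by
  rw [Complex.sq_norm, normSq_apply]
  simp [ctr]

theorem nrm_spec (D : Dsc) : ‖D.ctr‖ ≤ (nrm D.x D.y : ℝ) := by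
  simp only [nrm, frc_eq]
  split_ifs with h
  · refine abs_le_of_sq_le_sq' ?_ (by exact_mod_cast h.2) |>.2
    rw [normSq_ctr, sq]
    exact_mod_cast h.1
  · refine (norm_le_abs_re_add_abs_im _).trans ?_
    simp [ctr]

def add (A B : Dsc) : Dsc := mk' (A.x + B.x) (A.y + B.y) (A.r + B.r)
def sub (A B : Dsc) : Dsc := mk' (A.x - B.x) (A.y - B.y) (A.r + B.r)
/-- add an integer -/
def sh (A : Dsc) (n : ℤ) : Dsc := mk' (A.x + n * S) A.y A.r
/-- enlarge the radius -/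
def wid (A : Dsc) (r : ℤ) : Dsc := mk' A.x A.y (A.r + r)
def cnj (A : Dsc) : Dsc := mk' A.x (-A.y) A.r
def mul (A B : Dsc) : Dsc :=
  mk' ((A.x * B.x - A.y * B.y) / S) ((A.x * B.y + A.y * B.x) / S)
    ((nrm A.x A.y * B.r + nrm B.x B.y * A.r + A.r * B.r) / S + 3)
def del (A : Dsc) : ℤ := A.x * A.x + A.y * A.y - A.r * A.r
def inv (A : Dsc) : Dsc :=
  frc A.del fun d => mk' (A.x * (S * S) / d) (-A.y * (S * S) / d) (A.r * (S * S) / d + 3)

variable {A B : Dsc} {z w : ℂ}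

theorem Mem.r0 (h : A.Mem z) : (0 : ℝ) ≤ A.r := (norm_nonneg _).trans h

theorem Mem.add (h : A.Mem z) (h' : B.Mem w) : (A.add B).Mem (z + w) := by
  unfold Mem at *
  have e : (S : ℂ) * (z + w) - (A.add B).ctr = (S * z - A.ctr) + (S * w - B.ctr) := by
    simp only [Dsc.add, mk'_eq, ctr]; push_cast; ring
  rw [e]
  refine (norm_add_le _ _).trans ?_
  simp only [Dsc.add, mk'_eq]; push_cast; linarith

theorem Mem.sub (h : A.Mem z) (h' : B.Mem w) : (A.sub B).Mem (z - w) := by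
  unfold Mem at *
  have e : (S : ℂ) * (z - w) - (A.sub B).ctr = (S * z - A.ctr) - (S * w - B.ctr) := by
    simp only [Dsc.sub, mk'_eq, ctr]; push_cast; ring
  rw [e]
  refine (norm_sub_le _ _).trans ?_
  simp only [Dsc.sub, mk'_eq]; push_cast; linarith

theorem Mem.sh (h : A.Mem z) (n : ℤ) : (A.sh n).Mem (z + n) := by
  unfold Mem at *
  have e : (S : ℂ) * (z + n) - (A.sh n).ctr = S * z - A.ctr := by
    simp only [Dsc.sh, mk'_eq, ctr]; push_cast; ring
  rw [e]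
  simpa only [Dsc.sh, mk'_eq] using h

theorem Mem.wid (h : A.Mem z) {r : ℤ} (hw : (S : ℝ) * ‖w‖ ≤ r) : (A.wid r).Mem (z + w) := by
  unfold Mem at *
  have e : (S : ℂ) * (z + w) - (A.wid r).ctr = (S * z - A.ctr) + S * w := by
    simp only [Dsc.wid, mk'_eq, ctr]; ring
  rw [e]
  refine (norm_add_le _ _).trans ?_
  have : ‖(S : ℂ) * w‖ = S * ‖w‖ := by
    rw [norm_mul, norm_intCast, abs_of_pos (by exact_mod_cast S_pos)]
  simp only [Dsc.wid, mk'_eq]; push_cast; linarith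

theorem Mem.cnj (h : A.Mem z) : A.cnj.Mem (conj z) := by
  unfold Mem at *
  have e : (S : ℂ) * conj z - A.cnj.ctr = conj (S * z - A.ctr) := by
    simp only [Dsc.cnj, mk'_eq, ctr, map_sub, map_mul, map_add, map_intCast, conj_I]
    push_cast; ring
  rw [e, RCLike.norm_conj]
  simpa only [Dsc.cnj, mk'_eq] using h

theorem flo (n : ℤ) {d : ℤ} (hd : 0 < d) :
    ((n / d : ℤ) : ℝ) ≤ (n : ℝ) / d ∧ (n : ℝ) / d ≤ ((n / d : ℤ) : ℝ) + 1 := by
  have hd' : (0 : ℝ) < d := by exact_mod_cast hd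
  rw [le_div_iff₀ hd', div_le_iff₀ hd']
  exact ⟨by exact_mod_cast Int.ediv_mul_le n hd.ne',
    by exact_mod_cast (Int.lt_ediv_add_one_mul_self n hd).le⟩

/-- rounding a complex quotient -/
theorem rnd (x y r : ℤ) {d : ℤ} (hd : 0 < d) {v : ℂ}
    (h : ‖v - ((x : ℂ) + y * I) / d‖ ≤ (r : ℝ) / d) :
    ‖v - (((x / d : ℤ) : ℂ) + ((y / d : ℤ) : ℂ) * I)‖ ≤ ((r / d + 3 : ℤ) : ℝ) := by
  have h1 := flo x hd
  have h2 := flo y hd
  have h3 := flo r hd
  have e : v - (((x / d : ℤ) : ℂ) + ((y / d : ℤ) : ℂ) * I) = (v - ((x : ℂ) + y * I) / d) +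
      ((((x : ℝ) / d - (x / d : ℤ) : ℝ) : ℂ) + (((y : ℝ) / d - (y / d : ℤ) : ℝ) : ℂ) * I) := by
    simp only [ofReal_sub, ofReal_div, ofReal_intCast]; ring
  rw [e]
  refine (norm_add_le _ _).trans ?_
  have h4 := norm_add_le ((((x : ℝ) / d - (x / d : ℤ) : ℝ) : ℂ))
    ((((y : ℝ) / d - (y / d : ℤ) : ℝ) : ℂ) * I)
  rw [norm_mul, norm_I, mul_one, norm_real, norm_real, Real.norm_of_nonneg (by linarith),
    Real.norm_of_nonneg (by linarith)] at h4
  rw [Int.cast_add, Int.cast_ofNat]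
  linarith

theorem Mem.mul (h : A.Mem z) (h' : B.Mem w) : (A.mul B).Mem (z * w) := by
  have a0 := h.r0
  have b0 := h'.r0
  unfold Mem at *
  have hS : (0 : ℝ) < S := by exact_mod_cast S_pos
  have hS' : (S : ℂ) ≠ 0 := by exact_mod_cast S_pos.ne'
  simp only [Dsc.mul, mk'_eq, ctr]
  refine rnd _ _ _ S_pos ?_
  have e : (S : ℂ) * (z * w) - (((A.x * B.x - A.y * B.y : ℤ) : ℂ) +
      ((A.x * B.y + A.y * B.x : ℤ) : ℂ) * I) / S = (A.ctr * (S * w - B.ctr) +
        B.ctr * (S * z - A.ctr) + (S * z - A.ctr) * (S * w - B.ctr)) / S := by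
    simp only [ctr]
    push_cast
    field_simp
    linear_combination (A.y * B.y : ℂ) * I_mul_I
  rw [e, norm_div, norm_intCast, abs_of_pos hS]
  refine div_le_div_of_nonneg_right ?_ hS.le
  refine (norm_add₃_le).trans ?_
  simp only [norm_mul]
  push_cast
  have := A.nrm_spec
  have := B.nrm_spec
  have := (norm_nonneg _).trans A.nrm_spec
  have := (norm_nonneg _).trans B.nrm_spec
  gcongr

theorem inv_disc {c v : ℂ} {r d : ℝ} (hd : 0 < d) (e : d = ‖c‖ ^ 2 - r ^ 2) (h : ‖v - c‖ ≤ r) :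
    v ≠ 0 ∧ ‖v⁻¹ - conj c / d‖ ≤ r / d := by
  have r0 : 0 ≤ r := (norm_nonneg _).trans h
  have h2 := pow_le_pow_left₀ (norm_nonneg _) h 2
  have hv : v ≠ 0 := by
    rintro rfl
    rw [zero_sub, norm_neg] at h2
    linarith
  refine ⟨hv, ?_⟩
  have hd' : (d : ℂ) ≠ 0 := ofReal_ne_zero.2 hd.ne'
  have e1 : v⁻¹ - conj c / d = (d - v * conj c) / (v * d) := by field_simp
  have v0 := norm_pos_iff.2 hv
  rw [e1, norm_div, norm_mul, norm_real, Real.norm_of_nonneg hd.le, div_le_div_iff₀ (by positivity) hd]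
  have key : ‖(d : ℂ) - v * conj c‖ ≤ r * ‖v‖ := by
    refine (abs_le_of_sq_le_sq' ?_ (by positivity)).2
    rw [mul_pow]
    simp only [Complex.sq_norm, normSq_apply] at *
    simp only [sub_re, sub_im, mul_re, mul_im, conj_re, conj_im, ofReal_re, ofReal_im] at *
    have := mul_le_mul_of_nonneg_left h2 hd.le
    have e2 : r ^ 2 = c.re * c.re + c.im * c.im - d := by linarith
    rw [e2] at this ⊢
    nlinarith
  nlinarith

theorem Mem.inv (h : A.Mem z) (hd : 0 < A.del) : z ≠ 0 ∧ A.inv.Mem z⁻¹ := by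
  unfold Mem at *
  have hS : (0 : ℝ) < S := by exact_mod_cast S_pos
  have hS' : (S : ℂ) ≠ 0 := by exact_mod_cast S_pos.ne'
  have hd' : (0 : ℝ) < A.del := by exact_mod_cast hd
  obtain ⟨h1, h2⟩ := inv_disc hd' (by rw [normSq_ctr, del]; push_cast; ring) h
  refine ⟨right_ne_zero_of_mul h1, ?_⟩
  simp only [Dsc.inv, frc_eq, mk'_eq, ctr]
  refine rnd _ _ _ hd ?_
  have e : (S : ℂ) * z⁻¹ - (((A.x * (S * S) : ℤ) : ℂ) + ((-A.y * (S * S) : ℤ) : ℂ) * I) / A.del =
      (S * S) * (((S : ℂ) * z)⁻¹ - conj A.ctr / ((A.del : ℝ) : ℂ)) := by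
    simp only [ctr, map_add, map_mul, map_intCast, conj_I, mul_inv]
    push_cast
    field_simp
  rw [e, norm_mul, norm_mul, norm_intCast, abs_of_pos hS, Int.cast_mul, Int.cast_mul,
    mul_comm (A.r : ℝ), mul_div_assoc]
  gcongr

theorem Mem.re_le (h : A.Mem z) : (S : ℝ) * z.re ≤ A.x + A.r ∧ (A.x : ℝ) - A.r ≤ S * z.re := by
  have h1 := (abs_re_le_norm _).trans h
  simp only [ctr, sub_re, mul_re, intCast_re, intCast_im, add_re, I_re, I_im] at h1
  have := abs_le.1 h1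
  constructor <;> linarith [this.1, this.2]

theorem Mem.re_pos (h : A.Mem z) (h' : A.r < A.x) : 0 < z.re := by
  have h1 := h.re_le.2
  have h2 : (A.r : ℝ) < A.x := by exact_mod_cast h'
  have hS : (0 : ℝ) < S := by exact_mod_cast S_pos
  exact (mul_pos_iff_of_pos_left hS).1 (by linarith)

theorem Mem.re_neg (h : A.Mem z) (h' : A.x + A.r < 0) : z.re < 0 := by
  have h1 := h.re_le.1
  have h2 : (A.x : ℝ) + A.r < 0 := by exact_mod_cast h'
  have hS : (0 : ℝ) < S := by exact_mod_cast S_pos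
  by_contra h3
  have := mul_nonneg hS.le (not_lt.1 h3)
  linarith

theorem Mem.ne (h : A.Mem z) (hd : 0 < A.del) : z ≠ 0 := (h.inv hd).1

/-- the square with centre `x + i y` and half-width `w`, scaled -/
def Box (x y w : ℤ) (z : ℂ) : Prop := |(S : ℝ) * z.re - x| ≤ w ∧ |(S : ℝ) * z.im - y| ≤ w

theorem Box.mem {x y w : ℤ} (h : Box x y w z) : Mem ⟨x, y, 3 * w / 2 + 1⟩ z := by
  have w0 : (0 : ℝ) ≤ w := (abs_nonneg _).trans h.1
  have h1 := (flo (3 * w) (d := 2) (by norm_num)).2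
  have h2 : ‖(S : ℂ) * z - ((x : ℂ) + y * I)‖ ≤ 3 * w / 2 := by
    refine (abs_le_of_sq_le_sq' ?_ (by positivity)).2
    have a1 := sq_le_sq' (abs_le.1 h.1).1 (abs_le.1 h.1).2
    have a2 := sq_le_sq' (abs_le.1 h.2).1 (abs_le.1 h.2).2
    rw [Complex.sq_norm, normSq_apply]
    simp only [sub_re, sub_im, mul_re, mul_im, intCast_re, intCast_im, add_re, add_im, I_re, I_im]
    nlinarith
  unfold Mem ctr
  push_cast at h1 ⊢
  linarith

/-- quadtree checker -/
def quad (ok : ℤ → ℤ → ℤ → Bool) : ℕ → ℤ → ℤ → ℤ → Bool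
  | 0, x, y, w => ok x y w
  | n + 1, x, y, w => ok x y w || frc ((w + 1) / 2) fun h => frc (x - h) fun x₁ =>
      frc (x + h) fun x₂ => frc (y - h) fun y₁ => frc (y + h) fun y₂ =>
        quad ok n x₁ y₁ h && quad ok n x₁ y₂ h && quad ok n x₂ y₁ h && quad ok n x₂ y₂ h

theorem quad_sound {ok : ℤ → ℤ → ℤ → Bool} {P : ℂ → Prop}
    (H : ∀ x y w, ok x y w = true → ∀ z, Box x y w z → P z) (n : ℕ) :
    ∀ x y w, quad ok n x y w = true → ∀ z, Box x y w z → P z := by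
  induction n with
  | zero => exact H
  | succ n ih =>
    intro x y w h z hz
    simp only [quad, frc_eq, Bool.or_eq_true, Bool.and_eq_true] at h
    rcases h with h | ⟨⟨⟨h1, h2⟩, h3⟩, h4⟩
    · exact H x y w h z hz
    have hw : (w : ℝ) ≤ 2 * (((w + 1) / 2 : ℤ) : ℝ) := by
      exact_mod_cast (show w ≤ 2 * ((w + 1) / 2) by omega)
    generalize (w + 1) / 2 = k at *
    obtain ⟨a, b⟩ := hz
    rw [abs_le] at a b
    rcases le_total ((S : ℝ) * z.re) x with c | c <;> rcases le_total ((S : ℝ) * z.im) y with d | d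
    · exact ih _ _ _ h1 z ⟨abs_le.2 (by push_cast; constructor <;> linarith [a.1]),
        abs_le.2 (by push_cast; constructor <;> linarith [b.1])⟩
    · exact ih _ _ _ h2 z ⟨abs_le.2 (by push_cast; constructor <;> linarith [a.1]),
        abs_le.2 (by push_cast; constructor <;> linarith [b.2])⟩
    · exact ih _ _ _ h3 z ⟨abs_le.2 (by push_cast; constructor <;> linarith [a.2]),
        abs_le.2 (by push_cast; constructor <;> linarith [b.1])⟩
    · exact ih _ _ _ h4 z ⟨abs_le.2 (by push_cast; constructor <;> linarith [a.2]),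
        abs_le.2 (by push_cast; constructor <;> linarith [b.2])⟩

end Dsc
end P139
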