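import Vale.Agent.P139.Defs

/-! P139 part MI: the flux identity for `4 s w'' + (4 b + i s) w' + i a w = -i f`, `b = n + 1`. -/

open Complex Set Filter Topology MeasureTheory
open scoped ContDiff ComplexConjugate

noncomputable section
namespace P139
namespace MIT

/-- the flux `s^b (4 Im (conj w w') + |w|² / 2)` -/
def fl (n : ℕ) (w w1 : ℝ → ℂ) (s : ℝ) : ℝ :=
  s ^ (n + 1) * (4 * (conj (w s) * w1 s).im + ‖w s‖ ^ 2 / 2)

theorem fl_eq (n : ℕ) (w w1 : ℝ → ℂ) (s : ℝ) : fl n w w1 s =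
    ((s : ℂ) ^ (n + 1) * (4 * (conj (w s) * w1 s) + I * (conj (w s) * w s) / 2)).im := by
  rw [fl, ← Complex.ofReal_pow, Complex.im_ofReal_mul, Complex.sq_norm, Complex.normSq_apply]
  congr 1
  simp

theorem fl_deriv (n : ℕ) (a : ℂ) {w w1 : ℝ → ℂ} {w2 f : ℂ} {s : ℝ}
    (h0 : HasDerivAt w (w1 s) s) (h1 : HasDerivAt w1 w2 s)
    (he : 4 * s * w2 + (4 * ((n : ℂ) + 1) + I * s) * w1 s + I * a * w s = -I * f) :
    HasDerivAt (fl n w w1)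
      (-(s ^ n * ((a.re - ((n : ℝ) + 1) / 2) * ‖w s‖ ^ 2 + (conj (w s) * f).re))) s := by
  have hc : HasDerivAt (fun t => conj (w t)) (conj (w1 s)) s := h0.star
  have hp : HasDerivAt (fun t : ℝ => (t : ℂ) ^ (n + 1)) (((n : ℂ) + 1) * (s : ℂ) ^ n) s := by
    have := ((hasDerivAt_pow (n + 1) (s : ℂ)).comp_ofReal)
    simpa using this
  have hG := hp.mul (((hc.mul h1).const_mul 4).add (((hc.mul h0).const_mul I).div_const 2))
  have hI := Complex.imCLM.hasFDerivAt.comp_hasDerivAt s hG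
  have e1 : fl n w w1 = Complex.imCLM ∘ ((fun t : ℝ => (t : ℂ) ^ (n + 1)) *
      ((fun y => 4 * ((fun t => conj (w t)) * w1) y) +
        fun x => I * ((fun t => conj (w t)) * w) x / 2)) := by
    funext t
    rw [fl_eq]
    rfl
  rw [e1]
  refine hI.congr_deriv ?_
  have e2 : ((n : ℂ) + 1) * (s : ℂ) ^ n * (4 * (conj (w s) * w1 s) + I * (conj (w s) * w s) / 2)
      + (s : ℂ) ^ (n + 1) * (4 * (conj (w1 s) * w1 s + conj (w s) * w2)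
        + I * (conj (w1 s) * w s + conj (w s) * w1 s) / 2)
      = ((s ^ n : ℝ) : ℂ) * (((n : ℂ) + 1) * (I * (conj (w s) * w s) / 2)
        + 4 * s * (conj (w1 s) * w1 s) + conj (w s) * (-I * f - I * s * w1 s - I * a * w s)
        + I * s * (conj (w1 s) * w s + conj (w s) * w1 s) / 2) := by
    push_cast
    linear_combination ((s : ℂ) ^ n * conj (w s)) * he
  simp only [Complex.imCLM_apply, Pi.add_apply, Pi.mul_apply]
  rw [e2, Complex.im_ofReal_mul, Complex.sq_norm, Complex.normSq_apply]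
  simp
  ring

theorem nonneg_of {Ψ Ψ' g : ℝ → ℝ} {s₀ : ℝ} (h0 : 0 < s₀)
    (hd : ∀ s, s₀ ≤ s → HasDerivAt Ψ (Ψ' s) s) (hn : ∀ s, s₀ ≤ s → Ψ' s ≤ 0)
    (hg : IntegrableOn g (Ioi s₀)) (hb : ∀ s, s₀ < s → -(s * g s) ≤ Ψ s) :
    AntitoneOn Ψ (Ici s₀) ∧ 0 ≤ Ψ s₀ := by
  have ha : AntitoneOn Ψ (Ici s₀) := by
    refine antitoneOn_of_deriv_nonpos (convex_Ici _)
      (fun s hs => (hd s hs).continuousAt.continuousWithinAt)
      (fun s hs => (hd s (interior_subset hs)).differentiableAt.differentiableWithinAt) ?_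
    intro s hs
    rw [(hd s (interior_subset hs)).deriv]
    exact hn s (interior_subset hs)
  refine ⟨ha, ?_⟩
  by_contra hneg
  push Not at hneg
  apply not_integrableOn_Ioi_inv (a := s₀)
  refine Integrable.mono' (hg.const_mul (-Ψ s₀)⁻¹) (by fun_prop) ?_
  refine (ae_restrict_iff' measurableSet_Ioi).2 (Eventually.of_forall fun s hs => ?_)
  have hs' : s₀ < s := hs
  have hs0 : 0 < s := h0.trans hs'
  have h1 := ha (mem_Ici.2 le_rfl) (mem_Ici.2 hs'.le) hs'.le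
  have h2 := hb s hs'
  rw [Real.norm_of_nonneg (inv_pos.2 hs0).le, inv_mul_eq_div, le_div_iff₀ (by linarith),
    inv_mul_le_iff₀ hs0]
  linarith

/-- a solution with source `f` on `[s₀, ∞)` in the weighted class -/
structure Lv (n : ℕ) (a : ℂ) (s₀ : ℝ) (w w1 f : ℝ → ℂ) : Prop where
  d0 : ∀ s, s₀ ≤ s → HasDerivAt w (w1 s) s
  d1 : ∀ s, s₀ ≤ s → ∃ w2, HasDerivAt w1 w2 s ∧
    4 * s * w2 + (4 * ((n : ℂ) + 1) + I * s) * w1 s + I * a * w s = -I * f s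
  i0 : IntegrableOn (fun s : ℝ => ‖w s‖ ^ 2 * s ^ n) (Ioi s₀)
  i1 : IntegrableOn (fun s : ℝ => ‖w1 s‖ ^ 2 * s ^ (n + 1)) (Ioi s₀)

variable {n : ℕ} {a a₀ : ℂ} {s₀ : ℝ} {w w1 f z z1 : ℝ → ℂ}

theorem Lv.mono (h : Lv n a s₀ w w1 f) {s : ℝ} (hs : s₀ ≤ s) : Lv n a s w w1 f :=
  ⟨fun t ht => h.d0 t (hs.trans ht), fun t ht => h.d1 t (hs.trans ht),
    h.i0.mono_set (Ioi_subset_Ioi hs), h.i1.mono_set (Ioi_subset_Ioi hs)⟩

theorem Lv.hd (h : Lv n a s₀ w w1 f) (s : ℝ) (hs : s₀ ≤ s) : HasDerivAt (fl n w w1)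
    (-(s ^ n * ((a.re - ((n : ℝ) + 1) / 2) * ‖w s‖ ^ 2 + (conj (w s) * f s).re))) s := by
  obtain ⟨w2, h1, h2⟩ := h.d1 s hs
  exact fl_deriv n a (h.d0 s hs) h1 h2

theorem Lv.low (h : Lv n a s₀ w w1 f) (h0 : 0 < s₀) :
    ∃ g : ℝ → ℝ, IntegrableOn g (Ioi s₀) ∧ ∀ s, s₀ < s → -(s * g s) ≤ fl n w w1 s := by
  refine ⟨fun s => 2 * (‖w s‖ ^ 2 * s ^ n) + 2 / s₀ * (‖w1 s‖ ^ 2 * s ^ (n + 1)),
    by
    have := (h.i0.const_mul 2).add (h.i1.const_mul (2 / s₀))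
    exact this, fun s hs => ?_⟩
  have hs0 : 0 < s := h0.trans hs
  have h1 : -(‖w s‖ * ‖w1 s‖) ≤ (conj (w s) * w1 s).im := by
    have := Complex.abs_im_le_norm (conj (w s) * w1 s)
    rw [norm_mul, Complex.norm_conj] at this
    exact neg_le_of_abs_le this
  have h2 : -(2 * ‖w s‖ ^ 2 + 2 * ‖w1 s‖ ^ 2) ≤ 4 * (conj (w s) * w1 s).im + ‖w s‖ ^ 2 / 2 := by
    nlinarith [sq_nonneg (‖w s‖ - ‖w1 s‖), sq_nonneg ‖w s‖]
  have h3 : 2 * ‖w1 s‖ ^ 2 ≤ 2 / s₀ * (‖w1 s‖ ^ 2 * s) := by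
    rw [div_mul_eq_mul_div, le_div_iff₀ h0]
    nlinarith [sq_nonneg ‖w1 s‖]
  have h4 := mul_le_mul_of_nonneg_left h2 (pow_pos hs0 (n + 1)).le
  have h5 := mul_le_mul_of_nonneg_left h3 (pow_pos hs0 (n + 1)).le
  rw [fl]
  have e : s * (2 * (‖w s‖ ^ 2 * s ^ n) + 2 / s₀ * (‖w1 s‖ ^ 2 * s ^ (n + 1)))
      = s ^ (n + 1) * (2 * ‖w s‖ ^ 2) + s ^ (n + 1) * (2 / s₀ * (‖w1 s‖ ^ 2 * s)) := by ring
  rw [e]
  nlinarith

theorem Lv.nonneg (h : Lv n a s₀ w w1 0) (h0 : 0 < s₀) (hη : ((n : ℝ) + 1) / 2 ≤ a.re) :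
    AntitoneOn (fl n w w1) (Ici s₀) ∧ 0 ≤ fl n w w1 s₀ := by
  obtain ⟨g, hg, hb⟩ := h.low h0
  refine nonneg_of h0 h.hd (fun s hs => ?_) hg hb
  have hs0 : 0 < s := h0.trans_le hs
  have : 0 ≤ a.re - ((n : ℝ) + 1) / 2 := by linarith
  simp only [Pi.zero_apply, mul_zero, Complex.zero_re, add_zero, neg_nonpos]
  positivity

theorem Lv.zero (h : Lv n a s₀ w w1 0) (h0 : 0 < s₀) (hη : ((n : ℝ) + 1) / 2 < a.re)
    (hw : w s₀ = 0) : w1 s₀ = 0 := by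
  have hz : ∀ s, s₀ ≤ s → fl n w w1 s = 0 := fun s hs => by
    have h1 := (h.nonneg h0 hη.le).1 (mem_Ici.2 le_rfl) (mem_Ici.2 hs) hs
    have h2 := ((h.mono hs).nonneg (h0.trans_le hs) hη.le).2
    have h3 : fl n w w1 s₀ = 0 := by simp [fl, hw]
    linarith
  have hw0 : ∀ s, s₀ ≤ s → w s = 0 := fun s hs => by
    have h1 : HasDerivWithinAt (fl n w w1) 0 (Ici s) s :=
      (hasDerivWithinAt_const s (Ici s) (0 : ℝ)).congr (fun t ht => hz t (hs.trans ht)) (hz s hs)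
    have h2 := (uniqueDiffWithinAt_Ici s).eq_deriv _ (h.hd s hs).hasDerivWithinAt h1
    have hs0 : 0 < s := h0.trans_le hs
    have h3 : a.re - ((n : ℝ) + 1) / 2 ≠ 0 := by linarith
    simpa [hs0.ne', h3] using h2
  have h1 : HasDerivWithinAt w 0 (Ici s₀) s₀ :=
    (hasDerivWithinAt_const s₀ (Ici s₀) (0 : ℂ)).congr (fun t ht => hw0 t ht) hw
  exact (uniqueDiffWithinAt_Ici s₀).eq_deriv _ (h.d0 s₀ le_rfl).hasDerivWithinAt h1

theorem Lv.src (h : Lv n a s₀ w w1 z) (hz : Lv n a₀ s₀ z z1 0) (h0 : 0 < s₀)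
    (hη : ((n : ℝ) + 1) / 2 ≤ a.re) (hη₀ : ((n : ℝ) + 1) / 2 ≤ a₀.re) :
    0 ≤ 4 * (a.re - ((n : ℝ) + 1) / 2) * (a₀.re - ((n : ℝ) + 1) / 2) * fl n w w1 s₀
      + fl n z z1 s₀ := by
  obtain ⟨g, hg, hb⟩ := h.low h0
  obtain ⟨g₀, hg₀, hb₀⟩ := hz.low h0
  set η := a.re - ((n : ℝ) + 1) / 2 with hηd
  set η₀ := a₀.re - ((n : ℝ) + 1) / 2 with hηd₀
  have p1 : 0 ≤ η := by linarith
  have p2 : 0 ≤ η₀ := by linarith
  refine (nonneg_of (Ψ := fun s => 4 * η * η₀ * fl n w w1 s + fl n z z1 s) h0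
    (fun s hs => ((h.hd s hs).const_mul (4 * η * η₀)).add (hz.hd s hs)) (fun s hs => ?_)
    ((hg.const_mul (4 * η * η₀)).add hg₀) (fun s hs => ?_)).2
  · have hs0 : 0 < s := h0.trans_le hs
    have e : 4 * η * η₀ * -(s ^ n * (η * ‖w s‖ ^ 2 + (conj (w s) * z s).re))
        + -(s ^ n * (η₀ * ‖z s‖ ^ 2 + (conj (z s) * (0 : ℝ → ℂ) s).re))
        = -(s ^ n * η₀ * ((2 * η * (w s).re + (z s).re) ^ 2
          + (2 * η * (w s).im + (z s).im) ^ 2)) := by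
      simp only [Complex.sq_norm, Complex.normSq_apply, Pi.zero_apply, mul_zero, Complex.zero_re,
        Complex.mul_re, Complex.conj_re, Complex.conj_im]
      ring
    rw [← hηd, ← hηd₀, e, neg_nonpos]
    positivity
  · have h1 := mul_le_mul_of_nonneg_left (hb s hs) (by positivity : 0 ≤ 4 * η * η₀)
    have h2 := hb₀ s hs
    simp only [Pi.add_apply]
    nlinarith

end MIT
end P139
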