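import Vale.Agent.P139.MIJb

/-! P139 part MI: the canonical outgoing solution `Can β l lam` in the variable `s`. -/

open Complex Set Filter Topology MeasureTheory
open scoped ContDiff ComplexConjugate

noncomputable section
namespace P139

/-- the parameter `a = λ - iβ + l/2` -/
def aa (β : ℝ) (l : ℕ) (lam : ℂ) : ℂ := lam - I * β + (l : ℂ) / 2

/-- canonical outgoing solution of `FreeF β l lam F = 0` -/
def Can (β : ℝ) (l : ℕ) (lam : ℂ) (s : ℝ) : ℂ :=
  MIJ.Phi (aa β l lam) (6 + l) ((s / 4 : ℝ) : ℂ)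

namespace MIJ

theorem aa_re (β : ℝ) (l : ℕ) (lam : ℂ) : (aa β l lam).re = lam.re + l / 2 := by simp [aa]

theorem aa_im (β : ℝ) (l : ℕ) (lam : ℂ) : (aa β l lam).im = lam.im - β := by simp [aa]

theorem aa_nn (β : ℝ) (l : ℕ) {lam : ℂ} (h : 0 ≤ lam.re) : 0 ≤ (aa β l lam).re := by
  rw [aa_re]; positivity

/-- the derivatives of `Phi` -/
def GG (a b : ℂ) : ℕ → ℂ → ℂ
  | 0 => Phi a b
  | k + 1 => fun z => a * I ^ (k + 1) * MM a b k z

variable {a : ℂ}

theorem GG_deriv (ha : 0 ≤ a.re) (b : ℂ) (k : ℕ) {z : ℂ} (hz : Om z) :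
    HasDerivAt (GG a b k) (GG a b (k + 1) z) z := by
  cases k with
  | zero => exact (Phi_deriv ha b hz).congr_deriv (by simp only [GG]; ring)
  | succ k => exact ((MM_deriv ha b k hz).const_mul _).congr_deriv (by simp only [GG]; ring)

theorem GG_ode (a b z : ℂ) : z * GG a b 2 z + (b + I * z) * GG a b 1 z + I * a * GG a b 0 z = 0 := by
  simp only [GG, Phi]
  ring

theorem GG_bound (ha : 0 ≤ a.re) (b : ℂ) (k : ℕ) {z₀ : ℝ} (h0 : 0 < z₀) :
    ∃ C : ℝ, 0 ≤ C ∧ ∀ x : ℝ, z₀ ≤ x → ‖GG a b k x‖ ≤ C * x ^ (-a.re - k) := by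
  cases k with
  | zero => simpa [GG] using Phi_bound ha b h0
  | succ k =>
    obtain ⟨C, hC, h⟩ := MM_bound ha b k h0
    refine ⟨‖a‖ * C, by positivity, fun x hx => ?_⟩
    have := h x hx
    rw [show -(a.re + 1 + k) = -a.re - ((k + 1 : ℕ) : ℝ) by push_cast; ring] at this
    simp only [GG, norm_mul, norm_pow, norm_I, one_pow, mul_one]
    rw [mul_assoc]
    gcongr

def gg (a b : ℂ) (k : ℕ) (s : ℝ) : ℂ := (1 / 4) ^ k * GG a b k ((s / 4 : ℝ) : ℂ)

theorem gg_deriv (ha : 0 ≤ a.re) (b : ℂ) (k : ℕ) {s : ℝ} (hs : 0 < s) :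
    HasDerivAt (gg a b k) (gg a b (k + 1) s) s := by
  have h1 := (GG_deriv ha b k (om_real (show 0 < s / 4 by positivity))).comp_ofReal
  have h2 := h1.scomp s ((hasDerivAt_id' s).div_const 4)
  refine (h2.const_mul ((1 / 4 : ℂ) ^ k)).congr_deriv ?_
  rw [gg, real_smul]
  push_cast
  ring

theorem gg_smooth (ha : 0 ≤ a.re) (b : ℂ) (n : ℕ) :
    ∀ k, ContDiffOn ℝ n (gg a b k) (Ioi 0) := by
  induction n with
  | zero => exact fun k => contDiffOn_zero.2 fun s hs =>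
      (gg_deriv ha b k hs).continuousAt.continuousWithinAt
  | succ n ih =>
    intro k
    rw [Nat.cast_succ, contDiffOn_succ_iff_deriv_of_isOpen isOpen_Ioi]
    refine ⟨fun s hs => (gg_deriv ha b k hs).differentiableAt.differentiableWithinAt, by simp,
      (ih (k + 1)).congr fun s hs => (gg_deriv ha b k hs).deriv⟩

theorem gg_iter (ha : 0 ≤ a.re) (b : ℂ) (k : ℕ) :
    ∀ s : ℝ, 0 < s → iteratedDeriv k (gg a b 0) s = gg a b k s := by
  induction k with
  | zero => simp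
  | succ k ih =>
    intro s hs
    have e : iteratedDeriv k (gg a b 0) =ᶠ[𝓝 s] gg a b k :=
      (eventually_gt_nhds hs).mono ih
    rw [iteratedDeriv_succ, e.deriv_eq, (gg_deriv ha b k hs).deriv]

theorem can_eq (β : ℝ) (l : ℕ) (lam : ℂ) : Can β l lam = gg (aa β l lam) (6 + l) 0 := by
  funext s; simp [Can, gg, GG]

theorem can_iter (β : ℝ) (l : ℕ) {lam : ℂ} (h : 0 ≤ lam.re) (k : ℕ) {s : ℝ} (hs : 0 < s) :
    iteratedDeriv k (Can β l lam) s = gg (aa β l lam) (6 + l) k s := by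
  rw [can_eq, gg_iter (aa_nn β l h) _ k s hs]

theorem can_deriv (β : ℝ) (l : ℕ) {lam : ℂ} (h : 0 ≤ lam.re) {s : ℝ} (hs : 0 < s) :
    deriv (Can β l lam) s =
      I * aa β l lam * MM (aa β l lam) (6 + l) 0 ((s / 4 : ℝ) : ℂ) / 4 := by
  rw [← iteratedDeriv_one, can_iter β l h 1 hs]
  simp only [gg, GG]
  ring

end MIJ

open MIJ

theorem can_smooth (β : ℝ) (l : ℕ) {lam : ℂ} (h : 0 ≤ lam.re) :
    ContDiffOn ℝ ∞ (Can β l lam) (Ioi 0) := by
  rw [can_eq]
  exact contDiffOn_infty.2 fun n => gg_smooth (aa_nn β l h) _ n 0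

theorem can_ode (β : ℝ) (l : ℕ) {lam : ℂ} (h : 0 ≤ lam.re) (s : ℝ) (hs : 0 < s) :
    FreeF β l lam (Can β l lam) s = 0 := by
  have h0 := can_iter β l h 0 hs
  have h1 := can_iter β l h 1 hs
  have h2 := can_iter β l h 2 hs
  rw [iteratedDeriv_zero] at h0
  rw [iteratedDeriv_one] at h1
  rw [iteratedDeriv_succ, iteratedDeriv_one] at h2
  have e := GG_ode (aa β l lam) (6 + l) ((s / 4 : ℝ) : ℂ)
  rw [FreeF, h0, h1, h2, show lam - I * β + (l : ℂ) / 2 = aa β l lam from rfl]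
  simp only [gg]
  push_cast at e ⊢
  have hI : I * I = -1 := I_mul_I
  linear_combination I * e - ((s : ℂ) / 4 * GG (aa β l lam) (6 + l) 1 (s / 4)
    + aa β l lam * GG (aa β l lam) (6 + l) 0 (s / 4)) * hI

theorem can_symb (β : ℝ) (l : ℕ) {lam : ℂ} (h : 0 ≤ lam.re) {s₀ : ℝ} (h0 : 0 < s₀) (j : ℕ) :
    ∃ C : ℝ, 0 ≤ C ∧ ∀ s : ℝ, s₀ ≤ s →
      ‖iteratedDeriv j (Can β l lam) s‖ ≤ C * s ^ (-(lam.re + l / 2) - j) := by
  obtain ⟨C, hC, H⟩ := GG_bound (aa_nn β l h) (6 + l) j (show 0 < s₀ / 4 by positivity)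
  refine ⟨(1 / 4) ^ j * C / 4 ^ (-(lam.re + l / 2) - j), by positivity, fun s hs => ?_⟩
  have hs0 : 0 < s := h0.trans_le hs
  have := H (s / 4) (by linarith)
  rw [aa_re, Real.div_rpow hs0.le (by norm_num)] at this
  rw [can_iter β l h j hs0, gg, norm_mul, norm_pow]
  have e : ‖(1 / 4 : ℂ)‖ = 1 / 4 := by simp
  rw [e]
  calc _ ≤ (1 / 4) ^ j * (C * (s ^ (-(lam.re + l / 2) - j) / 4 ^ (-(lam.re + l / 2) - j))) := by
        gcongr
    _ = _ := by ring

theorem can_good (β : ℝ) (l : ℕ) {lam : ℂ} (h : 0 ≤ lam.re) {s₀ : ℝ} (h0 : 0 < s₀) :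
    Good l s₀ (Can β l lam) := by
  intro k hk _
  obtain ⟨C, hC, H⟩ := can_symb β l h h0 k
  have hk' : (7 : ℝ) ≤ k := by exact_mod_cast hk
  have hi := (integrableOn_Ioi_rpow_of_lt (a := -2 * lam.re - k + 5) (by linarith) h0).const_mul
    (C ^ 2)
  have hc : ContinuousOn (fun s : ℝ => ‖iteratedDeriv k (Can β l lam) s‖ ^ 2 * s ^ (l + k + 5))
      (Ioi s₀) := by
    have : ContinuousOn (iteratedDeriv k (Can β l lam)) (Ioi s₀) :=
      ContinuousOn.congr (f := gg (aa β l lam) (6 + l) k) (fun s hs =>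
        (gg_deriv (aa_nn β l h) _ k (h0.trans hs)).continuousAt.continuousWithinAt)
        fun s hs => can_iter β l h k (h0.trans hs)
    exact (this.norm.pow 2).mul (by fun_prop)
  refine Integrable.mono' hi (hc.aestronglyMeasurable measurableSet_Ioi) ?_
  refine (ae_restrict_iff' measurableSet_Ioi).2 (Eventually.of_forall fun s hs => ?_)
  have hs0 : 0 < s := h0.trans hs
  rw [Real.norm_of_nonneg (by positivity)]
  have e : (s ^ (-(lam.re + l / 2) - k)) ^ 2 * s ^ (l + k + 5) = s ^ (-2 * lam.re - k + 5) := by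
    rw [← Real.rpow_natCast, ← Real.rpow_natCast, ← Real.rpow_mul hs0.le, ← Real.rpow_add hs0]
    congr 1
    push_cast
    ring
  calc _ ≤ (C * s ^ (-(lam.re + l / 2) - k)) ^ 2 * s ^ (l + k + 5) := by
        gcongr
        exact H s (le_of_lt hs)
    _ = _ := by rw [mul_pow, mul_assoc, e]

theorem can_ne (β : ℝ) (l : ℕ) {lam : ℂ} (h : 0 ≤ lam.re) :
    ∀ᶠ s in atTop, Can β l lam s ≠ 0 := by
  have := asym (aa_nn β l h) (6 + l) (L := atTop) (z := fun s : ℝ => ((s / 4 : ℝ) : ℂ))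
    (ρ := fun s => s / 4) (w := 1) (tendsto_id.atTop_div_const (by norm_num))
    (tendsto_const_nhds.congr' ((eventually_gt_atTop 0).mono fun s hs =>
      (div_self (ofReal_ne_zero.2 (by positivity))).symm)) (by simpa using om_real one_pos)
  exact this.mono fun s hs => hs.1

theorem can_spec (β : ℝ) (l : ℕ) (lam : ℂ) (h : 0 ≤ lam.re) :
    ContDiffOn ℝ ∞ (Can β l lam) (Ioi 0) ∧ (∀ s : ℝ, 0 < s → FreeF β l lam (Can β l lam) s = 0) ∧
    (∀ s₀ : ℝ, 0 < s₀ → ∀ j : ℕ, ∃ C : ℝ, ∀ s : ℝ, s₀ ≤ s →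
      ‖iteratedDeriv j (Can β l lam) s‖ ≤ C * s ^ (-(lam.re + l / 2) - j)) ∧
    (∀ s₀ : ℝ, 0 < s₀ → Good l s₀ (Can β l lam)) ∧ ∀ᶠ s in atTop, Can β l lam s ≠ 0 :=
  ⟨can_smooth β l h, can_ode β l h, fun _ h0 j => (can_symb β l h h0 j).imp fun _ h => h.2,
    fun _ h0 => can_good β l h h0, can_ne β l h⟩

theorem can_cont (l : ℕ) (lam : ℂ) (h : 0 ≤ lam.re) :
    ContinuousOn (fun p : ℝ × ℝ => Can p.1 l lam p.2) (univ ×ˢ Ioi 0) ∧
    ContinuousOn (fun p : ℝ × ℝ => deriv (Can p.1 l lam) p.2) (univ ×ˢ Ioi 0) := by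
  have ca : Continuous fun p : ℝ × ℝ => aa p.1 l lam := by unfold aa; fun_prop
  have cz : Continuous fun p : ℝ × ℝ => ((p.2 / 4 : ℝ) : ℂ) := by fun_prop
  have hM : ∀ j, ∀ p ∈ (univ : Set ℝ) ×ˢ Ioi (0 : ℝ), ContinuousAt
      (fun p : ℝ × ℝ => MM (aa p.1 l lam) (6 + l) j ((p.2 / 4 : ℝ) : ℂ)) p := fun j p hp =>
    MM_cont _ j ca.continuousAt cz.continuousAt (aa_nn _ l h)
      (om_real (div_pos hp.2 (by norm_num)))
  constructor
  · intro p hp
    exact ((((continuousAt_const.mul cz.continuousAt).mul (hM 1 p hp)).add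
      (((continuousAt_const.mul cz.continuousAt).add continuousAt_const).mul
        (hM 0 p hp))).neg).continuousWithinAt
  · refine ContinuousOn.congr (fun p hp => ?_) fun p hp => can_deriv p.1 l h hp.2
    exact (((continuousAt_const.mul ca.continuousAt).mul (hM 0 p hp)).div_const
      4).continuousWithinAt

end P139
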