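import Vale.Agent.P139.Defs

/-! P139 part MI: the Laplace integral `∫ e^{-ζu} u^{a-1} (1+ηu)^c du`. -/

open Complex Set Filter Topology MeasureTheory
open scoped ContDiff ComplexConjugate

noncomputable section
namespace P139
namespace MIJ

def ker (a c ζ η : ℂ) (u : ℝ) : ℂ := cexp (-(ζ * u)) * (u : ℂ) ^ (a - 1) * (1 + η * u) ^ c

def II (a c ζ η : ℂ) : ℂ := ∫ u in Ioi (0 : ℝ), ker a c ζ η u

/-- dominating function -/
def dom (α₁ α₂ δ : ℝ) (u : ℝ) : ℝ :=
  u ^ (α₁ - 1) * Real.exp (-(δ / 2) * u) + u ^ (α₂ - 1) * Real.exp (-(δ / 2) * u)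

theorem dom_int {α₁ α₂ δ : ℝ} (h1 : 0 < α₁) (h2 : 0 < α₂) (hδ : 0 < δ) :
    IntegrableOn (dom α₁ α₂ δ) (Ioi 0) := by
  have h : ∀ α : ℝ, 0 < α →
      IntegrableOn (fun u : ℝ => u ^ (α - 1) * Real.exp (-(δ / 2) * u)) (Ioi 0) := fun α hα => by
    have := integrableOn_rpow_mul_exp_neg_mul_rpow (p := 1) (s := α - 1) (b := δ / 2)
      (by linarith) one_pos (by linarith)
    simpa only [Real.rpow_one] using this
  exact (h α₁ h1).add (h α₂ h2)

theorem slit {η : ℂ} (hη : 0 ≤ η.re) {u : ℝ} (hu : 0 ≤ u) : 1 + η * u ∈ slitPlane := by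
  left
  have := mul_nonneg hη hu
  simp only [add_re, one_re, mul_re, ofReal_re, ofReal_im, mul_zero, sub_zero]
  linarith

theorem one_le_norm {η : ℂ} (hη : 0 ≤ η.re) {u : ℝ} (hu : 0 ≤ u) : 1 ≤ ‖1 + η * u‖ := by
  refine le_trans ?_ (Complex.re_le_norm _)
  have := mul_nonneg hη hu
  simp only [add_re, one_re, mul_re, ofReal_re, ofReal_im, mul_zero, sub_zero]
  linarith

theorem pow_bound {δ B N : ℝ} (hδ : 0 < δ) (hB : 0 ≤ B) (hN : 0 < N) : ∃ C : ℝ, 0 ≤ C ∧
    ∀ (c η : ℂ) (u : ℝ), 0 ≤ η.re → ‖η‖ ≤ B → ‖c‖ ≤ N → 0 ≤ u →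
      ‖(1 + η * u) ^ c‖ ≤ C * Real.exp (δ / 2 * u) := by
  refine ⟨(1 + B / (δ / (2 * N))) ^ N * Real.exp (Real.pi * N), by positivity,
    fun c η u hη hηB hc hu => ?_⟩
  have h1 := one_le_norm hη hu
  have hε : 0 < δ / (2 * N) := by positivity
  have h2 : ‖1 + η * u‖ ≤ (1 + B / (δ / (2 * N))) * Real.exp (δ / (2 * N) * u) := by
    have e1 : ‖1 + η * u‖ ≤ 1 + B * u := by
      refine (norm_add_le _ _).trans ?_
      rw [norm_one, norm_mul, Complex.norm_real, Real.norm_of_nonneg hu]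
      gcongr
    have e2 := Real.add_one_le_exp (δ / (2 * N) * u)
    have e3 : B / (δ / (2 * N)) * (δ / (2 * N) * u) = B * u := by field_simp
    have e4 : 0 ≤ B / (δ / (2 * N)) := by positivity
    have e5 : 0 ≤ δ / (2 * N) * u := by positivity
    nlinarith
  have h3 : ‖1 + η * u‖ ^ c.re ≤ (1 + B / (δ / (2 * N))) ^ N * Real.exp (δ / 2 * u) := by
    calc ‖1 + η * u‖ ^ c.re ≤ ‖1 + η * u‖ ^ N :=
          Real.rpow_le_rpow_of_exponent_le h1 ((Complex.re_le_norm c).trans hc)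
      _ ≤ ((1 + B / (δ / (2 * N))) * Real.exp (δ / (2 * N) * u)) ^ N :=
          Real.rpow_le_rpow (norm_nonneg _) h2 hN.le
      _ = _ := by
          rw [Real.mul_rpow (by positivity) (by positivity), ← Real.exp_mul]
          congr 2
          field_simp
  have h4 : -(Real.pi * N) ≤ arg (1 + η * u) * c.im := by
    have e1 : |arg (1 + η * u) * c.im| ≤ Real.pi * N := by
      rw [abs_mul]
      exact mul_le_mul (abs_arg_le_pi _) ((Complex.abs_im_le_norm c).trans hc) (abs_nonneg _)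
        Real.pi_pos.le
    linarith [neg_abs_le (arg (1 + η * u) * c.im)]
  refine (norm_cpow_le _ _).trans ?_
  rw [div_eq_mul_inv, ← Real.exp_neg]
  calc _ ≤ (1 + B / (δ / (2 * N))) ^ N * Real.exp (δ / 2 * u) * Real.exp (Real.pi * N) := by
        gcongr
        linarith
    _ = _ := by ring

theorem ker_bound {δ B N : ℝ} (hδ : 0 < δ) (hB : 0 ≤ B) (hN : 0 < N) (α₁ α₂ : ℝ) : ∃ C : ℝ,
    ∀ (a c ζ η : ℂ) (u : ℝ), α₁ ≤ a.re → a.re ≤ α₂ → δ ≤ ζ.re → 0 ≤ η.re → ‖η‖ ≤ B → ‖c‖ ≤ N →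
      0 < u → ‖ker a c ζ η u‖ ≤ C * dom α₁ α₂ δ u := by
  obtain ⟨C, hC, h⟩ := pow_bound hδ hB hN
  refine ⟨C, fun a c ζ η u h1 h2 h3 h4 h5 h6 hu => ?_⟩
  have e1 : ‖cexp (-(ζ * u))‖ ≤ Real.exp (-δ * u) := by
    rw [norm_exp]
    refine Real.exp_le_exp.2 ?_
    simp only [neg_re, mul_re, ofReal_re, ofReal_im, mul_zero, sub_zero]
    nlinarith
  have e2 : ‖(u : ℂ) ^ (a - 1)‖ ≤ u ^ (α₁ - 1) + u ^ (α₂ - 1) := by
    rw [norm_cpow_eq_rpow_re_of_pos hu, sub_re, one_re]
    have p1 : 0 ≤ u ^ (α₁ - 1) := by positivity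
    have p2 : 0 ≤ u ^ (α₂ - 1) := by positivity
    rcases le_total u 1 with h | h
    · have := Real.rpow_le_rpow_of_exponent_ge hu h (show α₁ - 1 ≤ a.re - 1 by linarith)
      linarith
    · have := Real.rpow_le_rpow_of_exponent_le h (show a.re - 1 ≤ α₂ - 1 by linarith)
      linarith
  have e3 := h c η u h4 h5 h6 hu.le
  have e4 : Real.exp (-δ * u) * Real.exp (δ / 2 * u) = Real.exp (-(δ / 2) * u) := by
    rw [← Real.exp_add]; congr 1; ring
  rw [ker, norm_mul, norm_mul]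
  calc _ ≤ Real.exp (-δ * u) * (u ^ (α₁ - 1) + u ^ (α₂ - 1)) * (C * Real.exp (δ / 2 * u)) := by
        gcongr
    _ = C * ((u ^ (α₁ - 1) + u ^ (α₂ - 1)) * (Real.exp (-δ * u) * Real.exp (δ / 2 * u))) := by ring
    _ = _ := by rw [e4, dom]; ring

theorem ker_cont (a c ζ : ℂ) {η : ℂ} (hη : 0 ≤ η.re) : ContinuousOn (ker a c ζ η) (Ioi 0) := by
  intro u hu
  have hu' : (0 : ℝ) < u := hu
  refine ContinuousAt.continuousWithinAt ?_
  refine ContinuousAt.mul (ContinuousAt.mul (by fun_prop) ?_) ?_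
  · exact continuousAt_ofReal_cpow_const u _ (Or.inr hu'.ne')
  · exact ContinuousAt.cpow (f := fun u : ℝ => 1 + η * u) (by fun_prop) continuousAt_const
      (slit hη hu'.le)

theorem ker_meas (a c ζ : ℂ) {η : ℂ} (hη : 0 ≤ η.re) :
    AEStronglyMeasurable (ker a c ζ η) (volume.restrict (Ioi 0)) :=
  (ker_cont a c ζ hη).aestronglyMeasurable measurableSet_Ioi

theorem ker_int {a ζ η : ℂ} (c : ℂ) (ha : 0 < a.re) (hζ : 0 < ζ.re) (hη : 0 ≤ η.re) :
    IntegrableOn (ker a c ζ η) (Ioi 0) := by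
  obtain ⟨C, hC⟩ := ker_bound (N := ‖c‖ + 1) hζ (norm_nonneg η) (by positivity) a.re a.re
  refine Integrable.mono' ((dom_int ha ha hζ).const_mul C) (ker_meas a c ζ hη) ?_
  refine (ae_restrict_iff' measurableSet_Ioi).2 (Eventually.of_forall fun u hu => ?_)
  exact hC a c ζ η u le_rfl le_rfl le_rfl hη le_rfl (by linarith) hu

/-- joint continuity -/
theorem II_cont {X : Type*} [TopologicalSpace X] [FirstCountableTopology X] {a c ζ η : X → ℂ}
    {s : Set X} {x : X} (ha : ContinuousWithinAt a s x) (hc : ContinuousWithinAt c s x)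
    (hζ : ContinuousWithinAt ζ s x) (hη : ContinuousWithinAt η s x) (h1 : 0 < (a x).re)
    (h2 : 0 < (ζ x).re) (h3 : 0 ≤ (η x).re) (h4 : ∀ᶠ y in 𝓝[s] x, 0 ≤ (η y).re) :
    ContinuousWithinAt (fun y => II (a y) (c y) (ζ y) (η y)) s x := by
  obtain ⟨C, hC⟩ := ker_bound (δ := (ζ x).re / 2) (B := ‖η x‖ + 1) (N := ‖c x‖ + 1)
    (by linarith) (by positivity) (by positivity) ((a x).re / 2) ((a x).re + 1)
  have a1 : Tendsto (fun y => (a y).re) (𝓝[s] x) (𝓝 (a x).re) :=
    (continuous_re.tendsto _).comp ha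
  have z1 : Tendsto (fun y => (ζ y).re) (𝓝[s] x) (𝓝 (ζ x).re) :=
    (continuous_re.tendsto _).comp hζ
  refine continuousWithinAt_of_dominated
    (bound := fun u => C * dom ((a x).re / 2) ((a x).re + 1) ((ζ x).re / 2) u)
    (h4.mono fun y hy => ker_meas _ _ _ hy) ?_
    ((dom_int (by linarith) (by linarith) (by linarith)).const_mul C) ?_
  · filter_upwards [h4, a1.eventually_const_lt (show (a x).re / 2 < (a x).re by linarith),
      a1.eventually_lt_const (show (a x).re < (a x).re + 1 by linarith),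
      z1.eventually_const_lt (show (ζ x).re / 2 < (ζ x).re by linarith),
      hη.norm.eventually_lt_const (show ‖η x‖ < ‖η x‖ + 1 by linarith),
      hc.norm.eventually_lt_const (show ‖c x‖ < ‖c x‖ + 1 by linarith)] with y e1 e2 e3 e4 e5 e6
    refine (ae_restrict_iff' measurableSet_Ioi).2 (Eventually.of_forall fun u hu => ?_)
    exact hC _ _ _ _ u e2.le e3.le e4.le e1 e5.le e6.le hu
  · refine (ae_restrict_iff' measurableSet_Ioi).2 (Eventually.of_forall fun u hu => ?_)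
    have hu' : (0 : ℝ) < u := hu
    refine ContinuousWithinAt.mul (ContinuousWithinAt.mul ?_ ?_) ?_
    · exact (hζ.mul continuousWithinAt_const).neg.cexp
    · exact continuousWithinAt_const.cpow (ha.sub continuousWithinAt_const)
        (Or.inl (by simpa using hu'))
    · exact (continuousWithinAt_const.add (hη.mul continuousWithinAt_const)).cpow hc
        (slit h3 hu'.le)

theorem ker_succ {a : ℂ} (c ζ η : ℂ) {u : ℝ} (hu : 0 < u) :
    ker (a + 1) c ζ η u = u * ker a c ζ η u := by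
  have : (u : ℂ) ≠ 0 := ofReal_ne_zero.2 hu.ne'
  rw [ker, ker, show a + 1 - 1 = 1 + (a - 1) by ring, cpow_add _ _ this, cpow_one]
  ring

theorem II_deriv {a ζ η : ℂ} (c : ℂ) (ha : 0 < a.re) (hζ : 0 < ζ.re) (hη : 0 ≤ η.re) :
    HasDerivAt (fun w => II a c w η) (-II (a + 1) c ζ η) ζ := by
  obtain ⟨C, hC⟩ := ker_bound (δ := ζ.re / 2) (N := ‖c‖ + 1) (by linarith) (norm_nonneg η)
    (by positivity) (a.re + 1) (a.re + 1)
  have hs : {w : ℂ | ζ.re / 2 < w.re} ∈ 𝓝 ζ :=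
    (isOpen_lt continuous_const continuous_re).mem_nhds (show ζ.re / 2 < ζ.re by linarith)
  have := (hasDerivAt_integral_of_dominated_loc_of_deriv_le (μ := volume.restrict (Ioi 0))
    (F := fun w u => ker a c w η u) (F' := fun w u => -ker (a + 1) c w η u)
    (bound := fun u => C * dom (a.re + 1) (a.re + 1) (ζ.re / 2) u) hs
    (Eventually.of_forall fun w => ker_meas _ _ _ hη) (ker_int c ha hζ hη)
    (ker_meas _ _ _ hη).neg ?_
    ((dom_int (by linarith) (by linarith) (by linarith)).const_mul C) ?_).2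
  · rwa [integral_neg] at this
  · refine (ae_restrict_iff' measurableSet_Ioi).2 (Eventually.of_forall fun u hu w hw => ?_)
    rw [norm_neg]
    exact hC _ _ _ _ u (by simp) (by simp) (le_of_lt hw) hη le_rfl (by linarith) hu
  · refine (ae_restrict_iff' measurableSet_Ioi).2 (Eventually.of_forall fun u hu w _ => ?_)
    rw [ker_succ _ _ _ hu]
    unfold ker
    refine (((((hasDerivAt_id' w).mul_const (u : ℂ)).fun_neg.cexp).mul_const _).mul_const
      _).congr_deriv ?_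
    ring

/-- integration by parts -/
theorem II_rec {a ζ η : ℂ} (c : ℂ) (ha : 0 < a.re) (hζ : 0 < ζ.re) (hη : 0 ≤ η.re) :
    -(ζ * η) * II (a + 2) c ζ η + (-ζ + (a + c + 1) * η) * II (a + 1) c ζ η
      + a * II a c ζ η = 0 := by
  have ha1 : 0 < (a + 1).re := by simp only [add_re, one_re]; linarith
  have ha2 : 0 < (a + 2).re := by simp only [add_re, re_ofNat]; linarith
  have i0 := ker_int c ha hζ hη
  have i1 := ker_int c ha1 hζ hη
  have i2 := ker_int c ha2 hζ hη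
  have hi : IntegrableOn (fun u => -(ζ * η) * ker (a + 2) c ζ η u
      + (-ζ + (a + c + 1) * η) * ker (a + 1) c ζ η u + a * ker a c ζ η u) (Ioi 0) :=
    ((i2.const_mul _).add (i1.const_mul _)).add (i0.const_mul _)
  have hd : ∀ u ∈ Ioi (0 : ℝ), HasDerivAt (ker (a + 1) (c + 1) ζ η) (-(ζ * η) * ker (a + 2) c ζ η u
      + (-ζ + (a + c + 1) * η) * ker (a + 1) c ζ η u + a * ker a c ζ η u) u := by
    intro u hu
    have hu' : (0 : ℝ) < u := hu
    have h0 : (u : ℂ) ≠ 0 := ofReal_ne_zero.2 hu'.ne'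
    have hs := slit hη hu'.le
    have h1 : 1 + η * u ≠ 0 := slitPlane_ne_zero hs
    have d1 : HasDerivAt (fun w : ℂ => cexp (-(ζ * w))) (cexp (-(ζ * u)) * -(ζ * 1)) (u : ℂ) :=
      ((hasDerivAt_id' (u : ℂ)).const_mul ζ).fun_neg.cexp
    have d2 := (hasDerivAt_id' (u : ℂ)).cpow_const (c := a + 1 - 1) (Or.inl (by simpa using hu'))
    have d3 := (((hasDerivAt_id' (u : ℂ)).const_mul η).const_add 1).cpow_const (c := c + 1) hs
    refine ((d1.fun_mul d2).fun_mul d3).comp_ofReal.congr_deriv ?_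
    rw [show a + 2 = a + 1 + 1 by ring, ker_succ _ _ _ hu', ker_succ _ _ _ hu', ker,
      show a + 1 - 1 = 1 + (a - 1) by ring, show 1 + (a - 1) - 1 = a - 1 by ring,
      cpow_add _ _ h0, cpow_one, add_sub_cancel_right, cpow_add _ _ h1, cpow_one]
    ring
  have h0 : ContinuousWithinAt (ker (a + 1) (c + 1) ζ η) (Ici 0) 0 := by
    refine ContinuousAt.continuousWithinAt ?_
    refine ContinuousAt.mul (ContinuousAt.mul (by fun_prop) ?_) ?_
    · exact continuousAt_ofReal_cpow_const 0 _ (Or.inl (by simpa using ha))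
    · exact ContinuousAt.cpow (f := fun u : ℝ => 1 + η * u) (by fun_prop) continuousAt_const
        (slit hη le_rfl)
  have h := integral_Ioi_of_hasDerivAt_of_tendsto h0 hd hi
    (tendsto_zero_of_hasDerivAt_of_integrableOn_Ioi hd hi (ker_int _ ha1 hζ hη))
  have hz : ker (a + 1) (c + 1) ζ η 0 = 0 := by
    have : a ≠ 0 := fun h => by simp [h] at ha
    simp [ker, this]
  have i21 : IntegrableOn (fun u => -(ζ * η) * ker (a + 2) c ζ η u
      + (-ζ + (a + c + 1) * η) * ker (a + 1) c ζ η u) (Ioi 0) :=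
    (i2.const_mul _).add (i1.const_mul _)
  rw [hz, sub_zero, integral_add i21 (i0.const_mul _),
    integral_add (i2.const_mul _) (i1.const_mul _), integral_const_mul, integral_const_mul,
    integral_const_mul] at h
  exact h

/-- scaling -/
theorem II_scale (a c ζ η : ℂ) {ρ : ℝ} (hρ : 0 < ρ) :
    II a c ζ η = (ρ : ℂ) ^ (-a) * II a c (ζ / ρ) (η / ρ) := by
  have h0 : (ρ : ℂ) ≠ 0 := ofReal_ne_zero.2 hρ.ne'
  have h := integral_comp_mul_left_Ioi (ker a c (ζ / ρ) (η / ρ)) 0 hρ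
  rw [mul_zero] at h
  have e : ∫ u in Ioi (0 : ℝ), ker a c (ζ / ρ) (η / ρ) (ρ * u)
      = ∫ u in Ioi (0 : ℝ), (ρ : ℂ) ^ (a - 1) * ker a c ζ η u := by
    refine setIntegral_congr_fun measurableSet_Ioi fun u hu => ?_
    have hu' : (0 : ℝ) < u := hu
    simp only [ker]
    rw [ofReal_mul, mul_cpow_ofReal_nonneg hρ.le hu'.le,
      show ζ / ρ * (ρ * u) = ζ * u by field_simp, show η / ρ * (ρ * u) = η * u by field_simp]
    ring
  rw [e, integral_const_mul] at h
  have e2 : (ρ : ℂ) ^ (-a) * (ρ : ℂ) ^ (a - 1) * ρ = 1 := by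
    rw [← cpow_add _ _ h0, show -a + (a - 1) = -1 by ring, cpow_neg_one, inv_mul_cancel₀ h0]
  have e3 : II a c (ζ / ρ) (η / ρ) = ρ * ((ρ : ℂ) ^ (a - 1) * II a c ζ η) := by
    rw [II, II, h, real_smul, ofReal_inv, ← mul_assoc, mul_inv_cancel₀ h0, one_mul]
  rw [e3]
  linear_combination (-II a c ζ η) * e2

theorem II_zero_ne {a ζ : ℂ} (c : ℂ) (ha : 0 < a.re) (hζ : 0 < ζ.re) : II a c ζ 0 ≠ 0 := by
  have ho : IsOpen {w : ℂ | 0 < w.re} := isOpen_lt continuous_const continuous_re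
  have hd : ∀ w ∈ {w : ℂ | 0 < w.re}, HasDerivAt (fun w => w ^ a * II a c w 0) 0 w := by
    intro w hw
    have hw' : 0 < w.re := hw
    have h0 : w ≠ 0 := fun h => by simp [h] at hw'
    have h1 := II_rec (η := 0) c ha hw' le_rfl
    refine (((hasDerivAt_id' w).cpow_const (c := a) (Or.inl hw')).fun_mul
      (II_deriv c ha hw' (η := 0) le_rfl)).congr_deriv ?_
    have e : w ^ a = w ^ (a - 1) * w := by
      rw [show w ^ a = w ^ (a - 1 + 1) by ring_nf, cpow_add _ _ h0, cpow_one]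
    rw [e]
    linear_combination (w ^ (a - 1)) * h1
  have hc := ho.is_const_of_deriv_eq_zero (convex_halfSpace_re_gt 0).isPreconnected
    (fun w hw => (hd w hw).differentiableAt.differentiableWithinAt)
    (fun w hw => (hd w hw).deriv) (show ζ ∈ {w : ℂ | 0 < w.re} from hζ)
    (show (1 : ℂ) ∈ {w : ℂ | 0 < w.re} by simp)
  have hG : II a c 1 0 = Gamma a := by
    rw [Gamma_eq_integral ha, GammaIntegral, II]
    refine setIntegral_congr_fun measurableSet_Ioi fun u _ => ?_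
    simp [ker]
  intro h
  simp only [h, mul_zero, one_cpow, one_mul, hG] at hc
  exact Gamma_ne_zero_of_re_pos ha hc.symm

end MIJ
end P139
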