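import Vale.Agent.P139.MIJa

/-! P139 part MI: the canonical outgoing solution of `z F'' + (b + i z) F' + i a F = 0`. -/

open Complex Set Filter Topology MeasureTheory
open scoped ContDiff ComplexConjugate

noncomputable section
namespace P139
namespace MIJ

def kap : ℂ := 1 + I / 10

theorem kap_re : kap.re = 1 := by simp [kap]

theorem kap_ne : kap ≠ 0 := fun h => by simpa [h] using kap_re

/-- the sector of holomorphy -/
def Om (z : ℂ) : Prop := 0 < z.im + z.re / 10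

theorem Om.re {z : ℂ} (h : Om z) : 0 < (-I * z * kap).re := by
  unfold Om at h
  simp only [kap, mul_re, mul_im, neg_re, neg_im, I_re, I_im, add_re, add_im, one_re, one_im,
    div_ofNat_re, div_ofNat_im]
  linarith

theorem om_real {x : ℝ} (hx : 0 < x) : Om x := by
  simp only [Om, ofReal_im, ofReal_re]; linarith

def MM (a b : ℂ) (j : ℕ) (z : ℂ) : ℂ := kap ^ j * II (a + 1 + j) (b - a - 1) (-I * z * kap) kap

def Phi (a b z : ℂ) : ℂ := -(I * z * MM a b 1 z + (I * z + b) * MM a b 0 z)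

variable {a : ℂ}

theorem re_pos (ha : 0 ≤ a.re) (j : ℕ) : 0 < (a + 1 + j).re := by
  simp only [add_re, one_re, natCast_re]
  positivity

theorem kap_nn : 0 ≤ kap.re := by rw [kap_re]; norm_num

theorem MM_deriv (ha : 0 ≤ a.re) (b : ℂ) (j : ℕ) {z : ℂ} (hz : Om z) :
    HasDerivAt (MM a b j) (I * MM a b (j + 1) z) z := by
  have h := (II_deriv (b - a - 1) (re_pos ha j) hz.re kap_nn).comp z
    (((hasDerivAt_id' z).const_mul (-I)).mul_const kap)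
  refine (h.const_mul (kap ^ j)).congr_deriv ?_
  rw [MM, show a + 1 + ((j + 1 : ℕ) : ℂ) = a + 1 + j + 1 by push_cast; ring]
  ring

theorem MM_rec (ha : 0 ≤ a.re) (b : ℂ) (j : ℕ) {z : ℂ} (hz : Om z) :
    I * z * MM a b (j + 2) z + (I * z + b + 1 + j) * MM a b (j + 1) z
      + (a + 1 + j) * MM a b j z = 0 := by
  have h := II_rec (b - a - 1) (re_pos ha j) hz.re kap_nn
  simp only [MM]
  rw [show a + 1 + ((j + 1 : ℕ) : ℂ) = a + 1 + j + 1 by push_cast; ring,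
    show a + 1 + ((j + 2 : ℕ) : ℂ) = a + 1 + j + 2 by push_cast; ring]
  linear_combination kap ^ j * h

theorem Phi_deriv (ha : 0 ≤ a.re) (b : ℂ) {z : ℂ} (hz : Om z) :
    HasDerivAt (Phi a b) (I * a * MM a b 0 z) z := by
  have h := MM_rec ha b 0 hz
  refine (((((hasDerivAt_id' z).const_mul I).fun_mul (MM_deriv ha b 1 hz)).fun_add
    ((((hasDerivAt_id' z).const_mul I).add_const b).fun_mul
      (MM_deriv ha b 0 hz))).fun_neg).congr_deriv ?_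
  simp only [Nat.cast_zero, zero_add, add_zero, Nat.reduceAdd] at h ⊢
  linear_combination (-I) * h

theorem MM_scale (a b : ℂ) (j : ℕ) (z : ℂ) {ρ : ℝ} (hρ : 0 < ρ) :
    MM a b j z = kap ^ j * (ρ : ℂ) ^ (-(a + 1 + j)) *
      II (a + 1 + j) (b - a - 1) (-I * (z / ρ) * kap) (kap * ((ρ⁻¹ : ℝ) : ℂ)) := by
  rw [MM, II_scale _ _ _ _ hρ, show -I * z * kap / ρ = -I * (z / ρ) * kap by ring,
    show kap / ρ = kap * ((ρ⁻¹ : ℝ) : ℂ) by push_cast; ring, ← mul_assoc]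

theorem kap_mul_re {ε : ℝ} (h : 0 ≤ ε) : 0 ≤ (kap * ε).re := by
  simpa [mul_re, kap_re] using h

theorem J_cont (ha : 0 ≤ a.re) (c : ℂ) (j : ℕ) {x : ℂ × ℝ} (hw : Om x.1) (hε : 0 ≤ x.2) :
    ContinuousWithinAt (fun y : ℂ × ℝ => II (a + 1 + j) c (-I * y.1 * kap) (kap * y.2))
      (univ ×ˢ Ici 0) x :=
  II_cont continuousWithinAt_const continuousWithinAt_const (by fun_prop) (by fun_prop)
    (re_pos ha j) hw.re (kap_mul_re hε)
    (eventually_mem_nhdsWithin.mono fun _ hy => kap_mul_re hy.2)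

theorem MM_bound (ha : 0 ≤ a.re) (b : ℂ) (j : ℕ) {z₀ : ℝ} (h0 : 0 < z₀) :
    ∃ C : ℝ, 0 ≤ C ∧ ∀ x : ℝ, z₀ ≤ x → ‖MM a b j x‖ ≤ C * x ^ (-(a.re + 1 + j)) := by
  have hc : ContinuousOn (fun ε : ℝ => II (a + 1 + j) (b - a - 1) (-I * 1 * kap) (kap * ε))
      (Icc 0 z₀⁻¹) := fun ε hε =>
    (J_cont ha (b - a - 1) j (x := ((1 : ℂ), ε)) (by simpa using om_real one_pos) hε.1).comp
      (f := fun ε : ℝ => ((1 : ℂ), ε)) (by fun_prop) fun _ h => ⟨trivial, h.1⟩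
  obtain ⟨C, hC⟩ := isCompact_Icc.exists_bound_of_continuousOn hc
  have hC0 : 0 ≤ C := (norm_nonneg _).trans (hC 0 ⟨le_rfl, by positivity⟩)
  refine ⟨‖kap ^ j‖ * C, by positivity, fun x hx => ?_⟩
  have hx0 : 0 < x := h0.trans_le hx
  rw [MM_scale a b j x hx0, div_self (ofReal_ne_zero.2 hx0.ne'), norm_mul, norm_mul,
    norm_cpow_eq_rpow_re_of_pos hx0]
  have h1 := hC x⁻¹ ⟨by positivity, inv_anti₀ h0 hx⟩
  have e : (-(a + 1 + (j : ℂ))).re = -(a.re + 1 + j) := by simp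
  rw [e, mul_right_comm]
  gcongr

theorem Phi_bound (ha : 0 ≤ a.re) (b : ℂ) {z₀ : ℝ} (h0 : 0 < z₀) :
    ∃ C : ℝ, 0 ≤ C ∧ ∀ x : ℝ, z₀ ≤ x → ‖Phi a b x‖ ≤ C * x ^ (-a.re) := by
  obtain ⟨C₀, h₀, H₀⟩ := MM_bound ha b 0 h0
  obtain ⟨C₁, h₁, H₁⟩ := MM_bound ha b 1 h0
  refine ⟨C₁ / z₀ + (1 + ‖b‖ / z₀) * C₀, by positivity, fun x hx => ?_⟩
  have hx0 : 0 < x := h0.trans_le hx
  have e0 := H₀ x hx
  have e1 := H₁ x hx
  have p0 : x ^ (-(a.re + 1 + ((0 : ℕ) : ℝ))) = x ^ (-a.re) / x := by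
    rw [← Real.rpow_sub_one hx0.ne']; congr 1; push_cast; ring
  have p1 : x ^ (-(a.re + 1 + ((1 : ℕ) : ℝ))) = x ^ (-a.re) / x / x := by
    rw [← Real.rpow_sub_one hx0.ne', ← Real.rpow_sub_one hx0.ne']; congr 1; push_cast; ring
  rw [p0] at e0
  rw [p1] at e1
  have hp : 0 < x ^ (-a.re) := Real.rpow_pos_of_pos hx0 _
  have n1 : ‖I * (x : ℂ)‖ = x := by simp [hx0.le]
  have n2 : ‖I * (x : ℂ) + b‖ ≤ x + ‖b‖ := (norm_add_le _ _).trans (by rw [n1])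
  rw [Phi, norm_neg]
  refine (norm_add_le _ _).trans ?_
  rw [norm_mul, norm_mul (_ + _), n1]
  calc _ ≤ x * (C₁ * (x ^ (-a.re) / x / x)) + (x + ‖b‖) * (C₀ * (x ^ (-a.re) / x)) := by gcongr
    _ = (C₁ / x + (1 + ‖b‖ / x) * C₀) * x ^ (-a.re) := by field_simp
    _ ≤ _ := by gcongr

/-- behaviour far out in a direction `w` of the sector -/
theorem asym (ha : 0 ≤ a.re) (b : ℂ) {ι : Type*} {L : Filter ι} {z : ι → ℂ} {ρ : ι → ℝ} {w : ℂ}
    (hρ : Tendsto ρ L atTop) (hz : Tendsto (fun i => z i / ρ i) L (𝓝 w)) (hw : Om w) :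
    ∀ᶠ i in L, Phi a b (z i) ≠ 0 ∧
      ‖z i * (I * a * MM a b 0 (z i))‖ ≤ 2 * ‖a‖ * ‖Phi a b (z i)‖ := by
  have hp : ∀ᶠ i in L, 0 < ρ i := hρ.eventually_gt_atTop 0
  have hi : Tendsto (fun i => (ρ i)⁻¹) L (𝓝 0) := tendsto_inv_atTop_zero.comp hρ
  have ht : Tendsto (fun i => ((z i / ρ i, (ρ i)⁻¹) : ℂ × ℝ)) L (𝓝[univ ×ˢ Ici 0] (w, 0)) :=
    tendsto_nhdsWithin_iff.2 ⟨hz.prodMk_nhds hi,
      hp.mono fun i h => ⟨trivial, (inv_pos.2 h).le⟩⟩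
  have t0 := (J_cont ha (b - a - 1) 0 (x := (w, 0)) hw le_rfl).tendsto.comp ht
  have t1 := (J_cont ha (b - a - 1) 1 (x := (w, 0)) hw le_rfl).tendsto.comp ht
  have hw0 : w ≠ 0 := fun h => by simp [h, Om] at hw
  have n0 : II (a + 1 + (0 : ℕ)) (b - a - 1) (-I * w * kap) (kap * (0 : ℝ)) ≠ 0 := by
    rw [ofReal_zero, mul_zero]; exact II_zero_ne _ (re_pos ha 0) hw.re
  have hi' : Tendsto (fun i => (((ρ i)⁻¹ : ℝ) : ℂ)) L (𝓝 0) :=
    (continuous_ofReal.tendsto' 0 0 ofReal_zero).comp hi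
  have t2 := ((hi'.const_mul kap).mul (t1.div t0 n0)).add
    ((hi'.const_mul b).div (hz.const_mul I) (mul_ne_zero I_ne_zero hw0))
  simp only [mul_zero, zero_mul, zero_div, add_zero] at t2
  filter_upwards [hp, t0.eventually_ne n0, hz.eventually_ne hw0,
    t2.norm.eventually_lt_const (show ‖(0 : ℂ)‖ < 1 / 2 by norm_num)] with i h1 h2 h3 h4
  simp only [Function.comp, Pi.div_apply] at h2 h4
  have hρ0 : (ρ i : ℂ) ≠ 0 := ofReal_ne_zero.2 h1.ne'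
  have hz0 : z i ≠ 0 := fun h => h3 (by rw [h, zero_div])
  have m0 := MM_scale a b 0 (z i) h1
  have m1 := MM_scale a b 1 (z i) h1
  rw [show -(a + 1 + ((1 : ℕ) : ℂ)) = -(a + 1 + (0 : ℕ)) + -1 by push_cast; ring,
    cpow_add _ _ hρ0, cpow_neg_one] at m1
  have hM : MM a b 0 (z i) ≠ 0 := by
    rw [m0]
    exact mul_ne_zero (mul_ne_zero (pow_ne_zero _ kap_ne) (by simp [hρ0])) h2
  generalize II (a + 1 + (0 : ℕ)) (b - a - 1) (-I * (z i / ρ i) * kap)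
    (kap * (((ρ i)⁻¹ : ℝ) : ℂ)) = J₀ at *
  generalize II (a + 1 + (1 : ℕ)) (b - a - 1) (-I * (z i / ρ i) * kap)
    (kap * (((ρ i)⁻¹ : ℝ) : ℂ)) = J₁ at *
  obtain ⟨q, hq⟩ : ∃ q, q = kap * (((ρ i)⁻¹ : ℝ) : ℂ) * (J₁ / J₀)
    + b * (((ρ i)⁻¹ : ℝ) : ℂ) / (I * (z i / ρ i)) := ⟨_, rfl⟩
  rw [← hq] at h4
  have e : Phi a b (z i) = -(I * z i * MM a b 0 (z i)) * (1 + q) := by
    rw [Phi, hq, m1, m0]
    push_cast
    field_simp
    ring
  have hq1 : 1 / 2 ≤ ‖1 + q‖ := by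
    have := norm_sub_norm_le (1 : ℂ) (-q)
    rw [norm_one, norm_neg, sub_neg_eq_add] at this
    linarith
  have hn : ‖Phi a b (z i)‖ = ‖z i‖ * ‖MM a b 0 (z i)‖ * ‖1 + q‖ := by
    rw [e]; simp
  have hpos : 0 < ‖z i‖ * ‖MM a b 0 (z i)‖ := by positivity
  refine ⟨norm_pos_iff.1 (by rw [hn]; positivity), ?_⟩
  rw [hn]
  simp only [norm_mul, norm_I, one_mul]
  have := mul_le_mul_of_nonneg_left hq1 (mul_nonneg (norm_nonneg a) hpos.le)
  linarith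

theorem MM_cont {X : Type*} [TopologicalSpace X] [FirstCountableTopology X] {a z : X → ℂ} (b : ℂ)
    (j : ℕ) {x : X} (ha : ContinuousAt a x) (hz : ContinuousAt z x) (h1 : 0 ≤ (a x).re)
    (h2 : Om (z x)) : ContinuousAt (fun y => MM (a y) b j (z y)) x := by
  refine continuousAt_const.mul (continuousWithinAt_univ _ _ |>.1 ?_)
  exact II_cont (ContinuousAt.continuousWithinAt (by fun_prop))
    (ContinuousAt.continuousWithinAt (by fun_prop)) (ContinuousAt.continuousWithinAt (by fun_prop))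
    continuousWithinAt_const (re_pos h1 j) h2.re kap_nn (Eventually.of_forall fun _ => kap_nn)

end MIJ
end P139
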