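import Vale.Agent.P139.MIJ

/-! P139 part MI: the line lemma. -/

open Complex Set Filter Topology MeasureTheory
open scoped ContDiff ComplexConjugate

noncomputable section
namespace P139
namespace MIL
open MIJ

theorem le_of_deriv {u u' : ℝ → ℝ} {a b : ℝ} (hab : a ≤ b)
    (hu : ∀ r ∈ Icc a b, HasDerivAt u (u' r) r) (h : ∀ r ∈ Icc a b, 0 ≤ u' r) : u a ≤ u b := by
  have hm : MonotoneOn u (Icc a b) :=
    monotoneOn_of_deriv_nonneg (convex_Icc a b)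
      (fun r hr => (hu r hr).continuousAt.continuousWithinAt)
      (fun r hr => (hu r (interior_subset hr)).differentiableAt.differentiableWithinAt)
      (fun r hr => by rw [(hu r (interior_subset hr)).deriv]; exact h r (interior_subset hr))
  exact hm (left_mem_Icc.2 hab) (right_mem_Icc.2 hab) hab

theorem nsq_eq (z : ℂ) : ‖z‖ ^ 2 = (z * conj z).re := by
  rw [Complex.mul_conj, Complex.normSq_eq_norm_sq, ofReal_re]

theorem quad {c d A X Y w : ℝ} (hc : 0 ≤ c) (hd : 0 ≤ d) (h : A ^ 2 ≤ c * d)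
    (hw : |w| ≤ X * Y) : 0 ≤ c * X ^ 2 - 2 * A * w + d * Y ^ 2 := by
  have h0 : w ^ 2 ≤ (X * Y) ^ 2 := by
    rw [← sq_abs]; exact pow_le_pow_left₀ (abs_nonneg _) hw 2
  have h1 : (2 * A * w) ^ 2 ≤ (c * X ^ 2 + d * Y ^ 2) ^ 2 := by
    have : A ^ 2 * w ^ 2 ≤ c * d * (X * Y) ^ 2 :=
      mul_le_mul h h0 (sq_nonneg _) (mul_nonneg hc hd)
    nlinarith [sq_nonneg (c * X ^ 2 - d * Y ^ 2)]
  have := (abs_le_of_sq_le_sq' h1 (by positivity)).2
  linarith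

theorem line_abs {y y1 V : ℝ → ℂ} {A A' : ℝ → ℝ} {p μ : ℂ} {t₁ t₂ : ℝ} (h12 : t₁ ≤ t₂)
    (hp : ‖p‖ = 1) (hc : 0 ≤ (μ * conj p).re)
    (hy : ∀ t ∈ Icc t₁ t₂, HasDerivAt y (p * y1 t) t)
    (hy1 : ∀ t ∈ Icc t₁ t₂, HasDerivAt y1 (p * (V t * y t)) t)
    (hA : ∀ t ∈ Icc t₁ t₂, HasDerivAt A (A' t) t)
    (h0 : ∀ t ∈ Icc t₁ t₂, 0 ≤ (μ * p * V t).re - A' t)
    (h1 : ∀ t ∈ Icc t₁ t₂, A t ^ 2 ≤ (μ * conj p).re * ((μ * p * V t).re - A' t)) :
    (μ * y1 t₁ * conj (y t₁)).re - A t₁ * ‖y t₁‖ ^ 2 ≤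
      (μ * y1 t₂ * conj (y t₂)).re - A t₂ * ‖y t₂‖ ^ 2 := by
  refine le_of_deriv (u := fun t => (μ * y1 t * conj (y t)).re - A t * ‖y t‖ ^ 2)
    (u' := fun t => (μ * conj p).re * ‖y1 t‖ ^ 2 - 2 * A t * (p * y1 t * conj (y t)).re
      + ((μ * p * V t).re - A' t) * ‖y t‖ ^ 2) h12 (fun t ht => ?_) fun t ht => ?_
  · have c1 : HasDerivAt (fun t => conj (y t)) (conj (p * y1 t)) t := (hy t ht).star
    have d1 := Complex.reCLM.hasFDerivAt.comp_hasDerivAt t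
      (((hy1 t ht).const_mul μ).fun_mul c1)
    have d2 := Complex.reCLM.hasFDerivAt.comp_hasDerivAt t ((hy t ht).fun_mul c1)
    simp only [nsq_eq]
    refine (d1.fun_sub ((hA t ht).fun_mul d2)).congr_deriv ?_
    simp only [Function.comp, reCLM_apply, add_re, mul_re, mul_im, conj_re, conj_im]
    ring
  · refine quad hc (h0 t ht) (h1 t ht) ?_
    refine (Complex.abs_re_le_norm _).trans (le_of_eq ?_)
    rw [norm_mul, norm_mul, hp, one_mul, Complex.norm_conj]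

/-! ### the solution on complex lines -/

def EE (n r : ℂ) : ℂ := cexp (n * log r + I * r ^ 2 / 8)
def ee (n r : ℂ) : ℂ := n / r + I * r / 4
def uu (a n r : ℂ) : ℂ := GG a (n + 1 / 2) 0 (r ^ 2 / 4)
def vv (a n r : ℂ) : ℂ := r / 2 * GG a (n + 1 / 2) 1 (r ^ 2 / 4) + ee n r * uu a n r
def VV (a n r : ℂ) : ℂ := n * (n - 1) / r ^ 2 - r ^ 2 / 16 + I * (n / 2 + 1 / 4 - a)

variable {a : ℂ}

theorem EE_deriv (n : ℂ) {r : ℂ} (hr : r ∈ slitPlane) :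
    HasDerivAt (EE n) (EE n r * ee n r) r := by
  refine ((((hasDerivAt_log hr).const_mul n).fun_add
    (((hasDerivAt_pow 2 r).const_mul I).div_const 8)).cexp).congr_deriv ?_
  rw [EE, ee]
  congr 1
  push_cast
  ring

theorem G_deriv (ha : 0 ≤ a.re) (b : ℂ) (k : ℕ) {r : ℂ} (hz : Om (r ^ 2 / 4)) :
    HasDerivAt (fun r : ℂ => GG a b k (r ^ 2 / 4)) (r / 2 * GG a b (k + 1) (r ^ 2 / 4)) r := by
  refine ((GG_deriv ha b k hz).comp r ((hasDerivAt_pow 2 r).div_const 4)).congr_deriv ?_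
  push_cast
  ring

theorem y_deriv (ha : 0 ≤ a.re) (n : ℂ) {r : ℂ} (hr : r ∈ slitPlane) (hz : Om (r ^ 2 / 4)) :
    HasDerivAt (fun r => EE n r * uu a n r) (EE n r * vv a n r) r ∧
    HasDerivAt (fun r => EE n r * vv a n r) (VV a n r * (EE n r * uu a n r)) r := by
  have h0 : r ≠ 0 := slitPlane_ne_zero hr
  have d0 := G_deriv ha (n + 1 / 2) 0 hz
  have d1 := G_deriv ha (n + 1 / 2) 1 hz
  have de : HasDerivAt (ee n) (-n / r ^ 2 + I / 4) r := by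
    refine (((hasDerivAt_const r n).fun_div (hasDerivAt_id' r) h0).fun_add
      (((hasDerivAt_id' r).const_mul I).div_const 4)).congr_deriv ?_
    ring
  refine ⟨((EE_deriv n hr).fun_mul d0).congr_deriv ?_,
    ((EE_deriv n hr).fun_mul ((((hasDerivAt_id' r).div_const 2).fun_mul d1).fun_add
      (de.fun_mul d0))).congr_deriv ?_⟩
  · simp only [vv, uu, zero_add]
    ring
  · have ho := GG_ode a (n + 1 / 2) (r ^ 2 / 4)
    have hI : I * I = -1 := I_mul_I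
    have h1 : ee n r * r = n + I * (r ^ 2 / 4) := by rw [ee]; field_simp
    have h2 : ee n r ^ 2 = n ^ 2 / r ^ 2 + n * I / 2 - r ^ 2 / 16 := by
      rw [ee]; field_simp; linear_combination (32 * r ^ 4) * hI
    simp only [uu, VV, zero_add, Nat.reduceAdd]
    linear_combination EE n r * ho + EE n r * GG a (n + 1 / 2) 1 (r ^ 2 / 4) * h1
      + EE n r * GG a (n + 1 / 2) 0 (r ^ 2 / 4) * h2

theorem om_line {r : ℂ} (h0 : 0 < r.re) (h1 : 0 ≤ r.im) (h2 : r.im ≤ 20 * r.re) :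
    Om (r ^ 2 / 4) := by
  simp only [Om, div_ofNat_re, div_ofNat_im, pow_two, mul_re, mul_im]
  nlinarith [mul_nonneg h1 (sub_nonneg.2 h2), mul_pos h0 h0]

section
variable {R : ℝ} {p μ : ℂ}

theorem pt_re (R t : ℝ) (p : ℂ) : (R + p * t).re = R + p.re * t := by simp
theorem pt_im (R t : ℝ) (p : ℂ) : (R + p * t).im = p.im * t := by simp

theorem om_pt (hR : 1 ≤ R) (h0 : 0 < p.re) (h1 : 0 ≤ p.im) (h2 : p.im ≤ 20 * p.re) {t : ℝ}
    (ht : 0 ≤ t) : R ≤ (R + p * t).re ∧ Om ((R + p * t) ^ 2 / 4) := by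
  have := mul_nonneg h0.le ht
  refine ⟨by rw [pt_re]; linarith, om_line ?_ ?_ ?_⟩
  · rw [pt_re]; linarith
  · rw [pt_im]; positivity
  · rw [pt_re, pt_im]; nlinarith [mul_le_mul_of_nonneg_right h2 ht]

theorem far (ha : 0 ≤ a.re) (n : ℂ) (hR : 1 ≤ R) (h0 : 0 < p.re) (h1 : 0 ≤ p.im)
    (h2 : p.im ≤ 20 * p.re) (hm : 0 < (μ * p).im) :
    ∀ᶠ t : ℝ in atTop, (μ * vv a n (R + p * t) * conj (uu a n (R + p * t))).re < 0 := by
  have hz : Tendsto (fun t : ℝ => ((R + p * t) ^ 2 / 4) / ((t ^ 2 : ℝ) : ℂ)) atTop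
      (𝓝 (p ^ 2 / 4)) := by
    have hi : Tendsto (fun t : ℝ => ((t⁻¹ : ℝ) : ℂ)) atTop (𝓝 0) :=
      (continuous_ofReal.tendsto' 0 0 ofReal_zero).comp tendsto_inv_atTop_zero
    have := (((hi.const_mul (R : ℂ)).add_const p).pow 2).div_const 4
    rw [mul_zero, zero_add] at this
    refine this.congr' ((eventually_gt_atTop 0).mono fun t ht => ?_)
    have : (t : ℂ) ≠ 0 := ofReal_ne_zero.2 ht.ne'
    push_cast
    field_simp
  have hl : Tendsto (fun t : ℝ => R * μ.im + (μ * p).im * t) atTop atTop :=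
    tendsto_atTop_add_const_left _ _ (tendsto_id.const_mul_atTop hm)
  filter_upwards [asym ha (n + 1 / 2) (tendsto_pow_atTop two_ne_zero) hz (om_line h0 h1 h2),
    hl.eventually_gt_atTop (4 * (‖μ‖ * (4 * ‖a‖ + ‖n‖))), eventually_ge_atTop 0] with t e1 e2 ht
  obtain ⟨b1, -⟩ := om_pt hR h0 h1 h2 ht
  have b2 : (μ * (R + p * t)).im = R * μ.im + (μ * p).im * t := by
    simp only [mul_im, add_re, add_im, ofReal_re, ofReal_im, mul_re]; ring
  rw [← b2] at e2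
  generalize (R + p * t : ℂ) = r at *
  have hr : 1 ≤ ‖r‖ := (hR.trans b1).trans (Complex.re_le_norm r)
  have hr0 : r ≠ 0 := norm_pos_iff.1 (by linarith)
  obtain ⟨e3, e4⟩ := e1
  have g1 : GG a (n + 1 / 2) 1 (r ^ 2 / 4) = I * a * MM a (n + 1 / 2) 0 (r ^ 2 / 4) := by
    simp only [GG]; ring
  rw [← g1] at e4
  change uu a n r ≠ 0 at e3
  change _ ≤ 2 * ‖a‖ * ‖uu a n r‖ at e4
  rw [vv]
  generalize GG a (n + 1 / 2) 1 (r ^ 2 / 4) = w at *
  generalize uu a n r = u at *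
  have hu : 0 < ‖u‖ := norm_pos_iff.2 e3
  have c1 : ‖r / 2 * w‖ ≤ 4 * ‖a‖ * ‖u‖ := by
    have : ‖r ^ 2 / 4 * w‖ = ‖r‖ / 2 * ‖r / 2 * w‖ := by
      rw [show r ^ 2 / 4 * w = r / 2 * (r / 2 * w) by ring, norm_mul, norm_div, Complex.norm_two]
    nlinarith [norm_nonneg (r / 2 * w)]
  have c2 : ‖n / r‖ ≤ ‖n‖ := by
    rw [norm_div]; exact div_le_self (norm_nonneg _) hr
  have c3 : (μ * (r / 2 * w + ee n r * u) * conj u).re =
      (μ * (r / 2 * w + n / r * u) * conj u).re - (μ * r).im / 4 * ‖u‖ ^ 2 := by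
    rw [ee, nsq_eq]
    generalize n / r = x
    simp only [add_re, add_im, mul_re, mul_im, conj_re, conj_im, div_ofNat_re, div_ofNat_im, I_re,
      I_im]
    ring
  have c4 : (μ * (r / 2 * w + n / r * u) * conj u).re ≤ ‖μ‖ * (4 * ‖a‖ + ‖n‖) * ‖u‖ ^ 2 := by
    refine (Complex.re_le_norm _).trans ?_
    rw [norm_mul, norm_mul, Complex.norm_conj]
    have : ‖r / 2 * w + n / r * u‖ ≤ 4 * ‖a‖ * ‖u‖ + ‖n‖ * ‖u‖ := by
      refine (norm_add_le _ _).trans (add_le_add c1 ?_)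
      rw [norm_mul]; gcongr
    calc _ ≤ ‖μ‖ * (4 * ‖a‖ * ‖u‖ + ‖n‖ * ‖u‖) * ‖u‖ := by gcongr
      _ = _ := by ring
  rw [c3]
  nlinarith [mul_pos (sub_pos.2 e2) (pow_pos hu 2)]

theorem A_ineq {α β δ c v v₀ : ℝ} (hα : 0 ≤ α) (hβ : 0 ≤ β) (hδ : 0 ≤ δ) (hv : 0 ≤ v)
    (hv₀ : v ≤ v₀) (h0 : 0 < v₀) (hA1 : α ^ 2 ≤ 5 * β * c)
    (hA2 : (α + β * v₀ + δ * v₀ ^ 2) ^ 2 ≤ c * (5 * β + 8 * δ * v₀)) :
    (α + β * v + δ * v ^ 2) ^ 2 ≤ c * (5 * β + 8 * δ * v) := by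
  have h1 : (α + β * v + δ * v ^ 2) ^ 2 ≤ (α + (β + δ * v₀) * v) ^ 2 := by
    refine pow_le_pow_left₀ (by positivity) ?_ 2
    nlinarith [mul_nonneg hδ (mul_nonneg hv (sub_nonneg.2 hv₀))]
  refine h1.trans (le_of_mul_le_mul_left ?_ h0)
  have h2 := mul_nonneg (sq_nonneg (β + δ * v₀))
    (mul_nonneg h0.le (mul_nonneg hv (sub_nonneg.2 hv₀)))
  have h3 := mul_le_mul_of_nonneg_left hA1 (sub_nonneg.2 hv₀)
  have h4 := mul_le_mul_of_nonneg_left hA2 hv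
  nlinarith

/-- the line lemma -/
theorem line_key (ha : 0 ≤ a.re) (n : ℂ) (hR : 1 ≤ R) (hp : ‖p‖ = 1) (h0 : 0 < p.re)
    (h1 : 0 ≤ p.im) (h2 : p.im ≤ 20 * p.re) (hm : 0 < (μ * p).im) (hc : 0 ≤ (μ * conj p).re)
    {t₀ α β δ : ℝ} (ht : 0 < t₀) (hα : 0 ≤ α) (hβ : 0 ≤ β) (hδ : 0 ≤ δ)
    (hA1 : α ^ 2 ≤ 5 * β * (μ * conj p).re)
    (hA2 : (α + β * t₀ ^ 3 + δ * (t₀ ^ 3) ^ 2) ^ 2 ≤ (μ * conj p).re * (5 * β + 8 * δ * t₀ ^ 3))
    (hP1 : ∀ t : ℝ, 0 ≤ t → t ≤ t₀ → 0 ≤ (μ * p * VV a n (R + p * t)).re + 2 * α * (t₀ - t))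
    (hP2 : ∀ t : ℝ, t₀ ≤ t → 0 ≤ (μ * p * VV a n (R + p * t)).re) :
    (μ * vv a n R * conj (uu a n R)).re <
      (α * t₀ ^ 2 + β * t₀ ^ 5 + δ * t₀ ^ 8) * ‖uu a n R‖ ^ 2 := by
  have hd : ∀ t : ℝ, 0 ≤ t →
      HasDerivAt (fun t : ℝ => EE n (R + p * t) * uu a n (R + p * t))
        (p * (EE n (R + p * t) * vv a n (R + p * t))) t ∧
      HasDerivAt (fun t : ℝ => EE n (R + p * t) * vv a n (R + p * t))
        (p * (VV a n (R + p * t) * (EE n (R + p * t) * uu a n (R + p * t)))) t := fun t ht => by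
    obtain ⟨b1, b2⟩ := om_pt hR h0 h1 h2 ht
    obtain ⟨d1, d2⟩ := y_deriv ha n (Or.inl (show 0 < (R + p * t).re by linarith)) b2
    have hl : HasDerivAt (fun w : ℂ => R + p * w) (p * 1) (t : ℂ) :=
      ((hasDerivAt_id' (t : ℂ)).const_mul p).const_add _
    have k1 := (d1.comp (t : ℂ) hl).comp_ofReal
    have k2 := (d2.comp (t : ℂ) hl).comp_ofReal
    exact ⟨k1.congr_deriv (by ring), k2.congr_deriv (by ring)⟩
  have hH : ∀ r : ℂ, (μ * (EE n r * vv a n r) * conj (EE n r * uu a n r)).re =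
      ‖EE n r‖ ^ 2 * (μ * vv a n r * conj (uu a n r)).re := fun r => by
    rw [nsq_eq]
    simp only [mul_re, mul_im, conj_re, conj_im]
    ring
  have hE : ∀ r : ℂ, 0 < ‖EE n r‖ ^ 2 := fun r => pow_pos (norm_pos_iff.2 (exp_ne_zero _)) 2
  obtain ⟨T, hT, hT0⟩ := ((far ha n hR h0 h1 h2 hm).and (eventually_ge_atTop t₀)).exists
  have s2 := line_abs (A := fun _ => 0) (A' := fun _ => 0) hT0 hp hc
    (fun t h => (hd t (ht.le.trans h.1)).1) (fun t h => (hd t (ht.le.trans h.1)).2)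
    (fun t _ => hasDerivAt_const t 0) (fun t h => by simpa using hP2 t h.1)
    (fun t h => by simpa using mul_nonneg hc (hP2 t h.1))
  have s1 := line_abs (A := fun t => α * (t₀ - t) ^ 2 + β * (t₀ - t) ^ 5 + δ * (t₀ - t) ^ 8)
    (A' := fun t => -(2 * α * (t₀ - t) + 5 * β * (t₀ - t) ^ 4 + 8 * δ * (t₀ - t) ^ 7)) ht.le hp hc
    (fun t h => (hd t h.1).1) (fun t h => (hd t h.1).2)
    (fun t _ => by
      have := (hasDerivAt_id' t).const_sub t₀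
      refine ((((this.fun_pow 2).const_mul α).fun_add ((this.fun_pow 5).const_mul β)).fun_add
        ((this.fun_pow 8).const_mul δ)).congr_deriv ?_
      push_cast
      ring)
    (fun t h => by
      have := hP1 t h.1 h.2
      have hτ : 0 ≤ t₀ - t := sub_nonneg.2 h.2
      have : 0 ≤ 5 * β * (t₀ - t) ^ 4 + 8 * δ * (t₀ - t) ^ 7 := by positivity
      linarith)
    (fun t h => by
      have e1 := mul_nonneg hc (hP1 t h.1 h.2)
      have hτ : 0 ≤ t₀ - t := sub_nonneg.2 h.2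
      have e2 := A_ineq (v := (t₀ - t) ^ 3) hα hβ hδ (by positivity)
        (pow_le_pow_left₀ hτ (by linarith [h.1]) 3) (by positivity) hA1 hA2
      have e3 := mul_le_mul_of_nonneg_left e2 (show 0 ≤ (t₀ - t) ^ 4 by positivity)
      generalize t₀ - t = τ at *
      nlinarith)
  simp only [sub_self, sub_zero, ofReal_zero, mul_zero, add_zero, zero_mul, ne_eq,
    OfNat.ofNat_ne_zero, not_false_eq_true, zero_pow] at s1 s2
  rw [hH, norm_mul, mul_pow] at s1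
  rw [hH (R + p * T)] at s2
  have e1 := mul_neg_of_pos_of_neg (hE (R + p * T)) hT
  refine lt_of_mul_lt_mul_left ?_ (hE R).le
  linarith

end

end MIL
end P139
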