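import Vale.Agent.P139.MIDefs
import Vale.Agent.P139.MIDisc

/-! P139 part MI: the Miranda certificate. -/

open Complex Set
open scoped ComplexConjugate

namespace P139
namespace MIM
open Dsc

/-- strict evaluation of a disc -/
def slet {α : Type} (D : Dsc) (f : Dsc → α) : α :=
  match D with
  | ⟨x, y, r⟩ => f ⟨x, y, r⟩

theorem slet_eq {α : Type} (D : Dsc) (f : Dsc → α) : slet D f = f D := rfl

def NN (A : Dsc) (k : ℕ) : Dsc := slet (A.sh k) fun B => slet (A.sh (k - 5)) fun C => B.mul C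

/-- backward recursion for `ρ_k = p_{k+1} / p_k`, then the test `t` on `ρ_0 - a` -/
def back (A X : Dsc) (t : Dsc → Bool) : ℕ → Dsc → Bool
  | 0, D => slet (D.sub A) t
  | k + 1, D => slet ((((A.add A).sh (2 * k - 4)).sub X).sub D) fun W =>
      decide (0 < W.del) && slet (NN A k) fun N => slet W.inv fun V =>
        slet (N.mul V) fun D' => back A X t k D'

def run (t : Dsc → Bool) (b hb x hx : ℤ) : Bool :=
  slet (NN ⟨0, -b, hb⟩ 14) fun N => slet (N.mul ⟨0, 1288490189, 1288490189⟩) fun D =>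
    back ⟨0, -b, hb⟩ ⟨0, x, hx⟩ t 14 D

/-- bisection -/
def bis (ok : ℤ → ℤ → Bool) : ℕ → ℤ → ℤ → Bool
  | 0, c, w => ok c w
  | n + 1, c, w => ok c w || frc ((w + 1) / 2) fun h => frc (c - h) fun c₁ => frc (c + h) fun c₂ =>
      bis ok n c₁ h && bis ok n c₂ h

theorem bis_sound {ok : ℤ → ℤ → Bool} {P : ℝ → Prop}
    (H : ∀ c w, ok c w = true → ∀ z : ℝ, |z - c| ≤ w → P z) (n : ℕ) :
    ∀ c w, bis ok n c w = true → ∀ z : ℝ, |z - c| ≤ w → P z := by
  induction n with
  | zero => exact H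
  | succ n ih =>
    intro c w h z hz
    simp only [bis, frc_eq, Bool.or_eq_true, Bool.and_eq_true] at h
    rcases h with h | ⟨h1, h2⟩
    · exact H c w h z hz
    have hw : (w : ℝ) ≤ 2 * (((w + 1) / 2 : ℤ) : ℝ) := by
      exact_mod_cast (show w ≤ 2 * ((w + 1) / 2) by omega)
    generalize (w + 1) / 2 = k at *
    rw [abs_le] at hz
    rcases le_total z c with d | d
    · exact ih _ _ h1 z (abs_le.2 (by push_cast; constructor <;> linarith [hz.1]))
    · exact ih _ _ h2 z (abs_le.2 (by push_cast; constructor <;> linarith [hz.2]))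

variable {A X : Dsc} {a : ℂ} {x : ℝ} {p q : ℕ → ℂ}

theorem NN_mem (hA : A.Mem a) (k : ℕ) : (NN A k).Mem ((a + k) * (a + k - 5)) := by
  have := (hA.sh k).mul (hA.sh (k - 5))
  push_cast at this
  rwa [← add_sub_assoc] at this

theorem N_ne (ha : a.im ≠ 0) (k : ℕ) : (a + k) * (a + k - 5) ≠ 0 :=
  mul_ne_zero (fun h => ha (by simpa using congrArg im h)) fun h => ha (by simpa using congrArg im h)

theorem rec3 (h : Tow a 0 (4 * x) p q) (k : ℕ) :
    (a + k) * (a + k - 5) * p k = (a + a + (2 * k - 4) - I * x) * p (k + 1) - p (k + 2) := by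
  have h1 := h.hp (k + 1)
  have h2 := h.hq k
  push_cast at h1 h2
  linear_combination h1 + h2

/-- invariant of the recursion -/
def Inv (p : ℕ → ℂ) (k : ℕ) (D : Dsc) : Prop :=
  (p k = 0 ∧ p (k + 1) = 0) ∨ (p k ≠ 0 ∧ D.Mem (p (k + 1) / p k))

theorem back_sound (hA : A.Mem a) (hX : X.Mem (I * x)) (ha : a.im ≠ 0) (h : Tow a 0 (4 * x) p q)
    {t : Dsc → Bool} (k : ℕ) : ∀ D, back A X t k D = true → Inv p k D →
      (p 0 = 0 ∧ q 0 = 0) ∨ (p 0 ≠ 0 ∧ ∃ Z, t Z = true ∧ Z.Mem (q 0 / p 0)) := by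
  induction k with
  | zero =>
    intro D hD hI
    have h1 := h.hp 0
    rw [Nat.cast_zero, add_zero] at h1
    rcases hI with ⟨e0, e1⟩ | ⟨e0, e1⟩
    · exact Or.inl ⟨e0, by rw [e0, e1] at h1; linear_combination -h1⟩
    · refine Or.inr ⟨e0, _, hD, ?_⟩
      rw [show q 0 / p 0 = p (0 + 1) / p 0 - a by rw [h1]; field_simp; ring]
      exact e1.sub hA
  | succ k ih =>
    intro D hD hI
    simp only [back, slet_eq, Bool.and_eq_true, decide_eq_true_eq] at hD
    refine ih _ hD.2 ?_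
    have h3 := rec3 h k
    rcases hI with ⟨e0, e1⟩ | ⟨e0, e1⟩
    · rw [e0, e1, mul_zero, sub_zero] at h3
      exact Or.inl ⟨(mul_eq_zero.1 h3).resolve_left (N_ne ha k), e0⟩
    · obtain ⟨w0, hw⟩ := ((((hA.add hA).sh (2 * k - 4)).sub hX).sub e1).inv hD.1
      have hm := (NN_mem hA k).mul hw
      push_cast at w0 hm
      generalize hwe : a + a + (2 * (k : ℂ) - 4) - I * x - p (k + 1 + 1) / p (k + 1) = w at w0 hm
      have h4 : (a + k) * (a + k - 5) * p k = w * p (k + 1) := by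
        rw [h3, ← hwe]; field_simp
      have h5 : p k ≠ 0 := fun h0 => by
        rw [h0, mul_zero] at h4
        exact mul_ne_zero w0 e0 h4.symm
      refine Or.inr ⟨h5, ?_⟩
      rwa [show p (k + 1) / p k = (a + k) * (a + k - 5) * w⁻¹ by
        field_simp; linear_combination -h4]

theorem half {w : ℂ} (h : w.im ≤ -(5 / 3)) :
    w ≠ 0 ∧ Mem ⟨0, 1288490189, 1288490189⟩ w⁻¹ := by
  have w0 : w ≠ 0 := fun e => by rw [e] at h; norm_num at h
  refine ⟨w0, ?_⟩
  have e : (S : ℂ) * w⁻¹ - ctr ⟨0, 1288490189, 1288490189⟩ = (S - 1288490189 * I * w) / w := by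
    simp only [ctr]; push_cast; field_simp; ring
  rw [Mem, e, norm_div, div_le_iff₀ (norm_pos_iff.2 w0)]
  refine (abs_le_of_sq_le_sq' ?_ (by positivity)).2
  rw [mul_pow, Complex.sq_norm, Complex.sq_norm, normSq_apply, normSq_apply]
  simp only [sub_re, sub_im, mul_re, mul_im, intCast_re, intCast_im, I_re, I_im, re_ofNat,
    im_ofNat, S_real]
  push_cast
  nlinarith

theorem run_sound {t : Dsc → Bool} {b hb xc hx : ℤ} (H : run t b hb xc hx = true) {β : ℝ}
    (h1 : |(S : ℝ) * β - b| ≤ hb) (h2 : |(S : ℝ) * x - xc| ≤ hx) (hβ : 1 / 3 ≤ β) (hx' : 8 / 3 ≤ x)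
    (h : Tow (-(I * β)) 0 (4 * x) p q) :
    (p 0 = 0 ∧ q 0 = 0) ∨ (p 0 ≠ 0 ∧ ∃ Z, t Z = true ∧ Z.Mem (q 0 / p 0)) := by
  have hA : Mem ⟨0, -b, hb⟩ (-(I * β)) := by
    have e : (S : ℂ) * -(I * β) - ctr ⟨0, -b, hb⟩ = -I * (((S : ℝ) * β - b : ℝ) : ℂ) := by
      simp only [ctr]; push_cast; ring
    rw [Mem, e, norm_mul, norm_neg, norm_I, one_mul, norm_real]
    exact h1
  have hX : Mem ⟨0, xc, hx⟩ (I * x) := by
    have e : (S : ℂ) * (I * x) - ctr ⟨0, xc, hx⟩ = I * (((S : ℝ) * x - xc : ℝ) : ℂ) := by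
      simp only [ctr]; push_cast; ring
    rw [Mem, e, norm_mul, norm_I, one_mul, norm_real]
    exact h2
  have hai : (-(I * (β : ℂ))).im = -β := by simp
  generalize -(I * (β : ℂ)) = a at *
  have ha : a.im ≠ 0 := by rw [hai]; linarith
  rw [run, slet_eq, slet_eq] at H
  refine back_sound hA hX ha h 14 _ H ?_
  clear H
  obtain ⟨f1, f2⟩ := h.hf 15 (by norm_num) (by norm_num)
  have h3 := h.hq 14
  have hN := N_ne ha 14
  push_cast at h3
  by_cases e0 : p 15 = 0
  · rw [f2 e0, e0, mul_zero, zero_sub, zero_add] at h3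
    exact Or.inl ⟨(mul_eq_zero.1 (neg_eq_zero.1 h3.symm)).resolve_left hN, e0⟩
  obtain ⟨τ, hτ⟩ : ∃ τ, q 15 = τ * p 15 := ⟨q 15 / p 15, by field_simp⟩
  have hp : 0 < ‖p 15‖ ^ 2 := pow_pos (norm_pos_iff.2 e0) 2
  have f3 : 0 ≤ τ.im + x / 2 := by
    have e : fl (4 * x) (p 15) (q 15) = (τ.im + x / 2) * ‖p 15‖ ^ 2 := by
      rw [fl, hτ, Complex.sq_norm, normSq_apply]
      simp only [mul_re, mul_im, conj_re, conj_im]
      ring
    rw [e] at f1
    exact nonneg_of_mul_nonneg_left f1 hp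
  obtain ⟨w0, hw⟩ := half (w := a + 9 - I * x - τ) (by
    simp only [sub_im, add_im, mul_im, I_re, I_im, ofReal_re, ofReal_im, im_ofNat, hai]
    linarith)
  have hm := (NN_mem hA 14).mul hw
  generalize hwe : a + 9 - I * x - τ = w at w0 hm
  have h4 : (a + (14 : ℕ)) * (a + (14 : ℕ) - 5) * p 14 = w * p 15 := by
    rw [← hwe]; push_cast; linear_combination h3 - hτ
  have h5 : p 14 ≠ 0 := fun h0 => by
    rw [h0, mul_zero] at h4
    exact mul_ne_zero w0 e0 h4.symm
  refine Or.inr ⟨h5, ?_⟩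
  rwa [show p (14 + 1) / p 14 = (a + (14 : ℕ)) * (a + (14 : ℕ) - 5) * w⁻¹ by
    field_simp; linear_combination -h4]

def pos (M Z : Dsc) : Bool := slet (Z.mul M) fun T => decide (T.r < T.x)

theorem pos_sound {u v : ℤ} {Z : Dsc} {z : ℂ} (h : pos ⟨u * S, v * S, 0⟩ Z = true) (hz : Z.Mem z) :
    0 < u * z.re - v * z.im := by
  have hM : Mem ⟨u * S, v * S, 0⟩ (u + v * I) := by
    have e : (S : ℂ) * (u + v * I) - ctr ⟨u * S, v * S, 0⟩ = 0 := by
      simp only [ctr]; push_cast; ring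
    rw [Mem, e]; simp
  have := (hz.mul hM).re_pos (by simpa only [pos, slet_eq, decide_eq_true_eq] using h)
  simp only [mul_re, add_re, add_im, mul_im, intCast_re, intCast_im, I_re, I_im] at this
  linarith

theorem c0 : run (fun _ => true) 1437846683 60000 11618189692 120000 = true := by decide +kernel
theorem c1 : bis (fun c w => run (pos ⟨25 * S, 42 * S, 0⟩) c w 11618069692 0) 8
    1437846683 60000 = true := by decide +kernel
theorem c2 : bis (fun c w => run (pos ⟨-25 * S, -42 * S, 0⟩) c w 11618309692 0) 8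
    1437846683 60000 = true := by decide +kernel
theorem c3 : bis (fun c w => run (pos ⟨0 * S, -1 * S, 0⟩) 1437786683 0 c w) 8
    11618189692 120000 = true := by decide +kernel
theorem c4 : bis (fun c w => run (pos ⟨0 * S, 1 * S, 0⟩) 1437906683 0 c w) 8
    11618189692 120000 = true := by decide +kernel

end MIM

open MIM Dsc in
theorem s_mir : S_mir := by
  refine ⟨11618069692 / 4294967296, 11618309692 / 4294967296, 1437786683 / 4294967296,
    1437906683 / 4294967296, 42 / 25, by norm_num, by norm_num, by norm_num [Bx],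
    by norm_num [Bx], fun β hβ x hx p q h => ?_⟩
  obtain ⟨b1, b2⟩ := hβ
  obtain ⟨x1, x2⟩ := hx
  have hβ' : 1 / 3 ≤ β := by linarith
  have hx' : 8 / 3 ≤ x := by linarith
  have mβ : |(S : ℝ) * β - ((1437846683 : ℤ) : ℝ)| ≤ ((60000 : ℤ) : ℝ) := by
    rw [S_real, abs_le]; push_cast; constructor <;> linarith
  have mx : |(S : ℝ) * x - ((11618189692 : ℤ) : ℝ)| ≤ ((120000 : ℤ) : ℝ) := by
    rw [S_real, abs_le]; push_cast; constructor <;> linarith
  have fin : ∀ {u v : ℤ}, p 0 ≠ 0 → ((p 0 = 0 ∧ q 0 = 0) ∨ (p 0 ≠ 0 ∧ ∃ Z,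
      pos ⟨u * S, v * S, 0⟩ Z = true ∧ Z.Mem (q 0 / p 0))) →
      0 < u * (q 0 / p 0).re - v * (q 0 / p 0).im := fun h0 h => by
    obtain ⟨-, Z, h1, h2⟩ := h.resolve_left fun h => h0 h.1
    exact pos_sound h1 h2
  refine ⟨fun h0 => ((run_sound c0 mβ mx hβ' hx' h).resolve_right fun h => h.1 h0).2,
    fun h0 => ⟨fun e => ?_, fun e => ?_, fun e => ?_, fun e => ?_⟩⟩
  · have := bis_sound (P := fun z => z = S * β → _) (fun c w hc z hz ez => fin h0
      (run_sound hc (ez ▸ hz) (by rw [e, S_real]; norm_num) hβ' hx' h)) 8 _ _ c1 _ mβ rfl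
    push_cast at this
    linarith
  · have := bis_sound (P := fun z => z = S * β → _) (fun c w hc z hz ez => fin h0
      (run_sound hc (ez ▸ hz) (by rw [e, S_real]; norm_num) hβ' hx' h)) 8 _ _ c2 _ mβ rfl
    push_cast at this
    linarith
  · have := bis_sound (P := fun z => z = S * x → _) (fun c w hc z hz ez => fin h0
      (run_sound hc (by rw [e, S_real]; norm_num) (ez ▸ hz) hβ' hx' h)) 8 _ _ c3 _ mx rfl
    push_cast at this
    linarith
  · have := bis_sound (P := fun z => z = S * x → _) (fun c w hc z hz ez => fin h0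
      (run_sound hc (by rw [e, S_real]; norm_num) (ez ▸ hz) hβ' hx' h)) 8 _ _ c4 _ mx rfl
    push_cast at this
    linarith

end P139
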