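import Vale.Agent.P139.MIUniq
import Vale.Agent.P139.MIJ

/-! P139 part MI: the symmetry modes of the limit problem and pairs with boundary conditions. -/

open Complex Set Filter Topology MeasureTheory
open scoped ContDiff ComplexConjugate

noncomputable section
namespace P139
namespace MIMain
open MIT

variable {β : ℝ} {l : ℕ} {lam : ℂ} {s₀ : ℝ} {F H f h y : ℝ → ℂ}

theorem tw_iter (hF : ContDiffOn ℝ ∞ F (Ioi 0)) (K j k : ℕ) (s : ℝ) (hs : 0 < s) :
    iteratedDeriv k (tw l F K j) s = tw l F K (j + k) s := by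
  induction k generalizing s with
  | zero => simp
  | succ k ih =>
    rw [iteratedDeriv_succ]
    refine ((tw_deriv hF K (j + k) s hs).congr_of_eventuallyEq ?_).deriv
    filter_upwards [Ioi_mem_nhds hs] with t ht
    exact ih t ht

theorem tw_smooth (hF : ContDiffOn ℝ ∞ F (Ioi 0)) (K j : ℕ) :
    ContDiffOn ℝ ∞ (tw l F K j) (Ioi 0) := by
  induction K generalizing j with
  | zero => exact it_smooth hF j
  | succ K ih =>
    have h1 : ContDiffOn ℝ ∞ (fun t : ℝ => (t : ℂ)) (Ioi 0) := Complex.ofRealCLM.contDiff.contDiffOn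
    exact contDiffOn_const.mul (((contDiffOn_const.mul h1).mul (ih _)).add
      (contDiffOn_const.mul (ih _)))

theorem tw_free (hF : ContDiffOn ℝ ∞ F (Ioi 0)) (he : ∀ s, 0 < s → FreeF β l lam F s = 0)
    (K j : ℕ) (μ : ℂ) (hμ : miA β (l + j) μ = miA β l lam + K + j) (s : ℝ) (hs : 0 < s) :
    FreeF β (l + j) μ (tw l F K j) s = 0 := by
  have hz : ContDiffOn ℝ ∞ (0 : ℝ → ℂ) (Ioi 0) := contDiffOn_const
  have h := tw_eq hF hz he K j s hs
  have h1 := tw_iter (l := l) hF K j 1 s hs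
  have h2 := tw_iter (l := l) hF K j 2 s hs
  simp only [iteratedDeriv_succ, iteratedDeriv_zero] at h1 h2
  rw [tw_zero, ← hμ] at h
  simp only [FreeF, h1, h2, miA, Pi.zero_apply] at h ⊢
  push_cast at h ⊢
  linear_combination I * h - (s * tw l F K (j + 1) s
    + (μ - I * β + ((l : ℂ) + j) / 2) * tw l F K j s) * Complex.I_mul_I

theorem int_symb {w : ℝ → ℂ} (h0 : 0 < s₀) (hc : ContinuousOn w (Ioi s₀)) {C : ℝ} {k : ℕ}
    (hk : 7 ≤ k) (hb : ∀ s, s₀ ≤ s → ‖w s‖ * s ^ k ≤ C) :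
    IntegrableOn (fun s : ℝ => ‖w s‖ ^ 2 * s ^ (k + 5)) (Ioi s₀) := by
  have hi := (integrableOn_Ioi_rpow_of_lt (a := 5 - k) (by
    have : (7 : ℝ) ≤ k := by exact_mod_cast hk
    linarith) h0).const_mul (C ^ 2)
  refine Integrable.mono' hi (((hc.norm.pow 2).mul (by fun_prop)).aestronglyMeasurable
    measurableSet_Ioi) ?_
  refine (ae_restrict_iff' measurableSet_Ioi).2 (Eventually.of_forall fun s hs => ?_)
  have hs0 : 0 < s := h0.trans hs
  rw [Real.norm_of_nonneg (by positivity)]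
  have h1 := pow_le_pow_left₀ (by positivity) (hb s (le_of_lt hs)) 2
  have e : s ^ (5 - (k : ℝ)) = s ^ 5 / s ^ k := by
    rw [Real.rpow_sub hs0, Real.rpow_natCast]
    norm_cast
  rw [e, ← mul_div_assoc, le_div_iff₀ (by positivity)]
  refine le_trans (le_of_eq (by ring)) (mul_le_mul_of_nonneg_right h1 (by positivity))

theorem can_bd (β : ℝ) (h0 : 0 < s₀) (k : ℕ) :
    ∃ C : ℝ, ∀ s, s₀ ≤ s → ‖tw 0 (Can β 0 0) 0 k s‖ * s ^ k ≤ C := by
  obtain ⟨C, -, hC⟩ := can_symb β 0 (lam := 0) (by simp) h0 k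
  refine ⟨C, fun s hs => ?_⟩
  have hs0 : 0 < s := h0.trans_le hs
  have := hC s hs
  simp only [Complex.zero_re, Nat.cast_zero, zero_div, add_zero, neg_zero, zero_sub] at this
  rw [Real.rpow_neg hs0.le, Real.rpow_natCast, ← div_eq_mul_inv, le_div_iff₀ (by positivity)] at this
  exact this

theorem good_congr {T : ℕ → ℝ → ℂ} (h0 : 0 < s₀)
    (hT : ∀ k s, 0 < s → iteratedDeriv k F s = T k s)
    (hi : ∀ k, 7 ≤ k → IntegrableOn (fun s : ℝ => ‖T k s‖ ^ 2 * s ^ (l + k + 5)) (Ioi s₀)) :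
    Good l s₀ F := fun k h7 _ =>
  (hi k h7).congr_fun (fun s hs => by simp only [hT k s (h0.trans hs)]) measurableSet_Ioi

theorem good_d (β : ℝ) (h0 : 0 < s₀) : Good 1 s₀ (tw 0 (Can β 0 0) 0 1) := by
  have hU := can_smooth β 0 (lam := 0) (by simp)
  refine good_congr h0 (fun k s hs => tw_iter hU 0 1 k s hs) fun k hk => ?_
  obtain ⟨C, hC⟩ := can_bd β h0 (1 + k)
  exact int_symb h0 ((tw_smooth hU 0 _).continuousOn.mono (Ioi_subset_Ioi h0.le)) (by omega) hC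

theorem good_t (β : ℝ) (h0 : 0 < s₀) : Good 0 s₀ (tw 0 (Can β 0 0) 1 0) := by
  have hU := can_smooth β 0 (lam := 0) (by simp)
  have hz : ContDiffOn ℝ ∞ (0 : ℝ → ℂ) (Ioi 0) := contDiffOn_const
  refine good_congr h0 (fun k s hs => tw_iter hU 1 0 k s hs) fun k hk => ?_
  obtain ⟨C, hC⟩ := can_bd β h0 (k + 1)
  obtain ⟨D, hD⟩ := can_bd β h0 k
  rw [zero_add]
  refine int_symb (C := C + ‖miA β 0 0 + k‖ * D) h0
    ((tw_smooth hU 1 _).continuousOn.mono (Ioi_subset_Ioi h0.le)) hk fun s hs => ?_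
  have hs0 : 0 < s := h0.trans_le hs
  have h := tw_eq hU hz (can_ode β 0 (by simp)) 0 k s hs0
  have e : tw 0 (Can β 0 0) 1 k s = s * tw 0 (Can β 0 0) 0 (k + 1) s
      + (miA β 0 0 + k) * tw 0 (Can β 0 0) 0 k s := by
    rw [tw_zero] at h
    have e' : tw 0 (Can β 0 0) 1 k s = I * (4 * s * tw 0 (Can β 0 0) 0 (k + 2) s
      + 4 * (((0 : ℕ) : ℂ) + 6 + k) * tw 0 (Can β 0 0) 0 (k + 1) s) := rfl
    simp only [Pi.zero_apply] at h
    push_cast at h e' ⊢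
    linear_combination e' + I * h - (s * tw 0 (Can β 0 0) 0 (k + 1) s
      + (miA β 0 0 + k) * tw 0 (Can β 0 0) 0 k s) * Complex.I_mul_I
  have b := mul_le_mul_of_nonneg_right (norm_add_le (s * tw 0 (Can β 0 0) 0 (k + 1) s)
    ((miA β 0 0 + k) * tw 0 (Can β 0 0) 0 k s)) (pow_pos hs0 k).le
  rw [norm_mul, norm_mul, Complex.norm_real, Real.norm_of_nonneg hs0.le] at b
  have b2 := mul_le_mul_of_nonneg_left (hD s hs) (norm_nonneg (miA β 0 0 + k))
  have b3 := hC s hs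
  rw [e]
  rw [pow_succ] at b3
  nlinarith

theorem smooth_mul (hF : ContDiffOn ℝ ∞ F (Ioi 0)) (c : ℂ) :
    ContDiffOn ℝ ∞ (fun t => c * F t) (Ioi 0) := contDiffOn_const.mul hF

theorem good_mul (hF : ContDiffOn ℝ ∞ F (Ioi 0)) (h0 : 0 < s₀) (gF : Good l s₀ F) (c : ℂ) :
    Good l s₀ (fun t => c * F t) := by
  simpa using mi_good_lin hF hF le_rfl h0.le gF gF c 0

theorem free_mul (hF : ContDiffOn ℝ ∞ F (Ioi 0)) (c : ℂ) (s : ℝ) (hs : 0 < s) :
    FreeF β l lam (fun t => c * F t) s = c * FreeF β l lam F s := by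
  simpa using mi_free_lin hF hF c 0 β l lam s hs

/-- a symmetry mode with real eigenvalue `ev` -/
structure Md (β : ℝ) (l : ℕ) (s₀ ev : ℝ) (y : ℝ → ℂ) : Prop where
  sm : ContDiffOn ℝ ∞ y (Ioi 0)
  gd : Good l s₀ y
  eq : ∀ s, 0 < s → FreeF β l ev y s = 0
  b0 : y s₀ + conj (y s₀) = 0
  b1 : deriv y s₀ = conj (deriv y s₀)

/-- a pair `(F, conj G)` with sources `f`, `h` and the limit boundary conditions -/
structure Sol (β : ℝ) (l : ℕ) (lam : ℂ) (s₀ : ℝ) (F H f h : ℝ → ℂ) : Prop where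
  sF : ContDiffOn ℝ ∞ F (Ioi 0)
  sH : ContDiffOn ℝ ∞ H (Ioi 0)
  gF : Good l s₀ F
  gH : Good l s₀ H
  b0 : F s₀ + conj (H s₀) = 0
  b1 : deriv F s₀ = conj (deriv H s₀)
  eF : ∀ s, 0 < s → FreeF β l lam F s = f s
  eH : ∀ s, 0 < s → FreeF β l (conj lam) H s = h s

theorem Sol.congr (S : Sol β l lam s₀ F H f h) {f' h' : ℝ → ℂ} (h1 : ∀ s, 0 < s → f s = f' s)
    (h2 : ∀ s, 0 < s → h s = h' s) : Sol β l lam s₀ F H f' h' :=
  { S with
    eF := fun s hs => (S.eF s hs).trans (h1 s hs)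
    eH := fun s hs => (S.eH s hs).trans (h2 s hs) }

theorem Sol.swap (S : Sol β l lam s₀ F H f h) : Sol β l (conj lam) s₀ H F h f :=
  ⟨S.sH, S.sF, S.gH, S.gF, by simpa [add_comm] using congrArg conj S.b0,
    by simpa using (congrArg conj S.b1).symm, S.eH, by simpa using S.eF⟩

theorem Sol.mul (S : Sol β l lam s₀ F H f h) (h0 : 0 < s₀) (c : ℂ) :
    Sol β l lam s₀ (fun s => c * F s) (fun s => conj c * H s) (fun s => c * f s)
      (fun s => conj c * h s) := by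
  refine ⟨smooth_mul S.sF _, smooth_mul S.sH _, good_mul S.sF h0 S.gF _, good_mul S.sH h0 S.gH _,
    ?_, ?_, fun s hs => by rw [free_mul S.sF _ s hs, S.eF s hs],
    fun s hs => by rw [free_mul S.sH _ s hs, S.eH s hs]⟩
  · simp only [map_mul, Complex.conj_conj]
    linear_combination c * S.b0
  · simp only [deriv_const_mul_field', map_mul, Complex.conj_conj, S.b1]

theorem Sol.sub (S : Sol β l lam s₀ F H f h) (h0 : 0 < s₀) {ev : ℝ} (M : Md β l s₀ ev y) (t : ℂ) :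
    Sol β l lam s₀ (fun s => 1 * F s + -t * y s) (fun s => 1 * H s + -conj t * y s)
      (fun s => f s - t * (ev - lam) * y s) (fun s => h s - conj (t * (ev - lam)) * y s) := by
  refine ⟨mi_smooth_lin S.sF M.sm _ _, mi_smooth_lin S.sH M.sm _ _,
    mi_good_lin S.sF M.sm le_rfl h0.le S.gF M.gd _ _,
    mi_good_lin S.sH M.sm le_rfl h0.le S.gH M.gd _ _, ?_, ?_, fun s hs => ?_, fun s hs => ?_⟩
  · simp only [map_add, map_mul, map_neg, map_one, Complex.conj_conj]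
    linear_combination S.b0 - t * M.b0
  · rw [mi_deriv_lin S.sF M.sm _ _ s₀ h0, mi_deriv_lin S.sH M.sm _ _ s₀ h0]
    simp only [map_add, map_mul, map_neg, map_one, Complex.conj_conj]
    linear_combination S.b1 - t * M.b1
  · rw [mi_free_lin S.sF M.sm _ _ β l lam s hs, S.eF s hs, mi_free_shift β l lam ev, M.eq s hs]
    ring
  · rw [mi_free_lin S.sH M.sm _ _ β l _ s hs, S.eH s hs, mi_free_shift β l (conj lam) ev,
      M.eq s hs]
    simp only [map_mul, map_sub, Complex.conj_ofReal]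
    ring

theorem Sol.zero (S : Sol β l lam s₀ F H 0 0) (h0 : 0 < s₀) (h1 : F s₀ = 0)
    (h2 : deriv F s₀ = 0) (s : ℝ) (hs : 0 < s) : F s = 0 ∧ H s = 0 := by
  refine ⟨mi_zero le_rfl h0 S.sF S.eF h1 h2 s hs, mi_zero le_rfl h0 S.sH S.eH ?_ ?_ s hs⟩
  · simpa [h1] using S.b0
  · simpa [h2] using S.b1.symm

section modes
variable (h0 : 0 < s₀) (hU : Can β 0 0 s₀ ≠ 0) (hr : deriv (Can β 0 0) s₀ = 0)
include h0 hU hr

/-- value of the second derivative at the free boundary -/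
theorem d2 : tw 0 (Can β 0 0) 0 2 s₀ / Can β 0 0 s₀ = ((-β / (4 * s₀) : ℝ) : ℂ) := by
  have h := can_ode β 0 (lam := 0) (by simp) s₀ h0
  have e : tw 0 (Can β 0 0) 0 2 s₀ = deriv (deriv (Can β 0 0)) s₀ := by
    simp [tw, iteratedDeriv_succ]
  have hs : (s₀ : ℂ) ≠ 0 := by exact_mod_cast h0.ne'
  simp only [FreeF, hr] at h
  rw [e]
  push_cast at h ⊢
  field_simp
  linear_combination (-I) * h + (4 * s₀ * deriv (deriv (Can β 0 0)) s₀ + β * Can β 0 0 s₀)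
    * Complex.I_mul_I

theorem md0 : Md β 0 s₀ 0 (fun s => I / Can β 0 0 s₀ * Can β 0 0 s) := by
  have hs := can_smooth β 0 (lam := 0) (by simp)
  refine ⟨smooth_mul hs _, good_mul hs h0 (can_good β 0 (by simp) h0) _, fun s hs' => ?_, ?_, ?_⟩
  · rw [free_mul hs _ s hs', Complex.ofReal_zero, can_ode β 0 (by simp) s hs', mul_zero]
  · simp [hU]
  · simp [hr]

theorem md1 : Md β 0 s₀ 1 (fun s => 1 / Can β 0 0 s₀ * tw 0 (Can β 0 0) 1 0 s) ∧
    1 / Can β 0 0 s₀ * tw 0 (Can β 0 0) 1 0 s₀ = -(I * β) := by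
  have hs := can_smooth β 0 (lam := 0) (by simp)
  have hz : ContDiffOn ℝ ∞ (0 : ℝ → ℂ) (Ioi 0) := contDiffOn_const
  have ho := can_ode β 0 (lam := 0) (by simp)
  have e0 : 1 / Can β 0 0 s₀ * tw 0 (Can β 0 0) 1 0 s₀ = -(I * β) := by
    rw [tw_p hs hz ho 0 s₀ h0]
    simp [tw, hr, miA]
    field_simp
  refine ⟨⟨smooth_mul (tw_smooth hs 1 0) _, good_mul (tw_smooth hs 1 0) h0 (good_t β h0) _,
    fun s hs' => ?_, ?_, ?_⟩, e0⟩
  · rw [free_mul (tw_smooth hs 1 0) _ s hs']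
    have := tw_free hs ho 1 0 ((1 : ℝ) : ℂ) (by simp [miA]; ring) s hs'
    rw [this, mul_zero]
  · rw [e0]
    simp
  · have h1 := (tw_deriv (l := 0) hs 1 0 s₀ h0).deriv
    have h2 := tw_eq hs hz ho 0 1 s₀ h0
    have h3 : tw 0 (Can β 0 0) 0 1 s₀ = 0 := by simp [tw, hr]
    have h4 : tw 0 (Can β 0 0) 1 1 s₀ = s₀ * tw 0 (Can β 0 0) 0 2 s₀ := by
      have e' : tw 0 (Can β 0 0) 1 1 s₀ = I * (4 * s₀ * tw 0 (Can β 0 0) 0 3 s₀
        + 4 * (((0 : ℕ) : ℂ) + 6 + (1 : ℕ)) * tw 0 (Can β 0 0) 0 2 s₀) := rfl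
      rw [tw_zero, h3] at h2
      simp only [Pi.zero_apply] at h2
      push_cast at h2 e' ⊢
      linear_combination e' + I * h2 - (s₀ * tw 0 (Can β 0 0) 0 2 s₀) * Complex.I_mul_I
    have h5 : 1 / Can β 0 0 s₀ * (s₀ * tw 0 (Can β 0 0) 0 2 s₀)
        = ((s₀ * (-β / (4 * s₀)) : ℝ) : ℂ) := by
      rw [Complex.ofReal_mul, ← d2 h0 hU hr]
      ring
    rw [deriv_const_mul_field, h1, zero_add, h4, h5, Complex.conj_ofReal]

theorem md2 : Md β 1 s₀ (1 / 2) (fun s => 2 / Can β 0 0 s₀ * tw 0 (Can β 0 0) 0 1 s) ∧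
    2 / Can β 0 0 s₀ * tw 0 (Can β 0 0) 0 1 s₀ = 0 ∧
    deriv (fun s => 2 / Can β 0 0 s₀ * tw 0 (Can β 0 0) 0 1 s) s₀
      = ((2 * (-β / (4 * s₀)) : ℝ) : ℂ) := by
  have hs := can_smooth β 0 (lam := 0) (by simp)
  have ho := can_ode β 0 (lam := 0) (by simp)
  have e0 : 2 / Can β 0 0 s₀ * tw 0 (Can β 0 0) 0 1 s₀ = 0 := by simp [tw, hr]
  have e1 : deriv (fun s => 2 / Can β 0 0 s₀ * tw 0 (Can β 0 0) 0 1 s) s₀
      = ((2 * (-β / (4 * s₀)) : ℝ) : ℂ) := by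
    rw [deriv_const_mul_field, (tw_deriv (l := 0) hs 0 1 s₀ h0).deriv, Complex.ofReal_mul,
      ← d2 h0 hU hr]
    push_cast
    ring
  refine ⟨⟨smooth_mul (tw_smooth hs 0 1) _, good_mul (tw_smooth hs 0 1) h0 (good_d β h0) _,
    fun s hs' => ?_, ?_, ?_⟩, e0, e1⟩
  · rw [free_mul (tw_smooth hs 0 1) _ s hs']
    have := tw_free hs ho 0 1 ((1 / 2 : ℝ) : ℂ) (by simp [miA]; ring) s hs'
    rw [this, mul_zero]
  · rw [e0]
    simp
  · rw [e1, Complex.conj_ofReal]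

end modes

end MIMain
end P139
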