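import Vale.Agent.P139.MIUniq

/-! P139 part MI: backward recursion, half plane, starting discs near the roots. -/

open Complex Set Filter Topology MeasureTheory
open scoped ContDiff ComplexConjugate

noncomputable section
namespace P139

/-- `c = a - h - i s / 8`, `h = (l+5)/2` -/
def miC (a : ℂ) (l : ℕ) (s : ℝ) : ℂ := a - ((l : ℂ) + 5) / 2 - I * s / 8
/-- `N = a (a - 2h)` -/
def miN (a : ℂ) (l : ℕ) : ℂ := a * (a - (l + 5))
/-- one backward step in homogeneous coordinates `(A, B) ∝ (u, s u')` -/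
def miStep (a : ℂ) (l : ℕ) (s : ℝ) (d : ℂ × ℂ) : ℂ × ℂ :=
  ((a - (l + 5) - I * s / 4) * d.1 - d.2,
    miN a l * d.1 - a * ((a - (l + 5) - I * s / 4) * d.1 - d.2))
/-- `miBack a l s n k d`: `n` backward steps from level `k + n` down to level `k` -/
def miBack (a : ℂ) (l : ℕ) (s : ℝ) : ℕ → ℕ → ℂ × ℂ → ℂ × ℂ
  | 0, _, d => d
  | n + 1, k, d => miStep (a + k) l s (miBack a l s n (k + 1) d)

section alg
variable {a a₀ p q p' q' P Q P' Q' : ℂ} {l : ℕ} {s : ℝ}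

theorem mi_tau (l : ℕ) (h : 0 ≤ miFl s p q) (h0 : p = 0 → q = 0) :
    ∃ τ : ℂ, 0 ≤ τ.im ∧ q = (τ - ((l : ℂ) + 5) / 2 - I * s / 8) * p := by
  by_cases hp : p = 0
  · exact ⟨0, le_rfl, by simp [hp, h0 hp]⟩
  refine ⟨q / p + ((l : ℂ) + 5) / 2 + I * s / 8, ?_, by field_simp; ring⟩
  have hn : 0 < ‖p‖ ^ 2 := by positivity
  have e : conj p * q = ((‖p‖ ^ 2 : ℝ) : ℂ) * (q / p) := by
    rw [Complex.sq_norm, Complex.normSq_eq_conj_mul_self]
    field_simp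
  rw [miFl, e, Complex.im_ofReal_mul] at h
  have e2 : (q / p + ((l : ℂ) + 5) / 2 + I * s / 8).im = (q / p).im + s / 8 := by simp
  rw [e2]
  exact (mul_nonneg_iff_of_pos_left hn).1 (h.trans (le_of_eq (by ring)))

theorem mi_det_step (hp : p' = q + a * p)
    (hq : q' = (a - (l + 5) - I * s / 4) * p' - a * (a - (l + 5)) * p) (d : ℂ × ℂ) :
    p * (miStep a l s d).2 - q * (miStep a l s d).1 = p' * d.2 - q' * d.1 := by
  simp only [miStep, miN]
  rw [hq, hp]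
  ring

theorem mi_det_step_src (hp : p' = P + q + a * p)
    (hq : q' = (a - (l + 5) - I * s / 4) * p' - a * (a - (l + 5)) * p + Q - (a - (l + 5)) * P)
    (d : ℂ × ℂ) : p * (miStep a l s d).2 - q * (miStep a l s d).1
      = p' * d.2 - q' * d.1 + d.1 * (Q - (a - (l + 5)) * P) + (miStep a l s d).1 * P := by
  simp only [miStep, miN]
  rw [hq, hp]
  ring

theorem mi_det_back {p q : ℕ → ℂ} (hp : ∀ k : ℕ, p (k + 1) = q k + (a + k) * p k)
    (hq : ∀ k : ℕ, q (k + 1) = (a + k - (l + 5) - I * s / 4) * p (k + 1)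
      - (a + k) * (a + k - (l + 5)) * p k) (n k : ℕ) (d : ℂ × ℂ) :
    p k * (miBack a l s n k d).2 - q k * (miBack a l s n k d).1
      = p (k + n) * d.2 - q (k + n) * d.1 := by
  induction n generalizing k with
  | zero => simp [miBack]
  | succ n ih =>
    rw [miBack, mi_det_step (hp k) (hq k), ih (k + 1), show k + 1 + n = k + (n + 1) by omega]

/-- one step in the form `τ = -c + N u`, `u (c - τ') = 1` -/
theorem mi_tau_step {τ u : ℂ} (hp : p' = q + a * p)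
    (hq : q' = (a - (l + 5) - I * s / 4) * p' - a * (a - (l + 5)) * p)
    (h : q' = (τ - ((l : ℂ) + 5) / 2 - I * s / 8) * p') (hu : u * (miC a l s - τ) = 1) :
    p' = u * miN a l * p ∧
      q = (-miC a l s + miN a l * u - ((l : ℂ) + 5) / 2 - I * s / 8) * p := by
  have e : p' = u * miN a l * p := by
    simp only [miC, miN] at hu ⊢
    linear_combination u * (h - hq) - p' * hu
  refine ⟨e, ?_⟩
  simp only [miC] at e ⊢
  linear_combination e - hp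

/-- one step of the divided difference recursion -/
theorem mi_D_step {τ u u₀ D : ℂ} (hP : P' = Q + a₀ * P) (hP' : P' = u₀ * miN a₀ l * P)
    (hp : p' = P + q + a * p)
    (hq : q' = (a - (l + 5) - I * s / 4) * p' - a * (a - (l + 5)) * p + Q - (a - (l + 5)) * P)
    (h : q' = (τ - ((l : ℂ) + 5) / 2 - I * s / 8) * p' + D * P')
    (hu : u * (miC a l s - τ) = 1) :
    q = (-miC a l s + miN a l * u - ((l : ℂ) + 5) / 2 - I * s / 8) * p
      + (-1 + u * ((D - 1) * (u₀ * miN a₀ l) + a + a₀ - (l + 5))) * P := by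
  simp only [miC, miN] at hu hP' ⊢
  linear_combination u * (h - hq) - p' * hu - hp + u * (D - 1) * hP' + u * hP

namespace MIT

theorem disc_proj (v : ℂ) {g : ℝ} (hg : 0 < g) :
    ∃ u : ℂ, g * ‖u‖ ^ 2 ≤ u.im ∧ g * ‖v - u‖ ^ 2 ≤ max 0 (g * ‖v‖ ^ 2 - v.im) := by
  by_cases hv : g * ‖v‖ ^ 2 ≤ v.im
  · exact ⟨v, hv, by simp⟩
  push Not at hv
  set r : ℝ := 1 / (2 * g) with hr
  have r0 : 0 < r := by positivity
  have gr : g * r = 1 / 2 := by rw [hr]; field_simp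
  have key : ∀ w : ℂ, g * ‖w‖ ^ 2 - w.im = g * (‖w - I * r‖ ^ 2 - r ^ 2) := fun w => by
    simp only [Complex.sq_norm, Complex.normSq_apply]
    simp
    linear_combination (2 * w.im) * gr
  set ρ := ‖v - I * r‖ with hρ
  have ρ0 : 0 ≤ ρ := norm_nonneg _
  have h1 : r < ρ := by
    have := key v
    have h2 : 0 < ρ ^ 2 - r ^ 2 := (mul_pos_iff_of_pos_left hg).1 (by rw [hρ]; linarith)
    nlinarith
  have ρp : 0 < ρ := r0.trans h1
  refine ⟨I * r + ((r / ρ : ℝ) : ℂ) * (v - I * r), ?_, le_max_of_le_right ?_⟩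
  · have := key (I * r + ((r / ρ : ℝ) : ℂ) * (v - I * r))
    rw [add_sub_cancel_left, norm_mul, Complex.norm_real, Real.norm_of_nonneg (by positivity),
      ← hρ, div_mul_cancel₀ _ ρp.ne'] at this
    linarith
  · have e : v - (I * r + ((r / ρ : ℝ) : ℂ) * (v - I * r))
        = ((1 - r / ρ : ℝ) : ℂ) * (v - I * r) := by
      push_cast
      ring
    have h3 : 0 ≤ 1 - r / ρ := by
      rw [sub_nonneg, div_le_one ρp]
      exact h1.le
    rw [e, norm_mul, Complex.norm_real, Real.norm_of_nonneg h3, ← hρ, key v, sub_mul, one_mul,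
      div_mul_cancel₀ _ ρp.ne']
    refine mul_le_mul_of_nonneg_left ?_ hg.le
    nlinarith

theorem disc_rep {p V : ℂ} {g E : ℝ} (hg : 0 < g) (hE : 0 ≤ E)
    (h : g * ‖p‖ ^ 2 + (conj p * V).im ≤ E) :
    ∃ u e : ℂ, g * ‖u‖ ^ 2 ≤ u.im ∧ g * ‖e‖ ^ 2 ≤ E ∧ p = u * V + e := by
  by_cases hV : V = 0
  · exact ⟨0, p, by simp, by simpa [hV] using h, by simp⟩
  obtain ⟨u, h1, h2⟩ := disc_proj (p / V) hg
  refine ⟨u, (p / V - u) * V, h1, ?_, by field_simp; ring⟩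
  have hn : 0 < ‖V‖ ^ 2 := by positivity
  have e1 : (conj p * V).im = -(‖V‖ ^ 2 * (p / V).im) := by
    have e : p * conj V = ((‖V‖ ^ 2 : ℝ) : ℂ) * (p / V) := by
      rw [Complex.sq_norm, Complex.normSq_eq_conj_mul_self]
      field_simp
    rw [← Complex.im_ofReal_mul, ← e]
    simp
    ring
  have e2 : ‖p‖ ^ 2 = ‖V‖ ^ 2 * ‖p / V‖ ^ 2 := by
    rw [norm_div]
    have : ‖V‖ ≠ 0 := by simpa using hV
    field_simp
  rw [e1, e2] at h
  rw [norm_mul, mul_pow, ← mul_assoc]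
  rcases le_total 0 (g * ‖p / V‖ ^ 2 - (p / V).im) with h3 | h3
  · rw [max_eq_right h3] at h2
    nlinarith
  · rw [max_eq_left h3] at h2
    nlinarith

theorem fl_V (a p q : ℂ) (l : ℕ) (s : ℝ) :
    (s / 8 - a.im) * ‖p‖ ^ 2 + (conj p * ((a - (l + 5) - I * s / 4) * p - q)).im
      = -miFl s p q := by
  simp only [miFl, Complex.sq_norm, Complex.normSq_apply]
  simp
  ring

end MIT

open MIT

/-- the half plane at level `K + 1` in homogeneous form: a disc at level `K` -/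
theorem mi_disc (hg : 0 < s / 8 - a.im)
    (hq : q' = (a - (l + 5) - I * s / 4) * p' - a * (a - (l + 5)) * p) (h : 0 ≤ miFl s p' q') :
    ∃ u : ℂ, (s / 8 - a.im) * ‖u‖ ^ 2 ≤ u.im ∧ p' = u * miN a l * p := by
  obtain ⟨u, e, h1, h2, h3⟩ := disc_rep (p := p') (V := (a - (l + 5) - I * s / 4) * p' - q')
    hg le_rfl (by rw [fl_V]; linarith)
  have e0 : e = 0 := by
    have : ‖e‖ ^ 2 ≤ 0 := le_of_mul_le_mul_left (by simpa using h2) hg
    simpa using this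
  refine ⟨u, h1, ?_⟩
  rw [miN]
  linear_combination h3 + e0 - u * hq

/-- starting discs for the divided difference recursion -/
theorem mi_near_alg {η η₀ : ℝ} (hη : 0 < η) (hη₀ : 0 < η₀) (hg : 0 < s / 8 - a.im)
    (hg₀ : 0 < s / 8 - a₀.im) (hP : P' = Q + a₀ * P)
    (hQ : Q' = (a₀ - (l + 5) - I * s / 4) * P' - a₀ * (a₀ - (l + 5)) * P)
    (hp : p' = P + q + a * p)
    (hq : q' = (a - (l + 5) - I * s / 4) * p' - a * (a - (l + 5)) * p + Q - (a - (l + 5)) * P)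
    (h₀ : 0 ≤ miFl s P' Q') (h : 0 ≤ 4 * η * η₀ * miFl s p' q' + miFl s P' Q') :
    ∃ u u₀ e : ℂ, (s / 8 - a.im) * ‖u‖ ^ 2 ≤ u.im ∧ (s / 8 - a₀.im) * ‖u₀‖ ^ 2 ≤ u₀.im ∧
      16 * η * η₀ * (s / 8 - a.im) * (s / 8 - a₀.im) * ‖e‖ ^ 2 ≤ ‖miN a₀ l‖ ^ 2 ∧
      Q = (u₀ * miN a₀ l - a₀) * P ∧
      q = (u * miN a l - a) * p + (-1 + u * (a + a₀ - (l + 5) - u₀ * miN a₀ l) + e) * P := by
  obtain ⟨u₀, h1, h2⟩ := mi_disc hg₀ hQ h₀
  have hηη : 0 < 4 * η * η₀ := by positivity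
  obtain ⟨u, e', h3, h4, h5⟩ := disc_rep (p := p') (V := (a - (l + 5) - I * s / 4) * p' - q')
    (E := miFl s P' Q' / (4 * η * η₀)) hg (by positivity)
    (by rw [fl_V, le_div_iff₀ hηη]; linarith)
  set g₀ := s / 8 - a₀.im with hg₀d
  set g := s / 8 - a.im with hgd
  have h6 : 4 * g₀ * miFl s P' Q' ≤ ‖miN a₀ l‖ ^ 2 * ‖P‖ ^ 2 := by
    have e1 := fl_V a₀ P' Q' l s
    have e2 : (a₀ - (l + 5) - I * s / 4) * P' - Q' = miN a₀ l * P := by
      rw [miN]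
      linear_combination -hQ
    rw [e2, ← hg₀d, h2, mul_assoc u₀] at e1
    rw [← mul_pow, ← norm_mul, ← neg_neg (miFl s P' Q'), h2, mul_assoc u₀, ← e1]
    generalize miN a₀ l * P = W
    simp only [Complex.sq_norm, Complex.normSq_apply]
    simp
    nlinarith [sq_nonneg (2 * g₀ * (u₀.re * W.re - u₀.im * W.im) + W.im),
      sq_nonneg (2 * g₀ * (u₀.re * W.im + u₀.im * W.re) - W.re)]
  have h7 : 16 * η * η₀ * g * g₀ * ‖e'‖ ^ 2 ≤ ‖miN a₀ l‖ ^ 2 * ‖P‖ ^ 2 := by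
    rw [le_div_iff₀ hηη] at h4
    nlinarith
  have hQ' : Q = (u₀ * miN a₀ l - a₀) * P := by linear_combination h2 - hP
  have hc : 0 < 16 * η * η₀ * g * g₀ := by positivity
  by_cases hP0 : P = 0
  · have e0 : e' = 0 := by
      have : ‖e'‖ ^ 2 ≤ 0 := le_of_mul_le_mul_left (by simpa [hP0] using h7) hc
      simpa using this
    refine ⟨u, u₀, 0, h3, h1, by simp, hQ', ?_⟩
    simp only [miN] at hQ' ⊢
    linear_combination h5 - hp - u * hq + e0 - u * hQ'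
  · refine ⟨u, u₀, e' / P, h3, h1, ?_, hQ', ?_⟩
    · have hn : 0 < ‖P‖ ^ 2 := by positivity
      rw [norm_div, div_pow, ← mul_div_assoc, div_le_iff₀ hn]
      exact h7
    · have e1 : e' / P * P = e' := div_mul_cancel₀ _ hP0
      simp only [miN] at hQ' ⊢
      linear_combination h5 - hp - u * hq - e1 - u * hQ'

end alg

/-- the data of a good solution are proportional to the backward iterate of a point of the closed
upper half plane at level `K` -/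
theorem mi_half (β : ℝ) (l : ℕ) (lam : ℂ) (hσ : 0 ≤ lam.re) {s₁ s₀ : ℝ} (h₁ : 0 ≤ s₁)
    (h₀ : s₁ < s₀) {F : ℝ → ℂ} (hF : ContDiffOn ℝ ∞ F (Ioi s₁))
    (he : ∀ s, s₁ < s → FreeF β l lam F s = 0) (hG : Good l s₀ F) (K : ℕ) (h7 : 7 ≤ K)
    (h20 : K ≤ 20) : ∃ τ : ℂ, 0 ≤ τ.im ∧
      F s₀ * (miBack (miA β l lam) l s₀ K 0 (1, τ - ((l : ℂ) + 5) / 2 - I * s₀ / 8)).2
        = s₀ * deriv F s₀
          * (miBack (miA β l lam) l s₀ K 0 (1, τ - ((l : ℂ) + 5) / 2 - I * s₀ / 8)).1 := by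
  obtain ⟨p, q, p0, q0, hp, hq, h⟩ := mi_tower β l lam hσ h₁ h₀ hF he hG
  obtain ⟨τ, h1, h2⟩ := mi_tau l (h K h7 h20).1 (h K h7 h20).2
  refine ⟨τ, h1, ?_⟩
  have := mi_det_back hp hq K 0 (1, τ - ((l : ℂ) + 5) / 2 - I * s₀ / 8)
  rw [p0, q0, zero_add, h2] at this
  linear_combination this

/-- recursion and starting discs at level `K` for `(𝓛 - λ) x = z`, `(𝓛 - λ₀) z = 0` -/
theorem mi_near (β : ℝ) (l : ℕ) (lam lam₀ : ℂ) (hσ : 0 ≤ lam.re) (hσ₀ : 0 ≤ lam₀.re)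
    {s₁ s₀ : ℝ} (h₁ : 0 ≤ s₁) (h₀ : s₁ < s₀) {x z : ℝ → ℂ} (hx : ContDiffOn ℝ ∞ x (Ioi s₁))
    (hz : ContDiffOn ℝ ∞ z (Ioi s₁)) (hez : ∀ s, s₁ < s → FreeF β l lam₀ z s = 0)
    (hex : ∀ s, s₁ < s → FreeF β l lam x s = z s) (hGx : Good l s₀ x) (hGz : Good l s₀ z)
    (K : ℕ) (h6 : 6 ≤ K) (h19 : K ≤ 19) (hg : 0 < s₀ / 8 + β - lam.im)
    (hg₀ : 0 < s₀ / 8 + β - lam₀.im) :
    ∃ p q P Q : ℕ → ℂ, p 0 = x s₀ ∧ q 0 = s₀ * deriv x s₀ ∧ P 0 = z s₀ ∧ Q 0 = s₀ * deriv z s₀ ∧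
      (∀ k : ℕ, P (k + 1) = Q k + (miA β l lam₀ + k) * P k) ∧
      (∀ k : ℕ, Q (k + 1) = (miA β l lam₀ + k - (l + 5) - I * s₀ / 4) * P (k + 1)
        - (miA β l lam₀ + k) * (miA β l lam₀ + k - (l + 5)) * P k) ∧
      (∀ k : ℕ, p (k + 1) = P k + q k + (miA β l lam + k) * p k) ∧
      (∀ k : ℕ, q (k + 1) = (miA β l lam + k - (l + 5) - I * s₀ / 4) * p (k + 1)
        - (miA β l lam + k) * (miA β l lam + k - (l + 5)) * p k
        + Q k - (miA β l lam + k - (l + 5)) * P k) ∧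
      ∃ u u₀ e : ℂ, (s₀ / 8 + β - lam.im) * ‖u‖ ^ 2 ≤ u.im ∧
        (s₀ / 8 + β - lam₀.im) * ‖u₀‖ ^ 2 ≤ u₀.im ∧
        16 * (lam.re + K - 2) * (lam₀.re + K - 2) * (s₀ / 8 + β - lam.im)
          * (s₀ / 8 + β - lam₀.im) * ‖e‖ ^ 2 ≤ ‖miN (miA β l lam₀ + K) l‖ ^ 2 ∧
        Q K = (u₀ * miN (miA β l lam₀ + K) l - (miA β l lam₀ + K)) * P K ∧
        q K = (u * miN (miA β l lam + K) l - (miA β l lam + K)) * p K
          + (-1 + u * (miA β l lam + K + (miA β l lam₀ + K) - (l + 5)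
            - u₀ * miN (miA β l lam₀ + K) l) + e) * P K := by
  obtain ⟨p, q, P, Q, p0, q0, P0, Q0, hP, hQ, hp, hq, h⟩ :=
    mi_tower_src β l lam lam₀ hσ hσ₀ h₁ h₀ hx hz hez hex hGx hGz
  refine ⟨p, q, P, Q, p0, q0, P0, Q0, hP, hQ, hp, hq, ?_⟩
  obtain ⟨f1, -, f2⟩ := h (K + 1) (by omega) (by omega)
  have hK : (6 : ℝ) ≤ K := by exact_mod_cast h6
  have e : ∀ μ : ℂ, s₀ / 8 - (miA β l μ + K).im = s₀ / 8 + β - μ.im := fun μ => by
    simp [miA_im]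
    ring
  have := mi_near_alg (η := lam.re + K - 2) (η₀ := lam₀.re + K - 2) (by linarith) (by linarith)
    (by rw [e]; exact hg) (by rw [e]; exact hg₀) (hP K) (hQ K) (hp K) (hq K) f1
    (f2.trans (le_of_eq (by push_cast; ring)))
  rwa [e, e] at this

end P139
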