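import Vale.Agent.P139.MIDefs
import Vale.Agent.P139.MIDisc
import Vale.Agent.P139.MIT

/-! P139 part MI: the certificate near the three roots. -/

open Complex Set
open scoped ComplexConjugate

namespace P139
namespace MINear

open Dsc

structure St where
  ok : Bool
  ρ : Dsc
  σ : Dsc
  E : Dsc

/-- strict evaluation of a disc -/
def fd {α : Type} (D : Dsc) (f : Dsc → α) : α :=
  match D with
  | ⟨x, y, r⟩ => f ⟨x, y, r⟩

theorem fd_eq {α : Type} (D : Dsc) (f : Dsc → α) : fd D f = f D := rfl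

def U0 : Dsc := ⟨0, 1431655766, 1431655766⟩

def start (A B : Dsc) (n : ℤ) : St :=
  fd (A.sh 7) fun a => fd (B.sh 7) fun b => fd (U0.mul (b.mul (b.sh (-n)))) fun σ =>
    ⟨true, U0.mul (a.mul (a.sh (-n))), σ, (U0.mul (((a.add b).sh (-n)).sub σ)).wid S⟩

def step (A B X : Dsc) (n : ℤ) (k : ℕ) (T : St) : St :=
  match T with
  | ⟨ok, ρ, σ, E⟩ =>
    fd (A.sh k) fun a => fd (B.sh k) fun b => fd (a.sh (-n)) fun a' => fd (b.sh (-n)) fun b' =>
    fd ((((a.add a').sh 1).sub X).sub ρ) fun c => fd ((((b.add b').sh 1).sub X).sub σ) fun d =>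
    fd c.inv fun u => fd ((b.mul b').mul d.inv) fun σ' =>
      ⟨ok && decide (0 < c.del) && decide (0 < d.del), (a.mul a').mul u, σ',
        u.mul (((E.sh (-2)).mul σ').add (a.add b'))⟩

def lv (A B X : Dsc) (n : ℤ) : ℕ → St
  | 0 => start A B n
  | j + 1 => step A B X n (6 - j) (lv A B X n j)

variable {a a₀ : ℂ} {l : ℕ} {s : ℝ} {p q P Q : ℕ → ℂ} {A B X : Dsc} {n : ℤ}

def Inv (p P : ℕ → ℂ) (k : ℕ) (T : St) : Prop :=
  ∃ ρ σ E : ℂ, T.ρ.Mem ρ ∧ T.σ.Mem σ ∧ T.E.Mem E ∧ P (k + 1) = σ * P k ∧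
    p (k + 1) = ρ * p k + E * P k

theorem mem_U0 {u : ℂ} {g : ℝ} (hg : 3 / 2 ≤ g) (h : g * ‖u‖ ^ 2 ≤ u.im) : U0.Mem u := by
  unfold Mem ctr U0
  refine (abs_le_of_sq_le_sq' ?_ (by norm_num)).2
  have h1 : 3 / 2 * ‖u‖ ^ 2 ≤ u.im := (mul_le_mul_of_nonneg_right hg (sq_nonneg _)).trans h
  rw [Complex.sq_norm, normSq_apply] at h1 ⊢
  simp only [sub_re, sub_im, mul_re, mul_im, intCast_re, intCast_im, add_re, add_im, I_re, I_im,
    S_real]
  push_cast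
  nlinarith [mul_self_nonneg u.re, mul_self_nonneg u.im]

theorem inv_start (h : TowS a a₀ l s p q P Q) (hn : (n : ℂ) = l + 5) (hA : A.Mem a) (hB : B.Mem a₀)
    (hg : 3 / 2 ≤ s / 8 - a.im) (hg₀ : 3 / 2 ≤ s / 8 - a₀.im) (hη : (l : ℝ) / 2 ≤ a.re)
    (hη₀ : (l : ℝ) / 2 ≤ a₀.re) (hN : ‖miN (a₀ + 7) l‖ ≤ 30) : Inv p P 7 (start A B n) := by
  have e7 : ∀ z : ℂ, (z + (7 : ℕ)).im = z.im := fun z => by simp
  obtain ⟨u, u₀, e, h1, h2, h3, h4, h5⟩ := mi_near_alg (a := a + (7 : ℕ)) (a₀ := a₀ + (7 : ℕ))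
    (η := a.re - l / 2 + (8 : ℕ) - 3) (η₀ := a₀.re - l / 2 + (8 : ℕ) - 3)
    (by push_cast; linarith) (by push_cast; linarith) (by rw [e7]; linarith) (by rw [e7]; linarith)
    (h.h0.hp 7) (h.h0.hq 7) (h.hp 7) (h.hq 7) (h.h0.hf 8 (by norm_num) (by norm_num)).1
    (h.hf 8 (by norm_num) (by norm_num))
  rw [e7] at h1 h2 h3
  rw [e7] at h3
  have he : ‖e‖ ≤ 1 := by
    refine (abs_le_of_sq_le_sq' ?_ zero_le_one).2
    have b1 : ‖miN (a₀ + (7 : ℕ)) l‖ ^ 2 ≤ 30 ^ 2 :=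
      pow_le_pow_left₀ (norm_nonneg _) (by exact_mod_cast hN) 2
    have b2 : 16 * 5 * 5 * (3 / 2) * (3 / 2) ≤ 16 * (a.re - l / 2 + (8 : ℕ) - 3) *
        (a₀.re - l / 2 + (8 : ℕ) - 3) * (s / 8 - a.im) * (s / 8 - a₀.im) := by
      have c1 : (5 : ℝ) ≤ a.re - l / 2 + (8 : ℕ) - 3 := by push_cast; linarith
      have c2 : (5 : ℝ) ≤ a₀.re - l / 2 + (8 : ℕ) - 3 := by push_cast; linarith
      have c3 : (0 : ℝ) ≤ a.re - l / 2 + (8 : ℕ) - 3 := by linarith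
      have c4 : (0 : ℝ) ≤ a₀.re - l / 2 + (8 : ℕ) - 3 := by linarith
      have c5 : (0 : ℝ) ≤ s / 8 - a.im := by linarith
      gcongr
    have := ((mul_le_mul_of_nonneg_right b2 (sq_nonneg ‖e‖)).trans h3).trans b1
    linarith
  have ma := hA.sh 7
  have mb := hB.sh 7
  have mσ := (mem_U0 hg₀ h2).mul (mb.mul (mb.sh (-n)))
  simp only [start, fd_eq, Inv]
  refine ⟨_, _, _, (mem_U0 hg h1).mul (ma.mul (ma.sh (-n))), mσ,
    ((mem_U0 hg h1).mul (((ma.add mb).sh (-n)).sub mσ)).wid (w := e) (by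
      rw [S_real]; linarith), ?_, ?_⟩
  · rw [h.h0.hp 7, h4, miN]; push_cast; rw [hn]; ring
  · rw [h.hp 7, h5, miN, miN]; push_cast; rw [hn]; ring

theorem inv_step (h : TowS a a₀ l s p q P Q) (hn : (n : ℂ) = l + 5) (hA : A.Mem a) (hB : B.Mem a₀)
    (hX : X.Mem (I * s / 4)) (k : ℕ) (T : St) (hT : T.ok = true → Inv p P (k + 1) T)
    (hk : (step A B X n k T).ok = true) : Inv p P k (step A B X n k T) := by
  obtain ⟨ok, ρ', σ', E'⟩ := T
  simp only [step, fd_eq, Bool.and_eq_true, decide_eq_true_eq] at hk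
  simp only [step, fd_eq, Inv]
  obtain ⟨ρ, σ, E, m1, m2, m3, e1, e2⟩ := hT hk.1.1
  have ma := hA.sh k
  have mb := hB.sh k
  have ma' := ma.sh (-n)
  have mb' := mb.sh (-n)
  obtain ⟨c0, mu⟩ := ((((ma.add ma').sh 1).sub hX).sub m1).inv hk.1.2
  obtain ⟨d0, mv⟩ := ((((mb.add mb').sh 1).sub hX).sub m2).inv hk.2
  have mσ := (mb.mul mb').mul mv
  have p1 := h.hp k
  have p2 := h.hp (k + 1)
  have q1 := h.hq k
  have P1 := h.h0.hp k
  have P2 := h.h0.hp (k + 1)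
  have Q1 := h.h0.hq k
  push_cast at c0 d0 p2 P2
  rw [hn] at c0 d0
  have f1 : P (k + 1) = (a₀ + k) * (a₀ + k + -(l + 5)) *
      (a₀ + k + (a₀ + k + -(l + 5)) + 1 - I * s / 4 - σ)⁻¹ * P k := by
    rw [mul_right_comm, eq_mul_inv_iff_mul_eq₀ d0]
    linear_combination e1 - P2 - Q1
  refine ⟨_, _, _, (ma.mul ma').mul mu, mσ, mu.mul (((m3.sh (-2)).mul mσ).add (ma.add mb')), ?_, ?_⟩
  · push_cast; rw [hn]; exact f1
  · push_cast
    rw [hn]
    generalize (a₀ + k) * (a₀ + k + -(l + 5)) *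
      (a₀ + k + (a₀ + k + -(l + 5)) + 1 - I * s / 4 - σ)⁻¹ = σ₁ at f1 ⊢
    have f2 : p (k + 1) * (a + k + (a + k + -(l + 5)) + 1 - I * s / 4 - ρ) =
        (a + k) * (a + k + -(l + 5)) * p k +
          ((E + -2) * σ₁ + (a + k + (a₀ + k + -(l + 5)))) * P k := by
      linear_combination e2 - p2 - q1 + P1 + (E - 2) * f1
    rw [← eq_mul_inv_iff_mul_eq₀ c0] at f2
    rw [f2]
    ring

theorem inv_lv (h : TowS a a₀ l s p q P Q) (hn : (n : ℂ) = l + 5) (hA : A.Mem a) (hB : B.Mem a₀)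
    (hX : X.Mem (I * s / 4)) (h7 : Inv p P 7 (start A B n)) (j : ℕ) :
    j ≤ 7 → (lv A B X n j).ok = true → Inv p P (7 - j) (lv A B X n j) := by
  induction j with
  | zero => exact fun _ _ => h7
  | succ j ih =>
    intro hj hk
    rw [show 7 - (j + 1) = 6 - j by omega]
    refine inv_step h hn hA hB hX _ _ (fun h' => ?_) hk
    rw [show 6 - j + 1 = 7 - j by omega]
    exact ih (by omega) h'

/-- the disc of `-iβ` -/
def Be : Dsc := ⟨0, -1437847677, 64430⟩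
/-- the disc of `i s / 4` -/
def Xs : Dsc := ⟨0, 11618208658, 322130⟩

theorem mem_im {y r : ℤ} {t : ℝ} (h : |4294967296 * t - y| ≤ r) : Mem ⟨0, y, r⟩ (I * t) := by
  unfold Mem ctr
  have e : ((S : ℤ) : ℂ) * (I * t) - (((0 : ℤ) : ℂ) + (y : ℂ) * I) =
      ((4294967296 * t - y : ℝ) : ℂ) * I := by
    simp only [S]; push_cast; ring
  rw [e, norm_mul, norm_I, mul_one, norm_real]
  exact h

theorem mem_Be {β s : ℝ} (h : Bx β s) : Be.Mem (-(I * β)) := by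
  have := mem_im (y := -1437847677) (r := 64430) (t := -β) (by
    rw [abs_le]; push_cast; constructor <;> linarith [h.1, h.2.1])
  rwa [ofReal_neg, mul_neg] at this

theorem mem_Xs {β s : ℝ} (h : Bx β s) : Xs.Mem (I * s / 4) := by
  have := mem_im (y := 11618208658) (r := 322130) (t := s / 4) (by
    rw [abs_le]; push_cast; constructor <;> linarith [h.2.2.1, h.2.2.2])
  rwa [ofReal_div, ← mul_div_assoc] at this

def ok0 (c : ℤ) (x y w : ℤ) : Bool :=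
  match lv (Dsc.add ⟨x, y, 3 * w / 2 + 1⟩ Be) (Be.sh c) Xs 5 7 with
  | ⟨ok, _, _, E⟩ => ok && fd (E.sh (-1)) fun d =>
      if c = 0 then decide (d.r < d.x) else decide (d.x + d.r < 0)

def ok1 (x y w : ℤ) : Bool :=
  fd (Dsc.add ⟨x + 2147483648, y, 3 * w / 2 + 1⟩ Be) fun A =>
  match lv A (Be.sh 1) Xs 6 6 with
  | ⟨ok, ρ, _, E⟩ => ok && fd (A.mul (((A.sh 1).sub Xs).sub ρ)) fun c => decide (0 < c.del) &&
      fd ((E.sh (-2)).mul c.inv) fun d => decide (d.x + d.r < 0)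

theorem tow_src (h : Tow a l s p q) (h1 : (l : ℝ) / 2 ≤ a.re) (h2 : (l : ℝ) / 2 ≤ a₀.re) :
    TowS a a₀ l s p q (fun _ => 0) (fun _ => 0) where
  h0 := ⟨fun _ => by simp, fun _ => by simp, fun _ _ _ => by simp [fl]⟩
  hp k := by rw [h.hp k, zero_add]
  hq k := by rw [h.hq k]; ring
  hf K h7 h20 := by
    have : (7 : ℝ) ≤ K := by exact_mod_cast h7
    have e : fl s 0 0 = 0 := by simp [fl]
    rw [e, add_zero]
    exact mul_nonneg (mul_nonneg (mul_nonneg (by norm_num) (by linarith)) (by linarith))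
      (h.hf K h7 h20).1

theorem norm_N {z : ℂ} {l : ℕ} {x y : ℝ} (h1 : |z.re + 7| + |z.im| ≤ x)
    (h2 : |z.re + 7 - (l + 5)| + |z.im| ≤ y) (h : x * y ≤ 30) : ‖miN (z + 7) l‖ ≤ 30 := by
  rw [miN, norm_mul]
  refine le_trans (mul_le_mul ((norm_le_abs_re_add_abs_im _).trans ?_)
    ((norm_le_abs_re_add_abs_im _).trans ?_) (norm_nonneg _) (le_trans (by positivity) h1)) h
  · simpa using h1
  · simpa using h2

theorem sound0 {β s : ℝ} (hb : Bx β s) (c : ℤ) (hc : c = 0 ∨ c = 1) (x y w : ℤ)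
    (h : ok0 c x y w = true) (lam : ℂ) (hl : Box x y w lam) : 0 ≤ lam.re → lam.im ≤ 1 / 8 →
    ∀ p q P Q : ℕ → ℂ, TowS (lam - I * β) ((c : ℝ) - I * β) 0 s p q P Q → p 0 = 0 →
      ∃ d : ℂ, 0 < (1 - 2 * (c : ℝ)) * d.re ∧ q 0 = d * P 0 := by
  intro h0 h1 p q P Q hT hp
  obtain ⟨b1, b2, b3, b4⟩ := id hb
  have hA : (Dsc.add ⟨x, y, 3 * w / 2 + 1⟩ Be).Mem (lam - I * β) := by
    rw [sub_eq_add_neg]; exact hl.mem.add (mem_Be hb)
  have hB : (Be.sh c).Mem ((c : ℝ) - I * β) := by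
    have := (mem_Be hb).sh c
    rwa [add_comm, ← sub_eq_add_neg, ← ofReal_intCast] at this
  have hβ : |β| ≤ 1 / 2 := abs_le.2 ⟨by linarith, by linarith⟩
  have h7 := inv_start (n := 5) hT (by norm_num) hA hB (by simp; linarith) (by simp; linarith)
    (by simpa using h0) (by rcases hc with rfl | rfl <;> simp)
    (norm_N (x := 17 / 2) (y := 7 / 2) (by rcases hc with rfl | rfl <;> simp <;> linarith)
      (by rcases hc with rfl | rfl <;> simp <;> norm_num <;> linarith) (by norm_num))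
  have hI := inv_lv hT (by norm_num) hA hB (mem_Xs hb) h7 7 le_rfl
  unfold ok0 at h
  generalize lv (Dsc.add ⟨x, y, 3 * w / 2 + 1⟩ Be) (Be.sh c) Xs 5 7 = T at h hI
  obtain ⟨ok, ρ', σ', E'⟩ := T
  simp only [fd_eq, Bool.and_eq_true] at h
  obtain ⟨ρ, σ, E, -, -, m, -, e⟩ := hI h.1
  have e1 := hT.hp 0
  have m1 := m.sh (-1)
  refine ⟨E + (-1 : ℤ), ?_, ?_⟩
  · rcases hc with rfl | rfl
    · have := m1.re_pos (by simpa using h.2)
      simpa using this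
    · have := m1.re_neg (by simpa using h.2)
      norm_num at this ⊢
      linarith
  · simp only [Nat.sub_self] at e
    rw [hp] at e e1
    push_cast
    linear_combination e - e1

theorem sound1 {β s : ℝ} (hb : Bx β s) (x y w : ℤ) (h : ok1 x y w = true) (lam : ℂ)
    (hl : Box x y w lam) : 0 ≤ lam.re → lam.im ≤ 1 / 8 →
    ∀ p q P Q : ℕ → ℂ, TowS (lam - I * β + 1 / 2) (1 - I * β) 1 s p q P Q → P 0 = 0 → q 0 = 0 →
      ∃ d : ℂ, d.re < 0 ∧ p 0 = d * Q 0 := by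
  intro h0 h1 p q P Q hT hP hq
  obtain ⟨b1, b2, b3, b4⟩ := id hb
  have hl' : Box (x + 2147483648) y w (lam + 1 / 2) := by
    refine ⟨?_, by simpa using hl.2⟩
    have := hl.1
    rw [S_real] at this ⊢
    rwa [show 4294967296 * (lam + 1 / 2).re - ((x + 2147483648 : ℤ) : ℝ) =
      4294967296 * lam.re - x by simp; ring]
  have hA : (Dsc.add ⟨x + 2147483648, y, 3 * w / 2 + 1⟩ Be).Mem (lam - I * β + 1 / 2) := by
    rw [show lam - I * β + 1 / 2 = lam + 1 / 2 + -(I * β) by ring]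
    exact hl'.mem.add (mem_Be hb)
  have hB : (Be.sh 1).Mem (1 - I * β) := by
    have := (mem_Be hb).sh 1
    rwa [add_comm, ← sub_eq_add_neg, Int.cast_one] at this
  have hβ : |β| ≤ 1 / 2 := abs_le.2 ⟨by linarith, by linarith⟩
  have h7 := inv_start (n := 6) hT (by norm_num) hA hB (by simp; linarith) (by simp; linarith)
    (by simpa using h0) (by norm_num)
    (norm_N (x := 17 / 2) (y := 7 / 2) (by simp; norm_num; linarith)
      (by simp; norm_num; linarith) (by norm_num))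
  have hI := inv_lv hT (by norm_num) hA hB (mem_Xs hb) h7 6 (by norm_num)
  simp only [ok1, fd_eq] at h
  generalize Dsc.add ⟨x + 2147483648, y, 3 * w / 2 + 1⟩ Be = A at h hI hA
  generalize lv A (Be.sh 1) Xs 6 6 = T at h hI
  obtain ⟨ok, ρ', σ', E'⟩ := T
  simp only [Bool.and_eq_true, decide_eq_true_eq] at h
  obtain ⟨ρ, σ, E, m₁, -, m, -, e⟩ := hI h.1
  obtain ⟨c0, mu⟩ := (hA.mul (((hA.sh 1).sub (mem_Xs hb)).sub m₁)).inv h.2.1
  refine ⟨_, ((m.sh (-2)).mul mu).re_neg h.2.2, ?_⟩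
  have p0 := hT.hp 0
  have p1 := hT.hp 1
  have q0 := hT.hq 0
  have P0 := hT.h0.hp 0
  have e' : p 2 = ρ * p 1 + E * P 1 := e
  generalize lam - I * β + 1 / 2 = a at *
  rw [hP, hq] at p0
  rw [hP] at q0 P0
  push_cast at *
  rw [mul_right_comm, eq_mul_inv_iff_mul_eq₀ c0]
  linear_combination e' - p1 - q0 + (E - 1) * P0 - (2 * a - 5 - I * s / 4 - ρ) * p0

end MINear
end P139
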