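import Vale.Agent.P139.MIFlux

/-! P139 part MI: the two hierarchies `(a,b) → (a+1,b+1)` (derivative), `(a,b) → (a+1,b)` (`iΔ`). -/

open Complex Set Filter Topology MeasureTheory
open scoped ContDiff ComplexConjugate

noncomputable section
namespace P139

/-- `a = λ - iβ + l/2` -/
def miA (β : ℝ) (l : ℕ) (lam : ℂ) : ℂ := lam - I * β + (l : ℂ) / 2

/-- `miFl s p q = |p|² Im τ` for `τ = q / p + (l+5)/2 + i s / 8` -/
def miFl (s : ℝ) (p q : ℂ) : ℝ := (conj p * q).im + s / 8 * ‖p‖ ^ 2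

theorem miA_re (β : ℝ) (l : ℕ) (lam : ℂ) : (miA β l lam).re = lam.re + l / 2 := by
  simp [miA]

theorem miA_im (β : ℝ) (l : ℕ) (lam : ℂ) : (miA β l lam).im = lam.im - β := by
  simp [miA]

namespace MIT

/-- `tw l F k j` is the `j`-th derivative of `(iΔ)^k F` -/
def tw (l : ℕ) (F : ℝ → ℂ) : ℕ → ℕ → ℝ → ℂ
  | 0, j => iteratedDeriv j F
  | k + 1, j => fun s => I * (4 * s * tw l F k (j + 2) s + 4 * ((l : ℂ) + 6 + j) * tw l F k (j + 1) s)

variable {β : ℝ} {l : ℕ} {lam : ℂ} {s₁ s₀ : ℝ} {F z : ℝ → ℂ}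

theorem tw_zero (l k j : ℕ) : tw l 0 k j = 0 := by
  induction k generalizing j with
  | zero =>
    funext s
    simp [tw]
  | succ k ih =>
    funext s
    simp [tw, ih]

theorem it_smooth (hF : ContDiffOn ℝ ∞ F (Ioi s₁)) (j : ℕ) :
    ContDiffOn ℝ ∞ (iteratedDeriv j F) (Ioi s₁) := by
  induction j with
  | zero => simpa using hF
  | succ j ih =>
    rw [iteratedDeriv_succ]
    exact ih.deriv_of_isOpen isOpen_Ioi (by simp)

theorem tw_deriv (hF : ContDiffOn ℝ ∞ F (Ioi s₁)) (k j : ℕ) (s : ℝ) (hs : s₁ < s) :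
    HasDerivAt (tw l F k j) (tw l F k (j + 1) s) s := by
  induction k generalizing j with
  | zero =>
    simp only [tw]
    rw [iteratedDeriv_succ]
    exact (((it_smooth hF j).contDiffAt (Ioi_mem_nhds hs)).differentiableAt (by simp)).hasDerivAt
  | succ k ih =>
    have h1 : HasDerivAt (fun t : ℝ => (t : ℂ)) 1 s := Complex.ofRealCLM.hasDerivAt
    have h2 := (((h1.const_mul 4).mul (ih (j + 2))).add
      ((ih (j + 1)).const_mul (4 * ((l : ℂ) + 6 + j)))).const_mul I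
    refine h2.congr_deriv ?_
    simp only [tw]
    push_cast
    ring

theorem tw_eq (hF : ContDiffOn ℝ ∞ F (Ioi s₁)) (hz : ContDiffOn ℝ ∞ z (Ioi s₁))
    (he : ∀ s, s₁ < s → FreeF β l lam F s = z s) (k j : ℕ) (s : ℝ) (hs : s₁ < s) :
    4 * s * tw l F k (j + 2) s + (4 * ((l : ℂ) + 6 + j) + I * s) * tw l F k (j + 1) s
      + I * (miA β l lam + k + j) * tw l F k j s = -I * tw l z k j s := by
  induction k generalizing j with
  | zero =>
    induction j generalizing s with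
    | zero =>
      have h := he s hs
      simp only [tw, iteratedDeriv_succ, iteratedDeriv_zero, miA, FreeF] at h ⊢
      push_cast
      linear_combination (-I) * h + (4 * s * deriv (deriv F) s + (24 + 4 * l) * deriv F s)
        * Complex.I_mul_I
    | succ j ih =>
      have h1 : HasDerivAt (fun t : ℝ => (t : ℂ)) 1 s := Complex.ofRealCLM.hasDerivAt
      have h2 := (((h1.const_mul 4).mul (tw_deriv (l := l) hF 0 (j + 2) s hs)).add
        (((h1.const_mul I).const_add (4 * ((l : ℂ) + 6 + j))).mul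
          (tw_deriv (l := l) hF 0 (j + 1) s hs))).add
        ((tw_deriv (l := l) hF 0 j s hs).const_mul (I * (miA β l lam + (0 : ℕ) + j)))
      have h3 := (tw_deriv (l := l) hz 0 j s hs).const_mul (-I)
      have h4 := h2.unique (h3.congr_of_eventuallyEq (by
        filter_upwards [Ioi_mem_nhds hs] with t ht
        exact ih t ht))
      push_cast at h4 ⊢
      linear_combination h4
  | succ k ih =>
    have h1 := ih (j + 1)
    have h2 := ih (j + 2)
    simp only [tw]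
    push_cast at h1 h2 ⊢
    linear_combination (I * 4 * s) * h2 + (I * 4 * ((l : ℂ) + 6 + j)) * h1

theorem tw_int (hF : ContDiffOn ℝ ∞ F (Ioi s₁)) (h₁ : 0 ≤ s₁) (h₀ : s₁ < s₀) (hG : Good l s₀ F)
    (k j : ℕ) (h7 : 7 ≤ j + k) (h41 : j + 2 * k ≤ 41) :
    IntegrableOn (fun s : ℝ => ‖tw l F k j s‖ ^ 2 * s ^ (l + j + 5)) (Ioi s₀) := by
  induction k generalizing j with
  | zero => exact hG j (by omega) (by omega)
  | succ k ih =>
    have p0 : 0 < s₀ := h₁.trans_lt h₀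
    have i2 := ih (j + 2) (by omega) (by omega)
    have i1 := ih (j + 1) (by omega) (by omega)
    have hc : ContinuousOn (tw l F (k + 1) j) (Ioi s₀) := fun s hs =>
      (tw_deriv hF (k + 1) j s (h₀.trans hs)).continuousAt.continuousWithinAt
    refine Integrable.mono' ((i2.const_mul 32).add
      (i1.const_mul (32 * ((l : ℝ) + 6 + j) ^ 2 / s₀)))
      (((hc.norm.pow 2).mul (continuous_pow _).continuousOn).aestronglyMeasurable
        measurableSet_Ioi) ?_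
    refine (ae_restrict_iff' measurableSet_Ioi).2 (Eventually.of_forall fun s hs => ?_)
    have hs' : s₀ < s := hs
    have hs0 : 0 < s := p0.trans hs'
    rw [Real.norm_of_nonneg (by positivity)]
    set u := ‖tw l F k (j + 2) s‖ with hu
    set v := ‖tw l F k (j + 1) s‖ with hv
    set c : ℝ := (l : ℝ) + 6 + j with hc'
    have hc0 : 0 ≤ c := by positivity
    have b1 : ‖tw l F (k + 1) j s‖ ≤ 4 * s * u + 4 * c * v := by
      simp only [tw]
      rw [norm_mul, Complex.norm_I, one_mul]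
      refine (norm_add_le _ _).trans (le_of_eq ?_)
      have e : ((l : ℂ) + 6 + j) = ((c : ℝ) : ℂ) := by rw [hc']; push_cast; ring
      rw [e]
      simp [hs0.le, hc0, abs_of_nonneg, hu, hv]
    have b2 : ‖tw l F (k + 1) j s‖ ^ 2 ≤ 32 * (u ^ 2 * s ^ 2) + 32 * c ^ 2 * v ^ 2 := by
      have := pow_le_pow_left₀ (norm_nonneg _) b1 2
      nlinarith [sq_nonneg (s * u - c * v)]
    have b3 : 32 * c ^ 2 * v ^ 2 ≤ 32 * c ^ 2 / s₀ * (v ^ 2 * s) := by
      rw [div_mul_eq_mul_div, le_div_iff₀ p0]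
      have : 0 ≤ 32 * c ^ 2 * v ^ 2 := by positivity
      nlinarith
    have b4 := mul_le_mul_of_nonneg_right (b2.trans (add_le_add le_rfl b3))
      (pow_pos hs0 (l + j + 5)).le
    refine b4.trans (le_of_eq ?_)
    simp only [Pi.add_apply]
    ring

theorem tw_lv (hF : ContDiffOn ℝ ∞ F (Ioi s₁)) (hz : ContDiffOn ℝ ∞ z (Ioi s₁))
    (he : ∀ s, s₁ < s → FreeF β l lam F s = z s) (h₁ : 0 ≤ s₁) (h₀ : s₁ < s₀)
    (hG : Good l s₀ F) (k j : ℕ) (h7 : 7 ≤ j + k) (h41 : j + 2 * k ≤ 40) :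
    Lv (l + j + 5) (miA β l lam + k + j) s₀ (tw l F k j) (tw l F k (j + 1)) (tw l z k j) := by
  refine ⟨fun s hs => tw_deriv hF k j s (h₀.trans_le hs),
    fun s hs => ⟨_, tw_deriv hF k (j + 1) s (h₀.trans_le hs), ?_⟩,
    tw_int hF h₁ h₀ hG k j h7 (by omega), ?_⟩
  · have := tw_eq hF hz he k j s (h₀.trans_le hs)
    push_cast
    linear_combination this
  · have := tw_int hF h₁ h₀ hG k (j + 1) (by omega) (by omega)
    rwa [show l + (j + 1) + 5 = l + j + 5 + 1 by omega] at this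

theorem fl_miFl (n : ℕ) (w w1 : ℝ → ℂ) (s : ℝ) :
    fl n w w1 s = 4 * s ^ n * miFl s (w s) (s * w1 s) := by
  rw [fl, miFl, mul_left_comm (conj (w s)), Complex.im_ofReal_mul]
  ring

theorem tw_p (hF : ContDiffOn ℝ ∞ F (Ioi s₁)) (hz : ContDiffOn ℝ ∞ z (Ioi s₁))
    (he : ∀ s, s₁ < s → FreeF β l lam F s = z s) (k : ℕ) (s : ℝ) (hs : s₁ < s) :
    tw l F (k + 1) 0 s = tw l z k 0 s + s * tw l F k 1 s + (miA β l lam + k) * tw l F k 0 s := by
  have h := tw_eq hF hz he k 0 s hs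
  simp only [tw]
  push_cast at h ⊢
  linear_combination I * h - (tw l z k 0 s + s * tw l F k 1 s
    + (miA β l lam + k) * tw l F k 0 s) * Complex.I_mul_I

theorem tw_q (hF : ContDiffOn ℝ ∞ F (Ioi s₁)) (hz : ContDiffOn ℝ ∞ z (Ioi s₁))
    (he : ∀ s, s₁ < s → FreeF β l lam F s = z s) (k : ℕ) (s : ℝ) (hs : s₁ < s) :
    s * tw l F (k + 1) 1 s = (miA β l lam + k - (l + 5) - I * s / 4) * tw l F (k + 1) 0 s
      - (miA β l lam + k) * (miA β l lam + k - (l + 5)) * tw l F k 0 s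
      + s * tw l z k 1 s - (miA β l lam + k - (l + 5)) * tw l z k 0 s := by
  have h := tw_eq hF hz he k 1 s hs
  have h' := tw_p hF hz he k s hs
  have e : tw l F (k + 1) 0 s = I * (4 * s * tw l F k 2 s + 4 * ((l : ℂ) + 6) * tw l F k 1 s) := by
    simp [tw]
  have e' : tw l F (k + 1) 1 s
      = I * (4 * s * tw l F k 3 s + 4 * ((l : ℂ) + 6 + 1) * tw l F k 2 s) := by
    simp [tw]
  push_cast at h
  linear_combination s * e' + (I * s) * h - (miA β l lam + k - (l + 5)) * h' + (I * s / 4) * e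
    - (s * (s * tw l F k 2 s + (miA β l lam + k + 1) * tw l F k 1 s + tw l z k 1 s)
      - s * (s * tw l F k 2 s + ((l : ℂ) + 6) * tw l F k 1 s)) * Complex.I_mul_I

end MIT

open MIT

/-- values at `s₀` of the `iΔ` hierarchy of a good solution: recursion and half plane -/
theorem mi_tower (β : ℝ) (l : ℕ) (lam : ℂ) (hσ : 0 ≤ lam.re) {s₁ s₀ : ℝ} (h₁ : 0 ≤ s₁)
    (h₀ : s₁ < s₀) {F : ℝ → ℂ} (hF : ContDiffOn ℝ ∞ F (Ioi s₁))
    (he : ∀ s, s₁ < s → FreeF β l lam F s = 0) (hG : Good l s₀ F) :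
    ∃ p q : ℕ → ℂ, p 0 = F s₀ ∧ q 0 = s₀ * deriv F s₀ ∧
      (∀ k : ℕ, p (k + 1) = q k + (miA β l lam + k) * p k) ∧
      (∀ k : ℕ, q (k + 1) = (miA β l lam + k - (l + 5) - I * s₀ / 4) * p (k + 1)
        - (miA β l lam + k) * (miA β l lam + k - (l + 5)) * p k) ∧
      ∀ K : ℕ, 7 ≤ K → K ≤ 20 → 0 ≤ miFl s₀ (p K) (q K) ∧ (p K = 0 → q K = 0) := by
  have hz : ContDiffOn ℝ ∞ (0 : ℝ → ℂ) (Ioi s₁) := contDiffOn_const
  have p0 : 0 < s₀ := h₁.trans_lt h₀
  refine ⟨fun k => tw l F k 0 s₀, fun k => s₀ * tw l F k 1 s₀, by simp [tw], by simp [tw],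
    fun k => ?_, fun k => ?_, fun K h7 h20 => ?_⟩
  · simpa [tw_zero] using tw_p hF hz he k s₀ h₀
  · simpa [tw_zero] using tw_q hF hz he k s₀ h₀
  · have h := tw_lv hF hz he h₁ h₀ hG K 0 (by omega) (by omega)
    rw [tw_zero] at h
    have hK : (7 : ℝ) ≤ K := by exact_mod_cast h7
    have hη : (((l + 0 + 5 : ℕ) : ℝ) + 1) / 2 < (miA β l lam + K + (0 : ℕ)).re := by
      simp [miA_re]
      linarith
    refine ⟨?_, fun h0 => ?_⟩
    · have := (h.nonneg p0 hη.le).2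
      rw [fl_miFl] at this
      exact nonneg_of_mul_nonneg_right this (by positivity) |> fun h => h
    · simp [h.zero p0 hη h0]

/-- the same with a source that is itself a good solution -/
theorem mi_tower_src (β : ℝ) (l : ℕ) (lam lam₀ : ℂ) (hσ : 0 ≤ lam.re) (hσ₀ : 0 ≤ lam₀.re)
    {s₁ s₀ : ℝ} (h₁ : 0 ≤ s₁) (h₀ : s₁ < s₀) {x z : ℝ → ℂ} (hx : ContDiffOn ℝ ∞ x (Ioi s₁))
    (hz : ContDiffOn ℝ ∞ z (Ioi s₁)) (hez : ∀ s, s₁ < s → FreeF β l lam₀ z s = 0)
    (hex : ∀ s, s₁ < s → FreeF β l lam x s = z s) (hGx : Good l s₀ x) (hGz : Good l s₀ z) :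
    ∃ p q P Q : ℕ → ℂ, p 0 = x s₀ ∧ q 0 = s₀ * deriv x s₀ ∧ P 0 = z s₀ ∧ Q 0 = s₀ * deriv z s₀ ∧
      (∀ k : ℕ, P (k + 1) = Q k + (miA β l lam₀ + k) * P k) ∧
      (∀ k : ℕ, Q (k + 1) = (miA β l lam₀ + k - (l + 5) - I * s₀ / 4) * P (k + 1)
        - (miA β l lam₀ + k) * (miA β l lam₀ + k - (l + 5)) * P k) ∧
      (∀ k : ℕ, p (k + 1) = P k + q k + (miA β l lam + k) * p k) ∧
      (∀ k : ℕ, q (k + 1) = (miA β l lam + k - (l + 5) - I * s₀ / 4) * p (k + 1)
        - (miA β l lam + k) * (miA β l lam + k - (l + 5)) * p k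
        + Q k - (miA β l lam + k - (l + 5)) * P k) ∧
      ∀ K : ℕ, 7 ≤ K → K ≤ 20 → 0 ≤ miFl s₀ (P K) (Q K) ∧ (P K = 0 → Q K = 0) ∧
        0 ≤ 4 * (lam.re + K - 3) * (lam₀.re + K - 3) * miFl s₀ (p K) (q K)
          + miFl s₀ (P K) (Q K) := by
  have h0 : ContDiffOn ℝ ∞ (0 : ℝ → ℂ) (Ioi s₁) := contDiffOn_const
  have p0 : 0 < s₀ := h₁.trans_lt h₀
  refine ⟨fun k => tw l x k 0 s₀, fun k => s₀ * tw l x k 1 s₀, fun k => tw l z k 0 s₀,
    fun k => s₀ * tw l z k 1 s₀, by simp [tw], by simp [tw], by simp [tw], by simp [tw],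
    fun k => ?_, fun k => ?_, fun k => tw_p hx hz hex k s₀ h₀, fun k => tw_q hx hz hex k s₀ h₀,
    fun K h7 h20 => ?_⟩
  · simpa [tw_zero] using tw_p hz h0 hez k s₀ h₀
  · simpa [tw_zero] using tw_q hz h0 hez k s₀ h₀
  · have h := tw_lv hz h0 hez h₁ h₀ hGz K 0 (by omega) (by omega)
    have h' := tw_lv hx hz hex h₁ h₀ hGx K 0 (by omega) (by omega)
    rw [tw_zero] at h
    have hK : (7 : ℝ) ≤ K := by exact_mod_cast h7
    have e : ∀ μ : ℂ, (miA β l μ + K + (0 : ℕ)).re - (((l + 0 + 5 : ℕ) : ℝ) + 1) / 2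
        = μ.re + K - 3 := fun μ => by
      simp [miA_re]
      ring
    have hη₀ : (((l + 0 + 5 : ℕ) : ℝ) + 1) / 2 < (miA β l lam₀ + K + (0 : ℕ)).re := by
      linarith [e lam₀]
    have hη : (((l + 0 + 5 : ℕ) : ℝ) + 1) / 2 < (miA β l lam + K + (0 : ℕ)).re := by
      linarith [e lam]
    have hp : 0 < 4 * s₀ ^ (l + 0 + 5) := by positivity
    refine ⟨?_, fun h0 => ?_, ?_⟩
    · have := (h.nonneg p0 hη₀.le).2
      rw [fl_miFl] at this
      exact (mul_nonneg_iff_of_pos_left hp).1 this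
    · simp [h.zero p0 hη₀ h0]
    · have := h'.src h p0 hη.le hη₀.le
      rw [fl_miFl, fl_miFl, e, e] at this
      refine (mul_nonneg_iff_of_pos_left hp).1 (this.trans (le_of_eq ?_))
      simp only [zero_add]
      ring

end P139
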