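import Vale.Agent.P139.MITow

/-! P139 part MI: ODE uniqueness, uniqueness of good solutions, conjugation, linearity. -/

open Complex Set Filter Topology MeasureTheory
open scoped ContDiff ComplexConjugate

noncomputable section
namespace P139
namespace MIT

theorem gron {X : Type} [NormedAddCommGroup X] [NormedSpace ℝ X] {w w' : ℝ → X} {k : ℝ → ℝ}
    {c : ℝ} (hk : ContinuousOn k (Ioi c)) (hw : ∀ s : ℝ, c < s → HasDerivAt w (w' s) s)
    (hb : ∀ s : ℝ, c < s → ‖w' s‖ ≤ k s * ‖w s‖) {t : ℝ} (ht : c < t) (h0 : w t = 0) (s : ℝ)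
    (hs : c < s) : w s = 0 := by
  rcases le_total t s with h | h
  · have hp : ∀ x ∈ Icc t s, c < x := fun x hx => ht.trans_le hx.1
    obtain ⟨M, hM⟩ := isCompact_Icc.exists_bound_of_continuousOn (hk.mono hp)
    exact eq_zero_of_abs_deriv_le_mul_abs_self_of_eq_zero_right (K := M) (f' := w')
      (fun x hx => (hw x (hp x hx)).continuousAt.continuousWithinAt)
      (fun x hx => (hw x (hp x (Ico_subset_Icc_self hx))).hasDerivWithinAt) h0
      (fun x hx => (hb x (hp x (Ico_subset_Icc_self hx))).trans (mul_le_mul_of_nonneg_right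
        ((le_abs_self _).trans (hM x (Ico_subset_Icc_self hx))) (norm_nonneg _))) s ⟨h, le_rfl⟩
  · have hp : ∀ x ∈ Icc s t, c < x := fun x hx => hs.trans_le hx.1
    obtain ⟨M, hM⟩ := isCompact_Icc.exists_bound_of_continuousOn (hk.mono hp)
    have hm : ∀ x ∈ Icc (-t) (-s), -x ∈ Icc s t := fun x hx =>
      ⟨by linarith [hx.2], by linarith [hx.1]⟩
    have hd : ∀ x ∈ Icc (-t) (-s), HasDerivAt (fun y => w (-y)) (-w' (-x)) x := fun x hx => by
      simpa [Function.comp_def] using (hw (-x) (hp _ (hm x hx))).scomp x (hasDerivAt_neg x)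
    have := eq_zero_of_abs_deriv_le_mul_abs_self_of_eq_zero_right (K := M)
      (f := fun y => w (-y)) (f' := fun x => -w' (-x)) (a := -t) (b := -s)
      (fun x hx => (hd x hx).continuousAt.continuousWithinAt)
      (fun x hx => (hd x (Ico_subset_Icc_self hx)).hasDerivWithinAt) (by simpa using h0)
      (fun x hx => by
        have hx' := hm x (Ico_subset_Icc_self hx)
        rw [norm_neg]
        exact (hb _ (hp _ hx')).trans (mul_le_mul_of_nonneg_right
          ((le_abs_self _).trans (hM _ hx')) (norm_nonneg _))) (-s) ⟨by linarith, le_rfl⟩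
    simpa using this

variable {s₁ : ℝ} {F G : ℝ → ℂ}

theorem it_lin (hF : ContDiffOn ℝ ∞ F (Ioi s₁)) (hG : ContDiffOn ℝ ∞ G (Ioi s₁)) (c d : ℂ)
    (j : ℕ) (s : ℝ) (hs : s₁ < s) : iteratedDeriv j (fun t => c * F t + d * G t) s
      = c * iteratedDeriv j F s + d * iteratedDeriv j G s := by
  induction j generalizing s with
  | zero => simp
  | succ j ih =>
    have h1 := ((tw_deriv (l := 0) hF 0 j s hs).const_mul c).add
      ((tw_deriv (l := 0) hG 0 j s hs).const_mul d)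
    rw [iteratedDeriv_succ]
    refine (h1.congr_of_eventuallyEq ?_).deriv
    filter_upwards [Ioi_mem_nhds hs] with t ht
    exact ih t ht

theorem it_conj (j : ℕ) (F : ℝ → ℂ) :
    iteratedDeriv j (fun t => conj (F t)) = fun s => conj (iteratedDeriv j F s) := by
  induction j with
  | zero => simp
  | succ j ih =>
    rw [iteratedDeriv_succ, ih, iteratedDeriv_succ]
    funext s
    exact deriv.star

end MIT

open MIT

variable {β : ℝ} {l : ℕ} {lam : ℂ} {s₁ s₀ : ℝ} {F G : ℝ → ℂ}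

theorem mi_smooth_lin (hF : ContDiffOn ℝ ∞ F (Ioi s₁)) (hG : ContDiffOn ℝ ∞ G (Ioi s₁))
    (c d : ℂ) : ContDiffOn ℝ ∞ (fun t => c * F t + d * G t) (Ioi s₁) :=
  (contDiffOn_const.mul hF).add (contDiffOn_const.mul hG)

theorem mi_deriv_lin (hF : ContDiffOn ℝ ∞ F (Ioi s₁)) (hG : ContDiffOn ℝ ∞ G (Ioi s₁)) (c d : ℂ)
    (s : ℝ) (hs : s₁ < s) :
    deriv (fun t => c * F t + d * G t) s = c * deriv F s + d * deriv G s := by
  simpa using it_lin hF hG c d 1 s hs

theorem mi_free_lin (hF : ContDiffOn ℝ ∞ F (Ioi s₁)) (hG : ContDiffOn ℝ ∞ G (Ioi s₁)) (c d : ℂ)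
    (β : ℝ) (l : ℕ) (lam : ℂ) (s : ℝ) (hs : s₁ < s) :
    FreeF β l lam (fun t => c * F t + d * G t) s
      = c * FreeF β l lam F s + d * FreeF β l lam G s := by
  have h2 := it_lin hF hG c d 2 s hs
  simp only [iteratedDeriv_succ, iteratedDeriv_zero] at h2
  simp only [FreeF, h2, mi_deriv_lin hF hG c d s hs]
  ring

theorem mi_good_lin (hF : ContDiffOn ℝ ∞ F (Ioi s₁)) (hG : ContDiffOn ℝ ∞ G (Ioi s₁))
    (h₁ : 0 ≤ s₁) (h₀ : s₁ ≤ s₀) (gF : Good l s₀ F) (gG : Good l s₀ G) (c d : ℂ) :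
    Good l s₀ (fun t => c * F t + d * G t) := by
  intro k h7 h41
  have hc : ContinuousOn (iteratedDeriv k (fun t => c * F t + d * G t)) (Ioi s₀) :=
    (it_smooth (mi_smooth_lin hF hG c d) k).continuousOn.mono (Ioi_subset_Ioi h₀)
  refine Integrable.mono' (((gF k h7 h41).const_mul (2 * ‖c‖ ^ 2)).add
    ((gG k h7 h41).const_mul (2 * ‖d‖ ^ 2)))
    (((hc.norm.pow 2).mul (continuous_pow _).continuousOn).aestronglyMeasurable
      measurableSet_Ioi) ?_
  refine (ae_restrict_iff' measurableSet_Ioi).2 (Eventually.of_forall fun s hs => ?_)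
  have hs' : s₁ < s := h₀.trans_lt hs
  have hs0 : 0 < s := h₁.trans_lt hs'
  rw [Real.norm_of_nonneg (by positivity), it_lin hF hG c d k s hs']
  have b1 := norm_add_le (c * iteratedDeriv k F s) (d * iteratedDeriv k G s)
  have b2 : ‖c * iteratedDeriv k F s + d * iteratedDeriv k G s‖ ^ 2
      ≤ 2 * ‖c‖ ^ 2 * ‖iteratedDeriv k F s‖ ^ 2 + 2 * ‖d‖ ^ 2 * ‖iteratedDeriv k G s‖ ^ 2 := by
    have := pow_le_pow_left₀ (norm_nonneg _) b1 2
    rw [norm_mul, norm_mul] at this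
    nlinarith [sq_nonneg (‖c‖ * ‖iteratedDeriv k F s‖ - ‖d‖ * ‖iteratedDeriv k G s‖)]
  refine (mul_le_mul_of_nonneg_right b2 (pow_pos hs0 (l + k + 5)).le).trans (le_of_eq ?_)
  simp only [Pi.add_apply]
  ring

theorem mi_free_shift (β : ℝ) (l : ℕ) (lam lam₀ : ℂ) (F : ℝ → ℂ) (s : ℝ) :
    FreeF β l lam F s = FreeF β l lam₀ F s + (lam₀ - lam) * F s := by
  simp only [FreeF]
  ring

theorem mi_deriv_conj (G : ℝ → ℂ) (s : ℝ) :
    deriv (fun t => conj (G t)) s = conj (deriv G s) := deriv.star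

theorem mi_conj (β : ℝ) (l : ℕ) (lam : ℂ) (G : ℝ → ℂ) (s : ℝ) :
    FreeF β l (conj lam) (fun t => conj (G t)) s = conj (FreeG β l lam G s) := by
  have h1 : deriv (fun t => conj (G t)) = fun t => conj (deriv G t) := funext (mi_deriv_conj G)
  simp only [FreeF, FreeG, h1, mi_deriv_conj, map_sub, map_mul, map_add, map_neg, map_div₀,
    Complex.conj_I, Complex.conj_ofReal, map_ofNat, map_natCast]
  ring

theorem mi_smooth_conj (hG : ContDiffOn ℝ ∞ G (Ioi s₁)) :
    ContDiffOn ℝ ∞ (fun t => conj (G t)) (Ioi s₁) :=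
  Complex.conjCLE.contDiff.comp_contDiffOn hG

theorem mi_good_conj (hG : Good l s₀ G) : Good l s₀ (fun t => conj (G t)) := by
  intro k h7 h41
  simpa [it_conj] using hG k h7 h41

theorem mi_good_mono (hG : Good l s₀ G) {s : ℝ} (h : s₀ ≤ s) : Good l s G :=
  fun k h7 h41 => (hG k h7 h41).mono_set (Ioi_subset_Ioi h)

/-- zero data at one point give the zero solution -/
theorem mi_zero (h₁ : 0 ≤ s₁) (h₀ : s₁ < s₀) (hF : ContDiffOn ℝ ∞ F (Ioi s₁))
    (he : ∀ s, s₁ < s → FreeF β l lam F s = 0) (h0 : F s₀ = 0) (h1 : deriv F s₀ = 0)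
    (s : ℝ) (hs : s₁ < s) : F s = 0 := by
  have hz : ContDiffOn ℝ ∞ (0 : ℝ → ℂ) (Ioi s₁) := contDiffOn_const
  have := gron (c := s₁) (w := fun t => (tw l F 0 0 t, tw l F 0 1 t))
    (w' := fun t => (tw l F 0 1 t, tw l F 0 2 t))
    (k := fun t => 1 + (4 * ((l : ℝ) + 6) + t + ‖miA β l lam‖) / (4 * t)) ?_
    (fun t ht => (tw_deriv hF 0 0 t ht).prodMk (tw_deriv hF 0 1 t ht)) ?_ h₀
    (by simp [tw, h0, h1]) s hs
  · simpa [tw] using congrArg Prod.fst this
  · refine continuousOn_const.add (ContinuousOn.div (by fun_prop) (by fun_prop) fun t ht => ?_)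
    have : 0 < t := h₁.trans_lt ht
    positivity
  · intro t ht
    have t0 : 0 < t := h₁.trans_lt ht
    have h := tw_eq hF hz he 0 0 t ht
    rw [tw_zero] at h
    set N := ‖(tw l F 0 0 t, tw l F 0 1 t)‖ with hN
    have n0 : ‖tw l F 0 0 t‖ ≤ N := norm_fst_le (tw l F 0 0 t, tw l F 0 1 t)
    have n1 : ‖tw l F 0 1 t‖ ≤ N := norm_snd_le (tw l F 0 0 t, tw l F 0 1 t)
    have hN0 : 0 ≤ N := norm_nonneg _
    have k0 : 0 ≤ (4 * ((l : ℝ) + 6) + t + ‖miA β l lam‖) / (4 * t) := by positivity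
    have n2 : ‖tw l F 0 2 t‖ ≤ (4 * ((l : ℝ) + 6) + t + ‖miA β l lam‖) / (4 * t) * N := by
      rw [div_mul_eq_mul_div, le_div_iff₀ (by positivity)]
      have e : ((4 * t : ℝ) : ℂ) * tw l F 0 2 t = -(((4 * ((l : ℝ) + 6) : ℝ) : ℂ) * tw l F 0 1 t
          + I * t * tw l F 0 1 t + I * miA β l lam * tw l F 0 0 t) := by
        simp only [Pi.zero_apply] at h
        push_cast at h ⊢
        linear_combination h
      have e2 := congrArg norm e
      rw [norm_mul, Complex.norm_real, Real.norm_of_nonneg (by positivity), norm_neg] at e2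
      have t1 := norm_add₃_le (a := ((4 * ((l : ℝ) + 6) : ℝ) : ℂ) * tw l F 0 1 t)
        (b := I * t * tw l F 0 1 t) (c := I * miA β l lam * tw l F 0 0 t)
      simp only [norm_mul, Complex.norm_I, one_mul, Complex.norm_real] at t1
      rw [Real.norm_of_nonneg t0.le] at t1
      have e3 : ‖(4 : ℝ)‖ * ‖(l : ℝ) + 6‖ = 4 * ((l : ℝ) + 6) := by
        rw [Real.norm_of_nonneg (by positivity), Real.norm_of_nonneg (by positivity)]
      rw [e3] at t1
      have u1 := mul_le_mul_of_nonneg_left n1 (show 0 ≤ 4 * ((l : ℝ) + 6) by positivity)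
      have u2 := mul_le_mul_of_nonneg_left n1 t0.le
      have u3 := mul_le_mul_of_nonneg_left n0 (norm_nonneg (miA β l lam))
      nlinarith
    rw [Prod.norm_mk]
    refine max_le (by nlinarith) (by nlinarith)

namespace MIT

/-- data of the 7th derivative vanish iff the data vanish (`a ≠ 0`) -/
theorem back7 (hσ : 0 ≤ lam.re) (ha : miA β l lam ≠ 0) (h₀ : s₁ < s₀)
    (hF : ContDiffOn ℝ ∞ F (Ioi s₁)) (he : ∀ s, s₁ < s → FreeF β l lam F s = 0) (j : ℕ)
    (h0 : iteratedDeriv j F s₀ = 0) (h1 : iteratedDeriv (j + 1) F s₀ = 0) :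
    F s₀ = 0 ∧ deriv F s₀ = 0 := by
  have hz : ContDiffOn ℝ ∞ (0 : ℝ → ℂ) (Ioi s₁) := contDiffOn_const
  induction j with
  | zero => simpa using And.intro h0 h1
  | succ j ih =>
    refine ih ?_ h0
    have h := tw_eq hF hz he 0 j s₀ h₀
    rw [tw_zero] at h
    simp only [tw, h0, h1, mul_zero, Pi.zero_apply, zero_add, mul_eq_zero, Complex.I_ne_zero,
      false_or] at h
    refine h.resolve_left fun h' => ?_
    rcases Nat.eq_zero_or_pos j with rfl | hj
    · exact ha (by simpa using h')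
    · have := congrArg Complex.re h'
      have hj' : (0 : ℝ) < j := by exact_mod_cast hj
      simp [miA_re] at this
      have : (0 : ℝ) ≤ l := by positivity
      linarith

theorem good7 (hσ : 0 ≤ lam.re) (ha : miA β l lam ≠ 0) (h₁ : 0 ≤ s₁) (h₀ : s₁ < s₀)
    (hF : ContDiffOn ℝ ∞ F (Ioi s₁)) (he : ∀ s, s₁ < s → FreeF β l lam F s = 0)
    (hG : Good l s₀ F) (h0 : iteratedDeriv 7 F s₀ = 0) (s : ℝ) (hs : s₁ < s) : F s = 0 := by
  have hz : ContDiffOn ℝ ∞ (0 : ℝ → ℂ) (Ioi s₁) := contDiffOn_const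
  have h := tw_lv hF hz he h₁ h₀ hG 0 7 (by omega) (by omega)
  rw [tw_zero] at h
  have h1 := h.zero (h₁.trans_lt h₀) (by simp [miA_re]; linarith) h0
  obtain ⟨a0, a1⟩ := back7 hσ ha h₀ hF he 7 h0 h1
  exact mi_zero h₁ h₀ hF he a0 a1 s hs

end MIT

/-- good solutions form a space of dimension at most one -/
theorem mi_uniq (hσ : 0 ≤ lam.re) (ha : miA β l lam ≠ 0) (h₁ : 0 ≤ s₁) (h₀ : s₁ < s₀)
    (hF : ContDiffOn ℝ ∞ F (Ioi s₁)) (hG : ContDiffOn ℝ ∞ G (Ioi s₁))
    (eF : ∀ s, s₁ < s → FreeF β l lam F s = 0) (eG : ∀ s, s₁ < s → FreeF β l lam G s = 0)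
    (gF : Good l s₀ F) (gG : Good l s₀ G) (hne : ∃ s, s₁ < s ∧ G s ≠ 0) :
    ∃ c : ℂ, ∀ s, s₁ < s → F s = c * G s := by
  obtain ⟨t, ht, hne⟩ := hne
  have h7 : iteratedDeriv 7 G s₀ ≠ 0 := fun h => hne (good7 hσ ha h₁ h₀ hG eG gG h t ht)
  refine ⟨iteratedDeriv 7 F s₀ / iteratedDeriv 7 G s₀, fun s hs => ?_⟩
  have := good7 hσ ha h₁ h₀
    (mi_smooth_lin hF hG 1 (-(iteratedDeriv 7 F s₀ / iteratedDeriv 7 G s₀)))
    (fun s hs => by rw [mi_free_lin hF hG _ _ β l lam s hs, eF s hs, eG s hs]; ring)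
    (mi_good_lin hF hG h₁ h₀.le gF gG _ _)
    (by rw [it_lin hF hG _ _ 7 s₀ h₀]; field_simp; ring) s hs
  linear_combination this

end P139
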