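import Vale.Agent.P139.MADefs

/-! P139 part MA: convergence of derivatives `S_dc`. -/

open Complex Set Filter Topology MeasureTheory
open scoped ContDiff ComplexConjugate InnerProductSpace

noncomputable section
namespace P139
namespace Mdc

lemma hd {u : ℝ → ℂ} {a x : ℝ} {n k : ℕ} (h : ContDiffOn ℝ n u (Ioi a)) (hk : k < n)
    (hx : a < x) : HasDerivAt (iteratedDeriv k u) (iteratedDeriv (k + 1) u x) x := by
  have h1 := h.differentiableOn_iteratedDerivWithin (m := k) (by exact_mod_cast hk)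
    isOpen_Ioi.uniqueDiffOn
  have h2 : DifferentiableOn ℝ (iteratedDeriv k u) (Ioi a) :=
    h1.congr fun y hy => (iteratedDerivWithin_of_isOpen isOpen_Ioi hy).symm
  rw [iteratedDeriv_succ]
  exact (h2.differentiableAt (Ioi_mem_nhds hx)).hasDerivAt

lemma cont {u : ℝ → ℂ} {a : ℝ} {n k : ℕ} (h : ContDiffOn ℝ n u (Ioi a)) (hk : k ≤ n) :
    ContinuousOn (iteratedDeriv k u) (Ioi a) :=
  (h.continuousOn_iteratedDerivWithin (m := k) (by exact_mod_cast hk)
    isOpen_Ioi.uniqueDiffOn).congr fun y hy => (iteratedDerivWithin_of_isOpen isOpen_Ioi hy).symm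

lemma landau {f f' f'' : ℝ → ℂ} {s h C : ℝ} (hh : 0 < h)
    (h1 : ∀ x ∈ Icc s (s + h), HasDerivAt f (f' x) x)
    (h2 : ∀ x ∈ Icc s (s + h), HasDerivAt f' (f'' x) x)
    (hb : ∀ x ∈ Icc s (s + h), ‖f'' x‖ ≤ C) :
    ‖f' s‖ ≤ (‖f (s + h)‖ + ‖f s‖) / h + C * h := by
  have hC : 0 ≤ C := (norm_nonneg _).trans (hb s ⟨le_rfl, by linarith⟩)
  have e1 := norm_image_sub_le_of_norm_deriv_le_segment'
    (fun x hx => (h2 x hx).hasDerivWithinAt) fun x hx => hb x (Ico_subset_Icc_self hx)
  have d : ∀ x ∈ Icc s (s + h),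
      HasDerivWithinAt (fun x : ℝ => f x - x • f' s) (f' x - f' s) (Icc s (s + h)) x := by
    intro x hx
    have := (h1 x hx).sub ((hasDerivAt_id x).smul_const (f' s))
    rw [one_smul] at this
    exact this.hasDerivWithinAt
  have e2 := norm_image_sub_le_of_norm_deriv_le_segment' (C := C * h) d
    (fun x hx => (e1 x (Ico_subset_Icc_self hx)).trans
      (mul_le_mul_of_nonneg_left (by linarith [hx.2]) hC)) (s + h) ⟨by linarith, le_rfl⟩
  have e3 : h • f' s = f (s + h) - f s - (f (s + h) - (s + h) • f' s - (f s - s • f' s)) := by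
    rw [add_smul]; abel
  have e4 : h * ‖f' s‖ ≤ ‖f (s + h)‖ + ‖f s‖ + C * h * (s + h - s) := by
    have : ‖h • f' s‖ = h * ‖f' s‖ := by rw [norm_smul, Real.norm_eq_abs, abs_of_pos hh]
    rw [← this, e3]
    exact (norm_sub_le _ _).trans (add_le_add (norm_sub_le _ _) e2)
  rw [div_add' _ _ _ hh.ne', le_div_iff₀ hh]
  nlinarith

end Mdc

open Mdc in
theorem s_dc : S_dc := by
  intro a K u v hu hv hB h0 k
  induction k with
  | zero => intro _ s hs; simpa using h0 s hs
  | succ k ih =>
    intro hk s hs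
    have ih := ih (by omega)
    obtain ⟨C₁, hC₁⟩ := hB (k + 2) (by omega) s (s + 1) hs
    obtain ⟨C₂, hC₂⟩ := (isCompact_Icc (a := s) (b := s + 1)).exists_bound_of_continuousOn
      ((cont hv (k := k + 2) (by omega)).mono fun x hx => lt_of_lt_of_le hs hx.1)
    rw [tendsto_iff_norm_sub_tendsto_zero]
    refine (tendsto_order.2 ⟨fun b hb => Eventually.of_forall fun j =>
      hb.trans_le (norm_nonneg _), fun ε hε => ?_⟩)
    set C := |C₁| + |C₂| + 1 with hC
    have hC0 : 0 < C := by positivity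
    set h := min 1 (ε / (2 * C)) with hh
    have hh0 : 0 < h := lt_min one_pos (by positivity)
    have hh1 : h ≤ 1 := min_le_left _ _
    have hh2 : C * h ≤ ε / 2 := by
      have : h ≤ ε / (2 * C) := min_le_right _ _
      rw [le_div_iff₀ (by positivity)] at this
      linarith
    have t1 := tendsto_iff_norm_sub_tendsto_zero.1 (ih (s + h) (by linarith))
    have t2 := tendsto_iff_norm_sub_tendsto_zero.1 (ih s hs)
    have t3 := (t1.add t2).div_const h
    rw [add_zero, zero_div] at t3
    filter_upwards [hC₁, t3.eventually (gt_mem_nhds (half_pos hε))] with j hj1 hj2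
    have key := landau (f := fun x => iteratedDeriv k (u j) x - iteratedDeriv k v x)
      (f' := fun x => iteratedDeriv (k + 1) (u j) x - iteratedDeriv (k + 1) v x)
      (f'' := fun x => iteratedDeriv (k + 2) (u j) x - iteratedDeriv (k + 2) v x)
      (s := s) (C := C) hh0
      (fun x hx => (hd (hu j) (by omega) (lt_of_lt_of_le hs hx.1)).sub
        (hd hv (by omega) (lt_of_lt_of_le hs hx.1)))
      (fun x hx => (hd (hu j) (by omega) (lt_of_lt_of_le hs hx.1)).sub
        (hd hv (by omega) (lt_of_lt_of_le hs hx.1)))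
      (fun x hx => by
        have hx' : x ∈ Icc s (s + 1) := ⟨hx.1, by linarith [hx.2]⟩
        have := norm_sub_le (iteratedDeriv (k + 2) (u j) x) (iteratedDeriv (k + 2) v x)
        linarith [hj1 x hx', hC₂ x hx', le_abs_self C₁, le_abs_self C₂])
    linarith

end P139
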