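import Vale.Agent.P139.MDefs

/-! P139 part M: the potentials are small symbols outside the ball. -/

open Complex Set Filter Topology MeasureTheory
open scoped ContDiff ComplexConjugate

noncomputable section
namespace P139

namespace Mext

/-- geometric bounds for the derivatives up to order `K` at the point `s` -/
def G (K : ℕ) (f : ℝ → ℂ) (s a ρ : ℝ) : Prop :=
  ContDiffAt ℝ K f s ∧ ∀ c ≤ K, ‖iteratedDeriv c f s‖ ≤ a * ρ ^ c

variable {K : ℕ} {f g : ℝ → ℂ} {s a a' ρ ρ' : ℝ}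

theorem G.mul (hf : G K f s a ρ) (hg : G K g s a' ρ') :
    G K (fun x => f x * g x) s (a * a') (ρ + ρ') := by
  refine ⟨hf.1.mul hg.1, fun c hc => ?_⟩
  have hc' : (c : WithTop ℕ∞) ≤ K := by exact_mod_cast hc
  rw [iteratedDeriv_fun_mul (hf.1.of_le hc') (hg.1.of_le hc'), add_pow, Finset.mul_sum]
  refine (norm_sum_le _ _).trans (Finset.sum_le_sum fun i hi => ?_)
  have hi' : i ≤ c := Nat.lt_succ_iff.1 (Finset.mem_range.1 hi)
  have h1 := hf.2 i (hi'.trans hc)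
  have h2 := hg.2 (c - i) ((Nat.sub_le _ _).trans hc)
  rw [norm_mul, norm_mul, norm_natCast]
  calc _ ≤ (c.choose i : ℝ) * (a * ρ ^ i) * (a' * ρ' ^ (c - i)) :=
        mul_le_mul (mul_le_mul_of_nonneg_left h1 (Nat.cast_nonneg _)) h2 (norm_nonneg _)
          (mul_nonneg (Nat.cast_nonneg _) ((norm_nonneg _).trans h1))
    _ = _ := by ring

theorem G.pow (hf : G K f s a ρ) (p : ℕ) : G K (fun x => f x ^ p) s (a ^ p) (p * ρ) := by
  induction p with
  | zero =>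
    simp only [pow_zero, Nat.cast_zero, zero_mul]
    refine ⟨contDiffAt_const, fun c _ => ?_⟩
    rw [iteratedDeriv_const]
    rcases c with _ | c <;> simp
  | succ p ih =>
    have h := ih.mul hf
    simp only [← pow_succ] at h
    rw [Nat.cast_succ, add_mul, one_mul]
    exact h

theorem iter_conj (f : ℝ → ℂ) (c : ℕ) :
    (iteratedDeriv c fun x => conj (f x)) = fun x => conj (iteratedDeriv c f x) := by
  induction c with
  | zero => simp only [iteratedDeriv_zero]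
  | succ c ih =>
    rw [iteratedDeriv_succ, ih, iteratedDeriv_succ]
    exact deriv.star'

theorem G.cj (hf : G K f s a ρ) : G K (fun x => conj (f x)) s a ρ :=
  ⟨conjCLE.contDiff.contDiffAt.comp s hf.1, fun c hc => by
    rw [iter_conj, norm_conj]
    exact hf.2 c hc⟩

theorem final {m : ℕ} (hm : 1 ≤ m) {θ B ε : ℝ} (hθ : 0 ≤ θ) (hB : 1 ≤ B) (hs : 0 < s) {c : ℂ}
    (hc : ‖c‖ ≤ 2 * m) (hε : 2 * (2 * B) ^ K * ((m : ℝ) ^ (K + 1) * (θ ^ 2) ^ m) ≤ ε)
    (hf : G K f s ((θ * s ^ (-gam m)) ^ (2 * m)) (2 * m * (B / s))) {i : ℕ} (hi : i ≤ K) :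
    ‖iteratedDeriv i (fun x => c * f x) s‖ ≤ ε * s ^ (-1 - (i : ℝ)) := by
  have hm' : (1 : ℝ) ≤ m := by exact_mod_cast hm
  have h1 : (s ^ (-gam m)) ^ (2 * m) = s⁻¹ := by
    rw [← Real.rpow_natCast, ← Real.rpow_mul hs.le, ← Real.rpow_neg_one, gam]
    refine congrArg _ ?_
    push_cast
    field_simp
  have h2 : s ^ (-1 - (i : ℝ)) = s⁻¹ * s⁻¹ ^ i := by
    rw [sub_eq_add_neg, Real.rpow_add hs, Real.rpow_neg_one, Real.rpow_neg hs.le,
      Real.rpow_natCast, inv_pow]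
  have h3 : (2 * m * B) ^ i ≤ (2 * m * B) ^ K := pow_le_pow_right₀ (by nlinarith) hi
  rw [iteratedDeriv_const_mul_field, norm_mul, h2]
  calc _ ≤ 2 * m * ((θ * s ^ (-gam m)) ^ (2 * m) * (2 * m * (B / s)) ^ i) :=
        mul_le_mul hc (hf.2 i hi) (norm_nonneg _) (by positivity)
    _ = 2 * m * (θ ^ 2) ^ m * (2 * m * B) ^ i * (s⁻¹ * s⁻¹ ^ i) := by
        rw [mul_pow θ, h1, pow_mul, div_eq_mul_inv, ← mul_assoc (2 * (m : ℝ)) B, mul_pow _ s⁻¹]
        ring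
    _ ≤ 2 * m * (θ ^ 2) ^ m * (2 * m * B) ^ K * (s⁻¹ * s⁻¹ ^ i) := by gcongr
    _ = 2 * (2 * B) ^ K * ((m : ℝ) ^ (K + 1) * (θ ^ 2) ^ m) * (s⁻¹ * s⁻¹ ^ i) := by
        rw [mul_right_comm 2 (m : ℝ) B, mul_pow (2 * B)]
        ring
    _ ≤ _ := by gcongr

end Mext

open Mext in
theorem s_ext : S_ext := by
  intro D L δ hδ K ε hε
  obtain ⟨θ₀, hθ₀, h0⟩ := L.ext_lt δ hδ
  choose C hC using L.ext_symb δ hδ
  obtain ⟨θ, hθ1, hθ2, hθ3⟩ : ∃ θ : ℝ, θ < 1 ∧ 1 / 2 ≤ θ ∧ θ₀ ≤ θ :=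
    ⟨max θ₀ (1 / 2), max_lt hθ₀ (by norm_num), le_max_right _ _, le_max_left _ _⟩
  obtain ⟨B, hB1, hB2⟩ : ∃ B : ℝ, 1 ≤ B ∧ ∀ k ≤ K, 2 * C k ≤ B := by
    refine ⟨1 + ∑ k ∈ Finset.range (K + 1), |2 * C k|, le_add_of_nonneg_right
      (Finset.sum_nonneg fun _ _ => abs_nonneg _), fun k hk => ?_⟩
    have h1 := Finset.single_le_sum (f := fun k => |2 * C k|) (fun _ _ => abs_nonneg _)
      (Finset.mem_range.2 (Nat.lt_succ_of_le hk))
    linarith [le_abs_self (2 * C k)]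
  have h1 : Tendsto (fun m : ℕ => 2 * (2 * B) ^ K * ((m : ℝ) ^ (K + 1) * (θ ^ 2) ^ m)) atTop
      (𝓝 0) := by
    have h := (tendsto_pow_const_mul_const_pow_of_abs_lt_one (K + 1) (r := θ ^ 2) (by
      rw [abs_of_nonneg (sq_nonneg _)]; nlinarith)).const_mul (2 * (2 * B) ^ K)
    rwa [mul_zero] at h
  have h2 := (h1.comp L.m_lim).eventually (ge_mem_nhds hε)
  have h3 := (eventually_all_finset (Finset.range (K + 1))).2 fun k _ => hC k
  filter_upwards [h0, h2, h3] with j j0 j2 j3 i hi s hs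
  have hs0 : 0 < s := lt_of_lt_of_le (pow_pos (add_pos L.R_pos hδ) 2) hs
  have hm := L.m_pos j
  have hg : 0 < s ^ (-gam (L.m j)) := Real.rpow_pos_of_pos hs0 _
  have hΘ : G K (L.P j).Θ s (θ * s ^ (-gam (L.m j))) (B / s) := by
    refine ⟨((L.P j).smooth.contDiffAt (Ioi_mem_nhds (lt_trans (neg_lt_zero.2 (L.P j).hε)
      hs0))).of_le (by exact_mod_cast le_top), fun c hc => ?_⟩
    rcases c with _ | c
    · rw [iteratedDeriv_zero, pow_zero, mul_one, Real.rpow_neg hs0.le, ← div_eq_mul_inv,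
        le_div_iff₀' (Real.rpow_pos_of_pos hs0 _)]
      exact (j0 s hs).trans hθ3
    · refine (j3 (c + 1) (Finset.mem_range.2 (Nat.lt_succ_of_le hc)) s hs).trans ?_
      have h4 : B ≤ B ^ (c + 1) := le_self_pow₀ hB1 (Nat.succ_ne_zero c)
      have h5 : C (c + 1) ≤ θ * B ^ (c + 1) := by nlinarith [hB2 (c + 1) hc]
      rw [sub_eq_add_neg, Real.rpow_add hs0, Real.rpow_neg hs0.le ((c + 1 : ℕ) : ℝ),
        Real.rpow_natCast, div_pow, div_eq_mul_inv]
      calc _ ≤ θ * B ^ (c + 1) * (s ^ (-gam (L.m j)) * (s ^ (c + 1))⁻¹) := by gcongr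
        _ = _ := by ring
  have hm' : (1 : ℝ) ≤ L.m j := by exact_mod_cast hm
  have hN := hΘ.mul hΘ.cj
  constructor
  · refine final hm (by linarith) hB1 hs0 (f := fun x => ((L.P j).Θ x * conj ((L.P j).Θ x)) ^ L.m j)
      ?_ j2 ?_ hi
    · refine (norm_add_le _ _).trans ?_
      rw [norm_natCast, norm_one]
      linarith
    · have h4 := hN.pow (L.m j)
      rwa [← pow_two, ← pow_mul, ← two_mul, ← mul_assoc, mul_comm (L.m j : ℝ) 2] at h4
  · have e : (L.P j).V2s = fun x => (L.m j : ℂ) *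
        (((L.P j).Θ x * conj ((L.P j).Θ x)) ^ (L.m j - 1) * (L.P j).Θ x ^ 2) :=
      funext fun x => mul_assoc _ _ _
    rw [e]
    refine final hm (by linarith) hB1 hs0 ?_ j2 ?_ hi
    · rw [norm_natCast]
      linarith
    · have h4 := (hN.pow (L.m j - 1)).mul (hΘ.pow 2)
      rw [← pow_two, ← pow_mul, ← pow_add, show 2 * (L.m j - 1) + 2 = 2 * L.m j by omega,
        Nat.cast_sub hm] at h4
      refine (congrArg _ ?_).mp h4
      push_cast
      ring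

end P139
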