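import Vale.Agent.P139.PADefs

/-! P139 part PA: flux, the bound `K ≤ r²`, energy, fact (i). -/

open Set Filter Topology

noncomputable section
namespace P139
namespace RS

variable {m : ℕ} {β g : ℝ} {ρ P J K : ℝ → ℝ}

theorem dflux (h : RS m β g ρ P J K) {r : ℝ} (hr : 0 < r) :
    HasDerivAt (fun t => t ^ 11 * (J t + t * ρ t / 4)) ((3 - g) * r ^ 11 * ρ r) r := by
  refine ((hasDerivAt_pow 11 r).mul ((h.dJ r hr).add
    (((hasDerivAt_id' r).mul (h.dρ r)).div_const 4))).congr_deriv ?_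
  simp only [Pi.add_apply, Pi.mul_apply]
  field_simp
  ring

theorem J_low (h : RS m β g ρ P J K) (hg : g ≤ 1) {r : ℝ} (hr : 0 ≤ r) : -(r * ρ r / 4) ≤ J r := by
  rcases eq_or_lt_of_le hr with h0 | h0
  · rw [← h0, h.J0]; simp
  have c1 := h.cρ
  have c2 := h.cJ
  have h1 := pa_mono (f := fun t => t ^ 11 * (J t + t * ρ t / 4))
    (f' := fun t => (3 - g) * t ^ 11 * ρ t) hr (by fun_prop) (fun x hx => h.dflux hx.1)
    (fun x hx => by
      have := h.ρnn x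
      have := hx.1
      have : 0 ≤ 3 - g := by linarith
      positivity)
  simp only [ne_eq, OfNat.ofNat_ne_zero, not_false_eq_true, zero_pow, zero_mul] at h1
  have h2 := (mul_nonneg_iff_of_pos_left (pow_pos h0 11)).1 h1
  linarith

theorem J_up (h : RS m β g ρ P J K) (hg0 : 0 ≤ g) {η r : ℝ} (hr : 0 ≤ r)
    (hρ : ∀ t ∈ Icc 0 r, |ρ t - 1| ≤ η) : J r ≤ η * r / 2 := by
  rcases eq_or_lt_of_le hr with h0 | h0
  · rw [← h0, h.J0]; simp
  have c1 := h.cρ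
  have c2 := h.cJ
  have h1 := pa_anti (f := fun t => t ^ 11 * (J t + t * ρ t / 4) - (1 + η) * t ^ 12 / 4)
    (f' := fun t => (3 - g) * t ^ 11 * ρ t - (1 + η) * (12 * t ^ 11) / 4) hr (by fun_prop)
    (fun x hx => (h.dflux hx.1).sub (by
      simpa using ((hasDerivAt_pow 12 x).const_mul (1 + η)).div_const 4))
    (fun x hx => by
      have h2 := h.ρnn x
      have h3 := (abs_le.1 (hρ x ⟨hx.1.le, hx.2.le⟩)).2
      have h4 : 0 < x ^ 11 := pow_pos hx.1 11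
      have h5 : (3 - g) * ρ x ≤ 3 * (1 + η) := by nlinarith
      nlinarith)
  simp only [ne_eq, OfNat.ofNat_ne_zero, not_false_eq_true, zero_pow, zero_mul, mul_zero,
    zero_div, sub_zero] at h1
  have h3 := (abs_le.1 (hρ r ⟨hr, le_rfl⟩)).1
  have h4 : 0 < r ^ 11 := pow_pos h0 11
  have h5 : r ^ 11 * (J r + r * ρ r / 4 - (1 + η) * r / 4) ≤ 0 := by
    have : r ^ 12 = r ^ 11 * r := by ring
    rw [this] at h1; linarith
  have h6 : J r + r * ρ r / 4 - (1 + η) * r / 4 ≤ 0 := by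
    by_contra hc
    exact absurd h5 (not_le.2 (mul_pos h4 (not_le.1 hc)))
  nlinarith

theorem J_low2 (h : RS m β g ρ P J K) (hg0 : 0 ≤ g) (hg : g ≤ 1) {η r : ℝ} (hr : 0 ≤ r)
    (hρ : ∀ t ∈ Icc 0 r, |ρ t - 1| ≤ η) : -((η + g) * r) ≤ J r := by
  rcases eq_or_lt_of_le hr with h0 | h0
  · rw [← h0, h.J0]; simp
  have c1 := h.cρ
  have c2 := h.cJ
  have hη : 0 ≤ η := (abs_nonneg _).trans (hρ r ⟨hr, le_rfl⟩)
  have h1 := pa_mono (f := fun t => t ^ 11 * (J t + t * ρ t / 4) - (3 - g) * (1 - η) * t ^ 12 / 12)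
    (f' := fun t => (3 - g) * t ^ 11 * ρ t - (3 - g) * (1 - η) * (12 * t ^ 11) / 12) hr
    (by fun_prop)
    (fun x hx => (h.dflux hx.1).sub (by
      simpa using ((hasDerivAt_pow 12 x).const_mul ((3 - g) * (1 - η))).div_const 12))
    (fun x hx => by
      have h3 := (abs_le.1 (hρ x ⟨hx.1.le, hx.2.le⟩)).1
      have h4 : 0 < x ^ 11 := pow_pos hx.1 11
      have h5 : 0 ≤ (3 - g) * x ^ 11 * (ρ x - (1 - η)) :=
        mul_nonneg (mul_nonneg (by linarith) h4.le) (by linarith)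
      nlinarith)
  simp only [ne_eq, OfNat.ofNat_ne_zero, not_false_eq_true, zero_pow, zero_mul, mul_zero,
    zero_div, sub_zero] at h1
  have h3 := (abs_le.1 (hρ r ⟨hr, le_rfl⟩)).2
  have h4 : 0 < r ^ 11 := pow_pos h0 11
  have h5 : 0 ≤ r ^ 11 * (J r + r * ρ r / 4 - (3 - g) * (1 - η) * r / 12) := by
    have : r ^ 12 = r ^ 11 * r := by ring
    rw [this] at h1; linarith
  have h6 := (mul_nonneg_iff_of_pos_left h4).1 h5
  have h7 : r * ρ r ≤ r * (1 + η) := mul_le_mul_of_nonneg_left (by linarith) hr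
  have h8 : 0 ≤ g * η * r := by positivity
  have h9 : 0 ≤ η * r := by positivity
  have h10 : 0 ≤ g * r := by positivity
  nlinarith

theorem K_le (h : RS m β g ρ P J K) (hβ : β ∈ Icc (3 / 10 : ℝ) (4 / 10)) (hg0 : 0 ≤ g)
    (hg : g ≤ 1) {r : ℝ} (hr : 0 ≤ r) (hρ : ∀ t ∈ Icc 0 r, ρ t ≤ 4) : K r ≤ r ^ 2 := by
  rcases eq_or_lt_of_le hr with h0 | h0
  · rw [← h0, h.K0]; simp
  have c1 := h.cK
  have h1 := pa_anti (f := fun t => t ^ 15 * K t - t ^ 17)
    (f' := fun t => 15 * t ^ 14 * K t + t ^ 15 * (2 * (min (ρ t ^ m) 3 - β) * P t - 2 * g * J t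
      - 22 * K t / t) - 17 * t ^ 16) hr (by fun_prop)
    (fun x hx => (((hasDerivAt_pow 15 x).mul (h.dK x hx.1)).sub (hasDerivAt_pow 17 x)).congr_deriv
      (by norm_num))
    (fun x hx => by
      have hx0 := hx.1
      have h2 := hρ x ⟨hx.1.le, hx.2.le⟩
      have h3 := h.alg x
      have h4 := h.Knn x
      have h5 : 0 ≤ min (ρ x ^ m) 3 := le_min (pow_nonneg (h.ρnn x) m) (by norm_num)
      have h6 : min (ρ x ^ m) 3 ≤ 3 := min_le_right _ _
      generalize min (ρ x ^ m) 3 = N at h5 h6 ⊢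
      have h7 : P x ^ 2 + J x ^ 2 ≤ 4 * K x := by nlinarith
      have h8 : (N - β) ^ 2 ≤ 8 := by nlinarith [hβ.1, hβ.2]
      have h9 : g ^ 2 ≤ 1 := by nlinarith
      -- x (2 (N-β) P - 2 g J) ≤ 7 K + 17 x²
      have h10 : x * (2 * (N - β) * P x - 2 * g * J x) ≤ 7 * K x + 17 * x ^ 2 := by
        nlinarith [sq_nonneg (x * (N - β) - P x), sq_nonneg (x * g + J x), sq_nonneg x,
          mul_le_mul_of_nonneg_left h8 (sq_nonneg x), mul_le_mul_of_nonneg_left h9 (sq_nonneg x)]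
      have h11 : 15 * x ^ 14 * K x + x ^ 15 * (2 * (N - β) * P x - 2 * g * J x
          - 22 * K x / x) - 17 * x ^ 16 = x ^ 14 * (x * (2 * (N - β) * P x - 2 * g * J x)
            - (7 * K x + 17 * x ^ 2)) := by
        field_simp; ring
      rw [h11]
      exact mul_nonpos_of_nonneg_of_nonpos (pow_nonneg hx0.le 14) (by linarith))
  simp only [ne_eq, OfNat.ofNat_ne_zero, not_false_eq_true, zero_pow, zero_mul, sub_zero] at h1
  have h4 : 0 < r ^ 15 := pow_pos h0 15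
  have h5 : r ^ 15 * (K r - r ^ 2) ≤ 0 := by
    have : r ^ 17 = r ^ 15 * r ^ 2 := by ring
    rw [this] at h1; linarith
  by_contra hc
  exact absurd h5 (not_le.2 (mul_pos h4 (by linarith [not_le.1 hc])))

/-- modified energy -/
def En (m : ℕ) (β g : ℝ) (ρ K : ℝ → ℝ) (t : ℝ) : ℝ :=
  K t + β * ρ t - ρ t ^ (m + 1) / (m + 1) - g * t ^ 2 / 2

theorem cEn (h : RS m β g ρ P J K) : Continuous (En m β g ρ K) := by
  have c1 := h.cρ
  have c2 := h.cK
  unfold En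
  fun_prop

theorem dEn (h : RS m β g ρ P J K) {r : ℝ} (hr : 0 < r) (hN : ρ r ^ m ≤ 3) :
    HasDerivAt (En m β g ρ K) (-2 * g * J r - 22 * K r / r - g * r) r := by
  have h1 := ((((h.dK r hr).add ((h.dρ r).const_mul β)).sub
    (((h.dρ r).pow (m + 1)).div_const ((m : ℝ) + 1))).sub
    (((hasDerivAt_pow 2 r).const_mul g).div_const 2))
  refine h1.congr_deriv ?_
  rw [min_eq_left hN]
  have : (m : ℝ) + 1 ≠ 0 := by positivity
  simp only [Nat.add_sub_cancel]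
  push_cast
  field_simp
  ring

/-- energy decay with a gain `φ` -/
theorem En_anti (h : RS m β g ρ P J K) (hg0 : 0 ≤ g) (hg : g ≤ 1) {a b : ℝ} (ha : 0 ≤ a)
    (hab : a ≤ b) (hN : ∀ t ∈ Ioo a b, ρ t ^ m ≤ 3 ∧ ρ t ≤ 2) {φ φ' : ℝ → ℝ}
    (hφ : ∀ t, HasDerivAt φ (φ' t) t) (hφ' : ∀ t ∈ Ioo a b, φ' t ≤ 22 * K t / t) :
    En m β g ρ K b + φ b ≤ En m β g ρ K a + φ a := by
  have c1 := h.cEn
  have c2 : Continuous φ := continuous_iff_continuousAt.2 fun r => (hφ r).continuousAt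
  refine pa_anti (f := fun t => En m β g ρ K t + φ t)
    (f' := fun t => (-2 * g * J t - 22 * K t / t - g * t) + φ' t) hab (by fun_prop)
    (fun x hx => (h.dEn (ha.trans_lt hx.1) (hN x hx).1).add (hφ x)) (fun x hx => ?_)
  have hx0 : 0 < x := ha.trans_lt hx.1
  have h1 := h.J_low hg hx0.le
  have h2 := hφ' x hx
  have h3 : x * ρ x ≤ x * 2 := mul_le_mul_of_nonneg_left (hN x hx).2 hx0.le
  have h4 : g * (-(J x)) ≤ g * (x / 2) := mul_le_mul_of_nonneg_left (by linarith) hg0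
  nlinarith

theorem En_anti0 (h : RS m β g ρ P J K) (hg0 : 0 ≤ g) (hg : g ≤ 1) {a b : ℝ} (ha : 0 ≤ a)
    (hab : a ≤ b) (hN : ∀ t ∈ Ioo a b, ρ t ^ m ≤ 3 ∧ ρ t ≤ 2) :
    En m β g ρ K b ≤ En m β g ρ K a := by
  have := h.En_anti hg0 hg ha hab hN (φ := fun _ => 0) (φ' := fun _ => 0)
    (fun t => hasDerivAt_const t 0) (fun t ht => by
      have := h.Knn t
      have : 0 < t := ha.trans_lt ht.1
      positivity)
  simpa using this

/-- smallness of `K` from the energy -/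
theorem K_small (h : RS m β g ρ P J K) (hβ : β ∈ Icc (3 / 10 : ℝ) (4 / 10)) (hg0 : 0 ≤ g)
    (hg : g ≤ 1) {η r : ℝ} (hr : 0 ≤ r) (hη : η ≤ 1) (hρ : ∀ t ∈ Icc 0 r, |ρ t - 1| ≤ η)
    (hN : ∀ t ∈ Icc 0 r, ρ t ^ m ≤ 2) : K r ≤ η + 4 / ((m : ℝ) + 1) + g * r ^ 2 / 2 := by
  have h1 := h.En_anti0 hg0 hg le_rfl hr (fun t ht => by
    have h2 := hN t ⟨ht.1.le, ht.2.le⟩
    have h3 := (abs_le.1 (hρ t ⟨ht.1.le, ht.2.le⟩)).2
    exact ⟨by linarith, by linarith⟩)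
  unfold En at h1
  rw [h.K0] at h1
  have hm : (0 : ℝ) < (m : ℝ) + 1 := by positivity
  have h2 : 0 ≤ ρ 0 ^ (m + 1) / ((m : ℝ) + 1) := div_nonneg (pow_nonneg (h.ρnn 0) _) hm.le
  have h3 := abs_le.1 (hρ r ⟨hr, le_rfl⟩)
  have h4 := abs_le.1 (hρ 0 ⟨le_rfl, hr⟩)
  have h5 : ρ r ^ (m + 1) / ((m : ℝ) + 1) ≤ 4 / ((m : ℝ) + 1) := by
    apply div_le_div_of_nonneg_right _ hm.le
    rw [pow_succ]
    have h6 := hN r ⟨hr, le_rfl⟩
    have h7 := h.ρnn r
    have h8 := pow_nonneg h7 m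
    nlinarith
  have h6 : β * (ρ 0 - ρ r) ≤ η := by nlinarith [hβ.1, hβ.2]
  nlinarith

theorem dy (h : RS m β g ρ P J K) {r : ℝ} (hr : 0 < r) :
    HasDerivAt (fun t => t ^ 11 * P t)
      (r ^ 11 * (K r + (min (ρ r ^ m) 3 - β) * ρ r + r * J r / 2)) r := by
  refine ((hasDerivAt_pow 11 r).mul (h.dP r hr)).congr_deriv ?_
  field_simp
  push_cast
  ring

theorem amgm (h : RS m β g ρ P J K) (r : ℝ) : 0 ≤ K r + r * J r / 2 + r ^ 2 * ρ r / 16 := by
  have h1 := h.alg r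
  have h2 := h.Knn r
  rcases eq_or_lt_of_le (h.ρnn r) with h0 | h0
  · rw [← h0] at h1 ⊢
    have : J r = 0 := by nlinarith [sq_nonneg (P r), sq_nonneg (J r)]
    rw [this]; simpa using h2
  · have h3 : 0 ≤ ρ r * (K r + r * J r / 2 + r ^ 2 * ρ r / 16) := by
      nlinarith [sq_nonneg (P r), sq_nonneg (J r + r * ρ r / 4)]
    exact (mul_nonneg_iff_of_pos_left h0).1 h3

/-- fact (i) -/
theorem escape (h : RS m β g ρ P J K) (hβ : β ∈ Icc (3 / 10 : ℝ) (4 / 10)) {a b : ℝ} (ha : 0 ≤ a)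
    (hab : a ≤ b) (hb : b ≤ 4) (hN : 2 ≤ ρ a ^ m) (hP : 0 ≤ P a) : 3 / 2 < ρ b ^ m := by
  have c1 := h.cρ
  have c2 := h.cP
  have key := pa_boot (g := fun t => -(ρ t ^ m)) (a := a) (b := b) (x := -(3 / 2)) (by fun_prop)
    (by linarith) (fun c hc hH => by
      have hPt : ∀ t ∈ Icc a c, 0 ≤ P t := by
        intro t ht
        rcases eq_or_lt_of_le ht.1 with h0 | h0
        · rw [← h0]; exact hP
        have h1 := pa_mono (f := fun t => t ^ 11 * P t)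
          (f' := fun r => r ^ 11 * (K r + (min (ρ r ^ m) 3 - β) * ρ r + r * J r / 2)) ht.1
          (by fun_prop) (fun x hx => h.dy (ha.trans_lt hx.1)) (fun x hx => by
            have hx0 : 0 < x := ha.trans_lt hx.1
            have hx4 : x ≤ 4 := by linarith [hx.2, ht.2, hc.2]
            have h2 := hH x ⟨hx.1.le, hx.2.le.trans ht.2⟩
            have h3 : 3 / 2 ≤ min (ρ x ^ m) 3 := le_min (by linarith) (by norm_num)
            generalize min (ρ x ^ m) 3 = N at h3 ⊢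
            have h4 := h.amgm x
            have h5 := h.ρnn x
            have h6 : x ^ 2 ≤ 16 := by nlinarith
            have h7 : 0 ≤ (N - β - x ^ 2 / 16) * ρ x :=
              mul_nonneg (by linarith [hβ.2]) h5
            exact mul_nonneg (pow_nonneg hx0.le 11) (by nlinarith))
        have h2 : 0 ≤ a ^ 11 * P a := mul_nonneg (pow_nonneg ha 11) hP
        exact (mul_nonneg_iff_of_pos_left (pow_pos (ha.trans_lt h0) 11)).1 (h2.trans h1)
      have h1 : ρ a ≤ ρ c := pa_mono (f' := fun t => 2 * P t) hc.1 (by fun_prop)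
        (fun x _ => h.dρ x) (fun x hx => by have := hPt x ⟨hx.1.le, hx.2.le⟩; linarith)
      have h2 : ρ a ^ m ≤ ρ c ^ m := pow_le_pow_left₀ (h.ρnn a) h1 m
      linarith)
  have := key b ⟨hab, le_rfl⟩
  linarith

end RS
end P139
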