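import Vale.Agent.P139.PA1

/-! P139 part PA: facts (iii), (iv), (v). -/

open Set Filter Topology

noncomputable section
namespace P139

theorem pa_alg3a {e x ρ P J K : ℝ} (he0 : 0 < e) (he1 : e ≤ 1 / 1000) (hx0 : 0 < x) (hx4 : x ≤ 4)
    (hr1 : -(9 * e) ≤ ρ - 1) (hr2 : ρ - 1 ≤ 9 * e) (hpos : 0 < P) (hJ1 : J ≤ 10 * e * x)
    (hJ2 : -(10 * e * x) ≤ J) (hKn : 0 ≤ K) (hK : K ≤ x ^ 2) (halg : ρ * K = P ^ 2 + J ^ 2) :
    K / x ≤ 4 * P + 800 * e ^ 2 := by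
  have hJsq : J ^ 2 ≤ (10 * e * x) ^ 2 := sq_le_sq' hJ2 hJ1
  have h0 : ρ * K ≤ 4 * K := mul_le_mul_of_nonneg_right (by linarith) hKn
  have hP2 : P ≤ 2 * x := by
    have : P ^ 2 ≤ (2 * x) ^ 2 := by linarith [sq_nonneg J, mul_pow 2 x 2]
    exact le_of_sq_le_sq this (by linarith)
  have h00 : 1 / 2 * K ≤ ρ * K := mul_le_mul_of_nonneg_right (by linarith) hKn
  rw [div_le_iff₀ hx0]
  have h1 : P * P ≤ P * (2 * x) := mul_le_mul_of_nonneg_left hP2 hpos.le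
  have h2 : 100 * e ^ 2 * x * x ≤ 100 * e ^ 2 * x * 4 :=
    mul_le_mul_of_nonneg_left hx4 (by positivity)
  nlinarith

theorem pa_alg3 {M e β g x ρ N P J K : ℝ} (hM : 1000 ≤ M) (he0 : 0 < e) (he1 : e ≤ 1 / 1000)
    (hme : M * e = 1) (hβ : β ≤ 4 / 10) (hg0 : 0 ≤ g) (hg : g ≤ e) (hx0 : 0 < x) (hx4 : x ≤ 4)
    (hr1 : -(9 * e) ≤ ρ - 1) (hr2 : ρ - 1 ≤ 9 * e) (hN1 : 1 / 10 ≤ N) (hpos : 0 < P)
    (hJ1 : J ≤ 9 * e * x / 2) (hJ2 : -((9 * e + g) * x) ≤ J) (hKn : 0 ≤ K) (hK : K ≤ x ^ 2)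
    (halg : ρ * K = P ^ 2 + J ^ 2)
    (hc : 2 * M * N * P + 4 * (N - β) * P + 11 * P / x ^ 2 - x ^ 2 * P / 4
        - 22 * K / x - 2 * g * J - 5 * J - g * x * ρ / 2 ≤ 0) : M ^ 2 * P ≤ 2000 := by
  have hex : 0 < e * x := mul_pos he0 hx0
  have hgx : g * x ≤ e * x := mul_le_mul_of_nonneg_right hg hx0.le
  have hex4 : e * x ≤ e * 4 := mul_le_mul_of_nonneg_left hx4 he0.le
  have hK3 := pa_alg3a he0 he1 hx0 hx4 hr1 hr2 hpos (by linarith) (by linarith) hKn hK halg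
  have h11 : 0 ≤ 11 * P / x ^ 2 := by positivity
  have hx16 : x ^ 2 ≤ 16 := by nlinarith
  have h12 : x ^ 2 * P ≤ 16 * P := mul_le_mul_of_nonneg_right hx16 hpos.le
  have h13 : -(4 / 10) * P ≤ (N - β) * P := mul_le_mul_of_nonneg_right (by linarith) hpos.le
  have hMP : 1000 * P ≤ M * P := mul_le_mul_of_nonneg_right hM hpos.le
  have h14 : M * P * (1 / 10) ≤ M * P * N := mul_le_mul_of_nonneg_left hN1 (by linarith)
  have h15 : J ≤ 18 * e := by linarith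
  have h16 : g * J ≤ g * (18 * e) := mul_le_mul_of_nonneg_left h15 hg0
  have h16' : g * e ≤ 1 / 1000 * e := mul_le_mul_of_nonneg_right (by linarith) he0.le
  have h17 : g * x * ρ ≤ g * x * 2 := mul_le_mul_of_nonneg_left (by linarith) (by positivity)
  have h18 : 22 * K / x ≤ 88 * P + 17600 * e ^ 2 := by
    rw [mul_div_assoc]; linarith
  have h19 : e * e ≤ e * (1 / 1000) := mul_le_mul_of_nonneg_left he1 he0.le
  have h20 : M * P ≤ 1300 * e := by nlinarith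
  have h21 : M * (M * P) ≤ M * (1300 * e) := mul_le_mul_of_nonneg_left h20 (by linarith)
  nlinarith

namespace RS

variable {m : ℕ} {β g : ℝ} {ρ P J K : ℝ → ℝ}

/-- fact (iii) -/
theorem P_up (h : RS m β g ρ P J K) (hβ : β ∈ Icc (3 / 10 : ℝ) (4 / 10)) (hg0 : 0 ≤ g)
    (hg : g ≤ 1 / (m : ℝ)) (hm : 1000 ≤ m) {T : ℝ} (hT0 : 0 ≤ T) (hT : T ≤ 4) (hPT : P T ≤ 0)
    (hN : ∀ t ∈ Icc 0 T, 1 / 10 ≤ ρ t ^ m ∧ ρ t ^ m ≤ 2) :
    ∀ r ∈ Icc 0 T, (m : ℝ) ^ 2 * P r ≤ 2000 := by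
  have hmR : (1000 : ℝ) ≤ m := by exact_mod_cast hm
  have hm0 : (0 : ℝ) < m := by linarith
  obtain ⟨e, he⟩ : ∃ e : ℝ, e = 1 / (m : ℝ) := ⟨_, rfl⟩
  have he0 : 0 < e := by rw [he]; positivity
  have he1 : e ≤ 1 / 1000 := by rw [he]; exact one_div_le_one_div_of_le (by norm_num) hmR
  have hme : (m : ℝ) * e = 1 := by rw [he]; field_simp
  rw [← he] at hg
  have hρ : ∀ t ∈ Icc 0 T, |ρ t - 1| ≤ 9 * e := fun t ht => by
    have := pa_bern (by omega : 1 ≤ m) (h.ρnn t) (hN t ht).1 (hN t ht).2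
    rwa [div_eq_mul_one_div, ← he] at this
  obtain ⟨x, hx, hmax⟩ := isCompact_Icc.exists_isMaxOn (nonempty_Icc.2 hT0) h.cP.continuousOn
  suffices hs : (m : ℝ) ^ 2 * P x ≤ 2000 by
    intro r hr
    exact (mul_le_mul_of_nonneg_left (hmax hr) (sq_nonneg _)).trans hs
  by_cases hpos : P x ≤ 0
  · exact (mul_nonpos_of_nonneg_of_nonpos (sq_nonneg _) hpos).trans (by norm_num)
  push Not at hpos
  have hx0 : 0 < x := lt_of_le_of_ne hx.1 (fun h0 => by rw [← h0, h.P0] at hpos; exact lt_irrefl _ hpos)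
  have hxT : x < T := lt_of_le_of_ne hx.2 (fun h0 => by rw [h0] at hpos; linarith)
  have hd : ∀ t ∈ Ioo 0 T, HasDerivAt P
      (K t + (ρ t ^ m - β) * ρ t - 11 * P t / t + t * J t / 2) t := fun t ht => by
    have h1 := h.dP t ht.1
    rwa [min_eq_left (by linarith [(hN t ⟨ht.1.le, ht.2.le⟩).2])] at h1
  have hloc : IsLocalMax P x := hmax.isLocalMax (Icc_mem_nhds hx0 hxT)
  have hG0 : K x + (ρ x ^ m - β) * ρ x - 11 * P x / x + x * J x / 2 = 0 :=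
    hloc.hasDerivAt_eq_zero (hd x ⟨hx0, hxT⟩)
  have hdP : HasDerivAt P 0 x := hG0 ▸ hd x ⟨hx0, hxT⟩
  have hdK := h.dK x hx0
  rw [min_eq_left (by linarith [(hN x hx).2])] at hdK
  have hρx : 0 < ρ x := by have := (abs_le.1 (hρ x hx)).1; linarith
  have hd2 : HasDerivAt (fun t => K t + (ρ t ^ m - β) * ρ t - 11 * P t / t + t * J t / 2)
      (2 * m * ρ x ^ m * P x + 4 * (ρ x ^ m - β) * P x + 11 * P x / x ^ 2 - x ^ 2 * P x / 4
        - 22 * K x / x - 2 * g * J x - 5 * J x - g * x * ρ x / 2) x := by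
    refine (((hdK.add ((((h.dρ x).pow m).sub_const β).mul (h.dρ x))).sub
      ((hdP.const_mul 11).div (hasDerivAt_id' x) hx0.ne')).add
      (((hasDerivAt_id' x).mul (h.dJ x hx0)).div_const 2)).congr_deriv ?_
    have e1 : ρ x ^ m = ρ x ^ (m - 1) * ρ x := by
      rw [← pow_succ]; congr 1; omega
    simp only [Pi.pow_apply]
    rw [e1]
    field_simp
    ring
  have hc := pa_max2 ⟨hx0, hxT⟩ hd hG0 hd2 (fun t ht => hmax ⟨ht.1.le, ht.2.le⟩)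
  have hsub : ∀ t ∈ Icc 0 x, t ∈ Icc 0 T := fun t ht => ⟨ht.1, ht.2.trans hx.2⟩
  have hJ1 := h.J_up hg0 hx.1 (fun t ht => hρ t (hsub t ht))
  have hJ2 := h.J_low2 hg0 (by linarith) hx.1 (fun t ht => hρ t (hsub t ht))
  have hK := h.K_le hβ hg0 (by linarith) hx.1 (fun t ht => by
    have := (abs_le.1 (hρ t (hsub t ht))).2; linarith)
  have hx4 : x ≤ 4 := hx.2.trans hT
  obtain ⟨hr1, hr2⟩ := abs_le.1 (hρ x hx)
  obtain ⟨hN1, hN2⟩ := hN x hx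
  have halg := h.alg x
  have hKn := h.Knn x
  exact pa_alg3 hmR he0 he1 hme hβ.2 hg0 hg hx0 hx4 hr1 hr2 hN1 hpos hJ1 hJ2 hKn hK halg hc

end RS
end P139
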