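import Vale.Agent.P139.PA2

/-! P139 part PA: facts (iv), (v) and the assembly for the real system. -/

open Set Filter Topology

noncomputable section
namespace P139

theorem pa_le_one {m : ℕ} {x : ℝ} (h : x ^ m < 1) : x ≤ 1 := by
  by_contra hc
  exact absurd (one_le_pow₀ (not_le.1 hc).le) (not_le.2 h)

namespace RS

variable {m : ℕ} {β g : ℝ} {ρ P J K : ℝ → ℝ}

theorem iv_core (h : RS m β g ρ P J K) (hβ : β ∈ Icc (3 / 10 : ℝ) (4 / 10)) (hg0 : 0 ≤ g)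
    (hg : g ≤ 1 / 10000) (hm : 4 / ((m : ℝ) + 1) ≤ 1 / 1000) {T c : ℝ} (hT0 : 0 ≤ T) (hT : T ≤ 4)
    (hPT : P T ≤ 0) (hρ : ∀ t ∈ Icc 0 T, |ρ t - 1| ≤ 1 / 1000) (hN : ∀ t ∈ Icc 0 T, ρ t ^ m ≤ 2)
    (hc : c ≤ T + 1 / 10000) (H : ∀ t ∈ Icc T c, ρ t ^ m ≤ 1 / 4) :
    ∀ t ∈ Icc T c, P t ≤ -((t - T) / 480) := by
  have c1 := h.cρ
  have c2 := h.cP
  have h1 : ∀ t ∈ Icc T c, ρ t ≤ 1 := fun t ht => pa_le_one (m := m) (by linarith [H t ht])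
  have h2 : ∀ t ∈ Icc 0 c, ρ t ≤ 4 := fun t ht => by
    rcases le_total t T with h0 | h0
    · linarith [(abs_le.1 (hρ t ⟨ht.1, h0⟩)).2]
    · linarith [h1 t ⟨h0, ht.2⟩]
  have h3 : ∀ t ∈ Icc T c, -5 ≤ P t := fun t ht => by
    have ht0 : 0 ≤ t := hT0.trans ht.1
    have h4 := h.K_le hβ hg0 (by linarith) ht0 (fun s hs => h2 s ⟨hs.1, hs.2.trans ht.2⟩)
    have h5 : t ^ 2 ≤ 5 ^ 2 := pow_le_pow_left₀ ht0 (by linarith [ht.2]) 2
    have h6 : ρ t * K t ≤ 1 * K t := mul_le_mul_of_nonneg_right (h1 t ht) (h.Knn t)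
    have h7 : P t ^ 2 ≤ 5 ^ 2 := by linarith [h.alg t, sq_nonneg (J t)]
    exact (abs_le_of_sq_le_sq' h7 (by norm_num)).1
  have h4 : ∀ t ∈ Icc T c, ρ T + 10 * T ≤ ρ t + 10 * t := fun t ht =>
    pa_mono (f := fun s => ρ s + 10 * s) (f' := fun s => 2 * P s + 10) ht.1 (by fun_prop)
      (fun x _ => ((h.dρ x).add ((hasDerivAt_id' x).const_mul 10)).congr_deriv (by ring))
      (fun x hx => by linarith [h3 x ⟨hx.1.le, hx.2.le.trans ht.2⟩])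
  have h5 : ∀ t ∈ Icc 0 c, |ρ t - 1| ≤ 1 / 500 := fun t ht => by
    rcases le_total t T with h0 | h0
    · exact (hρ t ⟨ht.1, h0⟩).trans (by norm_num)
    · have h6 := h4 t ⟨h0, ht.2⟩
      have h7 := h1 t ⟨h0, ht.2⟩
      have h8 := (abs_le.1 (hρ T ⟨hT0, le_rfl⟩)).1
      rw [abs_le]
      constructor <;> linarith [ht.2]
  have h6 : ∀ t ∈ Icc 0 c, ρ t ^ m ≤ 2 := fun t ht => by
    rcases le_total t T with h0 | h0
    · exact hN t ⟨ht.1, h0⟩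
    · linarith [H t ⟨h0, ht.2⟩]
  intro t ht
  have h7 := pa_anti (f := fun s => s ^ 11 * P s + s ^ 12 / 480)
    (f' := fun r => r ^ 11 * (K r + (min (ρ r ^ m) 3 - β) * ρ r + r * J r / 2) + 12 * r ^ 11 / 480)
    ht.1 (by fun_prop)
    (fun x hx => ((h.dy (hT0.trans_lt hx.1)).add
      ((hasDerivAt_pow 12 x).div_const 480)).congr_deriv (by norm_num))
    (fun x hx => by
      have hx0 : 0 < x := hT0.trans_lt hx.1
      have hxc : x ≤ c := hx.2.le.trans ht.2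
      have hsub : ∀ s ∈ Icc 0 x, s ∈ Icc 0 c := fun s hs => ⟨hs.1, hs.2.trans hxc⟩
      have h8 := h.K_small hβ hg0 (by linarith) hx0.le (by norm_num)
        (fun s hs => h5 s (hsub s hs)) (fun s hs => h6 s (hsub s hs))
      have h9 := h.J_up hg0 hx0.le (fun s hs => h5 s (hsub s hs))
      have h10 := H x ⟨hx.1.le, hxc⟩
      rw [min_eq_left (by linarith)]
      have h11 := (abs_le.1 (h5 x ⟨hx0.le, hxc⟩)).1
      have h12 : x ^ 2 ≤ 5 ^ 2 := pow_le_pow_left₀ hx0.le (by linarith) 2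
      have h13 : g * x ^ 2 ≤ 1 / 10000 * 5 ^ 2 := mul_le_mul hg h12 (sq_nonneg x) (by norm_num)
      have h14 : x * J x ≤ x * (1 / 500 * x / 2) := mul_le_mul_of_nonneg_left h9 hx0.le
      have h15 : (ρ x ^ m - β) * ρ x ≤ -(1 / 20) * ρ x :=
        mul_le_mul_of_nonneg_right (by linarith [hβ.1]) (h.ρnn x)
      have h16 : K x + (ρ x ^ m - β) * ρ x + x * J x / 2 ≤ -(1 / 40) := by nlinarith
      have h17 := mul_le_mul_of_nonneg_left h16 (pow_nonneg hx0.le 11)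
      linarith)
  have ht0 : 0 ≤ t := hT0.trans ht.1
  rcases eq_or_lt_of_le ht0 with h0 | h0
  · have : T = 0 := le_antisymm (h0 ▸ ht.1) hT0
    rw [← h0, h.P0, this]; simp
  have h8 : T ^ 11 * P T ≤ 0 := mul_nonpos_of_nonneg_of_nonpos (pow_nonneg hT0 11) hPT
  have h9 : T ^ 11 * T ≤ t ^ 11 * T :=
    mul_le_mul_of_nonneg_right (pow_le_pow_left₀ hT0 ht.1 11) hT0
  have h10 : t ^ 11 * (P t + (t - T) / 480) ≤ 0 := by
    have e1 : t ^ 12 = t ^ 11 * t := by ring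
    have e2 : T ^ 12 = T ^ 11 * T := by ring
    rw [e1, e2] at h7
    linarith
  by_contra hcon
  exact absurd h10 (not_le.2 (mul_pos (pow_pos h0 11) (by linarith [not_le.1 hcon])))

theorem rho_drop (h : RS m β g ρ P J K) {T c : ℝ} (hc : T ≤ c)
    (H : ∀ t ∈ Icc T c, P t ≤ -((t - T) / 480)) : ρ c ≤ ρ T - (c - T) ^ 2 / 480 := by
  have c1 := h.cρ
  have h1 := pa_anti (f := fun s => ρ s + (s - T) ^ 2 / 480)
    (f' := fun s => 2 * P s + 2 * (s - T) / 480) hc (by fun_prop)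
    (fun x _ => ((h.dρ x).add ((((hasDerivAt_id' x).sub_const T).pow 2).div_const 480)).congr_deriv
      (by norm_num))
    (fun x hx => by linarith [H x ⟨hx.1.le, hx.2.le⟩])
  simp only [sub_self] at h1
  linarith

/-- fact (iv) -/
theorem iv (h : RS m β g ρ P J K) (hβ : β ∈ Icc (3 / 10 : ℝ) (4 / 10)) (hg0 : 0 ≤ g)
    (hg : g ≤ 1 / 10000) (hm : 4 / ((m : ℝ) + 1) ≤ 1 / 1000) {T : ℝ} (hT0 : 0 ≤ T) (hT : T ≤ 4)
    (hPT : P T ≤ 0) (hρ : ∀ t ∈ Icc 0 T, |ρ t - 1| ≤ 1 / 1000) (hN : ∀ t ∈ Icc 0 T, ρ t ^ m ≤ 2)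
    (hNT : ρ T ^ m ≤ 1 / 5) :
    ∀ t ∈ Icc T (T + 1 / 10000), P t ≤ -((t - T) / 480) ∧ ρ t ≤ 1 - (t - T) ^ 2 / 480 := by
  have c1 := h.cρ
  have key := pa_boot (g := fun t => ρ t ^ m) (a := T) (b := T + 1 / 10000) (x := 1 / 4)
    (by fun_prop) (by linarith) (fun c hc H => by
      have h1 := h.rho_drop hc.1 (h.iv_core hβ hg0 hg hm hT0 hT hPT hρ hN hc.2 H)
      have h2 : ρ c ^ m ≤ ρ T ^ m :=
        pow_le_pow_left₀ (h.ρnn c) (by linarith [sq_nonneg (c - T)]) m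
      linarith)
  have h1 := h.iv_core hβ hg0 hg hm hT0 hT hPT hρ hN le_rfl (fun t ht => (key t ht).le)
  intro t ht
  refine ⟨h1 t ht, ?_⟩
  have h2 := h.rho_drop ht.1 (fun s hs => h1 s ⟨hs.1, hs.2.trans ht.2⟩)
  have h3 : ρ T ≤ 1 := pa_le_one (m := m) (by linarith)
  linarith

/-- fact (v) -/
theorem v (h : RS m β g ρ P J K) (hβ : β ∈ Icc (3 / 10 : ℝ) (4 / 10)) (hg0 : 0 ≤ g)
    (hg : g ≤ 1) {T d S η : ℝ} (hT0 : 0 ≤ T) (hT : T ≤ 4) (hd0 : 0 < d) (hd : d ≤ 1) (hη : η ≤ 1)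
    (hρ : ∀ t ∈ Icc 0 T, |ρ t - 1| ≤ η) (hN : ∀ t ∈ Icc 0 T, ρ t ^ m ≤ 2)
    (H : ∀ t ∈ Icc T (T + d), P t ≤ -((t - T) / 480) ∧ ρ t ≤ 1)
    (hsm : η + 1 / ((m : ℝ) + 1) + g * S ^ 2 / 2 ≤ d ^ 3 / 460800) :
    ∀ r ∈ Icc (T + d) S, ρ r ≤ 1 - d ^ 3 / 230400 := by
  have c1 := h.cρ
  have hη0 : 0 ≤ η := (abs_nonneg _).trans (hρ 0 ⟨le_rfl, hT0⟩)
  have hm : (0 : ℝ) < (m : ℝ) + 1 := by positivity
  have E1 := h.En_anti0 hg0 hg le_rfl hT0 (fun t ht => by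
    have h2 := hN t ⟨ht.1.le, ht.2.le⟩
    have h3 := (abs_le.1 (hρ t ⟨ht.1.le, ht.2.le⟩)).2
    exact ⟨by linarith, by linarith⟩)
  have hone : ∀ t, ρ t ≤ 1 → ρ t ^ m ≤ 3 ∧ ρ t ≤ 2 := fun t ht =>
    ⟨(pow_le_one₀ (h.ρnn t) ht).trans (by norm_num), by linarith⟩
  have E2 := h.En_anti hg0 hg hT0 (by linarith : T ≤ T + d)
    (fun t ht => hone t (H t ⟨ht.1.le, ht.2.le⟩).2)
    (φ := fun t => (t - T) ^ 3 / 230400) (φ' := fun t => 3 * (t - T) ^ 2 / 230400)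
    (fun x => ((((hasDerivAt_id' x).sub_const T).pow 3).div_const 230400).congr_deriv
      (by norm_num))
    (fun t ht => by
      have ht0 : 0 < t := hT0.trans_lt ht.1
      obtain ⟨h1, h2⟩ := H t ⟨ht.1.le, ht.2.le⟩
      have h3 : ρ t * K t ≤ 1 * K t := mul_le_mul_of_nonneg_right h2 (h.Knn t)
      have h4 : ((t - T) / 480) ^ 2 ≤ (-P t) ^ 2 :=
        pow_le_pow_left₀ (by linarith [ht.1]) (by linarith) 2
      have h5 : (t - T) ^ 2 / 230400 ≤ K t := by nlinarith [h.alg t, sq_nonneg (J t)]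
      rw [le_div_iff₀ ht0]
      have h6 : (t - T) ^ 2 / 230400 * t ≤ K t * 5 :=
        mul_le_mul h5 (by linarith [ht.2]) ht0.le (h.Knn t)
      nlinarith [h.Knn t])
  have E0 : En m β g ρ K 0 ≤ β * (1 + η) := by
    unfold En
    rw [h.K0]
    have h2 : 0 ≤ ρ 0 ^ (m + 1) / ((m : ℝ) + 1) := div_nonneg (pow_nonneg (h.ρnn 0) _) hm.le
    have h3 : β * ρ 0 ≤ β * (1 + η) := mul_le_mul_of_nonneg_left
      (by linarith [(abs_le.1 (hρ 0 ⟨le_rfl, hT0⟩)).2]) (by linarith [hβ.1])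
    simp only [ne_eq, OfNat.ofNat_ne_zero, not_false_eq_true, zero_pow, mul_zero, zero_div]
    linarith
  simp only [add_sub_cancel_left, sub_self] at E2
  have hd3 : 0 < d ^ 3 := pow_pos hd0 3
  have core : ∀ c ∈ Icc (T + d) S, (∀ t ∈ Icc (T + d) c, ρ t ≤ 1) →
      ρ c ≤ 1 - d ^ 3 / 230400 := by
    intro c hc Hc
    have hc0 : 0 ≤ c := by linarith [hc.1]
    have E3 := h.En_anti0 hg0 hg (by linarith : 0 ≤ T + d) hc.1
      (fun t ht => hone t (Hc t ⟨ht.1.le, ht.2.le⟩))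
    have h1 : ρ c ^ (m + 1) / ((m : ℝ) + 1) ≤ 1 / ((m : ℝ) + 1) :=
      div_le_div_of_nonneg_right (pow_le_one₀ (h.ρnn c) (Hc c ⟨hc.1, le_rfl⟩)) hm.le
    have h2 : g * c ^ 2 ≤ g * S ^ 2 := mul_le_mul_of_nonneg_left (pow_le_pow_left₀ hc0 hc.2 2) hg0
    have h3 : En m β g ρ K c = K c + β * ρ c - ρ c ^ (m + 1) / ((m : ℝ) + 1) - g * c ^ 2 / 2 := rfl
    have h4 := h.Knn c
    have h5 : β * η ≤ 1 * η := mul_le_mul_of_nonneg_right (by linarith [hβ.2]) hη0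
    have h6 : β * ρ c ≤ β - d ^ 3 / 460800 := by nlinarith
    have h7 : β * (d ^ 3 / 230400) ≤ 1 / 2 * (d ^ 3 / 230400) :=
      mul_le_mul_of_nonneg_right (by linarith [hβ.2]) (by positivity)
    have h8 : β * ρ c ≤ β * (1 - d ^ 3 / 230400) := by linarith
    exact le_of_mul_le_mul_left h8 (by linarith [hβ.1])
  have key := pa_boot (g := ρ) (a := T + d) (b := S) (x := 1) c1
    (H _ ⟨by linarith, le_rfl⟩).2 (fun c hc Hc => by linarith [core c hc Hc])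
  intro r hr
  exact core r hr (fun t ht => (key t ⟨ht.1, ht.2.trans hr.2⟩).le)

end RS
end P139
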