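import Vale.Agent.P139.PATool

/-! P139 part PA: the real system satisfied by `ρ = |q|²`, `P + iJ = conj q * q'`, `K = |q'|²`. -/

open Complex Set Filter Topology
open scoped ComplexConjugate

noncomputable section
namespace P139

structure RS (m : ℕ) (β g : ℝ) (ρ P J K : ℝ → ℝ) : Prop where
  dρ : ∀ r, HasDerivAt ρ (2 * P r) r
  cP : Continuous P
  cJ : Continuous J
  cK : Continuous K
  P0 : P 0 = 0
  J0 : J 0 = 0
  K0 : K 0 = 0
  dP : ∀ r, 0 < r →
    HasDerivAt P (K r + (min (ρ r ^ m) 3 - β) * ρ r - 11 * P r / r + r * J r / 2) r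
  dJ : ∀ r, 0 < r → HasDerivAt J (-g * ρ r - 11 * J r / r - r * P r / 2) r
  dK : ∀ r, 0 < r →
    HasDerivAt K (2 * (min (ρ r ^ m) 3 - β) * P r - 2 * g * J r - 22 * K r / r) r
  alg : ∀ r, ρ r * K r = P r ^ 2 + J r ^ 2
  ρnn : ∀ r, 0 ≤ ρ r
  Knn : ∀ r, 0 ≤ K r

theorem RS.cρ {m : ℕ} {β g : ℝ} {ρ P J K : ℝ → ℝ} (h : RS m β g ρ P J K) : Continuous ρ :=
  continuous_iff_continuousAt.2 fun r => (h.dρ r).continuousAt

theorem pa_re {f : ℝ → ℂ} {c : ℂ} {x : ℝ} (h : HasDerivAt f c x) :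
    HasDerivAt (fun t => (f t).re) c.re x :=
  Complex.reCLM.hasFDerivAt.comp_hasDerivAt x h

theorem pa_im {f : ℝ → ℂ} {c : ℂ} {x : ℝ} (h : HasDerivAt f c x) :
    HasDerivAt (fun t => (f t).im) c.im x :=
  Complex.imCLM.hasFDerivAt.comp_hasDerivAt x h

theorem pa_nsq (z : ℂ) : ‖z‖ ^ 2 = z.re ^ 2 + z.im ^ 2 := by
  rw [Complex.sq_norm, Complex.normSq_apply]; ring

theorem pa_RS {m : ℕ} {β : ℝ} {q q1 : ℝ → ℂ} (h : QSol m β q q1) :
    RS m β (gam m) (fun r => ‖q r‖ ^ 2) (fun r => (conj (q r) * q1 r).re)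
      (fun r => (conj (q r) * q1 r).im) (fun r => ‖q1 r‖ ^ 2) := by
  have cq : Continuous q := continuous_iff_continuousAt.2 fun r => (h.d0 r).continuousAt
  have c1 := h.c1
  have e1 : (fun r => ‖q r‖ ^ 2) = fun r => (q r).re * (q r).re + (q r).im * (q r).im := by
    funext r; rw [pa_nsq]; ring
  have e2 : (fun r => (conj (q r) * q1 r).re)
      = fun r => (q r).re * (q1 r).re + (q r).im * (q1 r).im := by
    funext r; simp
  have e3 : (fun r => (conj (q r) * q1 r).im)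
      = fun r => (q r).re * (q1 r).im - (q r).im * (q1 r).re := by
    funext r; simp; ring
  have e4 : (fun r => ‖q1 r‖ ^ 2) = fun r => (q1 r).re * (q1 r).re + (q1 r).im * (q1 r).im := by
    funext r; rw [pa_nsq]; ring
  have hre : ∀ r : ℝ, 0 < r → HasDerivAt (fun t => (q1 t).re)
      ((min ((‖q r‖ ^ 2) ^ m) 3 - β) * (q r).re + gam m * (q r).im - 11 * (q1 r).re / r
        + r * (q1 r).im / 2) r := by
    intro r hr
    refine (pa_re (h.d1 r hr)).congr_deriv ?_
    have : (11 / (r : ℂ) + I * r / 2) = ((11 / r : ℝ) : ℂ) + ((r / 2 : ℝ) : ℂ) * I := by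
      push_cast; ring
    rw [this, Ftr, pow_mul]
    generalize min ((‖q r‖ ^ 2) ^ m) 3 = N
    simp only [sub_re, mul_re, add_re, ofReal_re, ofReal_im, I_re, I_im, sub_im, mul_im, add_im]
    ring
  have him : ∀ r : ℝ, 0 < r → HasDerivAt (fun t => (q1 t).im)
      ((min ((‖q r‖ ^ 2) ^ m) 3 - β) * (q r).im - gam m * (q r).re - 11 * (q1 r).im / r
        - r * (q1 r).re / 2) r := by
    intro r hr
    refine (pa_im (h.d1 r hr)).congr_deriv ?_
    have : (11 / (r : ℂ) + I * r / 2) = ((11 / r : ℝ) : ℂ) + ((r / 2 : ℝ) : ℂ) * I := by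
      push_cast; ring
    rw [this, Ftr, pow_mul]
    generalize min ((‖q r‖ ^ 2) ^ m) 3 = N
    simp only [sub_re, mul_re, add_re, ofReal_re, ofReal_im, I_re, I_im, sub_im, mul_im, add_im]
    ring
  have hx := fun r => pa_re (h.d0 r)
  have hy := fun r => pa_im (h.d0 r)
  refine ⟨fun r => ?_, by fun_prop, by fun_prop, by fun_prop, by simp [h.z1], by simp [h.z1],
    by simp [h.z1], fun r hr => ?_, fun r hr => ?_, fun r hr => ?_, fun r => ?_,
    fun r => by positivity, fun r => by positivity⟩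
  · rw [e1]
    refine (((hx r).mul (hx r)).add ((hy r).mul (hy r))).congr_deriv ?_
    simp; ring
  · rw [e2]
    refine (((hx r).mul (hre r hr)).add ((hy r).mul (him r hr))).congr_deriv ?_
    generalize min ((‖q r‖ ^ 2) ^ m) 3 = N
    rw [pa_nsq, pa_nsq]
    simp only [mul_re, mul_im, conj_re, conj_im]
    ring
  · rw [e3]
    refine (((hx r).mul (him r hr)).sub ((hy r).mul (hre r hr))).congr_deriv ?_
    generalize min ((‖q r‖ ^ 2) ^ m) 3 = N
    rw [pa_nsq]
    simp only [mul_re, mul_im, conj_re, conj_im]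
    ring
  · rw [e4]
    refine (((hre r hr).mul (hre r hr)).add ((him r hr).mul (him r hr))).congr_deriv ?_
    generalize min ((‖q r‖ ^ 2) ^ m) 3 = N
    rw [pa_nsq]
    simp only [mul_re, mul_im, conj_re, conj_im]
    ring
  · rw [pa_nsq, pa_nsq]
    simp only [mul_re, mul_im, conj_re, conj_im]
    ring

end P139
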