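import Vale.Agent.P139.PA3

/-! P139 part PA: `s_asy`. -/

open Complex Set Filter Topology
open scoped ComplexConjugate

noncomputable section
namespace P139

theorem RS.main {m : ℕ} {β g : ℝ} {ρ P J K : ℝ → ℝ} (h : RS m β g ρ P J K)
    (hβ : β ∈ Icc (3 / 10 : ℝ) (4 / 10)) (hg0 : 0 ≤ g) (hg : g ≤ 1 / (m : ℝ))
    (hm : 2 * 10 ^ 12 ≤ m) {T S d : ℝ} (hT : T ∈ Icc (0 : ℝ) 4)
    (hN : ∀ r ∈ Icc (0 : ℝ) T, 1 / 10 ≤ ρ r ^ m) (hex : ∃ r ∈ Icc (0 : ℝ) T, ρ r ^ m ≤ 1 / 5)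
    (hd0 : 0 < d) (hd : d ≤ 1 / 10000) (hS : 5 ≤ S)
    (hsm : 9 / (m : ℝ) + 1 / ((m : ℝ) + 1) + g * S ^ 2 / 2 ≤ d ^ 3 / 460800) :
    (∀ r ∈ Icc (0 : ℝ) T, |ρ r - 1| ≤ 9 / (m : ℝ) ∧ K r ≤ 21 / (m : ℝ)) ∧
    (∀ r ∈ Icc (0 : ℝ) S, ρ r ^ m ≤ 2 ∧ K r ≤ r ^ 2) ∧
    (∀ r ∈ Icc (0 : ℝ) (T + 1 / 20000), (m : ℝ) ^ 2 * P r ≤ 2000) ∧
    (∀ r ∈ Icc (T + d) S, ρ r ≤ 1 - d ^ 3 / 230400) := by
  have c1 := h.cρ
  have hmR : (2 * 10 ^ 12 : ℝ) ≤ m := by exact_mod_cast hm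
  have hm0 : (0 : ℝ) < m := by linarith
  have hm1 : 1 ≤ m := by omega
  obtain ⟨e, he⟩ : ∃ e : ℝ, e = 1 / (m : ℝ) := ⟨_, rfl⟩
  have he0 : 0 < e := by rw [he]; positivity
  have he1 : e ≤ 1 / (2 * 10 ^ 12) := by rw [he]; exact one_div_le_one_div_of_le (by norm_num) hmR
  have he9 : 9 / (m : ℝ) = 9 * e := by rw [he]; ring
  have he21 : 21 / (m : ℝ) = 21 * e := by rw [he]; ring
  have he4 : 4 / ((m : ℝ) + 1) ≤ 4 * e := by
    rw [he, mul_one_div]; exact div_le_div_of_nonneg_left (by norm_num) hm0 (by linarith)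
  have hge : g ≤ e := he ▸ hg
  obtain ⟨T1, hT1, hNT1, hlt⟩ := pa_first (g := fun t => ρ t ^ m) (by fun_prop) hex
  have hT14 : T1 ≤ 4 := hT1.2.trans hT.2
  have hPT1 : P T1 ≤ 0 := by
    rcases eq_or_lt_of_le hT1.1 with h0 | h0
    · rw [← h0, h.P0]
    · have := pa_deriv_nonpos (h.dρ T1) h0 (fun t ht => by
        have h1 : ρ T1 ^ m < ρ t ^ m := hNT1.trans_lt (hlt t ht)
        exact (lt_of_pow_lt_pow_left₀ m (h.ρnn t) h1).le)
      linarith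
  have hN2 : ∀ t ∈ Icc 0 T1, ρ t ^ m ≤ 2 := by
    by_contra hcon
    push Not at hcon
    obtain ⟨r, hr, hr2⟩ := hcon
    obtain ⟨r0, hr0, hNr0, hlt0⟩ := pa_first (g := fun t => -(ρ t ^ m)) (x := -2) (by fun_prop)
      ⟨r, hr, neg_le_neg hr2.le⟩
    have hNr0' : 2 ≤ ρ r0 ^ m := by linarith
    have hP0 : 0 ≤ P r0 := by
      rcases eq_or_lt_of_le hr0.1 with h0 | h0
      · rw [← h0, h.P0]
      · have := pa_deriv_nonpos (h.dρ r0).neg h0 (fun t ht => by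
          have h1 : ρ t ^ m < ρ r0 ^ m := by have := hlt0 t ht; linarith
          exact neg_le_neg (lt_of_pow_lt_pow_left₀ m (h.ρnn r0) h1).le)
        linarith
    have := h.escape hβ hr0.1 hr0.2 hT14 hNr0' hP0
    linarith
  have hsub : ∀ t ∈ Icc 0 T1, t ∈ Icc 0 T := fun t ht => ⟨ht.1, ht.2.trans hT1.2⟩
  have hρ1 : ∀ t ∈ Icc 0 T1, |ρ t - 1| ≤ 9 / (m : ℝ) := fun t ht =>
    pa_bern hm1 (h.ρnn t) (hN t (hsub t ht)) (hN2 t ht)
  have hiv := h.iv hβ hg0 (by linarith) (by linarith) hT1.1 hT14 hPT1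
    (fun t ht => (hρ1 t ht).trans (by rw [he9]; linarith)) hN2 hNT1
  have hv := h.v hβ hg0 (by linarith) hT1.1 hT14 hd0 (by linarith) (by rw [he9]; linarith) hρ1 hN2
    (fun t ht => by
      have h1 := hiv t ⟨ht.1, by linarith [ht.2]⟩
      exact ⟨h1.1, by linarith [h1.2, sq_nonneg (t - T1)]⟩) hsm
  have hd3 : 0 < d ^ 3 := pow_pos hd0 3
  have hone : ∀ r ∈ Icc T1 S, ρ r ≤ 1 := fun r hr => by
    rcases le_total r (T1 + d) with h0 | h0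
    · linarith [(hiv r ⟨hr.1, by linarith⟩).2, sq_nonneg (r - T1)]
    · linarith [hv r ⟨h0, hr.2⟩]
  have hNS : ∀ r ∈ Icc (0 : ℝ) S, ρ r ^ m ≤ 2 := fun r hr => by
    rcases le_total r T1 with h0 | h0
    · exact hN2 r ⟨hr.1, h0⟩
    · exact (pow_le_one₀ (h.ρnn r) (hone r ⟨h0, hr.2⟩)).trans (by norm_num)
  have hρ4 : ∀ r ∈ Icc (0 : ℝ) S, ρ r ≤ 4 := fun r hr => by
    rcases le_total r T1 with h0 | h0
    · have := (abs_le.1 (hρ1 r ⟨hr.1, h0⟩)).2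
      rw [he9] at this; linarith
    · linarith [hone r ⟨h0, hr.2⟩]
  have hTS : ∀ r ∈ Icc (0 : ℝ) T, r ∈ Icc (0 : ℝ) S := fun r hr =>
    ⟨hr.1, by linarith [hr.2, hT.2]⟩
  have hρT : ∀ t ∈ Icc 0 T, |ρ t - 1| ≤ 9 / (m : ℝ) := fun t ht =>
    pa_bern hm1 (h.ρnn t) (hN t ht) (hNS t (hTS t ht))
  have hTT : T ≤ T1 + 1 / 20000 := by
    by_contra hcon
    have h1 := (hiv (T1 + 1 / 20000) ⟨by linarith, by linarith⟩).2
    have h2 := (abs_le.1 (hρT (T1 + 1 / 20000) ⟨by linarith [hT1.1], (not_le.1 hcon).le⟩)).1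
    rw [he9] at h2
    rw [add_sub_cancel_left] at h1
    norm_num at h1 he1
    linarith
  refine ⟨fun r hr => ⟨hρT r hr, ?_⟩, fun r hr => ⟨hNS r hr, ?_⟩, fun r hr => ?_, fun r hr => ?_⟩
  · have hs : ∀ t ∈ Icc 0 r, t ∈ Icc 0 T := fun t ht => ⟨ht.1, ht.2.trans hr.2⟩
    have h1 := h.K_small hβ hg0 (by linarith) hr.1 (by rw [he9]; linarith)
      (fun t ht => hρT t (hs t ht)) (fun t ht => hNS t (hTS t (hs t ht)))
    have h2 : r ^ 2 ≤ 4 ^ 2 := pow_le_pow_left₀ hr.1 (hr.2.trans hT.2) 2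
    have h3 : g * r ^ 2 ≤ e * 4 ^ 2 := mul_le_mul hge h2 (sq_nonneg r) he0.le
    rw [he9] at h1
    rw [he21]
    linarith
  · exact h.K_le hβ hg0 (by linarith) hr.1 (fun t ht => hρ4 t ⟨ht.1, ht.2.trans hr.2⟩)
  · rcases le_total r T1 with h0 | h0
    · exact h.P_up hβ hg0 hg (by omega) hT1.1 hT14 hPT1
        (fun t ht => ⟨hN t (hsub t ht), hN2 t ht⟩) r ⟨hr.1, h0⟩
    · have h1 := (hiv r ⟨h0, by linarith [hr.2]⟩).1
      exact (mul_nonpos_of_nonneg_of_nonpos (sq_nonneg _) (by linarith)).trans (by norm_num)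
  · exact hv r ⟨by linarith [hr.1, hT1.2], hr.2⟩

theorem pa_ev (c x : ℝ) (hx : 0 < x) : ∀ᶠ m : ℕ in atTop, c / (m : ℝ) ≤ x :=
  (tendsto_const_div_atTop_nhds_zero_nat c).eventually (ge_mem_nhds hx)

theorem s_asy : S_asy := by
  refine ⟨1 / 20000, 2000, fun δ => 1 - min δ (1 / 10000) ^ 3 / 460800, by norm_num,
    fun δ hδ => ?_, fun S ε δ hε hδ => ?_⟩
  · have : 0 < min δ (1 / 10000) := lt_min hδ (by norm_num)
    have : 0 < min δ (1 / 10000) ^ 3 / 460800 := by positivity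
    simp only
    linarith
  have hd0 : 0 < min δ (1 / 10000) := lt_min hδ (by norm_num)
  have hd1 : min δ (1 / 10000) ≤ 1 / 10000 := min_le_right _ _
  have hdδ : min δ (1 / 10000) ≤ δ := min_le_left _ _
  simp only
  generalize min δ (1 / 10000) = d at hd0 hd1 hdδ ⊢
  filter_upwards [eventually_ge_atTop (2 * 10 ^ 12),
    pa_ev (10 + max S 5 ^ 2) (d ^ 3 / 460800) (by positivity), pa_ev 9 (ε / 2) (by positivity),
    pa_ev 21 ((ε / 8) ^ 2) (by positivity)] with m hm hsm hε1 hε2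
  intro β hβ q q1 a T hq ha0 ha hT hN hex
  have hmR : (2 * 10 ^ 12 : ℝ) ≤ m := by exact_mod_cast hm
  have hm0 : (0 : ℝ) < m := by linarith
  have hg0 : 0 ≤ gam m := by unfold gam; positivity
  have hg : gam m ≤ 1 / (m : ℝ) := one_div_le_one_div_of_le hm0 (by linarith)
  have hsm' : 9 / (m : ℝ) + 1 / ((m : ℝ) + 1) + gam m * max S 5 ^ 2 / 2 ≤ d ^ 3 / 460800 := by
    have h1 : 1 / ((m : ℝ) + 1) ≤ 1 / (m : ℝ) := one_div_le_one_div_of_le hm0 (by linarith)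
    have h2 : gam m * max S 5 ^ 2 ≤ 1 / (m : ℝ) * max S 5 ^ 2 :=
      mul_le_mul_of_nonneg_right hg (sq_nonneg _)
    have h3 : (10 + max S 5 ^ 2) / (m : ℝ) = 9 / (m : ℝ) + 1 / (m : ℝ)
      + 1 / (m : ℝ) * max S 5 ^ 2 := by ring
    have h4 : 0 ≤ gam m * max S 5 ^ 2 := by positivity
    linarith
  obtain ⟨A, B, C, D⟩ := (pa_RS hq).main hβ hg0 hg hm hT (S := max S 5) (d := d)
    (fun r hr => by simpa only [pow_mul] using hN r hr)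
    (by simpa only [pow_mul] using hex) hd0 hd1 (le_max_right _ _) hsm'
  have hq1 : ∀ r ∈ Icc (0 : ℝ) T, ‖q1 r‖ ≤ ε / 8 := fun r hr =>
    le_of_sq_le_sq ((A r hr).2.trans hε2) (by positivity)
  refine ⟨fun r hr => ⟨?_, by linarith [hq1 r hr]⟩, fun r hr => ?_, C, fun r hr => ?_⟩
  · have h1 : ‖q r - q 0‖ ≤ ε / 8 * (r - 0) :=
      norm_image_sub_le_of_norm_deriv_le_segment' (f' := q1)
        (fun x _ => (hq.d0 x).hasDerivWithinAt) (fun x hx => hq1 x ⟨hx.1, hx.2.le⟩) r hr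
    have h2 := (A 0 ⟨le_rfl, hT.1⟩).1.trans hε1
    simp only [ha0, Complex.norm_real, Real.norm_eq_abs, sq_abs] at h2
    have h3 : ‖q 0 - 1‖ ≤ ε / 2 := by
      rw [ha0, ← ofReal_one, ← ofReal_sub, Complex.norm_real, Real.norm_eq_abs]
      have e1 : a ^ 2 - 1 = (a - 1) * (a + 1) := by ring
      rw [e1, abs_mul, abs_of_pos (by linarith : 0 < a + 1)] at h2
      nlinarith [abs_nonneg (a - 1)]
    have h4 := norm_add_le (q r - q 0) (q 0 - 1)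
    rw [sub_add_sub_cancel] at h4
    have h5 : ε / 8 * (r - 0) ≤ ε / 8 * 4 :=
      mul_le_mul_of_nonneg_left (by linarith [hr.2, hT.2]) (by positivity)
    linarith
  · obtain ⟨h1, h2⟩ := B r ⟨hr.1, hr.2.trans (le_max_left _ _)⟩
    exact ⟨by rw [pow_mul]; exact h1, le_of_sq_le_sq h2 hr.1⟩
  · have h1 := D r ⟨by linarith [hr.1], hr.2.trans (le_max_left _ _)⟩
    have h2 : d ^ 3 ≤ 1 := pow_le_one₀ hd0.le (by linarith)
    refine le_of_sq_le_sq (h1.trans ?_) (by linarith)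
    nlinarith [sq_nonneg (d ^ 3 / 460800)]

end P139
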