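import Vale.Agent.P139.PDefs

/-! P139 part PA: elementary real-variable tools. -/

open Set Filter Topology

noncomputable section
namespace P139

theorem pa_mono {f f' : ℝ → ℝ} {a b : ℝ} (hab : a ≤ b) (hc : ContinuousOn f (Icc a b))
    (hd : ∀ x ∈ Ioo a b, HasDerivAt f (f' x) x) (h0 : ∀ x ∈ Ioo a b, 0 ≤ f' x) : f a ≤ f b := by
  have hm : MonotoneOn f (Icc a b) := by
    apply monotoneOn_of_deriv_nonneg (convex_Icc a b) hc
    · rw [interior_Icc]
      exact fun x hx => (hd x hx).differentiableAt.differentiableWithinAt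
    · rw [interior_Icc]
      intro x hx
      rw [(hd x hx).deriv]
      exact h0 x hx
  exact hm (left_mem_Icc.2 hab) (right_mem_Icc.2 hab) hab

theorem pa_anti {f f' : ℝ → ℝ} {a b : ℝ} (hab : a ≤ b) (hc : ContinuousOn f (Icc a b))
    (hd : ∀ x ∈ Ioo a b, HasDerivAt f (f' x) x) (h0 : ∀ x ∈ Ioo a b, f' x ≤ 0) : f b ≤ f a := by
  have h := pa_mono (f := fun x => -f x) (f' := fun x => -f' x) hab hc.neg
    (fun x hx => (hd x hx).neg) (fun x hx => neg_nonneg.2 (h0 x hx))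
  simpa using h

/-- first point where a continuous function is `≤ x` -/
theorem pa_first {g : ℝ → ℝ} (hg : Continuous g) {a b x : ℝ} (h : ∃ r ∈ Icc a b, g r ≤ x) :
    ∃ c ∈ Icc a b, g c ≤ x ∧ ∀ t ∈ Ico a c, x < g t := by
  have hcl : IsClosed {r | g r ≤ x} := isClosed_le hg continuous_const
  have hK : IsCompact (Icc a b ∩ {r | g r ≤ x}) := isCompact_Icc.inter_right hcl
  obtain ⟨r, hr, hrx⟩ := h
  obtain ⟨c, hc, hmin⟩ := hK.exists_isLeast ⟨r, hr, hrx⟩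
  refine ⟨c, hc.1, hc.2, fun t ht => ?_⟩
  by_contra hcon
  have h1 : t ∈ Icc a b ∩ {r | g r ≤ x} := ⟨⟨ht.1, ht.2.le.trans hc.1.2⟩, not_lt.1 hcon⟩
  exact absurd (hmin h1) (not_le.2 ht.2)

/-- continuity argument -/
theorem pa_boot {g : ℝ → ℝ} (hg : Continuous g) {a b x : ℝ} (h0 : g a ≤ x)
    (H : ∀ c ∈ Icc a b, (∀ t ∈ Icc a c, g t ≤ x) → g c < x) : ∀ t ∈ Icc a b, g t < x := by
  by_contra hcon
  push Not at hcon
  obtain ⟨r, hr, hrx⟩ := hcon
  obtain ⟨c, hc, hcx, hlt⟩ := pa_first (g := fun t => -g t) (x := -x) hg.neg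
    ⟨r, hr, neg_le_neg hrx⟩
  have hlt' : ∀ t ∈ Ico a c, g t ≤ x := fun t ht => by have := hlt t ht; linarith
  have hcc : g c ≤ x := by
    rcases eq_or_lt_of_le hc.1 with h | h
    · rw [← h]; exact h0
    · have hcl : IsClosed {r | g r ≤ x} := isClosed_le hg continuous_const
      have h1 : closure (Ico a c) ⊆ {r | g r ≤ x} := closure_minimal hlt' hcl
      rw [closure_Ico h.ne] at h1
      exact h1 (right_mem_Icc.2 h.le)
  have h2 := H c hc (fun t ht => by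
    rcases eq_or_lt_of_le ht.2 with h | h
    · rw [h]; exact hcc
    · exact hlt' t ⟨ht.1, h⟩)
  linarith

/-- the derivative at the right end point of an interval on which `f ≥ f x` -/
theorem pa_deriv_nonpos {f : ℝ → ℝ} {a x c : ℝ} (hd : HasDerivAt f c x) (hax : a < x)
    (h : ∀ t ∈ Ico a x, f x ≤ f t) : c ≤ 0 := by
  have h1 : Tendsto (slope f x) (𝓝[<] x) (𝓝 c) :=
    (hasDerivAt_iff_tendsto_slope_left_right.1 hd).1
  refine le_of_tendsto h1 ?_
  filter_upwards [Ioo_mem_nhdsLT hax] with t ht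
  rw [slope_def_field]
  exact div_nonpos_of_nonneg_of_nonpos (sub_nonneg.2 (h t ⟨ht.1.le, ht.2⟩)) (by linarith [ht.2])

/-- second derivative at a local maximum -/
theorem pa_max2 {f f' : ℝ → ℝ} {a b x c : ℝ} (hx : x ∈ Ioo a b)
    (hd : ∀ t ∈ Ioo a b, HasDerivAt f (f' t) t) (h0 : f' x = 0) (hd2 : HasDerivAt f' c x)
    (hmax : ∀ t ∈ Ioo a b, f t ≤ f x) : c ≤ 0 := by
  by_contra hc
  push Not at hc
  have h1 : Tendsto (slope f' x) (𝓝[>] x) (𝓝 c) :=
    (hasDerivAt_iff_tendsto_slope_left_right.1 hd2).2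
  have h2 : ∀ᶠ t in 𝓝[>] x, 0 < slope f' x t := h1.eventually (lt_mem_nhds hc)
  have h3 : ∀ᶠ t in 𝓝[>] x, t ∈ Ioo x b := Ioo_mem_nhdsGT hx.2
  obtain ⟨u, hu, hsub⟩ := mem_nhdsGT_iff_exists_Ioc_subset.1 (h2.and h3)
  have hub : u < b := (hsub ⟨hu, le_rfl⟩).2.2
  have hpos : ∀ t ∈ Ioo x u, 0 < f' t := by
    intro t ht
    have h4 := (hsub ⟨ht.1, ht.2.le⟩).1
    rw [slope_def_field, h0, sub_zero] at h4
    exact (div_pos_iff_of_pos_right (by linarith [ht.1])).1 h4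
  have hin : ∀ t ∈ Icc x u, t ∈ Ioo a b := fun t ht => ⟨hx.1.trans_le ht.1, ht.2.trans_lt hub⟩
  obtain ⟨ξ, hξ, he⟩ := exists_hasDerivAt_eq_slope f f' hu
    (fun t ht => (hd t (hin t ht)).continuousAt.continuousWithinAt)
    (fun t ht => hd t (hin t ⟨ht.1.le, ht.2.le⟩))
  have h5 := hpos ξ hξ
  rw [he] at h5
  have h6 : 0 < f u - f x := (div_pos_iff_of_pos_right (by linarith [hu.out])).1 h5
  have h7 := hmax u (hin u ⟨hu.out.le, le_rfl⟩)
  linarith

theorem pa_bern {m : ℕ} (hm : 1 ≤ m) {x : ℝ} (hx : 0 ≤ x) (h1 : 1 / 10 ≤ x ^ m) (h2 : x ^ m ≤ 2) :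
    |x - 1| ≤ 9 / (m : ℝ) := by
  have hm0 : (0 : ℝ) < m := by exact_mod_cast hm
  have hx0 : 0 < x := by
    rcases eq_or_lt_of_le hx with h | h
    · rw [← h, zero_pow (by omega)] at h1; norm_num at h1
    · exact h
  rw [abs_le]
  constructor
  · have hb := one_add_mul_le_pow (a := x⁻¹ - 1) (by have := inv_pos.2 hx0; linarith) m
    rw [add_sub_cancel, inv_pow] at hb
    have hxm : 0 < x ^ m := pow_pos hx0 m
    have h3 : (x ^ m)⁻¹ ≤ 10 := by
      rw [inv_le_comm₀ hxm (by norm_num)]; linarith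
    have h4 : (m : ℝ) * (x⁻¹ - 1) ≤ 9 := by linarith
    have h5 : x⁻¹ - 1 ≤ 9 / (m : ℝ) := by rw [le_div_iff₀ hm0]; linarith
    have h6 : 1 - x ≤ x⁻¹ - 1 := by
      have : x⁻¹ - 1 - (1 - x) = (1 - x) ^ 2 * x⁻¹ := by field_simp
      have h7 : 0 ≤ (1 - x) ^ 2 * x⁻¹ := by positivity
      linarith
    linarith
  · have hb := one_add_mul_le_pow (a := x - 1) (by linarith) m
    rw [add_sub_cancel] at hb
    rw [le_div_iff₀ hm0]
    linarith

end P139
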