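import Vale.Agent.P139.Defs

/-! P139 part P (the profile): definitions and statements of the pieces. -/

open Complex Set Filter Topology MeasureTheory
open scoped ContDiff ComplexConjugate

noncomputable section
namespace P139

/-- truncated nonlinearity -/
def Ftr (m : ℕ) (β : ℝ) (z : ℂ) : ℂ :=
  (((min (‖z‖ ^ (2 * m)) 3 : ℝ) : ℂ) - β - I * gam m) * z

/-- derivative of the interior solution (variable `s`) -/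
def Dint (m : ℕ) (β : ℝ) (Θ : ℝ → ℂ) (s : ℝ) : ℂ :=
  1 / 4 * ∫ t in (0 : ℝ)..1, (t : ℂ) ^ 5 * cexp (I * s * (t - 1) / 4) * Ftr m β (Θ (s * t))

/-- global solution of the truncated equation, regular at `s = 0` -/
def TSol (m : ℕ) (β a : ℝ) (Θ : ℝ → ℂ) : Prop :=
  Θ 0 = a ∧ ∀ s : ℝ, HasDerivAt Θ (Dint m β Θ s) s

/-- the truncated equation in the variable `r` (`q r = Θ (r²)`, `q1 = q'`) -/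
structure QSol (m : ℕ) (β : ℝ) (q q1 : ℝ → ℂ) : Prop where
  d0 : ∀ r : ℝ, HasDerivAt q (q1 r) r
  c1 : Continuous q1
  z1 : q1 0 = 0
  d1 : ∀ r : ℝ, 0 < r →
    HasDerivAt q1 (Ftr m β (q r) - (11 / (r : ℂ) + I * r / 2) * q1 r) r

/-- the profile equation at the point `s` -/
def POde (m : ℕ) (β : ℝ) (Θ : ℝ → ℂ) (s : ℝ) : Prop :=
  4 * s * deriv (deriv Θ) s + (24 + I * s) * deriv Θ s + (β + I * gam m) * Θ s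
    = (Θ s * conj (Θ s)) ^ m * Θ s

/-- interior asymptotics (facts (i)-(v)); owner helper34 -/
def S_asy : Prop := ∃ (δ₁ C : ℝ) (θf : ℝ → ℝ), 0 < δ₁ ∧ (∀ δ : ℝ, 0 < δ → θf δ < 1) ∧
  ∀ S ε δ : ℝ, 0 < ε → 0 < δ → ∀ᶠ m : ℕ in atTop, ∀ β ∈ Icc (3 / 10 : ℝ) (4 / 10),
    ∀ (q q1 : ℝ → ℂ) (a T : ℝ), QSol m β q q1 → q 0 = a → 0 < a → T ∈ Icc (0 : ℝ) 4 →
    (∀ r ∈ Icc (0 : ℝ) T, 1 / 10 ≤ ‖q r‖ ^ (2 * m)) →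
    (∃ r ∈ Icc (0 : ℝ) T, ‖q r‖ ^ (2 * m) ≤ 1 / 5) →
    (∀ r ∈ Icc (0 : ℝ) T, ‖q r - 1‖ ≤ ε ∧ ‖q1 r‖ ≤ ε) ∧
    (∀ r ∈ Icc (0 : ℝ) S, ‖q r‖ ^ (2 * m) ≤ 2 ∧ ‖q1 r‖ ≤ r) ∧
    (∀ r ∈ Icc (0 : ℝ) (T + δ₁), (m : ℝ) ^ 2 * (conj (q r) * q1 r).re ≤ C) ∧
    (∀ r ∈ Icc (T + δ) S, ‖q r‖ ≤ θf δ)

/-- exterior solutions on `(S₁, ∞)` with prescribed value at `S₁ + 1`; owner helper36 -/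
def S_pext : Prop := ∀ θ : ℝ, 0 < θ → θ < 1 → ∃ (S₁ θ' : ℝ) (Cf : ℕ → ℝ) (Θl : ℝ → ℝ → ℂ)
    (Θe : ℕ → ℝ → ℂ → ℝ → ℂ), 30 ≤ S₁ ∧ θ' < 1 ∧
  (∀ β ∈ Icc (0 : ℝ) 1, ContDiffOn ℝ ∞ (Θl β) (Ioi S₁) ∧
    (∀ s : ℝ, S₁ < s → FreeF β 0 0 (Θl β) s = 0) ∧ Θl β (S₁ + 1) = 1 ∧
    ∀ (k : ℕ) (s : ℝ), S₁ + 1 ≤ s → ‖iteratedDeriv k (Θl β) s‖ ≤ Cf k * s ^ (-(k : ℝ))) ∧
  (∀ᶠ m : ℕ in atTop,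
    ContinuousOn (fun p : ℝ × ℂ => deriv (Θe m p.1 p.2) (S₁ + 1))
      (Icc (0 : ℝ) 1 ×ˢ Metric.closedBall (0 : ℂ) θ) ∧
    ∀ β ∈ Icc (0 : ℝ) 1, ∀ w : ℂ, ‖w‖ ≤ θ → ContDiffOn ℝ ∞ (Θe m β w) (Ioi S₁) ∧
      (∀ s : ℝ, S₁ < s → POde m β (Θe m β w) s) ∧ Θe m β w (S₁ + 1) = w ∧
      (∀ s : ℝ, S₁ + 1 ≤ s → ‖w‖ / 2 ≤ s ^ gam m * ‖Θe m β w s‖ ∧
        s ^ gam m * ‖Θe m β w s‖ ≤ θ') ∧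
      ∀ (k : ℕ) (s : ℝ), S₁ + 1 ≤ s →
        ‖iteratedDeriv k (Θe m β w) s‖ ≤ Cf k * s ^ (-(gam m) - (k : ℝ))) ∧
  ∀ ε : ℝ, 0 < ε → ∀ᶠ m : ℕ in atTop, ∀ β ∈ Icc (0 : ℝ) 1, ∀ w : ℂ, ‖w‖ ≤ θ →
    ‖deriv (Θe m β w) (S₁ + 1) - w * deriv (Θl β) (S₁ + 1)‖ ≤ ε

end P139
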