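import Vale.Agent.P139.PDefs

/-! P139 part P, exterior solutions: definitions and statements of the pieces. -/

open Complex Set Filter Topology MeasureTheory
open scoped ContDiff ComplexConjugate

noncomputable section
namespace P139

/-- right half plane -/
def HP (S : ℝ) : Set ℂ := {z | S < z.re}

/-- weighted bound on the half plane -/
def WB (S d : ℝ) (f : ℂ → ℂ) : Prop := ∀ z ∈ HP S, ‖f z‖ ≤ d / z.re ^ 2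

/-- holomorphic on the half plane, with the weighted bound -/
def HB (S M : ℝ) (f : ℂ → ℂ) : Prop := DifferentiableOn ℂ f (HP S) ∧ WB S M f

/-- the decaying solution of `χ' + (i/4) χ = H` -/
def Kop (H : ℂ → ℂ) (z : ℂ) : ℂ :=
  -I * ∫ u in Ioi (0 : ℝ), ((Real.exp (-u / 4) : ℝ) : ℂ) * H (z + I * u)

/-- the decaying primitive -/
def Jop (χ : ℂ → ℂ) (z : ℂ) : ℂ := -∫ t in Ioi (0 : ℝ), χ (z + t)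

/-- the primitive with value `v` at `S + 1` -/
def psi (S : ℝ) (v : ℂ) (χ : ℂ → ℂ) (z : ℂ) : ℂ := v + Jop χ z - Jop χ ((S + 1 : ℝ) : ℂ)

def Gn (m : ℕ) (a : ℂ) (κ : ℝ) (x y : ℂ) : ℂ := -(a * (a - 5)) * x + (κ : ℂ) / 4 * (x * y) ^ m * x

def Hop (S : ℝ) (m : ℕ) (a : ℂ) (κ : ℝ) (v : ℂ) (χ : ℂ → ℂ) (z : ℂ) : ℂ :=
  Gn m a κ (psi S v χ z) (conj (psi S v χ (conj z))) / z ^ 2 - (6 - 2 * a) * χ z / z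

/-- the profile on the real axis -/
def Th (S : ℝ) (a v : ℂ) (χ : ℂ → ℂ) (s : ℝ) : ℂ := (s : ℂ) ^ (-a) * psi S v χ s

theorem isOpen_HP (S : ℝ) : IsOpen (HP S) := isOpen_lt continuous_const Complex.continuous_re

theorem mem_HP {S : ℝ} {z : ℂ} : z ∈ HP S ↔ S < z.re := Iff.rfl

def S_peK : Prop := ∀ (S M : ℝ) (H : ℂ → ℂ), 0 < S → HB S M H →
  (∀ z ∈ HP S, HasDerivAt (Kop H) (H z - I / 4 * Kop H z) z) ∧ HB S (4 * M) (Kop H) ∧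
  ∀ (M' d : ℝ) (H' : ℂ → ℂ), HB S M' H' → WB S d (fun z => H z - H' z) →
    WB S (4 * d) (fun z => Kop H z - Kop H' z)

def S_peJ : Prop := ∀ (S M : ℝ) (χ : ℂ → ℂ), 0 < S → HB S M χ →
  (∀ z ∈ HP S, HasDerivAt (Jop χ) (χ z) z) ∧ (∀ z ∈ HP S, ‖Jop χ z‖ ≤ M / z.re) ∧
  ∀ (M' d : ℝ) (χ' : ℂ → ℂ), HB S M' χ' → WB S d (fun z => χ z - χ' z) →
    ∀ z ∈ HP S, ‖Jop χ z - Jop χ' z‖ ≤ d / z.re

/-- `T` halves weighted distances in the ball of radius `M` -/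
def Contr (S M : ℝ) (T : (ℂ → ℂ) → ℂ → ℂ) : Prop :=
  ∀ (χ₁ χ₂ : ℂ → ℂ) (d : ℝ), 0 ≤ d → HB S M χ₁ → HB S M χ₂ → WB S d (fun z => χ₁ z - χ₂ z) →
    WB S (d / 2) (fun z => T χ₁ z - T χ₂ z)

def S_peFix : Prop := ∀ (S M : ℝ) (T : (ℂ → ℂ) → ℂ → ℂ), 1 ≤ S → 0 ≤ M →
  (∀ χ, HB S M χ → HB S M (T χ)) → Contr S M T → ∃ χ, HB S M χ ∧ ∀ z ∈ HP S, T χ z = χ z

def S_peStab : Prop := ∀ (S M e : ℝ) (T : (ℂ → ℂ) → ℂ → ℂ) (χ₁ χ₂ : ℂ → ℂ), 1 ≤ S → 0 ≤ M →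
  0 ≤ e → Contr S M T → HB S M χ₁ → HB S M χ₂ → (∀ z ∈ HP S, T χ₁ z = χ₁ z) →
  WB S e (fun z => T χ₂ z - χ₂ z) → WB S (2 * e) (fun z => χ₁ z - χ₂ z)

def S_peH : Prop := ∀ (S M r : ℝ) (m : ℕ) (a v : ℂ) (κ : ℝ) (χ : ℂ → ℂ), 1 ≤ S → 0 ≤ M →
  ‖a‖ ≤ 3 / 2 → 0 ≤ κ → κ * (2 * m + 1) * r ^ (2 * m) ≤ 1 → ‖v‖ + 2 * M / S ≤ r → HB S M χ →
  HB S (41 / 4 * (‖v‖ + 2 * M / S) + 9 * M / S) (Hop S m a κ v χ) ∧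
  ∀ (a' v' : ℂ) (κ' d : ℝ) (χ' : ℂ → ℂ), 0 ≤ d → ‖a'‖ ≤ 3 / 2 → ‖v'‖ + 2 * M / S ≤ r →
    HB S M χ' → WB S d (fun z => χ z - χ' z) →
    WB S (41 / 4 * (‖v - v'‖ + 2 * d / S) + 9 * d / S + (8 * r + 2 * M / S) * ‖a - a'‖
        + |κ - κ'| * r ^ (2 * m + 1) / 4)
      (fun z => Hop S m a κ v χ z - Hop S m a' κ' v' χ' z)

def S_peOde : Prop := ∀ (S M : ℝ) (m : ℕ) (a v : ℂ) (κ : ℝ) (χ : ℂ → ℂ), 1 ≤ S → HB S M χ →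
  (∀ z ∈ HP S, HasDerivAt χ (Hop S m a κ v χ z - I / 4 * χ z) z) →
  ContDiffOn ℝ ∞ (Th S a v χ) (Ioi S) ∧
  (∀ s : ℝ, S < s → 4 * s * deriv (deriv (Th S a v χ)) s + (24 + I * s) * deriv (Th S a v χ) s
      + I * a * Th S a v χ s
      = κ * (psi S v χ s * conj (psi S v χ s)) ^ m / s * Th S a v χ s) ∧
  deriv (Th S a v χ) (S + 1)
    = ((S + 1 : ℝ) : ℂ) ^ (-a) * (χ ((S + 1 : ℝ) : ℂ) - a * v / ((S + 1 : ℝ) : ℂ))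

def S_peSymb : Prop := ∀ S : ℝ, 1 ≤ S → ∃ Cf : ℕ → ℝ, ∀ (f : ℂ → ℂ) (a : ℂ),
  DifferentiableOn ℂ f (HP S) → (∀ z ∈ HP S, ‖f z‖ ≤ 2) → 0 ≤ a.re → a.re ≤ 1 → |a.im| ≤ 1 →
  ∀ (k : ℕ) (s : ℝ), S + 1 ≤ s →
    ‖iteratedDeriv k (fun t : ℝ => (t : ℂ) ^ (-a) * f t) s‖ ≤ Cf k * s ^ (-a.re - (k : ℝ))

end P139
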