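import Vale.Agent.P139.PEDefs

/-! P139 part P, exterior solutions: assembly of the pieces. -/

open Complex Set Filter Topology MeasureTheory
open scoped ContDiff ComplexConjugate

noncomputable section
namespace P139
namespace PEMain

def Top (S : ℝ) (m : ℕ) (a : ℂ) (κ : ℝ) (v : ℂ) (χ : ℂ → ℂ) : ℂ → ℂ := Kop (Hop S m a κ v χ)

theorem wb_mono {S d d' : ℝ} {f : ℂ → ℂ} (h : WB S d f) (hd : d ≤ d') : WB S d' f :=
  fun z hz => (h z hz).trans (div_le_div_of_nonneg_right hd (sq_nonneg _))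

theorem hb_mono {S d d' : ℝ} {f : ℂ → ℂ} (h : HB S d f) (hd : d ≤ d') : HB S d' f :=
  ⟨h.1, wb_mono h.2 hd⟩

theorem contr (hK : S_peK) (hH : S_peH) {S M r : ℝ} {m : ℕ} {a v : ℂ} {κ : ℝ} (hS : 400 ≤ S)
    (hM : 0 ≤ M) (ha : ‖a‖ ≤ 3 / 2) (hκ : 0 ≤ κ) (hr : κ * (2 * m + 1) * r ^ (2 * m) ≤ 1)
    (hv : ‖v‖ + 2 * M / S ≤ r) : Contr S M (Top S m a κ v) := by
  intro χ₁ χ₂ d hd h₁ h₂ h
  have hS1 : (1 : ℝ) ≤ S := by linarith
  have hS0 : (0 : ℝ) < S := by linarith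
  obtain ⟨A₁, B₁⟩ := hH S M r m a v κ χ₁ hS1 hM ha hκ hr hv h₁
  obtain ⟨A₂, -⟩ := hH S M r m a v κ χ₂ hS1 hM ha hκ hr hv h₂
  have B := B₁ a v κ d χ₂ hd ha hv h₂ h
  have C := (hK S _ _ hS0 A₁).2.2 _ _ _ A₂ B
  refine wb_mono C ?_
  simp only [sub_self, norm_zero, abs_zero, zero_add, mul_zero, zero_mul, zero_div, add_zero]
  have : d / S ≤ d / 400 := div_le_div_of_nonneg_left hd (by norm_num) hS
  have e1 : 2 * d / S = 2 * (d / S) := by ring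
  have e2 : 9 * d / S = 9 * (d / S) := by ring
  rw [e1, e2]; linarith

/-- the solution of the fixed point problem -/
def Sol (S : ℝ) (m : ℕ) (a : ℂ) (κ : ℝ) (v : ℂ) (M : ℝ) (χ : ℂ → ℂ) : Prop :=
  HB S M χ ∧ ∀ z ∈ HP S, Top S m a κ v χ z = χ z

theorem exists_sol (hK : S_peK) (hF : S_peFix) (hH : S_peH) (S : ℝ) (m : ℕ) (a : ℂ) (κ : ℝ)
    (v : ℂ) : ∃ χ : ℂ → ℂ, ∀ r : ℝ, 400 ≤ S → ‖a‖ ≤ 3 / 2 → 0 ≤ κ →
      κ * (2 * m + 1) * r ^ (2 * m) ≤ 1 → ‖v‖ + 2 * (100 * ‖v‖) / S ≤ r →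
      Sol S m a κ v (100 * ‖v‖) χ := by
  by_cases h : ∃ r : ℝ, 400 ≤ S ∧ ‖a‖ ≤ 3 / 2 ∧ 0 ≤ κ ∧
      κ * (2 * m + 1) * r ^ (2 * m) ≤ 1 ∧ ‖v‖ + 2 * (100 * ‖v‖) / S ≤ r
  · obtain ⟨r, hS, ha, hκ, hr, hv⟩ := h
    have hS1 : (1 : ℝ) ≤ S := by linarith
    have hS0 : (0 : ℝ) < S := by linarith
    have hM : 0 ≤ 100 * ‖v‖ := by positivity
    obtain ⟨χ, h1, h2⟩ := hF S (100 * ‖v‖) (Top S m a κ v) hS1 hM (fun χ hχ => by
      obtain ⟨A, -⟩ := hH S _ r m a v κ χ hS1 hM ha hκ hr hv hχ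
      refine hb_mono (hK S _ _ hS0 A).2.1 ?_
      have : ‖v‖ / S ≤ ‖v‖ / 400 := div_le_div_of_nonneg_left (norm_nonneg v) (by norm_num) hS
      have e1 : 2 * (100 * ‖v‖) / S = 200 * (‖v‖ / S) := by ring
      have e2 : 9 * (100 * ‖v‖) / S = 900 * (‖v‖ / S) := by ring
      rw [e1, e2]; linarith [norm_nonneg v]) (contr hK hH hS hM ha hκ hr hv)
    exact ⟨χ, fun _ _ _ _ _ _ => ⟨h1, h2⟩⟩
  · exact ⟨0, fun r h1 h2 h3 h4 h5 => absurd ⟨r, h1, h2, h3, h4, h5⟩ h⟩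

theorem sol_deriv (hK : S_peK) (hH : S_peH) {S M r : ℝ} {m : ℕ} {a v : ℂ} {κ : ℝ} {χ : ℂ → ℂ}
    (hS : 400 ≤ S) (hM : 0 ≤ M) (ha : ‖a‖ ≤ 3 / 2) (hκ : 0 ≤ κ)
    (hr : κ * (2 * m + 1) * r ^ (2 * m) ≤ 1) (hv : ‖v‖ + 2 * M / S ≤ r)
    (h : Sol S m a κ v M χ) :
    ∀ z ∈ HP S, HasDerivAt χ (Hop S m a κ v χ z - I / 4 * χ z) z := by
  intro z hz
  have hS1 : (1 : ℝ) ≤ S := by linarith
  have hS0 : (0 : ℝ) < S := by linarith
  obtain ⟨A, -⟩ := hH S M r m a v κ χ hS1 hM ha hκ hr hv h.1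
  have B := (hK S _ _ hS0 A).1 z hz
  have e : Kop (Hop S m a κ v χ) z = χ z := h.2 z hz
  rw [e] at B
  refine B.congr_of_eventuallyEq ?_
  filter_upwards [(isOpen_HP S).mem_nhds hz] with y hy
  exact (h.2 y hy).symm

theorem cmp (hK : S_peK) (hT : S_peStab) (hH : S_peH) {S M r : ℝ} {m : ℕ} {a v a' v' : ℂ}
    {κ κ' : ℝ} {χ χ' : ℂ → ℂ} (hS : 400 ≤ S) (hM : 0 ≤ M) (ha : ‖a‖ ≤ 3 / 2) (hκ : 0 ≤ κ)
    (hr : κ * (2 * m + 1) * r ^ (2 * m) ≤ 1) (hv : ‖v‖ + 2 * M / S ≤ r) (ha' : ‖a'‖ ≤ 3 / 2)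
    (hκ' : 0 ≤ κ') (hr' : κ' * (2 * m + 1) * r ^ (2 * m) ≤ 1) (hv' : ‖v'‖ + 2 * M / S ≤ r)
    (h : Sol S m a κ v M χ) (h' : Sol S m a' κ' v' M χ') :
    WB S (8 * (41 / 4 * ‖v - v'‖ + (8 * r + 2 * M / S) * ‖a - a'‖
      + |κ - κ'| * r ^ (2 * m + 1) / 4)) (fun z => χ z - χ' z) := by
  have hS1 : (1 : ℝ) ≤ S := by linarith
  have hS0 : (0 : ℝ) < S := by linarith
  have hr0 : 0 ≤ r := le_trans (by positivity) hv
  obtain ⟨A, B⟩ := hH S M r m a v κ χ' hS1 hM ha hκ hr hv h'.1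
  obtain ⟨A', -⟩ := hH S M r m a' v' κ' χ' hS1 hM ha' hκ' hr' hv' h'.1
  have B0 := B a' v' κ' 0 χ' le_rfl ha' hv' h'.1 (fun z _ => by simp)
  have C := (hK S _ _ hS0 A).2.2 _ _ _ A' B0
  have C' : WB S (4 * (41 / 4 * ‖v - v'‖ + (8 * r + 2 * M / S) * ‖a - a'‖
      + |κ - κ'| * r ^ (2 * m + 1) / 4)) (fun z => Top S m a κ v χ' z - χ' z) := by
    intro z hz
    have h1 := C z hz
    have h2 : Kop (Hop S m a' κ' v' χ') z = χ' z := h'.2 z hz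
    simp only [h2, mul_zero, zero_div, add_zero] at h1
    exact h1
  have D := hT S M _ (Top S m a κ v) χ χ' hS1 hM (by positivity) (contr hK hH hS hM ha hκ hr hv)
    h.1 h'.1 h.2 C'
  refine wb_mono D (le_of_eq ?_)
  ring

theorem psi_smul (S : ℝ) (w v : ℂ) (χ : ℂ → ℂ) (z : ℂ) :
    psi S (w * v) (fun y => w * χ y) z = w * psi S v χ z := by
  simp only [psi, Jop, integral_const_mul]
  ring

theorem sol_smul {S M : ℝ} {m m' : ℕ} {a v : ℂ} {χ : ℂ → ℂ} (w : ℂ) (h : Sol S m a 0 v M χ) :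
    Sol S m' a 0 (w * v) (‖w‖ * M) (fun y => w * χ y) := by
  refine ⟨⟨h.1.1.const_mul w, fun z hz => ?_⟩, fun z hz => ?_⟩
  · rw [norm_mul, mul_div_assoc]
    exact mul_le_mul_of_nonneg_left (h.1.2 z hz) (norm_nonneg w)
  · have e : Hop S m' a 0 (w * v) (fun y => w * χ y) = fun y => w * Hop S m a 0 v χ y := by
      funext y
      simp only [Hop, Gn, psi_smul, ofReal_zero]
      ring
    have e2 := h.2 z hz
    simp only [Top] at e2 ⊢
    rw [e, ← e2]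
    simp only [Kop]
    rw [mul_left_comm w, ← integral_const_mul w]
    congr 2
    funext u
    ring

theorem psi_bound (hJ : S_peJ) {S M : ℝ} {χ : ℂ → ℂ} (v : ℂ) (hS : 0 < S) (hM : 0 ≤ M)
    (h : HB S M χ) : ∀ z ∈ HP S, ‖psi S v χ z - v‖ ≤ 2 * M / S := by
  intro z hz
  obtain ⟨-, B, -⟩ := hJ S M χ hS h
  have h1 := B z hz
  have h2 := B ((S + 1 : ℝ) : ℂ) (by simp [mem_HP])
  have e : psi S v χ z - v = Jop χ z - Jop χ ((S + 1 : ℝ) : ℂ) := by simp only [psi]; ring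
  rw [e]
  have h3 : M / z.re ≤ M / S := div_le_div_of_nonneg_left hM hS (le_of_lt hz)
  have h4 : M / ((S + 1 : ℝ) : ℂ).re ≤ M / S :=
    div_le_div_of_nonneg_left hM hS (by simp)
  calc _ ≤ ‖Jop χ z‖ + ‖Jop χ ((S + 1 : ℝ) : ℂ)‖ := norm_sub_le _ _
    _ ≤ M / S + M / S := by linarith
    _ = 2 * M / S := by ring

theorem psi_diff (hJ : S_peJ) {S M : ℝ} {χ : ℂ → ℂ} (v : ℂ) (hS : 0 < S)
    (h : HB S M χ) : DifferentiableOn ℂ (psi S v χ) (HP S) := by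
  intro z hz
  have := ((hJ S M χ hS h).1 z hz).differentiableAt
  exact ((this.const_add v).sub_const _).differentiableWithinAt

/-- the exponent `a = g - i β` -/
def av (g β : ℝ) : ℂ := (g : ℂ) - I * β

@[simp] theorem av_re (g β : ℝ) : (av g β).re = g := by simp [av]
@[simp] theorem av_im (g β : ℝ) : (av g β).im = -β := by simp [av]

theorem norm_av {g β : ℝ} (hg0 : 0 ≤ g) (hg : g ≤ 1 / 2) (hβ : β ∈ Icc (0 : ℝ) 1) :
    ‖av g β‖ ≤ 3 / 2 := by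
  have h := norm_sub_le (g : ℂ) (I * β)
  simp only [norm_real, Real.norm_eq_abs, norm_mul, norm_I, one_mul, abs_of_nonneg hg0,
    abs_of_nonneg hβ.1] at h
  unfold av
  linarith [hβ.2]

theorem norm_cp {s : ℝ} (hs : 0 < s) (a : ℂ) : ‖(s : ℂ) ^ a‖ = s ^ a.re :=
  norm_cpow_eq_rpow_re_of_pos hs a

theorem cp_cancel {s : ℝ} (hs : 0 < s) (a : ℂ) : (s : ℂ) ^ (-a) * (s : ℂ) ^ a = 1 := by
  have : (s : ℂ) ≠ 0 := by exact_mod_cast hs.ne'
  rw [← cpow_add _ _ this]; simp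

theorem gam_nonneg (m : ℕ) : 0 ≤ gam m := by unfold gam; positivity

theorem gam_le {m : ℕ} (hm : 1 ≤ m) : gam m ≤ 1 / 2 := by
  unfold gam
  have : (1 : ℝ) ≤ m := by exact_mod_cast hm
  exact one_div_le_one_div_of_le (by norm_num) (by linarith)

theorem gam_tendsto : Tendsto gam atTop (𝓝 0) := by
  have : Tendsto (fun m : ℕ => 2 * (m : ℝ)) atTop atTop :=
    tendsto_natCast_atTop_atTop.const_mul_atTop (by norm_num)
  refine this.inv_tendsto_atTop.congr fun m => ?_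
  simp [gam]

theorem th_nonlin {S : ℝ} {m : ℕ} (hm : 1 ≤ m) (β : ℝ) (v : ℂ) (χ : ℂ → ℂ) {s : ℝ} (hs : 0 < s) :
    (Th S (av (gam m) β) v χ s * conj (Th S (av (gam m) β) v χ s)) ^ m
      = (psi S v χ s * conj (psi S v χ s)) ^ m / s := by
  have hm0 : (m : ℝ) ≠ 0 := by positivity
  have e1 : (s : ℂ) ^ (-av (gam m) β) * conj ((s : ℂ) ^ (-av (gam m) β))
      = ((s ^ (-(1 / (m : ℝ))) : ℝ) : ℂ) := by
    rw [mul_conj, normSq_eq_norm_sq, norm_cp hs, ← Real.rpow_natCast, ← Real.rpow_mul hs.le]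
    congr 2
    simp only [neg_re, av_re, gam]
    push_cast
    field_simp
  have e2 : ((s ^ (-(1 / (m : ℝ))) : ℝ) : ℂ) ^ m = (s : ℂ)⁻¹ := by
    rw [← ofReal_pow, ← Real.rpow_natCast, ← Real.rpow_mul hs.le, ← ofReal_inv,
      ← Real.rpow_neg_one]
    congr 2
    field_simp
  have e3 : Th S (av (gam m) β) v χ s * conj (Th S (av (gam m) β) v χ s)
      = ((s : ℂ) ^ (-av (gam m) β) * conj ((s : ℂ) ^ (-av (gam m) β)))
        * (psi S v χ s * conj (psi S v χ s)) := by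
    simp only [Th, map_mul]; ring
  rw [e3, e1, mul_pow, e2]
  ring

theorem th_val {S : ℝ} (hS : 0 < S) (a w : ℂ) (χ : ℂ → ℂ) :
    Th S a (((S + 1 : ℝ) : ℂ) ^ a * w) χ (S + 1) = w := by
  have h := cp_cancel (s := S + 1) (by linarith) a
  simp only [Th, psi, add_sub_cancel_right]
  rw [← mul_assoc, h, one_mul]

theorem th_norm {S : ℝ} (g β : ℝ) (v : ℂ) (χ : ℂ → ℂ) {s : ℝ} (hs : 0 < s) :
    s ^ g * ‖Th S (av g β) v χ s‖ = ‖psi S v χ s‖ := by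
  simp only [Th, norm_mul, norm_cp hs, neg_re, av_re]
  rw [← mul_assoc, ← Real.rpow_add hs]
  simp

theorem norm_cp_sub {s : ℝ} (hs : 0 < s) (g β : ℝ) :
    ‖(s : ℂ) ^ (av g β) - (s : ℂ) ^ (av 0 β)‖ = |s ^ g - 1| := by
  have h0 : (s : ℂ) ≠ 0 := by exact_mod_cast hs.ne'
  have e : av g β = (g : ℂ) + av 0 β := by simp only [av]; push_cast; ring
  have e2 : (s : ℂ) ^ (av g β) - (s : ℂ) ^ (av 0 β)
      = ((s ^ g - 1 : ℝ) : ℂ) * (s : ℂ) ^ (av 0 β) := by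
    rw [e, cpow_add _ _ h0, ← ofReal_cpow hs.le]; push_cast; ring
  rw [e2, norm_mul, norm_cp hs, norm_real]
  simp

theorem norm_cp_sub' {s : ℝ} (hs : 0 < s) (g β : ℝ) :
    ‖(s : ℂ) ^ (-av g β) - (s : ℂ) ^ (-av 0 β)‖ = |s ^ (-g) - 1| := by
  have h := norm_cp_sub hs (-g) (-β)
  have e1 : av (-g) (-β) = -av g β := by simp only [av]; push_cast; ring
  have e2 : av 0 (-β) = -av 0 β := by simp only [av]; push_cast; ring
  rwa [e1, e2] at h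

theorem small_pow {t : ℝ} (h0 : 0 ≤ t) (h1 : t < 1) :
    Tendsto (fun m : ℕ => (2 * (m : ℝ) + 1) * t ^ (2 * m)) atTop (𝓝 0) := by
  have h2 : Tendsto (fun m : ℕ => 2 * m) atTop atTop :=
    tendsto_id.const_mul_atTop' (by norm_num)
  have a := (tendsto_self_mul_const_pow_of_lt_one h0 h1).comp h2
  have b := (tendsto_pow_atTop_nhds_zero_of_lt_one h0 h1).comp h2
  have c := a.add b
  simp only [add_zero] at c
  refine c.congr fun m => ?_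
  simp only [Function.comp]
  push_cast
  ring

theorem fin_est {S g β A t : ℝ} {n : ℕ} {w X Y : ℂ} (hS0 : 0 < S) (hg : 0 ≤ g) (hA : 0 ≤ A)
    (ht : 0 ≤ t) (hw1 : ‖w‖ ≤ 1)
    (hc : ‖X - w * Y‖ ≤ 8 * (41 / 4 * ‖((S + 1 : ℝ) : ℂ) ^ av g β * w
      - w * (((S + 1 : ℝ) : ℂ) ^ av 0 β * 1)‖ + A * ‖av g β - av 0 β‖
      + |(1 : ℝ) - 0| * t ^ n / 4) / ((S + 1 : ℝ) : ℂ).re ^ 2)
    (hb : ‖Y‖ ≤ 100 / ((S + 1 : ℝ) : ℂ).re ^ 2) :
    ‖((S + 1 : ℝ) : ℂ) ^ (-av g β) * (X - av g β * (((S + 1 : ℝ) : ℂ) ^ av g β * w)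
        / ((S + 1 : ℝ) : ℂ)) - w * (((S + 1 : ℝ) : ℂ) ^ (-av 0 β)
        * (Y - av 0 β * (((S + 1 : ℝ) : ℂ) ^ av 0 β * 1) / ((S + 1 : ℝ) : ℂ)))‖
      ≤ 8 * (41 / 4 * |(S + 1) ^ g - 1| + A * |g| + t ^ n / 4)
        + |(S + 1) ^ (-g) - 1| * 100 + |g| := by
  have hS2 : (0 : ℝ) < S + 1 := by linarith
  have c1 := cp_cancel hS2 (av g β)
  have c2 := cp_cancel hS2 (av 0 β)
  have n1 : ‖((S + 1 : ℝ) : ℂ) ^ (-av g β)‖ ≤ 1 := by
    rw [norm_cp hS2]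
    exact Real.rpow_le_one_of_one_le_of_nonpos (by linarith) (by simpa using hg)
  have n5 := norm_cp_sub' hS2 g β
  have n6 := norm_cp_sub hS2 g β
  have n7 : ‖((S + 1 : ℝ) : ℂ)‖ = S + 1 := by rw [norm_real, Real.norm_eq_abs, abs_of_pos hS2]
  have hre : (1 : ℝ) ≤ ((S + 1 : ℝ) : ℂ).re ^ 2 := by rw [ofReal_re]; nlinarith
  generalize ((S + 1 : ℝ) : ℂ) = S₂ at *
  have ea : av g β - av 0 β = g := by simp [av]
  have e : S₂ ^ (-av g β) * (X - av g β * (S₂ ^ av g β * w) / S₂)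
      - w * (S₂ ^ (-av 0 β) * (Y - av 0 β * (S₂ ^ av 0 β * 1) / S₂))
      = S₂ ^ (-av g β) * (X - w * Y) + (S₂ ^ (-av g β) - S₂ ^ (-av 0 β)) * (w * Y)
        - (g : ℂ) * w / S₂ := by
    rw [← ea]
    linear_combination (-(av g β * w / S₂)) * c1 + (av 0 β * w / S₂) * c2
  rw [e]
  have n2 : ‖X - w * Y‖ ≤ 8 * (41 / 4 * |(S + 1) ^ g - 1| + A * |g| + t ^ n / 4) := by
    refine hc.trans ((div_le_self (by positivity) hre).trans ?_)
    have e1 : S₂ ^ av g β * w - w * (S₂ ^ av 0 β * 1) = (S₂ ^ av g β - S₂ ^ av 0 β) * w := by ring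
    have e2 : ‖S₂ ^ av g β * w - w * (S₂ ^ av 0 β * 1)‖ ≤ |(S + 1) ^ g - 1| := by
      rw [e1, norm_mul, n6]
      exact mul_le_of_le_one_right (abs_nonneg _) hw1
    rw [ea, norm_real, Real.norm_eq_abs, sub_zero, abs_one, one_mul]
    linarith
  have n3 : ‖w * Y‖ ≤ 100 := by
    rw [norm_mul]
    have : ‖Y‖ ≤ 100 := hb.trans (div_le_self (by norm_num) hre)
    nlinarith [norm_nonneg w, norm_nonneg Y]
  have n4 : ‖(g : ℂ) * w / S₂‖ ≤ |g| := by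
    rw [norm_div, norm_mul, norm_real, Real.norm_eq_abs, n7]
    exact (div_le_self (by positivity) (by linarith)).trans
      (mul_le_of_le_one_right (abs_nonneg _) hw1)
  refine (norm_sub_le _ _).trans (add_le_add ((norm_add_le _ _).trans (add_le_add ?_ ?_)) n4)
  · rw [norm_mul]
    exact (mul_le_of_le_one_left (norm_nonneg _) n1).trans n2
  · rw [norm_mul, n5]
    exact mul_le_mul_of_nonneg_left n3 (abs_nonneg _)

theorem err_lim {S : ℝ} (hS0 : 0 < S) (A : ℝ) {t : ℝ} (h0 : 0 ≤ t) (h1 : t < 1) :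
    Tendsto (fun m : ℕ => 8 * (41 / 4 * |(S + 1) ^ gam m - 1| + A * |gam m| + t ^ (2 * m + 1) / 4)
      + |(S + 1) ^ (-gam m) - 1| * 100 + |gam m|) atTop (𝓝 0) := by
  have hS2 : (0 : ℝ) < S + 1 := by linarith
  have c1 : Continuous fun x : ℝ => (S + 1) ^ x := Real.continuous_const_rpow hS2.ne'
  have t0 := gam_tendsto.abs
  have t1 : Tendsto (fun m : ℕ => |(S + 1) ^ gam m - 1|) atTop (𝓝 0) := by
    have := (((c1.tendsto 0).comp gam_tendsto).sub_const 1).abs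
    simpa using this
  have t1' : Tendsto (fun m : ℕ => |(S + 1) ^ (-gam m) - 1|) atTop (𝓝 0) := by
    have := (((c1.tendsto (-0)).comp gam_tendsto.neg).sub_const 1).abs
    simpa using this
  have t2 : Tendsto (fun m : ℕ => t ^ (2 * m + 1)) atTop (𝓝 0) :=
    (tendsto_pow_atTop_nhds_zero_of_lt_one h0 h1).comp
      (tendsto_atTop_mono (fun m => by simp only [id]; omega) tendsto_id)
  have := (((((t1.const_mul (41 / 4)).add (t0.const_mul A)).add (t2.div_const 4)).const_mul 8).add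
    (t1'.mul_const 100)).add t0
  simpa using this

end PEMain

open PEMain in
theorem s_pext_of (hK : S_peK) (hJ : S_peJ) (hF : S_peFix) (hT : S_peStab) (hH : S_peH)
    (hO : S_peOde) (hY : S_peSymb) : S_pext := by
  intro θ hθ0 hθ1
  choose chi hchi using exists_sol hK hF hH
  obtain ⟨S, hS, hSθ⟩ : ∃ S : ℝ, 400 ≤ S ∧ 200 / S ≤ (1 - θ) / 3 := by
    have h1 : 0 < 1 - θ := by linarith
    have h2 : 0 < 600 / (1 - θ) := by positivity
    refine ⟨400 + 600 / (1 - θ), by linarith, ?_⟩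
    rw [div_le_iff₀ (by positivity)]
    have : (1 - θ) / 3 * (400 + 600 / (1 - θ)) = (1 - θ) / 3 * 400 + 200 := by
      field_simp; ring
    rw [this]; linarith
  have hS1 : (1 : ℝ) ≤ S := by linarith
  have hS0 : (0 : ℝ) < S := by linarith
  have hS2 : (0 : ℝ) < S + 1 := by linarith
  have hSh : 200 / S ≤ 1 / 2 := by rw [div_le_iff₀ hS0]; linarith
  have hSh0 : 0 ≤ 200 / S := by positivity
  obtain ⟨Cf, hCf⟩ := hY S hS1
  obtain ⟨θ₁, hθ₁⟩ : ∃ θ₁ : ℝ, θ₁ = (2 * θ + 1) / 3 := ⟨_, rfl⟩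
  obtain ⟨θ', hθ'⟩ : ∃ θ' : ℝ, θ' = (θ + 2) / 3 := ⟨_, rfl⟩
  have ht1 : θ < θ₁ := by rw [hθ₁]; linarith
  have ht2 : θ₁ < 1 := by rw [hθ₁]; linarith
  have ht3 : θ' < 1 := by rw [hθ']; linarith
  have ht4 : 0 < θ' := by rw [hθ']; linarith
  have ht5 : 0 < θ₁ := by linarith
  -- the ball
  have hball : ∀ v : ℂ, ‖v‖ ≤ θ₁ → ‖v‖ + 2 * (100 * θ₁) / S ≤ θ' := by
    intro v hv
    have e : 2 * (100 * θ₁) / S = θ₁ * (200 / S) := by ring
    have : θ₁ * (200 / S) ≤ 1 * (200 / S) := mul_le_mul_of_nonneg_right ht2.le hSh0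
    rw [e]; linarith
  have hball' : ∀ v : ℂ, ‖v‖ ≤ θ₁ → ‖v‖ + 2 * (100 * ‖v‖) / S ≤ θ' := by
    intro v hv
    refine le_trans ?_ (hball v hv)
    gcongr
  set S₂ : ℂ := ((S + 1 : ℝ) : ℂ) with hS₂
  have hS₂m : S₂ ∈ HP S := by simp [hS₂, mem_HP]
  have hS₂re : S₂.re = S + 1 := by simp [hS₂]
  -- linear solutions
  have hv0 : ∀ β : ℝ, ‖S₂ ^ av 0 β * 1‖ = 1 := by
    intro β; rw [mul_one, hS₂, norm_cp hS2]; simp
  have hl : ∀ β ∈ Icc (0 : ℝ) 1, Sol S 0 (av 0 β) 0 (S₂ ^ av 0 β * 1) 100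
      (chi S 0 (av 0 β) 0 (S₂ ^ av 0 β * 1)) := by
    intro β hβ
    have := hchi S 0 (av 0 β) 0 (S₂ ^ av 0 β * 1) 2 hS (norm_av le_rfl (by norm_num) hβ) le_rfl
      (by simp) (by
        rw [hv0]
        have : 2 * (100 * (1 : ℝ)) / S = 200 / S := by ring
        linarith)
    rwa [hv0, mul_one (100 : ℝ)] at this
  have hlO := fun (β : ℝ) (hβ : β ∈ Icc (0 : ℝ) 1) =>
    hO S 100 0 (av 0 β) (S₂ ^ av 0 β * 1) 0 _ hS1 (hl β hβ).1
      (sol_deriv hK hH (r := 2) hS (by norm_num) (norm_av le_rfl (by norm_num) hβ) le_rfl (by simp)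
        (by
          rw [hv0]
          have : 2 * (100 : ℝ) / S = 200 / S := by ring
          linarith) (hl β hβ))
  -- good `m`
  have hgood : ∀ᶠ m : ℕ in atTop, 1 ≤ m ∧ (S + 1) ^ gam m * θ ≤ θ₁ ∧
      (1 : ℝ) * (2 * m + 1) * θ' ^ (2 * m) ≤ 1 := by
    have h1 : Tendsto (fun m : ℕ => (S + 1) ^ gam m * θ) atTop (𝓝 ((S + 1) ^ (0 : ℝ) * θ)) :=
      (((Real.continuousAt_const_rpow hS2.ne').tendsto).comp gam_tendsto).mul_const θ
    rw [Real.rpow_zero, one_mul] at h1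
    filter_upwards [eventually_ge_atTop 1, h1.eventually (ge_mem_nhds ht1),
      (small_pow ht4.le ht3).eventually (ge_mem_nhds one_pos)] with m a b c
    exact ⟨a, b, by rw [one_mul]; exact c⟩
  have hvn : ∀ (m : ℕ) (β : ℝ) (w : ℂ), ‖S₂ ^ av (gam m) β * w‖ = (S + 1) ^ gam m * ‖w‖ := by
    intro m β w; rw [norm_mul, hS₂, norm_cp hS2, av_re]
  have hv1 : ∀ m : ℕ, (S + 1) ^ gam m * θ ≤ θ₁ → ∀ (β : ℝ) (w : ℂ), ‖w‖ ≤ θ →
      ‖S₂ ^ av (gam m) β * w‖ ≤ θ₁ := by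
    intro m hm β w hw
    rw [hvn]
    exact le_trans (mul_le_mul_of_nonneg_left hw (by positivity)) hm
  have he : ∀ m : ℕ, 1 ≤ m → (S + 1) ^ gam m * θ ≤ θ₁ →
      (1 : ℝ) * (2 * m + 1) * θ' ^ (2 * m) ≤ 1 → ∀ β ∈ Icc (0 : ℝ) 1, ∀ w : ℂ, ‖w‖ ≤ θ →
      Sol S m (av (gam m) β) 1 (S₂ ^ av (gam m) β * w) (100 * ‖S₂ ^ av (gam m) β * w‖)
        (chi S m (av (gam m) β) 1 (S₂ ^ av (gam m) β * w)) := by
    intro m h1 h2 h3 β hβ w hw
    exact hchi S m _ 1 _ θ' hS (norm_av (gam_nonneg m) (gam_le h1) hβ) zero_le_one h3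
      (hball' _ (hv1 m h2 β w hw))
  have he' : ∀ m : ℕ, 1 ≤ m → (S + 1) ^ gam m * θ ≤ θ₁ →
      (1 : ℝ) * (2 * m + 1) * θ' ^ (2 * m) ≤ 1 → ∀ β ∈ Icc (0 : ℝ) 1, ∀ w : ℂ, ‖w‖ ≤ θ →
      Sol S m (av (gam m) β) 1 (S₂ ^ av (gam m) β * w) (100 * θ₁)
        (chi S m (av (gam m) β) 1 (S₂ ^ av (gam m) β * w)) := by
    intro m h1 h2 h3 β hβ w hw
    have := he m h1 h2 h3 β hβ w hw
    exact ⟨hb_mono this.1 (by linarith [hv1 m h2 β w hw]), this.2⟩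
  have heO := fun (m : ℕ) (h1 : 1 ≤ m) (h2 : (S + 1) ^ gam m * θ ≤ θ₁)
      (h3 : (1 : ℝ) * (2 * m + 1) * θ' ^ (2 * m) ≤ 1) (β : ℝ) (hβ : β ∈ Icc (0 : ℝ) 1) (w : ℂ)
      (hw : ‖w‖ ≤ θ) =>
    hO S _ m (av (gam m) β) (S₂ ^ av (gam m) β * w) 1 _ hS1 (he' m h1 h2 h3 β hβ w hw).1
      (sol_deriv hK hH hS (by positivity) (norm_av (gam_nonneg m) (gam_le h1) hβ) zero_le_one h3
        (hball _ (hv1 m h2 β w hw)) (he' m h1 h2 h3 β hβ w hw))
  refine ⟨S, θ', Cf, fun β => Th S (av 0 β) (S₂ ^ av 0 β * 1) (chi S 0 (av 0 β) 0 (S₂ ^ av 0 β * 1)),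
    fun m β w => Th S (av (gam m) β) (S₂ ^ av (gam m) β * w)
      (chi S m (av (gam m) β) 1 (S₂ ^ av (gam m) β * w)), by linarith, ht3, ?_, ?_, ?_⟩
  · intro β hβ
    obtain ⟨A, B, -⟩ := hlO β hβ
    refine ⟨A, fun s hs => ?_, th_val hS0 _ _ _, fun k s hs => ?_⟩
    · have h := B s hs
      simp only [FreeF, av] at h ⊢
      simp only [ofReal_zero, zero_mul, zero_div, Nat.cast_zero] at h ⊢
      linear_combination I * h + (-(s : ℂ) * deriv (Th S (0 - I * β) (S₂ ^ (0 - I * (β : ℂ)) * 1)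
        (chi S 0 (0 - I * β) 0 (S₂ ^ (0 - I * (β : ℂ)) * 1))) s + I * β * Th S (0 - I * β)
        (S₂ ^ (0 - I * (β : ℂ)) * 1) (chi S 0 (0 - I * β) 0 (S₂ ^ (0 - I * (β : ℂ)) * 1)) s) * I_sq
    · have h := hCf (psi S (S₂ ^ av 0 β * 1) (chi S 0 (av 0 β) 0 (S₂ ^ av 0 β * 1))) (av 0 β)
        (psi_diff hJ _ hS0 (hl β hβ).1) (fun z hz => by
          have h1 := psi_bound hJ (S₂ ^ av 0 β * 1) hS0 (by norm_num) (hl β hβ).1 z hz
          have h2 := norm_le_insert' (psi S (S₂ ^ av 0 β * 1)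
            (chi S 0 (av 0 β) 0 (S₂ ^ av 0 β * 1)) z) (S₂ ^ av 0 β * 1)
          have : 2 * (100 : ℝ) / S = 200 / S := by ring
          rw [hv0] at h2
          linarith) (by simp) (by simp) (by simpa [abs_le] using ⟨by linarith [hβ.1], hβ.2⟩) k s hs
      simp only [av_re, neg_zero, zero_sub] at h
      exact h
  · filter_upwards [hgood] with m ⟨h1, h2, h3⟩
    refine ⟨?_, fun β hβ w hw => ?_⟩
    · have hS₂0 : S₂ ≠ 0 := by rw [hS₂]; exact_mod_cast hS2.ne'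
      have ca : Continuous fun p : ℝ × ℂ => av (gam m) p.1 := by unfold av; fun_prop
      have cv : Continuous fun p : ℝ × ℂ => S₂ ^ av (gam m) p.1 * p.2 :=
        (ca.const_cpow (Or.inl hS₂0)).mul continuous_snd
      have cn : Continuous fun p : ℝ × ℂ => S₂ ^ (-av (gam m) p.1) :=
        ca.neg.const_cpow (Or.inl hS₂0)
      have cc : ContinuousOn (fun p : ℝ × ℂ =>
          chi S m (av (gam m) p.1) 1 (S₂ ^ av (gam m) p.1 * p.2) S₂)
          (Icc (0 : ℝ) 1 ×ˢ Metric.closedBall (0 : ℂ) θ) := by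
        intro q hq
        rw [ContinuousWithinAt, tendsto_iff_norm_sub_tendsto_zero]
        have hq2 : ‖q.2‖ ≤ θ := by simpa using hq.2
        have lim : Tendsto (fun p : ℝ × ℂ => 8 * (41 / 4 * ‖S₂ ^ av (gam m) p.1 * p.2
            - S₂ ^ av (gam m) q.1 * q.2‖ + (8 * θ' + 2 * (100 * θ₁) / S)
              * ‖av (gam m) p.1 - av (gam m) q.1‖ + |(1 : ℝ) - 1| * θ' ^ (2 * m + 1) / 4)
              / S₂.re ^ 2) (𝓝[Icc (0 : ℝ) 1 ×ˢ Metric.closedBall (0 : ℂ) θ] q) (𝓝 0) := by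
          refine Tendsto.mono_left ?_ nhdsWithin_le_nhds
          refine Continuous.tendsto' (by fun_prop) q 0 (by simp)
        refine squeeze_zero' (Eventually.of_forall fun _ => norm_nonneg _) ?_ lim
        filter_upwards [self_mem_nhdsWithin] with p hp
        have hp2 : ‖p.2‖ ≤ θ := by simpa using hp.2
        exact cmp hK hT hH hS (by positivity) (norm_av (gam_nonneg m) (gam_le h1) hp.1) zero_le_one
          h3 (hball _ (hv1 m h2 _ _ hp2)) (norm_av (gam_nonneg m) (gam_le h1) hq.1) zero_le_one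
          h3 (hball _ (hv1 m h2 _ _ hq2)) (he' m h1 h2 h3 _ hp.1 _ hp2)
          (he' m h1 h2 h3 _ hq.1 _ hq2) S₂ hS₂m
      refine (cn.continuousOn.mul (cc.sub ((ca.mul cv).div_const S₂).continuousOn)).congr ?_
      intro p hp
      have hp2 : ‖p.2‖ ≤ θ := by simpa using hp.2
      exact (heO m h1 h2 h3 _ hp.1 _ hp2).2.2
    · obtain ⟨A, B, -⟩ := heO m h1 h2 h3 β hβ w hw
      have hb := psi_bound hJ (S₂ ^ av (gam m) β * w) hS0 (by positivity)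
        (he m h1 h2 h3 β hβ w hw).1
      have hb2 : ∀ z ∈ HP S, ‖psi S (S₂ ^ av (gam m) β * w)
          (chi S m (av (gam m) β) 1 (S₂ ^ av (gam m) β * w)) z‖ ≤ θ' := by
        intro z hz
        have h2' := norm_le_insert' (psi S (S₂ ^ av (gam m) β * w)
          (chi S m (av (gam m) β) 1 (S₂ ^ av (gam m) β * w)) z) (S₂ ^ av (gam m) β * w)
        linarith [hb z hz, hball' _ (hv1 m h2 β w hw)]
      refine ⟨A, fun s hs => ?_, th_val hS0 _ _ _, fun s hs => ?_, fun k s hs => ?_⟩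
      · have h := B s hs
        unfold POde
        rw [th_nonlin h1 β _ _ (by linarith)]
        have e : I * av (gam m) β = β + I * gam m := by
          simp only [av]; linear_combination (-(β : ℂ)) * I_sq
        rw [e] at h
        rw [h]; simp
      · have hs' : (s : ℂ) ∈ HP S := by simp only [mem_HP, ofReal_re]; linarith
        rw [th_norm _ _ _ _ (by linarith)]
        refine ⟨?_, hb2 _ hs'⟩
        have h4 := hb _ hs'
        have h5 := norm_le_insert (psi S (S₂ ^ av (gam m) β * w)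
          (chi S m (av (gam m) β) 1 (S₂ ^ av (gam m) β * w)) s) (S₂ ^ av (gam m) β * w)
        have h6 : ‖w‖ ≤ ‖S₂ ^ av (gam m) β * w‖ := by
          rw [hvn]
          exact le_mul_of_one_le_left (norm_nonneg w)
            (Real.one_le_rpow (by linarith) (gam_nonneg m))
        have e : 2 * (100 * ‖S₂ ^ av (gam m) β * w‖) / S = ‖S₂ ^ av (gam m) β * w‖ * (200 / S) := by
          ring
        have h7 := mul_le_mul_of_nonneg_left hSh (norm_nonneg (S₂ ^ av (gam m) β * w))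
        linarith
      · have h := hCf _ (av (gam m) β) (psi_diff hJ (S₂ ^ av (gam m) β * w) hS0
          (he m h1 h2 h3 β hβ w hw).1) (fun z hz => by linarith [hb2 z hz])
          (by simpa using gam_nonneg m) (by simpa using (gam_le h1).trans (by norm_num))
          (by simpa [abs_le] using ⟨by linarith [hβ.1], hβ.2⟩) k s hs
        simp only [av_re] at h
        exact h
  · intro ε hε
    have lim := err_lim hS0 (8 * θ' + 2 * (100 * θ₁) / S) ht4.le ht3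
    filter_upwards [hgood, lim.eventually (ge_mem_nhds hε)] with m ⟨h1, h2, h3⟩ hm β hβ w hw
    refine le_trans ?_ hm
    rw [(heO m h1 h2 h3 β hβ w hw).2.2, (hlO β hβ).2.2]
    have hw1 : ‖w‖ ≤ 1 := by linarith
    have hl' := sol_smul (m' := m) w (hl β hβ)
    have hl'' : Sol S m (av 0 β) 0 (w * (S₂ ^ av 0 β * 1)) (100 * θ₁)
        (fun y => w * chi S 0 (av 0 β) 0 (S₂ ^ av 0 β * 1) y) :=
      ⟨hb_mono hl'.1 (by linarith), hl'.2⟩
    have hc := cmp hK hT hH hS (by positivity) (norm_av (gam_nonneg m) (gam_le h1) hβ) zero_le_one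
      h3 (hball _ (hv1 m h2 _ _ hw)) (norm_av le_rfl (by norm_num) hβ) le_rfl (by simp)
      (hball _ (by rw [norm_mul, hv0]; linarith)) (he' m h1 h2 h3 _ hβ _ hw) hl'' S₂ hS₂m
    have hb := (hl β hβ).1.2 S₂ hS₂m
    exact fin_est hS0 (gam_nonneg m) (by positivity) ht4.le hw1 hc hb

end P139
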