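import Vale.Agent.P139.PDefs

/-! P139 part P: statements of the glue pieces. -/

open Complex Set Filter Topology MeasureTheory
open scoped ContDiff ComplexConjugate

noncomputable section
namespace P139.PP

/-- right side of the regular-singular integral equation with a general nonlinearity -/
def DG (F : ℂ → ℂ) (Θ : ℝ → ℂ) (s : ℝ) : ℂ :=
  1 / 4 * ∫ t in (0 : ℝ)..1, (t : ℂ) ^ 5 * cexp (I * s * (t - 1) / 4) * F (Θ (s * t))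

theorem Dint_eq (m : ℕ) (β : ℝ) (Θ : ℝ → ℂ) (s : ℝ) : Dint m β Θ s = DG (Ftr m β) Θ s := rfl

/-- `q` and `q'` of a function of `s = r²` -/
def qq (Θ : ℝ → ℂ) (r : ℝ) : ℂ := Θ (r ^ 2)
def qd (Θ : ℝ → ℂ) (r : ℝ) : ℂ := 2 * r * deriv Θ (r ^ 2)

/-- `U` is a smooth solution of the free equation on `(0,∞)` -/
def FSol (β : ℝ) (U : ℝ → ℂ) : Prop :=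
  ContDiffOn ℝ ∞ U (Ioi 0) ∧ ∀ s : ℝ, 0 < s → FreeF β 0 0 U s = 0

/-- weighted Wronskian -/
def Wr (Θ U : ℝ → ℂ) (s : ℝ) : ℂ :=
  (s : ℂ) ^ 6 * cexp (I * s / 4) * (deriv Θ s * U s - Θ s * deriv U s)

/-- normalised mismatch -/
def Phi (U : ℝ → ℂ) (s₁ s₂ : ℝ) (d : ℂ) : ℂ :=
  -(d * U s₂ * (s₂ : ℂ) ^ 6 * cexp (I * s₂ / 4)) / (U s₁ * (s₁ : ℂ) ^ 6 * cexp (I * s₁ / 4))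

/-! ### interior existence -/

def S_lip : Prop := ∀ m : ℕ, ∃ L : ℝ, 0 ≤ L ∧ ∀ β ∈ Icc (0 : ℝ) 1, ∀ z z' : ℂ,
  ‖Ftr m β z - Ftr m β z'‖ ≤ L * ‖z - z'‖

def S_fix1 : Prop := ∀ (F : ℂ → ℂ) (L : ℝ), 0 ≤ L → (∀ z z' : ℂ, ‖F z - F z'‖ ≤ L * ‖z - z'‖) →
  F 0 = 0 → ∀ a : ℂ, ∃ Θ : ℝ → ℂ, Θ 0 = a ∧ ∀ s : ℝ, HasDerivAt Θ (DG F Θ s) s

def S_fix2 : Prop := ∀ (F F' : ℂ → ℂ) (L η B A : ℝ) (Θ Θ' : ℝ → ℂ), 0 ≤ L → 0 ≤ η → 0 ≤ A →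
  Continuous F → (∀ z z' : ℂ, ‖F' z - F' z'‖ ≤ L * ‖z - z'‖) →
  (∀ z : ℂ, ‖F z - F' z‖ ≤ η * ‖z‖) →
  (∀ s : ℝ, HasDerivAt Θ (DG F Θ s) s) → (∀ s : ℝ, HasDerivAt Θ' (DG F' Θ' s) s) →
  (∀ s ∈ Icc (-A) A, ‖Θ s‖ ≤ B) →
  ∀ s ∈ Icc (-A) A, ‖Θ s - Θ' s‖ ≤ 2 * (‖Θ 0 - Θ' 0‖ + η * B * A) * Real.exp (L * A)

def S_ex : Prop := ∀ m : ℕ, ∃ Θ : ℝ → ℝ → ℝ → ℂ,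
  Continuous (fun x : ℝ × ℝ × ℝ => Θ x.1 x.2.1 x.2.2) ∧
  Continuous (fun x : ℝ × ℝ × ℝ => Dint m x.2.1 (Θ x.1 x.2.1) x.2.2) ∧
  ∀ a : ℝ, ∀ β ∈ Icc (0 : ℝ) 1, TSol m β a (Θ a β)

def S_tq : Prop := ∀ (m : ℕ) (β a : ℝ) (Θ : ℝ → ℂ), TSol m β a Θ →
  Continuous (deriv Θ) ∧ 24 * deriv Θ 0 = Ftr m β a ∧
  (∀ s : ℝ, s ≠ 0 → HasDerivAt (deriv Θ)
    ((Ftr m β (Θ s) - (24 + I * s) * deriv Θ s) / (4 * s)) s) ∧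
  QSol m β (qq Θ) (qd Θ)

def S_par : Prop := ∀ (k j : ℕ) (ε : ℝ) (g : ℝ → ℂ), 0 < ε → ContDiffOn ℝ k g (Ioi (-ε)) →
  ContDiffOn ℝ k (fun s : ℝ => ∫ t in (0 : ℝ)..1, (t : ℂ) ^ j * g (s * t)) (Ioi (-ε))

def S_sm : Prop := ∀ (m : ℕ) (β a : ℝ) (Θ : ℝ → ℂ), TSol m β a Θ →
  (∀ s : ℝ, 0 ≤ s → ‖Θ s‖ ^ (2 * m) ≤ 2) →
  ∃ ε : ℝ, 0 < ε ∧ ContDiffOn ℝ ∞ Θ (Ioi (-ε)) ∧ ∀ s : ℝ, -ε < s → POde m β Θ s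

def S_ne : Prop := ∀ (m : ℕ) (β : ℝ) (q q1 : ℝ → ℂ), 1 ≤ m → QSol m β q q1 → q 0 ≠ 0 →
  ∀ r : ℝ, 0 ≤ r → q r ≠ 0

def S_qne : Prop := ∀ (β s₀ : ℝ) (U : ℝ → ℂ), FSol β U → 0 < s₀ → deriv U s₀ = 0 → U s₀ ≠ 0 →
  ∀ s : ℝ, s₀ ≤ s → U s ≠ 0

/-! ### shooting -/

def S_sur : Prop := ∀ N : ℝ × ℝ → ℝ → ℝ, Continuous (fun x : (ℝ × ℝ) × ℝ => N x.1 x.2) →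
  ∃ T : ℝ × ℝ → ℝ, Continuous T ∧ ∀ p, T p ∈ Icc (0 : ℝ) 4 ∧ (N p 0 ≤ 1 / 10 → T p = 0) ∧
    (0 < T p → ∀ r ∈ Icc (0 : ℝ) (T p), 1 / 10 ≤ N p r) ∧
    (T p < 4 → ∃ r ∈ Icc (0 : ℝ) (T p), N p r ≤ 1 / 5)

def S_mir : Prop := ∀ (x₁ x₂ β₁ β₂ μ : ℝ) (g : ℝ × ℝ → ℂ), x₁ < x₂ → β₁ < β₂ →
  ContinuousOn g (Icc x₁ x₂ ×ˢ Icc β₁ β₂) →
  (∀ β ∈ Icc β₁ β₂, 0 < (g (x₁, β)).re - μ * (g (x₁, β)).im) →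
  (∀ β ∈ Icc β₁ β₂, (g (x₂, β)).re - μ * (g (x₂, β)).im < 0) →
  (∀ x ∈ Icc x₁ x₂, 0 < (g (x, β₁)).im) → (∀ x ∈ Icc x₁ x₂, (g (x, β₂)).im < 0) →
  ∃ ε₀ : ℝ, 0 < ε₀ ∧ ∀ (X : ℝ × ℝ → ℝ) (Φ : ℝ × ℝ → ℂ),
    ContinuousOn X (Icc (0 : ℝ) 1 ×ˢ Icc β₁ β₂) → ContinuousOn Φ (Icc (0 : ℝ) 1 ×ˢ Icc β₁ β₂) →
    (∀ β ∈ Icc β₁ β₂, X (0, β) ≤ x₁) → (∀ β ∈ Icc β₁ β₂, x₂ ≤ X (1, β)) →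
    (∀ p ∈ Icc (0 : ℝ) 1 ×ˢ Icc β₁ β₂, X p ∈ Icc x₁ x₂ → ‖Φ p - g (X p, p.2)‖ ≤ ε₀) →
    ∃ p ∈ Icc (0 : ℝ) 1 ×ˢ Icc β₁ β₂, X p ∈ Icc x₁ x₂ ∧ Φ p = 0

/-- Poincare-Miranda in the plane -/
def S_mir0 : Prop := ∀ (β₁ β₂ : ℝ) (f₁ f₂ : ℝ × ℝ → ℝ), β₁ < β₂ →
  ContinuousOn f₁ (Icc (0 : ℝ) 1 ×ˢ Icc β₁ β₂) → ContinuousOn f₂ (Icc (0 : ℝ) 1 ×ˢ Icc β₁ β₂) →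
  (∀ β ∈ Icc β₁ β₂, 0 < f₁ (0, β)) → (∀ β ∈ Icc β₁ β₂, f₁ (1, β) < 0) →
  (∀ t ∈ Icc (0 : ℝ) 1, 0 < f₂ (t, β₁)) → (∀ t ∈ Icc (0 : ℝ) 1, f₂ (t, β₂) < 0) →
  ∃ p ∈ Icc (0 : ℝ) 1 ×ˢ Icc β₁ β₂, f₁ p = 0 ∧ f₂ p = 0

def S_wr : Prop := ∀ (m : ℕ) (β a s₁ s₀ s₂ B η : ℝ) (Θ U : ℝ → ℂ), TSol m β a Θ → FSol β U →
  0 < s₁ → s₁ ≤ s₀ → s₀ ≤ s₂ → (∀ s ∈ Icc s₁ s₂, ‖Θ s‖ ≤ 2 ∧ ‖U s‖ ≤ B) →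
  (∀ s ∈ Icc s₀ s₂, ‖Θ s‖ ^ (2 * m) ≤ η) →
  ‖Wr Θ U s₂ - Wr Θ U s₁‖ ≤ s₂ ^ 5 * B * (3 * (s₀ - s₁) + (η + gam m) * s₂)

def S_est : Prop := ∀ (D : FreeData) (S₂ ε₀ : ℝ), 31 ≤ S₂ → 0 < ε₀ → ∃ ε : ℝ, 0 < ε ∧
  ∀ (m : ℕ) (β a T : ℝ) (Θ : ℝ → ℂ) (e l : ℂ), β ∈ Icc D.β₁ D.β₂ → 0 < T →
    T ^ 2 / 4 ∈ Icc D.x₁ D.x₂ → TSol m β a Θ → gam m ≤ ε → ‖qq Θ T - 1‖ ≤ ε → ‖qd Θ T‖ ≤ ε →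
    (∀ r ∈ Icc T S₂, ‖qq Θ r‖ ≤ 2) → (∀ r ∈ Icc (T + ε) S₂, ‖qq Θ r‖ ^ (2 * m) ≤ ε) →
    l * D.U β S₂ = deriv (D.U β) S₂ → ‖e - Θ S₂ * l‖ ≤ ε →
    ‖Phi (D.U β) (T ^ 2) S₂ (deriv Θ S₂ - e) - deriv (D.U β) (T ^ 2) / D.U β (T ^ 2)‖ ≤ ε₀

def S_lin : Prop := ∀ (D : FreeData) (β S₁ : ℝ) (Cf : ℕ → ℝ) (F : ℝ → ℂ), β ∈ Icc D.β₁ D.β₂ →
  30 ≤ S₁ → ContDiffOn ℝ ∞ F (Ioi S₁) → (∀ s : ℝ, S₁ < s → FreeF β 0 0 F s = 0) →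
  F (S₁ + 1) = 1 →
  (∀ (k : ℕ) (s : ℝ), S₁ + 1 ≤ s → ‖iteratedDeriv k F s‖ ≤ Cf k * s ^ (-(k : ℝ))) →
  D.U β (S₁ + 1) ≠ 0 ∧ deriv F (S₁ + 1) * D.U β (S₁ + 1) = deriv (D.U β) (S₁ + 1)

def S_un : Prop := ∀ (m : ℕ) (β a S₁ : ℝ) (Θ Θe : ℝ → ℂ), β ∈ Icc (0 : ℝ) 1 → 0 < S₁ →
  TSol m β a Θ → ContDiffOn ℝ ∞ Θe (Ioi S₁) → (∀ s : ℝ, S₁ < s → POde m β Θe s) →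
  (∀ s : ℝ, S₁ + 1 ≤ s → ‖Θe s‖ ≤ 1) → Θe (S₁ + 1) = Θ (S₁ + 1) →
  deriv Θe (S₁ + 1) = deriv Θ (S₁ + 1) → ∀ s : ℝ, S₁ + 1 ≤ s → Θ s = Θe s

/-- the content of `S_asy` -/
structure AsyD where
  δ₁ : ℝ
  C : ℝ
  θf : ℝ → ℝ
  hδ : 0 < δ₁
  hθ : ∀ δ : ℝ, 0 < δ → θf δ < 1
  asy : ∀ S ε δ : ℝ, 0 < ε → 0 < δ → ∀ᶠ m : ℕ in atTop, ∀ β ∈ Icc (3 / 10 : ℝ) (4 / 10),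
    ∀ (q q1 : ℝ → ℂ) (a T : ℝ), QSol m β q q1 → q 0 = a → 0 < a → T ∈ Icc (0 : ℝ) 4 →
    (∀ r ∈ Icc (0 : ℝ) T, 1 / 10 ≤ ‖q r‖ ^ (2 * m)) →
    (∃ r ∈ Icc (0 : ℝ) T, ‖q r‖ ^ (2 * m) ≤ 1 / 5) →
    (∀ r ∈ Icc (0 : ℝ) T, ‖q r - 1‖ ≤ ε ∧ ‖q1 r‖ ≤ ε) ∧
    (∀ r ∈ Icc (0 : ℝ) S, ‖q r‖ ^ (2 * m) ≤ 2 ∧ ‖q1 r‖ ≤ r) ∧
    (∀ r ∈ Icc (0 : ℝ) (T + δ₁), (m : ℝ) ^ 2 * (conj (q r) * q1 r).re ≤ C) ∧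
    (∀ r ∈ Icc (T + δ) S, ‖q r‖ ≤ θf δ)

theorem asyD (h : S_asy) : Nonempty AsyD := by
  obtain ⟨δ₁, C, θf, h1, h2, h3⟩ := h
  exact ⟨⟨δ₁, C, θf, h1, h2, h3⟩⟩

/-- the content of `S_pext` -/
structure ExtD (θ : ℝ) where
  S₁ : ℝ
  θ' : ℝ
  Cf : ℕ → ℝ
  Θl : ℝ → ℝ → ℂ
  Θe : ℕ → ℝ → ℂ → ℝ → ℂ
  hS : 30 ≤ S₁
  hθ : θ' < 1
  lin : ∀ β ∈ Icc (0 : ℝ) 1, ContDiffOn ℝ ∞ (Θl β) (Ioi S₁) ∧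
    (∀ s : ℝ, S₁ < s → FreeF β 0 0 (Θl β) s = 0) ∧ Θl β (S₁ + 1) = 1 ∧
    ∀ (k : ℕ) (s : ℝ), S₁ + 1 ≤ s → ‖iteratedDeriv k (Θl β) s‖ ≤ Cf k * s ^ (-(k : ℝ))
  nl : ∀ᶠ m : ℕ in atTop,
    ContinuousOn (fun p : ℝ × ℂ => deriv (Θe m p.1 p.2) (S₁ + 1))
      (Icc (0 : ℝ) 1 ×ˢ Metric.closedBall (0 : ℂ) θ) ∧
    ∀ β ∈ Icc (0 : ℝ) 1, ∀ w : ℂ, ‖w‖ ≤ θ → ContDiffOn ℝ ∞ (Θe m β w) (Ioi S₁) ∧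
      (∀ s : ℝ, S₁ < s → POde m β (Θe m β w) s) ∧ Θe m β w (S₁ + 1) = w ∧
      (∀ s : ℝ, S₁ + 1 ≤ s → ‖w‖ / 2 ≤ s ^ gam m * ‖Θe m β w s‖ ∧
        s ^ gam m * ‖Θe m β w s‖ ≤ θ') ∧
      ∀ (k : ℕ) (s : ℝ), S₁ + 1 ≤ s →
        ‖iteratedDeriv k (Θe m β w) s‖ ≤ Cf k * s ^ (-(gam m) - (k : ℝ))
  cv : ∀ ε : ℝ, 0 < ε → ∀ᶠ m : ℕ in atTop, ∀ β ∈ Icc (0 : ℝ) 1, ∀ w : ℂ, ‖w‖ ≤ θ →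
    ‖deriv (Θe m β w) (S₁ + 1) - w * deriv (Θl β) (S₁ + 1)‖ ≤ ε

theorem extD (h : S_pext) {θ : ℝ} (h0 : 0 < θ) (h1 : θ < 1) : Nonempty (ExtD θ) := by
  obtain ⟨S₁, θ', Cf, Θl, Θe, a1, a2, a3, a4, a5⟩ := h θ h0 h1
  exact ⟨⟨S₁, θ', Cf, Θl, Θe, a1, a2, a3, a4, a5⟩⟩

/-- an interior solution with free boundary near `T` -/
structure Pre (D : FreeData) (m : ℕ) (β a T : ℝ) (Θ : ℝ → ℂ) : Prop where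
  hβ : β ∈ Icc D.β₁ D.β₂
  ha : 0 < a
  hT : 0 < T
  hx : T ^ 2 / 4 ∈ Icc D.x₁ D.x₂
  sol : TSol m β a Θ
  ge : ∀ r ∈ Icc (0 : ℝ) T, 1 / 10 ≤ ‖qq Θ r‖ ^ (2 * m)
  le : ∃ r ∈ Icc (0 : ℝ) T, ‖qq Θ r‖ ^ (2 * m) ≤ 1 / 5

/-- uniform mismatch estimate for all `Pre` solutions -/
def S_phi : Prop := ∀ (D : FreeData) (A : AsyD) (θ : ℝ) (E : ExtD θ), A.θf 1 ≤ θ →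
  ∀ ε₀ : ℝ, 0 < ε₀ → ∀ᶠ m : ℕ in atTop, ∀ (β a T : ℝ) (Θ : ℝ → ℂ), Pre D m β a T Θ →
    ‖Θ (E.S₁ + 1)‖ ≤ θ ∧
    ‖Phi (D.U β) (T ^ 2) (E.S₁ + 1)
        (deriv Θ (E.S₁ + 1) - deriv (E.Θe m β (Θ (E.S₁ + 1))) (E.S₁ + 1))
      - deriv (D.U β) (T ^ 2) / D.U β (T ^ 2)‖ ≤ ε₀

/-- existence of matched solutions -/
def S_zero : Prop := ∀ (D : FreeData) (A : AsyD) (θ : ℝ) (E : ExtD θ), 0 < θ → A.θf 1 ≤ θ →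
  ∀ᶠ m : ℕ in atTop, ∃ (β a T : ℝ) (Θ : ℝ → ℂ), Pre D m β a T Θ ∧
    deriv Θ (E.S₁ + 1) = deriv (E.Θe m β (Θ (E.S₁ + 1))) (E.S₁ + 1)

/-- a sequence of matched global solutions -/
structure Fam (D : FreeData) where
  m : ℕ → ℕ
  β : ℕ → ℝ
  a : ℕ → ℝ
  T : ℕ → ℝ
  Θ : ℕ → ℝ → ℂ
  S : ℝ
  θ' : ℝ
  δ₁ : ℝ
  C : ℝ
  Cf : ℕ → ℝ
  m_pos : ∀ j, 1 ≤ m j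
  m_lim : Tendsto m atTop atTop
  pre : ∀ j, Pre D (m j) (β j) (a j) (T j) (Θ j)
  hS : 31 ≤ S
  hθ : θ' < 1
  hδ : 0 < δ₁
  Nb : ∀ j, ∀ s : ℝ, 0 ≤ s → ‖Θ j s‖ ^ (2 * m j) ≤ 2
  ext : ∀ j, ∀ s : ℝ, S ≤ s → ‖Θ j S‖ / 2 ≤ s ^ gam (m j) * ‖Θ j s‖ ∧
    s ^ gam (m j) * ‖Θ j s‖ ≤ θ'
  symb : ∀ j, ∀ (k : ℕ) (s : ℝ), S + 1 ≤ s →
    ‖iteratedDeriv k (Θ j) s‖ ≤ Cf k * s ^ (-(gam (m j)) - (k : ℝ))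
  near : ∀ ε : ℝ, 0 < ε → ∀ᶠ j in atTop, ∀ r ∈ Icc (0 : ℝ) (T j),
    ‖qq (Θ j) r - 1‖ ≤ ε ∧ ‖qd (Θ j) r‖ ≤ ε
  d1 : ∀ A : ℝ, ∀ᶠ j in atTop, ∀ r ∈ Icc (0 : ℝ) A, ‖qd (Θ j) r‖ ≤ r
  mono : ∀ᶠ j in atTop, ∀ r ∈ Icc (0 : ℝ) (T j + δ₁),
    (m j : ℝ) ^ 2 * (conj (qq (Θ j) r) * qd (Θ j) r).re ≤ C
  lt : ∀ δ : ℝ, 0 < δ → ∃ θ : ℝ, θ < 1 ∧ ∀ A : ℝ, ∀ᶠ j in atTop, ∀ r ∈ Icc (T j + δ) A,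
    ‖qq (Θ j) r‖ ≤ θ
  root : Tendsto (fun j => deriv (D.U (β j)) (T j ^ 2) / D.U (β j) (T j ^ 2)) atTop (𝓝 0)

def S_fam : Prop := ∀ D : FreeData, Nonempty (Fam D)

/-- a convergent family -/
structure FamC (D : FreeData) extends Fam D where
  R : ℝ
  βl : ℝ
  R_pos : 0 < R
  hx : R ^ 2 / 4 ∈ Icc D.x₁ D.x₂
  hβ : βl ∈ Icc D.β₁ D.β₂
  T_lim : Tendsto T atTop (𝓝 R)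
  β_lim : Tendsto β atTop (𝓝 βl)
  root0 : deriv (D.U βl) (R ^ 2) = 0

def S_sub : Prop := ∀ D : FreeData, Nonempty (Fam D) → Nonempty (FamC D)

/-- the limit profile in the variable `r` -/
def FamC.qi {D : FreeData} (F : FamC D) (r : ℝ) : ℂ :=
  if |r| ≤ F.R then 1 else D.U F.βl (r ^ 2) / D.U F.βl (F.R ^ 2)

/-! ### the fields of `Lim` -/

def S_prof : Prop := ∀ (D : FreeData) (F : Fam D) (j : ℕ), ∃ P : Prof (F.m j),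
  P.β = F.β j ∧ P.Θ = F.Θ j

def S_dqi : Prop := ∀ (D : FreeData) (F : FamC D), (∀ r : ℝ, F.qi r ≠ 0) ∧ Continuous F.qi ∧
  ∀ r : ℝ, 0 ≤ r → deriv F.qi r =
    if r ≤ F.R then 0 else 2 * r * deriv (D.U F.βl) (r ^ 2) / D.U F.βl (F.R ^ 2)

def S_cv1 : Prop := ∀ (D : FreeData) (F : FamC D) (ε : ℝ), 0 < ε → ∀ᶠ j in atTop,
  ∀ r ∈ Icc (0 : ℝ) F.R, ‖qq (F.Θ j) r - 1‖ ≤ ε ∧ ‖qd (F.Θ j) r‖ ≤ ε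

/-- Gronwall for the second order equation with a forcing that is small off a thin layer -/
def S_gw : Prop := ∀ (R A B ε : ℝ), 1 ≤ R → 0 < ε → ∃ η : ℝ, 0 < η ∧
  ∀ (β : ℝ) (e e1 f : ℝ → ℂ), β ∈ Icc (0 : ℝ) 1 →
    (∀ r ∈ Icc R A, HasDerivAt e (e1 r) r ∧
      HasDerivAt e1 (f r - β * e r - (11 / (r : ℂ) + I * r / 2) * e1 r) r) →
    ‖e R‖ ≤ η → ‖e1 R‖ ≤ η → (∀ r ∈ Icc R A, ‖f r‖ ≤ B) →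
    (∀ r ∈ Icc (R + η) A, ‖f r‖ ≤ η) → ∀ r ∈ Icc R A, ‖e r‖ ≤ ε ∧ ‖e1 r‖ ≤ ε

def S_cv2 : Prop := ∀ (D : FreeData) (F : FamC D) (A ε : ℝ), 0 < ε → ∀ᶠ j in atTop,
  ∀ r ∈ Icc F.R A, ‖qq (F.Θ j) r - D.U F.βl (r ^ 2) / D.U F.βl (F.R ^ 2)‖ ≤ ε ∧
    ‖qd (F.Θ j) r - 2 * r * deriv (D.U F.βl) (r ^ 2) / D.U F.βl (F.R ^ 2)‖ ≤ ε

def S_conv : Prop := ∀ (D : FreeData) (F : FamC D) (A : ℝ),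
  TendstoUniformlyOn (fun j => qq (F.Θ j)) F.qi atTop (Icc 0 A) ∧
  TendstoUniformlyOn (fun j => qd (F.Θ j)) (deriv F.qi) atTop (Icc 0 A)

/-- derivatives of powers, uniformly in the exponent -/
def S_pow : Prop := ∀ (θ B : ℝ) (k : ℕ), θ < 1 → ∃ C : ℝ, ∀ (m : ℕ) (ρ : ℝ → ℂ) (s : ℝ),
  0 < s → ContDiffOn ℝ ∞ ρ (Ioi 0) → ‖ρ s‖ ≤ θ → (∀ i ≤ k, ‖iteratedDeriv i ρ s‖ ≤ B) →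
  ∀ i ≤ k, ‖iteratedDeriv i (fun x => ρ x ^ m) s‖ ≤ C

/-- higher derivatives from the equation, uniformly in `m` -/
def S_der : Prop := ∀ (θ s₁ s₂ : ℝ) (k : ℕ), θ < 1 → 0 < s₁ → ∃ C : ℝ,
  ∀ (m : ℕ) (β : ℝ) (Θ : ℝ → ℂ), 1 ≤ m → β ∈ Icc (0 : ℝ) 1 → ContDiffOn ℝ ∞ Θ (Ioi 0) →
    (∀ s : ℝ, 0 < s → POde m β Θ s) → ∀ s ∈ Icc s₁ s₂, ‖Θ s‖ ≤ θ → ‖deriv Θ s‖ ≤ 1 →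
    ∀ i ≤ k, ‖iteratedDeriv i Θ s‖ ≤ C

def S_elt : Prop := ∀ (D : FreeData) (F : FamC D) (δ : ℝ), 0 < δ → ∃ θ : ℝ, θ < 1 ∧
  ∀ᶠ j in atTop, ∀ s : ℝ, (F.R + δ) ^ 2 ≤ s → s ^ gam (F.m j) * ‖F.Θ j s‖ ≤ θ

def S_ege : Prop := ∀ (D : FreeData) (F : FamC D), ∃ c : ℝ, 0 < c ∧
  ∀ᶠ j in atTop, ∀ s : ℝ, 1 ≤ s → c ≤ s ^ gam (F.m j) * ‖F.Θ j s‖

def S_esy : Prop := ∀ (D : FreeData) (F : FamC D) (δ : ℝ), 0 < δ → ∀ k : ℕ, ∃ C : ℝ,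
  ∀ᶠ j in atTop, ∀ s : ℝ, (F.R + δ) ^ 2 ≤ s →
    ‖iteratedDeriv k (F.Θ j) s‖ ≤ C * s ^ (-(gam (F.m j)) - (k : ℝ))

def S_plim : Prop := ∀ D : FreeData, Nonempty (FamC D) → Nonempty (Lim D)

theorem partP_of (h1 : S_fam) (h2 : S_sub) (h3 : S_plim) : PartP :=
  fun D => h3 D (h2 D (h1 D))

end P139.PP
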