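import Vale.Agent.P139.PStm

/-! P139 part P: the interior solution has no zero (flux identity). -/

open Complex Set Filter Topology MeasureTheory
open scoped ContDiff ComplexConjugate

noncomputable section
namespace P139.PP

theorem Pne_re {f : ℝ → ℂ} {f' : ℂ} {r : ℝ} (h : HasDerivAt f f' r) :
    HasDerivAt (fun x => (f x).re) f'.re r :=
  reCLM.hasFDerivAt.comp_hasDerivAt r h

theorem Pne_im {f : ℝ → ℂ} {f' : ℂ} {r : ℝ} (h : HasDerivAt f f' r) :
    HasDerivAt (fun x => (f x).im) f'.im r :=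
  imCLM.hasFDerivAt.comp_hasDerivAt r h

def Pne_Y (q q1 : ℝ → ℂ) (r : ℝ) : ℝ :=
  r ^ 11 * ((q r).re * (q1 r).im - (q r).im * (q1 r).re + r * ((q r).re ^ 2 + (q r).im ^ 2) / 4)

theorem Pne_deriv {m : ℕ} {β : ℝ} {q q1 : ℝ → ℂ} (h : QSol m β q q1) {r : ℝ} (hr : 0 < r) :
    HasDerivAt (Pne_Y q q1) ((3 - gam m) * r ^ 11 * ((q r).re ^ 2 + (q r).im ^ 2)) r := by
  have a1 := Pne_re (h.d0 r)
  have a2 := Pne_im (h.d0 r)
  have a3 := Pne_re (h.d1 r hr)
  have a4 := Pne_im (h.d1 r hr)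
  obtain ⟨N, hN⟩ : ∃ N : ℝ, N = min (‖q r‖ ^ (2 * m)) 3 := ⟨_, rfl⟩
  have e : (11 : ℂ) / (r : ℂ) = ((11 / r : ℝ) : ℂ) := by push_cast; rfl
  have e3 : (Ftr m β (q r) - (11 / (r : ℂ) + I * r / 2) * q1 r).re
      = (N - β) * (q r).re + gam m * (q r).im - (11 / r * (q1 r).re - r / 2 * (q1 r).im) := by
    rw [Ftr, ← hN, e]
    simp
  have e4 : (Ftr m β (q r) - (11 / (r : ℂ) + I * r / 2) * q1 r).im
      = (N - β) * (q r).im - gam m * (q r).re - (11 / r * (q1 r).im + r / 2 * (q1 r).re) := by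
    rw [Ftr, ← hN, e]
    simp
    ring
  rw [e3] at a3
  rw [e4] at a4
  refine HasDerivAt.congr_deriv ((hasDerivAt_pow 11 r).fun_mul (((a1.fun_mul a4).fun_sub
    (a2.fun_mul a3)).fun_add (((hasDerivAt_id' r).fun_mul
      ((a1.fun_pow 2).fun_add (a2.fun_pow 2))).div_const 4))) ?_
  norm_num
  field_simp
  ring

theorem s_ne : S_ne := by
  intro m β q q1 hm h h0 r₀ hr₀ hq
  have hc : Continuous q := continuous_iff_continuousAt.2 fun r => (h.d0 r).continuousAt
  have hc1 := h.c1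
  have hY : Continuous (Pne_Y q q1) := by
    unfold Pne_Y
    fun_prop
  have hg : 0 < 3 - gam m := by
    have h1 : (1 : ℝ) ≤ m := by exact_mod_cast hm
    have h2 : gam m ≤ 1 := by
      unfold gam
      rw [div_le_one (by positivity)]
      linarith
    linarith
  have hr : 0 < r₀ := lt_of_le_of_ne hr₀ fun e => h0 (e ▸ hq)
  obtain ⟨δ, hδ, hb⟩ := Metric.eventually_nhds_iff.1 (hc.continuousAt.eventually_ne h0)
  have hmono : MonotoneOn (Pne_Y q q1) (Ici 0) := by
    refine monotoneOn_of_deriv_nonneg (convex_Ici 0) hY.continuousOn ?_ ?_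
    · rw [interior_Ici]
      exact fun r hr => (Pne_deriv h hr).differentiableAt.differentiableWithinAt
    · rw [interior_Ici]
      intro r hr
      have hr' : 0 < r := hr
      rw [(Pne_deriv h hr').deriv]
      positivity
  have hs : StrictMonoOn (Pne_Y q q1) (Icc 0 (min r₀ (δ / 2))) := by
    refine strictMonoOn_of_deriv_pos (convex_Icc _ _) hY.continuousOn ?_
    rw [interior_Icc]
    intro r hr
    have hr' : 0 < r := hr.1
    rw [(Pne_deriv h hr').deriv]
    have h1 : q r ≠ 0 := hb (by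
      rw [Real.dist_eq, sub_zero, abs_of_pos hr']
      linarith [hr.2.trans_le (min_le_right _ _)])
    have h2 : 0 < (q r).re ^ 2 + (q r).im ^ 2 := by
      have := normSq_pos.2 h1
      rw [normSq_apply] at this
      linarith
    positivity
  have hp : 0 < min r₀ (δ / 2) := lt_min hr (by linarith)
  have h1 := hs (left_mem_Icc.2 hp.le) (right_mem_Icc.2 hp.le) hp
  have h2 := hmono hp.le hr₀ (min_le_left _ _)
  have h3 : Pne_Y q q1 0 = 0 := by simp [Pne_Y]
  have h4 : Pne_Y q q1 r₀ = 0 := by simp [Pne_Y, hq]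
  linarith

end P139.PP
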