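import Vale.Agent.P139.RSph

/-! P139 part R: spherical moments of a smooth function. -/

open Complex Set Filter Topology MeasureTheory
open scoped ContDiff ComplexConjugate Laplacian RealInnerProductSpace
open Vale.Agent.P237 (σ ev HH MP BM LL Hom)

noncomputable section
namespace P139

theorem r_chain (N : ℕ) : ∀ Φ : ℕ → ℝ → ℂ, (∀ j < N, ∀ r, HasDerivAt (Φ j) (Φ (j + 1) r) r) →
    Continuous (Φ N) → ContDiff ℝ N (Φ 0) := by
  induction N with
  | zero => exact fun Φ _ h => contDiff_zero.2 h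
  | succ N ih =>
    intro Φ h hc
    have h1 : deriv (Φ 0) = Φ 1 := funext fun r => (h 0 (Nat.succ_pos N) r).deriv
    rw [Nat.cast_succ, contDiff_succ_iff_deriv, h1]
    exact ⟨fun r => (h 0 (Nat.succ_pos N) r).differentiableAt, by simp,
      ih (fun j => Φ (j + 1)) (fun j hj => h (j + 1) (Nat.succ_lt_succ hj)) hc⟩

theorem r_chain' {N : ℕ} {Φ : ℕ → ℝ → ℂ} (h : ∀ j < N, ∀ r, HasDerivAt (Φ j) (Φ (j + 1) r) r)
    {j : ℕ} (hj : j ≤ N) : iteratedDeriv j (Φ 0) = Φ j := by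
  induction j with
  | zero => exact iteratedDeriv_zero
  | succ j ih =>
    rw [iteratedDeriv_succ, ih (Nat.le_of_succ_le hj)]
    exact funext fun r => (h j hj r).deriv

/-- the moment of `f` on the sphere of radius `r` -/
def rMom (f : E → ℂ) (p : MP 12) (r : ℝ) : ℂ := ∫ a, f (r • a) * ev p a ∂σ 12

/-- the radial derivatives of the moment -/
def rMomD (f : E → ℂ) (p : MP 12) (j : ℕ) (r : ℝ) : ℂ :=
  ∫ a, iteratedFDeriv ℝ j f (r • a) (fun _ => a) * ev p a ∂σ 12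

theorem r_ev_bd (p : MP 12) : ∃ M : ℝ, ∀ a : E, ‖a‖ = 1 → ‖((ev p a : ℝ) : ℂ)‖ ≤ M :=
  (BM.of_cont (r_evC p).continuous).2

variable {f : E → ℂ}

theorem r_cont2 (hf : ContDiff ℝ 48 f) (p : MP 12) {j : ℕ} (hj : j ≤ 48) :
    Continuous fun w : ℝ × E =>
      iteratedFDeriv ℝ j f (w.1 • w.2) (fun _ => w.2) * ((ev p w.2 : ℝ) : ℂ) := by
  have h1 : Continuous (iteratedFDeriv ℝ j f) :=
    hf.continuous_iteratedFDeriv (by exact_mod_cast hj)
  exact ((h1.comp (continuous_fst.smul continuous_snd)).eval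
    (continuous_pi fun _ => continuous_snd)).mul ((r_evC p).continuous.comp continuous_snd)

theorem r_bd {j : ℕ} {C M : ℝ} (hC : ∀ y, ‖iteratedFDeriv ℝ j f y‖ ≤ C) {p : MP 12}
    (hM : ∀ a : E, ‖a‖ = 1 → ‖((ev p a : ℝ) : ℂ)‖ ≤ M) (r : ℝ) {a : E} (ha : ‖a‖ = 1) :
    ‖iteratedFDeriv ℝ j f (r • a) (fun _ => a) * ((ev p a : ℝ) : ℂ)‖ ≤ C * M := by
  rw [norm_mul]
  refine mul_le_mul ?_ (hM a ha) (norm_nonneg _) ((norm_nonneg _).trans (hC 0))
  refine (ContinuousMultilinearMap.le_opNorm _ _).trans ?_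
  simp only [ha, Finset.prod_const_one, mul_one]
  exact hC _

theorem r_momD_deriv (hf : ContDiff ℝ 48 f)
    (hb : ∀ j ≤ 48, ∃ C : ℝ, ∀ y, ‖iteratedFDeriv ℝ j f y‖ ≤ C) (p : MP 12) {j : ℕ}
    (hj : j < 48) (r : ℝ) : HasDerivAt (rMomD f p j) (rMomD f p (j + 1) r) r := by
  obtain ⟨C, hC⟩ := hb (j + 1) hj
  obtain ⟨M, hM⟩ := r_ev_bd p
  have c0 := r_cont2 hf p hj.le
  have c1 := r_cont2 hf p (j := j + 1) hj
  have hd : Differentiable ℝ (iteratedFDeriv ℝ j f) :=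
    hf.differentiable_iteratedFDeriv (by exact_mod_cast hj)
  refine (hasDerivAt_integral_of_dominated_loc_of_deriv_le (μ := σ 12) (s := univ)
    (F := fun (t : ℝ) (a : E) => iteratedFDeriv ℝ j f (t • a) (fun _ => a) * ((ev p a : ℝ) : ℂ))
    (F' := fun (t : ℝ) (a : E) =>
      iteratedFDeriv ℝ (j + 1) f (t • a) (fun _ => a) * ((ev p a : ℝ) : ℂ))
    (bound := fun _ => C * M) univ_mem
    (Eventually.of_forall fun t => (c0.comp (Continuous.prodMk_right t)).aestronglyMeasurable)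
    (r_int (c0.comp (Continuous.prodMk_right r)))
    (c1.comp (Continuous.prodMk_right r)).aestronglyMeasurable
    (Vale.Agent.P237.σ_ae.mono fun a ha t _ => r_bd hC hM t ha) (integrable_const _)
    (Eventually.of_forall fun a t _ => ?_)).2
  have h1 : HasDerivAt (fun t : ℝ => t • a) a t := by
    simpa using (hasDerivAt_id t).smul_const a
  have h2 := (hd (t • a)).hasFDerivAt.comp_hasDerivAt t h1
  have h3 := (ContinuousMultilinearMap.apply ℝ (fun _ : Fin j => E) ℂ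
    fun _ => a).hasFDerivAt.comp_hasDerivAt t h2
  exact h3.mul_const _

theorem r_momD_cont (hf : ContDiff ℝ 48 f)
    (hb : ∀ j ≤ 48, ∃ C : ℝ, ∀ y, ‖iteratedFDeriv ℝ j f y‖ ≤ C) (p : MP 12) {j : ℕ}
    (hj : j ≤ 48) : Continuous (rMomD f p j) := by
  obtain ⟨C, hC⟩ := hb j hj
  obtain ⟨M, hM⟩ := r_ev_bd p
  have c0 := r_cont2 hf p hj
  exact continuous_of_dominated (μ := σ 12) (bound := fun _ => C * M)
    (fun t => (c0.comp (Continuous.prodMk_right t)).aestronglyMeasurable)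
    (fun t => Vale.Agent.P237.σ_ae.mono fun a ha => r_bd hC hM t ha) (integrable_const _)
    (Eventually.of_forall fun a => c0.comp (Continuous.prodMk_left a))

theorem r_momD_zero (f : E → ℂ) (p : MP 12) : rMomD f p 0 = rMom f p := rfl

theorem r_mom_smooth (hf : ContDiff ℝ 48 f)
    (hb : ∀ j ≤ 48, ∃ C : ℝ, ∀ y, ‖iteratedFDeriv ℝ j f y‖ ≤ C) (p : MP 12) :
    ContDiff ℝ 48 (rMom f p) :=
  r_chain 48 (rMomD f p) (fun _ hj => r_momD_deriv hf hb p hj) (r_momD_cont hf hb p le_rfl)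

theorem r_mom_iter (hf : ContDiff ℝ 48 f)
    (hb : ∀ j ≤ 48, ∃ C : ℝ, ∀ y, ‖iteratedFDeriv ℝ j f y‖ ≤ C) (p : MP 12) {j : ℕ}
    (hj : j ≤ 48) : iteratedDeriv j (rMom f p) = rMomD f p j :=
  r_chain' (Φ := rMomD f p) (fun _ hj => r_momD_deriv hf hb p hj) hj

theorem r_mom_bd (hf : ContDiff ℝ 48 f)
    (hb : ∀ j ≤ 48, ∃ C : ℝ, ∀ y, ‖iteratedFDeriv ℝ j f y‖ ≤ C) (p : MP 12) {j : ℕ}
    (hj : j ≤ 48) : ∃ C : ℝ, ∀ r, ‖iteratedDeriv j (rMom f p) r‖ ≤ C := by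
  obtain ⟨C, hC⟩ := hb j hj
  obtain ⟨M, hM⟩ := r_ev_bd p
  refine ⟨C * M * (σ 12).real univ, fun r => ?_⟩
  rw [r_mom_iter hf hb p hj]
  exact norm_integral_le_of_norm_le_const
    (Vale.Agent.P237.σ_ae.mono fun a ha => r_bd hC hM r ha)

theorem r_mom_d1 (hf : ContDiff ℝ 48 f)
    (hb : ∀ j ≤ 48, ∃ C : ℝ, ∀ y, ‖iteratedFDeriv ℝ j f y‖ ≤ C) (p : MP 12) (r : ℝ) :
    deriv (rMom f p) r = ∫ a, fderiv ℝ f (r • a) a * ev p a ∂σ 12 := by
  rw [← iteratedDeriv_one, r_mom_iter hf hb p (by norm_num)]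
  simp only [rMomD, iteratedFDeriv_one_apply]

theorem r_mom_d2 (hf : ContDiff ℝ 48 f)
    (hb : ∀ j ≤ 48, ∃ C : ℝ, ∀ y, ‖iteratedFDeriv ℝ j f y‖ ≤ C) (p : MP 12) (r : ℝ) :
    deriv (deriv (rMom f p)) r = ∫ a, fderiv ℝ (fderiv ℝ f) (r • a) a a * ev p a ∂σ 12 := by
  have h : deriv (deriv (rMom f p)) = iteratedDeriv 2 (rMom f p) := by
    rw [iteratedDeriv_succ, iteratedDeriv_one]
  rw [h, r_mom_iter hf hb p (by norm_num)]
  simp only [rMomD, iteratedFDeriv_two_apply]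

theorem r_lap_cont (hf : ContDiff ℝ 48 f) : Continuous (Δ f) := by
  have h1 : ContDiff ℝ 1 (fderiv ℝ f) := hf.fderiv_right (by norm_num)
  have h2 := h1.continuous_fderiv one_ne_zero
  rw [funext (r_lap f)]
  fun_prop

/-- the moment of the Laplacian is the radial operator applied to the moment -/
theorem r_mom_lap (hf : ContDiff ℝ 48 f)
    (hb : ∀ j ≤ 48, ∃ C : ℝ, ∀ y, ‖iteratedFDeriv ℝ j f y‖ ≤ C) {l : ℕ} {p : MP 12}
    (hp : HH l p) {r : ℝ} (hr : 0 < r) : rMom (Δ f) p r = rad l (rMom f p) r := by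
  have h1 : ContDiff ℝ 1 (fderiv ℝ f) := hf.fderiv_right (by norm_num)
  have h2 := h1.continuous_fderiv one_ne_zero
  have h3 := h1.continuous
  have h4 := hf.continuous
  have h5 := r_lap_cont hf
  have h6 := (r_evC p).continuous
  have h := r_green (hf.of_le (by norm_num)) r hp
  rw [integral_add (r_int (by fun_prop)) (r_int (by fun_prop)),
    integral_sub (r_int (by fun_prop)) (r_int (by fun_prop)),
    integral_sub (r_int (by fun_prop)) (r_int (by fun_prop))] at h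
  simp only [integral_const_mul] at h
  have hr' : (r : ℂ) ≠ 0 := by exact_mod_cast hr.ne'
  rw [rad, r_mom_d2 hf hb, r_mom_d1 hf hb, rMom, rMom]
  field_simp
  linear_combination h

theorem r_mom_rad (hf : ContDiff ℝ 48 f)
    (hb : ∀ j ≤ 48, ∃ C : ℝ, ∀ y, ‖iteratedFDeriv ℝ j f y‖ ≤ C) (p : MP 12) (r : ℝ) :
    rMom (fun y => fderiv ℝ f y y) p r = r * deriv (rMom f p) r := by
  rw [r_mom_d1 hf hb, rMom, ← integral_const_mul]
  simp only [map_smul, Complex.real_smul, mul_assoc]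

end P139
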