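import Vale.Agent.P139.Defs
import Vale.Agent.P237.TIBP
import Vale.Agent.P237.TPol

/-! P139 part R: Green's formula on the sphere. -/

open Complex Set Filter Topology MeasureTheory
open scoped ContDiff ComplexConjugate Laplacian RealInnerProductSpace
open Vale.Agent.P237 (σ ev HH MP BM LL Hom)

noncomputable section
namespace P139

theorem r_int {F : E → ℂ} (h : Continuous F) : Integrable F (σ 12) := (BM.of_cont h).int

theorem r_intR {F : E → ℝ} (h : Continuous F) : Integrable F (σ 12) := (BM.of_cont h).int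

/-- tangential integration by parts, real form -/
theorem r_tanR {G : E → ℝ} (hG : ContDiff ℝ 1 G) (v : E) :
    ∫ a, (fderiv ℝ G a v - ⟪a, v⟫ * fderiv ℝ G a a - 11 * (⟪a, v⟫ * G a)) ∂σ 12 = 0 := by
  have hll : LL fun x : E => G (‖x‖⁻¹ • x) := LL.of_cd fun x hx =>
    hG.contDiffAt.comp x
      (((contDiffAt_norm ℝ hx).inv (norm_ne_zero_iff.2 hx)).smul contDiffAt_id)
  have hh : Hom 0 fun x : E => G (‖x‖⁻¹ • x) := fun x hx t ht => by
    have : ‖x‖ ≠ 0 := norm_ne_zero_iff.2 hx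
    simp only [Real.rpow_zero, one_mul, norm_smul, Real.norm_eq_abs, abs_of_pos ht, smul_smul]
    rw [show (t * ‖x‖)⁻¹ * t = ‖x‖⁻¹ by field_simp]
  have h1 := Vale.Agent.P237.ibp Vale.Agent.P237.pol 12 0 _ v (by norm_num) hll hh
  have hc := hG.continuous_fderiv one_ne_zero
  have h2 : ∫ a, fderiv ℝ (fun x : E => G (‖x‖⁻¹ • x)) a v ∂σ 12 =
      ∫ a, (fderiv ℝ G a v - ⟪a, v⟫ * fderiv ℝ G a a) ∂σ 12 := by
    refine integral_congr_ae (Vale.Agent.P237.σ_ae.mono fun a ha => ?_)
    have ha0 : a ≠ 0 := by rintro rfl; simp at ha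
    obtain ⟨L, hL, hLv⟩ := Vale.Agent.P237.TIBP.norm_fderiv ha0
    have h3 := ((hasDerivAt_inv (norm_ne_zero_iff.2 ha0)).comp_hasFDerivAt a hL).smul
      (hasFDerivAt_id a)
    have h4 : HasFDerivAt G (fderiv ℝ G a) (‖a‖⁻¹ • a) := by
      rw [ha, inv_one, one_smul]
      exact (hG.differentiable one_ne_zero a).hasFDerivAt
    have h5 := (HasFDerivAt.comp (f := fun x : E => ‖x‖⁻¹ • x) a h4 h3).fderiv
    change fderiv ℝ (fun x : E => G (‖x‖⁻¹ • x)) a = _ at h5
    simp only [h5]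
    simp [hLv, ha, sub_eq_add_neg]
  have h3 : ∫ a, ⟪a, v⟫ * G (‖a‖⁻¹ • a) ∂σ 12 = ∫ a, ⟪a, v⟫ * G a ∂σ 12 :=
    integral_congr_ae (Vale.Agent.P237.σ_ae.mono fun a ha => by simp [ha])
  have hg := hG.continuous
  rw [h2, h3] at h1
  rw [integral_sub (r_intR (by fun_prop)) (r_intR (by fun_prop)), integral_const_mul, h1]
  norm_num

/-- tangential integration by parts, complex form -/
theorem r_tan {G : E → ℂ} (hG : ContDiff ℝ 1 G) (i : Fin 12) :
    ∫ a, (fderiv ℝ G a (EuclideanSpace.single i 1) - (a i : ℂ) * fderiv ℝ G a a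
      - 11 * ((a i : ℂ) * G a)) ∂σ 12 = 0 := by
  have hc := hG.continuous_fderiv one_ne_zero
  have hg := hG.continuous
  have key : ∀ L : ℂ →L[ℝ] ℝ, L (∫ a, (fderiv ℝ G a (EuclideanSpace.single i 1)
      - (a i : ℂ) * fderiv ℝ G a a - 11 * ((a i : ℂ) * G a)) ∂σ 12) = 0 := by
    intro L
    rw [← L.integral_comp_comm (r_int (by fun_prop)),
      ← r_tanR (L.contDiff.comp hG) (EuclideanSpace.single i 1)]
    refine integral_congr_ae (Eventually.of_forall fun a => ?_)
    have h1 : fderiv ℝ (L ∘ G) a = L.comp (fderiv ℝ G a) :=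
      (L.hasFDerivAt.comp a (hG.differentiable one_ne_zero a).hasFDerivAt).fderiv
    have h2 : ∀ (t : ℝ) (z : ℂ), L (t * z) = t * L z := fun t z => by
      rw [← Complex.real_smul, map_smul, smul_eq_mul]
    have h3 : ∀ z : ℂ, L (11 * z) = 11 * L z := fun z => by
      have := h2 11 z
      rwa [Complex.ofReal_ofNat] at this
    simp only [h1, map_sub, h2, h3, EuclideanSpace.inner_single_right, ContinuousLinearMap.comp_apply,
      Function.comp_apply]
    simp
  exact Complex.ext (key Complex.reCLM) (key Complex.imCLM)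

theorem r_lin (L : E →L[ℝ] ℂ) (a : E) :
    ∑ i, (a i : ℂ) * L (EuclideanSpace.single i 1) = L a := by
  conv_rhs => rw [← (EuclideanSpace.basisFun (Fin 12) ℝ).sum_repr a]
  simp only [map_sum, map_smul, EuclideanSpace.basisFun_repr, EuclideanSpace.basisFun_apply,
    Complex.real_smul]

theorem r_lap (f : E → ℂ) (y : E) : (Δ f) y =
    ∑ i, fderiv ℝ (fderiv ℝ f) y (EuclideanSpace.single i 1) (EuclideanSpace.single i 1) := by
  rw [InnerProductSpace.laplacian_eq_iteratedFDeriv_orthonormalBasis f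
    (EuclideanSpace.basisFun (Fin 12) ℝ)]
  simp only [iteratedFDeriv_two_apply, EuclideanSpace.basisFun_apply, Matrix.cons_val_zero,
    Matrix.cons_val_one]

theorem r_evC (p : MP 12) : ContDiff ℝ 1 fun a : E => ((ev p a : ℝ) : ℂ) :=
  Complex.ofRealCLM.contDiff.comp (Vale.Agent.P237.ev_contDiff p)

theorem r_evD (p : MP 12) (a : E) : HasFDerivAt (fun a : E => ((ev p a : ℝ) : ℂ))
    (Complex.ofRealCLM.comp (fderiv ℝ (ev p) a)) a :=
  Complex.ofRealCLM.hasFDerivAt.comp a (Vale.Agent.P237.ev_diff p a).hasFDerivAt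

theorem r_euler {p : MP 12} {j : ℕ} (h : p.IsHomogeneous j) (a : E) :
    fderiv ℝ (ev p) a a = j * ev p a := by
  rw [Vale.Agent.P237.ev_fderiv, ← Vale.Agent.P237.ev_euler h]
  exact Finset.sum_congr rfl fun i _ => mul_comm _ _

/-- Green's formula on the sphere of radius `r` against a harmonic homogeneous polynomial -/
theorem r_green {f : E → ℂ} (hf : ContDiff ℝ 2 f) (r : ℝ) {l : ℕ} {p : MP 12} (hp : HH l p) :
    ∫ a, ((r : ℂ) ^ 2 * ((Δ f) (r • a) * ev p a)
      - (r : ℂ) ^ 2 * (fderiv ℝ (fderiv ℝ f) (r • a) a a * ev p a)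
      - 11 * r * (fderiv ℝ f (r • a) a * ev p a)
      + (l : ℂ) * (l + 10) * (f (r • a) * ev p a)) ∂σ 12 = 0 := by
  have hf1 : ContDiff ℝ 1 (fderiv ℝ f) := hf.fderiv_right (by norm_num)
  have hf0 : ContDiff ℝ 1 f := hf.of_le (by norm_num)
  have hs : ContDiff ℝ 1 fun a : E => r • a := by fun_prop
  set G : Fin 12 → E → ℂ := fun i a =>
    (r : ℂ) * (fderiv ℝ f (r • a) (EuclideanSpace.single i 1) * ev p a)
      - f (r • a) * ev (MvPolynomial.pderiv i p) a with hG
  have hGc : ∀ i, ContDiff ℝ 1 (G i) := fun i =>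
    (contDiff_const.mul (((hf1.comp hs).clm_apply contDiff_const).mul (r_evC p))).sub
      ((hf0.comp hs).mul (r_evC _))
  have hGd : ∀ i a w, fderiv ℝ (G i) a w =
      (r : ℂ) * (r * fderiv ℝ (fderiv ℝ f) (r • a) w (EuclideanSpace.single i 1) * ev p a
        + fderiv ℝ f (r • a) (EuclideanSpace.single i 1) * fderiv ℝ (ev p) a w)
      - (r * fderiv ℝ f (r • a) w * ev (MvPolynomial.pderiv i p) a
        + f (r • a) * fderiv ℝ (ev (MvPolynomial.pderiv i p)) a w) := by
    intro i a w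
    have h0 : HasFDerivAt (fun a : E => r • a) (r • ContinuousLinearMap.id ℝ E) a :=
      (hasFDerivAt_id a).const_smul r
    have h1 := ((hf1.differentiable one_ne_zero (r • a)).hasFDerivAt.comp a h0).clm_apply
      (hasFDerivAt_const (EuclideanSpace.single i (1 : ℝ) : E) a)
    have h2 := (hf0.differentiable one_ne_zero (r • a)).hasFDerivAt.comp a h0
    have h3 := (((h1.mul (r_evD p a)).const_mul (r : ℂ)).sub
      (h2.mul (r_evD (MvPolynomial.pderiv i p) a))).fderiv
    change fderiv ℝ (G i) a = _ at h3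
    rw [h3]
    simp
    ring
  have h1 : ∑ i, ∫ a, (fderiv ℝ (G i) a (EuclideanSpace.single i 1) - (a i : ℂ) * fderiv ℝ (G i) a a
      - 11 * ((a i : ℂ) * G i a)) ∂σ 12 = 0 := Finset.sum_eq_zero fun i _ => r_tan (hGc i) i
  rw [← integral_finsetSum _ fun i _ => r_int (by
    have hc := (hGc i).continuous_fderiv one_ne_zero
    have hg := (hGc i).continuous
    fun_prop)] at h1
  rw [← h1]
  refine integral_congr_ae (Eventually.of_forall fun a => ?_)
  have e1 := r_lin (fderiv ℝ f (r • a)) a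
  have e2 := r_lin (fderiv ℝ (fderiv ℝ f) (r • a) a) a
  have e3 : ∑ i, (a i : ℂ) * ev (MvPolynomial.pderiv i p) a = l * ev p a := by
    exact_mod_cast Vale.Agent.P237.ev_euler hp.1 a
  have e4 : ∑ i, ((ev (MvPolynomial.pderiv i (MvPolynomial.pderiv i p)) a : ℝ) : ℂ) = 0 := by
    have := congrArg (fun q => ev q a) hp.2
    simp only [Vale.Agent.P237.lap, Vale.Agent.P237.ev_sum, Vale.Agent.P237.ev_zero] at this
    exact_mod_cast this
  have e5 : ((l - 1 : ℕ) : ℂ) * l = (l - 1) * l := by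
    cases l <;> simp
  have e6 : ∀ i, fderiv ℝ (ev (MvPolynomial.pderiv i p)) a a =
      (l - 1 : ℕ) * ev (MvPolynomial.pderiv i p) a := fun i => r_euler hp.1.pderiv a
  have e7 : ∀ i, fderiv ℝ (G i) a (EuclideanSpace.single i 1) - (a i : ℂ) * fderiv ℝ (G i) a a
      - 11 * ((a i : ℂ) * G i a) =
      (r : ℂ) ^ 2 * ev p a * fderiv ℝ (fderiv ℝ f) (r • a) (EuclideanSpace.single i 1)
        (EuclideanSpace.single i 1)
      - f (r • a) * ev (MvPolynomial.pderiv i (MvPolynomial.pderiv i p)) a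
      - (r : ℂ) ^ 2 * ev p a *
        (a i * fderiv ℝ (fderiv ℝ f) (r • a) a (EuclideanSpace.single i 1))
      - (r * l * ev p a + 11 * r * ev p a) * (a i * fderiv ℝ f (r • a) (EuclideanSpace.single i 1))
      + (r * fderiv ℝ f (r • a) a + f (r • a) * (l - 1 : ℕ) + 11 * f (r • a)) *
        (a i * ev (MvPolynomial.pderiv i p) a) := by
    intro i
    rw [hGd, hGd, Vale.Agent.P237.ev_fderiv_single, Vale.Agent.P237.ev_fderiv_single, e6,
      r_euler hp.1, hG]
    push_cast
    ring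
  simp only [e7, Finset.sum_add_distrib, Finset.sum_sub_distrib, ← Finset.mul_sum, e1, e2, e3, e4,
    ← r_lap]
  linear_combination (-(f (r • a) * ev p a)) * e5

end P139
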