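import Mathlib

/-! P139: the definitions used in the final statement. -/

open Complex Set Filter Topology MeasureTheory ProbabilityTheory
open scoped ENNReal NNReal

noncomputable section
namespace P139S

instance twoPiPos : Fact (0 < 2 * Real.pi) := ⟨Real.two_pi_pos⟩

/-- the torus ` (ℝ/2πℤ)^d`, with Lebesgue measure `volume` of total mass ` (2π)^d` -/
abbrev Torus (d : ℕ) : Type := Fin d → AddCircle (2 * Real.pi)

variable {d : ℕ}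

/-- `|n|²` -/
def nsq (n : Fin d → ℤ) : ℝ := ∑ i, (n i : ℝ) ^ 2

/-- `⟨n⟩ = (1 + |n|²)^{1/2}` -/
def jb (n : Fin d → ℤ) : ℝ := √(1 + nsq n)

/-- `e^{i n·x}` -/
def ch (n : Fin d → ℤ) (x : Torus d) : ℂ := ∏ i, fourier (n i) (x i)

/-- the Fourier coefficient ` (2π)^{-d} ∫ e^{-i n·x} f(x) dx` -/
def coef (f : Torus d → ℂ) (n : Fin d → ℤ) : ℂ :=
  ((2 * Real.pi : ℂ) ^ d)⁻¹ * ∫ x, ch (-n) x * f x

/-- `f ∈ H^k(𝕋^d; ℂ)` -/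
def MemH (k : ℕ) (f : Torus d → ℂ) : Prop :=
  MemLp f 2 volume ∧ Summable fun n => jb n ^ (2 * k) * ‖coef f n‖ ^ 2

/-- the `H^k` norm -/
def normH (k : ℕ) (f : Torus d → ℂ) : ℝ := √(∑' n, jb n ^ (2 * k) * ‖coef f n‖ ^ 2)

/-- `u ∈ C([0,T); H^k)`, `u(0) = u₀`, and `i ∂ₜ u + Δ u = |u|^{p-1} u` on ` (0,T)`, frequency by
frequency (the Laplacian multiplies the `n`-th coefficient by `-|n|²`). -/
def IsSol (p k : ℕ) (T : ℝ) (u₀ : Torus d → ℂ) (u : ℝ → Torus d → ℂ) : Prop :=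
  (∀ t ∈ Ico 0 T, MemH k (u t)) ∧
  (∀ t ∈ Ico 0 T, Tendsto (fun s => normH k (u s - u t)) (𝓝[Ico 0 T] t) (𝓝 0)) ∧
  u 0 =ᵐ[volume] u₀ ∧
  ∀ t ∈ Ioo 0 T, ∀ n, ∃ D : ℂ, HasDerivAt (fun s => coef (u s) n) D t ∧
    I * D - (nsq n : ℂ) * coef (u t) n = coef (fun x => (‖u t x‖ : ℂ) ^ (p - 1) * u t x) n

/-- the lifespan `T*`: the supremum of the times `T` with a solution in `C([0,T); H^k)` -/
def lifespan (p k : ℕ) (u₀ : Torus d → ℂ) : ℝ≥0∞ :=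
  ⨆ (T : ℝ) (_ : ∃ u, IsSol p k T u₀ u), ENNReal.ofReal T

/-- the datum `∑ g_n ⟨n⟩^{-α} e^{i n·x}` -/
def datum (α : ℝ) (g : (Fin d → ℤ) → ℂ) (x : Torus d) : ℂ :=
  ∑' n, g n * ((jb n ^ (-α) : ℝ) : ℂ) * ch n x

/-- the law of `X + i Y` with `X`, `Y` independent `N(0,v)`; standard complex Gaussian: `v = 1/2` -/
def cGauss (v : ℝ≥0) : Measure ℂ :=
  ((gaussianReal 0 v).prod (gaussianReal 0 v)).map fun z => (z.1 : ℂ) + (z.2 : ℂ) * I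

/-- `g_n`, `n ∈ ℤ^d`, are independent random variables with law `cGauss v` -/
def IID {Ω : Type*} [MeasurableSpace Ω] (P : Measure Ω) (v : ℝ≥0)
    (g : (Fin d → ℤ) → Ω → ℂ) : Prop :=
  (∀ n, Measurable (g n)) ∧ iIndepFun g P ∧ ∀ n, P.map (g n) = cGauss v

/-- the statement of Q1 -/
def Q1 : Prop :=
  ∀ d p : ℕ, 1 ≤ d → Odd p → 3 ≤ p → 1 < (d : ℝ) / 2 - 2 / ((p : ℝ) - 1) →
    ∃ α₀ : ℝ, ∀ α : ℝ, α₀ < α →
      ∀ (Ω : Type) [MeasurableSpace Ω] (P : Measure Ω) [IsProbabilityMeasure P]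
        (g : (Fin d → ℤ) → Ω → ℂ), IID P (1 / 2) g →
        ∀ᵐ ω ∂P, ∃ k : ℕ, (d : ℝ) / 2 < k ∧ lifespan p k (datum α fun n => g n ω) = ⊤

end P139S
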