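import Vale.Agent.P139.SDefs

/-! P139 part S: Fourier series on the torus ` (ℝ/2πℤ)^d`. -/

open Complex Set Filter Topology MeasureTheory Submodule Algebra
open scoped ENNReal NNReal ComplexConjugate

noncomputable section
namespace P139S

variable {d : ℕ}

/-- the characters as continuous maps -/
def chC (n : Fin d → ℤ) : C(Torus d, ℂ) where
  toFun := ch n
  continuous_toFun := by unfold ch; fun_prop

@[simp] theorem chC_apply (n : Fin d → ℤ) (x : Torus d) : chC n x = ch n x := rfl

theorem ch_cont (n : Fin d → ℤ) : Continuous (ch n : Torus d → ℂ) := (chC n).continuous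

theorem ch_neg (n : Fin d → ℤ) (x : Torus d) : ch (-n) x = conj (ch n x) := by
  simp only [ch, Pi.neg_apply, fourier_neg, map_prod]

theorem ch_add (m n : Fin d → ℤ) (x : Torus d) : ch (m + n) x = ch m x * ch n x := by
  simp only [ch, Pi.add_apply, fourier_add, ← Finset.prod_mul_distrib]

theorem ch_zero (x : Torus d) : ch (0 : Fin d → ℤ) x = 1 := by
  simp only [ch, Pi.zero_apply, fourier_zero, Finset.prod_const_one]

theorem norm_ch (n : Fin d → ℤ) (x : Torus d) : ‖ch n x‖ = 1 := by
  simp only [ch, fourier_apply, norm_prod, Circle.norm_coe, Finset.prod_const_one]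

theorem norm_chC (n : Fin d → ℤ) : ‖(chC n : C(Torus d, ℂ))‖ ≤ 1 :=
  (ContinuousMap.norm_le _ zero_le_one).mpr fun x => (norm_ch n x).le

theorem ch_single (z : Torus d) (i : Fin d) : ch (Pi.single i 1) z = fourier 1 (z i) := by
  unfold ch
  rw [Finset.prod_eq_single i]
  · rw [Pi.single_eq_same]
  · intro j _ hj
    rw [Pi.single_eq_of_ne hj, fourier_zero]
  · simp

/-- the algebra of trigonometric polynomials -/
def chAlg (d : ℕ) : StarSubalgebra ℂ C(Torus d, ℂ) where
  toSubalgebra := Algebra.adjoin ℂ (range chC)
  star_mem' := by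
    change Algebra.adjoin ℂ (range chC) ≤ star (Algebra.adjoin ℂ (range chC))
    refine adjoin_le ?_
    rintro _ ⟨n, rfl⟩
    refine subset_adjoin ⟨-n, ?_⟩
    ext1 x
    simp only [chC_apply, ch_neg, starRingEnd_apply, ContinuousMap.star_apply]

theorem chAlg_coe : (chAlg d).toSubalgebra.toSubmodule = span ℂ (range chC) := by
  apply adjoin_eq_span_of_subset
  refine .trans (fun x ↦ Submonoid.closure_induction (fun _ ↦ id) ⟨0, ?_⟩ ?_) subset_span
  · ext z
    simp only [chC_apply, ch_zero, ContinuousMap.one_apply]
  · rintro _ _ _ _ ⟨m, rfl⟩ ⟨n, rfl⟩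
    refine ⟨m + n, ?_⟩
    ext z
    simp only [chC_apply, ch_add, ContinuousMap.mul_apply]

theorem chAlg_sep : (chAlg d).SeparatesPoints := by
  intro x y hxy
  rw [Ne, funext_iff, not_forall] at hxy
  obtain ⟨i, hi⟩ := hxy
  refine ⟨_, ⟨chC (Pi.single i 1), subset_adjoin ⟨Pi.single i 1, rfl⟩, rfl⟩, ?_⟩
  simp only [chC_apply]
  rw [ch_single, ch_single, fourier_one, fourier_one]
  intro h
  exact hi (AddCircle.injective_toCircle Real.two_pi_pos.ne' (Subtype.coe_inj.mp h))

theorem span_ch_closure : (span ℂ (range (chC (d := d)))).topologicalClosure = ⊤ := by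
  rw [← chAlg_coe]
  exact congr_arg (Subalgebra.toSubmodule <| StarSubalgebra.toSubalgebra ·)
    (ContinuousMap.starSubalgebra_topologicalClosure_eq_top_of_separatesPoints _ chAlg_sep)

theorem span_chLp_closure :
    (span ℂ (range fun n : Fin d → ℤ =>
      ContinuousMap.toLp (E := ℂ) 2 (volume : Measure (Torus d)) ℂ (chC n))).topologicalClosure
      = ⊤ := by
  simpa only [map_span, ContinuousLinearMap.coe_coe, ← range_comp, Function.comp_def] using
    (ContinuousMap.toLp_denseRange ℂ (volume : Measure (Torus d)) ℂ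
      (p := 2) (by simp)).topologicalClosure_map_submodule span_ch_closure

theorem two_pi_pow_ne : ((2 * Real.pi : ℂ) ^ d) ≠ 0 :=
  pow_ne_zero _ (mul_ne_zero two_ne_zero (ofReal_ne_zero.mpr Real.pi_ne_zero))

/-- an `L²` function with vanishing coefficients vanishes -/
theorem ae_zero_of_coef {f : Torus d → ℂ} (hf : MemLp f 2 volume) (h : ∀ n, coef f n = 0) :
    f =ᵐ[volume] 0 := by
  have h1 := Submodule.topologicalClosure_eq_top_iff.mp (span_chLp_closure (d := d))
  have h2 : hf.toLp f ∈ (span ℂ (range fun n : Fin d → ℤ =>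
      ContinuousMap.toLp (E := ℂ) 2 (volume : Measure (Torus d)) ℂ (chC n)))ᗮ := by
    rw [Submodule.mem_orthogonal]
    intro u hu
    induction hu using Submodule.span_induction with
    | mem x hx =>
      obtain ⟨n, rfl⟩ := hx
      have h3 := h n
      unfold coef at h3
      rw [mul_eq_zero, inv_eq_zero, or_iff_right two_pi_pow_ne] at h3
      rw [L2.inner_def, ← h3]
      apply integral_congr_ae
      filter_upwards [ContinuousMap.coeFn_toLp (p := 2) (𝕜 := ℂ) (volume : Measure (Torus d))
        (chC n), hf.coeFn_toLp] with x h4 h5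
      rw [h4, h5, RCLike.inner_apply, ch_neg, chC_apply, mul_comm]
    | zero => simp
    | add x y _ _ hx hy => rw [inner_add_left, hx, hy, add_zero]
    | smul a x _ hx => rw [inner_smul_left, hx, mul_zero]
  rw [h1, Submodule.mem_bot] at h2
  have h3 := hf.coeFn_toLp
  rw [h2] at h3
  exact h3.symm.trans (Lp.coeFn_zero _ _ _)

theorem integrable_ch_mul {f : Torus d → ℂ} (hf : Integrable f volume) (n : Fin d → ℤ) :
    Integrable (fun x => ch n x * f x) volume :=
  hf.bdd_mul (c := 1) (ch_cont n).aestronglyMeasurable
    (Eventually.of_forall fun x => (norm_ch n x).le)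

theorem coef_sub {f g : Torus d → ℂ} (hf : Integrable f volume) (hg : Integrable g volume)
    (n : Fin d → ℤ) : coef (f - g) n = coef f n - coef g n := by
  unfold coef
  rw [← mul_sub, ← integral_sub (integrable_ch_mul hf _) (integrable_ch_mul hg _)]
  simp only [Pi.sub_apply, mul_sub]

theorem coef_congr {f g : Torus d → ℂ} (h : f =ᵐ[volume] g) : coef f = coef g := by
  funext n
  unfold coef
  congr 1
  apply integral_congr_ae
  filter_upwards [h] with x hx
  rw [hx]

theorem ae_eq_of_coef {f g : Torus d → ℂ} (hf : MemLp f 2 volume) (hg : MemLp g 2 volume)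
    (h : ∀ n, coef f n = coef g n) : f =ᵐ[volume] g := by
  have h1 := ae_zero_of_coef (hf.sub hg) fun n => by
    rw [coef_sub (hf.integrable one_le_two) (hg.integrable one_le_two), h, sub_self]
  filter_upwards [h1] with x hx
  exact sub_eq_zero.mp hx

theorem integral_fourier1 (n : ℤ) :
    ∫ x : AddCircle (2 * Real.pi), fourier n x = if n = 0 then (2 * Real.pi : ℂ) else 0 := by
  split_ifs with h
  · subst h
    simp only [fourier_zero, integral_const, Measure.real, AddCircle.measure_univ]
    rw [ENNReal.toReal_ofReal Real.two_pi_pos.le]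
    simp
  · exact integral_eq_zero_of_add_right_eq_neg (μ := volume)
      (fourier_add_half_inv_index h Real.two_pi_pos)

theorem integral_ch (n : Fin d → ℤ) :
    ∫ x, ch n x = if n = 0 then (2 * Real.pi : ℂ) ^ d else 0 := by
  unfold ch
  rw [integral_fintype_prod_volume_eq_prod (fun i (x : AddCircle (2 * Real.pi)) => fourier (n i) x)]
  simp only [integral_fourier1]
  split_ifs with h
  · subst h; simp
  · obtain ⟨i, hi⟩ := Function.ne_iff.mp h
    exact Finset.prod_eq_zero (Finset.mem_univ i) (if_neg hi)

theorem coef_ch (m n : Fin d → ℤ) : coef (ch m) n = if n = m then 1 else 0 := by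
  unfold coef
  simp only [← ch_add, integral_ch]
  by_cases h : n = m
  · subst h
    simp
  · rw [if_neg h, if_neg, mul_zero]
    intro h'
    exact h (by rw [neg_add_eq_zero] at h'; exact h')

theorem cont_integrable (f : C(Torus d, ℂ)) : Integrable f volume :=
  f.continuous.integrable_of_hasCompactSupport (HasCompactSupport.of_compactSpace _)

theorem cont_memLp (f : C(Torus d, ℂ)) : MemLp f 2 volume :=
  f.continuous.memLp_of_hasCompactSupport (HasCompactSupport.of_compactSpace _)

/-- the coefficient functional on continuous functions -/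
def coefL (n : Fin d → ℤ) : C(Torus d, ℂ) →L[ℂ] ℂ :=
  LinearMap.mkContinuous
    { toFun := fun f => coef f n
      map_add' := fun f g => by
        unfold coef
        rw [← mul_add, ← integral_add (integrable_ch_mul (cont_integrable f) _)
          (integrable_ch_mul (cont_integrable g) _)]
        simp only [ContinuousMap.add_apply, mul_add]
      map_smul' := fun c f => by
        unfold coef
        simp only [ContinuousMap.smul_apply, smul_eq_mul, RingHom.id_apply]
        rw [mul_left_comm c, ← integral_const_mul c]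
        congr 2
        funext x
        ring }
    (‖((2 * Real.pi : ℂ) ^ d)⁻¹‖ * (volume : Measure (Torus d)).real univ) fun f => by
      simp only [LinearMap.coe_mk, AddHom.coe_mk]
      unfold coef
      rw [norm_mul, mul_assoc]
      gcongr
      rw [mul_comm _ ‖f‖]
      refine norm_integral_le_of_norm_le_const (Eventually.of_forall fun x => ?_)
      rw [norm_mul, norm_ch, one_mul]
      exact f.norm_coe_le_norm x

theorem coefL_apply (n : Fin d → ℤ) (f : C(Torus d, ℂ)) : coefL n f = coef f n := rfl

/-- synthesis of an absolutely summable sequence -/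
def syn (a : (Fin d → ℤ) → ℂ) : C(Torus d, ℂ) := ∑' n, a n • chC n

theorem summable_syn {a : (Fin d → ℤ) → ℂ} (ha : Summable fun n => ‖a n‖) :
    Summable fun n => a n • chC n := by
  refine Summable.of_norm_bounded ha fun n => ?_
  rw [norm_smul]
  exact mul_le_of_le_one_right (norm_nonneg _) (norm_chC n)

theorem hasSum_syn {a : (Fin d → ℤ) → ℂ} (ha : Summable fun n => ‖a n‖) (x : Torus d) :
    HasSum (fun n => a n * ch n x) (syn a x) := by
  simpa only [map_smul] using! (ContinuousMap.evalCLM ℂ x).hasSum (summable_syn ha).hasSum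

theorem norm_syn_le {a : (Fin d → ℤ) → ℂ} (ha : Summable fun n => ‖a n‖) :
    ‖syn a‖ ≤ ∑' n, ‖a n‖ := by
  refine tsum_of_norm_bounded ha.hasSum fun n => ?_
  rw [norm_smul]
  exact mul_le_of_le_one_right (norm_nonneg _) (norm_chC n)

theorem syn_sub {a b : (Fin d → ℤ) → ℂ} (ha : Summable fun n => ‖a n‖)
    (hb : Summable fun n => ‖b n‖) : syn a - syn b = syn (fun n => a n - b n) := by
  unfold syn
  rw [← (summable_syn ha).tsum_sub (summable_syn hb)]
  simp only [sub_smul]

theorem coef_syn {a : (Fin d → ℤ) → ℂ} (ha : Summable fun n => ‖a n‖) (n : Fin d → ℤ) :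
    coef (syn a) n = a n := by
  have h := (coefL n).hasSum (summable_syn ha).hasSum
  simp only [map_smul, coefL_apply, smul_eq_mul] at h
  have h2 : HasSum (fun m => a m * coef (chC m) n) (a n) := by
    have : ∀ m, coef (chC m) n = if m = n then 1 else 0 := fun m => by
      have := coef_ch m n
      rw [show coef (chC m) n = coef (ch m) n from rfl, this]
      simp only [eq_comm]
    simp only [this, mul_ite, mul_one, mul_zero]
    exact hasSum_ite_eq n (a n) |>.congr_fun fun m => by split_ifs with h <;> simp [*]
  exact h.unique h2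

theorem ae_eq_syn {f : Torus d → ℂ} (hf : MemLp f 2 volume)
    (hs : Summable fun n => ‖coef f n‖) : f =ᵐ[volume] syn (coef f) :=
  ae_eq_of_coef hf (cont_memLp _) fun n => (coef_syn hs n).symm

end P139S
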