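import Vale.Agent.P139.SSol

/-! P139 part S: balls of the weighted Wiener algebras have positive Gaussian probability. -/

open Complex Set Filter Topology MeasureTheory ProbabilityTheory
open scoped ENNReal NNReal

noncomputable section
namespace P139S

open P139 (Z12 wA)

theorem iInter_pos {ι Ω : Type*} [Countable ι] [MeasurableSpace Ω] {P : Measure Ω}
    [IsProbabilityMeasure P] {g : ι → Ω → ℂ} (hi : iIndepFun g P) {S : ι → Set ℂ}
    (hS : ∀ n, MeasurableSet (S n)) (hpos : ∀ n, 0 < P (g n ⁻¹' S n))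
    (hsum : ∑' n, P (g n ⁻¹' (S n)ᶜ) ≠ ⊤) : 0 < P (⋂ n, g n ⁻¹' S n) := by
  classical
  obtain ⟨s, hs⟩ := ((ENNReal.tendsto_tsum_compl_atTop_zero hsum).eventually
    (gt_mem_nhds zero_lt_one)).exists
  have hI := iIndepFun_iff_measure_inter_preimage_eq_mul.mp hi
  set F : Set Ω := ⋂ n ∈ s, g n ⁻¹' S n with hF
  have hF1 : P F = ∏ n ∈ s, P (g n ⁻¹' S n) := hI s fun n _ => hS n
  have hF0 : P F ≠ 0 := by
    rw [hF1]
    exact Finset.prod_ne_zero_iff.mpr fun n _ => (hpos n).ne'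
  have hFn : ∀ n : {x // x ∉ s}, P (F ∩ g n ⁻¹' (S n)ᶜ) = P F * P (g n ⁻¹' (S n)ᶜ) := by
    rintro ⟨n, hn⟩
    have h := hI (insert n s) (sets := Function.update S n (S n)ᶜ) fun j _ => by
      by_cases hj : j = n
      · subst hj; simpa using hS j
      · simpa [hj] using hS j
    rw [Finset.prod_insert hn, Finset.set_biInter_insert, Function.update_self] at h
    have e : ∀ j ∈ s, Function.update S n (S n)ᶜ j = S j := fun j hj =>
      Function.update_of_ne (ne_of_mem_of_not_mem hj hn) _ _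
    rw [Finset.prod_congr rfl fun j hj => by rw [e j hj],
      iInter₂_congr fun j hj => by rw [e j hj]] at h
    rw [inter_comm, hF1, mul_comm]
    exact h
  rw [pos_iff_ne_zero]
  intro h0
  have hsub : F ⊆ (⋂ n, g n ⁻¹' S n) ∪ ⋃ n : {x // x ∉ s}, F ∩ g n ⁻¹' (S n)ᶜ := by
    intro ω hω
    by_cases h : ω ∈ ⋂ n, g n ⁻¹' S n
    · exact Or.inl h
    · right
      simp only [mem_iInter, not_forall] at h
      obtain ⟨n, hn⟩ := h
      have hns : n ∉ s := fun hns => hn (mem_iInter₂.mp hω n hns)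
      exact mem_iUnion.mpr ⟨⟨n, hns⟩, hω, hn⟩
  have h1 : P F ≤ P F * ∑' n : {x // x ∉ s}, P (g n ⁻¹' (S n)ᶜ) := by
    refine (measure_mono hsub).trans ((measure_union_le _ _).trans ?_)
    rw [h0, zero_add, ← ENNReal.tsum_mul_left]
    exact (measure_iUnion_le _).trans (le_of_eq (tsum_congr hFn))
  have h2 : P F * ∑' n : {x // x ∉ s}, P (g n ⁻¹' (S n)ᶜ) < P F * 1 :=
    ENNReal.mul_lt_mul_right hF0 (measure_ne_top _ _) hs
  rw [mul_one] at h2
  exact absurd h1 (not_le.mpr h2)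

theorem meas_cmap : Measurable fun z : ℝ × ℝ => (z.1 : ℂ) + (z.2 : ℂ) * I := by fun_prop

instance cGauss_prob (v : ℝ≥0) : IsProbabilityMeasure (cGauss v) :=
  Measure.isProbabilityMeasure_map meas_cmap.aemeasurable

theorem cGauss_open {v : ℝ≥0} (hv : v ≠ 0) : (cGauss v).IsOpenPosMeasure := by
  have : (gaussianReal 0 v).IsOpenPosMeasure :=
    (gaussianReal_absolutelyContinuous' 0 hv).isOpenPosMeasure
  exact Continuous.isOpenPosMeasure_map (by fun_prop) fun z => ⟨(z.re, z.im), re_add_im z⟩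

theorem cGauss_sq (v : ℝ≥0) : Integrable (fun z : ℂ => ‖z‖ ^ 2) (cGauss v) := by
  have h : MemLp (id : ℂ → ℂ) 2 (cGauss v) := by
    unfold cGauss
    rw [memLp_map_measure_iff aestronglyMeasurable_id meas_cmap.aemeasurable]
    have h1 : MemLp (id : ℝ → ℝ) 2 (gaussianReal 0 v) := memLp_id_gaussianReal 2
    exact ((h1.comp_fst _).ofReal (K := ℂ)).add (((h1.comp_snd _).ofReal (K := ℂ)).mul_const I)
  exact (memLp_two_iff_integrable_sq_norm aestronglyMeasurable_id).mp h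

theorem cGauss_tail (v : ℝ≥0) : ∃ M : ℝ, 0 ≤ M ∧ ∀ R : ℝ, 0 < R →
    cGauss v {z | R ≤ ‖z‖} ≤ ENNReal.ofReal (M / R ^ 2) := by
  refine ⟨∫ z, ‖z‖ ^ 2 ∂cGauss v, integral_nonneg fun _ => sq_nonneg _, fun R hR => ?_⟩
  have h := mul_meas_ge_le_integral_of_nonneg
    (Eventually.of_forall fun z : ℂ => sq_nonneg ‖z‖) (cGauss_sq v) (R ^ 2)
  have e : {z : ℂ | R ≤ ‖z‖} = {z | R ^ 2 ≤ ‖z‖ ^ 2} := by
    ext z
    simp only [mem_ofPred_eq]
    exact (pow_le_pow_iff_left₀ hR.le (norm_nonneg _) two_ne_zero).symm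
  rw [e, ← ofReal_measureReal]
  refine ENNReal.ofReal_le_ofReal ?_
  rw [le_div_iff₀ (by positivity), mul_comm]
  exact h

theorem wA_le (K : ℕ) (n : Z12) : wA K n ≤ 2 ^ K * jb n ^ K := by
  rw [← mul_pow]
  refine pow_le_pow_left₀ (by positivity) ?_ K
  have h1 := one_le_jb n
  have h2 : √(P139.nsq n) ≤ jb n := Real.sqrt_le_sqrt (by change nsq n ≤ _; linarith)
  linarith

theorem one_le_wA (K : ℕ) (n : Z12) : 1 ≤ wA K n :=
  one_le_pow₀ (by linarith [Real.sqrt_nonneg (P139.nsq n)])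

theorem small_ball {Ω : Type*} [MeasurableSpace Ω] {P : Measure Ω} [IsProbabilityMeasure P]
    {v : ℝ≥0} (hv : v ≠ 0) {g : Z12 → Ω → ℂ} (hg : IID P v g) {K : ℕ} {c₀ : Z12 → ℂ} {ρ : ℝ}
    (hρ : 0 < ρ) (hc : Summable fun n => wA K n * ‖c₀ n‖) {α : ℝ} (hα : (K : ℝ) + 19 < α) :
    ∃ A : Set Ω, MeasurableSet A ∧ 0 < P A ∧ ∀ ω ∈ A,
      Summable (fun n => wA K n * ‖g n ω * ((jb n ^ (-α) : ℝ) : ℂ) - c₀ n‖) ∧
      ∑' n, wA K n * ‖g n ω * ((jb n ^ (-α) : ℝ) : ℂ) - c₀ n‖ < ρ := by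
  classical
  obtain ⟨hm, hi, hl⟩ := hg
  have := cGauss_open hv
  obtain ⟨M, hM, hMt⟩ := cGauss_tail v
  have hw : ∀ n : Z12, 0 < wA K n := fun n => lt_of_lt_of_le one_pos (one_le_wA K n)
  have hj : ∀ n : Z12, 0 < jb n ^ (-α) := fun n => Real.rpow_pos_of_pos (jb_pos n) _
  set b : Z12 → ℝ := fun n => wA K n * (jb n ^ 7 * jb n ^ (-α)) + wA K n * ‖c₀ n‖ with hb
  have hb0 : ∀ n, 0 < b n := fun n => by
    have := hw n; have := hj n; have := jb_pos n
    positivity
  have hbs : Summable b := by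
    refine Summable.add ?_ hc
    refine Summable.of_nonneg_of_le (fun n => ?_) (fun n => ?_)
      ((summable_jb (s := α - K - 7) (by linarith)).mul_left (2 ^ K))
    · have := hw n; have := hj n; have := jb_pos n
      positivity
    · have e : jb n ^ (-(α - K - 7)) = jb n ^ K * (jb n ^ 7 * jb n ^ (-α)) := by
        rw [← Real.rpow_natCast, ← Real.rpow_natCast, ← Real.rpow_add (jb_pos n),
          ← Real.rpow_add (jb_pos n)]
        congr 1
        push_cast
        ring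
      rw [e, ← mul_assoc (2 ^ K)]
      have := hj n; have := jb_pos n
      exact mul_le_mul_of_nonneg_right (wA_le K n) (by positivity)
  obtain ⟨s, hs⟩ := ((tendsto_tsum_compl_atTop_zero b).eventually
    (gt_mem_nhds (half_pos hρ))).exists
  have hB : 0 ≤ ∑' n, b n := tsum_nonneg fun n => (hb0 n).le
  set θ : ℝ := ρ / (2 * (∑' n, b n + 1)) with hθ
  have hθ0 : 0 < θ := by positivity
  set r : Z12 → ℝ := fun n => θ * b n + indicator {x | x ∉ s} b n with hr
  have hr0 : ∀ n, 0 < r n := fun n =>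
    add_pos_of_pos_of_nonneg (mul_pos hθ0 (hb0 n)) (indicator_nonneg (fun n _ => (hb0 n).le) n)
  have hrs : Summable r := (hbs.mul_left θ).add (hbs.indicator _)
  have hrρ : ∑' n, r n < ρ := by
    rw [(hbs.mul_left θ).tsum_add (hbs.indicator _), tsum_mul_left, ← tsum_subtype]
    have h1 : θ * ∑' n, b n ≤ ρ / 2 := by
      rw [hθ, div_mul_eq_mul_div, div_le_div_iff₀ (by positivity) two_pos]
      nlinarith
    have h2 : ∑' x : ({x | x ∉ s} : Set Z12), b x < ρ / 2 := hs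
    linarith
  set S : Z12 → Set ℂ := fun n => {z | wA K n * ‖z * ((jb n ^ (-α) : ℝ) : ℂ) - c₀ n‖ < r n}
    with hS
  have hSo : ∀ n, IsOpen (S n) := fun n => isOpen_lt (by fun_prop) continuous_const
  have hP : ∀ n (U : Set ℂ), MeasurableSet U → P (g n ⁻¹' U) = cGauss v U := fun n U hU => by
    rw [← hl n, Measure.map_apply (hm n) hU]
  refine ⟨⋂ n, g n ⁻¹' S n, MeasurableSet.iInter fun n => hm n (hSo n).measurableSet,
    iInter_pos hi (fun n => (hSo n).measurableSet) (fun n => ?_) ?_, fun ω hω => ?_⟩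
  · rw [hP n _ (hSo n).measurableSet]
    refine (hSo n).measure_pos _ ⟨c₀ n / ((jb n ^ (-α) : ℝ) : ℂ), ?_⟩
    simp only [hS, mem_ofPred_eq]
    rw [div_mul_cancel₀ _ (ofReal_ne_zero.mpr (hj n).ne'), sub_self, norm_zero, mul_zero]
    exact hr0 n
  · have hq : Summable fun n : Z12 => indicator (s : Set Z12) (fun _ => (1 : ℝ)) n
        + M * jb n ^ (-(14 : ℝ)) :=
      (summable_of_ne_finset_zero (s := s) fun n hn => indicator_of_notMem hn _).add
        ((summable_jb (by norm_num)).mul_left M)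
    have hq0 : ∀ n : Z12, 0 ≤ M * jb n ^ (-(14 : ℝ)) := fun n =>
      mul_nonneg hM (Real.rpow_pos_of_pos (jb_pos n) _).le
    refine ne_top_of_le_ne_top (ENNReal.ofReal_ne_top (r := ∑' n : Z12,
      (indicator (s : Set Z12) (fun _ => (1 : ℝ)) n + M * jb n ^ (-(14 : ℝ))))) ?_
    rw [ENNReal.ofReal_tsum_of_nonneg (fun n => add_nonneg
      (indicator_nonneg (fun _ _ => zero_le_one) n) (hq0 n)) hq]
    refine ENNReal.tsum_le_tsum fun n => ?_
    by_cases hn : n ∈ s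
    · refine prob_le_one.trans ?_
      rw [indicator_of_mem (Finset.mem_coe.mpr hn), ENNReal.one_le_ofReal]
      linarith [hq0 n]
    · rw [indicator_of_notMem (by simpa using hn), zero_add,
        hP n _ (hSo n).measurableSet.compl]
      have h7 := pow_pos (jb_pos n) 7
      refine (measure_mono ?_).trans ((hMt _ h7).trans (le_of_eq ?_))
      · intro z hz
        simp only [hS, mem_compl_iff, mem_ofPred_eq, not_lt] at hz ⊢
        by_contra hlt
        rw [not_le] at hlt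
        have h1 : ‖z * ((jb n ^ (-α) : ℝ) : ℂ) - c₀ n‖ ≤ jb n ^ 7 * jb n ^ (-α) + ‖c₀ n‖ := by
          refine (norm_sub_le _ _).trans ?_
          rw [norm_mul, norm_real, Real.norm_of_nonneg (hj n).le]
          have := hj n
          gcongr
        have h2 : r n = θ * b n + b n := by
          simp only [hr]
          rw [indicator_of_mem (by exact hn)]
        have h3 := mul_le_mul_of_nonneg_left h1 (hw n).le
        have h4 := mul_pos hθ0 (hb0 n)
        have h5 : b n = wA K n * (jb n ^ 7 * jb n ^ (-α) + ‖c₀ n‖) := by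
          simp only [hb]; ring
        linarith
      · congr 1
        rw [Real.rpow_neg (jb_pos n).le, div_eq_mul_inv, ← pow_mul]
        congr 2
        exact_mod_cast rfl
  · have h1 : ∀ n, wA K n * ‖g n ω * ((jb n ^ (-α) : ℝ) : ℂ) - c₀ n‖ ≤ r n := fun n =>
      le_of_lt (mem_iInter.mp hω n)
    have h2 := Summable.of_nonneg_of_le
      (fun n => mul_nonneg (hw n).le (norm_nonneg _)) h1 hrs
    exact ⟨h2, (h2.tsum_le_tsum h1 hrs).trans_lt hrρ⟩

theorem ae_memH {Ω : Type*} [MeasurableSpace Ω] {P : Measure Ω} [IsProbabilityMeasure P]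
    {v : ℝ≥0} {g : Z12 → Ω → ℂ} (hg : IID P v g) {α : ℝ} {k : ℕ} (hk : (k : ℝ) < α - 6) :
    ∀ᵐ ω ∂P, Summable fun n => jb n ^ (2 * k) * ‖g n ω * ((jb n ^ (-α) : ℝ) : ℂ)‖ ^ 2 := by
  obtain ⟨hm, hi, hl⟩ := hg
  have e : ∀ (n : Z12) (z : ℂ), jb n ^ (2 * k) * ‖z * ((jb n ^ (-α) : ℝ) : ℂ)‖ ^ 2
      = jb n ^ (-(2 * α - 2 * k)) * ‖z‖ ^ 2 := by
    intro n z
    rw [norm_mul, norm_real, Real.norm_of_nonneg (Real.rpow_pos_of_pos (jb_pos n) _).le, mul_pow,
      mul_comm (‖z‖ ^ 2), ← mul_assoc, ← Real.rpow_natCast, ← Real.rpow_natCast (_ ^ (-α)),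
      ← Real.rpow_mul (jb_pos n).le, ← Real.rpow_add (jb_pos n)]
    congr 2
    push_cast
    ring
  simp only [e]
  have hs := summable_jb (s := 2 * α - 2 * k) (by linarith)
  have h0 : ∀ n : Z12, 0 ≤ jb n ^ (-(2 * α - 2 * k)) := fun n =>
    (Real.rpow_pos_of_pos (jb_pos n) _).le
  have hme : ∀ n, Measurable fun ω =>
      ENNReal.ofReal (jb n ^ (-(2 * α - 2 * k)) * ‖g n ω‖ ^ 2) := fun n => by
    have := hm n
    fun_prop
  have h1 : ∫⁻ ω, ∑' n, ENNReal.ofReal (jb n ^ (-(2 * α - 2 * k)) * ‖g n ω‖ ^ 2) ∂P ≠ ⊤ := by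
    rw [lintegral_tsum fun n => (hme n).aemeasurable]
    have h2 : ∀ n, ∫⁻ ω, ENNReal.ofReal (jb n ^ (-(2 * α - 2 * k)) * ‖g n ω‖ ^ 2) ∂P
        = ENNReal.ofReal (jb n ^ (-(2 * α - 2 * k)) * ∫ z, ‖z‖ ^ 2 ∂cGauss v) := by
      intro n
      have h5 : Measurable fun z : ℂ =>
          ENNReal.ofReal (jb n ^ (-(2 * α - 2 * k)) * ‖z‖ ^ 2) := by fun_prop
      have h6 := lintegral_map (μ := P) h5 (hm n)
      rw [hl n] at h6
      rw [← h6, ← integral_const_mul, ofReal_integral_eq_lintegral_ofReal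
        ((cGauss_sq v).const_mul _) (Eventually.of_forall fun z => mul_nonneg (h0 n) (sq_nonneg _))]
    simp only [h2]
    have h7 : 0 ≤ ∫ z, ‖z‖ ^ 2 ∂cGauss v := integral_nonneg fun _ => sq_nonneg _
    generalize ∫ z, ‖z‖ ^ 2 ∂cGauss v = M at h7
    have h8 := ENNReal.ofReal_tsum_of_nonneg (fun n => mul_nonneg (h0 n) h7) (hs.mul_right M)
    rw [← h8]
    exact ENNReal.ofReal_ne_top
  have h3 : Measurable fun ω =>
      ∑' n, ENNReal.ofReal (jb n ^ (-(2 * α - 2 * k)) * ‖g n ω‖ ^ 2) :=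
    Measurable.tsum hme
  have h4 := ae_lt_top (μ := P) h3 h1
  filter_upwards [h4] with ω hω
  refine (ENNReal.summable_toReal hω.ne).congr fun n => ?_
  exact ENNReal.toReal_ofReal (mul_nonneg (h0 n) (sq_nonneg _))

theorem exists_iid (v : ℝ≥0) : IID (Measure.infinitePi fun _ : Z12 => cGauss v) v
    fun n (ω : Z12 → ℂ) => ω n :=
  ⟨fun n => measurable_pi_apply n, iIndepFun_infinitePi (X := fun _ z => z) fun _ => measurable_id,
    fun n => Measure.infinitePi_map_eval _ n⟩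

end P139S
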