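import Vale.Agent.P139.Defs

/-! P139: the output of parts L and T in the form used by part S. -/

open Complex Set Filter Topology MeasureTheory

noncomputable section
namespace P139

/-- an open set of data without a solution up to a fixed time -/
def OpenNoSol (m : ℕ) : Prop :=
  ∃ (K : ℕ) (c₀ : Z12 → ℂ) (ρ T : ℝ), 0 < ρ ∧ 0 < T ∧ Summable (fun k => wA K k * ‖c₀ k‖) ∧
    ∀ c : Z12 → ℂ, Summable (fun k => wA K k * ‖c k - c₀ k‖) →
      ∑' k, wA K k * ‖c k - c₀ k‖ < ρ → ∀ u : ℝ → Z12 → ℂ, ¬ ASol m c T u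

def PartLT2 : Prop := ∀ (m : ℕ) (P : Prof m), 1 ≤ m → P.PDEStable → OpenNoSol m

theorem open_nosol (h1 : PartMI) (h2 : PartP) (h3 : PartM) (h4 : PartR) (h5 : PartLT2)
    (M : ℕ) : ∃ m, M ≤ m ∧ 1 ≤ m ∧ OpenNoSol m := by
  obtain ⟨D⟩ := h1
  obtain ⟨L⟩ := h2 D
  obtain ⟨j₀, hj₀⟩ := (L.m_lim.eventually (eventually_ge_atTop M)).exists_forall_of_atTop
  let L' : Lim D :=
    { L with
      m := fun j => L.m (j + j₀)
      P := fun j => L.P (j + j₀)
      m_pos := fun j => L.m_pos _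
      m_lim := L.m_lim.comp (tendsto_add_atTop_nat j₀)
      β_lim := L.β_lim.comp (tendsto_add_atTop_nat j₀)
      conv := fun A u hu => (tendsto_add_atTop_nat j₀).eventually (L.conv A u hu)
      conv' := fun A u hu => (tendsto_add_atTop_nat j₀).eventually (L.conv' A u hu)
      inside := fun r hr => (tendsto_add_atTop_nat j₀).eventually (L.inside r hr)
      Nbd := L.Nbd.imp fun C h j => h _
      mono := L.mono.imp fun _ h => h.imp fun _ h =>
        ⟨h.1, (tendsto_add_atTop_nat j₀).eventually h.2⟩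
      ext_lt := fun δ hδ => (L.ext_lt δ hδ).imp fun _ h =>
        ⟨h.1, (tendsto_add_atTop_nat j₀).eventually h.2⟩
      ext_ge := L.ext_ge.imp fun _ h => ⟨h.1, (tendsto_add_atTop_nat j₀).eventually h.2⟩
      ext_symb := fun δ hδ k => (L.ext_symb δ hδ k).imp fun _ h =>
        (tendsto_add_atTop_nat j₀).eventually h }
  obtain ⟨j, hj⟩ := h3 D L'
  exact ⟨L.m (j + j₀), hj₀ _ (Nat.le_add_left _ _), L.m_pos _,
    h5 _ _ (L.m_pos _) (h4 _ _ (L.m_pos _) hj)⟩

end P139
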