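import Vale.Agent.P139.SFour
import Vale.Agent.P139.TOut

/-! P139 part S: a solution in `C([0,T);H^k)`, `k > 6`, is a mild solution in the Wiener algebra. -/

open Complex Set Filter Topology MeasureTheory
open scoped ENNReal NNReal ComplexConjugate

noncomputable section
namespace P139S

open P139 (Z12 cv cj nl ASol)

theorem summable_prod_pi {f : ℤ → ℝ} (hf : Summable f) (h0 : ∀ n, 0 ≤ f n) (d : ℕ) :
    Summable fun n : Fin d → ℤ => ∏ i, f (n i) := by
  induction d with
  | zero => exact Summable.of_finite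
  | succ d ih =>
    rw [← (Fin.consEquiv fun _ : Fin (d + 1) => ℤ).summable_iff]
    refine (hf.mul_of_nonneg ih h0 fun n => Finset.prod_nonneg fun i _ => h0 _).congr ?_
    rintro ⟨a, b⟩
    simp [Fin.consEquiv, Fin.prod_univ_succ]

theorem summable_one_add_sq {r : ℝ} (hr : 1 < 2 * r) :
    Summable fun n : ℤ => (1 + (n : ℝ) ^ 2) ^ (-r) := by
  refine Summable.of_norm_bounded_eventually (Real.summable_abs_int_rpow hr) ?_
  filter_upwards [eventually_cofinite_ne 0] with n hn
  have h1 : (0 : ℝ) < |(n : ℝ)| := abs_pos.mpr (Int.cast_ne_zero.mpr hn)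
  rw [Real.norm_of_nonneg (by positivity), show -(2 * r) = 2 * (-r) by ring,
    Real.rpow_mul h1.le]
  refine Real.rpow_le_rpow_of_nonpos (by positivity) ?_ (by linarith)
  rw [Real.rpow_two, sq_abs]
  linarith

variable {d : ℕ}

theorem nsq_nonneg (n : Fin d → ℤ) : 0 ≤ nsq n := Finset.sum_nonneg fun _ _ => sq_nonneg _

theorem one_le_jb (n : Fin d → ℤ) : 1 ≤ jb n := by
  unfold jb
  rw [Real.one_le_sqrt]
  linarith [nsq_nonneg n]

theorem jb_pos (n : Fin d → ℤ) : 0 < jb n := lt_of_lt_of_le one_pos (one_le_jb n)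

theorem summable_jb {s : ℝ} (hs : 12 < s) : Summable fun n : Z12 => jb n ^ (-s) := by
  have h := summable_prod_pi (summable_one_add_sq (r := s / 24) (by linarith))
    (fun n => by positivity) 12
  refine Summable.of_nonneg_of_le (fun n => (Real.rpow_pos_of_pos (jb_pos n) _).le) (fun n => ?_) h
  have h0 : 0 ≤ 1 + nsq n := by linarith [nsq_nonneg n]
  have e : jb n ^ (-s) = ∏ _i : Fin 12, (1 + nsq n) ^ (-(s / 24)) := by
    rw [Finset.prod_const, Finset.card_univ, Fintype.card_fin, ← Real.rpow_natCast,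
      ← Real.rpow_mul h0, jb, Real.sqrt_eq_rpow, ← Real.rpow_mul h0]
    congr 1
    push_cast
    ring
  rw [e]
  refine Finset.prod_le_prod (fun i _ => by positivity) fun i _ => ?_
  refine Real.rpow_le_rpow_of_nonpos (by positivity) ?_ (by linarith)
  have : (n i : ℝ) ^ 2 ≤ nsq n :=
    Finset.single_le_sum (f := fun i => (n i : ℝ) ^ 2) (fun _ _ => sq_nonneg _) (Finset.mem_univ i)
  linarith

theorem summable_jb_inv {k : ℕ} (hk : 6 < k) : Summable fun n : Z12 => ((jb n ^ k)⁻¹) ^ 2 := by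
  have h := summable_jb (s := 2 * k) (by
    have : (6 : ℝ) < k := by exact_mod_cast hk
    linarith)
  refine h.congr fun n => ?_
  rw [Real.rpow_neg (jb_pos n).le, inv_pow, ← pow_mul, ← Real.rpow_natCast]
  congr 2
  push_cast
  ring

/-- the embedding constant -/
def CE (k : ℕ) : ℝ := √(∑' n : Z12, ((jb n ^ k)⁻¹) ^ 2)

theorem embed {k : ℕ} (hk : 6 < k) {a : Z12 → ℂ}
    (ha : Summable fun n => jb n ^ (2 * k) * ‖a n‖ ^ 2) :
    (Summable fun n => ‖a n‖) ∧
      ∑' n, ‖a n‖ ≤ CE k * √(∑' n, jb n ^ (2 * k) * ‖a n‖ ^ 2) := by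
  have e : ∀ n, jb n ^ (2 * k) * ‖a n‖ ^ 2 = (jb n ^ k * ‖a n‖) ^ 2 := fun n => by ring
  have e2 : ∀ n, ‖a n‖ = (jb n ^ k)⁻¹ * (jb n ^ k * ‖a n‖) := fun n => by
    rw [← mul_assoc, inv_mul_cancel₀ (pow_pos (jb_pos n) k).ne', one_mul]
  simp only [e] at ha ⊢
  have hb : ∀ s : Finset Z12, ∑ n ∈ s, ‖a n‖ ≤ CE k * √(∑' n, (jb n ^ k * ‖a n‖) ^ 2) := by
    intro s
    rw [Finset.sum_congr rfl fun n _ => e2 n]
    refine (Real.sum_mul_le_sqrt_mul_sqrt s _ _).trans ?_
    unfold CE
    gcongr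
    · exact (summable_jb_inv hk).sum_le_tsum s fun _ _ => sq_nonneg _
    · exact ha.sum_le_tsum s fun _ _ => sq_nonneg _
  have hs := summable_of_sum_le (fun n => norm_nonneg _) hb
  exact ⟨hs, hs.tsum_le_of_sum_le hb⟩

/-! ### convolution -/

/-- ` (n, j) ↦ (j, n - j)` -/
def shear : Z12 × Z12 ≃ Z12 × Z12 where
  toFun p := (p.2, p.1 - p.2)
  invFun q := (q.1 + q.2, q.1)
  left_inv p := by simp
  right_inv q := by simp

theorem summable_shear {a b : Z12 → ℂ} (ha : Summable fun n => ‖a n‖)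
    (hb : Summable fun n => ‖b n‖) :
    Summable fun p : Z12 × Z12 => ‖a p.2 * b (p.1 - p.2)‖ :=
  (shear.summable_iff (f := fun q : Z12 × Z12 => ‖a q.1 * b q.2‖)).mpr (ha.mul_norm hb)

theorem summable_cv {a b : Z12 → ℂ} (ha : Summable fun n => ‖a n‖)
    (hb : Summable fun n => ‖b n‖) : Summable fun n => ‖cv a b n‖ := by
  have h := summable_shear ha hb
  refine Summable.of_nonneg_of_le (fun _ => norm_nonneg _) (fun n => ?_) h.prod
  exact norm_tsum_le_tsum_norm (h.prod_factor n)

theorem syn_cv {a b : Z12 → ℂ} (ha : Summable fun n => ‖a n‖)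
    (hb : Summable fun n => ‖b n‖) : syn (cv a b) = syn a * syn b := by
  ext x
  have h1 := (hasSum_syn ha x).mul (hasSum_syn hb x) (by
    refine Summable.of_norm ?_
    refine (ha.mul_norm hb).congr fun q => ?_
    simp only [norm_mul, norm_ch, mul_one])
  have h2 := (shear.hasSum_iff (f := fun q : Z12 × Z12 => a q.1 * ch q.1 x * (b q.2 * ch q.2 x))).mpr h1
  have h3 : HasSum (fun n => cv a b n * ch n x) (syn a x * syn b x) := by
    refine h2.prod_fiberwise fun n => ?_
    have h4 := (((summable_shear ha hb).prod_factor n).of_norm.hasSum).mul_right (ch n x)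
    refine h4.congr_fun fun j => ?_
    have : ch n x = ch j x * ch (n - j) x := by rw [← ch_add, add_sub_cancel]
    simp only [Function.comp, shear, Equiv.coe_fn_mk]
    rw [this]
    ring
  exact (hasSum_syn (summable_cv ha hb) x).unique h3

theorem summable_cj {a : Z12 → ℂ} (ha : Summable fun n => ‖a n‖) :
    Summable fun n => ‖cj a n‖ := by
  have := (Equiv.neg Z12).summable_iff.mpr ha
  refine this.congr fun n => ?_
  simp [cj]

theorem syn_cj {a : Z12 → ℂ} (ha : Summable fun n => ‖a n‖) : syn (cj a) = star (syn a) := by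
  ext x
  have h1 := (Equiv.neg Z12).hasSum_iff.mpr (hasSum_syn ha x).star
  refine (hasSum_syn (summable_cj ha) x).unique (h1.congr_fun fun n => ?_)
  simp [cj, ch_neg]

theorem summable_nl {a : Z12 → ℂ} (ha : Summable fun n => ‖a n‖) (m : ℕ) :
    Summable fun n => ‖nl m a n‖ := by
  induction m with
  | zero => exact ha
  | succ m ih => exact summable_cv (summable_cv ha (summable_cj ha)) ih

theorem syn_nl {a : Z12 → ℂ} (ha : Summable fun n => ‖a n‖) (m : ℕ) :
    syn (nl m a) = (syn a * star (syn a)) ^ m * syn a := by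
  induction m with
  | zero => simp [nl]
  | succ m ih =>
    rw [nl, syn_cv (summable_cv ha (summable_cj ha)) (summable_nl ha m),
      syn_cv ha (summable_cj ha), syn_cj ha, ih]
    ring

theorem nl_eq {a : Z12 → ℂ} (ha : Summable fun n => ‖a n‖) (m : ℕ) (n : Z12) :
    nl m a n = coefL n ((syn a * star (syn a)) ^ m * syn a) := by
  rw [coefL_apply, ← syn_nl ha, coef_syn (summable_nl ha m)]

theorem coef_nonlin {a : Z12 → ℂ} (ha : Summable fun n => ‖a n‖) (m : ℕ) {f : Torus 12 → ℂ}
    (hf : f =ᵐ[volume] syn a) (n : Z12) :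
    coef (fun x => (‖f x‖ : ℂ) ^ (2 * m + 1 - 1) * f x) n = nl m a n := by
  rw [nl_eq ha, coefL_apply]
  refine congrFun (coef_congr ?_) n
  filter_upwards [hf] with x hx
  simp only [hx, ContinuousMap.mul_apply, ContinuousMap.pow_apply, ContinuousMap.star_apply,
    Nat.add_sub_cancel, pow_mul]
  rw [← starRingEnd_apply, mul_conj, normSq_eq_norm_sq]
  push_cast
  rfl

theorem datum_eq {α : ℝ} {g : Z12 → ℂ}
    (h : Summable fun n => ‖g n * ((jb n ^ (-α) : ℝ) : ℂ)‖) :
    datum α g = syn fun n => g n * ((jb n ^ (-α) : ℝ) : ℂ) := by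
  funext x
  exact (hasSum_syn h x).tsum_eq

theorem asol_of_isSol {m k : ℕ} (hk : 6 < k) {T T' : ℝ} (hT : T ≤ T') {c : Z12 → ℂ}
    (hc : Summable fun n => ‖c n‖) {u : ℝ → Torus 12 → ℂ}
    (hu : IsSol (2 * m + 1) k T' (syn c) u) : ASol m c T fun t => coef (u t) := by
  obtain ⟨h1, h2, h3, h4⟩ := hu
  have hs : ∀ t ∈ Ico 0 T', Summable fun n => ‖coef (u t) n‖ := fun t ht =>
    (embed hk (h1 t ht).2).1
  have hA : ∀ t ∈ Ico 0 T', Tendsto (fun s => ∑' n, ‖coef (u s) n - coef (u t) n‖)
      (𝓝[Ico 0 T'] t) (𝓝 0) := by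
    intro t ht
    have h5 := (h2 t ht).const_mul (CE k)
    rw [mul_zero] at h5
    refine squeeze_zero' (Eventually.of_forall fun s => tsum_nonneg fun _ => norm_nonneg _) ?_ h5
    filter_upwards [self_mem_nhdsWithin] with s hs'
    have e : ∀ n, coef (u s - u t) n = coef (u s) n - coef (u t) n := fun n =>
      coef_sub ((h1 s hs').1.integrable one_le_two) ((h1 t ht).1.integrable one_le_two) n
    unfold normH
    simp only [e]
    refine (embed hk ?_).2
    refine Summable.of_nonneg_of_le (fun n => by have := jb_pos n; positivity) (fun n => ?_)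
      (((h1 s hs').2.add (h1 t ht).2).mul_left 2)
    have := norm_sub_le (coef (u s) n) (coef (u t) n)
    have h6 : ‖coef (u s) n - coef (u t) n‖ ^ 2 ≤ 2 * (‖coef (u s) n‖ ^ 2 + ‖coef (u t) n‖ ^ 2) := by
      nlinarith [norm_nonneg (coef (u s) n - coef (u t) n), norm_nonneg (coef (u s) n),
        norm_nonneg (coef (u t) n), sq_nonneg (‖coef (u s) n‖ - ‖coef (u t) n‖)]
    have h7 := pow_pos (jb_pos n) (2 * k)
    nlinarith
  have hsub : Ico 0 T ⊆ Ico 0 T' := Ico_subset_Ico_right hT
  refine ⟨fun t ht => hs t (hsub ht), fun t ht => (hA t (hsub ht)).mono_left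
    (nhdsWithin_mono _ hsub), fun t ht n => ?_⟩
  -- continuity of the synthesis
  have hsyn : ContinuousOn (fun t => syn (coef (u t))) (Ico 0 T') := by
    intro t ht
    rw [ContinuousWithinAt, tendsto_iff_norm_sub_tendsto_zero]
    refine squeeze_zero' (Eventually.of_forall fun _ => norm_nonneg _) ?_ (hA t ht)
    filter_upwards [self_mem_nhdsWithin] with s hs'
    rw [syn_sub (hs s hs') (hs t ht)]
    refine norm_syn_le (Summable.of_nonneg_of_le (fun _ => norm_nonneg _)
      (fun n => norm_sub_le _ _) ((hs s hs').add (hs t ht)))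
  have hcoef : ContinuousOn (fun t => coef (u t) n) (Ico 0 T') := by
    refine ((coefL n).continuous.comp_continuousOn hsyn).congr fun t ht => ?_
    simp only [Function.comp, coefL_apply, coef_syn (hs t ht)]
  have hnl : ContinuousOn (fun t => nl m (coef (u t)) n) (Ico 0 T') := by
    have h5 : ContinuousOn (fun t => (syn (coef (u t)) * star (syn (coef (u t)))) ^ m
        * syn (coef (u t))) (Ico 0 T') := ((hsyn.mul hsyn.star).pow m).mul hsyn
    refine ((coefL n).continuous.comp_continuousOn h5).congr fun t ht => ?_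
    simp only [Function.comp, nl_eq (hs t ht)]
  have hIcc : Icc 0 t ⊆ Ico 0 T' := fun s hs' => ⟨hs'.1, lt_of_le_of_lt hs'.2 (hsub ht).2⟩
  have h0 : coef (u 0) n = c n := by rw [coef_congr h3, coef_syn hc]
  have hder : ∀ s ∈ Ioo 0 t, HasDerivAt (fun s : ℝ => cexp (I * nsq n * s) * coef (u s) n)
      (-I * (cexp (I * nsq n * s) * nl m (coef (u s)) n)) s := by
    intro s hs'
    have hs2 : s ∈ Ico 0 T' := hIcc ⟨hs'.1.le, hs'.2.le⟩
    obtain ⟨D, hD, hE⟩ := h4 s ⟨hs'.1, hs2.2⟩ n
    rw [coef_nonlin (hs s hs2) m (ae_eq_syn (h1 s hs2).1 (hs s hs2))] at hE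
    have h5 : HasDerivAt (fun s : ℝ => cexp (I * nsq n * s))
        (cexp (I * nsq n * s) * (I * nsq n)) s := by
      have := ((hasDerivAt_id (s : ℂ)).const_mul (I * nsq n)).cexp.comp_ofReal
      simpa using this
    refine (h5.mul hD).congr_deriv ?_
    rw [← hE]
    linear_combination (cexp (I * nsq n * s) * D) * I_sq
  have hc1 : ContinuousOn (fun s : ℝ => cexp (I * nsq n * s)) (Icc 0 t) := by fun_prop
  have hftc := intervalIntegral.integral_eq_sub_of_hasDerivAt_of_le ht.1
    (hc1.mul (hcoef.mono hIcc)) hder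
    (((hc1.mul (hnl.mono hIcc)).const_mul (-I)).intervalIntegrable_of_Icc ht.1)
  simp only [ofReal_zero, mul_zero, exp_zero, one_mul, h0, Pi.mul_apply] at hftc
  rw [intervalIntegral.integral_const_mul] at hftc
  have e : ∀ s : ℝ, cexp (-I * P139.nsq n * ((t : ℂ) - s)) * nl m (coef (u s)) n
      = cexp (-I * nsq n * t) * (cexp (I * nsq n * s) * nl m (coef (u s)) n) := by
    intro s
    rw [← mul_assoc, ← exp_add]
    congr 2
    change -I * nsq n * ((t : ℂ) - s) = _
    ring
  simp only [e]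
  rw [intervalIntegral.integral_const_mul]
  change coef (u t) n = cexp (-I * nsq n * t) * c n - _
  have e2 : cexp (-I * nsq n * t) * cexp (I * nsq n * t) = 1 := by
    rw [← exp_add]
    simp
  linear_combination (-cexp (-I * nsq n * t)) * hftc - coef (u t) n * e2

end P139S
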