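import Vale.Agent.P139.Defs

/-! P139: symbol bounds give weighted integrability of the Fourier transform, part A
(one compactly supported piece, dilations). -/

open Complex Set Filter Topology MeasureTheory
open scoped ContDiff ComplexConjugate InnerProductSpace FourierTransform

noncomputable section
namespace P139

/-- synthesis (inverse Fourier integral, no `2π`) -/
def swSyn (φ : E → ℂ) (y : E) : ℂ := ∫ ξ : E, cexp (I * ((⟪ξ, y⟫_ℝ : ℝ) : ℂ)) * φ ξ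

/-- Fourier side of the dilation `y ↦ R⁻¹ y` -/
def swDil (R : ℝ) (φ : E → ℂ) (ξ : E) : ℂ := ((R ^ 12 : ℝ) : ℂ) * φ (R • ξ)

theorem sw_finrank : Module.finrank ℝ E = 12 := by simp

theorem sw_syn_dil {R : ℝ} (hR : 0 < R) (φ : E → ℂ) (y : E) :
    swSyn (swDil R φ) y = swSyn φ (R⁻¹ • y) := by
  have h := Measure.integral_comp_smul_of_nonneg (volume : Measure E)
    (fun η : E => cexp (I * ((⟪η, R⁻¹ • y⟫_ℝ : ℝ) : ℂ)) * φ η) R (hR := hR.le)
  rw [sw_finrank] at h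
  have e : ∀ ξ : E, ⟪R • ξ, R⁻¹ • y⟫_ℝ = ⟪ξ, y⟫_ℝ := by
    intro ξ
    rw [real_inner_smul_left, real_inner_smul_right, ← mul_assoc, mul_inv_cancel₀ hR.ne', one_mul]
  simp only [e] at h
  unfold swSyn swDil
  have e2 : ∀ ξ : E, cexp (I * ((⟪ξ, y⟫_ℝ : ℝ) : ℂ)) * (((R ^ 12 : ℝ) : ℂ) * φ (R • ξ))
      = ((R ^ 12 : ℝ) : ℂ) * (cexp (I * ((⟪ξ, y⟫_ℝ : ℝ) : ℂ)) * φ (R • ξ)) := by
    intro ξ; ring
  simp only [e2]
  rw [integral_const_mul, h, Complex.real_smul, ← mul_assoc, ← Complex.ofReal_mul,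
    mul_inv_cancel₀ (pow_pos hR 12).ne']
  simp

theorem sw_fourierInv (φ : E → ℂ) (y : E) : 𝓕⁻ φ y = swSyn φ ((2 * Real.pi) • y) := by
  rw [Real.fourierInv_eq']
  unfold swSyn
  refine integral_congr_ae (Eventually.of_forall fun ξ => ?_)
  simp only [smul_eq_mul, real_inner_smul_right]
  rw [mul_comm I]

theorem sw_dil_cont {φ : E → ℂ} (hφ : Continuous φ) (R : ℝ) : Continuous (swDil R φ) := by
  unfold swDil
  fun_prop

theorem sw_dil_int {R : ℝ} (hR : 1 / 7 ≤ R) (K : ℕ) {φ : E → ℂ} (hφ : Continuous φ)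
    (hi : Integrable fun ξ : E => (1 + ‖ξ‖) ^ K * ‖φ ξ‖) :
    Integrable (fun ξ : E => (1 + ‖ξ‖) ^ K * ‖swDil R φ ξ‖) ∧
      ∫ ξ : E, (1 + ‖ξ‖) ^ K * ‖swDil R φ ξ‖ ≤ 7 ^ K * ∫ ξ : E, (1 + ‖ξ‖) ^ K * ‖φ ξ‖ := by
  have hR0 : 0 < R := by linarith
  have h1 : Integrable fun ξ : E => 7 ^ K * R ^ 12 * ((1 + ‖R • ξ‖) ^ K * ‖φ (R • ξ)‖) :=
    (hi.comp_smul hR0.ne').const_mul _
  have hb : ∀ ξ : E, (1 + ‖ξ‖) ^ K * ‖swDil R φ ξ‖
      ≤ 7 ^ K * R ^ 12 * ((1 + ‖R • ξ‖) ^ K * ‖φ (R • ξ)‖) := by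
    intro ξ
    unfold swDil
    rw [norm_mul, Complex.norm_real, Real.norm_of_nonneg (by positivity)]
    have h2 : 1 + ‖ξ‖ ≤ 7 * (1 + ‖R • ξ‖) := by
      rw [norm_smul, Real.norm_of_nonneg hR0.le]
      have := norm_nonneg ξ
      nlinarith
    have h3 : (1 + ‖ξ‖) ^ K ≤ 7 ^ K * (1 + ‖R • ξ‖) ^ K := by
      rw [← mul_pow]
      exact pow_le_pow_left₀ (by positivity) h2 K
    calc (1 + ‖ξ‖) ^ K * (R ^ 12 * ‖φ (R • ξ)‖)
        ≤ (7 ^ K * (1 + ‖R • ξ‖) ^ K) * (R ^ 12 * ‖φ (R • ξ)‖) := by gcongr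
      _ = _ := by ring
  have hc : Continuous fun ξ : E => (1 + ‖ξ‖) ^ K * ‖swDil R φ ξ‖ := by
    have := sw_dil_cont hφ R
    fun_prop
  have h4 : Integrable fun ξ : E => (1 + ‖ξ‖) ^ K * ‖swDil R φ ξ‖ := by
    refine h1.mono' hc.aestronglyMeasurable (Eventually.of_forall fun ξ => ?_)
    rw [Real.norm_of_nonneg (by positivity)]
    exact hb ξ
  refine ⟨h4, (integral_mono h4 h1 hb).trans (le_of_eq ?_)⟩
  rw [integral_const_mul]
  have h := Measure.integral_comp_smul_of_nonneg (volume : Measure E)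
    (fun η : E => (1 + ‖η‖) ^ K * ‖φ η‖) R (hR := hR0.le)
  rw [sw_finrank] at h
  rw [h, smul_eq_mul]
  field_simp

theorem sw_int_deriv {M : ℕ} {G : E → ℂ} (hG : ContDiff ℝ M G)
    (hs : tsupport G ⊆ Metric.closedBall 0 2) {B : ℝ} {j : ℕ} (hj : j ≤ M)
    (hB : ∀ y, ‖iteratedFDeriv ℝ j G y‖ ≤ B) :
    Integrable (fun y => ‖iteratedFDeriv ℝ j G y‖) ∧
      ∫ y, ‖iteratedFDeriv ℝ j G y‖ ≤ (volume : Measure E).real (Metric.closedBall 0 2) * B := by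
  have hc : HasCompactSupport G :=
    (isCompact_closedBall (0 : E) 2).of_isClosed_subset (isClosed_tsupport G) hs
  have hcont : Continuous (iteratedFDeriv ℝ j G) :=
    hG.continuous_iteratedFDeriv (by exact_mod_cast hj)
  have hi : Integrable (fun y => ‖iteratedFDeriv ℝ j G y‖) :=
    (hcont.integrable_of_hasCompactSupport (hc.iteratedFDeriv j)).norm
  refine ⟨hi, ?_⟩
  have hz : ∀ y, y ∉ Metric.closedBall (0 : E) 2 → ‖iteratedFDeriv ℝ j G y‖ = 0 := by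
    intro y hy
    rw [norm_eq_zero]
    by_contra h
    exact hy (hs (support_iteratedFDeriv_subset j h))
  rw [← setIntegral_eq_integral_of_forall_compl_eq_zero hz]
  have h := norm_setIntegral_le_of_norm_le_const (μ := (volume : Measure E))
    (s := Metric.closedBall (0 : E) 2) (f := fun y => ‖iteratedFDeriv ℝ j G y‖) (C := B)
    measure_closedBall_lt_top (fun y _ => by rw [norm_norm]; exact hB y)
  rw [mul_comm]
  exact (le_abs_self _).trans h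

theorem sw_fourier_pt {M : ℕ} {G : E → ℂ} (hG : ContDiff ℝ M G)
    (hs : tsupport G ⊆ Metric.closedBall 0 2) {B : ℝ}
    (hB : ∀ j ≤ M, ∀ y, ‖iteratedFDeriv ℝ j G y‖ ≤ B) {n : ℕ} (hn : n ≤ M) (w : E) :
    ‖w‖ ^ n * ‖𝓕 G w‖ ≤ 2 ^ n * ((n + 1) *
      ((volume : Measure E).real (Metric.closedBall 0 2) * B)) := by
  have h := Real.pow_mul_norm_iteratedFDeriv_fourier_le (f := G) (K := 0) (N := (M : ℕ∞))
    (by exact_mod_cast hG)
    (fun k i hk hi => by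
      have hk0 : k = 0 := by simpa using hk
      subst hk0
      have hi' : i ≤ M := by exact_mod_cast hi
      simpa using (sw_int_deriv hG hs hi' (hB i hi')).1)
    (k := 0) (n := n) (by simp) (by exact_mod_cast hn) w
  simp only [norm_iteratedFDeriv_zero, pow_zero, Nat.cast_zero, mul_zero, zero_add, one_mul,
    Finset.range_one, Finset.singleton_product, Finset.sum_map] at h
  refine h.trans ?_
  gcongr
  refine (Finset.sum_le_card_nsmul _ _
    ((volume : Measure E).real (Metric.closedBall 0 2) * B) ?_).trans (le_of_eq ?_)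
  · intro i hi
    have hi' : i ≤ M := by
      have := Finset.mem_range.1 hi
      omega
    simpa using (sw_int_deriv hG hs hi' (hB i hi')).2
  · simp

theorem sw_piece (K : ℕ) : ∃ C : ℝ, 0 ≤ C ∧ ∀ (G : E → ℂ) (B : ℝ), ContDiff ℝ (K + 13 : ℕ) G →
    tsupport G ⊆ Metric.closedBall 0 2 → (∀ j ≤ K + 13, ∀ y, ‖iteratedFDeriv ℝ j G y‖ ≤ B) →
    Continuous (𝓕 G) ∧ Integrable (fun ξ : E => (1 + ‖ξ‖) ^ K * ‖𝓕 G ξ‖) ∧
      ∫ ξ : E, (1 + ‖ξ‖) ^ K * ‖𝓕 G ξ‖ ≤ C * B ∧ ∀ y, 𝓕⁻ (𝓕 G) y = G y := by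
  set V := (volume : Measure E).real (Metric.closedBall 0 2) with hV
  have hV0 : 0 ≤ V := measureReal_nonneg
  have hI : Integrable (fun ξ : E => (1 + ‖ξ‖) ^ (-(13 : ℝ))) :=
    integrable_one_add_norm (by rw [sw_finrank]; norm_num)
  set J := ∫ ξ : E, (1 + ‖ξ‖) ^ (-(13 : ℝ)) with hJ
  have hJ0 : 0 ≤ J := integral_nonneg fun ξ => by positivity
  set c : ℝ := 2 ^ (K + 12) * (V + 2 ^ (K + 13) * ((K + 14) * V)) with hc
  have hc0 : 0 ≤ c := by positivity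
  refine ⟨c * J, by positivity, fun G B hG hs hB => ?_⟩
  have hB0 : 0 ≤ B := (norm_nonneg _).trans (hB 0 (by omega) 0)
  have hcs : HasCompactSupport G :=
    (isCompact_closedBall (0 : E) 2).of_isClosed_subset (isClosed_tsupport G) hs
  have hGi : Integrable G := hG.continuous.integrable_of_hasCompactSupport hcs
  have hFc : Continuous (𝓕 G) :=
    VectorFourier.fourierIntegral_continuous Real.continuous_fourierChar
      (by exact continuous_inner) hGi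
  have hpt : ∀ w : E, (1 + ‖w‖) ^ K * ‖𝓕 G w‖ ≤ c * B * (1 + ‖w‖) ^ (-(13 : ℝ)) := by
    intro w
    have h0 := sw_fourier_pt hG hs hB (n := 0) (by omega) w
    have h1 := sw_fourier_pt hG hs hB (n := K + 13) le_rfl w
    rw [← hV] at h0 h1
    simp only [pow_zero, one_mul, Nat.cast_zero, zero_add] at h0
    have h2 := add_pow_le (a := (1 : ℝ)) (b := ‖w‖) zero_le_one (norm_nonneg w) (K + 13)
    have e : K + 13 - 1 = K + 12 := by omega
    rw [e, one_pow] at h2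
    have hp : 0 < 1 + ‖w‖ := by positivity
    have e2 : (1 + ‖w‖) ^ (-(13 : ℝ)) = ((1 + ‖w‖) ^ 13)⁻¹ := by
      rw [Real.rpow_neg hp.le]
      norm_cast
    rw [e2, ← div_eq_mul_inv, le_div_iff₀ (by positivity)]
    have e3 : (1 + ‖w‖) ^ K * ‖𝓕 G w‖ * (1 + ‖w‖) ^ 13 = (1 + ‖w‖) ^ (K + 13) * ‖𝓕 G w‖ := by
      ring
    rw [e3]
    have e4 : ((K + 13 : ℕ) : ℝ) + 1 = K + 14 := by push_cast; ring
    rw [e4] at h1
    calc (1 + ‖w‖) ^ (K + 13) * ‖𝓕 G w‖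
        ≤ 2 ^ (K + 12) * (1 + ‖w‖ ^ (K + 13)) * ‖𝓕 G w‖ := by gcongr
      _ = 2 ^ (K + 12) * (‖𝓕 G w‖ + ‖w‖ ^ (K + 13) * ‖𝓕 G w‖) := by ring
      _ ≤ 2 ^ (K + 12) * (V * B + 2 ^ (K + 13) * ((K + 14) * (V * B))) := by gcongr
      _ = c * B := by rw [hc]; ring
  have hcw : Continuous fun ξ : E => (1 + ‖ξ‖) ^ K * ‖𝓕 G ξ‖ := by fun_prop
  have hint : Integrable (fun ξ : E => (1 + ‖ξ‖) ^ K * ‖𝓕 G ξ‖) := by
    refine (hI.const_mul (c * B)).mono' hcw.aestronglyMeasurable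
      (Eventually.of_forall fun ξ => ?_)
    rw [Real.norm_of_nonneg (by positivity)]
    exact hpt ξ
  refine ⟨hFc, hint, ?_, fun y => ?_⟩
  · refine (integral_mono hint (hI.const_mul (c * B)) hpt).trans (le_of_eq ?_)
    rw [integral_const_mul, ← hJ]
    ring
  · have hFi : Integrable (𝓕 G) := by
      refine hint.mono' hFc.aestronglyMeasurable (Eventually.of_forall fun ξ => ?_)
      have h1 : (1 : ℝ) ≤ (1 + ‖ξ‖) ^ K := one_le_pow₀ (by linarith [norm_nonneg ξ])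
      nlinarith [norm_nonneg (𝓕 G ξ)]
    exact hGi.fourierInv_fourier_eq hFi hG.continuous.continuousAt

end P139
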