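import Vale.Agent.P139.SWA

/-! P139: symbol bounds give weighted integrability of the Fourier transform, part B
(dyadic decomposition). -/

open Complex Set Filter Topology MeasureTheory
open scoped ContDiff ComplexConjugate InnerProductSpace FourierTransform

noncomputable section
namespace P139

def swBump : ContDiffBump (0 : E) := ⟨1, 2, one_pos, one_lt_two⟩

def swChi (y : E) : ℂ := ((swBump y : ℝ) : ℂ)

/-- dyadic cutoffs -/
def swRho (k : ℕ) (y : E) : ℂ := if k = 0 then swChi y else swChi y - swChi ((2 : ℝ) • y)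

/-- rescaled dyadic piece -/
def swG (F : E → ℂ) (k : ℕ) (y : E) : ℂ := swRho k y * F ((2 : ℝ) ^ k • y)

/-- Fourier side of the `k`-th dyadic piece -/
def swPiece (F : E → ℂ) (k : ℕ) : E → ℂ := swDil (2 ^ k / (2 * Real.pi)) (𝓕 (swG F k))

/-- the Fourier side of a symbol -/
def wien (F : E → ℂ) (ξ : E) : ℂ := ∑' k, swPiece F k ξ

theorem sw_chi_smooth : ContDiff ℝ ∞ swChi :=
  ofRealCLM.contDiff.comp swBump.contDiff

theorem sw_chi_one {y : E} (hy : ‖y‖ ≤ 1) : swChi y = 1 := by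
  unfold swChi
  rw [swBump.one_of_mem_closedBall (by simpa [swBump] using hy)]
  simp

theorem sw_chi_zero {y : E} (hy : 2 ≤ ‖y‖) : swChi y = 0 := by
  unfold swChi
  rw [swBump.zero_of_le_dist (by simpa [swBump] using hy)]
  simp

theorem sw_rho_smooth (k : ℕ) : ContDiff ℝ ∞ (swRho k) := by
  unfold swRho
  split_ifs
  · exact sw_chi_smooth
  · exact sw_chi_smooth.sub (sw_chi_smooth.comp (contDiff_const_smul (2 : ℝ)))

theorem sw_rho_supp (k : ℕ) : tsupport (swRho k) ⊆ Metric.closedBall 0 2 := by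
  refine closure_minimal ?_ Metric.isClosed_closedBall
  intro y hy
  by_contra h
  have h2 : 2 ≤ ‖y‖ := by
    simp only [mem_closedBall_zero_iff, not_le] at h
    exact h.le
  apply hy
  unfold swRho
  split_ifs
  · exact sw_chi_zero h2
  · rw [sw_chi_zero h2, sw_chi_zero (by rw [norm_smul, Real.norm_two]; linarith), sub_zero]

theorem sw_rho_supp' {k : ℕ} (hk : k ≠ 0) : tsupport (swRho k) ⊆ {y : E | 1 / 2 ≤ ‖y‖} := by
  refine closure_minimal ?_ (isClosed_le continuous_const continuous_norm)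
  intro y hy
  by_contra h
  have h2 : ‖y‖ < 1 / 2 := by simpa using h
  apply hy
  unfold swRho
  rw [if_neg hk, sw_chi_one (by linarith),
    sw_chi_one (by rw [norm_smul, Real.norm_two]; linarith), sub_self]

theorem sw_rho_bd1 (k i : ℕ) : ∃ c : ℝ, ∀ y, ‖iteratedFDeriv ℝ i (swRho k) y‖ ≤ c := by
  have hc : HasCompactSupport (swRho k) :=
    (isCompact_closedBall (0 : E) 2).of_isClosed_subset (isClosed_tsupport _) (sw_rho_supp k)
  exact ((sw_rho_smooth k).continuous_iteratedFDeriv (by exact_mod_cast le_top)).bounded_above_of_compact_support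
    (hc.iteratedFDeriv i)

theorem sw_rho_bd (M : ℕ) : ∃ c : ℝ, 0 ≤ c ∧ ∀ k, ∀ i ≤ M, ∀ y,
    ‖iteratedFDeriv ℝ i (swRho k) y‖ ≤ c := by
  choose c hc using sw_rho_bd1
  have hc0 : ∀ k i, 0 ≤ c k i := fun k i => (norm_nonneg _).trans (hc k i 0)
  refine ⟨∑ i ∈ Finset.range (M + 1), (c 0 i + c 1 i),
    Finset.sum_nonneg fun i _ => add_nonneg (hc0 _ _) (hc0 _ _), fun k i hi y => ?_⟩
  have h1 : c 0 i + c 1 i ≤ ∑ i ∈ Finset.range (M + 1), (c 0 i + c 1 i) :=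
    Finset.single_le_sum (f := fun i => c 0 i + c 1 i)
      (fun i _ => add_nonneg (hc0 _ _) (hc0 _ _)) (Finset.mem_range.2 (by omega))
  refine le_trans ?_ h1
  by_cases hk : k = 0
  · subst hk
    linarith [hc 0 i y, hc0 1 i]
  · have e : swRho k = swRho 1 := by
      funext y
      simp [swRho, hk]
    rw [e]
    linarith [hc 1 i y, hc0 0 i]

theorem sw_scale_bd {M : ℕ} {ε A : ℝ} (hε : 0 < ε) {F : E → ℂ} (hF : ContDiff ℝ M F)
    (hA : ∀ j ≤ M, ∀ y, ‖iteratedFDeriv ℝ j F y‖ ≤ A * (1 + ‖y‖) ^ (-ε - (j : ℝ)))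
    (k : ℕ) {i : ℕ} (hi : i ≤ M) {y : E} (hy : y ∈ tsupport (swRho k)) :
    ‖iteratedFDeriv ℝ i (fun z => F ((2 : ℝ) ^ k • z)) y‖
      ≤ 2 ^ (ε + M) * A * ((2 : ℝ) ^ (-ε)) ^ k := by
  have hA0 : 0 ≤ A := by
    have h := (norm_nonneg _).trans (hA 0 (by omega) 0)
    simpa using h
  rw [iteratedFDeriv_comp_const_smul _ (hF.of_le (by exact_mod_cast hi))]
  simp only [norm_smul]
  rw [Real.norm_of_nonneg (by positivity)]
  have h1 := hA i hi ((2 : ℝ) ^ k • y)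
  have hi' : (i : ℝ) ≤ M := by exact_mod_cast hi
  have hi0 : (0 : ℝ) ≤ i := by positivity
  have hl : (2 : ℝ) ^ ((k : ℝ) - 1) ≤ 1 + ‖(2 : ℝ) ^ k • y‖ := by
    by_cases hk : k = 0
    · subst hk
      have : (2 : ℝ) ^ (((0 : ℕ) : ℝ) - 1) ≤ 1 :=
        Real.rpow_le_one_of_one_le_of_nonpos (by norm_num) (by norm_num)
      linarith [norm_nonneg ((2 : ℝ) ^ 0 • y)]
    · have h2 : 1 / 2 ≤ ‖y‖ := sw_rho_supp' hk hy
      rw [norm_smul, Real.norm_of_nonneg (by positivity), Real.rpow_sub (by norm_num),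
        Real.rpow_natCast, Real.rpow_one]
      have h3 : (0 : ℝ) < 2 ^ k := by positivity
      nlinarith
  have h2 : (1 + ‖(2 : ℝ) ^ k • y‖) ^ (-ε - (i : ℝ)) ≤ ((2 : ℝ) ^ ((k : ℝ) - 1)) ^ (-ε - (i : ℝ)) :=
    Real.rpow_le_rpow_of_nonpos (by positivity) hl (by linarith)
  have h3 : ((2 : ℝ) ^ k) ^ i * ((2 : ℝ) ^ ((k : ℝ) - 1)) ^ (-ε - (i : ℝ))
      = 2 ^ (ε + i) * ((2 : ℝ) ^ (-ε)) ^ k := by
    rw [← Real.rpow_natCast (2 : ℝ) k, ← Real.rpow_natCast _ i, ← Real.rpow_natCast _ k,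
      ← Real.rpow_mul (by norm_num), ← Real.rpow_mul (by norm_num), ← Real.rpow_mul (by norm_num),
      ← Real.rpow_add (by norm_num), ← Real.rpow_add (by norm_num)]
    congr 1
    ring
  have h4 : (2 : ℝ) ^ (ε + i) ≤ 2 ^ (ε + M) :=
    Real.rpow_le_rpow_of_exponent_le (by norm_num) (by linarith)
  calc ((2 : ℝ) ^ k) ^ i * ‖iteratedFDeriv ℝ i F ((2 : ℝ) ^ k • y)‖
      ≤ ((2 : ℝ) ^ k) ^ i * (A * ((2 : ℝ) ^ ((k : ℝ) - 1)) ^ (-ε - (i : ℝ))) := by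
        gcongr
        exact h1.trans (by gcongr)
    _ = A * (((2 : ℝ) ^ k) ^ i * ((2 : ℝ) ^ ((k : ℝ) - 1)) ^ (-ε - (i : ℝ))) := by ring
    _ = A * (2 ^ (ε + i) * ((2 : ℝ) ^ (-ε)) ^ k) := by rw [h3]
    _ ≤ A * (2 ^ (ε + M) * ((2 : ℝ) ^ (-ε)) ^ k) := by gcongr
    _ = _ := by ring

theorem sw_G_smooth {M : ℕ} {F : E → ℂ} (hF : ContDiff ℝ M F) (k : ℕ) :
    ContDiff ℝ M (swG F k) :=
  ((sw_rho_smooth k).of_le (by exact_mod_cast le_top)).mul
    (hF.comp (contDiff_const_smul ((2 : ℝ) ^ k)))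

theorem sw_G_supp (F : E → ℂ) (k : ℕ) : tsupport (swG F k) ⊆ Metric.closedBall 0 2 :=
  (tsupport_mul_subset_left (f := swRho k) (g := fun y => F ((2 : ℝ) ^ k • y))).trans
    (sw_rho_supp k)

theorem sw_G_bd {M : ℕ} {ε A c : ℝ} (hε : 0 < ε) {F : E → ℂ} (hF : ContDiff ℝ M F)
    (hA : ∀ j ≤ M, ∀ y, ‖iteratedFDeriv ℝ j F y‖ ≤ A * (1 + ‖y‖) ^ (-ε - (j : ℝ)))
    (hc0 : 0 ≤ c) (hc : ∀ k, ∀ i ≤ M, ∀ y, ‖iteratedFDeriv ℝ i (swRho k) y‖ ≤ c)
    (k : ℕ) {j : ℕ} (hj : j ≤ M) (y : E) :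
    ‖iteratedFDeriv ℝ j (swG F k) y‖
      ≤ 2 ^ M * c * (2 ^ (ε + M) * A * ((2 : ℝ) ^ (-ε)) ^ k) := by
  have hA0 : 0 ≤ A := by
    have h := (norm_nonneg _).trans (hA 0 (by omega) 0)
    simpa using h
  set B := 2 ^ (ε + M) * A * ((2 : ℝ) ^ (-ε)) ^ k with hB
  have hB0 : 0 ≤ B := by positivity
  have h := norm_iteratedFDeriv_mul_le (𝕜 := ℝ) (N := (M : ℕ∞ω)) (f := swRho k)
    (g := fun y => F ((2 : ℝ) ^ k • y)) ((sw_rho_smooth k).of_le (by exact_mod_cast le_top))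
    (hF.comp (contDiff_const_smul ((2 : ℝ) ^ k))) y (n := j) (by exact_mod_cast hj)
  refine le_trans h ?_
  have h2 : ∀ i ∈ Finset.range (j + 1), (j.choose i : ℝ) * ‖iteratedFDeriv ℝ i (swRho k) y‖ *
      ‖iteratedFDeriv ℝ (j - i) (fun y => F ((2 : ℝ) ^ k • y)) y‖ ≤ (j.choose i : ℝ) * (c * B) := by
    intro i hi
    have hi' : i ≤ M := by
      have := Finset.mem_range.1 hi
      omega
    by_cases hy : y ∈ tsupport (swRho k)
    · rw [mul_assoc]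
      gcongr
      · exact hc k i hi' y
      · exact sw_scale_bd hε hF hA k (by omega) hy
    · have h0 : iteratedFDeriv ℝ i (swRho k) y = 0 := by
        by_contra h
        exact hy (support_iteratedFDeriv_subset i h)
      rw [h0, norm_zero, mul_zero, zero_mul]
      positivity
  refine (Finset.sum_le_sum h2).trans ?_
  rw [← Finset.sum_mul, ← Nat.cast_sum, Nat.sum_range_choose, mul_assoc]
  push_cast
  gcongr
  norm_num

theorem sw_partition (y : E) (N : ℕ) :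
    ∑ k ∈ Finset.range (N + 1), swRho k (((2 : ℝ) ^ k)⁻¹ • y) = swChi (((2 : ℝ) ^ N)⁻¹ • y) := by
  induction N with
  | zero => simp [swRho]
  | succ N ih =>
    rw [Finset.sum_range_succ, ih]
    have e : (2 : ℝ) • ((2 : ℝ) ^ (N + 1))⁻¹ • y = ((2 : ℝ) ^ N)⁻¹ • y := by
      rw [smul_smul]
      congr 1
      field_simp
      ring
    simp only [swRho, Nat.succ_ne_zero, if_false, e]
    ring

theorem sw_partition_lim (F : E → ℂ) (y : E) :
    Tendsto (fun N => ∑ k ∈ Finset.range N, swG F k (((2 : ℝ) ^ k)⁻¹ • y)) atTop (𝓝 (F y)) := by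
  rw [← tendsto_add_atTop_iff_nat 1]
  have e : ∀ k : ℕ, swG F k (((2 : ℝ) ^ k)⁻¹ • y) = swRho k (((2 : ℝ) ^ k)⁻¹ • y) * F y := by
    intro k
    unfold swG
    rw [smul_smul, mul_inv_cancel₀ (by positivity), one_smul]
  simp only [e, ← Finset.sum_mul, sw_partition]
  refine tendsto_const_nhds.congr' ?_
  have h : Tendsto (fun N : ℕ => (2 : ℝ) ^ N) atTop atTop :=
    tendsto_pow_atTop_atTop_of_one_lt (by norm_num)
  filter_upwards [h.eventually_ge_atTop ‖y‖] with N hN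
  rw [sw_chi_one, one_mul]
  rw [norm_smul, norm_inv, Real.norm_of_nonneg (by positivity), inv_mul_le_iff₀ (by positivity)]
  simpa using hN

theorem sw_tsum_int {K : ℕ} {φ : ℕ → E → ℂ} (hc : ∀ k, Continuous (φ k))
    (hi : ∀ k, Integrable fun ξ : E => (1 + ‖ξ‖) ^ K * ‖φ k ξ‖)
    (hs : Summable fun k => ∫ ξ : E, (1 + ‖ξ‖) ^ K * ‖φ k ξ‖) :
    Integrable (fun ξ : E => (1 + ‖ξ‖) ^ K * ‖∑' k, φ k ξ‖) ∧
      ∫ ξ : E, (1 + ‖ξ‖) ^ K * ‖∑' k, φ k ξ‖ ≤ ∑' k, ∫ ξ : E, (1 + ‖ξ‖) ^ K * ‖φ k ξ‖ := by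
  have hm : AEStronglyMeasurable (fun ξ : E => (1 + ‖ξ‖) ^ K * ‖∑' k, φ k ξ‖) volume := by
    have h1 : AEStronglyMeasurable (fun ξ : E => ∑' k, φ k ξ) volume :=
      AEStronglyMeasurable.tsum fun k => (hc k).aestronglyMeasurable
    exact (by fun_prop : Continuous fun ξ : E => (1 + ‖ξ‖) ^ K).aestronglyMeasurable.mul h1.norm
  have hn : ∀ k, 0 ≤ ∫ ξ : E, (1 + ‖ξ‖) ^ K * ‖φ k ξ‖ :=
    fun k => integral_nonneg fun ξ => by positivity
  have hl : ∫⁻ ξ : E, ENNReal.ofReal ((1 + ‖ξ‖) ^ K * ‖∑' k, φ k ξ‖)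
      ≤ ENNReal.ofReal (∑' k, ∫ ξ : E, (1 + ‖ξ‖) ^ K * ‖φ k ξ‖) := by
    rw [ENNReal.ofReal_tsum_of_nonneg hn hs]
    have e : ∀ k, ENNReal.ofReal (∫ ξ : E, (1 + ‖ξ‖) ^ K * ‖φ k ξ‖)
        = ∫⁻ ξ : E, ENNReal.ofReal ((1 + ‖ξ‖) ^ K * ‖φ k ξ‖) := fun k =>
      ofReal_integral_eq_lintegral_ofReal (hi k) (Eventually.of_forall fun ξ => by positivity)
    simp only [e]
    rw [← lintegral_tsum fun k => (hi k).aestronglyMeasurable.aemeasurable.ennreal_ofReal]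
    refine lintegral_mono fun ξ => ?_
    have e2 : ∀ z : ℂ, ENNReal.ofReal ((1 + ‖ξ‖) ^ K * ‖z‖)
        = ENNReal.ofReal ((1 + ‖ξ‖) ^ K) * ‖z‖ₑ := by
      intro z
      rw [ENNReal.ofReal_mul (by positivity), ofReal_norm]
    simp only [e2]
    rw [ENNReal.tsum_mul_left]
    gcongr
    exact enorm_tsum_le_tsum_enorm
  have hint : Integrable (fun ξ : E => (1 + ‖ξ‖) ^ K * ‖∑' k, φ k ξ‖) := by
    refine ⟨hm, ?_⟩
    rw [hasFiniteIntegral_iff_ofReal (Eventually.of_forall fun ξ => by positivity)]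
    exact hl.trans_lt ENNReal.ofReal_lt_top
  refine ⟨hint, ?_⟩
  rw [← ofReal_integral_eq_lintegral_ofReal hint (Eventually.of_forall fun ξ => by positivity)]
    at hl
  exact (ENNReal.ofReal_le_ofReal_iff (tsum_nonneg hn)).1 hl

theorem sw_tsum_syn {φ : ℕ → E → ℂ} (hc : ∀ k, Continuous (φ k))
    (hi : ∀ k, Integrable fun ξ : E => ‖φ k ξ‖) (hs : Summable fun k => ∫ ξ : E, ‖φ k ξ‖) (y : E) :
    HasSum (fun k => swSyn (φ k) y) (swSyn (fun ξ => ∑' k, φ k ξ) y) := by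
  have hn : ∀ k (ξ : E), ‖cexp (I * ((⟪ξ, y⟫_ℝ : ℝ) : ℂ)) * φ k ξ‖ = ‖φ k ξ‖ := by
    intro k ξ
    rw [norm_mul, Complex.norm_exp_I_mul_ofReal, one_mul]
  have h := hasSum_integral_of_summable_integral_norm (μ := (volume : Measure E))
    (F := fun k (ξ : E) => cexp (I * ((⟪ξ, y⟫_ℝ : ℝ) : ℂ)) * φ k ξ)
    (fun k => by
      refine (hi k).mono' ?_ (Eventually.of_forall fun ξ => (hn k ξ).le)
      have := hc k
      exact (by fun_prop : Continuous fun ξ : E =>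
        cexp (I * ((⟪ξ, y⟫_ℝ : ℝ) : ℂ)) * φ k ξ).aestronglyMeasurable)
    (by simpa only [hn] using hs)
  simpa only [swSyn, tsum_mul_left] using h

/-- quantitative symbol to weighted Wiener lemma -/
theorem sw_quant (K : ℕ) {ε : ℝ} (hε : 0 < ε) : ∃ C : ℝ, 0 ≤ C ∧ ∀ (F : E → ℂ) (A : ℝ),
    ContDiff ℝ (K + 13 : ℕ) F →
    (∀ j ≤ K + 13, ∀ y, ‖iteratedFDeriv ℝ j F y‖ ≤ A * (1 + ‖y‖) ^ (-ε - (j : ℝ))) →
    StronglyMeasurable (wien F) ∧ Integrable (fun ξ : E => (1 + ‖ξ‖) ^ K * ‖wien F ξ‖) ∧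
      ∫ ξ : E, (1 + ‖ξ‖) ^ K * ‖wien F ξ‖ ≤ C * A ∧ ∀ y, swSyn (wien F) y = F y := by
  obtain ⟨C, hC0, hC⟩ := sw_piece K
  obtain ⟨c, hc0, hc⟩ := sw_rho_bd (K + 13)
  set r : ℝ := (2 : ℝ) ^ (-ε) with hr
  have hr0 : 0 ≤ r := by positivity
  have hr1 : r < 1 := Real.rpow_lt_one_of_one_lt_of_neg (by norm_num) (by linarith)
  have hr2 : 0 < 1 - r := by linarith
  set D : ℝ := 7 ^ K * (C * (2 ^ (K + 13) * c * 2 ^ (ε + (K + 13 : ℕ)))) with hD
  have hD0 : 0 ≤ D := by positivity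
  refine ⟨D * (1 - r)⁻¹, by positivity, fun F A hF hA => ?_⟩
  have hA0 : 0 ≤ A := by
    have h := (norm_nonneg _).trans (hA 0 (by omega) 0)
    simpa using h
  have hP := fun k => hC (swG F k) _ (sw_G_smooth hF k) (sw_G_supp F k)
    (fun j hj y => sw_G_bd hε hF hA hc0 hc k hj y)
  have hR : ∀ k : ℕ, (1 : ℝ) / 7 ≤ 2 ^ k / (2 * Real.pi) := by
    intro k
    have h1 : (1 : ℝ) ≤ 2 ^ k := one_le_pow₀ (by norm_num)
    rw [div_le_div_iff₀ (by norm_num) (by positivity)]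
    linarith [Real.pi_lt_d2]
  have hcont : ∀ k, Continuous (swPiece F k) := fun k => sw_dil_cont (hP k).1 _
  have hint := fun k => sw_dil_int (hR k) K (hP k).1 (hP k).2.1
  have hle : ∀ k, ∫ ξ : E, (1 + ‖ξ‖) ^ K * ‖swPiece F k ξ‖ ≤ D * A * r ^ k := by
    intro k
    refine (hint k).2.trans ?_
    refine (mul_le_mul_of_nonneg_left (hP k).2.2.1 (by positivity)).trans (le_of_eq ?_)
    rw [hD]
    ring
  have hg : Summable fun k : ℕ => D * A * r ^ k :=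
    (summable_geometric_of_lt_one hr0 hr1).mul_left _
  have hs : Summable fun k => ∫ ξ : E, (1 + ‖ξ‖) ^ K * ‖swPiece F k ξ‖ :=
    Summable.of_nonneg_of_le (fun k => integral_nonneg fun ξ => by positivity) hle hg
  obtain ⟨h1, h2⟩ := sw_tsum_int hcont (fun k => (hint k).1) hs
  refine ⟨StronglyMeasurable.tsum fun k => (hcont k).stronglyMeasurable, h1, ?_, fun y => ?_⟩
  · refine h2.trans ((hs.tsum_le_tsum hle hg).trans (le_of_eq ?_))
    rw [tsum_mul_left, tsum_geometric_of_lt_one hr0 hr1]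
    ring
  · have hw : ∀ k (ξ : E), ‖swPiece F k ξ‖ ≤ (1 + ‖ξ‖) ^ K * ‖swPiece F k ξ‖ := by
      intro k ξ
      have h1 : (1 : ℝ) ≤ (1 + ‖ξ‖) ^ K := one_le_pow₀ (by linarith [norm_nonneg ξ])
      nlinarith [norm_nonneg (swPiece F k ξ)]
    have hi0 : ∀ k, Integrable fun ξ : E => ‖swPiece F k ξ‖ := fun k =>
      (hint k).1.mono' (hcont k).norm.aestronglyMeasurable
        (Eventually.of_forall fun ξ => by rw [norm_norm]; exact hw k ξ)
    have hs0 : Summable fun k => ∫ ξ : E, ‖swPiece F k ξ‖ :=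
      Summable.of_nonneg_of_le (fun k => integral_nonneg fun ξ => by positivity)
        (fun k => integral_mono (hi0 k) (hint k).1 (hw k)) hs
    have h3 := (sw_tsum_syn hcont hi0 hs0 y).tendsto_sum_nat
    have e : ∀ k, swSyn (swPiece F k) y = swG F k (((2 : ℝ) ^ k)⁻¹ • y) := by
      intro k
      unfold swPiece
      rw [sw_syn_dil (by positivity), ← (hP k).2.2.2, sw_fourierInv, smul_smul]
      congr 2
      field_simp
    simp only [e] at h3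
    exact tendsto_nhds_unique h3 (sw_partition_lim F y)

end P139
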