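import Mathlib

/-! P139 part T: abstract setting (commutative normed algebra with conjugation and a free flow). -/

open Complex Set Filter Topology MeasureTheory

noncomputable section
namespace P139

/-- product, conjugation and free flow on a complex normed space -/
structure Alg (X : Type) [NormedAddCommGroup X] [NormedSpace ℂ X] where
  mul : X →L[ℂ] X →L[ℂ] X
  st : X →L⋆[ℂ] X
  U : ℝ → X →L[ℂ] X
  comm : ∀ x y, mul x y = mul y x
  norm_mul : ∀ x y, ‖mul x y‖ ≤ ‖x‖ * ‖y‖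
  norm_st : ∀ x, ‖st x‖ ≤ ‖x‖
  norm_U : ∀ t x, ‖U t x‖ ≤ ‖x‖
  U_zero : ∀ x, U 0 x = x
  U_add : ∀ s t x, U (s + t) x = U s (U t x)
  U_cont : ∀ x, Continuous fun t => U t x

namespace Alg

variable {X : Type} [NormedAddCommGroup X] [NormedSpace ℂ X] (A : Alg X)

/-- `|x|^{2m} x` -/
def N : ℕ → X → X
  | 0, x => x
  | m + 1, x => A.mul (A.mul x (A.st x)) (N m x)

/-- the linearisation of `N m` at `x` in the direction `w` -/
def DN : ℕ → X → X → X
  | 0, _, w => w
  | m + 1, x, w => A.mul (A.mul w (A.st x) + A.mul x (A.st w)) (A.N m x)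
      + A.mul (A.mul x (A.st x)) (DN m x w)

/-- the nonlinear field `-i N` -/
def FN (m : ℕ) (_s : ℝ) (x : X) : X := (-I) • A.N m x

/-- the linear field `-i DN(q s)` -/
def FL (m : ℕ) (q : ℝ → X) (s : ℝ) (x : X) : X := (-I) • A.DN m (q s) x

variable [NormedSpace ℝ X]

/-- Duhamel formula on `[0,t₁]` with source curve `f`, up to an error `ε` -/
def Duh (t₁ ε : ℝ) (u f : ℝ → X) : Prop :=
  ∀ t ∈ Icc (0 : ℝ) t₁,
    ‖u t - (A.U t (u 0) + ∫ s in (0 : ℝ)..t, A.U (t - s) (f s))‖ ≤ ε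

/-- `ε`-approximate mild solution on `[0,t₁]` for the field `F` -/
def App (F : ℝ → X → X) (t₁ ε : ℝ) (u : ℝ → X) : Prop :=
  ContinuousOn u (Icc 0 t₁) ∧ A.Duh t₁ ε u fun s => F s (u s)

end Alg

end P139
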