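import Vale.Agent.P139.Defs
import Vale.Agent.P139.TAbs

/-! P139: weighted Wiener algebras on the Fourier side, for `ℝ^12` (volume) and `ℤ^12` (count).
All operators are total definitions; their properties are in `XBase`, `XConv`, `XR`, `XCut`. -/

open Complex Set Filter Topology MeasureTheory
open scoped ComplexConjugate

noncomputable section
namespace P139

/-- a submultiplicative even weight -/
structure Wt (G : Type) [AddCommGroup G] [MeasurableSpace G] where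
  w : G → ℝ
  meas : Measurable w
  one_le : ∀ x, 1 ≤ w x
  add_le : ∀ x y, w (x + y) ≤ w x * w y
  neg : ∀ x, w (-x) = w x

section general

variable {G H : Type} [AddCommGroup G] [MeasurableSpace G] [AddCommGroup H] [MeasurableSpace H]

def Wt.msr (ω : Wt G) (μ : Measure G) : Measure G :=
  μ.withDensity fun x => ENNReal.ofReal (ω.w x)

/-- the weighted space `L¹(ω dμ)` -/
abbrev XW (μ : Measure G) (ω : Wt G) : Type := Lp ℂ 1 (ω.msr μ)

def MemW (μ : Measure G) (ω : Wt G) (f : G → ℂ) : Prop :=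
  AEStronglyMeasurable f μ ∧ Integrable (fun x => ω.w x * ‖f x‖) μ

/-- the weighted norm of a function -/
def nw (μ : Measure G) (ω : Wt G) (f : G → ℂ) : ℝ := ∫ x, ω.w x * ‖f x‖ ∂μ

open Classical in
def toW (μ : Measure G) (ω : Wt G) (f : G → ℂ) : XW μ ω :=
  if h : MemLp f 1 (ω.msr μ) then h.toLp f else 0

open Classical in
/-- the bounded operator given by a map of functions (zero if there is none) -/
def liftOp (μ : Measure G) (ν : Measure H) (ω₁ : Wt G) (ω₂ : Wt H) (Φ : (G → ℂ) → H → ℂ) :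
    XW μ ω₁ →L[ℂ] XW ν ω₂ :=
  if h : ∃ T : XW μ ω₁ →L[ℂ] XW ν ω₂, ∀ f, T f =ᵐ[ν] Φ f then h.choose else 0

open Classical in
/-- the functional `f ↦ ∫ φ f` -/
def pairOp (μ : Measure G) (ω : Wt G) (φ : G → ℂ) : XW μ ω →L[ℂ] ℂ :=
  if h : ∃ T : XW μ ω →L[ℂ] ℂ, ∀ f, T f = ∫ x, φ x * f x ∂μ then h.choose else 0

/-- multiplier (also: inclusion of a stronger weight into a weaker one, `φ = 1`) -/
def mulOp (μ : Measure G) (ω₁ ω₂ : Wt G) (φ : G → ℂ) : XW μ ω₁ →L[ℂ] XW μ ω₂ :=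
  liftOp μ μ ω₁ ω₂ fun f x => φ x * f x

def incl (μ : Measure G) (ω₁ ω₂ : Wt G) : XW μ ω₁ →L[ℂ] XW μ ω₂ := mulOp μ ω₁ ω₂ fun _ => 1

/-- shift on the Fourier side -/
def shOp (μ : Measure G) (ω : Wt G) (ζ : G) : XW μ ω →L[ℂ] XW μ ω :=
  liftOp μ μ ω ω fun f x => f (x - ζ)

def convF (μ : Measure G) (f g : G → ℂ) (x : G) : ℂ := ∫ y, f y * g (x - y) ∂μ

def stF (f : G → ℂ) (x : G) : ℂ := conj (f (-x))

open Classical in
def convOp (μ : Measure G) (ω : Wt G) : XW μ ω →L[ℂ] XW μ ω →L[ℂ] XW μ ω :=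
  if h : ∃ T : XW μ ω →L[ℂ] XW μ ω →L[ℂ] XW μ ω, ∀ f g, T f g =ᵐ[μ] convF μ f g then h.choose
  else 0

open Classical in
def stOp (μ : Measure G) (ω : Wt G) : XW μ ω →L⋆[ℂ] XW μ ω :=
  if h : ∃ T : XW μ ω →L⋆[ℂ] XW μ ω, ∀ f, T f =ᵐ[μ] stF f then h.choose else 0

/-- the free flow with symbol `σ` -/
def freeOp (μ : Measure G) (ω : Wt G) (σ : G → ℝ) (t : ℝ) : XW μ ω →L[ℂ] XW μ ω :=
  mulOp μ ω ω fun x => cexp (-I * σ x * t)

end general

/-! ### polynomial weights -/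

theorem wpow_add_le (K : ℕ) {l a b c : ℝ} (ha : 0 ≤ a) (hb : 0 ≤ b) (hc0 : 0 ≤ c)
    (hc : c ≤ a + b) : (1 + |l| * c) ^ K ≤ (1 + |l| * a) ^ K * (1 + |l| * b) ^ K := by
  rw [← mul_pow]
  have hl := abs_nonneg l
  refine pow_le_pow_left₀ (by positivity) ?_ K
  have h1 : |l| * c ≤ |l| * (a + b) := mul_le_mul_of_nonneg_left hc hl
  have h2 : 0 ≤ |l| * a * (|l| * b) := by positivity
  nlinarith

/-- `(1 + |l| ‖ξ‖)^K` on `ℝ^12` -/
def wR (K : ℕ) (l : ℝ) : Wt E where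
  w ξ := (1 + |l| * ‖ξ‖) ^ K
  meas := by fun_prop
  one_le ξ := one_le_pow₀ (by have := abs_nonneg l; have := norm_nonneg ξ; nlinarith)
  add_le x y := wpow_add_le K (norm_nonneg _) (norm_nonneg _) (norm_nonneg _) (norm_add_le _ _)
  neg x := by simp

/-- the lattice point `k` in `ℝ^12` -/
def emb (k : Z12) : E := WithLp.toLp 2 fun i => (k i : ℝ)

theorem emb_add (j k : Z12) : emb (j + k) = emb j + emb k := by
  ext i; simp [emb]

theorem emb_neg (k : Z12) : emb (-k) = -emb k := by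
  ext i; simp [emb]

theorem norm_emb (k : Z12) : ‖emb k‖ = √(nsq k) := by
  rw [EuclideanSpace.norm_eq]; simp [emb, nsq]

/-- `(1 + |l| |k|)^K` on `ℤ^12` -/
def wZ (K : ℕ) (l : ℝ) : Wt Z12 where
  w k := (1 + |l| * ‖emb k‖) ^ K
  meas := measurable_of_countable _
  one_le k := (wR K l).one_le (emb k)
  add_le j k := by rw [emb_add]; exact (wR K l).add_le (emb j) (emb k)
  neg k := by rw [emb_neg, norm_neg]

abbrev XR (K : ℕ) (l : ℝ) : Type := XW (volume : Measure E) (wR K l)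
abbrev XZ (K : ℕ) (l : ℝ) : Type := XW (Measure.count : Measure Z12) (wZ K l)

/-! ### operators on `ℝ^12` -/

/-- synthesis: the function on physical space with Fourier density `f` -/
def syn (f : E → ℂ) (y : E) : ℂ := ∫ ξ, cexp (I * (inner ℝ ξ y : ℝ)) * f ξ

/-- `syn (dilF σ f) y = syn f (σ⁻¹ • y)` -/
def dilF (σ : ℝ) (f : E → ℂ) (ξ : E) : ℂ := (σ : ℂ) ^ 12 * f (σ • ξ)

def dilOp (ω₁ ω₂ : Wt E) (σ : ℝ) : XW volume ω₁ →L[ℂ] XW volume ω₂ :=
  liftOp volume volume ω₁ ω₂ (dilF σ)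

/-- `syn (chR x * f) y = syn f (y + x)` -/
def chR (x : E) (ξ : E) : ℂ := cexp (I * (inner ℝ ξ x : ℝ))

/-! ### discretisation -/

/-- nearest lattice point -/
def rd (ξ : E) : Z12 := fun i => round (ξ i)

def cell (h : ℝ) (k : Z12) : Set E := {ξ | rd (h⁻¹ • ξ) = k}

def cutF (h : ℝ) (w : Z12 → ℂ) (ξ : E) : ℂ := ((h : ℂ) ^ 12)⁻¹ * w (rd (h⁻¹ • ξ))

def perF (h : ℝ) (f : E → ℂ) (k : Z12) : ℂ := ∫ ξ in cell h k, f ξ

def cutOp (ω₁ : Wt Z12) (ω₂ : Wt E) (h : ℝ) : XW Measure.count ω₁ →L[ℂ] XW volume ω₂ :=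
  liftOp Measure.count volume ω₁ ω₂ (cutF h)

def perOp (ω₁ : Wt E) (ω₂ : Wt Z12) (h : ℝ) : XW volume ω₁ →L[ℂ] XW Measure.count ω₂ :=
  liftOp volume Measure.count ω₁ ω₂ (perF h)

/-! ### Fourier data of the profile -/

variable {m : ℕ}

/-- `a = γ - iβ` -/
def Prof.aa (P : Prof m) : ℂ := (gam m : ℂ) - I * P.β

abbrev Md14 := Option (Option (Fin 12))

/-- Fourier densities of `Q`, of the symmetry modes and of `y·∇Q` -/
structure FD (P : Prof m) where
  q : E → ℂ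
  z : Md14 → E → ℂ
  memq : ∀ K, MemW volume (wR K 1) q
  memz : ∀ K i, MemW volume (wR K 1) (z i)
  synq : ∀ y, syn q y = P.Q y
  synz : ∀ i y, syn (z i) y = P.zm i y

/-- Fourier density of the self-similar solution `(1-t)^{-a} Q(y/√(1-t))` -/
def FD.qt {P : Prof m} (F : FD P) (t : ℝ) (ξ : E) : ℂ :=
  cexp (-P.aa * Real.log (1 - t)) * dilF (√(1 - t)) F.q ξ

end P139
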