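import Vale.Agent.P139.SWB
import Vale.Agent.P139.TQ
import Vale.Agent.P139.XDefs

/-! P139: symbol calculus, and the Fourier data of the profile. -/

open Complex Set Filter Topology MeasureTheory
open scoped ContDiff ComplexConjugate InnerProductSpace

noncomputable section
namespace P139

section calculus

variable {V W X : Type} [NormedAddCommGroup V] [NormedSpace ℝ V] [NormedAddCommGroup W]
  [NormedSpace ℝ W] [NormedAddCommGroup X] [NormedSpace ℝ X]

/-- symbol bounds of order `-ε` for the derivatives up to order `N` -/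
def SymbN (N : ℕ) (ε : ℝ) (F : E → V) : Prop :=
  ∃ C : ℝ, 0 ≤ C ∧ ∀ j ≤ N, ∀ y, ‖iteratedFDeriv ℝ j F y‖ ≤ C * (1 + ‖y‖) ^ (-ε - (j : ℝ))

/-- symbols of order `-ε` -/
def Symb (ε : ℝ) (F : E → V) : Prop := ContDiff ℝ ∞ F ∧ ∀ N, SymbN N ε F

theorem sw_natle (j : ℕ) : (j : ℕ∞ω) ≤ ∞ := by exact_mod_cast le_top

theorem SymbN.zero {ε C : ℝ} {F : E → V} (hC : 0 ≤ C) (h : ∀ y, ‖F y‖ ≤ C * (1 + ‖y‖) ^ (-ε)) :
    SymbN 0 ε F := by
  refine ⟨C, hC, fun j hj y => ?_⟩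
  have : j = 0 := by omega
  subst this
  simpa using h y

theorem SymbN.succ {N : ℕ} {ε : ℝ} {F : E → V} (h0 : SymbN 0 ε F)
    (h1 : SymbN N (ε + 1) (fderiv ℝ F)) : SymbN (N + 1) ε F := by
  obtain ⟨C, hC, h0⟩ := h0
  obtain ⟨D, hD, h1⟩ := h1
  refine ⟨C + D, by positivity, fun j hj y => ?_⟩
  rcases j with _ | j
  · refine (h0 0 le_rfl y).trans ?_
    gcongr
    linarith
  · rw [← norm_iteratedFDeriv_fderiv]
    refine (h1 j (by omega) y).trans ?_
    have e : -(ε + 1) - (j : ℝ) = -ε - ((j + 1 : ℕ) : ℝ) := by push_cast; ring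
    rw [e]
    gcongr
    linarith

theorem SymbN.bilin (B : V →L[ℝ] W →L[ℝ] X) {N : ℕ} {a b : ℝ} {F : E → V} {G : E → W}
    (hF : ContDiff ℝ ∞ F) (hG : ContDiff ℝ ∞ G) (h1 : SymbN N a F) (h2 : SymbN N b G) :
    SymbN N (a + b) fun y => B (F y) (G y) := by
  obtain ⟨C, hC, h1⟩ := h1
  obtain ⟨D, hD, h2⟩ := h2
  refine ⟨‖B‖ * (2 ^ N * (C * D)), by positivity, fun j hj y => ?_⟩
  refine (B.norm_iteratedFDeriv_le_of_bilinear hF hG y (sw_natle j)).trans ?_
  have hp : 0 < 1 + ‖y‖ := by positivity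
  have h3 : ∀ i ∈ Finset.range (j + 1), (j.choose i : ℝ) * ‖iteratedFDeriv ℝ i F y‖ *
      ‖iteratedFDeriv ℝ (j - i) G y‖
      ≤ (j.choose i : ℝ) * (C * D * (1 + ‖y‖) ^ (-(a + b) - (j : ℝ))) := by
    intro i hi
    have hi' : i ≤ j := by
      have := Finset.mem_range.1 hi
      omega
    have e : C * D * (1 + ‖y‖) ^ (-(a + b) - (j : ℝ))
        = (C * (1 + ‖y‖) ^ (-a - (i : ℝ))) * (D * (1 + ‖y‖) ^ (-b - ((j - i : ℕ) : ℝ))) := by
      rw [mul_mul_mul_comm, ← Real.rpow_add hp, Nat.cast_sub hi']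
      congr 2
      ring
    rw [e, mul_assoc]
    gcongr
    · exact h1 i (by omega) y
    · exact h2 (j - i) (by omega) y
  rw [mul_assoc]
  gcongr
  refine (Finset.sum_le_sum h3).trans ?_
  rw [← Finset.sum_mul, ← Nat.cast_sum, Nat.sum_range_choose, mul_assoc (2 ^ N : ℝ)]
  push_cast
  gcongr
  norm_num

theorem Symb.bilin (B : V →L[ℝ] W →L[ℝ] X) {a b : ℝ} {F : E → V} {G : E → W}
    (hF : Symb a F) (hG : Symb b G) : Symb (a + b) fun y => B (F y) (G y) :=
  ⟨(B.contDiff.comp hF.1).clm_apply hG.1, fun N => SymbN.bilin B hF.1 hG.1 (hF.2 N) (hG.2 N)⟩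

theorem Symb.clm (L : V →L[ℝ] W) {a : ℝ} {F : E → V} (hF : Symb a F) :
    Symb a fun y => L (F y) := by
  refine ⟨L.contDiff.comp hF.1, fun N => ?_⟩
  obtain ⟨C, hC, h⟩ := hF.2 N
  refine ⟨‖L‖ * C, by positivity, fun j hj y => ?_⟩
  refine (L.norm_iteratedFDeriv_comp_left hF.1.contDiffAt (sw_natle j)).trans ?_
  rw [mul_assoc]
  gcongr
  exact h j hj y

theorem Symb.add {a : ℝ} {F G : E → V} (hF : Symb a F) (hG : Symb a G) :
    Symb a fun y => F y + G y := by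
  refine ⟨hF.1.add hG.1, fun N => ?_⟩
  obtain ⟨C, hC, h1⟩ := hF.2 N
  obtain ⟨D, hD, h2⟩ := hG.2 N
  refine ⟨C + D, by positivity, fun j hj y => ?_⟩
  rw [fun_iteratedFDeriv_add_apply (hF.1.of_le (sw_natle j)).contDiffAt
    (hG.1.of_le (sw_natle j)).contDiffAt, add_mul]
  exact (norm_add_le _ _).trans (add_le_add (h1 j hj y) (h2 j hj y))

theorem Symb.mono {a b : ℝ} {F : E → V} (hF : Symb a F) (hab : b ≤ a) : Symb b F := by
  refine ⟨hF.1, fun N => ?_⟩
  obtain ⟨C, hC, h⟩ := hF.2 N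
  refine ⟨C, hC, fun j hj y => (h j hj y).trans ?_⟩
  gcongr
  · linarith [norm_nonneg y]

theorem Symb.fderiv {a : ℝ} {F : E → V} (hF : Symb a F) : Symb (a + 1) (fderiv ℝ F) := by
  refine ⟨hF.1.fderiv_right (m := ∞) (by simp), fun N => ?_⟩
  obtain ⟨C, hC, h⟩ := hF.2 (N + 1)
  refine ⟨C, hC, fun j hj y => ?_⟩
  rw [norm_iteratedFDeriv_fderiv]
  have e : -(a + 1) - (j : ℝ) = -a - ((j + 1 : ℕ) : ℝ) := by push_cast; ring
  rw [e]
  exact h (j + 1) (by omega) y

theorem Symb.const (c : V) : Symb 0 fun _ : E => c := by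
  refine ⟨contDiff_const, fun N => ⟨‖c‖, norm_nonneg _, fun j _ y => ?_⟩⟩
  rcases j with _ | j
  · simp
  · rw [iteratedFDeriv_succ_const]
    simp only [Pi.zero_apply, norm_zero]
    positivity

theorem Symb.lin (L : E →L[ℝ] V) : Symb (-1) fun y => L y := by
  refine ⟨L.contDiff, fun N => ?_⟩
  have h0 : SymbN 0 (-1) fun y => L y := by
    refine SymbN.zero (norm_nonneg L) fun y => ?_
    rw [neg_neg, Real.rpow_one]
    refine (L.le_opNorm y).trans ?_
    gcongr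
    linarith
  rcases N with _ | N
  · exact h0
  · refine h0.succ ?_
    have e : _root_.fderiv ℝ (fun y => L y) = fun _ => L := by
      funext y
      exact L.fderiv
    rw [e, neg_add_cancel]
    exact (Symb.const L).2 N

/-- directional derivative -/
theorem Symb.dir {a : ℝ} {F : E → V} (hF : Symb a F) (v : E) :
    Symb (a + 1) fun y => _root_.fderiv ℝ F y v :=
  hF.fderiv.clm (ContinuousLinearMap.apply ℝ V v)

/-- the Euler operator `y·∇` -/
theorem Symb.euler {a : ℝ} {F : E → V} (hF : Symb a F) :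
    Symb a fun y => _root_.fderiv ℝ F y y := by
  have h := Symb.bilin (ContinuousLinearMap.id ℝ (E →L[ℝ] V)) hF.fderiv
    (Symb.lin (ContinuousLinearMap.id ℝ E))
  have e : a + 1 + -1 = a := by ring
  rw [e] at h
  exact h

theorem Symb.mul {a b : ℝ} {F G : E → ℂ} (hF : Symb a F) (hG : Symb b G) :
    Symb (a + b) fun y => F y * G y :=
  Symb.bilin (ContinuousLinearMap.mul ℝ ℂ) hF hG

theorem Symb.const_mul {a : ℝ} {F : E → ℂ} (hF : Symb a F) (c : ℂ) : Symb a fun y => c * F y := by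
  simpa using (Symb.const c).mul hF

theorem Symb.sub {a : ℝ} {F G : E → ℂ} (hF : Symb a F) (hG : Symb a G) :
    Symb a fun y => F y - G y := by
  simpa [sub_eq_add_neg] using hF.add (hG.const_mul (-1))

theorem Symb.conj {a : ℝ} {F : E → ℂ} (hF : Symb a F) : Symb a fun y => conj (F y) :=
  hF.clm (conjCLE : ℂ →L[ℝ] ℂ)

theorem Symb.pow {a : ℝ} {F : E → ℂ} (hF : Symb a F) (n : ℕ) :
    Symb (n * a) fun y => F y ^ n := by
  induction n with
  | zero => simpa using Symb.const (1 : ℂ)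
  | succ n ih =>
    have e : ((n + 1 : ℕ) : ℝ) * a = n * a + a := by push_cast; ring
    rw [e]
    simpa only [pow_succ] using ih.mul hF

end calculus

/-- symbols of negative order are in every weighted Wiener class -/
theorem Symb.wiener {ε : ℝ} (hε : 0 < ε) {F : E → ℂ} (hF : Symb ε F) :
    (∀ K, MemW volume (wR K 1) (wien F)) ∧ ∀ y, syn (wien F) y = F y := by
  have h : ∀ K : ℕ, MemW volume (wR K 1) (wien F) ∧ ∀ y, syn (wien F) y = F y := by
    intro K
    obtain ⟨C, -, hC⟩ := sw_quant K hε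
    obtain ⟨A, -, hA⟩ := hF.2 (K + 13)
    obtain ⟨h1, h2, -, h4⟩ := hC F A (hF.1.of_le (sw_natle _)) hA
    exact ⟨⟨h1.aestronglyMeasurable, by simpa [wR] using h2⟩, h4⟩
  exact ⟨fun K => (h K).1, (h 0).2⟩

/-- quantitative version in the language of `XDefs` -/
theorem sw_quant_nw (K : ℕ) {ε : ℝ} (hε : 0 < ε) : ∃ C : ℝ, 0 ≤ C ∧ ∀ (F : E → ℂ) (A : ℝ),
    ContDiff ℝ (K + 13 : ℕ) F →
    (∀ j ≤ K + 13, ∀ y, ‖iteratedFDeriv ℝ j F y‖ ≤ A * (1 + ‖y‖) ^ (-ε - (j : ℝ))) →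
    MemW volume (wR K 1) (wien F) ∧ nw volume (wR K 1) (wien F) ≤ C * A ∧
      ∀ y, syn (wien F) y = F y := by
  obtain ⟨C, hC0, hC⟩ := sw_quant K hε
  refine ⟨C, hC0, fun F A hF hA => ?_⟩
  obtain ⟨h1, h2, h3, h4⟩ := hC F A hF hA
  exact ⟨⟨h1.aestronglyMeasurable, by simpa [wR] using h2⟩, by simpa [nw, wR] using h3, h4⟩

variable {m : ℕ}

theorem sw_gam_nonneg (m : ℕ) : 0 ≤ gam m := by unfold gam; positivity

theorem sw_gam_pos (hm : 1 ≤ m) : 0 < gam m := by
  have : (0 : ℝ) < m := by exact_mod_cast hm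
  unfold gam; positivity

theorem sw_iter_smooth (P : Prof m) (j : ℕ) :
    ContDiffOn ℝ ∞ (iteratedDeriv j P.Θ) (Ioi (-P.ε)) := by
  induction j with
  | zero => simpa using P.smooth
  | succ j ih =>
    rw [iteratedDeriv_succ]
    exact ih.deriv_of_isOpen isOpen_Ioi (by simp)

/-- `Θ^{(j)}(|y|²)` -/
def swH (P : Prof m) (j : ℕ) (y : E) : ℂ := iteratedDeriv j P.Θ (‖y‖ ^ 2)

theorem sw_H_smooth (P : Prof m) (j : ℕ) : ContDiff ℝ ∞ (swH P j) := by
  rw [contDiff_iff_contDiffAt]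
  intro y
  exact ((sw_iter_smooth P j).contDiffAt (isOpen_Ioi.mem_nhds (tq_mem P y))).comp y
    (contDiff_norm_sq ℝ).contDiffAt

theorem sw_H_fderiv (P : Prof m) (j : ℕ) : fderiv ℝ (swH P j) = fun y =>
    ContinuousLinearMap.smulRightL ℝ E ℂ (((2 : ℝ) • innerSL ℝ : E →L[ℝ] E →L[ℝ] ℝ) y)
      (swH P (j + 1) y) := by
  funext y
  have h1 : HasDerivAt (iteratedDeriv j P.Θ) (iteratedDeriv (j + 1) P.Θ (‖y‖ ^ 2)) (‖y‖ ^ 2) := by
    rw [iteratedDeriv_succ]
    exact (((sw_iter_smooth P j).contDiffAt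
      (isOpen_Ioi.mem_nhds (tq_mem P y))).differentiableAt (by simp)).hasDerivAt
  have h := h1.hasFDerivAt.comp y (tq_nsq_hasFDerivAt y)
  have h' : fderiv ℝ (swH P j) y = _ := h.fderiv
  rw [h']
  ext v
  simp [swH]

theorem sw_H_zero (P : Prof m) (j : ℕ) : SymbN 0 (2 * gam m + 2 * j) (swH P j) := by
  obtain ⟨C, hC⟩ := P.symb j
  have hC0 : 0 ≤ C := by
    have := (norm_nonneg _).trans (hC 0 le_rfl)
    simpa using this
  have hg := sw_gam_nonneg m
  refine SymbN.zero (C := C * 2 ^ (gam m + j)) (by positivity) fun y => ?_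
  refine (hC _ (by positivity)).trans ?_
  rw [mul_assoc]
  gcongr
  have hp : 0 < 1 + ‖y‖ := by positivity
  have h1 : (1 + ‖y‖) ^ 2 / 2 ≤ 1 + ‖y‖ ^ 2 := by nlinarith [sq_nonneg (‖y‖ - 1)]
  have h2 : -gam m - (j : ℝ) ≤ 0 := by
    have : (0 : ℝ) ≤ j := by positivity
    linarith
  refine (Real.rpow_le_rpow_of_nonpos (by positivity) h1 h2).trans (le_of_eq ?_)
  rw [Real.div_rpow (by positivity) (by norm_num), ← Real.rpow_natCast _ 2, ← Real.rpow_mul hp.le,
    div_eq_mul_inv, ← Real.rpow_neg (by norm_num), mul_comm]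
  congr 2
  · ring
  · push_cast; ring

theorem sw_H_symb (P : Prof m) (j : ℕ) : Symb (2 * gam m + 2 * j) (swH P j) := by
  refine ⟨sw_H_smooth P j, fun N => ?_⟩
  induction N generalizing j with
  | zero => exact sw_H_zero P j
  | succ N ih =>
    refine (sw_H_zero P j).succ ?_
    rw [sw_H_fderiv]
    have hl := Symb.lin ((2 : ℝ) • innerSL ℝ : E →L[ℝ] E →L[ℝ] ℝ)
    have h := SymbN.bilin (ContinuousLinearMap.smulRightL ℝ E ℂ) hl.1 (sw_H_smooth P (j + 1))
      (hl.2 N) (ih (j + 1))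
    have e : -1 + (2 * gam m + 2 * ((j + 1 : ℕ) : ℝ)) = 2 * gam m + 2 * j + 1 := by
      push_cast; ring
    rw [e] at h
    exact h

theorem sw_Q_symb (P : Prof m) : Symb (2 * gam m) P.Q := by
  have h := sw_H_symb P 0
  simp only [Nat.cast_zero, mul_zero, add_zero] at h
  exact h

theorem sw_zm_symb (P : Prof m) (i : Md14) : Symb (2 * gam m) (P.zm i) := by
  have hQ := sw_Q_symb P
  rcases i with _ | _ | i
  · exact hQ.const_mul I
  · have h := (hQ.const_mul ((gam m : ℂ) - I * P.β)).add (hQ.euler.const_mul (1 / 2))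
    have e : P.zm (some none) = fun y => ((gam m : ℂ) - I * P.β) * P.Q y
        + 1 / 2 * fderiv ℝ P.Q y y := by
      funext y
      simp only [Prof.zm]
      ring
    rw [e]
    exact h
  · exact (hQ.dir (EuclideanSpace.single i 1)).mono (by linarith)

theorem sw_W1_symb (P : Prof m) : Symb (m * (4 * gam m)) P.W1 := by
  have hQ := sw_Q_symb P
  have h := ((hQ.mul hQ.conj).pow m).const_mul ((m : ℂ) + 1)
  have e : 2 * gam m + 2 * gam m = 4 * gam m := by ring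
  rw [e] at h
  exact h

theorem sw_W2_symb (P : Prof m) : Symb (4 * gam m) P.W2 := by
  have hQ := sw_Q_symb P
  have hg := sw_gam_nonneg m
  have h := (((hQ.mul hQ.conj).pow (m - 1)).const_mul (m : ℂ)).mul (hQ.pow 2)
  refine Symb.mono h ?_
  have : (0 : ℝ) ≤ ((m - 1 : ℕ) : ℝ) * (2 * gam m + 2 * gam m) := by positivity
  push_cast
  linarith

/-- the Fourier data of the profile -/
def swFD (P : Prof m) (hm : 1 ≤ m) : FD P where
  q := wien P.Q
  z i := wien (P.zm i)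
  memq := ((sw_Q_symb P).wiener (by linarith [sw_gam_pos hm])).1
  memz K i := ((sw_zm_symb P i).wiener (by linarith [sw_gam_pos hm])).1 K
  synq := ((sw_Q_symb P).wiener (by linarith [sw_gam_pos hm])).2
  synz i := ((sw_zm_symb P i).wiener (by linarith [sw_gam_pos hm])).2

theorem sw_FD (P : Prof m) (hm : 1 ≤ m) : Nonempty (FD P) := ⟨swFD P hm⟩

end P139
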