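import Vale.Agent.P139.TGron
import Vale.Agent.P139.TAlg

/-! P139 T: transport of Duhamel formulas and of `N`, `DN` along almost-homomorphisms. -/

open Complex Set Filter Topology MeasureTheory

noncomputable section
namespace P139
namespace Alg

variable {X Y : Type} [NormedAddCommGroup X] [NormedSpace ℂ X]
  [NormedAddCommGroup Y] [NormedSpace ℂ Y]

/-- transport of a Duhamel formula along a map that almost commutes with the flows -/
theorem Duh.transport [NormedSpace ℝ X] [CompleteSpace X] [NormedSpace ℝ Y] [CompleteSpace Y]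
    {A : Alg X} (B : Alg Y) (T : X →L[ℂ] Y) {t₁ ε C η η' M : ℝ} {u f : ℝ → X}
    {g : ℝ → Y} (ht₁ : t₁ ≤ 1) (hu : A.Duh t₁ ε u f) (hf : ContinuousOn f (Icc 0 t₁))
    (hg : ContinuousOn g (Icc 0 t₁)) (hT : ∀ x, ‖T x‖ ≤ C * ‖x‖) (hC : 0 ≤ C) (hη : 0 ≤ η)
    (hU : ∀ t ∈ Icc (0 : ℝ) 1, ∀ x, ‖T (A.U t x) - B.U t (T x)‖ ≤ η * ‖x‖)
    (hM0 : ‖u 0‖ ≤ M) (hM : ∀ s ∈ Icc (0 : ℝ) t₁, ‖f s‖ ≤ M)
    (hfg : ∀ s ∈ Icc (0 : ℝ) t₁, ‖T (f s) - g s‖ ≤ η') :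
    B.Duh t₁ (C * ε + 2 * η * M + η') (fun t => T (u t)) g := by
  intro t ht
  have hM' : 0 ≤ M := (norm_nonneg _).trans hM0
  have hη' : 0 ≤ η' := (norm_nonneg _).trans (hfg t ht)
  have iA := A.duh_integrable hf ht
  have iB := B.duh_integrable hg ht
  have iT : IntervalIntegrable (fun s => T (A.U (t - s) (f s))) volume 0 t :=
    ⟨T.integrable_comp iA.1, T.integrable_comp iA.2⟩
  have e : T (u t) - (B.U t (T (u 0)) + ∫ s in (0 : ℝ)..t, B.U (t - s) (g s)) =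
      T (u t - (A.U t (u 0) + ∫ s in (0 : ℝ)..t, A.U (t - s) (f s))) +
        (T (A.U t (u 0)) - B.U t (T (u 0))) +
        ∫ s in (0 : ℝ)..t, (T (A.U (t - s) (f s)) - B.U (t - s) (g s)) := by
    rw [intervalIntegral.integral_sub iT iB, T.intervalIntegral_comp_comm iA, map_sub, map_add]
    abel
  have h1 := (hT _).trans (mul_le_mul_of_nonneg_left (hu t ht) hC)
  have h2 := (hU t ⟨ht.1, ht.2.trans ht₁⟩ (u 0)).trans (mul_le_mul_of_nonneg_left hM0 hη)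
  have h3 : ‖∫ s in (0 : ℝ)..t, (T (A.U (t - s) (f s)) - B.U (t - s) (g s))‖ ≤
      (η * M + η') * |t - 0| := by
    refine intervalIntegral.norm_integral_le_of_norm_le_const fun s hs => ?_
    rw [uIoc_of_le ht.1] at hs
    have hs' : s ∈ Icc (0 : ℝ) t₁ := ⟨hs.1.le, hs.2.trans ht.2⟩
    have e2 : T (A.U (t - s) (f s)) - B.U (t - s) (g s) =
        (T (A.U (t - s) (f s)) - B.U (t - s) (T (f s))) + B.U (t - s) (T (f s) - g s) := by
      rw [map_sub]; abel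
    rw [e2]
    refine (norm_add_le _ _).trans (add_le_add ?_ ((B.norm_U _ _).trans (hfg s hs')))
    exact (hU (t - s) ⟨by linarith [hs.2], by linarith [hs.1, ht.2]⟩ _).trans
      (mul_le_mul_of_nonneg_left (hM s hs') hη)
  have h4 : (η * M + η') * |t - 0| ≤ η * M + η' := by
    refine mul_le_of_le_one_right (by positivity) ?_
    rw [sub_zero, abs_of_nonneg ht.1]
    exact ht.2.trans ht₁
  simp only
  rw [e]
  refine (norm_add₃_le).trans ?_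
  linarith

/-- A discretisation pair: `A` on the lattice side `X`, `B` on the continuum side `Y`.
`Md f δ` says that the translation modulus of `f` at the mesh scale is at most `δ`. -/
structure Disc (A : Alg X) (B : Alg Y) (C : ℝ) where
  Cut : X →L[ℂ] Y
  Per : Y →L[ℂ] X
  Md : Y → ℝ → Prop
  norm_Cut : ∀ w, ‖Cut w‖ ≤ C * ‖w‖
  norm_Per : ∀ f, ‖Per f‖ ≤ C * ‖f‖
  per_cut : ∀ w, Per (Cut w) = w
  cut_st : ∀ w, Cut (A.st w) = B.st (Cut w)
  per_st : ∀ f, Per (B.st f) = A.st (Per f)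
  md_mono : ∀ f δ δ', Md f δ → δ ≤ δ' → Md f δ'
  md_mul : ∀ f g δ, Md f δ → Md (B.mul f g) (δ * ‖g‖)
  md_st : ∀ f δ, Md f δ → Md (B.st f) δ
  cut_per : ∀ f δ, Md f δ → ‖Cut (Per f) - f‖ ≤ C * δ
  cut_mul : ∀ f δ w, Md f δ → ‖Cut (A.mul (Per f) w) - B.mul f (Cut w)‖ ≤ C * δ * ‖w‖

theorem TTransAux_mul_le (A : Alg X) {x y : X} {a b : ℝ} (hx : ‖x‖ ≤ a) (hy : ‖y‖ ≤ b) :
    ‖A.mul x y‖ ≤ a * b :=
  (A.norm_mul x y).trans (mul_le_mul hx hy (norm_nonneg _) ((norm_nonneg _).trans hx))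

theorem TTransAux_cut {A : Alg X} {B : Alg Y} {C : ℝ} (D : Disc A B C) (hC : 0 ≤ C) {f z' : Y}
    {a z : X} {δ e F Z E : ℝ} (hδ : 0 ≤ δ) (hf : D.Md f δ) (ha : ‖D.Per f - a‖ ≤ e)
    (hF : ‖f‖ ≤ F) (hZ : ‖z‖ ≤ Z) (hE : ‖D.Cut z - z'‖ ≤ E) :
    ‖D.Cut (A.mul a z) - B.mul f z'‖ ≤ C * (e * Z) + C * δ * Z + F * E := by
  have e1 : D.Cut (A.mul a z) - B.mul f z' = -D.Cut (A.mul (D.Per f - a) z) +
      (D.Cut (A.mul (D.Per f) z) - B.mul f (D.Cut z)) + B.mul f (D.Cut z - z') := by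
    simp only [map_sub, sub_apply]
    abel
  rw [e1]
  refine norm_add₃_le.trans (add_le_add (add_le_add ?_ ?_) (B.TTransAux_mul_le hF hE))
  · rw [norm_neg]
    exact (D.norm_Cut _).trans (mul_le_mul_of_nonneg_left (A.TTransAux_mul_le ha hZ) hC)
  · exact (D.cut_mul f δ z hf).trans (mul_le_mul_of_nonneg_left hZ (mul_nonneg hC hδ))

theorem TTransAux_per {A : Alg X} {B : Alg Y} {C : ℝ} (D : Disc A B C) (hC : 0 ≤ C) {f g : Y}
    {a b : X} {δ δ' e e' F Z : ℝ} (hδ : 0 ≤ δ) (hf : D.Md f δ) (hg : D.Md g δ')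
    (ha : ‖D.Per f - a‖ ≤ e) (hb : ‖D.Per g - b‖ ≤ e') (hF : ‖f‖ ≤ F) (hZ : ‖b‖ ≤ Z) :
    ‖D.Per (B.mul f g) - A.mul a b‖ ≤ C * (C * (e * Z) + C * δ * Z + F * (C * e' + C * δ')) := by
  have h1 : ‖D.Cut b - g‖ ≤ C * e' + C * δ' := by
    have e1 : D.Cut b - g = -D.Cut (D.Per g - b) + (D.Cut (D.Per g) - g) := by
      rw [map_sub]; abel
    rw [e1]
    refine (norm_add_le _ _).trans (add_le_add ?_ (D.cut_per g δ' hg))
    rw [norm_neg]
    exact (D.norm_Cut _).trans (mul_le_mul_of_nonneg_left hb hC)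
  have h2 := TTransAux_cut D hC hδ hf ha hF hZ h1
  have e2 : D.Per (B.mul f g) - A.mul a b = -D.Per (D.Cut (A.mul a b) - B.mul f g) := by
    rw [map_sub, D.per_cut]; abel
  rw [e2, norm_neg]
  exact (D.norm_Per _).trans (mul_le_mul_of_nonneg_left h2 hC)

theorem TTransAux_md {A : Alg X} {B : Alg Y} {C : ℝ} (D : Disc A B C) {q : Y} {δ R : ℝ}
    (hδ : 0 ≤ δ) (hq : ‖q‖ ≤ R) (h : D.Md q δ) (m : ℕ) : D.Md (B.N m q) (δ * R ^ (2 * m)) := by
  cases m with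
  | zero => simpa [N] using h
  | succ m =>
    refine D.md_mono _ _ _ (D.md_mul _ _ _ (D.md_mul _ _ _ h)) ?_
    have h1 : ‖B.st q‖ ≤ R := (B.norm_st q).trans hq
    have h2 : ‖B.N m q‖ ≤ R ^ (2 * m + 1) :=
      (B.norm_N m q).trans (pow_le_pow_left₀ (norm_nonneg _) hq _)
    have h0 : 0 ≤ R := (norm_nonneg _).trans hq
    calc δ * ‖B.st q‖ * ‖B.N m q‖ ≤ δ * R * R ^ (2 * m + 1) := by gcongr
      _ = _ := by ring

end Alg

theorem disc_N (m : ℕ) (C R : ℝ) (hC : 1 ≤ C) (hR : 1 ≤ R) : ∃ C' : ℝ, 0 ≤ C' ∧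
    ∀ (X Y : Type) [NormedAddCommGroup X] [NormedSpace ℂ X] [NormedAddCommGroup Y]
      [NormedSpace ℂ Y] (A : Alg X) (B : Alg Y) (D : Alg.Disc A B C) (q : Y) (δ : ℝ),
      0 ≤ δ → ‖q‖ ≤ R → D.Md q δ →
      ‖D.Per (B.N m q) - A.N m (D.Per q)‖ ≤ C' * δ ∧
      ∀ w, ‖D.Cut (A.DN m (D.Per q) w) - B.DN m q (D.Cut w)‖ ≤ C' * δ * ‖w‖ := by
  have hC0 : 0 ≤ C := by linarith
  have hR0 : 0 ≤ R := by linarith
  induction m with
  | zero =>
    refine ⟨0, le_rfl, fun X Y _ _ _ _ A B D q δ _ _ _ => ⟨?_, fun w => ?_⟩⟩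
    · simp [Alg.N]
    · simp [Alg.DN]
  | succ m ih =>
    obtain ⟨K, hK, ih⟩ := ih
    obtain ⟨P, hP⟩ : ∃ P, P = C * R := ⟨_, rfl⟩
    have hP0 : 0 ≤ P := by rw [hP]; positivity
    obtain ⟨K₁, hK₁⟩ : ∃ K₁, K₁ = C * (C * P + R * C) := ⟨_, rfl⟩
    have hK₁0 : 0 ≤ K₁ := by rw [hK₁]; positivity
    obtain ⟨G, hG⟩ : ∃ G : ℝ, G = (2 * m + 1) * P ^ (2 * m) := ⟨_, rfl⟩
    have hG0 : 0 ≤ G := by rw [hG]; positivity
    obtain ⟨Ka, hKa⟩ : ∃ Ka, Ka = C * (C * (K₁ * P ^ (2 * m + 1)) + C * R * P ^ (2 * m + 1) +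
      R * R * (C * K + C * R ^ (2 * m))) := ⟨_, rfl⟩
    have hKa0 : 0 ≤ Ka := by rw [hKa]; positivity
    obtain ⟨Kb, hKb⟩ : ∃ Kb, Kb = C * (K * (2 * P)) + C * R ^ (2 * m) * (2 * P) +
      R ^ (2 * m + 1) * (2 * C) + (C * (K₁ * G) + C * R * G + R * R * K) := ⟨_, rfl⟩
    have hKb0 : 0 ≤ Kb := by rw [hKb]; positivity
    refine ⟨Ka + Kb, by positivity, fun X Y _ _ _ _ A B D q δ hδ hq hM => ?_⟩
    obtain ⟨iha, ihb⟩ := ih X Y A B D q δ hδ hq hM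
    have hp : ‖D.Per q‖ ≤ P := (D.norm_Per q).trans (hP ▸ mul_le_mul_of_nonneg_left hq hC0)
    have hp' : ‖A.st (D.Per q)‖ ≤ P := (A.norm_st _).trans hp
    have hq' : ‖B.st q‖ ≤ R := (B.norm_st _).trans hq
    have hS : ‖B.mul q (B.st q)‖ ≤ R * R := B.TTransAux_mul_le hq hq'
    have hMS : D.Md (B.mul q (B.st q)) (δ * R) :=
      D.md_mono _ _ _ (D.md_mul _ _ _ hM) (mul_le_mul_of_nonneg_left hq' hδ)
    have hMN := Alg.TTransAux_md D hδ hq hM m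
    have hNp : ‖A.N m (D.Per q)‖ ≤ P ^ (2 * m + 1) :=
      (A.norm_N m _).trans (pow_le_pow_left₀ (norm_nonneg _) hp _)
    have hNq : ‖B.N m q‖ ≤ R ^ (2 * m + 1) :=
      (B.norm_N m _).trans (pow_le_pow_left₀ (norm_nonneg _) hq _)
    have e1 : ‖D.Per (B.mul q (B.st q)) - A.mul (D.Per q) (A.st (D.Per q))‖ ≤ K₁ * δ := by
      refine (Alg.TTransAux_per D hC0 hδ hM (D.md_st _ _ hM) (e := 0) (e' := 0) (by simp)
        (by simp [D.per_st]) hq hp').trans (le_of_eq ?_)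
      rw [hK₁]; ring
    refine ⟨?_, fun w => ?_⟩
    · refine (Alg.TTransAux_per D hC0 (by positivity) hMS hMN e1 iha hS hNp).trans ?_
      calc _ = Ka * δ := by rw [hKa]; ring
        _ ≤ _ := by gcongr; linarith
    · have hZ : ‖A.mul w (A.st (D.Per q)) + A.mul (D.Per q) (A.st w)‖ ≤ 2 * P * ‖w‖ := by
        refine (norm_add_le _ _).trans ?_
        have a1 := A.TTransAux_mul_le (le_refl ‖w‖) hp'
        have a2 := A.TTransAux_mul_le hp (A.norm_st w)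
        linarith
      have hZ' : ‖D.Cut (A.mul w (A.st (D.Per q)) + A.mul (D.Per q) (A.st w)) -
          (B.mul (D.Cut w) (B.st q) + B.mul q (B.st (D.Cut w)))‖ ≤ 2 * C * δ * ‖w‖ := by
        have a1 := D.cut_mul _ _ w (D.md_st _ _ hM)
        have a2 := (D.cut_mul _ _ (A.st w) hM).trans
          (mul_le_mul_of_nonneg_left (A.norm_st w) (mul_nonneg hC0 hδ))
        rw [D.per_st, A.comm, B.comm] at a1
        rw [D.cut_st] at a2
        rw [map_add, add_sub_add_comm]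
        refine (norm_add_le _ _).trans ?_
        linarith
      have hD : ‖A.DN m (D.Per q) w‖ ≤ G * ‖w‖ := by
        refine (A.norm_DN m _ w).trans ?_
        rw [hG]
        gcongr
      have t1 := Alg.TTransAux_cut D hC0 (by positivity) hMN iha hNq hZ hZ'
      have t2 := Alg.TTransAux_cut D hC0 (by positivity) hMS e1 hS hD (ihb w)
      rw [A.comm, B.comm] at t1
      simp only [Alg.DN]
      rw [map_add D.Cut, add_sub_add_comm]
      refine (norm_add_le _ _).trans ((add_le_add t1 t2).trans ?_)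
      calc _ = Kb * δ * ‖w‖ := by rw [hKb]; ring
        _ ≤ _ := by gcongr; linarith

end P139
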