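import Vale.Agent.P139.TShadow
import Vale.Agent.P139.TTrans

/-! P139 T: the abstract core of one step. -/

open Complex Set Filter Topology MeasureTheory

noncomputable section
namespace P139

theorem core (m : ℕ) (C₀ R : ℝ) (hC₀ : 0 ≤ C₀) (hR : 1 ≤ R) : ∃ C : ℝ, 0 ≤ C ∧
    ∀ (X Y : Type) [NormedAddCommGroup X] [NormedSpace ℂ X] [NormedSpace ℝ X] [CompleteSpace X]
      [NormedAddCommGroup Y] [NormedSpace ℂ Y] [NormedSpace ℝ Y] [CompleteSpace Y]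
      (A : Alg X) (B : Alg Y) (T : X →L[ℂ] Y) (t₁ η ρ : ℝ) (b : ℝ → X) (y : ℝ → Y)
      (l : ℝ → ℝ) (x₀ : X), 0 ≤ t₁ → t₁ ≤ 1 → 0 ≤ η → 0 < ρ → ρ ≤ 1 →
      A.App (A.FN m) t₁ η b → ContinuousOn y (Icc 0 t₁) →
      (∀ s ∈ Icc (0 : ℝ) t₁, ‖b s‖ + 1 ≤ R) → (∀ s ∈ Icc (0 : ℝ) t₁, ‖y s‖ ≤ R) →
      ContinuousOn l (Icc 0 t₁) →
      (∀ s ∈ Icc (0 : ℝ) t₁, (2 * m + 1) * (‖b s‖ + 1) ^ (2 * m) ≤ l s) →
      (‖x₀ - b 0‖ + η) * Real.exp (∫ s in (0 : ℝ)..t₁, l s) ≤ ρ →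
      (∀ x, ‖T x‖ ≤ C₀ * ‖x‖) →
      (∀ t ∈ Icc (0 : ℝ) 1, ∀ x, ‖T (A.U t x) - B.U t (T x)‖ ≤ η * ‖x‖) →
      (∀ s ∈ Icc (0 : ℝ) t₁, ∀ w, ‖T (A.DN m (b s) w) - B.DN m (y s) (T w)‖ ≤ η * ‖w‖) →
      ∃ (u : ℝ → X) (φ : ℝ → Y), u 0 = x₀ ∧ A.App (A.FN m) t₁ 0 u ∧
        ‖u t₁ - b t₁‖ ≤ (‖x₀ - b 0‖ + η) * Real.exp (∫ s in (0 : ℝ)..t₁, l s) ∧
        φ 0 = T (x₀ - b 0) ∧ B.App (B.FL m y) t₁ 0 φ ∧
        ‖φ t₁ - T (u t₁ - b t₁)‖ ≤ C * (η + ρ ^ 2) := by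
  set L : ℝ := (2 * m + 1) * R ^ (2 * m) with hL
  set D : ℝ := m * (2 * m + 1) * R ^ (2 * m) with hD
  set M : ℝ := 2 * R ^ (2 * m + 1) with hM
  have hR0 : 0 ≤ R := by linarith
  have hL0 : 0 ≤ L := by positivity
  have hD0 : 0 ≤ D := by positivity
  have hRp : 1 ≤ R ^ (2 * m + 1) := one_le_pow₀ hR
  have hM1 : 1 ≤ M := by linarith
  refine ⟨(C₀ + 2 * M + 1 + C₀ * D) * Real.exp L, by positivity, ?_⟩
  intro X Y _ _ _ _ _ _ _ _ A B T t₁ η ρ b y l x₀ ht₁ ht1 hη hρ hρ1 hb hy hbR hyR hl hbl hx hT hU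
    hDN
  have hl0 : ∀ t ∈ Icc (0 : ℝ) t₁, 0 ≤ l t := fun t ht =>
    le_trans (by positivity) (hbl t ht)
  have hnear : ∀ t, ∀ x : X, ‖x - b t‖ ≤ ρ → ‖x‖ ≤ ‖b t‖ + 1 := fun t x h => by
    have := norm_le_insert' x (b t)
    linarith
  obtain ⟨u, hu0, hu, hub⟩ := A.shadow ht₁ (A.FN_cont m _) hb hρ hl hl0
    (fun t ht x z hx hz => (A.FN_lip m t (hnear t x hx) (hnear t z hz)).trans
      (mul_le_mul_of_nonneg_right (hbl t ht) (norm_nonneg _))) x₀ hx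
  have hw : ∀ t ∈ Icc (0 : ℝ) t₁, ‖u t - b t‖ ≤ ρ := fun t ht => (hub t ht).trans hx
  have huR : ∀ t ∈ Icc (0 : ℝ) t₁, ‖u t‖ ≤ R := fun t ht =>
    (hnear t _ (hw t ht)).trans (hbR t ht)
  have hbR' : ∀ t ∈ Icc (0 : ℝ) t₁, ‖b t‖ ≤ R := fun t ht => by linarith [hbR t ht]
  have hFc : ∀ v : ℝ → X, ContinuousOn v (Icc 0 t₁) →
      ContinuousOn (fun s => A.FN m s (v s)) (Icc 0 t₁) := fun v hv =>
    ((A.N_cont m).comp_continuousOn hv).const_smul (-I)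
  have hwc : ContinuousOn (fun t => T (u t - b t)) (Icc 0 t₁) :=
    T.continuous.comp_continuousOn (hu.1.sub hb.1)
  have hgc : ContinuousOn (fun s => B.FL m y s (T (u s - b s))) (Icc 0 t₁) :=
    ((B.DN_cont m).comp_continuousOn (hy.prodMk hwc)).const_smul (-I)
  have hFN : ∀ s, ∀ x : X, ‖x‖ ≤ R → ‖A.FN m s x‖ ≤ R ^ (2 * m + 1) := fun s x h => by
    rw [Alg.FN, norm_smul, norm_neg, norm_I, one_mul]
    exact (A.norm_N m x).trans (pow_le_pow_left₀ (norm_nonneg _) h _)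
  have h0 : (0 : ℝ) ∈ Icc (0 : ℝ) t₁ := ⟨le_rfl, ht₁⟩
  have hd := Alg.Duh.transport B T (η' := C₀ * D * ρ ^ 2 + η) (M := M) ht1
    (hu.2.sub hb.2 (hFc u hu.1) (hFc b hb.1)) ((hFc u hu.1).sub (hFc b hb.1)) hgc hT hC₀ hη hU
    (((hw 0 h0).trans hρ1).trans hM1)
    (fun s hs => (norm_sub_le _ _).trans (by
      have h1 := hFN s _ (huR s hs)
      have h2 := hFN s _ (hbR' s hs)
      linarith))
    (fun s hs => by
      have e : T (A.FN m s (u s) - A.FN m s (b s)) - B.FL m y s (T (u s - b s)) =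
          (-I) • (T (A.N m (b s + (u s - b s)) - A.N m (b s) - A.DN m (b s) (u s - b s)) +
            (T (A.DN m (b s) (u s - b s)) - B.DN m (y s) (T (u s - b s)))) := by
        simp only [Alg.FN, Alg.FL, add_sub_cancel, map_sub T, map_smul T, smul_add, smul_sub]
        abel
      rw [e, norm_smul, norm_neg, norm_I, one_mul]
      refine (norm_add_le _ _).trans (add_le_add ((hT _).trans ?_) ((hDN s hs _).trans ?_))
      · rw [mul_assoc]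
        refine mul_le_mul_of_nonneg_left ((A.N_taylor m hR (hbR' s hs)
          (by rw [add_sub_cancel]; exact huR s hs)).trans ?_) hC₀
        exact mul_le_mul_of_nonneg_left (pow_le_pow_left₀ (norm_nonneg _) (hw s hs) 2) hD0
      · exact mul_le_of_le_one_right hη ((hw s hs).trans hρ1))
  set e : ℝ := C₀ * (0 + η) + 2 * η * M + (C₀ * D * ρ ^ 2 + η) with he
  have he0 : 0 ≤ e := by positivity
  have hexp : Real.exp (∫ _ in (0 : ℝ)..t₁, L) ≤ Real.exp L := by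
    rw [intervalIntegral.integral_const, sub_zero, smul_eq_mul]
    exact Real.exp_le_exp.2 (mul_le_of_le_one_left hL0 ht1)
  have hψ : B.App (B.FL m y) t₁ e fun t => T (u t - b t) := ⟨hwc, hd⟩
  have hle : (‖T (u 0 - b 0) - T (u 0 - b 0)‖ + e) * Real.exp (∫ _ in (0 : ℝ)..t₁, L)
      ≤ e * Real.exp L := by
    rw [sub_self, norm_zero, zero_add]
    exact mul_le_mul_of_nonneg_left hexp he0
  obtain ⟨φ, hφ0, hφ, hφψ⟩ := B.shadow (r := e * Real.exp L + 1) (l := fun _ => L) ht₁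
    (B.FL_cont m hy) hψ (by positivity) continuousOn_const (fun _ _ => hL0)
    (fun t ht x z _ _ => B.FL_lip m y t (hyR t ht) x z) (T (u 0 - b 0)) (by linarith)
  refine ⟨u, φ, hu0, hu, hub t₁ ⟨ht₁, le_rfl⟩, by rw [hφ0, hu0], hφ, ?_⟩
  refine ((hφψ t₁ ⟨ht₁, le_rfl⟩).trans hle).trans ?_
  have h1 : e ≤ (C₀ + 2 * M + 1 + C₀ * D) * (η + ρ ^ 2) := by
    have h2 : 0 ≤ C₀ * D * η := by positivity
    have h3 : 0 ≤ (C₀ + 2 * M + 1) * ρ ^ 2 := by positivity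
    rw [he]; nlinarith
  calc e * Real.exp L ≤ (C₀ + 2 * M + 1 + C₀ * D) * (η + ρ ^ 2) * Real.exp L :=
        mul_le_mul_of_nonneg_right h1 (Real.exp_pos _).le
    _ = _ := by ring

end P139
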