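import Vale.Agent.P139.XConv
import Vale.Agent.P139.TOut

/-! P139 part T: interface statements (input from L, profile facts, output). -/

open Complex Set Filter Topology MeasureTheory
open scoped ComplexConjugate

noncomputable section
namespace P139

variable {m : ℕ} {P : Prof m}

/-- the self-similar solution as a curve in `XR K l` -/
def FD.qW (F : FD P) (K : ℕ) (l : ℝ) (t : ℝ) : XR K l := toW volume (wR K l) (F.qt t)

def FD.zW (F : FD P) (K : ℕ) (l : ℝ) (i : Md14) : XR K l := toW volume (wR K l) (F.z i)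

/-- back to self-similar variables after time `τ`:
`syn (Dinv τ f) y = e^{-aτ} syn f (e^{-τ/2} y)` -/
def Prof.Dinv (P : Prof m) (K : ℕ) (τ : ℝ) : XR K 1 →L[ℂ] XR K 1 :=
  cexp (-P.aa * τ) • dilOp (wR K 1) (wR K 1) (Real.exp (τ / 2))

/-- OUTPUT OF PART L: linear decay modulo the symmetry modes, in physical time. -/
def LinOut (F : FD P) : Prop :=
  ∃ K₁ : ℕ, ∀ K : ℕ, K₁ ≤ K → ∀ δ : ℝ, 0 < δ → ∀ τ₁ : ℝ, ∃ τ₀ C : ℝ, τ₁ ≤ τ₀ ∧ 0 ≤ C ∧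
    ∀ φ : ℝ → XR K 1,
      (algR K 1).App ((algR K 1).FL m (F.qW K 1)) (1 - Real.exp (-τ₀)) 0 φ →
      ∃ p : Md14 → ℝ, (∀ i, |p i| ≤ C * ‖φ 0‖) ∧
        ‖P.Dinv K τ₀ (φ (1 - Real.exp (-τ₀))) - ∑ i, (p i : ℂ) • F.zW K 1 i‖ ≤ δ * ‖φ 0‖

/-- (QS) the self-similar solution is an exact mild solution in every `XR K 1`. -/
def StQS (F : FD P) : Prop :=
  ∀ (K : ℕ) (t₁ : ℝ), t₁ < 1 → (algR K 1).App ((algR K 1).FN m) t₁ 0 (F.qW K 1)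

/-- the modulated profile: `syn (Gp p) y = e^{iθ} e^{as} Q (e^{s/2} (y + x))` with
`θ = p none`, `s = p (some none)`, `x j = p (some (some j))` -/
def px (p : Md14 → ℝ) : E := WithLp.toLp 2 fun j => p (some (some j))

def FD.Gp (F : FD P) (p : Md14 → ℝ) (ξ : E) : ℂ :=
  cexp (I * p none + P.aa * p (some none)) *
    (chR (px p) ξ * dilF (Real.exp (-p (some none) / 2)) F.q ξ)

/-- (MOD) differentiability of the symmetry orbit at the identity. -/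
def StMOD (F : FD P) : Prop :=
  ∀ (K : ℕ) (ε : ℝ), 0 < ε → ∃ ρ : ℝ, 0 < ρ ∧ ∀ (r : ℝ) (p : Md14 → ℝ), r ≤ ρ →
    (∀ i, |p i| ≤ r) →
    nw volume (wR K 1) (fun ξ => F.Gp p ξ - F.q ξ - ∑ i, (p i : ℂ) * F.z i ξ) ≤ ε * r

/-! ### lattice statements at the level of coefficient functions -/

/-- mild solution in the Wiener algebra on `[0,t₁]` for the lattice of mesh `h` -/
def HSol (m : ℕ) (h : ℝ) (t₁ : ℝ) (u : ℝ → XZ 0 0) : Prop :=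
  (algZ 0 0 h).App ((algZ 0 0 h).FN m) t₁ 0 u

/-- the two-norm neighbourhood of the discretised profile at mesh `h` -/
def NearT (F : FD P) (K : ℕ) (l r M h : ℝ) (c : Z12 → ℂ) : Prop :=
  MemW Measure.count (wZ (K + 1) (l * h)) c ∧
  nw Measure.count (wZ K h) (fun k => c k - perF h F.q k) ≤ r ∧
  nw Measure.count (wZ (K + 1) (l * h)) (fun k => c k - perF h F.q k) ≤ M * r

/-- a unimodular character of the lattice -/
def IsChar (χ : Z12 → ℂ) : Prop := (∀ k, ‖χ k‖ = 1) ∧ ∀ j k, χ (j + k) = χ j * χ k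

/-- ONE STEP of the renormalisation. -/
def StStep (F : FD P) : Prop :=
  ∃ (K : ℕ) (l r M h₀ : ℝ), 0 < l ∧ l ≤ 1 ∧ 0 < r ∧ r < ‖P.Θ 0‖ ∧ 1 ≤ M ∧ 0 < h₀ ∧ h₀ ≤ 1 ∧
    ∀ h : ℝ, 0 < h → h ≤ h₀ → ∀ c : Z12 → ℂ, NearT F K l r M h c →
      ∃ (t₁ h' : ℝ) (u : ℝ → XZ 0 0) (κ : ℂ) (χ c' : Z12 → ℂ), 0 ≤ t₁ ∧ t₁ ≤ 1 ∧
        0 < h' ∧ h' ≤ h / 2 ∧ HSol m h t₁ u ∧ (∀ k, u 0 k = c k) ∧ IsChar χ ∧
        ‖κ‖ ^ (2 * m) * h' ^ 2 = h ^ 2 ∧ (∀ k, u t₁ k = κ * χ k * c' k) ∧ NearT F K l r M h' c'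

end P139
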