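import Vale.Agent.P139.TSol
import Vale.Agent.P139.TQt

/-! P139 T: iteration of the renormalisation step. -/

open Complex Set Filter Topology MeasureTheory
open scoped ComplexConjugate

noncomputable section
namespace P139

theorem TIterAux_per {m : ℕ} {P : Prof m} (F : FD P) (K : ℕ) (l : ℝ) {h : ℝ} (hh : 0 < h) :
    MemW Measure.count (wZ K l) (perF h F.q) := by
  have h1 : l = l / h * h := by field_simp
  have h2 := MemW.per (h := h) (ω₁ := wR K (l / h)) (ω₂ := wZ K (l / h * h))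
    (C := (1 + 2 * |l / h| * h) ^ K) (fun k ξ hξ => cell_wZ hh hξ) (F.memq' K (l / h))
  rw [← h1] at h2
  exact h2.1

theorem TIterAux_le {ω₁ ω₂ : Wt Z12} {c : Z12 → ℂ} {C : ℝ} (hc : MemW Measure.count ω₁ c)
    (h : ∀ k, ω₂.w k ≤ C * ω₁.w k) :
    MemW Measure.count ω₂ c ∧ nw Measure.count ω₂ c ≤ C * nw Measure.count ω₁ c := by
  refine hc.of_le hc.1 (Eventually.of_forall fun k => ?_)
  rw [← mul_assoc]
  exact mul_le_mul_of_nonneg_right (h k) (norm_nonneg _)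

theorem TIterAux_low {m : ℕ} {P : Prof m} (F : FD P) {K : ℕ} {l r M h : ℝ} (hl : 0 < l)
    (hl1 : l ≤ 1) (hh : 0 < h) {c : Z12 → ℂ} (hc : NearT F K l r M h c) :
    ‖P.Θ 0‖ - r ≤ nw Measure.count (wZ 0 0) c := by
  obtain ⟨h1, h2, -⟩ := hc
  have hw0 : ∀ k, (wZ 0 0).w k = 1 := fun k => by simp [wZ]
  have hc0 : MemW Measure.count (wZ 0 0) c :=
    (TIterAux_le (C := 1) h1 (fun k => by
      rw [hw0, one_mul]; exact (wZ (K + 1) (l * h)).one_le k)).1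
  have hcK : MemW Measure.count (wZ K h) c := by
    refine (TIterAux_le (C := (1 / l) ^ K) h1 (fun k => ?_)).1
    rw [wZ_eq, wZ_eq]
    have h3 : (1 : ℝ) ≤ 1 / l := by rw [le_div_iff₀ hl]; linarith
    have h4 : |h| ≤ 1 / l * |l * h| := by
      rw [abs_of_pos hh, abs_of_pos (mul_pos hl hh)]
      exact le_of_eq (by field_simp)
    refine (wR_le K h3 h4 (emb k)).trans ?_
    exact mul_le_mul_of_nonneg_left (wR_mono (Nat.le_succ K) le_rfl _) (by positivity)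
  have hd : MemW Measure.count (wZ K h) (fun k => c k - perF h F.q k) :=
    hcK.sub (TIterAux_per F K h hh)
  have hd0 := TIterAux_le (ω₂ := wZ 0 0) (C := 1) hd (fun k => by
    rw [hw0, one_mul]; exact (wZ K h).one_le k)
  have hp0 := TIterAux_per F 0 0 hh
  have h5 := nw_sub_le hc0 hd0.1
  have h6 : (fun k => c k - (c k - perF h F.q k)) = perF h F.q := by
    funext k; ring
  rw [h6] at h5
  have h7 : ‖P.Θ 0‖ ≤ nw Measure.count (wZ 0 0) (perF h F.q) := by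
    rw [← F.int_q, ← tsum_perF (h := h) (F.memq 0).integrable, nw_count]
    have h8 := memW_count.1 hp0
    simp only [hw0, one_mul] at h8 ⊢
    exact norm_tsum_le_tsum_norm h8
  have h9 := hd0.2
  linarith

theorem TIterAux_near {m : ℕ} {P : Prof m} (F : FD P) {K : ℕ} {l r M h κ : ℝ} (hl : 0 < l)
    (hl1 : l ≤ 1) (hr : 0 < r) (hM : 1 ≤ M) (hh : 0 < h) (hh1 : h ≤ 1) (hκ : 0 < κ)
    {c : Z12 → ℂ} (hs : Summable fun k => wA (K + 1) k * ‖c k - κ * perF h F.q k‖)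
    (hlt : ∑' k, wA (K + 1) k * ‖c k - κ * perF h F.q k‖ < κ * r) :
    NearT F K l r M h (fun k => (κ : ℂ)⁻¹ * c k) := by
  have hκ' : (κ : ℂ) ≠ 0 := by exact_mod_cast hκ.ne'
  have h1 : MemW Measure.count (wZ (K + 1) 1) (fun k => c k - κ * perF h F.q k) := by
    rw [memW_count]
    simpa only [wZ_one] using hs
  have h2 : nw Measure.count (wZ (K + 1) 1) (fun k => c k - κ * perF h F.q k) < κ * r := by
    rw [nw_count]
    simpa only [wZ_one] using hlt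
  have h3 := h1.const_mul (κ : ℂ)⁻¹
  have h4 := nw_const_mul (μ := Measure.count) (ω := wZ (K + 1) 1)
    (f := fun k => c k - κ * perF h F.q k) (κ : ℂ)⁻¹
  have h5 : (fun k => (κ : ℂ)⁻¹ * (c k - κ * perF h F.q k)) =
      fun k => (κ : ℂ)⁻¹ * c k - perF h F.q k := by
    funext k; field_simp
  rw [h5] at h3 h4
  have h6 : nw Measure.count (wZ (K + 1) 1) (fun k => (κ : ℂ)⁻¹ * c k - perF h F.q k) ≤ r := by
    rw [h4, norm_inv, Complex.norm_real, Real.norm_of_nonneg hκ.le, inv_mul_le_iff₀ hκ]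
    exact h2.le
  have hlh : |l * h| ≤ |(1 : ℝ)| := by
    rw [abs_of_pos (mul_pos hl hh), abs_one]; nlinarith
  have hh' : |h| ≤ |(1 : ℝ)| := by rw [abs_of_pos hh, abs_one]; exact hh1
  have h7 := TIterAux_le (ω₂ := wZ (K + 1) (l * h)) (C := 1) h3 (fun k => by
    rw [one_mul, wZ_eq, wZ_eq]; exact wR_mono le_rfl hlh _)
  have h8 := TIterAux_le (ω₂ := wZ K h) (C := 1) h3 (fun k => by
    rw [one_mul, wZ_eq, wZ_eq]; exact wR_mono (Nat.le_succ K) hh' _)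
  refine ⟨?_, by linarith [h8.2], ?_⟩
  · have h9 := h7.1.add (TIterAux_per F (K + 1) (l * h) hh)
    simpa only [sub_add_cancel] using h9
  · have h9 := h7.2
    nlinarith

theorem iter {m : ℕ} {P : Prof m} (F : FD P) (hm : 1 ≤ m) (hS : StStep F) : OpenNoSol m := by
  obtain ⟨K, l, r, M, h₀, hl, hl1, hr, hrΘ, hM, hh₀, hh₀1, hstep⟩ := hS
  obtain ⟨κ₀, hκ₀, hκ₀m⟩ : ∃ κ₀ : ℝ, 0 < κ₀ ∧ κ₀ ^ (2 * m) * h₀ ^ 2 = 1 := by
    refine ⟨((h₀ ^ 2)⁻¹) ^ (((2 * m : ℕ) : ℝ)⁻¹), by positivity, ?_⟩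
    rw [Real.rpow_inv_natCast_pow (by positivity) (by omega)]
    field_simp
  have hκ₀' : (κ₀ : ℂ) ≠ 0 := by exact_mod_cast hκ₀.ne'
  refine ⟨K + 1, fun k => κ₀ * perF h₀ F.q k, κ₀ * r, 2 * h₀ ^ 2, by positivity, by positivity,
    ?_, ?_⟩
  · have h1 := memW_count.1 ((TIterAux_per F (K + 1) 1 hh₀).const_mul (κ₀ : ℂ))
    simpa only [wZ_one] using h1
  intro c hs hlt U hU
  have hnear := TIterAux_near F hl hl1 hr hM hh₀ hh₀1 hκ₀ hs hlt
  obtain ⟨v, hv, -, hv0⟩ := hsol_of_asol (T' := 4 / 3 * h₀ ^ 2) hU (by nlinarith [sq_pos_of_pos hh₀])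
  have hv0' := hv0 (by positivity)
  obtain ⟨B, hB⟩ := (isCompact_Icc (a := (0 : ℝ)) (b := 4 / 3 * h₀ ^ 2)).exists_bound_of_continuousOn
    hv.1
  have key : ∀ j : ℕ, ∃ (t h : ℝ) (κ : ℂ) (χ c' : Z12 → ℂ), 0 ≤ t ∧
      t + 4 / 3 * h ^ 2 ≤ 4 / 3 * h₀ ^ 2 ∧ 0 < h ∧ h ≤ h₀ * (1 / 2) ^ j ∧ IsChar χ ∧
      ‖κ‖ ^ (2 * m) * h ^ 2 = 1 ∧ (∀ k, v t k = κ * χ k * c' k) ∧ NearT F K l r M h c' := by
    intro j
    induction j with
    | zero =>
      refine ⟨0, h₀, κ₀, fun _ => 1, fun k => (κ₀ : ℂ)⁻¹ * c k, le_rfl, by linarith, hh₀,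
        by simp, ⟨fun _ => by simp, fun _ _ => by simp⟩, ?_, fun k => ?_, hnear⟩
      · rw [Complex.norm_real, Real.norm_of_nonneg hκ₀.le]; exact hκ₀m
      · rw [hv0' k]; field_simp
    | succ j ih =>
      obtain ⟨t, h, κ, χ, c', ht0, ht1, hh, hhj, hχ, hκ, hvt, hc'⟩ := ih
      have hpow : ((1 : ℝ) / 2) ^ j ≤ 1 := pow_le_one₀ (by norm_num) (by norm_num)
      have hhle : h ≤ h₀ := hhj.trans (by nlinarith)
      obtain ⟨t₁, h', u, κ₁, χ₁, c₁, ht₁0, ht₁1, hh', hh'le, hu, hu0, hχ₁, hκ₁, hut, hc₁⟩ :=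
        hstep h hh hhle c' hc'
      have hh2 : 0 < h ^ 2 := by positivity
      have hw : HSol m 1 (h ^ 2 * t₁) fun s => v (t + s) :=
        Alg.App.restart hv ht0 (by nlinarith)
      obtain ⟨v', hv', hvv'⟩ := hsol_scale hm hh hw hχ hκ
      have hκ0 : κ ≠ 0 := by
        rintro rfl
        rw [norm_zero, zero_pow (by omega), zero_mul] at hκ
        exact zero_ne_one hκ
      have hχ0 : ∀ k, χ k ≠ 0 := fun k h0 => by
        have h1 := hχ.1 k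
        rw [h0, norm_zero] at h1
        exact zero_ne_one h1
      have h0 : ∀ k, v' 0 k = u 0 k := by
        intro k
        have h1 := hvv' 0 k
        simp only [mul_zero, add_zero] at h1
        rw [hvt k] at h1
        rw [hu0 k]
        exact (mul_left_cancel₀ (mul_ne_zero hκ0 (hχ0 k)) h1).symm
      have h1 := hsol_unique hv' hu h0 t₁ ⟨ht₁0, le_rfl⟩
      refine ⟨t + h ^ 2 * t₁, h', κ * κ₁, fun k => χ k * χ₁ k, c₁, by positivity, ?_, hh', ?_,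
        ⟨fun k => ?_, fun i k => ?_⟩, ?_, fun k => ?_, hc₁⟩
      · have h2 : h' ^ 2 ≤ (h / 2) ^ 2 := pow_le_pow_left₀ hh'.le hh'le 2
        nlinarith
      · rw [pow_succ]; linarith
      · rw [norm_mul, hχ.1, hχ₁.1, one_mul]
      · simp only [hχ.2, hχ₁.2]; ring
      · rw [norm_mul, mul_pow, mul_assoc, hκ₁, hκ]
      · rw [hvv' t₁ k, h1 k, hut k]; ring
  obtain ⟨D, hD⟩ : ∃ D : ℝ, D = (B / (‖P.Θ 0‖ - r)) ^ (2 * m) := ⟨_, rfl⟩
  have hD0 : 0 ≤ D := by rw [hD, pow_mul]; positivity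
  obtain ⟨j, hj⟩ := exists_pow_lt_of_lt_one (x := 1 / (D + 1)) (y := (1 : ℝ) / 2)
    (by positivity) (by norm_num)
  obtain ⟨t, h, κ, χ, c', ht0, ht1, hh, hhj, hχ, hκ, hvt, hc'⟩ := key j
  have hlow := TIterAux_low F hl hl1 hh hc'
  have hBt := hB t ⟨ht0, by nlinarith [sq_nonneg h]⟩
  have hnorm : ‖v t‖ = ‖κ‖ * nw Measure.count (wZ 0 0) c' := by
    rw [norm_eq_nw, nw_count, nw_count, ← tsum_mul_left]
    refine tsum_congr fun k => ?_
    rw [hvt k, norm_mul, norm_mul, hχ.1 k]; ring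
  have hgap : 0 < ‖P.Θ 0‖ - r := by linarith
  have hκle : ‖κ‖ ≤ B / (‖P.Θ 0‖ - r) := by
    rw [le_div_iff₀ hgap]
    have h1 := mul_le_mul_of_nonneg_left hlow (norm_nonneg κ)
    linarith
  have hκD : ‖κ‖ ^ (2 * m) ≤ D := by
    rw [hD]; exact pow_le_pow_left₀ (norm_nonneg _) hκle _
  have hpow0 : (0 : ℝ) < (1 / 2) ^ j := by positivity
  have hpow : ((1 : ℝ) / 2) ^ j ≤ 1 := pow_le_one₀ (by norm_num) (by norm_num)
  have hh1 : h ≤ (1 / 2) ^ j := hhj.trans (by nlinarith)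
  have hh2 : h ^ 2 < 1 / (D + 1) := by nlinarith
  rw [lt_div_iff₀ (by positivity)] at hh2
  have h3 : ‖κ‖ ^ (2 * m) * h ^ 2 ≤ D * h ^ 2 := mul_le_mul_of_nonneg_right hκD (sq_nonneg h)
  nlinarith [sq_nonneg h]

end P139
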