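import Vale.Agent.P139.LGen
import Vale.Agent.P139.TQ

/-! P139 T: differentiability of the symmetry orbit. -/

open Complex Set Filter Topology MeasureTheory
open scoped ComplexConjugate Laplacian

noncomputable section
namespace P139

variable {m : ℕ} {P : Prof m}

theorem TMODAux_exp2 (u : ℝ) : ‖cexp (I * u) - 1 - I * u‖ ≤ 3 * u ^ 2 := by
  have h1 : ‖I * (u : ℂ)‖ = |u| := by simp
  by_cases h : |u| ≤ 1
  · have h2 := Complex.norm_exp_sub_one_sub_id_le (x := I * u) (by rw [h1]; exact h)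
    rw [h1, sq_abs] at h2
    nlinarith [sq_nonneg u]
  · have h2 : ‖cexp (I * u)‖ = 1 := by rw [mul_comm, norm_exp_ofReal_mul_I]
    have h3 := norm_sub_le (cexp (I * u) - 1) (I * u)
    have h4 := norm_sub_le (cexp (I * u)) 1
    rw [h2, norm_one] at h4
    rw [h1] at h3
    have h5 := sq_abs u
    have h6 : 1 < |u| := not_le.1 h
    nlinarith

theorem TMODAux_px {r : ℝ} {p : Md14 → ℝ} (hp : ∀ i, |p i| ≤ r) : ‖px p‖ ≤ 4 * r := by
  have h0 : 0 ≤ r := (abs_nonneg _).trans (hp none)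
  refine le_of_sq_le_sq ?_ (by positivity)
  rw [EuclideanSpace.real_norm_sq_eq]
  have h1 : ∑ j : Fin 12, (px p j) ^ 2 ≤ ∑ _j : Fin 12, r ^ 2 :=
    Finset.sum_le_sum fun j _ => by
      rw [← sq_abs]
      exact pow_le_pow_left₀ (abs_nonneg _) (hp _) 2
  simp only [Finset.sum_const, Finset.card_univ, Fintype.card_fin, nsmul_eq_mul] at h1
  push_cast at h1
  nlinarith [sq_nonneg r]

theorem TMODAux_u {r : ℝ} {p : Md14 → ℝ} (hp : ∀ i, |p i| ≤ r) (ξ : E) :
    |p none + inner ℝ ξ (px p)| ≤ 4 * r * (1 + ‖ξ‖) := by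
  have h0 : 0 ≤ r := (abs_nonneg _).trans (hp none)
  have h1 := abs_add_le (p none) (inner ℝ ξ (px p))
  have h2 := abs_real_inner_le_norm ξ (px p)
  have h3 := mul_le_mul_of_nonneg_left (TMODAux_px hp) (norm_nonneg ξ)
  have h4 := hp none
  nlinarith

theorem TMODAux_z0 (F : FD P) : F.z none =ᵐ[volume] fun ξ => I * F.q ξ :=
  syn_inj (F.memz 0 none).integrable ((F.memq 0).integrable.const_mul I) fun y => by
    rw [F.synz, syn_const_mul, F.synq]
    rfl

theorem TMODAux_zj (F : FD P) (j : Fin 12) :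
    F.z (some (some j)) =ᵐ[volume] fun ξ => I * (ξ j : ℝ) * F.q ξ := by
  have h1 : MemW volume (wR 0 1) fun ξ : E => I * (ξ j : ℝ) * F.q ξ := by
    refine ((F.memq 1).of_le (C := 1) (AEStronglyMeasurable.mul (by fun_prop) (F.memq 1).1)
      (Eventually.of_forall fun ξ => ?_)).1
    have h2 : ‖I * (ξ j : ℝ) * F.q ξ‖ = ‖ξ j‖ * ‖F.q ξ‖ := by simp
    have h3 := PiLp.norm_apply_le ξ j
    rw [Pi.mul_apply, h2]
    simp only [wR, abs_one, one_mul, pow_zero, pow_one]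
    nlinarith [norm_nonneg (F.q ξ)]
  refine syn_inj (F.memz 0 _).integrable h1.integrable fun y => ?_
  rw [F.synz]
  change fderiv ℝ P.Q y (EuclideanSpace.single j 1) = _
  rw [← funext F.synq, fderiv_syn (F.memq 1)]
  simp [EuclideanSpace.inner_single_right]

theorem TMODAux_sum (F : FD P) (p : Md14 → ℝ) : ∀ᵐ ξ : E, ∑ i, (p i : ℂ) * F.z i ξ
    = I * (p none + inner ℝ ξ (px p) : ℝ) * F.q ξ + p (some none) * F.z (some none) ξ := by
  filter_upwards [TMODAux_z0 F, ae_all_iff.2 (TMODAux_zj F)] with ξ h0 h1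
  have h2 : inner ℝ ξ (px p) = ∑ j, p (some (some j)) * ξ j := by
    simp [PiLp.inner_apply, px]
  have h3 : ∑ j, (p (some (some j)) : ℂ) * F.z (some (some j)) ξ
      = I * (inner ℝ ξ (px p) : ℝ) * F.q ξ := by
    rw [h2]
    push_cast
    rw [Finset.mul_sum, Finset.sum_mul]
    refine Finset.sum_congr rfl fun j _ => ?_
    rw [h1 j]
    ring
  rw [Fintype.sum_option, Fintype.sum_option, h0, h3]
  push_cast
  ring

theorem TMODAux_time (F : FD P) (K : ℕ) {ε : ℝ} (hε : 0 < ε) : ∃ δ : ℝ, 0 < δ ∧ ∀ s : ℝ,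
    |s| < δ → ‖P.Dinv K (-s) (F.qW K 1 0) - F.qW K 1 0 - (s : ℂ) • F.zW K 1 (some none)‖
      ≤ ε * |s| := by
  have hs : syn (F.qW K 1 0) = P.Q := funext (syn_qW0 K F)
  have hd := Dinv_hasDerivAt P (x := F.qW K 1 0) (x₁ := F.zW K 1 (some none))
    (by rw [hs]; exact tq_differentiable P) (fun y => by rw [hs, syn_zW]; rfl) 0
  obtain ⟨δ, hδ, h⟩ := Metric.eventually_nhds_iff.1 (hd.isLittleO.def hε)
  refine ⟨δ, hδ, fun s hs => ?_⟩
  have h1 := h (y := -s) (by simpa using hs)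
  simp only [Dinv_zero, sub_zero, smul_neg, neg_smul, neg_neg, norm_neg, Real.norm_eq_abs] at h1
  rwa [← algebraMap_smul ℂ s, Complex.coe_algebraMap] at h1

theorem stMOD (F : FD P) : StMOD F := by
  intro K ε hε
  obtain ⟨δ, hδ, hδ'⟩ := TMODAux_time F K (half_pos hε)
  set A := nw volume (wR (K + 1) 1) (F.z (some none)) with hA
  set B := nw volume (wR (K + 2) 1) F.q with hB
  have hA0 : 0 ≤ A := nw_nonneg
  have hB0 : 0 ≤ B := nw_nonneg
  refine ⟨min (δ / 2) (ε / 2 / (4 * A + 48 * B + 1)), by positivity, fun r p hr hp => ?_⟩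
  have h0 : 0 ≤ r := (abs_nonneg _).trans (hp none)
  have hr1 : r < δ := by linarith [min_le_left (δ / 2) (ε / 2 / (4 * A + 48 * B + 1))]
  have hr2 : r * (4 * A + 48 * B + 1) ≤ ε / 2 :=
    (le_div_iff₀ (by positivity)).1 (hr.trans (min_le_right _ _))
  set s := p (some none) with hs
  set u : E → ℝ := fun ξ => p none + inner ℝ ξ (px p) with hu
  have hub : ∀ ξ, |u ξ| ≤ 4 * r * (1 + ‖ξ‖) := TMODAux_u hp
  have huc : Continuous u := by fun_prop
  set W : XR K 1 := P.Dinv K (-s) (F.qW K 1 0) - F.qW K 1 0 - (s : ℂ) • F.zW K 1 (some none)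
    with hW
  have hW1 : ‖W‖ ≤ ε / 2 * r :=
    (hδ' s ((hp _).trans_lt hr1)).trans (mul_le_mul_of_nonneg_left (hp _) (half_pos hε).le)
  have hq : (F.qW K 1 0 : E → ℂ) =ᵐ[volume] F.q := by
    rw [qW_zero]
    exact toW_coe (F.memq K)
  have hT1 := (memW_coe W).of_le (ω₂ := wR K 1) (g := fun ξ => cexp (I * u ξ) * W ξ) (C := 1)
    (AEStronglyMeasurable.mul (by fun_prop) (memW_coe W).1) (Eventually.of_forall fun ξ => by
      rw [norm_mul, mul_comm I, norm_exp_ofReal_mul_I, one_mul, one_mul])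
  have hT2 := (F.memz (K + 1) (some none)).of_le (ω₂ := wR K 1)
    (g := fun ξ => (cexp (I * u ξ) - 1) * s * F.z (some none) ξ) (C := 4 * r ^ 2)
    (AEStronglyMeasurable.mul (by fun_prop) (F.memz K _).1) (Eventually.of_forall fun ξ => by
      have h1 : ‖cexp (I * u ξ) - 1‖ ≤ 4 * r * (1 + ‖ξ‖) :=
        Real.norm_exp_I_mul_ofReal_sub_one_le.trans (hub ξ)
      have h2 : ‖(s : ℂ)‖ ≤ r := by simpa using hp (some none)
      simp only [wR, abs_one, one_mul, norm_mul]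
      calc _ ≤ (1 + ‖ξ‖) ^ K * (4 * r * (1 + ‖ξ‖) * r * ‖F.z (some none) ξ‖) := by gcongr
        _ = _ := by ring)
  have hT3 := (F.memq (K + 2)).of_le (ω₂ := wR K 1)
    (g := fun ξ => (cexp (I * u ξ) - 1 - I * u ξ) * F.q ξ) (C := 48 * r ^ 2)
    (AEStronglyMeasurable.mul (by fun_prop) (F.memq K).1) (Eventually.of_forall fun ξ => by
      have h1 : ‖cexp (I * u ξ) - 1 - I * u ξ‖ ≤ 3 * (4 * r * (1 + ‖ξ‖)) ^ 2 := by
        refine (TMODAux_exp2 _).trans ?_
        rw [← sq_abs]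
        gcongr
        exact hub ξ
      simp only [wR, abs_one, one_mul, norm_mul]
      calc _ ≤ (1 + ‖ξ‖) ^ K * (3 * (4 * r * (1 + ‖ξ‖)) ^ 2 * ‖F.q ξ‖) := by gcongr
        _ = _ := by ring)
  have he : (fun ξ => F.Gp p ξ - F.q ξ - ∑ i, (p i : ℂ) * F.z i ξ) =ᵐ[volume] fun ξ =>
      (cexp (I * u ξ) * W ξ + (cexp (I * u ξ) - 1) * s * F.z (some none) ξ)
        + (cexp (I * u ξ) - 1 - I * u ξ) * F.q ξ := by
    filter_upwards [TMODAux_sum F p, XW_sub (P.Dinv K (-s) (F.qW K 1 0) - F.qW K 1 0)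
      ((s : ℂ) • F.zW K 1 (some none)), XW_sub (P.Dinv K (-s) (F.qW K 1 0)) (F.qW K 1 0),
      XW_smul (s : ℂ) (F.zW K 1 (some none)), Dinv_coe P K (-s) (F.qW K 1 0),
      dilF_congr (Real.exp_pos (-s / 2)) hq, hq, toW_coe (F.memz K (some none))]
      with ξ h1 h2 h3 h4 h5 h6 h7 h8
    have h9 : F.Gp p ξ = cexp (I * u ξ) * (cexp (-P.aa * (-s : ℝ))
        * dilF (Real.exp (-s / 2)) F.q ξ) := by
      simp only [FD.Gp, chR, hu, ← mul_assoc, ← Complex.exp_add]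
      congr 2
      push_cast
      ring
    rw [h1, hW, h2, h3, h4, h5, h6, h7, FD.zW, h8, h9]
    ring
  rw [nw_congr he]
  have h1 := nw_add_le (hT1.1.add hT2.1) hT3.1
  have h2 := nw_add_le hT1.1 hT2.1
  have h3 := hT1.2
  rw [← norm_eq_nw, one_mul] at h3
  have h4 := hT2.2
  have h5 := hT3.2
  rw [← hA] at h4
  rw [← hB] at h5
  have h6 := mul_le_mul_of_nonneg_left hr2 h0
  nlinarith [sq_nonneg r]

end P139
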