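import Vale.Agent.P139.LGen
import Vale.Agent.P139.TQ

/-! P139 T: the self-similar solution is a mild solution. -/

open Complex Set Filter Topology MeasureTheory
open scoped ComplexConjugate Laplacian

noncomputable section
namespace P139

variable {m : ℕ} {P : Prof m}

theorem TQSAux_mem (F : FD P) (K : ℕ) {t : ℝ} (ht : t < 1) : MemW volume (wR K 1) (F.qt t) :=
  ((F.memq K).dil_same (Real.sqrt_pos.2 (by linarith))).1.const_mul _

theorem TQSAux_eq (F : FD P) (K : ℕ) {t : ℝ} (ht : t < 1) :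
    F.qW K 1 t = P.Dinv K (Real.log (1 - t)) (F.qW K 1 0) := by
  have h := qW_eq K F (-Real.log (1 - t))
  rw [neg_neg, Real.exp_log (by linarith), sub_sub_cancel] at h
  exact h

theorem TQSAux_smul (K : ℕ) (c : ℂ) (x : XR K 1) (y : E) : syn (c • x : XR K 1) y = c * syn x y := by
  rw [← evS_apply, map_smul, evS_apply, smul_eq_mul]

theorem TQSAux_add (K : ℕ) (x x' : XR K 1) (y : E) :
    syn (x + x' : XR K 1) y = syn x y + syn x' y := by
  rw [← evS_apply, map_add, evS_apply, evS_apply]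

/-- the profile equation in `XR K 1` -/
theorem TQSAux_x1 (F : FD P) (K : ℕ) : F.zW K 1 (some none)
    = toW volume (wR K 1) (fun ξ => -I * (‖ξ‖ ^ 2 : ℝ) * F.q ξ)
      + (-I) • (algR K 1).N m (F.qW K 1 0) := by
  refine XW_syn_ext fun y => ?_
  have hq : syn F.q = P.Q := funext F.synq
  rw [TQSAux_add, TQSAux_smul, syn_nsq (F.memq (K + 2)), syn_N, syn_qW0, syn_zW, hq,
    ← tq_pde P y]
  simp only [Prof.zm]
  ring

theorem TQSAux_g (F : FD P) (K : ℕ) {t : ℝ} (ht : t < 1) :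
    toW volume (wR K 1) (fun ξ => -I * (‖ξ‖ ^ 2 : ℝ) * F.qt t ξ)
      = (((1 - t)⁻¹ : ℝ) : ℂ) • P.Dinv K (Real.log (1 - t))
        (toW volume (wR K 1) fun ξ => -I * (‖ξ‖ ^ 2 : ℝ) * F.q ξ) := by
  have h1 : 0 < 1 - t := by linarith
  have hs : Real.exp (Real.log (1 - t) / 2) = √(1 - t) := by
    rw [Real.sqrt_eq_rpow, Real.rpow_def_of_pos h1]; congr 1; ring
  have hσ : 0 < √(1 - t) := Real.sqrt_pos.2 h1
  refine (eq_toW ?_).symm
  have h2 := Dinv_coe P K (Real.log (1 - t))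
    (toW volume (wR K 1) fun ξ => -I * (‖ξ‖ ^ 2 : ℝ) * F.q ξ)
  rw [hs] at h2
  filter_upwards [XW_smul (((1 - t)⁻¹ : ℝ) : ℂ) (P.Dinv K (Real.log (1 - t))
    (toW volume (wR K 1) fun ξ => -I * (‖ξ‖ ^ 2 : ℝ) * F.q ξ)), h2,
    dilF_congr hσ (toW_coe (memW_nsq (F.memq (K + 2))))] with ξ a b c
  rw [a, b, c]
  simp only [FD.qt, dilF]
  have h3 : ‖√(1 - t) • ξ‖ ^ 2 = (1 - t) * ‖ξ‖ ^ 2 := by
    rw [norm_smul, mul_pow, Real.norm_eq_abs, sq_abs, Real.sq_sqrt h1.le]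
  have h4 : ((1 - t : ℝ) : ℂ) ≠ 0 := by exact_mod_cast h1.ne'
  rw [h3, Complex.ofReal_mul, Complex.ofReal_inv]
  field_simp

theorem TQSAux_N (hm : 1 ≤ m) (K : ℕ) (τ : ℝ) (x : XR K 1) :
    (algR K 1).N m (P.Dinv K τ x) = (Real.exp (-τ) : ℂ) • P.Dinv K τ ((algR K 1).N m x) := by
  refine XW_syn_ext fun y => ?_
  rw [TQSAux_smul, syn_N, syn_Dinv, syn_Dinv, syn_N]
  have hm' : (m : ℂ) ≠ 0 := by exact_mod_cast (by omega : m ≠ 0)
  have h1 : (cexp (-P.aa * τ) * conj (cexp (-P.aa * τ))) ^ m = (Real.exp (-τ) : ℂ) := by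
    rw [← Complex.exp_conj, ← Complex.exp_add, ← Complex.exp_nat_mul, Complex.ofReal_exp]
    congr 1
    simp only [Prof.aa, gam, map_mul, map_neg, map_sub, conj_ofReal, conj_I]
    push_cast
    field_simp
    ring
  rw [← h1, map_mul, mul_mul_mul_comm, mul_pow]
  ring

theorem stQS (hm : 1 ≤ m) (F : FD P) : StQS F := by
  intro K t₁ ht₁
  have hd : ∀ t : ℝ, t < 1 → HasDerivAt (F.qW K 1)
      (toW volume (wR K 1) (fun ξ => -I * (‖ξ‖ ^ 2 : ℝ) * F.qt t ξ)
        + (algR K 1).FN m t (F.qW K 1 t)) t := by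
    intro t ht
    have h1 : 0 < 1 - t := by linarith
    have hq : syn (F.qW K 1 0) = P.Q := funext (syn_qW0 K F)
    have h2 := Dinv_hasDerivAt (P := P) (x := F.qW K 1 0) (x₁ := F.zW K 1 (some none))
      (by rw [hq]; exact tq_differentiable P)
      (fun y => by rw [hq, syn_zW]; rfl) (Real.log (1 - t))
    have h3 : HasDerivAt (fun t : ℝ => Real.log (1 - t)) (-(1 - t)⁻¹) t := by
      have := ((hasDerivAt_id t).const_sub 1).log h1.ne'
      simpa [neg_div] using this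
    have h4 := h2.scomp t h3
    have h5 : F.qW K 1 =ᶠ[𝓝 t]
        ((fun τ => P.Dinv K τ (F.qW K 1 0)) ∘ fun t : ℝ => Real.log (1 - t)) := by
      filter_upwards [Iio_mem_nhds ht] with s hs using TQSAux_eq F K hs
    refine (h4.congr_of_eventuallyEq h5).congr_deriv ?_
    rw [neg_smul_neg, ← algebraMap_smul ℂ, TQSAux_g F K ht, Alg.FN, TQSAux_eq F K ht,
      TQSAux_N hm, TQSAux_x1 F K, Real.exp_neg, Real.exp_log h1, map_add, map_smul, smul_add,
      smul_comm (-I)]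
    rfl
  have hc : ContinuousOn (F.qW K 1) (Icc 0 t₁) := fun s hs =>
    (hd s (hs.2.trans_lt ht₁)).continuousAt.continuousWithinAt
  refine ⟨hc, (algR K 1).duh_of_deriv
    (g := fun t => toW volume (wR K 1) fun ξ => -I * (‖ξ‖ ^ 2 : ℝ) * F.qt t ξ) ?_
    (fun s hs => (hd s (hs.2.trans_lt ht₁)).hasDerivWithinAt)
    (fun s hs => U_hasDerivAt (TQSAux_mem F (K + 2) (hs.2.trans_lt ht₁)))⟩
  exact (((algR K 1).N_cont m).comp_continuousOn hc).const_smul (-I)

end P139
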