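import Vale.Agent.P139.TStep
import Vale.Agent.P139.TIter
import Vale.Agent.P139.TQS
import Vale.Agent.P139.TMOD
import Vale.Agent.P139.LMain
import Vale.Agent.P139.SWC

/-! P139: parts L and T together. -/

noncomputable section
namespace P139

theorem partLT2 : PartLT2 := by
  intro m P hm hS
  obtain ⟨F⟩ := sw_FD P hm
  exact iter F hm (stStep F hm (linOut hm F hS) (stQS hm F) (stMOD F))

end P139
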