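import Vale.Agent.P139.TQt

/-! P139 T: re-modulation on the lattice. -/

open Complex Set Filter Topology MeasureTheory
open scoped ComplexConjugate

noncomputable section
namespace P139

variable {m : ℕ} {P : Prof m}

theorem TModAux_exp {x : ℝ} (hx : x ≤ 1 / 2) : Real.exp x ≤ 2 := by
  have h1 := Real.add_one_le_exp (-x)
  have h2 : Real.exp x * Real.exp (-x) = 1 := by rw [← Real.exp_add]; simp
  have h3 := Real.exp_pos x
  nlinarith

theorem TModAux_nch (x ξ : E) : ‖chR x ξ‖ = 1 := Complex.norm_exp_I_mul_ofReal _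

theorem TModAux_chadd (x ξ ζ : E) : chR x (ξ + ζ) = chR x ξ * chR x ζ := by
  simp only [chR, inner_add_left, ← Complex.exp_add]
  push_cast
  rw [mul_add]

theorem TModAux_chlip (x ξ ζ : E) : ‖chR x ξ - chR x ζ‖ ≤ ‖x‖ * ‖ξ - ζ‖ := by
  have e : chR x ξ - chR x ζ = chR x ζ * (chR x (ξ - ζ) - 1) := by
    rw [mul_sub, ← TModAux_chadd, add_sub_cancel, mul_one]
  rw [e, norm_mul, TModAux_nch, one_mul, mul_comm]
  exact (Real.norm_exp_I_mul_ofReal_sub_one_le).trans (norm_inner_le_norm (𝕜 := ℝ) _ _)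

theorem TModAux_chm (x : E) : AEStronglyMeasurable (chR x) volume :=
  (show Continuous (chR x) by unfold chR; fun_prop).aestronglyMeasurable

theorem TModAux_px {p : Md14 → ℝ} {r : ℝ} (hp : ∀ i, |p i| ≤ r) : ‖px p‖ ≤ 4 * r := by
  have hr : 0 ≤ r := (abs_nonneg _).trans (hp none)
  refine (abs_le_of_sq_le_sq' ?_ (by positivity)).2
  rw [EuclideanSpace.real_norm_sq_eq]
  have h : ∑ j, (px p j) ^ 2 ≤ ∑ _j : Fin 12, r ^ 2 :=
    Finset.sum_le_sum fun j _ => sq_le_sq' (abs_le.1 (hp (some (some j)))).1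
      (abs_le.1 (hp (some (some j)))).2
  simp only [Finset.sum_const, Finset.card_univ, Fintype.card_fin, nsmul_eq_mul] at h
  push_cast at h
  nlinarith [sq_nonneg r]

theorem TModAux_cell {J K : ℕ} (hJ : J ≤ K) {l h : ℝ} (hl : 0 < l) (hl1 : l ≤ 1) (hh : 0 < h)
    (hh1 : h ≤ 1) (k : Z12) (ξ : E) (hξ : ξ ∈ cell h k) :
    (wZ J (l * h)).w k ≤ 3 ^ K * (wR K 1).w ξ := by
  refine (cell_wZ hh hξ).trans (mul_le_mul ?_ (wR_mono hJ ?_ ξ) ((wR J l).pos ξ).le
    (by positivity))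
  · rw [abs_of_pos hl]
    refine (pow_le_pow_left₀ (by positivity) (show 1 + 2 * l * h ≤ 3 by nlinarith) J).trans
      (pow_le_pow_right₀ (by norm_num) hJ)
  · rw [abs_of_pos hl, abs_one]; exact hl1

theorem TModAux_nsum {G ι : Type} [AddCommGroup G] [MeasurableSpace G] {μ : Measure G}
    {ω : Wt G} (s : Finset ι) {F : ι → G → ℂ} (h : ∀ i ∈ s, MemW μ ω (F i)) :
    nw μ ω (fun x => ∑ i ∈ s, F i x) ≤ ∑ i ∈ s, nw μ ω (F i) := by
  unfold nw
  rw [← integral_finsetSum s fun i hi => (h i hi).2]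
  refine integral_mono (MemW.sum s h).2 (integrable_finsetSum s fun i hi => (h i hi).2)
    fun x => ?_
  simp only
  rw [← Finset.mul_sum]
  exact mul_le_mul_of_nonneg_left (norm_sum_le _ _) (ω.pos x).le

/-- division by a nearly unimodular factor and change of mesh -/
theorem TModAux_div (J : ℕ) {a a' : ℝ} (ha : 0 ≤ a) (ha' : 0 ≤ a') (haa : a' ≤ 2 * a)
    {u g : Z12 → ℂ} (hu : ∀ k, ‖u k‖ ≤ 2) (hg : MemW Measure.count (wZ J a) g) :
    MemW Measure.count (wZ J a') (fun k => u k * g k) ∧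
      nw Measure.count (wZ J a') (fun k => u k * g k)
        ≤ 2 ^ (J + 1) * nw Measure.count (wZ J a) g := by
  refine hg.of_le (measurable_of_countable _).aestronglyMeasurable
    (Eventually.of_forall fun k => ?_)
  have h1 : (wZ J a').w k ≤ 2 ^ J * (wZ J a).w k :=
    wR_le J one_le_two (by rwa [abs_of_nonneg ha, abs_of_nonneg ha']) (emb k)
  rw [norm_mul]
  calc (wZ J a').w k * (‖u k‖ * ‖g k‖) ≤ 2 ^ J * (wZ J a).w k * (2 * ‖g k‖) :=
        mul_le_mul h1 (mul_le_mul_of_nonneg_right (hu k) (norm_nonneg _)) (by positivity)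
          (mul_nonneg (by positivity) ((wZ J a).pos k).le)
    _ = _ := by ring

theorem TModAux_core (F : FD P) {J K : ℕ} (hJ : J ≤ K) {l h r η σ : ℝ} {p : Md14 → ℝ}
    {d : Z12 → ℂ} {κ : ℂ} (hl : 0 < l) (hl1 : l ≤ 1) (hh : 0 < h) (hh1 : h ≤ 1)
    (hp : ∀ i, |p i| ≤ r) (hσ : 0 < σ) (hσ2 : σ⁻¹ ≤ 2) (hκ : ‖κ‖ ≤ 2)
    (hG : ∀ ξ, F.Gp p ξ = κ * (chR (px p) ξ * dilF σ F.q ξ))
    (hM : nw volume (wR K 1) (fun ξ => F.Gp p ξ - F.q ξ - ∑ i, (p i : ℂ) * F.z i ξ) ≤ η)
    (hd : MemW Measure.count (wZ J (l * h)) d) :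
    MemW Measure.count (wZ J (l * h))
        (fun k => d k - κ * chR (px p) (h • emb k) * perF h (dilF σ F.q) k) ∧
      nw Measure.count (wZ J (l * h))
        (fun k => d k - κ * chR (px p) (h • emb k) * perF h (dilF σ F.q) k)
      ≤ nw Measure.count (wZ J (l * h))
          (fun k => d k - perF h F.q k - ∑ i, (p i : ℂ) * perF h (F.z i) k) + 3 ^ K * η
        + 16 * 3 ^ K * 2 ^ K * nw volume (wR K 1) F.q * (h * r) := by
  have hr : 0 ≤ r := (abs_nonneg _).trans (hp none)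
  have hc := TModAux_cell hJ hl hl1 hh hh1
  have hq := F.memq K
  have hz := F.memz K
  have hD := hq.dil_same hσ
  have hD2 : nw volume (wR K 1) (dilF σ F.q) ≤ 2 ^ K * nw volume (wR K 1) F.q :=
    hD.2.trans (mul_le_mul_of_nonneg_right
      (pow_le_pow_left₀ (by positivity) (max_le one_le_two hσ2) K) nw_nonneg)
  have hch : MemW volume (wR K 1) fun ξ => chR (px p) ξ * dilF σ F.q ξ :=
    (hD.1.of_le (C := 1) ((TModAux_chm _).mul hD.1.1) (Eventually.of_forall fun ξ => by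
      simp only [Pi.mul_apply, norm_mul, TModAux_nch, one_mul, le_refl])).1
  have hGm : MemW volume (wR K 1) (F.Gp p) := by
    rw [funext hG]; exact hch.const_mul κ
  have hS : MemW volume (wR K 1) fun ξ => ∑ i, (p i : ℂ) * F.z i ξ :=
    MemW.sum _ fun i _ => (hz i).const_mul _
  have m1 : MemW Measure.count (wZ J (l * h))
      fun k => d k - perF h F.q k - ∑ i, (p i : ℂ) * perF h (F.z i) k :=
    (hd.sub (hq.per hc).1).sub (MemW.sum _ fun i _ => ((hz i).per hc).1.const_mul _)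
  have m2 := ((hGm.sub hq).sub hS).per hc
  have m3 := per_comm (h := h) (ω₂ := wZ J (l * h)) (ψ := fun k => chR (px p) (h • emb k))
    (η := 8 * (h * r) * 3 ^ K) (TModAux_chm (px p)) (fun ξ => (TModAux_nch _ ξ).le)
    (fun k ξ hξ => by
      have h1 := (TModAux_chlip (px p) ξ (h • emb k)).trans (mul_le_mul (TModAux_px hp)
        (norm_sub_cell hh hξ) (norm_nonneg _) (by positivity))
      calc _ ≤ 4 * r * (2 * h) * (3 ^ K * (wR K 1).w ξ) :=
            mul_le_mul h1 (hc k ξ hξ) ((wZ J (l * h)).pos k).le (by positivity)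
        _ = _ := by ring) hD.1
  have e : (fun k => d k - κ * chR (px p) (h • emb k) * perF h (dilF σ F.q) k) = fun k =>
      (d k - perF h F.q k - ∑ i, (p i : ℂ) * perF h (F.z i) k
        - perF h (fun ξ => F.Gp p ξ - F.q ξ - ∑ i, (p i : ℂ) * F.z i ξ) k)
      + κ * (perF h (fun ξ => chR (px p) ξ * dilF σ F.q ξ) k
        - chR (px p) (h • emb k) * perF h (dilF σ F.q) k) := by
    funext k
    rw [perF_sub (hGm.sub hq).integrable hS.integrable, perF_sub hGm.integrable hq.integrable,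
      perF_sum _ fun i _ => ((hz i).const_mul _).integrable, funext hG, perF_const_mul]
    simp only [perF_const_mul]
    ring
  rw [e]
  refine ⟨(m1.sub m2.1).add (m3.1.const_mul κ), ?_⟩
  refine (nw_add_le (m1.sub m2.1) (m3.1.const_mul κ)).trans (add_le_add
    ((nw_sub_le m1 m2.1).trans (add_le_add le_rfl
      (m2.2.trans (mul_le_mul_of_nonneg_left hM (by positivity))))) ?_)
  rw [nw_const_mul]
  calc _ ≤ 2 * (8 * (h * r) * 3 ^ K * (2 ^ K * nw volume (wR K 1) F.q)) :=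
        mul_le_mul hκ (m3.2.trans (mul_le_mul_of_nonneg_left hD2 (by positivity))) nw_nonneg
          (by norm_num)
    _ = _ := by ring

theorem remod (F : FD P) (hm : 1 ≤ m) (hMOD : StMOD F) (K : ℕ) : ∃ C : ℝ, 1 ≤ C ∧
    ∀ ε : ℝ, 0 < ε → ∃ ρ : ℝ, 0 < ρ ∧ ∀ (l h r : ℝ) (p : Md14 → ℝ) (d : Z12 → ℂ),
      0 < l → l ≤ 1 → 0 < h → h ≤ 1 → r ≤ ρ → (∀ i, |p i| ≤ r) →
      MemW Measure.count (wZ (K + 1) (l * h)) d →
      ∃ (h' : ℝ) (κ : ℂ) (χ c' : Z12 → ℂ), 0 < h' ∧ h' ≤ 2 * h ∧ IsChar χ ∧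
        ‖κ‖ ^ (2 * m) * h' ^ 2 = h ^ 2 ∧ (∀ k, d k = κ * χ k * c' k) ∧
        MemW Measure.count (wZ (K + 1) (l * h')) c' ∧
        nw Measure.count (wZ K h') (fun k => c' k - perF h' F.q k)
          ≤ C * (nw Measure.count (wZ K h)
              (fun k => d k - perF h F.q k - ∑ i, (p i : ℂ) * perF h (F.z i) k) + ε * r + h * r) ∧
        nw Measure.count (wZ (K + 1) (l * h')) (fun k => c' k - perF h' F.q k)
          ≤ 2 ^ (K + 2) * nw Measure.count (wZ (K + 1) (l * h)) (fun k => d k - perF h F.q k)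
            + C * r := by
  obtain ⟨A, hA⟩ : ∃ A : ℝ, A = 3 ^ (K + 1) := ⟨_, rfl⟩
  obtain ⟨B, hB⟩ : ∃ B : ℝ,
    B = 16 * 3 ^ (K + 1) * 2 ^ (K + 1) * nw volume (wR (K + 1) 1) F.q := ⟨_, rfl⟩
  obtain ⟨Z, hZ⟩ : ∃ Z : ℝ, Z = ∑ i, 3 ^ (K + 1) * nw volume (wR (K + 1) 1) (F.z i) := ⟨_, rfl⟩
  have hA0 : 0 ≤ A := by rw [hA]; positivity
  have hB0 : 0 ≤ B := by rw [hB]; exact mul_nonneg (by positivity) nw_nonneg
  have hZ0 : 0 ≤ Z := by
    rw [hZ]; exact Finset.sum_nonneg fun i _ => mul_nonneg (by positivity) nw_nonneg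
  have hT : (1 : ℝ) ≤ 2 ^ (K + 2) := one_le_pow₀ one_le_two
  refine ⟨2 ^ (K + 2) * (1 + A + B + Z), by nlinarith, fun ε hε => ?_⟩
  obtain ⟨ρ, hρ, hM⟩ := hMOD (K + 1) (min ε 1) (lt_min hε one_pos)
  refine ⟨min ρ 1, lt_min hρ one_pos, fun l h r p d hl hl1 hh hh1 hr hp hd => ?_⟩
  have hr0 : 0 ≤ r := (abs_nonneg _).trans (hp none)
  have hM' := hM r p (hr.trans (min_le_left _ _)) hp
  have hs := abs_le.1 ((hp (some none)).trans (hr.trans (min_le_right _ _)))
  obtain ⟨s, hs'⟩ : ∃ s, s = p (some none) := ⟨_, rfl⟩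
  obtain ⟨κ, hκ⟩ : ∃ κ, κ = cexp (I * p none + P.aa * s) := ⟨_, rfl⟩
  obtain ⟨σ, hσ⟩ : ∃ σ, σ = Real.exp (-s / 2) := ⟨_, rfl⟩
  rw [← hs'] at hs
  have hG : ∀ ξ, F.Gp p ξ = κ * (chR (px p) ξ * dilF σ F.q ξ) := fun ξ => by
    rw [hκ, hσ, hs']; rfl
  have hm' : (1 : ℝ) ≤ m := by exact_mod_cast hm
  have hg0 : 0 < gam m := by unfold gam; positivity
  have hg1 : gam m ≤ 1 / 2 := one_div_le_one_div_of_le two_pos (by linarith)
  have hn : ‖κ‖ = Real.exp (gam m * s) := by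
    rw [hκ, Complex.norm_exp]
    simp [Prof.aa]
  have hκ2 : ‖κ‖ ≤ 2 := by rw [hn]; exact TModAux_exp (by nlinarith)
  have hκ3 : ‖κ‖⁻¹ ≤ 2 := by rw [hn, ← Real.exp_neg]; exact TModAux_exp (by nlinarith)
  have hκ0 : κ ≠ 0 := by rw [hκ]; exact Complex.exp_ne_zero _
  have hσ0 : 0 < σ := by rw [hσ]; exact Real.exp_pos _
  have hσ1 : σ ≤ 2 := by rw [hσ]; exact TModAux_exp (by linarith)
  have hσ2 : σ⁻¹ ≤ 2 := by rw [hσ, ← Real.exp_neg]; exact TModAux_exp (by linarith)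
  have hχ0 : ∀ k, chR (px p) (h • emb k) ≠ 0 := fun k => Complex.exp_ne_zero _
  have hu : ∀ k, ‖(κ * chR (px p) (h • emb k))⁻¹‖ ≤ 2 := fun k => by
    rw [norm_inv, norm_mul, TModAux_nch, mul_one]; exact hκ3
  have hh' : 0 < h * σ := mul_pos hh hσ0
  have e : (fun k => (κ * chR (px p) (h • emb k))⁻¹ * d k - perF (h * σ) F.q k) = fun k =>
      (κ * chR (px p) (h • emb k))⁻¹ *
        (d k - κ * chR (px p) (h • emb k) * perF h (dilF σ F.q) k) := by
    funext k
    have := hχ0 k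
    rw [perF_dil hh hσ0]
    field_simp
  have hlh : l * (h * σ) ≤ 2 * (l * h) := by nlinarith [mul_pos hl hh]
  refine ⟨h * σ, κ, fun k => chR (px p) (h • emb k),
    fun k => (κ * chR (px p) (h • emb k))⁻¹ * d k, hh', by nlinarith,
    ⟨fun k => TModAux_nch _ _, fun j k => by simp only [emb_add, smul_add, TModAux_chadd]⟩, ?_,
    fun k => by rw [mul_inv_cancel_left₀ (mul_ne_zero hκ0 (hχ0 k))],
    (TModAux_div _ (by positivity) (by positivity) hlh hu hd).1, ?_, ?_⟩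
  · have e1 : ((2 * m : ℕ) : ℝ) * (gam m * s) + ((2 : ℕ) : ℝ) * (-s / 2) = 0 := by
      unfold gam; push_cast; field_simp; ring
    rw [hn, hσ, mul_pow, mul_left_comm, ← Real.exp_nat_mul, ← Real.exp_nat_mul, ← Real.exp_add,
      e1, Real.exp_zero, mul_one]
  · have hd' : MemW Measure.count (wZ K (1 * h)) d :=
      (hd.of_le (C := l⁻¹ ^ K) hd.1 (Eventually.of_forall fun k => by
        rw [← mul_assoc]
        refine mul_le_mul_of_nonneg_right ?_ (norm_nonneg _)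
        refine (wR_le K (l' := l * h) ((one_le_inv₀ hl).2 hl1) ?_ (emb k)).trans
          (mul_le_mul_of_nonneg_left (wR_mono (Nat.le_succ K) le_rfl _) (by positivity))
        rw [abs_of_pos (by positivity), abs_of_pos (by positivity), inv_mul_cancel_left₀ hl.ne',
          one_mul])).1
    have h1 := TModAux_core F (Nat.le_succ K) one_pos le_rfl hh hh1 hp hσ0 hσ2 hκ2 hG hM' hd'
    rw [one_mul, ← hB, ← hA] at h1
    have h2 := (TModAux_div K hh.le hh'.le (by nlinarith) hu h1.1).2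
    rw [e]
    refine h2.trans ?_
    have h3 := h1.2
    have h4 : 0 ≤ nw Measure.count (wZ K h)
      (fun k => d k - perF h F.q k - ∑ i, (p i : ℂ) * perF h (F.z i) k) := nw_nonneg
    generalize nw Measure.count (wZ K h)
      (fun k => d k - perF h F.q k - ∑ i, (p i : ℂ) * perF h (F.z i) k) = X at h3 h4 ⊢
    have h5 : min ε 1 * r ≤ ε * r := mul_le_mul_of_nonneg_right (min_le_left _ _) hr0
    have h6 : 0 ≤ ε * r := by positivity
    have h7 : 0 ≤ h * r := by positivity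
    rw [mul_assoc]
    refine mul_le_mul (pow_le_pow_right₀ one_le_two (by omega)) (h3.trans ?_) nw_nonneg
      (by positivity)
    have h8 := mul_le_mul_of_nonneg_left h5 hA0
    generalize ε * r = a at *
    generalize h * r = b at *
    have : 0 ≤ (A + B + Z) * X + (1 + B + Z) * a + (1 + A + Z) * b := by positivity
    nlinarith
  · have h1 := TModAux_core F le_rfl hl hl1 hh hh1 hp hσ0 hσ2 hκ2 hG hM' hd
    rw [← hB, ← hA] at h1
    have h2 := (TModAux_div (K + 1) (by positivity) (by positivity) hlh hu h1.1).2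
    rw [e]
    refine h2.trans ?_
    have hc := TModAux_cell (le_refl (K + 1)) hl hl1 hh hh1
    have mz := fun i => (F.memz (K + 1) i).per hc
    have h3 := nw_sub_le (hd.sub ((F.memq (K + 1)).per hc).1)
      (MemW.sum Finset.univ fun i _ => (mz i).1.const_mul (p i : ℂ))
    have h4 : nw Measure.count (wZ (K + 1) (l * h))
        (fun k => ∑ i, (p i : ℂ) * perF h (F.z i) k) ≤ r * Z := by
      refine (TModAux_nsum _ fun i _ => (mz i).1.const_mul (p i : ℂ)).trans ?_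
      rw [hZ, Finset.mul_sum]
      refine Finset.sum_le_sum fun i _ => ?_
      rw [nw_const_mul, Complex.norm_real]
      exact mul_le_mul (hp i) (mz i).2 nw_nonneg hr0
    have h5 : A * (min ε 1 * r) ≤ A * (1 * r) :=
      mul_le_mul_of_nonneg_left (mul_le_mul_of_nonneg_right (min_le_right _ _) hr0) hA0
    have h6 : B * (h * r) ≤ B * (1 * r) :=
      mul_le_mul_of_nonneg_left (mul_le_mul_of_nonneg_right hh1 hr0) hB0
    rw [mul_assoc, ← mul_add]
    refine mul_le_mul_of_nonneg_left (h1.2.trans ?_) (by positivity)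
    linarith

end P139
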