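import Vale.Agent.P139.XCut
import Vale.Agent.P139.TTrans

/-! P139: the discretisation pair (`cutOp`, `perOp`). -/

open Complex Set Filter Topology MeasureTheory
open scoped ComplexConjugate

noncomputable section
namespace P139

variable {K : ℕ} {l h δ : ℝ}

/-- translation modulus at the mesh scale -/
def MdX (K : ℕ) (l h : ℝ) (f : XR K l) (δ : ℝ) : Prop :=
  ∀ ζ : E, ‖ζ‖ ≤ 4 * h → ‖shOp volume (wR K l) ζ f - f‖ ≤ δ

/-- averaged modulus -/
def avgM (h : ℝ) (f : E → ℂ) (ξ : E) : ℝ :=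
  ∫ ζ in Metric.closedBall (0 : E) (4 * h), ‖f (ξ - ζ) - f ξ‖

theorem XDiscAux_vol (hh : 0 < h) :
    (volume : Measure E).real (Metric.closedBall 0 (4 * h)) ≤ (8 * h) ^ 12 := by
  have e : Metric.closedBall (0 : E) (4 * h) ⊆ (WithLp.ofLp : E → Fin 12 → ℝ) ⁻¹'
      (Set.pi univ fun _ => Icc (-(4 * h)) (4 * h)) := by
    intro ξ hξ i _
    exact abs_le.1 ((PiLp.norm_apply_le ξ i).trans (mem_closedBall_zero_iff.1 hξ))
  refine ENNReal.toReal_le_of_le_ofReal (by positivity) ((measure_mono e).trans (le_of_eq ?_))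
  rw [(PiLp.volume_preserving_ofLp (Fin 12)).measure_preimage
    (MeasurableSet.univ_pi fun i => measurableSet_Icc).nullMeasurableSet, volume_pi_pi,
    Real.volume_Icc, show 4 * h - -(4 * h) = 8 * h by ring]
  simp only [Finset.prod_const, Finset.card_univ, Fintype.card_fin]
  rw [ENNReal.ofReal_pow (by positivity)]

theorem XDiscAux_emb (ξ : E) : MeasurableEmbedding fun η : E => ξ - η :=
  (Homeomorph.subLeft ξ).measurableEmbedding

theorem XDiscAux_nonneg (h : ℝ) (f : E → ℂ) (ξ : E) : 0 ≤ avgM h f ξ :=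
  integral_nonneg fun _ => norm_nonneg _

/-- the average over a set of volume `h^12` near `ξ` -/
theorem XDiscAux_pt (hh : 0 < h) {f : E → ℂ} (hf : Integrable f) {ξ : E} {A : Set E}
    (hA : volume A = ENNReal.ofReal (h ^ 12)) (hs : A ⊆ Metric.closedBall ξ (4 * h)) :
    ‖(∫ η in A, f η) - (h : ℂ) ^ 12 * f ξ‖ ≤ avgM h f ξ := by
  have h1 : avgM h f ξ = ∫ η in Metric.closedBall ξ (4 * h), ‖f η - f ξ‖ := by
    rw [← (Measure.measurePreserving_sub_left volume ξ).setIntegral_preimage_emb (XDiscAux_emb ξ)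
      (fun η => ‖f η - f ξ‖), avgM]
    refine congrArg (fun S => ∫ ζ in S, ‖f (ξ - ζ) - f ξ‖) ?_
    ext ζ
    simp [dist_eq_norm]
  have h2 : IntegrableOn (fun η => f η - f ξ) (Metric.closedBall ξ (4 * h)) :=
    hf.integrableOn.sub (integrableOn_const measure_closedBall_lt_top.ne)
  have h3 : (∫ η in A, f η) - (h : ℂ) ^ 12 * f ξ = ∫ η in A, (f η - f ξ) := by
    rw [integral_sub hf.integrableOn (integrableOn_const (by rw [hA]; exact ENNReal.ofReal_ne_top)),
      setIntegral_const, Measure.real, hA, ENNReal.toReal_ofReal (by positivity),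
      Complex.real_smul]
    push_cast
    rfl
  rw [h1, h3]
  exact (norm_integral_le_integral_norm _).trans (setIntegral_mono_set h2.norm
    (Eventually.of_forall fun _ => norm_nonneg _) hs.eventuallyLE)

theorem XDiscAux_per (hh : 0 < h) {f : E → ℂ} (hf : Integrable f) (ξ : E) :
    ‖perF h f (rd (h⁻¹ • ξ)) - (h : ℂ) ^ 12 * f ξ‖ ≤ avgM h f ξ := by
  refine XDiscAux_pt hh hf (volume_cell hh _) fun η hη => ?_
  have h1 := norm_sub_cell hh hη
  have h2 := norm_sub_cell hh (mem_cell_self h ξ)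
  rw [Metric.mem_closedBall, dist_eq_norm]
  linarith [norm_sub_le_norm_sub_add_norm_sub η (h • emb (rd (h⁻¹ • ξ))) ξ,
    norm_sub_rev (h • emb (rd (h⁻¹ • ξ))) ξ]

theorem XDiscAux_conv (hh : 0 < h) {f : E → ℂ} (hf : Integrable f) (ξ : E) (j : Z12) :
    ‖(∫ η in cell h j, f (ξ - η)) - (h : ℂ) ^ 12 * f (ξ - h • emb j)‖
      ≤ avgM h f (ξ - h • emb j) := by
  have hp := Measure.measurePreserving_sub_left (volume : Measure E) ξ
  rw [← hp.setIntegral_preimage_emb (XDiscAux_emb ξ) (fun η => f (ξ - η))]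
  simp only [sub_sub_cancel]
  refine XDiscAux_pt hh hf ?_ fun η hη => ?_
  · rw [hp.measure_preimage (measurableSet_cell h j).nullMeasurableSet, volume_cell hh]
  · have h1 := norm_sub_cell hh hη
    rw [Metric.mem_closedBall, dist_eq_norm, norm_sub_rev,
      show ξ - h • emb j - η = ξ - η - h • emb j by abel]
    linarith

theorem XDiscAux_wR (hh : 0 < h) (k : Z12) (ξ : E) (hξ : ξ ∈ cell h k) :
    (wR K l).w ξ ≤ (1 + 2 * |l| * h) ^ K * (wZ K (l * h)).w k := cell_wR hh hξ

theorem XDiscAux_wZ (hh : 0 < h) (k : Z12) (ξ : E) (hξ : ξ ∈ cell h k) :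
    (wZ K (l * h)).w k ≤ (1 + 2 * |l| * h) ^ K * (wR K l).w ξ := cell_wZ hh hξ

theorem XDiscAux_perOp (hh : 0 < h) (f : XR K l) :
    ((perOp (wR K l) (wZ K (l * h)) h f : XZ K (l * h)) : Z12 → ℂ) = perF h f :=
  funext (perOp_spec (XDiscAux_wZ hh) f).1

theorem avg_bound (hh : 0 < h) {f : XR K l} (hf : MdX K l h f δ) :
    Integrable (fun ξ => (wR K l).w ξ * avgM h f ξ) ∧
      ∫ ξ, (wR K l).w ξ * avgM h f ξ ≤ (8 * h) ^ 12 * δ := by
  set B := Metric.closedBall (0 : E) (4 * h) with hB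
  have hδ : 0 ≤ δ := (norm_nonneg _).trans (hf 0 (by rw [norm_zero]; positivity))
  have hm : Measurable (f : E → ℂ) := (Lp.stronglyMeasurable f).measurable
  set F : E → E → ℝ := fun ξ ζ => (wR K l).w ξ * ‖f (ξ - ζ) - f ξ‖ with hF
  have hFm : Measurable (Function.uncurry F) :=
    ((wR K l).meas.comp measurable_fst).mul
      ((hm.comp (measurable_fst.sub measurable_snd)).sub (hm.comp measurable_fst)).norm
  have h0 : ∀ ξ ζ, ‖F ξ ζ‖ = F ξ ζ := fun ξ ζ =>
    Real.norm_of_nonneg (mul_nonneg ((wR K l).pos ξ).le (norm_nonneg _))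
  have h1 : ∀ ζ, Integrable fun ξ => F ξ ζ := fun ζ =>
    (((memW_coe f).shift ζ).1.sub (memW_coe f)).2
  have h2 : ∀ ζ ∈ B, ‖∫ ξ, F ξ ζ‖ ≤ δ := by
    intro ζ hζ
    rw [Real.norm_of_nonneg (integral_nonneg fun ξ => (norm_nonneg _).trans_eq (h0 ξ ζ))]
    refine le_of_eq_of_le ?_ (hf ζ (mem_closedBall_zero_iff.1 hζ))
    rw [norm_eq_nw]
    refine integral_congr_ae ?_
    filter_upwards [XW_sub (shOp volume (wR K l) ζ f) f, (shOp_spec ζ f).1] with ξ h3 h4
    rw [h3, h4]
  have hI : Integrable (Function.uncurry F) (volume.prod (volume.restrict B)) := by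
    rw [integrable_prod_iff' hFm.aestronglyMeasurable]
    refine ⟨Eventually.of_forall h1, ?_⟩
    refine Measure.integrableOn_of_bounded (M := δ) measure_closedBall_lt_top.ne
      (hFm.stronglyMeasurable.norm.integral_prod_left' (μ := volume)).aestronglyMeasurable ?_
    filter_upwards [ae_restrict_mem measurableSet_closedBall] with ζ hζ
    simp only [Function.uncurry_apply_pair, h0]
    exact h2 ζ hζ
  have e : ∀ ξ, (wR K l).w ξ * avgM h f ξ = ∫ ζ in B, F ξ ζ := fun ξ =>
    (integral_const_mul _ _).symm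
  simp only [e]
  refine ⟨hI.integral_prod_left, ?_⟩
  rw [integral_integral_swap hI]
  refine (le_abs_self _).trans ((norm_setIntegral_le_of_norm_le_const
    measure_closedBall_lt_top h2).trans ?_)
  rw [mul_comm]
  exact mul_le_mul_of_nonneg_right (XDiscAux_vol hh) hδ

theorem cut_per_est (hl : |l| ≤ 1) (hh : 0 < h) (hh1 : h ≤ 1) {f : XR K l}
    (hf : MdX K l h f δ) :
    ‖cutOp (wZ K (l * h)) (wR K l) h (perOp (wR K l) (wZ K (l * h)) h f) - f‖ ≤ 8 ^ 12 * δ := by
  obtain ⟨hi, hb⟩ := avg_bound hh hf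
  have hc : (h : ℂ) ^ 12 ≠ 0 := pow_ne_zero _ (by exact_mod_cast hh.ne')
  have hp : 0 < h ^ 12 := pow_pos hh 12
  rw [norm_eq_nw]
  refine (integral_mono_of_nonneg (Eventually.of_forall fun ξ =>
    mul_nonneg ((wR K l).pos ξ).le (norm_nonneg _)) (hi.const_mul (h ^ 12)⁻¹) ?_).trans ?_
  · filter_upwards [XW_sub (cutOp (wZ K (l * h)) (wR K l) h
      (perOp (wR K l) (wZ K (l * h)) h f)) f,
      (cutOp_spec hh (XDiscAux_wR hh) (perOp (wR K l) (wZ K (l * h)) h f)).1] with ξ h1 h2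
    rw [h1, h2, XDiscAux_perOp hh, cutF, mul_left_comm,
      show ((h : ℂ) ^ 12)⁻¹ * perF h f (rd (h⁻¹ • ξ)) - f ξ =
        ((h : ℂ) ^ 12)⁻¹ * (perF h f (rd (h⁻¹ • ξ)) - (h : ℂ) ^ 12 * f ξ) by
          rw [mul_sub, inv_mul_cancel_left₀ hc],
      norm_mul, XCutAux_nh hh]
    exact mul_le_mul_of_nonneg_left (mul_le_mul_of_nonneg_left
      (XDiscAux_per hh (memW_coe f).integrable ξ) (inv_pos.2 hp).le) ((wR K l).pos ξ).le
  · rw [integral_const_mul, inv_mul_le_iff₀ hp]
    refine hb.trans (le_of_eq ?_)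
    ring

theorem cut_mul_est (hl : |l| ≤ 1) (hh : 0 < h) (hh1 : h ≤ 1) {f : XR K l}
    (hf : MdX K l h f δ) (w : XZ K (l * h)) :
    ‖cutOp (wZ K (l * h)) (wR K l) h
        ((algZ K (l * h) h).mul (perOp (wR K l) (wZ K (l * h)) h f) w)
      - (algR K l).mul f (cutOp (wZ K (l * h)) (wR K l) h w)‖ ≤ 2 * 8 ^ 12 * δ * ‖w‖ := by
  obtain ⟨hi, hb⟩ := avg_bound hh hf
  have hδ : 0 ≤ δ := (norm_nonneg _).trans (hf 0 (by rw [norm_zero]; positivity))
  have hp : 0 < h ^ 12 := pow_pos hh 12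
  have hfi := (memW_coe f).integrable
  have hw : Summable fun j => (wZ K (l * h)).w j * ‖w j‖ := memW_count.1 (memW_coe w)
  have hw0 : ∀ j, 0 ≤ (wZ K (l * h)).w j * ‖w j‖ := fun j =>
    mul_nonneg ((wZ K (l * h)).pos j).le (norm_nonneg _)
  have hw1 : Summable fun j => ‖w j‖ := hw.of_nonneg_of_le (fun _ => norm_nonneg _) fun j =>
    le_mul_of_one_le_left (norm_nonneg _) ((wZ K (l * h)).one_le j)
  have hcw := (memW_coe w).cut hh (XDiscAux_wR (K := K) (l := l) hh)
  set x := cutOp (wZ K (l * h)) (wR K l) h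
        ((algZ K (l * h) h).mul (perOp (wR K l) (wZ K (l * h)) h f) w)
      - (algR K l).mul f (cutOp (wZ K (l * h)) (wR K l) h w) with hx
  set a : Z12 → E → ℝ := fun j ξ => 2 * (h ^ 12)⁻¹ * ((wZ K (l * h)).w j * ‖w j‖) *
    ((wR K l).w (ξ - h • emb j) * avgM h f (ξ - h • emb j)) with ha
  have hai : ∀ j, Integrable (a j) := fun j => (hi.comp_sub_right (h • emb j)).const_mul _
  have ha0 : ∀ j ξ, 0 ≤ a j ξ := fun j ξ => mul_nonneg (mul_nonneg (by positivity) (hw0 j))
    (mul_nonneg ((wR K l).pos _).le (XDiscAux_nonneg _ _ _))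
  have hab : ∀ j, ∫ ξ, a j ξ ≤ 2 * 8 ^ 12 * δ * ((wZ K (l * h)).w j * ‖w j‖) := by
    intro j
    rw [ha, integral_const_mul, integral_sub_right_eq_self
      (fun ξ => (wR K l).w ξ * avgM h f ξ) (h • emb j)]
    refine (mul_le_mul_of_nonneg_left hb (mul_nonneg (by positivity) (hw0 j))).trans (le_of_eq ?_)
    field_simp
  have hpt : ∀ᵐ ξ : E, ENNReal.ofReal ((wR K l).w ξ * ‖x ξ‖) ≤ ∑' j, ENNReal.ofReal (a j ξ) := by
    filter_upwards [XW_sub (cutOp (wZ K (l * h)) (wR K l) h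
        ((algZ K (l * h) h).mul (perOp (wR K l) (wZ K (l * h)) h f) w))
        ((algR K l).mul f (cutOp (wZ K (l * h)) (wR K l) h w)),
      (cutOp_spec hh (XDiscAux_wR hh)
        ((algZ K (l * h) h).mul (perOp (wR K l) (wZ K (l * h)) h f) w)).1,
      (convOp_spec f (cutOp (wZ K (l * h)) (wR K l) h w)).1,
      hcw.1.integrable.ae_convolution_exists (ContinuousLinearMap.mul ℂ ℂ) hfi] with ξ h1 h2 h3 h4
    have h5 : Integrable fun η => cutF h w η * f (ξ - η) := h4
    have h6 : HasSum (fun j => ((h : ℂ) ^ 12)⁻¹ * (w j * ∫ η in cell h j, f (ξ - η)))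
        (((algR K l).mul f (cutOp (wZ K (l * h)) (wR K l) h w) : XR K l) ξ) := by
      have h7 : ((algR K l).mul f (cutOp (wZ K (l * h)) (wR K l) h w) : XR K l) ξ =
          ∫ η, cutF h w η * f (ξ - η) := h3.trans (congrFun ((convF_congr (ae_eq_refl _)
        (cutOp_spec hh (XDiscAux_wR hh) w).1).trans (convF_comm _ _)) ξ)
      have h8 : ∀ j, ((h : ℂ) ^ 12)⁻¹ * (w j * ∫ η in cell h j, f (ξ - η)) =
          ∫ η in cell h j, cutF h w η * f (ξ - η) := fun j => by
        rw [← mul_assoc, ← integral_const_mul]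
        refine setIntegral_congr_fun (measurableSet_cell h j) fun η hη => ?_
        have e : rd (h⁻¹ • η) = j := hη
        simp only [cutF, e]
      rw [h7, funext h8]
      exact hasSum_cell h h5
    have h7 : HasSum (fun j => ((h : ℂ) ^ 12)⁻¹ * (w j * perF h f (rd (h⁻¹ • ξ) - j)))
        (cutF h ((algZ K (l * h) h).mul (perOp (wR K l) (wZ K (l * h)) h f) w : XZ K (l * h)) ξ) := by
      rw [(algZ K (l * h) h).comm, cutF]
      refine HasSum.mul_left _ ?_
      have h8 : ((algZ K (l * h) h).mul w (perOp (wR K l) (wZ K (l * h)) h f) : Z12 → ℂ) =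
          cv w (perF h f) := (XConvAux_cv _ _).trans (by rw [XDiscAux_perOp hh])
      rw [h8]
      refine Summable.hasSum (Summable.of_norm_bounded (hw1.mul_right (∫ η, ‖f η‖)) fun j => ?_)
      rw [norm_mul]
      exact mul_le_mul_of_nonneg_left ((norm_integral_le_integral_norm _).trans
        (setIntegral_le_integral hfi.norm (Eventually.of_forall fun _ => norm_nonneg _)))
        (norm_nonneg _)
    have h9 := ((h7.sub h6).const_smul ((wR K l).w ξ)).tsum_eq
    rw [← h2, ← h1, ← hx] at h9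
    rw [← Real.norm_of_nonneg ((wR K l).pos ξ).le, ← norm_smul, ofReal_norm, ← h9]
    refine enorm_tsum_le_tsum_enorm.trans (ENNReal.tsum_le_tsum fun j => ?_)
    rw [← ofReal_norm]
    refine ENNReal.ofReal_le_ofReal ?_
    have e1 := XDiscAux_per hh hfi (ξ - h • emb j)
    have e2 := XDiscAux_conv hh hfi ξ j
    have e3 := (wR K l).add_le (ξ - h • emb j) (h • emb j)
    rw [rd_shift hh] at e1
    rw [sub_add_cancel, wR_emb] at e3
    have e4 : ‖perF h f (rd (h⁻¹ • ξ) - j) - ∫ η in cell h j, f (ξ - η)‖ ≤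
        2 * avgM h f (ξ - h • emb j) := by
      rw [norm_sub_rev] at e2
      linarith [norm_sub_le_norm_sub_add_norm_sub (perF h f (rd (h⁻¹ • ξ) - j))
        ((h : ℂ) ^ 12 * f (ξ - h • emb j)) (∫ η in cell h j, f (ξ - η))]
    rw [← mul_sub, ← mul_sub, norm_smul, norm_mul, norm_mul, XCutAux_nh hh,
      Real.norm_of_nonneg ((wR K l).pos ξ).le]
    refine (mul_le_mul e3 (mul_le_mul_of_nonneg_left (mul_le_mul_of_nonneg_left e4 (norm_nonneg _))
      (inv_pos.2 hp).le) (by positivity) (((wR K l).pos ξ).le.trans e3)).trans (le_of_eq ?_)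
    simp only [ha]
    ring
  have hc : 0 ≤ 2 * 8 ^ 12 * δ := by positivity
  rw [norm_eq_nw x, norm_eq_nw w, nw_count, ← tsum_mul_left,
    ← ENNReal.ofReal_le_ofReal_iff (tsum_nonneg fun j => mul_nonneg hc (hw0 j)),
    ENNReal.ofReal_tsum_of_nonneg (fun j => mul_nonneg hc (hw0 j)) (hw.mul_left _), nw,
    ofReal_integral_eq_lintegral_ofReal (memW_coe x).2 (Eventually.of_forall fun ξ =>
      mul_nonneg ((wR K l).pos ξ).le (norm_nonneg _))]
  refine (lintegral_mono_ae hpt).trans ?_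
  rw [lintegral_tsum fun j => (hai j).aemeasurable.ennreal_ofReal]
  refine ENNReal.tsum_le_tsum fun j => ?_
  rw [← ofReal_integral_eq_lintegral_ofReal (hai j) (Eventually.of_forall (ha0 j))]
  exact ENNReal.ofReal_le_ofReal (hab j)

theorem exists_disc (K : ℕ) : ∃ C : ℝ, 1 ≤ C ∧ ∀ l h : ℝ, |l| ≤ 1 → 0 < h → h ≤ 1 →
    ∃ D : Alg.Disc (algZ K (l * h) h) (algR K l) C,
      D.Cut = cutOp (wZ K (l * h)) (wR K l) h ∧ D.Per = perOp (wR K l) (wZ K (l * h)) h ∧
      D.Md = MdX K l h := by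
  refine ⟨max (3 ^ K) (2 * 8 ^ 12), le_max_of_le_right (by norm_num), fun l h hl hh hh1 => ?_⟩
  have hC : (1 + 2 * |l| * h) ^ K ≤ max (3 ^ K) (2 * 8 ^ 12) := by
    refine le_max_of_le_left (pow_le_pow_left₀ (by positivity) ?_ K)
    nlinarith [abs_nonneg l]
  have hδ : ∀ {f : XR K l} {δ : ℝ}, MdX K l h f δ → 0 ≤ δ := fun hf =>
    (norm_nonneg _).trans (hf 0 (by rw [norm_zero]; positivity))
  refine ⟨{ Cut := cutOp (wZ K (l * h)) (wR K l) h
            Per := perOp (wR K l) (wZ K (l * h)) h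
            Md := MdX K l h
            norm_Cut := fun w => (cutOp_spec hh (XDiscAux_wR hh) w).2.trans
              (mul_le_mul_of_nonneg_right hC (norm_nonneg _))
            norm_Per := fun f => (perOp_spec (XDiscAux_wZ hh) f).2.trans
              (mul_le_mul_of_nonneg_right hC (norm_nonneg _))
            per_cut := fun w => ?_
            cut_st := fun w => ?_
            per_st := fun f => ?_
            md_mono := fun f δ δ' hf hd ζ hζ => (hf ζ hζ).trans hd
            md_mul := fun f g δ hf ζ hζ => ?_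
            md_st := fun f δ hf ζ hζ => ?_
            cut_per := fun f δ hf => (cut_per_est hl hh hh1 hf).trans
              (mul_le_mul_of_nonneg_right (le_max_of_le_right (by norm_num)) (hδ hf))
            cut_mul := fun f δ w hf => (cut_mul_est hl hh hh1 hf w).trans
              (mul_le_mul_of_nonneg_right
                (mul_le_mul_of_nonneg_right (le_max_right _ _) (hδ hf)) (norm_nonneg _)) },
    rfl, rfl, rfl⟩
  · refine XW_ext (Eventually.of_forall fun k => ?_)
    rw [XDiscAux_perOp hh, perF_congr (cutOp_spec hh (XDiscAux_wR hh) w).1, perF_cutF hh]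
  · refine XW_ext ((cutOp_spec hh (XDiscAux_wR hh) _).1.trans ?_)
    have h1 : (((algZ K (l * h) h).st w : XZ K (l * h)) : Z12 → ℂ) = stF w :=
      funext (ae_count.1 (stOp_spec w).1)
    rw [h1]
    exact (cutF_st hh w).trans ((stOp_spec _).1.trans
      (stF_congr (cutOp_spec hh (XDiscAux_wR hh) w).1)).symm
  · refine XW_ext (Eventually.of_forall fun k => ?_)
    have h1 : (((algZ K (l * h) h).st (perOp (wR K l) (wZ K (l * h)) h f) : XZ K (l * h)) :
        Z12 → ℂ) = stF (perOp (wR K l) (wZ K (l * h)) h f) :=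
      funext (ae_count.1 (stOp_spec _).1)
    have h2 : perF h ((algR K l).st f) = perF h (stF f) := perF_congr (stOp_spec f).1
    rw [h1, XDiscAux_perOp hh, XDiscAux_perOp hh, h2, perF_st hh]
  · have h1 : shOp volume (wR K l) ζ ((algR K l).mul f g) - (algR K l).mul f g =
        (algR K l).mul (shOp volume (wR K l) ζ f - f) g := by
      rw [map_sub, sub_apply]
      exact congrArg (· - _) (shOp_conv ζ f g)
    rw [h1]
    exact ((algR K l).norm_mul _ _).trans (mul_le_mul_of_nonneg_right (hf ζ hζ) (norm_nonneg _))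
  · have h1 : shOp volume (wR K l) ζ ((algR K l).st f) - (algR K l).st f =
        (algR K l).st (shOp volume (wR K l) (-ζ) f - f) := by
      rw [map_sub]
      exact congrArg (· - _) (shOp_st ζ f)
    rw [h1]
    exact ((algR K l).norm_st _).trans (hf (-ζ) (by rwa [norm_neg]))

end P139
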