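import Vale.Agent.P139.TQt
import Vale.Agent.P139.XDisc
import Vale.Agent.P139.XCont

/-! P139 T: the discretised self-similar solution is an approximate solution and `cutT`
almost intertwines the linearisations. -/

open Complex Set Filter Topology MeasureTheory
open scoped ComplexConjugate

noncomputable section
namespace P139

variable {m : ℕ} {P : Prof m}

theorem TPrepAux_congr {X : Type} [NormedAddCommGroup X] [NormedSpace ℂ X] [NormedSpace ℝ X]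
    {A : Alg X} {t₁ ε ε' : ℝ} {u v f : ℝ → X} (h : A.Duh t₁ ε u f)
    (huv : ∀ s ∈ Icc (0 : ℝ) t₁, u s = v s) (hε : ε ≤ ε') : A.Duh t₁ ε' v f := by
  intro t ht
  rw [← huv t ht, ← huv 0 ⟨le_rfl, ht.1.trans ht.2⟩]
  exact (h t ht).trans hε

theorem TPrepAux_w {K K' : ℕ} {l h : ℝ} (hK : K ≤ K') (hl : 0 < l) (hl1 : l ≤ 1) (hh : 0 < h)
    (hh1 : h ≤ 1) {l' : ℝ} (hl' : l ≤ l') (k : Z12) (ξ : E) (hξ : ξ ∈ cell h k) :
    (wZ K (l * h)).w k ≤ 3 ^ K * (wR K' l').w ξ := by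
  refine (cell_wZ hh hξ).trans (mul_le_mul ?_ (wR_mono hK ?_ ξ) ((wR K l).pos ξ).le
    (by positivity))
  · refine pow_le_pow_left₀ (by positivity) ?_ K
    rw [abs_of_pos hl]
    nlinarith
  · rw [abs_of_pos hl]
    exact hl'.trans (le_abs_self _)

theorem TPrepAux_i1 (K : ℕ) {l : ℝ} (hl : 0 < l) (hl1 : l ≤ 1) (ξ : E) :
    (wR (K + 1) l).w ξ ≤ 1 * (wR (K + 2) 1).w ξ := by
  rw [one_mul]
  exact wR_mono (by omega) (by rw [abs_of_pos hl, abs_one]; exact hl1) ξ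

theorem TPrepAux_i2 (K : ℕ) {l : ℝ} (hl : 0 < l) (hl1 : l ≤ 1) (ξ : E) :
    (wR K 1).w ξ ≤ l⁻¹ ^ K * (wR (K + 1) l).w ξ := by
  refine (wR_le K (l' := l) ((one_le_inv₀ hl).2 hl1) ?_ ξ).trans
    (mul_le_mul_of_nonneg_left (wR_mono (by omega) le_rfl ξ) (by positivity))
  rw [abs_one, abs_of_pos hl, inv_mul_cancel₀ hl.ne']

theorem TPrepAux_per (K : ℕ) {l h : ℝ} (hl : 0 < l) (hl1 : l ≤ 1) (hh : 0 < h) (hh1 : h ≤ 1)
    (x : XR (K + 2) 1) : perOp (wR (K + 2) 1) (wZ (K + 1) (l * h)) h x =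
      perOp (wR (K + 1) l) (wZ (K + 1) (l * h)) h (incl volume (wR (K + 2) 1) (wR (K + 1) l) x) := by
  refine XW_ext (ae_count.2 fun k => ?_)
  rw [(perOp_spec (TPrepAux_w (by omega) hl hl1 hh hh1 hl1) x).1,
    (perOp_spec (TPrepAux_w le_rfl hl hl1 hh hh1 le_rfl) _).1,
    perF_congr (incl_spec (TPrepAux_i1 K hl hl1) x).1]

theorem TPrepAux_bW (F : FD P) (K : ℕ) {l h s : ℝ} (hl : 0 < l) (hl1 : l ≤ 1) (hh : 0 < h)
    (hh1 : h ≤ 1) (hs : s < 1) :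
    perOp (wR (K + 1) l) (wZ (K + 1) (l * h)) h (F.qW (K + 1) l s) = F.bW K l h s := by
  refine XW_ext (ae_count.2 fun k => ?_)
  rw [(perOp_spec (TPrepAux_w le_rfl hl hl1 hh hh1 le_rfl) _).1, F.bW_coe K l hh hs]
  exact congrFun (perF_congr (toW_coe (F.mem_qt (K + 1) l hs))) k

theorem TPrepAux_cut (K : ℕ) {l h : ℝ} (hl : 0 < l) (hl1 : l ≤ 1) (hh : 0 < h) (hh1 : h ≤ 1)
    (x : XZ (K + 1) (l * h)) : cutT K l h x =
      incl volume (wR (K + 1) l) (wR K 1) (cutOp (wZ (K + 1) (l * h)) (wR (K + 1) l) h x) :=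
  XW_ext ((cutT_spec K hl hl1 hh hh1 x).1.trans ((incl_spec (TPrepAux_i2 K hl hl1) _).1.trans
    (cutOp_spec hh (fun _ _ hξ => cell_wR hh hξ) x).1).symm)

theorem prep (F : FD P) (hQS : StQS F) (K : ℕ) {l t₁ η : ℝ} (hl : 0 < l) (hl1 : l ≤ 1)
    (ht : t₁ < 1) (hη : 0 < η) : ∃ h₀ : ℝ, 0 < h₀ ∧ ∀ h : ℝ, 0 < h → h ≤ h₀ →
      (algZ (K + 1) (l * h) h).App ((algZ (K + 1) (l * h) h).FN m) t₁ η (F.bW K l h) ∧
      ∀ s ∈ Icc (0 : ℝ) t₁, ∀ w,
        ‖cutT K l h ((algZ (K + 1) (l * h) h).DN m (F.bW K l h s) w)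
          - (algR K 1).DN m (F.qW K 1 s) (cutT K l h w)‖ ≤ η * ‖w‖ := by
  have hsub : Icc (0 : ℝ) t₁ ⊆ Iio 1 := fun s hs => lt_of_le_of_lt hs.2 ht
  have hc1 := (F.qW_cont (K + 1) l).mono hsub
  have hc2 := (F.qW_cont (K + 2) 1).mono hsub
  obtain ⟨R₀, hR₀⟩ := isCompact_Icc.exists_bound_of_continuousOn hc1
  obtain ⟨M₀, hM₀⟩ := isCompact_Icc.exists_bound_of_continuousOn hc2
  have hfc : ContinuousOn (fun s => (algR (K + 2) 1).FN m s (F.qW (K + 2) 1 s)) (Icc 0 t₁) :=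
    ((algR (K + 2) 1).N_cont m).comp_continuousOn hc2 |>.const_smul (-I)
  obtain ⟨M₁, hM₁⟩ := isCompact_Icc.exists_bound_of_continuousOn hfc
  obtain ⟨C, hC, hD⟩ := exists_disc (K + 1)
  obtain ⟨C', hC', hN⟩ := disc_N m C (max R₀ 1) hC (le_max_right _ _)
  have hL : 1 ≤ l⁻¹ ^ K := one_le_pow₀ ((one_le_inv₀ hl).2 hl1)
  obtain ⟨δ, hδ, hδ'⟩ : ∃ δ : ℝ, 0 < δ ∧ l⁻¹ ^ K * (C' * δ) ≤ η / 2 := by
    refine ⟨η / 2 / (l⁻¹ ^ K * (C' + 1)), by positivity, ?_⟩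
    rw [← mul_assoc, ← mul_div_assoc, div_le_iff₀ (by positivity)]
    have : l⁻¹ ^ K * C' ≤ l⁻¹ ^ K * (C' + 1) := by gcongr; linarith
    nlinarith
  have hδ2 : C' * δ ≤ η / 2 := (le_mul_of_one_le_left (by positivity) hL).trans hδ'
  obtain ⟨ρ, hρ, hsh⟩ := shOp_unif (isCompact_Icc.image_of_continuousOn hc1) hδ
  obtain ⟨M, hM⟩ : ∃ M : ℝ, M = |M₀| + |M₁| + 1 := ⟨_, rfl⟩
  have hMp : 0 < M := by rw [hM]; positivity
  refine ⟨min 1 (min (ρ / 4) (η / (16 * 3 ^ (K + 1) * M))), by positivity, fun h hh hh0 => ?_⟩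
  have hh1 : h ≤ 1 := hh0.trans (min_le_left _ _)
  have hh2 : h ≤ ρ / 4 := hh0.trans ((min_le_right _ _).trans (min_le_left _ _))
  have hh3 : h ≤ η / (16 * 3 ^ (K + 1) * M) :=
    hh0.trans ((min_le_right _ _).trans (min_le_right _ _))
  obtain ⟨D, hCut, hPer, hMd⟩ := hD l h (by rw [abs_of_pos hl]; exact hl1) hh hh1
  have hq : ∀ s ∈ Icc (0 : ℝ) t₁, _ := fun s hs => hN _ _ _ _ D (F.qW (K + 1) l s) δ hδ.le
    ((hR₀ s hs).trans (le_max_left _ _)) (by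
      rw [hMd]
      exact fun ζ hζ => hsh _ ⟨s, hs, rfl⟩ ζ (by linarith))
  have hb : ∀ s ∈ Icc (0 : ℝ) t₁, D.Per (F.qW (K + 1) l s) = F.bW K l h s := fun s hs => by
    rw [hPer]; exact TPrepAux_bW F K hl hl1 hh hh1 (hsub hs)
  have hi1 : ∀ s ∈ Icc (0 : ℝ) t₁, incl volume (wR (K + 2) 1) (wR (K + 1) l) (F.qW (K + 2) 1 s)
      = F.qW (K + 1) l s := fun s hs =>
    incl_toW (TPrepAux_i1 K hl hl1) (F.mem_qt (K + 2) 1 (hsub hs))
  have hTb : ∀ s ∈ Icc (0 : ℝ) t₁,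
      perOp (wR (K + 2) 1) (wZ (K + 1) (l * h)) h (F.qW (K + 2) 1 s) = F.bW K l h s :=
    fun s hs => by rw [TPrepAux_per K hl hl1 hh hh1, hi1 s hs, ← hPer, hb s hs]
  have hbc : ContinuousOn (F.bW K l h) (Icc 0 t₁) :=
    ((perOp (wR (K + 2) 1) (wZ (K + 1) (l * h)) h).continuous.comp_continuousOn hc2).congr
      fun s hs => (hTb s hs).symm
  refine ⟨⟨hbc, ?_⟩, fun s hs w => ?_⟩
  · have hgc : ContinuousOn (fun s => (algZ (K + 1) (l * h) h).FN m s (F.bW K l h s))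
        (Icc 0 t₁) :=
      ((algZ (K + 1) (l * h) h).N_cont m).comp_continuousOn hbc |>.const_smul (-I)
    rcases lt_or_ge t₁ 0 with h0 | h0
    · exact fun t ht' => absurd (ht'.1.trans ht'.2) (not_le.2 h0)
    have key := Alg.Duh.transport (algZ (K + 1) (l * h) h)
      (perOp (wR (K + 2) 1) (wZ (K + 1) (l * h)) h) (C := 3 ^ (K + 1))
      (η := 4 * h * 3 ^ (K + 1)) (η' := C' * δ) (M := M) ht.le (hQS (K + 2) t₁ ht).2 hfc hgc
      (fun x => (perOp_spec (TPrepAux_w (by omega) hl hl1 hh hh1 hl1) x).2) (by positivity)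
      (by positivity) (fun t ht' x => perT_U K hl hl1 hh hh1 ht' x)
      ((hM₀ 0 ⟨le_rfl, h0⟩).trans (by rw [hM]; linarith [le_abs_self M₀, abs_nonneg M₁]))
      (fun s hs => (hM₁ s hs).trans (by rw [hM]; linarith [le_abs_self M₁, abs_nonneg M₀]))
      (fun s hs => by
        have e := Alg.map_N (algR (K + 2) 1) (algR (K + 1) l)
          (incl volume (wR (K + 2) 1) (wR (K + 1) l)) 1 1
          (fun x y => by rw [one_smul]; exact incl_conv (TPrepAux_i1 K hl hl1) x y)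
          (fun x => by rw [one_smul]; exact incl_st (TPrepAux_i1 K hl hl1) x) m
          (F.qW (K + 2) 1 s)
        simp only [one_pow, mul_one, one_smul] at e
        unfold Alg.FN
        rw [map_smul, ← smul_sub, norm_smul, norm_neg, norm_I, one_mul,
          TPrepAux_per K hl hl1 hh hh1, e, hi1 s hs, ← hPer, ← hb s hs]
        exact (hq s hs).1)
    refine TPrepAux_congr key hTb ?_
    rw [le_div_iff₀ (by positivity)] at hh3
    linarith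
  · have e := Alg.map_DN (algR (K + 1) l) (algR K 1) (incl volume (wR (K + 1) l) (wR K 1)) 1 1
      (fun x y => by rw [one_smul]; exact incl_conv (TPrepAux_i2 K hl hl1) x y)
      (fun x => by rw [one_smul]; exact incl_st (TPrepAux_i2 K hl hl1) x) m
      (F.qW (K + 1) l s) (D.Cut w)
    simp only [one_pow, mul_one, one_smul] at e
    have e2 : incl volume (wR (K + 1) l) (wR K 1) (F.qW (K + 1) l s) = F.qW K 1 s :=
      incl_toW (TPrepAux_i2 K hl hl1) (F.mem_qt (K + 1) l (hsub hs))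
    rw [TPrepAux_cut K hl hl1 hh hh1, TPrepAux_cut K hl hl1 hh hh1, ← hCut, ← e2, ← e,
      ← map_sub, ← hb s hs]
    refine (incl_spec (TPrepAux_i2 K hl hl1) _).2.trans ?_
    refine (mul_le_mul_of_nonneg_left ((hq s hs).2 w) (by positivity)).trans ?_
    rw [← mul_assoc]
    exact mul_le_mul_of_nonneg_right (by linarith) (norm_nonneg _)

end P139
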