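import Vale.Agent.P139.TGron

/-! P139 T: an approximate mild solution is shadowed by an exact one. -/

open Complex Set Filter Topology MeasureTheory

noncomputable section
namespace P139

section Retr

variable {X : Type} [NormedAddCommGroup X] [NormedSpace ℝ X]

/-- radial retraction onto the closed ball of radius `r` -/
def TShadowAux_rho (r : ℝ) (x : X) : X := (r / max r ‖x‖) • x

theorem TShadowAux_norm {r : ℝ} (hr : 0 < r) (x : X) :
    ‖TShadowAux_rho r x‖ ≤ r ∧ ‖TShadowAux_rho r x‖ ≤ ‖x‖ := by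
  have hm : 0 < max r ‖x‖ := lt_max_of_lt_left hr
  rw [TShadowAux_rho, norm_smul, Real.norm_of_nonneg (div_nonneg hr.le hm.le)]
  constructor
  · rw [div_mul_eq_mul_div, div_le_iff₀ hm]
    exact mul_le_mul_of_nonneg_left (le_max_right _ _) hr.le
  · exact mul_le_of_le_one_left (norm_nonneg _) ((div_le_one hm).2 (le_max_left _ _))

theorem TShadowAux_eq {r : ℝ} (hr : 0 < r) {x : X} (h : ‖x‖ ≤ r) : TShadowAux_rho r x = x := by
  rw [TShadowAux_rho, max_eq_left h, div_self hr.ne', one_smul]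

theorem TShadowAux_lip {r : ℝ} (hr : 0 < r) (x y : X) :
    ‖TShadowAux_rho r x - TShadowAux_rho r y‖ ≤ 2 * ‖x - y‖ := by
  have hx : 0 < max r ‖x‖ := lt_max_of_lt_left hr
  have hy : 0 < max r ‖y‖ := lt_max_of_lt_left hr
  have e : TShadowAux_rho r x - TShadowAux_rho r y =
      (r / max r ‖x‖) • (x - y) + (r / max r ‖x‖ - r / max r ‖y‖) • y := by
    simp only [TShadowAux_rho, smul_sub, sub_smul]; abel
  have h1 : r / max r ‖x‖ ≤ 1 := (div_le_one hx).2 (le_max_left _ _)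
  have h2 : ‖y‖ / max r ‖y‖ ≤ 1 := (div_le_one hy).2 (le_max_right _ _)
  have h3 : |max r ‖y‖ - max r ‖x‖| ≤ ‖x - y‖ := by
    rw [max_comm r, max_comm r, norm_sub_rev]
    exact (abs_max_sub_max_le_abs _ _ _).trans (abs_norm_sub_norm_le _ _)
  have h4 : |r / max r ‖x‖ - r / max r ‖y‖| * ‖y‖ ≤ ‖x - y‖ := by
    have e2 : r / max r ‖x‖ - r / max r ‖y‖ =
        (max r ‖y‖ - max r ‖x‖) * (r / max r ‖x‖ / max r ‖y‖) := by field_simp
    rw [e2, abs_mul, abs_of_nonneg (by positivity : 0 ≤ r / max r ‖x‖ / max r ‖y‖), mul_assoc]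
    have : r / max r ‖x‖ / max r ‖y‖ * ‖y‖ ≤ 1 := by
      rw [div_mul_eq_mul_div, mul_div_assoc]
      exact mul_le_one₀ h1 (by positivity) h2
    exact (mul_le_of_le_one_right (abs_nonneg _) this).trans h3
  rw [e]
  refine (norm_add_le _ _).trans ?_
  rw [norm_smul, norm_smul, Real.norm_of_nonneg (div_nonneg hr.le hx.le), Real.norm_eq_abs]
  have := mul_le_of_le_one_left (norm_nonneg (x - y)) h1
  linarith

theorem TShadowAux_cont {r : ℝ} (hr : 0 < r) : Continuous (TShadowAux_rho r : X → X) :=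
  (LipschitzWith.of_dist_le_mul (K := 2) fun x y => by
    rw [dist_eq_norm, dist_eq_norm]; exact_mod_cast TShadowAux_lip hr x y).continuous

end Retr

namespace Alg

variable {X : Type} [NormedAddCommGroup X] [NormedSpace ℂ X] [NormedSpace ℝ X] [CompleteSpace X]

/-- existence of exact solutions for a bounded globally Lipschitz field -/
theorem TShadowAux_ex (A : Alg X) {G : ℝ → X → X} {t₁ K L : ℝ} (ht₁ : 0 ≤ t₁)
    (hG : ∀ v : ℝ → X, ContinuousOn v (Icc 0 t₁) → ContinuousOn (fun s => G s (v s)) (Icc 0 t₁))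
    (hK : ∀ t ∈ Icc (0 : ℝ) t₁, ∀ x y, ‖G t x - G t y‖ ≤ K * ‖x - y‖)
    (hL : ∀ t ∈ Icc (0 : ℝ) t₁, ∀ x, ‖G t x‖ ≤ L) (x₀ : X) :
    ∃ u : ℝ → X, u 0 = x₀ ∧ A.App G t₁ 0 u := by
  have hU : ∀ v : ℝ → X, ContinuousOn v (Icc 0 t₁) →
      ContinuousOn (fun s => A.U s (v s)) (Icc 0 t₁) := fun v hv =>
    A.U_cont₂.comp_continuousOn (continuousOn_id.prodMk hv)
  have hU' : ∀ v : ℝ → X, ContinuousOn v (Icc 0 t₁) →
      ContinuousOn (fun s => A.U (-s) (v s)) (Icc 0 t₁) := fun v hv =>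
    A.U_cont₂.comp_continuousOn (continuousOn_neg.prodMk hv)
  have hP : IsPicardLindelof (fun t a => A.U (-t) (G t (A.U t a)))
      (⟨0, le_rfl, ht₁⟩ : Icc (0 : ℝ) t₁) x₀ (L.toNNReal * t₁.toNNReal) 0 L.toNNReal K.toNNReal := by
    refine ⟨fun t ht => LipschitzOnWith.of_dist_le_mul fun x _ y _ => ?_,
      fun x _ => hU' _ (hG _ (hU _ continuousOn_const)), fun t ht x _ => ?_, ?_⟩
    · rw [dist_eq_norm, dist_eq_norm, ← map_sub]
      refine (A.norm_U _ _).trans ((hK t ht _ _).trans ?_)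
      rw [← map_sub]
      exact (mul_le_mul_of_nonneg_right (Real.le_coe_toNNReal K) (norm_nonneg _)).trans
        (mul_le_mul_of_nonneg_left (A.norm_U _ _) (NNReal.coe_nonneg _))
    · exact (A.norm_U _ _).trans ((hL t ht _).trans (Real.le_coe_toNNReal L))
    · simp [ht₁]
  obtain ⟨α, hα⟩ := ODE.FunSpace.exists_isFixedPt_next hP (Metric.mem_closedBall_self le_rfl)
  have hc : ContinuousOn α.compProj (Icc 0 t₁) := α.continuous_compProj.continuousOn
  have he : ∀ t ∈ Icc (0 : ℝ) t₁, α.compProj t =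
      x₀ + ∫ s in (0 : ℝ)..t, A.U (-s) (G s (A.U s (α.compProj s))) := fun t ht => by
    have := ODE.FunSpace.next_apply hP (Metric.mem_closedBall_self le_rfl) α (t := ⟨t, ht⟩)
    rw [hα.eq] at this
    rw [ODE.FunSpace.compProj_of_mem ht, this]
    rfl
  have h0 : A.U 0 (α.compProj 0) = x₀ := by
    rw [A.U_zero, he 0 ⟨le_rfl, ht₁⟩, intervalIntegral.integral_same, add_zero]
  refine ⟨fun t => A.U t (α.compProj t), h0, hU _ hc, fun t ht => ?_⟩
  rw [A.duh_inter (hG _ (hU _ hc)) ht]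
  simp only [h0]
  rw [← map_add, ← he t ht, sub_self, norm_zero]

theorem shadow (A : Alg X) {F : ℝ → X → X} {t₁ ε r : ℝ} {b : ℝ → X} {l : ℝ → ℝ} (ht₁ : 0 ≤ t₁)
    (hF : ContinuousOn (Function.uncurry F) (Icc 0 t₁ ×ˢ univ))
    (hb : A.App F t₁ ε b) (hr : 0 < r) (hl : ContinuousOn l (Icc 0 t₁))
    (hl0 : ∀ t ∈ Icc (0 : ℝ) t₁, 0 ≤ l t)
    (hL : ∀ t ∈ Icc (0 : ℝ) t₁, ∀ x y : X, ‖x - b t‖ ≤ r → ‖y - b t‖ ≤ r →
      ‖F t x - F t y‖ ≤ l t * ‖x - y‖)
    (x₀ : X) (hx : (‖x₀ - b 0‖ + ε) * Real.exp (∫ s in (0 : ℝ)..t₁, l s) ≤ r) :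
    ∃ u : ℝ → X, u 0 = x₀ ∧ A.App F t₁ 0 u ∧ ∀ t ∈ Icc (0 : ℝ) t₁,
      ‖u t - b t‖ ≤ (‖x₀ - b 0‖ + ε) * Real.exp (∫ s in (0 : ℝ)..t₁, l s) := by
  have hFc : ∀ v : ℝ → X, ContinuousOn v (Icc 0 t₁) →
      ContinuousOn (fun s => F s (v s)) (Icc 0 t₁) := fun v hv =>
    hF.comp (continuousOn_id.prodMk hv) fun s hs => ⟨hs, trivial⟩
  set G : ℝ → X → X := fun t x => F t (b t + TShadowAux_rho r (x - b t)) with hGd
  have hG : ∀ v : ℝ → X, ContinuousOn v (Icc 0 t₁) →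
      ContinuousOn (fun s => G s (v s)) (Icc 0 t₁) := fun v hv =>
    hFc _ (hb.1.add ((TShadowAux_cont hr).comp_continuousOn (hv.sub hb.1)))
  have hin : ∀ t (x : X), ‖b t + TShadowAux_rho r (x - b t) - b t‖ ≤ r := fun t x => by
    rw [add_sub_cancel_left]; exact (TShadowAux_norm hr _).1
  have hGb : ∀ t ∈ Icc (0 : ℝ) t₁, ∀ x,
      ‖G t x - F t (b t)‖ ≤ l t * ‖TShadowAux_rho r (x - b t)‖ := fun t ht x => by
    have := hL t ht _ (b t) (hin t x) (by simpa using hr.le)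
    rwa [add_sub_cancel_left] at this
  obtain ⟨K, hK⟩ := isCompact_Icc.exists_bound_of_continuousOn hl
  obtain ⟨M, hM⟩ := isCompact_Icc.exists_bound_of_continuousOn (hFc b hb.1)
  have hK' : ∀ t ∈ Icc (0 : ℝ) t₁, l t ≤ K := fun t ht => (le_abs_self _).trans (hK t ht)
  obtain ⟨u, hu0, huc, hud⟩ := A.TShadowAux_ex (G := G) (K := K * 2) (L := M + K * r) ht₁ hG
    (fun t ht x y => by
      refine (hL t ht _ _ (hin t x) (hin t y)).trans ?_
      rw [add_sub_add_left_eq_sub, mul_assoc]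
      have := TShadowAux_lip hr (x - b t) (y - b t)
      rw [sub_sub_sub_cancel_right] at this
      exact mul_le_mul (hK' t ht) this (norm_nonneg _) ((hl0 t ht).trans (hK' t ht)))
    (fun t ht x => by
      have h1 := norm_le_norm_add_norm_sub' (G t x) (F t (b t))
      have h2 := (hGb t ht x).trans (mul_le_mul (hK' t ht) (TShadowAux_norm hr _).1 (norm_nonneg _)
        ((hl0 t ht).trans (hK' t ht)))
      linarith [hM t ht]) x₀
  have hε : 0 ≤ ε := (norm_nonneg _).trans (hb.2 0 ⟨le_rfl, ht₁⟩)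
  have hsub : ContinuousOn (fun s => G s (u s) - F s (b s)) (Icc 0 t₁) :=
    (hG u huc).sub (hFc b hb.1)
  have hw : ContinuousOn (fun t => ‖u t - b t‖) (Icc 0 t₁) := (huc.sub hb.1).norm
  have hn := (hud.sub hb.2 (hG u huc) (hFc b hb.1)).norm_le hsub
  have hsI : ∀ t ∈ Icc (0 : ℝ) t₁, uIcc 0 t ⊆ Icc 0 t₁ := fun t ht => by
    rw [uIcc_of_le ht.1]; exact Icc_subset_Icc_right ht.2
  have hgr := gronwall_int (a := ‖x₀ - b 0‖ + ε) hw hl hl0 fun t ht => by
    refine (hn t ht).trans ?_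
    simp only [hu0, zero_add]
    refine add_le_add le_rfl (intervalIntegral.integral_mono_on ht.1
      (hsub.norm.mono (hsI t ht)).intervalIntegrable
      ((hl.mul hw).mono (hsI t ht)).intervalIntegrable fun s hs => ?_)
    have hs' : s ∈ Icc (0 : ℝ) t₁ := ⟨hs.1, hs.2.trans ht.2⟩
    exact (hGb s hs' _).trans (mul_le_mul_of_nonneg_left (TShadowAux_norm hr _).2 (hl0 s hs'))
  have hbd : ∀ t ∈ Icc (0 : ℝ) t₁,
      ‖u t - b t‖ ≤ (‖x₀ - b 0‖ + ε) * Real.exp (∫ s in (0 : ℝ)..t₁, l s) := fun t ht => by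
    refine (hgr t ht).trans (mul_le_mul_of_nonneg_left (Real.exp_le_exp.2 ?_) (by positivity))
    exact intervalIntegral.integral_mono_interval le_rfl ht.1 ht.2
      ((ae_restrict_iff' measurableSet_Ioc).2 (Eventually.of_forall fun s hs =>
        hl0 s (Ioc_subset_Icc_self hs)))
      (hl.mono (hsI t₁ ⟨ht₁, le_rfl⟩)).intervalIntegrable
  have hGF : ∀ t ∈ Icc (0 : ℝ) t₁, G t (u t) = F t (u t) := fun t ht => by
    simp only [hGd]
    rw [TShadowAux_eq hr ((hbd t ht).trans hx), add_sub_cancel]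
  refine ⟨u, hu0, ⟨huc, fun t ht => ?_⟩, hbd⟩
  have := hud t ht
  rwa [intervalIntegral.integral_congr (g := fun s => A.U (t - s) (F s (u s)))
    fun s hs => by simp only [hGF s (hsI t ht hs)]] at this

end Alg
end P139
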