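import Vale.Agent.P139.TDefs
import Vale.Agent.P139.TTrans

/-! P139 T: solutions in the Wiener algebra: inclusion, uniqueness, restart, rescaling. -/

open Complex Set Filter Topology MeasureTheory
open scoped ComplexConjugate

noncomputable section
namespace P139

section Aux

variable {X Y : Type} [NormedAddCommGroup X] [NormedSpace ℂ X] [NormedSpace ℝ X]
  [NormedAddCommGroup Y] [NormedSpace ℂ Y] [NormedSpace ℝ Y]

theorem TSolAux_rs (a : ℝ) (y : Y) : a • y = (a : ℂ) • y := by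
  have := map_real_smul (ContinuousLinearMap.toSpanSingleton ℂ y)
    (ContinuousLinearMap.continuous _) a 1
  simpa using this.symm

theorem TSolAux_duh {A : Alg X} {t₁ : ℝ} {u f : ℝ → X} : A.Duh t₁ 0 u f ↔
    ∀ t ∈ Icc (0 : ℝ) t₁, u t = A.U t (u 0) + ∫ s in (0 : ℝ)..t, A.U (t - s) (f s) := by
  simp only [Alg.Duh, norm_le_zero_iff, sub_eq_zero]

omit [NormedSpace ℝ X] in
theorem TSolAux_fc (A : Alg X) (m : ℕ) {S : Set ℝ} {u : ℝ → X} (hu : ContinuousOn u S) :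
    ContinuousOn (fun s => A.FN m s (u s)) S :=
  ((A.N_cont m).comp_continuousOn hu).const_smul (-I)

/-- exact transport with a change of time scale -/
theorem TSolAux_map [CompleteSpace X] [CompleteSpace Y] {A : Alg X} {B : Alg Y} (T : X →L[ℂ] Y)
    {m : ℕ} {a t₁ : ℝ} (ha : 0 < a) (hU : ∀ t x, T (A.U (a * t) x) = B.U t (T x))
    (hN : ∀ x, (a : ℂ) • T (A.N m x) = B.N m (T x)) {u : ℝ → X}
    (hu : A.App (A.FN m) (a * t₁) 0 u) : B.App (B.FN m) t₁ 0 fun t => T (u (a * t)) := by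
  have hmem : ∀ t ∈ Icc (0 : ℝ) t₁, a * t ∈ Icc (0 : ℝ) (a * t₁) := fun t ht =>
    ⟨mul_nonneg ha.le ht.1, mul_le_mul_of_nonneg_left ht.2 ha.le⟩
  refine ⟨T.continuous.comp_continuousOn (hu.1.comp (by fun_prop) hmem), TSolAux_duh.2 ?_⟩
  intro t ht
  have h1 := TSolAux_duh.1 hu.2 _ (hmem t ht)
  have h2 := intervalIntegral.smul_integral_comp_mul_left
    (fun s => T (A.U (a * t - s) (A.FN m s (u s)))) (a := 0) (b := t) a
  beta_reduce
  rw [h1, map_add, hU, ← T.intervalIntegral_comp_comm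
    (A.duh_integrable (TSolAux_fc A m hu.1) (hmem t ht)), mul_zero]
  rw [mul_zero] at h2
  rw [← h2, ← intervalIntegral.integral_smul]
  congr 2
  funext s
  rw [← mul_sub, hU, TSolAux_rs, ← map_smul, Alg.FN, Alg.FN, map_smul T, smul_comm,
    hN]

theorem TSolAux_ext {K : ℕ} {l : ℝ} {x y : XZ K l} (h : ∀ k, x k = y k) : x = y :=
  XW_ext (ae_count.2 h)

theorem TSolAux_smul {K : ℕ} {l : ℝ} (c : ℂ) (x : XZ K l) (k : Z12) :
    (c • x : XZ K l) k = c * x k := ae_count.1 (XW_smul c x) k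

theorem TSolAux_w (k : Z12) : (wZ 0 0).w k = 1 := pow_zero _

end Aux

theorem hsol_of_top {m K : ℕ} {l h t₁ : ℝ} (ht : t₁ ≤ 1) {u : ℝ → XZ K l}
    (hu : (algZ K l h).App ((algZ K l h).FN m) t₁ 0 u) :
    ∃ v : ℝ → XZ 0 0, HSol m h t₁ v ∧ ∀ t k, v t k = u t k := by
  have hw : ∀ k, (wZ 0 0).w k ≤ 1 * (wZ K l).w k := fun k => by
    rw [TSolAux_w, one_mul]; exact (wZ K l).one_le k
  have h1 := TSolAux_map (A := algZ K l h) (B := algZ 0 0 h) (incl Measure.count (wZ K l) (wZ 0 0))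
    (m := m) (t₁ := t₁) one_pos
    (fun t x => by rw [one_mul]; exact incl_free hw (measurable_of_countable _) t x)
    (fun x => by
      rw [(algZ K l h).map_N (algZ 0 0 h) _ 1 1
        (fun x y => by rw [one_smul]; exact incl_conv hw x y)
        (fun x => by rw [one_smul]; exact incl_st hw x)]
      simp) (u := u) (by rwa [one_mul])
  refine ⟨_, h1, fun t k => ?_⟩
  rw [one_mul]
  exact ae_count.1 (incl_spec hw (u t)).1 k

theorem hsol_unique {m : ℕ} {h t₁ : ℝ} {u v : ℝ → XZ 0 0} (hu : HSol m h t₁ u)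
    (hv : HSol m h t₁ v) (h0 : ∀ k, u 0 k = v 0 k) :
    ∀ t ∈ Icc (0 : ℝ) t₁, ∀ k, u t k = v t k := by
  intro t ht k
  rw [Alg.App.unique ((algZ 0 0 h).FN_cont m _)
    (fun R => ⟨_, fun s _ x y hx hy => (algZ 0 0 h).FN_lip m s hx hy⟩) hu hv (TSolAux_ext h0) t ht]

/-- a coefficientwise solution is a Banach space valued solution -/
theorem hsol_of_asol {m : ℕ} {c : Z12 → ℂ} {T T' : ℝ} {U : ℝ → Z12 → ℂ} (hU : ASol m c T U)
    (hT : T' < T) : ∃ v : ℝ → XZ 0 0, HSol m 1 T' v ∧ (∀ t ∈ Icc (0 : ℝ) T', ∀ k, v t k = U t k) ∧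
      (0 ≤ T' → ∀ k, v 0 k = c k) := by
  obtain ⟨h1, h2, h3⟩ := hU
  have hsub : Icc (0 : ℝ) T' ⊆ Ico 0 T := Icc_subset_Ico_right hT
  have hmem : ∀ t ∈ Icc (0 : ℝ) T', MemW Measure.count (wZ 0 0) (U t) := fun t ht =>
    memW_count.2 (by simpa only [TSolAux_w, one_mul] using h1 t (hsub ht))
  set v : ℝ → XZ 0 0 := fun t => toW Measure.count (wZ 0 0) (U t) with hv
  have hvU : ∀ t ∈ Icc (0 : ℝ) T', ∀ k, v t k = U t k := fun t ht =>
    ae_count.1 (toW_coe (hmem t ht))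
  have hv0 : 0 ≤ T' → ∀ k, v 0 k = c k := fun hT' k => by
    rw [hvU 0 ⟨le_rfl, hT'⟩, h3 0 (hsub ⟨le_rfl, hT'⟩)]
    simp
  have hc : ContinuousOn v (Icc 0 T') := fun t ht => by
    refine tendsto_iff_norm_sub_tendsto_zero.2
      (((h2 t (hsub ht)).mono_left (nhdsWithin_mono _ hsub)).congr' ?_)
    filter_upwards [self_mem_nhdsWithin] with t' ht'
    rw [norm_eq_nw, nw_count]
    refine tsum_congr fun k => ?_
    rw [TSolAux_w, one_mul, ae_count.1 (XW_sub (v t') (v t)) k, ← hvU t ht, ← hvU t' ht']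
  refine ⟨v, ⟨hc, TSolAux_duh.2 fun t ht => TSolAux_ext fun k => ?_⟩, hvU, hv0⟩
  obtain ⟨ev, hev⟩ := exists_evZ (wZ 0 0) k
  rw [← hev (_ + _), map_add, ← ev.intervalIntegral_comp_comm
    ((algZ 0 0 1).duh_integrable (TSolAux_fc _ m hc) ht), hev, algZ_U, hv0 (ht.1.trans ht.2),
    hvU t ht, h3 t (hsub ht), sub_eq_add_neg, ← neg_mul, ← intervalIntegral.integral_const_mul]
  congr 1
  · simp
  · refine intervalIntegral.integral_congr fun s hs => ?_
    rw [uIcc_of_le ht.1] at hs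
    have hs' : s ∈ Icc (0 : ℝ) T' := ⟨hs.1, hs.2.trans ht.2⟩
    rw [hev, algZ_U, Alg.FN, TSolAux_smul, algZ_N, funext (hvU s hs')]
    push_cast
    ring_nf

theorem Alg.App.restart {X : Type} [NormedAddCommGroup X] [NormedSpace ℂ X] [NormedSpace ℝ X]
    [CompleteSpace X] {A : Alg X} {m : ℕ} {T t₀ t₁ : ℝ} {u : ℝ → X}
    (hu : A.App (A.FN m) T 0 u) (h0 : 0 ≤ t₀) (h1 : t₀ + t₁ ≤ T) :
    A.App (A.FN m) t₁ 0 fun t => u (t₀ + t) := by
  have hmem : ∀ t ∈ Icc (0 : ℝ) t₁, t₀ + t ∈ Icc (0 : ℝ) T := fun t ht =>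
    ⟨add_nonneg h0 ht.1, by linarith [ht.2]⟩
  refine ⟨hu.1.comp (by fun_prop) hmem, TSolAux_duh.2 fun t ht => ?_⟩
  have hf := TSolAux_fc A m hu.1
  have ht0 : t₀ ∈ Icc (0 : ℝ) T := ⟨h0, by linarith [ht.1, ht.2]⟩
  have hφ : Continuous fun s : ℝ => t₀ + t - s := by fun_prop
  have e1 := intervalIntegral.integral_interval_sub_left (A.TGronAux_int hf (hmem t ht) hφ)
    (A.TGronAux_int hf ht0 hφ)
  have e2 := intervalIntegral.integral_comp_add_left
    (fun s => A.U (t₀ + t - s) (A.FN m s (u s))) (a := 0) (b := t) t₀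
  simp only [add_zero, add_sub_add_left_eq_sub] at e2
  beta_reduce
  rw [add_zero, TSolAux_duh.1 hu.2 _ (hmem t ht), TSolAux_duh.1 hu.2 _ ht0, map_add, ← A.U_add,
    ← (A.U t).intervalIntegral_comp_comm (A.duh_integrable hf ht0), add_comm t t₀, add_assoc]
  congr 1
  have e3 : ∀ s, A.U t (A.U (t₀ - s) (A.FN m s (u s))) = A.U (t₀ + t - s) (A.FN m s (u s)) :=
    fun s => by rw [← A.U_add]; congr 2; ring
  simp only [e3]
  exact (eq_add_of_sub_eq' (e1.trans e2.symm))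

/-- scaling, phase and translation symmetry -/
theorem hsol_scale {m : ℕ} (hm : 1 ≤ m) {h t₁ : ℝ} (hh : 0 < h) {u : ℝ → XZ 0 0}
    (hu : HSol m 1 (h ^ 2 * t₁) u) {κ : ℂ} {χ : Z12 → ℂ} (hχ : IsChar χ)
    (hκ : ‖κ‖ ^ (2 * m) * h ^ 2 = 1) :
    ∃ v : ℝ → XZ 0 0, HSol m h t₁ v ∧ ∀ t k, u (h ^ 2 * t) k = κ * χ k * v t k := by
  have hκ0 : κ ≠ 0 := by
    rintro rfl
    rw [norm_zero, zero_pow (by omega), zero_mul] at hκ
    exact zero_ne_one hκ
  have hχ0 : ∀ k, χ k ≠ 0 := fun k => norm_ne_zero_iff.1 (by rw [hχ.1]; exact one_ne_zero)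
  have hχz : χ 0 = 1 := by
    have := hχ.2 0 0
    rw [add_zero] at this
    exact (mul_eq_left₀ (hχ0 0)).1 this.symm
  have hχc : ∀ k, conj (χ (-k)) = χ k := fun k => by
    have h1 : χ (-k) * χ k = 1 := by rw [← hχ.2, neg_add_cancel, hχz]
    have h2 : χ (-k) * conj (χ (-k)) = 1 := by rw [Complex.mul_conj', hχ.1]; simp
    exact mul_left_cancel₀ (hχ0 (-k)) (h2.trans h1.symm)
  set T := mulOp Measure.count (wZ 0 0) (wZ 0 0) fun k => (κ * χ k)⁻¹ with hT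
  have hTk : ∀ (x : XZ 0 0) k, T x k = (κ * χ k)⁻¹ * x k := fun x =>
    ae_count.1 (mulOp_spec (C := ‖κ‖⁻¹) (measurable_of_countable _).aestronglyMeasurable
      (fun k => by rw [norm_inv, norm_mul, hχ.1, mul_one]) x).1
  have hmul : ∀ x y : XZ 0 0, T ((algZ 0 0 1).mul x y) = κ • (algZ 0 0 h).mul (T x) (T y) := by
    intro x y
    refine TSolAux_ext fun k => ?_
    rw [hTk, TSolAux_smul]
    show _ * (convOp Measure.count (wZ 0 0) x y : Z12 → ℂ) k =
      κ * (convOp Measure.count (wZ 0 0) (T x) (T y) : Z12 → ℂ) k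
    rw [XConvAux_cv, XConvAux_cv, cv, cv, ← tsum_mul_left, ← tsum_mul_left]
    refine tsum_congr fun j => ?_
    have e : χ k = χ j * χ (k - j) := by rw [← hχ.2, add_sub_cancel]
    have := hχ0 j
    have := hχ0 (k - j)
    rw [hTk, hTk, e]
    field_simp
  have hst : ∀ x : XZ 0 0, T ((algZ 0 0 1).st x) = (conj κ / κ) • (algZ 0 0 h).st (T x) := by
    intro x
    refine TSolAux_ext fun k => ?_
    rw [hTk, TSolAux_smul]
    show _ * (stOp Measure.count (wZ 0 0) x : Z12 → ℂ) k =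
      _ * (stOp Measure.count (wZ 0 0) (T x) : Z12 → ℂ) k
    have := hχ0 k
    have : conj κ ≠ 0 := (map_ne_zero _).2 hκ0
    rw [XConvAux_cj, XConvAux_cj, cj, cj, hTk, map_mul, map_inv₀, map_mul, hχc]
    field_simp
  have h1 := TSolAux_map (A := algZ 0 0 1) (B := algZ 0 0 h) T (m := m) (t₁ := t₁)
    (pow_pos hh 2)
    (fun t x => TSolAux_ext fun k => by
      rw [hTk, algZ_U, algZ_U, hTk]
      push_cast
      ring_nf)
    (fun x => by
      have e : ((h ^ 2 : ℝ) : ℂ) * (κ ^ 2 * (conj κ / κ)) ^ m = 1 := by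
        have e1 : κ ^ 2 * (conj κ / κ) = (‖κ‖ : ℂ) ^ 2 := by
          rw [← Complex.mul_conj']; field_simp
        rw [e1, ← pow_mul, mul_comm]
        exact_mod_cast hκ
      rw [(algZ 0 0 1).map_N (algZ 0 0 h) T _ _ hmul hst, smul_smul, e, one_smul]) hu
  refine ⟨_, h1, fun t k => ?_⟩
  rw [hTk, mul_inv_cancel_left₀ (mul_ne_zero hκ0 (hχ0 k))]

end P139
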