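import Vale.Agent.P139.TStepA
import Vale.Agent.P139.TCore
import Vale.Agent.P139.TPrep
import Vale.Agent.P139.TMod
import Vale.Agent.P139.TSol

/-! P139 T: one renormalisation step. -/

open Complex Set Filter Topology MeasureTheory
open scoped ComplexConjugate

noncomputable section
namespace P139

variable {m : ℕ} {P : Prof m}

theorem TStep_theta {B τ : ℝ} {K : ℕ} (hK : 4 * B + 4 ≤ (K : ℝ) + 1) (hτ : 6 ≤ τ) :
    2 ^ (K + 2) * ((2 * Real.exp (-τ / 2)) ^ (K + 1) * Real.exp (B * τ)) ≤ 1 / 4 := by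
  have e1 : (2 : ℝ) ≤ Real.exp (3 / 4) := by
    have := Real.quadratic_le_exp_of_nonneg (x := 3 / 4) (by norm_num); linarith
  have e2 : (4 : ℝ) ≤ Real.exp (τ / 4) := by
    have a : Real.exp (3 / 4) * Real.exp (3 / 4) ≤ Real.exp (τ / 4) := by
      rw [← Real.exp_add]; exact Real.exp_le_exp.2 (by linarith)
    nlinarith
  have e3 : 4 * Real.exp (-τ / 2) ≤ Real.exp (-τ / 4) := by
    have : Real.exp (-τ / 4) = Real.exp (τ / 4) * Real.exp (-τ / 2) := by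
      rw [← Real.exp_add]; congr 1; ring
    rw [this]
    exact mul_le_mul_of_nonneg_right e2 (Real.exp_pos _).le
  have e4 : (4 * Real.exp (-τ / 2)) ^ (K + 1) ≤ Real.exp (-τ / 4) ^ (K + 1) :=
    pow_le_pow_left₀ (by positivity) e3 _
  have e5 : Real.exp (-τ / 4) ^ (K + 1) * Real.exp (B * τ) ≤ Real.exp (-τ) := by
    rw [← Real.exp_nat_mul, ← Real.exp_add]
    refine Real.exp_le_exp.2 ?_
    push_cast
    nlinarith
  have e6 : Real.exp (-τ) ≤ 1 / 8 := by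
    have a : (8 : ℝ) ≤ Real.exp τ := by
      have := Real.quadratic_le_exp_of_nonneg (x := τ) (by linarith); nlinarith
    rw [Real.exp_neg, inv_eq_one_div]
    exact one_div_le_one_div_of_le (by norm_num) a
  have e7 : (2 : ℝ) ^ (K + 2) * ((2 * Real.exp (-τ / 2)) ^ (K + 1) * Real.exp (B * τ))
      = 2 * ((4 * Real.exp (-τ / 2)) ^ (K + 1) * Real.exp (B * τ)) := by
    have : (4 : ℝ) * Real.exp (-τ / 2) = 2 * (2 * Real.exp (-τ / 2)) := by ring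
    rw [this, mul_pow 2 (2 * Real.exp (-τ / 2))]
    ring
  rw [e7]
  have e8 := mul_le_mul_of_nonneg_right e4 (Real.exp_pos (B * τ)).le
  linarith

theorem TStep_small {a b c d : ℝ} (ha : 0 < a) (hb : 0 < b) (hc : 0 < c) (hd : 0 < d) :
    ∃ r : ℝ, 0 < r ∧ r < a ∧ r ≤ b ∧ r ≤ c ∧ r ≤ d := by
  refine ⟨min (a / 2) (min b (min c d)), by positivity, ?_, ?_, ?_, ?_⟩
  · exact (min_le_left _ _).trans_lt (by linarith)
  · exact (min_le_right _ _).trans (min_le_left _ _)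
  · exact (min_le_right _ _).trans ((min_le_right _ _).trans (min_le_left _ _))
  · exact (min_le_right _ _).trans ((min_le_right _ _).trans (min_le_right _ _))

theorem TStep_le_div {r a : ℝ} (ha : 0 ≤ a) {c : ℝ} (_hc : 0 ≤ c) (hr0 : 0 ≤ r)
    (hr : r ≤ c / (a + 1)) : a * r ≤ c := by
  have h1 : r * (a + 1) ≤ c := (le_div_iff₀ (by positivity)).1 hr
  nlinarith

theorem TStep_ar1 {a M r η G : ℝ} (ha : a ≤ M * r) (hη : η ≤ r) (hG : 0 < G) :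
    (a + η) * G ≤ (M + 1) * G * r := by
  have : a + η ≤ (M + 1) * r := by linarith
  nlinarith

theorem TStep_ar2 {Cm k3 Cc η g r : ℝ} (hCm : 1 ≤ Cm) (hk3 : 1 ≤ k3) (hCc : 0 ≤ Cc)
    (hη : 0 < η) (hr : 0 < r) (hη1 : η ≤ r / 16 / (Cm * k3 * Cc + 1))
    (hr2 : r ≤ 1 / 16 / (Cm * k3 * (Cc * g ^ 2) + 1)) {e : ℝ}
    (hed : e = Cc * (η + (g * r) ^ 2) + 1 / (8 * Cm * k3 ^ 2) * (k3 * r)) :
    Cm * k3 * e ≤ r / 4 ∧ e ≤ r := by
  have hE1 : Cm * k3 * (Cc * (η + (g * r) ^ 2)) ≤ r / 8 := by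
    have a1 := TStep_le_div (a := Cm * k3 * Cc) (by positivity) (by positivity) hη.le hη1
    have a2 := TStep_le_div (a := Cm * k3 * (Cc * g ^ 2)) (by positivity)
      (by positivity) hr.le hr2
    have a3 := mul_le_mul_of_nonneg_right a2 hr.le
    have a4 : Cm * k3 * (Cc * (η + (g * r) ^ 2))
        = Cm * k3 * Cc * η + Cm * k3 * (Cc * g ^ 2) * r * r := by ring
    linarith
  have hE2 : Cm * k3 * (1 / (8 * Cm * k3 ^ 2) * (k3 * r)) = r / 8 := by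
    field_simp
  have he0 : 0 ≤ e := by rw [hed]; positivity
  have hE : Cm * k3 * e ≤ r / 4 := by rw [hed, mul_add]; linarith
  refine ⟨hE, ?_⟩
  have : 1 ≤ Cm * k3 := one_le_mul_of_one_le_of_one_le hCm hk3
  nlinarith

theorem TStep_ar3 {Cm k3 A e r h n : ℝ} (hCm : 1 ≤ Cm) (hA : 0 ≤ A) (hr : 0 < r) (hh : 0 ≤ h)
    (hh0 : h ≤ 1 / 8 / (Cm * A + 1)) (hE : Cm * k3 * e ≤ r / 4) (hn : n ≤ k3 * e) :
    Cm * (n + 1 / 8 / (Cm * A + 1) * (A * r) + h * (A * r)) ≤ r := by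
  have a1 := TStep_le_div (a := Cm * A) (r := 1 / 8 / (Cm * A + 1)) (c := 1 / 8)
    (by positivity) (by positivity) (by positivity) le_rfl
  have a2 := TStep_le_div (a := Cm * A) (r := h) (c := 1 / 8)
    (by positivity) (by positivity) hh hh0
  have a3 := mul_le_mul_of_nonneg_right a1 hr.le
  have a4 := mul_le_mul_of_nonneg_right a2 hr.le
  have a5 := mul_le_mul_of_nonneg_left hn (a := Cm) (by linarith)
  generalize 1 / 8 / (Cm * A + 1) = ε at *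
  rw [mul_add, mul_add]
  nlinarith

theorem TStep_ar4 {Cm k2 k3 A Zs e r s1 G M n w : ℝ} (hk2 : 0 < k2) (hk3 : 1 ≤ k3)
    (hr : 0 < r) (hs1 : 0 ≤ s1) (hM1 : 1 ≤ M) (her : e ≤ r)
    (hMd : M = 2 * (1 + 2 * k2 * (k2 * (k3 * (1 + A * Zs))) + Cm * A))
    (hθ : 2 * k2 * (s1 * G) ≤ 1 / 4) (hw : w ≤ (M + 1) * G * r)
    (hn : n ≤ s1 * w + k2 * (k3 * (e + A * r * Zs))) :
    2 * k2 * n + Cm * (A * r) ≤ M * r := by
  have a1 : s1 * w ≤ s1 * ((M + 1) * G * r) := mul_le_mul_of_nonneg_left hw hs1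
  have a2 : k2 * (k3 * (e + A * r * Zs)) ≤ k2 * (k3 * (1 + A * Zs)) * r := by
    have : e + A * r * Zs ≤ (1 + A * Zs) * r := by linarith
    have := mul_le_mul_of_nonneg_left this (a := k2 * k3) (by positivity)
    linarith
  have a3 := mul_le_mul_of_nonneg_left (hn.trans (add_le_add a1 a2)) (a := 2 * k2)
    (by positivity)
  have a4 : 2 * k2 * (s1 * ((M + 1) * G * r)) ≤ 1 / 4 * ((M + 1) * r) := by
    have := mul_le_mul_of_nonneg_right hθ (a := (M + 1) * r) (by positivity)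
    linarith
  have a5 : M * r = 2 * (r + 2 * k2 * (k2 * (k3 * (1 + A * Zs)) * r) + Cm * (A * r)) := by
    rw [hMd]; ring
  have a6 : r ≤ M * r := le_mul_of_one_le_left hr.le hM1
  rw [mul_add] at a3
  linarith

theorem TStep_sig {τ h : ℝ} (hτ6 : 6 ≤ τ) (hh : 0 < h) : h * Real.exp (-τ / 2) ≤ h / 4 := by
  have hσ4 : Real.exp (-τ / 2) ≤ 1 / 4 := by
    have a : (4 : ℝ) ≤ Real.exp (τ / 2) := by
      have := Real.add_one_le_exp (τ / 2); linarith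
    rw [neg_div, Real.exp_neg, inv_eq_one_div]
    exact one_div_le_one_div_of_le (by norm_num) a
  nlinarith

theorem stStep (F : FD P) (hm : 1 ≤ m) (hL : LinOut F) (hQS : StQS F) (hMOD : StMOD F) :
    StStep F := by
  obtain ⟨K₁, hL⟩ := hL
  set B : ℝ := (2 * m + 1) * (2 * (∫ ξ, ‖F.q ξ‖) + 3) ^ (2 * m) with hB
  obtain ⟨K, hK₁, hKB⟩ : ∃ K : ℕ, K₁ ≤ K ∧ 4 * B + 4 ≤ (K : ℝ) + 1 := by
    refine ⟨max K₁ ⌈4 * B + 4⌉₊, le_max_left _ _, ?_⟩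
    have h1 : (⌈4 * B + 4⌉₊ : ℝ) ≤ (max K₁ ⌈4 * B + 4⌉₊ : ℕ) := by
      exact_mod_cast le_max_right _ _
    have h2 := Nat.le_ceil (4 * B + 4)
    linarith
  obtain ⟨Cm, hCm, hmod⟩ := remod F hm hMOD K
  have hCm0 : 0 < Cm := by linarith
  obtain ⟨k3, hk3d⟩ : ∃ k3 : ℝ, k3 = 3 ^ K := ⟨_, rfl⟩
  have hk3 : 1 ≤ k3 := hk3d ▸ one_le_pow₀ (by norm_num)
  obtain ⟨τ, CL, hτ6, hCL, hlin⟩ := hL K hK₁ (1 / (8 * Cm * k3 ^ 2)) (by positivity) 6
  have hτ : 0 ≤ τ := by linarith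
  set t₁ := 1 - Real.exp (-τ) with ht₁
  have ht1 : t₁ < 1 := by have := Real.exp_pos (-τ); linarith
  have ht0 : 0 ≤ t₁ := by
    have : Real.exp (-τ) ≤ 1 := Real.exp_le_one_iff.2 (by linarith)
    linarith
  obtain ⟨l, h₁, hl, hl1, hh₁, hrate⟩ := F.rate hm K ht1
  obtain ⟨R, hR, hbd⟩ := F.unif_bd K ht1
  obtain ⟨Cc, hCc, hcore⟩ := core m ((3 / l) ^ K) R (by positivity) hR
  obtain ⟨G, hGd⟩ : ∃ G : ℝ, G = Real.exp (B * τ) := ⟨_, rfl⟩
  have hG0 : 0 < G := hGd ▸ Real.exp_pos _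
  obtain ⟨Zs, hZd⟩ : ∃ Z : ℝ, Z = ∑ i, ‖F.zW K 1 i‖ := ⟨_, rfl⟩
  have hZ : 0 ≤ Zs := hZd ▸ Finset.sum_nonneg fun i _ => norm_nonneg _
  obtain ⟨A, hAd⟩ : ∃ A : ℝ, A = CL * k3 := ⟨_, rfl⟩
  have hA : 0 ≤ A := by rw [hAd]; positivity
  obtain ⟨k2, hk2d⟩ : ∃ k2 : ℝ, k2 = 2 ^ (K + 1) := ⟨_, rfl⟩
  have hk2 : 0 < k2 := by rw [hk2d]; positivity
  obtain ⟨M, hMd⟩ : ∃ M : ℝ, M = 2 * (1 + 2 * k2 * (k2 * (k3 * (1 + A * Zs))) + Cm * A) :=
    ⟨_, rfl⟩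
  have hM1 : 1 ≤ M := by
    have : 0 ≤ 2 * k2 * (k2 * (k3 * (1 + A * Zs))) + Cm * A := by positivity
    rw [hMd]; linarith
  obtain ⟨ρm, hρm, hmod⟩ := hmod (1 / 8 / (Cm * A + 1)) (by positivity)
  have hΘ : 0 < ‖P.Θ 0‖ := norm_pos_iff.2 (P.ne 0 le_rfl)
  obtain ⟨r, hr, hrΘ, hrm, hr1, hr2⟩ := TStep_small hΘ (b := ρm / (A + 1))
    (c := 1 / ((M + 1) * G + 1)) (d := 1 / 16 / (Cm * k3 * (Cc * ((M + 1) * G) ^ 2) + 1))
    (by positivity) (by positivity) (by positivity)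
  obtain ⟨η, hη, -, hηr, hη1, -⟩ := TStep_small one_pos hr
    (c := r / 16 / (Cm * k3 * Cc + 1)) (by positivity) one_pos
  obtain ⟨h₂, hh₂, hprep⟩ := prep F hQS K hl hl1 ht1 hη
  obtain ⟨h₃, hh₃, -, h31, h32, h33⟩ := TStep_small one_pos hh₁ hh₂ one_pos
  obtain ⟨h₀, hh₀, -, h03, h04, h05⟩ := TStep_small one_pos hh₃
    (c := η / (4 * (3 / l) ^ (K + 1) + 1)) (d := 1 / 8 / (Cm * A + 1)) (by positivity)
    (by positivity)
  refine ⟨K, l, r, M, h₀, hl, hl1, hr, hrΘ, hM1, hh₀, by linarith, fun h hh hh0 c hc => ?_⟩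
  have hh1 : h ≤ 1 := by linarith
  obtain ⟨hc1, hc2, hc3⟩ := hc
  obtain ⟨happ, hDN⟩ := hprep h hh (by linarith)
  set x₀ : XZ (K + 1) (l * h) := toW Measure.count (wZ (K + 1) (l * h)) c with hx₀
  have hx₀k : ∀ k, x₀ k = c k := ae_count.1 (toW_coe hc1)
  have hd0 : ((x₀ - F.bW K l h 0 : XZ (K + 1) (l * h)) : Z12 → ℂ)
      = fun k => c k - perF h F.q k := by
    funext k
    have h1 : (x₀ - F.bW K l h 0 : XZ (K + 1) (l * h)) k = x₀ k - F.bW K l h 0 k :=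
      ae_count.1 (XW_sub x₀ (F.bW K l h 0)) k
    rw [h1, hx₀k, F.bW_coe K l hh one_pos, F.qt_zero]
  have hn0 : ‖x₀ - F.bW K l h 0‖ ≤ M * r := by rw [norm_eq_nw, hd0]; exact hc3
  have hint : ∫ s in (0 : ℝ)..t₁, B / (1 - s) = B * τ := int_rate B τ hτ
  have hρ : (‖x₀ - F.bW K l h 0‖ + η) * G ≤ (M + 1) * G * r := TStep_ar1 hn0 hηr hG0
  obtain ⟨u, φ, hu0, hu, hub, hφ0, hφ, hφe⟩ := hcore _ _ (algZ (K + 1) (l * h) h) (algR K 1)
    (cutT K l h) t₁ η ((M + 1) * G * r) (F.bW K l h) (F.qW K 1) (fun s => B / (1 - s)) x₀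
    ht0 ht1.le hη.le (by positivity)
    (TStep_le_div (by positivity) zero_le_one hr.le hr1) happ
    ((F.qW_cont K 1).mono fun s hs => lt_of_le_of_lt hs.2 ht1)
    (fun s hs => (hbd s hs).2 l h hl hl1 hh hh1) (fun s hs => (hbd s hs).1)
    (continuousOn_const.div (by fun_prop) fun s hs => by have := hs.2; linarith)
    (fun s hs => by
      have := hrate h hh (by linarith) s hs
      rw [hB, mul_div_assoc]
      exact mul_le_mul_of_nonneg_left this (by positivity))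
    (by rw [hint, ← hGd]; exact hρ)
    (fun x => (cutT_spec K hl hl1 hh hh1 x).2.1)
    (fun t ht x => (cutT_U K hl hl1 hh hh1 ht x).trans (by
      refine mul_le_mul_of_nonneg_right ?_ (norm_nonneg _)
      have := TStep_le_div (a := 4 * (3 / l) ^ (K + 1)) (by positivity) hη.le hh.le
        (hh0.trans h04)
      linarith))
    hDN
  rw [hint, ← hGd] at hub
  obtain ⟨p, hp, hpe⟩ := hlin φ hφ
  have hφn : ‖φ 0‖ ≤ k3 * r := by
    rw [hφ0, hk3d]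
    refine (cutT_spec K hl hl1 hh hh1 _).2.2.trans ?_
    rw [hd0]
    exact mul_le_mul_of_nonneg_left hc2 (by positivity)
  have hpA : ∀ i, |p i| ≤ A * r := fun i => (hp i).trans (by
    rw [hAd, mul_assoc]; exact mul_le_mul_of_nonneg_left hφn hCL)
  -- the error in the low norm
  obtain ⟨e, hed⟩ : ∃ e : ℝ, e = Cc * (η + ((M + 1) * G * r) ^ 2)
      + 1 / (8 * Cm * k3 ^ 2) * (k3 * r) := ⟨_, rfl⟩
  obtain ⟨hE, her⟩ := TStep_ar2 hCm hk3 hCc hη hr hη1 hr2 hed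
  have he : ‖P.Dinv K τ (cutT K l h (u t₁ - F.bW K l h t₁))
      - ∑ i, (p i : ℂ) • F.zW K 1 i‖ ≤ e := by
    have a1 : P.Dinv K τ (cutT K l h (u t₁ - F.bW K l h t₁)) - ∑ i, (p i : ℂ) • F.zW K 1 i
        = (P.Dinv K τ (φ t₁) - ∑ i, (p i : ℂ) • F.zW K 1 i)
          - P.Dinv K τ (φ t₁ - cutT K l h (u t₁ - F.bW K l h t₁)) := by
      rw [map_sub (P.Dinv K τ) (φ t₁)]; abel
    have a2 := (Dinv_spec P K hτ (φ t₁ - cutT K l h (u t₁ - F.bW K l h t₁))).2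
    have a3 := mul_le_mul_of_nonneg_left hφn (a := 1 / (8 * Cm * k3 ^ 2)) (by positivity)
    rw [a1, hed]
    refine (norm_sub_le _ _).trans ?_
    linarith
  obtain ⟨hd1, hd2, hd3⟩ := end_est F K hl hl1 hh hh1 hτ (u t₁) p hpA he
  have hσ : 0 < Real.exp (-τ / 2) := Real.exp_pos _
  have hh'h : h * Real.exp (-τ / 2) ≤ h / 4 := TStep_sig hτ6 hh
  obtain ⟨h', κ, χ, c', hh', hh'2, hχ, hκ, hdk, hm1, hm2, hm3⟩ :=
    hmod l (h * Real.exp (-τ / 2)) (A * r) p _ hl hl1 (mul_pos hh hσ) (by linarith)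
      (TStep_le_div hA hρm.le hr.le hrm) hpA hd1
  obtain ⟨v, hv, hvk⟩ := hsol_of_top ht1.le hu
  refine ⟨t₁, h', v, cexp (P.aa * τ) * κ, χ, c', ht0, ht1.le, hh', by linarith, hv,
    fun k => by rw [hvk, hu0, hx₀k], hχ, ?_, fun k => ?_, hm1, hm2.trans ?_, hm3.trans ?_⟩
  · rw [norm_mul, mul_pow, mul_assoc, hκ, mul_pow]
    have := norm_exp_aa_pow P hm τ
    calc _ = h ^ 2 * (‖cexp (P.aa * τ)‖ ^ (2 * m) * Real.exp (-τ / 2) ^ 2) := by ring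
      _ = _ := by rw [this, mul_one]
  · have hee : cexp (P.aa * τ) * cexp (-P.aa * τ) = 1 := by
      rw [← Complex.exp_add]; simp
    have := hdk k
    rw [hvk, mul_assoc, mul_assoc, ← mul_assoc κ, ← this, ← mul_assoc, hee, one_mul]
  · rw [← hk3d] at hd2
    exact TStep_ar3 hCm hA hr (mul_pos hh hσ).le (by linarith) hE hd2
  · rw [← hk3d, ← hk2d, ← hZd] at hd3
    have hθ := TStep_theta hKB hτ6
    have hk22 : (2 : ℝ) ^ (K + 2) = 2 * k2 := by rw [hk2d]; ring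
    rw [← hGd, hk22] at hθ
    rw [hk22]
    exact TStep_ar4 hk2 hk3 hr (by positivity) hM1 her hMd hθ (hub.trans hρ) hd3

end P139
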