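import Vale.Agent.P139.TQt

/-! P139 T: end of a step, from the continuum estimate back to the lattice. -/

open Complex Set Filter Topology MeasureTheory
open scoped ComplexConjugate

noncomputable section
namespace P139

variable {m : ℕ} {P : Prof m}

theorem gam_nonneg (m : ℕ) : 0 ≤ gam m := by unfold gam; positivity

theorem norm_exp_neg_aa (P : Prof m) {τ : ℝ} (hτ : 0 ≤ τ) : ‖cexp (-P.aa * τ)‖ ≤ 1 := by
  rw [Complex.norm_exp]
  refine Real.exp_le_one_iff.2 ?_
  have : (-P.aa * τ).re = -(gam m * τ) := by simp [Prof.aa]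
  rw [this]
  have := gam_nonneg m
  have : 0 ≤ gam m * τ := by positivity
  linarith

theorem norm_exp_aa_pow (P : Prof m) (hm : 1 ≤ m) (τ : ℝ) :
    ‖cexp (P.aa * τ)‖ ^ (2 * m) * Real.exp (-τ / 2) ^ 2 = 1 := by
  rw [Complex.norm_exp, ← Real.exp_nat_mul, ← Real.exp_nat_mul, ← Real.exp_add]
  have h1 : (P.aa * τ).re = gam m * τ := by simp [Prof.aa]
  have hm' : (m : ℝ) ≠ 0 := by have : (1 : ℝ) ≤ m := by exact_mod_cast hm
                               linarith
  rw [h1, Real.exp_eq_one_iff]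
  unfold gam
  push_cast
  field_simp
  ring

theorem Dinv_spec (P : Prof m) (K : ℕ) {τ : ℝ} (hτ : 0 ≤ τ) (x : XR K 1) :
    P.Dinv K τ x =ᵐ[volume] (fun ξ => cexp (-P.aa * τ) * dilF (Real.exp (τ / 2)) x ξ) ∧
      ‖P.Dinv K τ x‖ ≤ ‖x‖ := by
  have hσ : 0 < Real.exp (τ / 2) := Real.exp_pos _
  obtain ⟨h1, h2⟩ := dilOp_same (K := K) (l := 1) hσ x
  have hmax : max 1 (Real.exp (τ / 2))⁻¹ = 1 := by
    refine max_eq_left (inv_le_one_of_one_le₀ (Real.one_le_exp (by linarith)))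
  rw [hmax, one_pow, one_mul] at h2
  have he : P.Dinv K τ x = cexp (-P.aa * τ) • dilOp (wR K 1) (wR K 1) (Real.exp (τ / 2)) x := rfl
  refine ⟨?_, ?_⟩
  · rw [he]
    filter_upwards [XW_smul (cexp (-P.aa * τ)) (dilOp (wR K 1) (wR K 1) (Real.exp (τ / 2)) x), h1]
      with ξ a b
    rw [a, b]
  · rw [he, norm_smul]
    calc _ ≤ 1 * ‖x‖ := mul_le_mul (norm_exp_neg_aa P hτ) h2 (norm_nonneg _) zero_le_one
      _ = _ := one_mul _

theorem per_low {K : ℕ} {h : ℝ} (hh : 0 < h) (hh1 : h ≤ 1) (k : Z12) (ξ : E) (hξ : ξ ∈ cell h k) :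
    (wZ K h).w k ≤ 3 ^ K * (wR K 1).w ξ := by
  have h1 := cell_wZ (K := K) (l := 1) hh hξ
  rw [one_mul] at h1
  refine h1.trans (mul_le_mul_of_nonneg_right ?_ ((wR K 1).pos ξ).le)
  refine pow_le_pow_left₀ (by positivity) ?_ K
  simp only [abs_one]; linarith

theorem exists_perFun (K : ℕ) {h : ℝ} (hh : 0 < h) (hh1 : h ≤ 1) (k : Z12) :
    ∃ T : XR K 1 →L[ℂ] ℂ, ∀ x, T x = perF h x k := by
  obtain ⟨e, he⟩ := exists_evZ (wZ K h) k
  refine ⟨e.comp (perOp (wR K 1) (wZ K h) h), fun x => ?_⟩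
  rw [ContinuousLinearMap.comp_apply, he, (perOp_spec (per_low hh hh1) x).1 k]

/-- the two lattice estimates at the end of a step, before re-modulation -/
theorem end_est (F : FD P) (K : ℕ) {l h τ e a : ℝ} (hl : 0 < l) (hl1 : l ≤ 1) (hh : 0 < h)
    (hh1 : h ≤ 1) (hτ : 0 ≤ τ) (x : XZ (K + 1) (l * h)) (p : Md14 → ℝ) (hp : ∀ i, |p i| ≤ a)
    (he : ‖P.Dinv K τ (cutT K l h (x - F.bW K l h (1 - Real.exp (-τ))))
      - ∑ i, (p i : ℂ) • F.zW K 1 i‖ ≤ e) :
    MemW Measure.count (wZ (K + 1) (l * (h * Real.exp (-τ / 2))))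
      (fun k => cexp (-P.aa * τ) * x k) ∧
    nw Measure.count (wZ K (h * Real.exp (-τ / 2))) (fun k => cexp (-P.aa * τ) * x k
      - perF (h * Real.exp (-τ / 2)) F.q k
      - ∑ i, (p i : ℂ) * perF (h * Real.exp (-τ / 2)) (F.z i) k) ≤ 3 ^ K * e ∧
    nw Measure.count (wZ (K + 1) (l * (h * Real.exp (-τ / 2))))
      (fun k => cexp (-P.aa * τ) * x k - perF (h * Real.exp (-τ / 2)) F.q k)
      ≤ (2 * Real.exp (-τ / 2)) ^ (K + 1) * ‖x - F.bW K l h (1 - Real.exp (-τ))‖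
        + 2 ^ (K + 1) * (3 ^ K * (e + a * ∑ i, ‖F.zW K 1 i‖)) := by
  set σ := Real.exp (-τ / 2) with hσd
  have hσ : 0 < σ := Real.exp_pos _
  have hσ1 : σ ≤ 1 := Real.exp_le_one_iff.2 (by linarith)
  have hh' : 0 < h * σ := mul_pos hh hσ
  have hh'1 : h * σ ≤ 1 := by nlinarith
  have ht1 : 1 - Real.exp (-τ) < 1 := by have := Real.exp_pos (-τ); linarith
  set w := x - F.bW K l h (1 - Real.exp (-τ)) with hw
  set g := P.Dinv K τ (cutT K l h w) with hg
  have hee : cexp (-P.aa * τ) * cexp (P.aa * τ) = 1 := by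
    rw [← Complex.exp_add]; simp
  -- the coefficients of `w`
  have hwk : ∀ k, cexp (-P.aa * τ) * x k - perF (h * σ) F.q k = cexp (-P.aa * τ) * w k := by
    intro k
    have h1 : w k = x k - F.bW K l h (1 - Real.exp (-τ)) k :=
      ae_count.1 (XW_sub x (F.bW K l h (1 - Real.exp (-τ)))) k
    rw [h1, F.bW_coe K l hh ht1, F.qt_exp, perF_const_mul, perF_dil hh hσ, mul_sub, ← mul_assoc,
      hee, one_mul]
  have hgk : ∀ k, perF (h * σ) g k = cexp (-P.aa * τ) * w k := by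
    intro k
    have hτ2 : 0 < Real.exp (τ / 2) := Real.exp_pos _
    have h1 := (Dinv_spec P K hτ (cutT K l h w)).1
    have h2 := dilF_congr hτ2 (cutT_spec K hl hl1 hh hh1 w).1
    have h3 : h * σ * Real.exp (τ / 2) = h := by
      rw [hσd, mul_assoc, ← Real.exp_add]
      have : -τ / 2 + τ / 2 = 0 := by ring
      rw [this, Real.exp_zero, mul_one]
    rw [perF_congr h1, perF_const_mul, perF_congr h2, perF_dil hh' hτ2, h3, perF_cutF hh]
  have hlow : ∀ y : XR K 1, MemW Measure.count (wZ K (h * σ)) (perF (h * σ) y) ∧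
      nw Measure.count (wZ K (h * σ)) (perF (h * σ) y) ≤ 3 ^ K * ‖y‖ := by
    intro y
    rw [norm_eq_nw]
    exact MemW.per (per_low hh' hh'1) (memW_coe y)
  have hwt : ∀ k, (wZ (K + 1) (l * (h * σ))).w k ≤ (wZ (K + 1) (l * h)).w k := by
    intro k
    rw [wZ_eq, wZ_eq]
    refine wR_mono le_rfl ?_ _
    rw [abs_of_pos (mul_pos hl hh'), abs_of_pos (mul_pos hl hh)]
    have : h * σ ≤ h := by nlinarith
    exact mul_le_mul_of_nonneg_left this hl.le
  refine ⟨?_, ?_, ?_⟩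
  · refine (((memW_coe x).const_mul (cexp (-P.aa * τ))).of_le (C := 1)
      ((memW_coe x).const_mul (cexp (-P.aa * τ))).1 (Eventually.of_forall fun k => ?_)).1
    rw [one_mul]
    exact mul_le_mul_of_nonneg_right (hwt k) (norm_nonneg _)
  · have h1 : (fun k => cexp (-P.aa * τ) * x k - perF (h * σ) F.q k
        - ∑ i, (p i : ℂ) * perF (h * σ) (F.z i) k)
        = perF (h * σ) (g - ∑ i, (p i : ℂ) • F.zW K 1 i : XR K 1) := by
      funext k
      obtain ⟨T, hT⟩ := exists_perFun K hh' hh'1 k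
      rw [← hT, map_sub, map_sum, hT, hgk, hwk]
      congr 1
      refine Finset.sum_congr rfl fun i _ => ?_
      rw [map_smul, hT, smul_eq_mul, FD.zW, perF_congr (toW_coe (F.memz K i))]
    rw [h1]
    exact (hlow _).2.trans (mul_le_mul_of_nonneg_left he (by positivity))
  · have h1 : (fun k => cexp (-P.aa * τ) * x k - perF (h * σ) F.q k)
        = fun k => cexp (-P.aa * τ) * w k := funext hwk
    have h2 : (fun k => cexp (-P.aa * τ) * w k) = perF (h * σ) g := funext fun k => (hgk k).symm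
    have hm1 : MemW Measure.count (wZ (K + 1) (l * h)) fun k => cexp (-P.aa * τ) * w k :=
      (memW_coe w).const_mul _
    have hm2 : MemW Measure.count (wZ K (h * σ)) fun k => cexp (-P.aa * τ) * w k := by
      rw [h2]; exact (hlow g).1
    have hsp : ∀ k, (wZ (K + 1) (l * (h * σ))).w k ≤ (2 * σ) ^ (K + 1) * (wZ (K + 1) (l * h)).w k
        + 2 ^ (K + 1) * (wZ K (h * σ)).w k := by
      intro k
      have a1 := wR_split (K + 1) (l := l * h) hσ (emb k)
      rw [mul_assoc l h σ] at a1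
      have a2 : (2 : ℝ) ^ (K + 1) ≤ 2 ^ (K + 1) * (wZ K (h * σ)).w k :=
        le_mul_of_one_le_right (by positivity) ((wZ K (h * σ)).one_le k)
      rw [wZ_eq, wZ_eq (K + 1)]
      linarith
    have h3 := (nw_le_two hm1 hm2 hsp).2
    have h4 : nw Measure.count (wZ (K + 1) (l * h)) (fun k => cexp (-P.aa * τ) * w k) ≤ ‖w‖ := by
      rw [nw_const_mul, ← norm_eq_nw]
      exact mul_le_of_le_one_left (norm_nonneg _) (norm_exp_neg_aa P hτ)
    have h5 : ‖g‖ ≤ e + a * ∑ i, ‖F.zW K 1 i‖ := by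
      have b1 : ‖∑ i, (p i : ℂ) • F.zW K 1 i‖ ≤ a * ∑ i, ‖F.zW K 1 i‖ := by
        rw [Finset.mul_sum]
        refine (norm_sum_le _ _).trans (Finset.sum_le_sum fun i _ => ?_)
        rw [norm_smul, Complex.norm_real, Real.norm_eq_abs]
        exact mul_le_mul_of_nonneg_right (hp i) (norm_nonneg _)
      have b2 := norm_add_le (g - ∑ i, (p i : ℂ) • F.zW K 1 i) (∑ i, (p i : ℂ) • F.zW K 1 i)
      rw [sub_add_cancel] at b2
      linarith
    have h6 : nw Measure.count (wZ K (h * σ)) (fun k => cexp (-P.aa * τ) * w k)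
        ≤ 3 ^ K * (e + a * ∑ i, ‖F.zW K 1 i‖) := by
      rw [h2]
      exact (hlow g).2.trans (mul_le_mul_of_nonneg_left h5 (by positivity))
    rw [h1]
    refine h3.trans (add_le_add ?_ ?_)
    · exact mul_le_mul_of_nonneg_left h4 (by positivity)
    · exact mul_le_mul_of_nonneg_left h6 (by positivity)

end P139
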