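import Vale.Agent.P139.XDefs

/-! P139: basic facts on the weighted spaces, `liftOp`, multipliers, pairings. -/

open Complex Set Filter Topology MeasureTheory
open scoped ComplexConjugate

noncomputable section
namespace P139

variable {G H : Type} [AddCommGroup G] [MeasurableSpace G] [AddCommGroup H] [MeasurableSpace H]
  {μ : Measure G} {ν : Measure H} {ω ω₁ ω₂ : Wt G} {f g : G → ℂ}

theorem Wt.pos (ω : Wt G) (x : G) : 0 < ω.w x := lt_of_lt_of_le one_pos (ω.one_le x)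

theorem XBaseAux_meas (ω : Wt G) : Measurable fun x => ENNReal.ofReal (ω.w x) :=
  ω.meas.ennreal_ofReal

theorem XBaseAux_ac : ω.msr μ ≪ μ := withDensity_absolutelyContinuous _ _

theorem XBaseAux_ac' : μ ≪ ω.msr μ :=
  withDensity_absolutelyContinuous' (XBaseAux_meas ω).aemeasurable
    (Eventually.of_forall fun x => (ENNReal.ofReal_pos.2 (ω.pos x)).ne')

theorem XBaseAux_int (h : G → ℝ) : ∫ x, h x ∂ω.msr μ = ∫ x, ω.w x * h x ∂μ := by
  unfold Wt.msr
  rw [integral_withDensity_eq_integral_toReal_smul (XBaseAux_meas ω)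
    (Eventually.of_forall fun _ => ENNReal.ofReal_lt_top)]
  refine integral_congr_ae (Eventually.of_forall fun x => ?_)
  simp only [ENNReal.toReal_ofReal (ω.pos x).le, smul_eq_mul]

theorem XBaseAux_intg (h : G → ℝ) :
    Integrable h (ω.msr μ) ↔ Integrable (fun x => ω.w x * h x) μ := by
  unfold Wt.msr
  rw [integrable_withDensity_iff_integrable_smul' (XBaseAux_meas ω)
    (Eventually.of_forall fun _ => ENNReal.ofReal_lt_top)]
  simp only [fun x => ENNReal.toReal_ofReal (ω.pos x).le, smul_eq_mul]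

theorem ae_msr {p : G → Prop} : (∀ᵐ x ∂ω.msr μ, p x) ↔ ∀ᵐ x ∂μ, p x := by
  exact ⟨fun h => XBaseAux_ac'.ae_le h, fun h => XBaseAux_ac.ae_le h⟩

theorem memW_iff : MemW μ ω f ↔ MemLp f 1 (ω.msr μ) := by
  rw [memLp_one_iff_integrable]
  refine ⟨fun h => ?_, fun h => ⟨h.1.mono_ac XBaseAux_ac', (XBaseAux_intg _).1 h.norm⟩⟩
  exact (integrable_norm_iff (h.1.mono_ac XBaseAux_ac)).1 ((XBaseAux_intg _).2 h.2)

theorem memW_coe (x : XW μ ω) : MemW μ ω x := by
  exact memW_iff.2 (Lp.memLp x)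

theorem norm_eq_nw (x : XW μ ω) : ‖x‖ = nw μ ω x := by
  rw [L1.norm_eq_integral_norm, XBaseAux_int]
  rfl

theorem toW_coe (h : MemW μ ω f) : toW μ ω f =ᵐ[μ] f := by
  unfold toW
  rw [dif_pos (memW_iff.1 h)]
  exact ae_msr.1 (MemLp.coeFn_toLp _)

theorem norm_toW (h : MemW μ ω f) : ‖toW μ ω f‖ = nw μ ω f := by
  rw [norm_eq_nw]
  exact integral_congr_ae ((toW_coe h).mono fun x hx => by simp only [hx])

theorem XW_ext {x y : XW μ ω} (h : (x : G → ℂ) =ᵐ[μ] y) : x = y := by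
  exact Lp.ext (ae_msr.2 h)

theorem toW_self (x : XW μ ω) : toW μ ω x = x := by
  exact XW_ext (toW_coe (memW_coe x))

theorem toW_congr (h : f =ᵐ[μ] g) : toW μ ω f = toW μ ω g := by
  have h' : f =ᵐ[ω.msr μ] g := ae_msr.2 h
  unfold toW
  by_cases hf : MemLp f 1 (ω.msr μ)
  · rw [dif_pos hf, dif_pos ((memLp_congr_ae h').1 hf)]
    exact MemLp.toLp_congr _ _ h'
  · rw [dif_neg hf, dif_neg fun hg => hf ((memLp_congr_ae h').2 hg)]

theorem eq_toW {x : XW μ ω} (h : (x : G → ℂ) =ᵐ[μ] f) : x = toW μ ω f := by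
  rw [← toW_congr h, toW_self]

theorem XW_zero : ((0 : XW μ ω) : G → ℂ) =ᵐ[μ] fun _ => 0 := by
  exact ae_msr.1 (Lp.coeFn_zero _ _ _)

theorem XW_add (x y : XW μ ω) : ((x + y : XW μ ω) : G → ℂ) =ᵐ[μ] fun a => x a + y a := by
  exact ae_msr.1 (Lp.coeFn_add x y)

theorem XW_sub (x y : XW μ ω) : ((x - y : XW μ ω) : G → ℂ) =ᵐ[μ] fun a => x a - y a := by
  exact ae_msr.1 (Lp.coeFn_sub x y)

theorem XW_smul (c : ℂ) (x : XW μ ω) : ((c • x : XW μ ω) : G → ℂ) =ᵐ[μ] fun a => c * x a := by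
  exact ae_msr.1 (Lp.coeFn_smul c x)

theorem XW_sum {ι : Type} (s : Finset ι) (x : ι → XW μ ω) :
    ((∑ i ∈ s, x i : XW μ ω) : G → ℂ) =ᵐ[μ] fun a => ∑ i ∈ s, x i a := by
  exact ae_msr.1 (Lp.coeFn_fun_finsetSum s x)

theorem MemW.integrable (h : MemW μ ω f) : Integrable f μ := by
  refine h.2.mono' h.1 (Eventually.of_forall fun x => ?_)
  exact le_mul_of_one_le_left (norm_nonneg _) (ω.one_le x)

theorem MemW.congr (h : MemW μ ω f) (hfg : f =ᵐ[μ] g) : MemW μ ω g := by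
  exact memW_iff.2 ((memLp_congr_ae (ae_msr.2 hfg)).1 (memW_iff.1 h))

theorem nw_congr (hfg : f =ᵐ[μ] g) : nw μ ω f = nw μ ω g := by
  exact integral_congr_ae (hfg.mono fun x hx => by simp only [hx])

theorem nw_nonneg : 0 ≤ nw μ ω f := by
  exact integral_nonneg fun x => mul_nonneg (ω.pos x).le (norm_nonneg _)

theorem MemW.add (hf : MemW μ ω f) (hg : MemW μ ω g) : MemW μ ω fun x => f x + g x := by
  exact memW_iff.2 ((memW_iff.1 hf).add (memW_iff.1 hg))

theorem MemW.sub (hf : MemW μ ω f) (hg : MemW μ ω g) : MemW μ ω fun x => f x - g x := by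
  exact memW_iff.2 ((memW_iff.1 hf).sub (memW_iff.1 hg))

theorem MemW.const_mul (hf : MemW μ ω f) (c : ℂ) : MemW μ ω fun x => c * f x := by
  exact memW_iff.2 ((memW_iff.1 hf).const_mul c)

theorem MemW.sum {ι : Type} (s : Finset ι) {F : ι → G → ℂ} (h : ∀ i ∈ s, MemW μ ω (F i)) :
    MemW μ ω fun x => ∑ i ∈ s, F i x := by
  exact memW_iff.2 (memLp_finsetSum s fun i hi => memW_iff.1 (h i hi))

theorem nw_add_le (hf : MemW μ ω f) (hg : MemW μ ω g) :
    nw μ ω (fun x => f x + g x) ≤ nw μ ω f + nw μ ω g := by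
  unfold nw
  rw [← integral_add hf.2 hg.2]
  refine integral_mono (hf.add hg).2 (hf.2.add hg.2) fun x => ?_
  simp only
  rw [← mul_add]
  exact mul_le_mul_of_nonneg_left (norm_add_le _ _) (ω.pos x).le

theorem nw_sub_le (hf : MemW μ ω f) (hg : MemW μ ω g) :
    nw μ ω (fun x => f x - g x) ≤ nw μ ω f + nw μ ω g := by
  unfold nw
  rw [← integral_add hf.2 hg.2]
  refine integral_mono (hf.sub hg).2 (hf.2.add hg.2) fun x => ?_
  simp only
  rw [← mul_add]
  exact mul_le_mul_of_nonneg_left (norm_sub_le _ _) (ω.pos x).le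

theorem nw_const_mul (c : ℂ) : nw μ ω (fun x => c * f x) = ‖c‖ * nw μ ω f := by
  unfold nw
  rw [← integral_const_mul]
  refine integral_congr_ae (Eventually.of_forall fun x => ?_)
  simp only
  rw [norm_mul, mul_left_comm]

/-- pointwise domination -/
theorem MemW.of_le {C : ℝ} (hf : MemW μ ω₁ f) (hg : AEStronglyMeasurable g μ)
    (h : ∀ᵐ x ∂μ, ω₂.w x * ‖g x‖ ≤ C * (ω₁.w x * ‖f x‖)) :
    MemW μ ω₂ g ∧ nw μ ω₂ g ≤ C * nw μ ω₁ f := by
  have h1 : Integrable (fun x => ω₂.w x * ‖g x‖) μ := by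
    refine (hf.2.const_mul C).mono' (ω₂.meas.aestronglyMeasurable.mul hg.norm)
      (h.mono fun x hx => ?_)
    rw [Real.norm_of_nonneg (mul_nonneg (ω₂.pos x).le (norm_nonneg _))]
    exact hx
  refine ⟨⟨hg, h1⟩, ?_⟩
  unfold nw
  rw [← integral_const_mul]
  exact integral_mono_ae h1 (hf.2.const_mul C) h

/-- comparison with a sum of two weights -/
theorem nw_le_two {ω₃ : Wt G} {a b : ℝ} (h₁ : MemW μ ω₁ f) (h₂ : MemW μ ω₂ f)
    (h : ∀ x, ω₃.w x ≤ a * ω₁.w x + b * ω₂.w x) :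
    MemW μ ω₃ f ∧ nw μ ω₃ f ≤ a * nw μ ω₁ f + b * nw μ ω₂ f := by
  have hp : ∀ x, ω₃.w x * ‖f x‖ ≤ a * (ω₁.w x * ‖f x‖) + b * (ω₂.w x * ‖f x‖) := fun x => by
    have := mul_le_mul_of_nonneg_right (h x) (norm_nonneg (f x))
    linarith
  have h0 : Integrable (fun x => a * (ω₁.w x * ‖f x‖) + b * (ω₂.w x * ‖f x‖)) μ :=
    (h₁.2.const_mul a).add (h₂.2.const_mul b)
  have h1 : Integrable (fun x => ω₃.w x * ‖f x‖) μ := by
    refine h0.mono' (ω₃.meas.aestronglyMeasurable.mul h₁.1.norm) (Eventually.of_forall fun x => ?_)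
    rw [Real.norm_of_nonneg (mul_nonneg (ω₃.pos x).le (norm_nonneg _))]
    exact hp x
  refine ⟨⟨h₁.1, h1⟩, ?_⟩
  unfold nw
  rw [← integral_const_mul, ← integral_const_mul,
    ← integral_add (h₁.2.const_mul a) (h₂.2.const_mul b)]
  exact integral_mono h1 h0 hp

theorem norm_integral_le_nw (hf : MemW μ ω f) : ∫ x, ‖f x‖ ∂μ ≤ nw μ ω f := by
  exact integral_mono hf.integrable.norm hf.2 fun x =>
    le_mul_of_one_le_left (norm_nonneg _) (ω.one_le x)

theorem liftOp_spec {ω' : Wt H} {Φ : (G → ℂ) → H → ℂ} {C : ℝ}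
    (hcongr : ∀ f g, MemW μ ω f → f =ᵐ[μ] g → Φ f =ᵐ[ν] Φ g)
    (hadd : ∀ f g, MemW μ ω f → MemW μ ω g →
      Φ (fun x => f x + g x) =ᵐ[ν] fun y => Φ f y + Φ g y)
    (hsmul : ∀ (c : ℂ) f, MemW μ ω f → Φ (fun x => c * f x) =ᵐ[ν] fun y => c * Φ f y)
    (hmem : ∀ f, MemW μ ω f → MemW ν ω' (Φ f) ∧ nw ν ω' (Φ f) ≤ C * nw μ ω f) (x : XW μ ω) :
    liftOp μ ν ω ω' Φ x =ᵐ[ν] Φ x ∧ ‖liftOp μ ν ω ω' Φ x‖ ≤ C * ‖x‖ := by
  have hc : ∀ x : XW μ ω, toW ν ω' (Φ x) =ᵐ[ν] Φ x := fun x => toW_coe (hmem x (memW_coe x)).1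
  let T : XW μ ω →ₗ[ℂ] XW ν ω' :=
    { toFun := fun x => toW ν ω' (Φ x)
      map_add' := fun x y => by
        refine XW_ext ((hc _).trans ((hcongr _ _ (memW_coe _) (XW_add x y)).trans
          ((hadd _ _ (memW_coe x) (memW_coe y)).trans ?_)))
        filter_upwards [XW_add (toW ν ω' (Φ x)) (toW ν ω' (Φ y)), hc x, hc y] with a h1 h2 h3
        rw [h1, h2, h3]
      map_smul' := fun c x => by
        refine XW_ext ((hc _).trans ((hcongr _ _ (memW_coe _) (XW_smul c x)).trans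
          ((hsmul c _ (memW_coe x)).trans ?_)))
        filter_upwards [XW_smul c (toW ν ω' (Φ x)), hc x] with a h1 h2
        rw [RingHom.id_apply, h1, h2] }
  have hb : ∀ x, ‖T x‖ ≤ C * ‖x‖ := fun x => by
    rw [norm_eq_nw x]
    exact (norm_toW (hmem x (memW_coe x)).1).le.trans (hmem x (memW_coe x)).2
  have hex : ∃ T : XW μ ω →L[ℂ] XW ν ω', ∀ f, T f =ᵐ[ν] Φ f := ⟨T.mkContinuous C hb, hc⟩
  have h1 : liftOp μ ν ω ω' Φ x =ᵐ[ν] Φ x := by
    unfold liftOp
    rw [dif_pos hex]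
    exact hex.choose_spec x
  refine ⟨h1, ?_⟩
  rw [norm_eq_nw, nw_congr h1, norm_eq_nw]
  exact (hmem x (memW_coe x)).2

theorem pairOp_spec {φ : G → ℂ} {C : ℝ} (hφ : AEStronglyMeasurable φ μ)
    (h : ∀ x, ‖φ x‖ ≤ C * ω.w x) (x : XW μ ω) :
    pairOp μ ω φ x = ∫ a, φ a * x a ∂μ := by
  have hp : ∀ (x : XW μ ω) a, ‖φ a * x a‖ ≤ C * (ω.w a * ‖x a‖) := fun x a => by
    rw [norm_mul, ← mul_assoc]
    exact mul_le_mul_of_nonneg_right (h a) (norm_nonneg _)
  have hi : ∀ x : XW μ ω, Integrable (fun a => φ a * x a) μ := fun x =>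
    ((memW_coe x).2.const_mul C).mono' (hφ.mul (memW_coe x).1) (Eventually.of_forall (hp x))
  let T : XW μ ω →ₗ[ℂ] ℂ :=
    { toFun := fun x => ∫ a, φ a * x a ∂μ
      map_add' := fun x y => by
        rw [← integral_add (hi x) (hi y)]
        refine integral_congr_ae ((XW_add x y).mono fun a ha => ?_)
        simp only
        rw [ha, mul_add]
      map_smul' := fun c x => by
        rw [RingHom.id_apply, smul_eq_mul, ← integral_const_mul]
        refine integral_congr_ae ((XW_smul c x).mono fun a ha => ?_)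
        simp only
        rw [ha, mul_left_comm] }
  have hb : ∀ x, ‖T x‖ ≤ C * ‖x‖ := fun x => by
    rw [norm_eq_nw x]
    unfold nw
    rw [← integral_const_mul]
    exact norm_integral_le_of_norm_le ((memW_coe x).2.const_mul C) (Eventually.of_forall (hp x))
  have hex : ∃ T : XW μ ω →L[ℂ] ℂ, ∀ f, T f = ∫ x, φ x * f x ∂μ :=
    ⟨T.mkContinuous C hb, fun _ => rfl⟩
  unfold pairOp
  rw [dif_pos hex]
  exact hex.choose_spec x

theorem XBaseAux_mul {φ : G → ℂ} {C : ℝ} (h : ∀ x, ‖φ x‖ * ω₂.w x ≤ C * ω₁.w x) (f : G → ℂ)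
    (x : G) : ω₂.w x * ‖φ x * f x‖ ≤ C * (ω₁.w x * ‖f x‖) := by
  rw [norm_mul, ← mul_assoc, ← mul_assoc, mul_comm (ω₂.w x)]
  exact mul_le_mul_of_nonneg_right (h x) (norm_nonneg _)

theorem mulOp_spec {φ : G → ℂ} {C : ℝ} (hφ : AEStronglyMeasurable φ μ)
    (h : ∀ x, ‖φ x‖ * ω₂.w x ≤ C * ω₁.w x) (x : XW μ ω₁) :
    mulOp μ ω₁ ω₂ φ x =ᵐ[μ] (fun a => φ a * x a) ∧ ‖mulOp μ ω₁ ω₂ φ x‖ ≤ C * ‖x‖ := by
  refine liftOp_spec (Φ := fun f x => φ x * f x) (fun f g _ hfg => ?_) (fun f g _ _ => ?_)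
    (fun c f _ => ?_) (fun f hf => ?_) x
  · exact hfg.mono fun a ha => by simp only [ha]
  · exact Eventually.of_forall fun a => mul_add _ _ _
  · exact Eventually.of_forall fun a => mul_left_comm _ _ _
  · exact hf.of_le (hφ.mul hf.1) (Eventually.of_forall (XBaseAux_mul h f))

theorem incl_spec {C : ℝ} (h : ∀ x, ω₂.w x ≤ C * ω₁.w x) (x : XW μ ω₁) :
    incl μ ω₁ ω₂ x =ᵐ[μ] x ∧ ‖incl μ ω₁ ω₂ x‖ ≤ C * ‖x‖ := by
  have h1 := mulOp_spec (μ := μ) (φ := fun _ => 1) (C := C) aestronglyMeasurable_const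
    (fun a => by rw [norm_one, one_mul]; exact h a) x
  exact ⟨h1.1.trans (Eventually.of_forall fun a => one_mul _), h1.2⟩

theorem incl_toW {C : ℝ} (h : ∀ x, ω₂.w x ≤ C * ω₁.w x) (hf : MemW μ ω₁ f) :
    incl μ ω₁ ω₂ (toW μ ω₁ f) = toW μ ω₂ f := by
  exact eq_toW ((incl_spec h _).1.trans (toW_coe hf))

/-- strong continuity of a family of multipliers -/
theorem mulOp_cont {T : Type} [TopologicalSpace T] [FirstCountableTopology T] {φ : T → G → ℂ}
    {C : ℝ} (hφ : ∀ t, AEStronglyMeasurable (φ t) μ) (hc : ∀ x, Continuous fun t => φ t x)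
    (h : ∀ t x, ‖φ t x‖ * ω₂.w x ≤ C * ω₁.w x) (x : XW μ ω₁) :
    Continuous fun t => mulOp μ ω₁ ω₂ (φ t) x := by
  refine continuous_iff_continuousAt.2 fun t₀ => ?_
  have e : ∀ t, ‖mulOp μ ω₁ ω₂ (φ t) x - mulOp μ ω₁ ω₂ (φ t₀) x‖ =
      ∫ a, ω₂.w a * ‖φ t a * x a - φ t₀ a * x a‖ ∂μ := by
    intro t
    rw [norm_eq_nw]
    refine nw_congr ((XW_sub _ _).trans ?_)
    filter_upwards [(mulOp_spec (hφ t) (h t) x).1, (mulOp_spec (hφ t₀) (h t₀) x).1] with a h1 h2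
    rw [h1, h2]
  have hx := memW_coe x
  have hI : Continuous fun t => ∫ a, ω₂.w a * ‖φ t a * x a - φ t₀ a * x a‖ ∂μ := by
    refine continuous_of_dominated
      (bound := fun a => C * (ω₁.w a * ‖x a‖) + C * (ω₁.w a * ‖x a‖)) (fun t => ?_)
      (fun t => Eventually.of_forall fun a => ?_) ((hx.2.const_mul C).add (hx.2.const_mul C))
      (Eventually.of_forall fun a => ?_)
    · exact ω₂.meas.aestronglyMeasurable.mul (((hφ t).mul hx.1).sub ((hφ t₀).mul hx.1)).norm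
    · rw [Real.norm_of_nonneg (mul_nonneg (ω₂.pos a).le (norm_nonneg _))]
      refine (mul_le_mul_of_nonneg_left (norm_sub_le _ _) (ω₂.pos a).le).trans ?_
      rw [mul_add]
      exact add_le_add (XBaseAux_mul (h t) x a) (XBaseAux_mul (h t₀) x a)
    · exact continuous_const.mul (((hc a).mul continuous_const).sub continuous_const).norm
  refine tendsto_iff_norm_sub_tendsto_zero.2 ?_
  simp only [e]
  have h0 := hI.tendsto t₀
  simpa only [sub_self, norm_zero, mul_zero, integral_zero] using h0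

/-- on a countable group with counting measure everything holds pointwise -/
theorem ae_count {p : Z12 → Prop} : (∀ᵐ k ∂(Measure.count : Measure Z12), p k) ↔ ∀ k, p k := by
  exact Measure.ae_count_iff

theorem XBaseAux_cnt (ω : Wt Z12) (c : Z12 → ℂ) :
    Integrable (fun k => ω.w k * ‖c k‖) Measure.count ↔ Summable fun k => ω.w k * ‖c k‖ := by
  rw [integrable_count_iff]
  simp only [fun k => Real.norm_of_nonneg (mul_nonneg (ω.pos k).le (norm_nonneg (c k)))]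

theorem memW_count {ω : Wt Z12} {c : Z12 → ℂ} :
    MemW Measure.count ω c ↔ Summable fun k => ω.w k * ‖c k‖ := by
  rw [← XBaseAux_cnt]
  exact ⟨fun h => h.2, fun h => ⟨(measurable_of_countable c).aestronglyMeasurable, h⟩⟩

theorem nw_count {ω : Wt Z12} {c : Z12 → ℂ} :
    nw Measure.count ω c = ∑' k, ω.w k * ‖c k‖ := by
  unfold nw
  by_cases h : Summable fun k => ω.w k * ‖c k‖
  · rw [integral_countable ((XBaseAux_cnt ω c).2 h)]
    simp only [measureReal_def, Measure.count_singleton, ENNReal.toReal_one, one_smul]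
  · rw [integral_undef fun h' => h ((XBaseAux_cnt ω c).1 h'), tsum_eq_zero_of_not_summable h]

/-- evaluation of a coefficient is a bounded functional -/
theorem exists_evZ (ω : Wt Z12) (k : Z12) :
    ∃ T : XW Measure.count ω →L[ℂ] ℂ, ∀ x, T x = x k := by
  let T : XW Measure.count ω →ₗ[ℂ] ℂ :=
    { toFun := fun x => x k
      map_add' := fun x y => ae_count.1 (XW_add x y) k
      map_smul' := fun c x => ae_count.1 (XW_smul c x) k }
  refine ⟨T.mkContinuous 1 fun x => ?_, fun _ => rfl⟩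
  rw [one_mul, norm_eq_nw, nw_count]
  refine le_trans (le_mul_of_one_le_left (norm_nonneg _) (ω.one_le k)) ?_
  exact (memW_count.1 (memW_coe x)).le_tsum k fun j _ => mul_nonneg (ω.pos j).le (norm_nonneg _)

end P139
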