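import Vale.Agent.P139.XBase

/-! P139: convolution, conjugation, shifts, the free flow; the algebra `algW`. -/

open Complex Set Filter Topology MeasureTheory
open scoped ComplexConjugate

set_option linter.unusedSectionVars false

noncomputable section
namespace P139

variable {G : Type} [AddCommGroup G] [MeasurableSpace G] [MeasurableAdd₂ G] [MeasurableNeg G]
  {μ : Measure G} [SFinite μ] [μ.IsAddLeftInvariant] [μ.IsAddRightInvariant] [μ.IsNegInvariant]
  {ω ω₁ ω₂ : Wt G} {f g : G → ℂ}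

theorem MemW.conv (hf : MemW μ ω f) (hg : MemW μ ω g) :
    MemW μ ω (convF μ f g) ∧ nw μ ω (convF μ f g) ≤ nw μ ω f * nw μ ω g := by
  set F : G → ℝ := fun x => ω.w x * ‖f x‖ with hF
  set H : G → ℝ := fun x => ω.w x * ‖g x‖ with hH
  have h1 : Integrable (convF μ f g) μ :=
    hf.integrable.integrable_convolution (ContinuousLinearMap.mul ℂ ℂ) hg.integrable
  have h2 : Integrable (fun x => ∫ y, F y * H (x - y) ∂μ) μ :=
    hf.2.integrable_convolution (ContinuousLinearMap.mul ℝ ℝ) hg.2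
  have h3 : ∫ x, ∫ y, F y * H (x - y) ∂μ ∂μ = nw μ ω f * nw μ ω g :=
    integral_convolution (ContinuousLinearMap.mul ℝ ℝ) hf.2 hg.2
  have h4 : ∀ᵐ x ∂μ, ω.w x * ‖convF μ f g x‖ ≤ ∫ y, F y * H (x - y) ∂μ := by
    filter_upwards [hf.2.ae_convolution_exists (ContinuousLinearMap.mul ℝ ℝ) hg.2] with x hx
    have hx' : Integrable (fun y => F y * H (x - y)) μ := hx
    calc ω.w x * ‖convF μ f g x‖ ≤ ω.w x * ∫ y, ‖f y * g (x - y)‖ ∂μ :=
          mul_le_mul_of_nonneg_left (norm_integral_le_integral_norm _) (ω.pos x).le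
      _ = ∫ y, ω.w x * ‖f y * g (x - y)‖ ∂μ := (integral_const_mul _ _).symm
      _ ≤ _ := by
        refine integral_mono_of_nonneg (Eventually.of_forall fun y =>
          mul_nonneg (ω.pos x).le (norm_nonneg _)) hx' (Eventually.of_forall fun y => ?_)
        have h5 := ω.add_le y (x - y)
        rw [add_sub_cancel] at h5
        have h6 := mul_le_mul_of_nonneg_right h5
          (mul_nonneg (norm_nonneg (f y)) (norm_nonneg (g (x - y))))
        show ω.w x * ‖f y * g (x - y)‖ ≤ ω.w y * ‖f y‖ * (ω.w (x - y) * ‖g (x - y)‖)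
        rw [norm_mul]
        linarith
  have h7 : ∀ x, 0 ≤ ω.w x * ‖convF μ f g x‖ := fun x => mul_nonneg (ω.pos x).le (norm_nonneg _)
  refine ⟨⟨h1.1, h2.mono' (ω.meas.aestronglyMeasurable.mul h1.1.norm) ?_⟩, ?_⟩
  · filter_upwards [h4] with x hx
    rwa [Real.norm_of_nonneg (h7 x)]
  · rw [← h3]
    exact integral_mono_of_nonneg (Eventually.of_forall h7) h2 h4

theorem convF_congr {f' g' : G → ℂ} (hf : f =ᵐ[μ] f') (hg : g =ᵐ[μ] g') :
    convF μ f g = convF μ f' g' := by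
  funext x
  refine integral_congr_ae ?_
  filter_upwards [hf, (Measure.measurePreserving_sub_left μ x).quasiMeasurePreserving.ae_eq_comp hg]
    with y h1 h2
  rw [h1, show g (x - y) = g' (x - y) from h2]

theorem convF_comm (f g : G → ℂ) : convF μ f g = convF μ g f := by
  funext x
  unfold convF
  rw [← integral_sub_left_eq_self _ μ x]
  simp_rw [sub_sub_self, mul_comm]

theorem XConvAux_add {f' : G → ℂ} (hf : MemW μ ω f) (hf' : MemW μ ω f') (hg : MemW μ ω g) :
    convF μ (fun x => f x + f' x) g =ᵐ[μ] fun x => convF μ f g x + convF μ f' g x := by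
  filter_upwards [hf.integrable.ae_convolution_exists (ContinuousLinearMap.mul ℂ ℂ) hg.integrable,
    hf'.integrable.ae_convolution_exists (ContinuousLinearMap.mul ℂ ℂ) hg.integrable] with x h1 h2
  have h1' : Integrable (fun y => f y * g (x - y)) μ := h1
  have h2' : Integrable (fun y => f' y * g (x - y)) μ := h2
  unfold convF
  rw [← integral_add h1' h2']
  simp_rw [add_mul]

omit [MeasurableAdd₂ G] [MeasurableNeg G] [SFinite μ] [μ.IsAddLeftInvariant]
  [μ.IsAddRightInvariant] [μ.IsNegInvariant] in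
theorem XConvAux_smul (c : ℂ) (f g : G → ℂ) :
    convF μ (fun x => c * f x) g = fun x => c * convF μ f g x := by
  funext x
  unfold convF
  rw [← integral_const_mul]
  simp_rw [mul_assoc]

theorem XConvAux_coe (x y : XW μ ω) : toW μ ω (convF μ x y) =ᵐ[μ] convF μ x y :=
  toW_coe ((memW_coe x).conv (memW_coe y)).1

theorem XConvAux_l1 (x x' y : XW μ ω) : toW μ ω (convF μ (x + x' : XW μ ω) y) =
    toW μ ω (convF μ x y) + toW μ ω (convF μ x' y) := by
  refine XW_ext ?_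
  filter_upwards [XConvAux_coe (x + x') y, XConvAux_coe x y, XConvAux_coe x' y,
    XW_add (toW μ ω (convF μ x y)) (toW μ ω (convF μ x' y)),
    XConvAux_add (memW_coe x) (memW_coe x') (memW_coe y)] with a h1 h2 h3 h4 h5
  rw [h1, h4, h2, h3, convF_congr (XW_add x x') (ae_eq_refl _), h5]

theorem XConvAux_l2 (c : ℂ) (x y : XW μ ω) : toW μ ω (convF μ (c • x : XW μ ω) y) =
    c • toW μ ω (convF μ x y) := by
  refine XW_ext ?_
  filter_upwards [XConvAux_coe (c • x) y, XConvAux_coe x y,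
    XW_smul c (toW μ ω (convF μ x y))] with a h1 h2 h4
  rw [h1, h4, h2, convF_congr (XW_smul c x) (ae_eq_refl _), XConvAux_smul]

theorem XConvAux_norm (x y : XW μ ω) : ‖toW μ ω (convF μ x y)‖ ≤ ‖x‖ * ‖y‖ := by
  rw [norm_toW ((memW_coe x).conv (memW_coe y)).1, norm_eq_nw x, norm_eq_nw y]
  exact ((memW_coe x).conv (memW_coe y)).2

theorem convOp_spec (x y : XW μ ω) :
    convOp μ ω x y =ᵐ[μ] convF μ x y ∧ ‖convOp μ ω x y‖ ≤ ‖x‖ * ‖y‖ := by
  have hex : ∃ T : XW μ ω →L[ℂ] XW μ ω →L[ℂ] XW μ ω, ∀ f g, T f g =ᵐ[μ] convF μ f g := by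
    refine ⟨LinearMap.mkContinuous₂ (LinearMap.mk₂ ℂ (fun x y : XW μ ω => toW μ ω (convF μ x y))
      XConvAux_l1 XConvAux_l2 (fun x y y' => ?_) (fun c x y => ?_)) 1
      (fun x y => by rw [one_mul]; exact XConvAux_norm x y), fun x y => XConvAux_coe x y⟩
    · rw [convF_comm, XConvAux_l1, convF_comm (x : G → ℂ), convF_comm (x : G → ℂ)]
    · rw [convF_comm, XConvAux_l2, convF_comm (x : G → ℂ)]
  have h1 : convOp μ ω x y =ᵐ[μ] convF μ x y := by
    unfold convOp
    rw [dif_pos hex]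
    exact hex.choose_spec x y
  refine ⟨h1, ?_⟩
  rw [eq_toW h1]
  exact XConvAux_norm x y

theorem MemW.st (hf : MemW μ ω f) : MemW μ ω (stF f) ∧ nw μ ω (stF f) = nw μ ω f := by
  have e : (fun x => ω.w x * ‖stF f x‖) = fun x => (fun y => ω.w y * ‖f y‖) (-x) := by
    funext x
    simp only [stF, ω.neg, RCLike.norm_conj]
  refine ⟨⟨continuous_conj.comp_aestronglyMeasurable
    (hf.1.comp_measurePreserving (Measure.measurePreserving_neg μ)), ?_⟩, ?_⟩
  · rw [e]; exact hf.2.comp_neg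
  · unfold nw
    rw [e]
    exact integral_neg_eq_self (fun y => ω.w y * ‖f y‖) μ

theorem stF_congr (h : f =ᵐ[μ] g) : stF f =ᵐ[μ] stF g := by
  filter_upwards [(Measure.measurePreserving_neg μ).quasiMeasurePreserving.ae_eq_comp h] with x hx
  unfold stF
  rw [show f (-x) = g (-x) from hx]

theorem XConvAux_stc (x : XW μ ω) : toW μ ω (stF x) =ᵐ[μ] stF x := toW_coe (memW_coe x).st.1

theorem XConvAux_stn (x : XW μ ω) : ‖toW μ ω (stF x)‖ = ‖x‖ := by
  rw [norm_toW (memW_coe x).st.1, norm_eq_nw x]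
  exact (memW_coe x).st.2

/-- conjugation as a semilinear map -/
def XConvAux_stL : XW μ ω →ₗ⋆[ℂ] XW μ ω where
  toFun x := toW μ ω (stF x)
  map_add' x y := by
    refine XW_ext ?_
    filter_upwards [XConvAux_stc (x + y), XConvAux_stc x, XConvAux_stc y,
      XW_add (toW μ ω (stF x)) (toW μ ω (stF y)), stF_congr (XW_add x y)] with a h1 h2 h3 h4 h5
    rw [h1, h4, h2, h3, h5]
    simp only [stF, map_add]
  map_smul' c x := by
    refine XW_ext ?_
    filter_upwards [XConvAux_stc (c • x), XConvAux_stc x,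
      XW_smul (starRingEnd ℂ c) (toW μ ω (stF x)), stF_congr (XW_smul c x)] with a h1 h2 h4 h5
    rw [h1, h4, h2, h5]
    simp only [stF, map_mul]

theorem stOp_spec (x : XW μ ω) : stOp μ ω x =ᵐ[μ] stF x ∧ ‖stOp μ ω x‖ = ‖x‖ := by
  have hex : ∃ T : XW μ ω →L⋆[ℂ] XW μ ω, ∀ f, T f =ᵐ[μ] stF f :=
    ⟨LinearMap.mkContinuous XConvAux_stL 1 fun x => by
      rw [one_mul]; exact (XConvAux_stn x).le, fun x => XConvAux_stc x⟩
  have h1 : stOp μ ω x =ᵐ[μ] stF x := by
    unfold stOp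
    rw [dif_pos hex]
    exact hex.choose_spec x
  refine ⟨h1, ?_⟩
  rw [eq_toW h1]
  exact XConvAux_stn x

theorem MemW.shift (hf : MemW μ ω f) (ζ : G) :
    MemW μ ω (fun x => f (x - ζ)) ∧ nw μ ω (fun x => f (x - ζ)) ≤ ω.w ζ * nw μ ω f := by
  have hm : AEStronglyMeasurable (fun x => f (x - ζ)) μ :=
    hf.1.comp_measurePreserving (measurePreserving_sub_right μ ζ)
  have h2 : Integrable (fun x => ω.w ζ * (ω.w (x - ζ) * ‖f (x - ζ)‖)) μ :=
    (hf.2.comp_sub_right ζ).const_mul _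
  have h0 : ∀ x, 0 ≤ ω.w x * ‖f (x - ζ)‖ := fun x => mul_nonneg (ω.pos x).le (norm_nonneg _)
  have h4 : ∀ x, ω.w x * ‖f (x - ζ)‖ ≤ ω.w ζ * (ω.w (x - ζ) * ‖f (x - ζ)‖) := fun x => by
    have h5 := ω.add_le ζ (x - ζ)
    rw [add_sub_cancel] at h5
    rw [← mul_assoc]
    exact mul_le_mul_of_nonneg_right h5 (norm_nonneg _)
  refine ⟨⟨hm, h2.mono' (ω.meas.aestronglyMeasurable.mul hm.norm) (Eventually.of_forall fun x => ?_)⟩,
    ?_⟩
  · rw [Real.norm_of_nonneg (h0 x)]; exact h4 x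
  · refine (integral_mono_of_nonneg (Eventually.of_forall h0) h2 (Eventually.of_forall h4)).trans ?_
    rw [integral_const_mul, integral_sub_right_eq_self (fun y => ω.w y * ‖f y‖) ζ]
    rfl

theorem shOp_spec (ζ : G) (x : XW μ ω) :
    shOp μ ω ζ x =ᵐ[μ] (fun a => x (a - ζ)) ∧ ‖shOp μ ω ζ x‖ ≤ ω.w ζ * ‖x‖ := by
  exact liftOp_spec (Φ := fun f a => f (a - ζ))
    (fun _ _ _ h => (measurePreserving_sub_right μ ζ).quasiMeasurePreserving.ae_eq_comp h)
    (fun _ _ _ _ => ae_eq_refl _) (fun _ _ _ => ae_eq_refl _) (fun _ hf => hf.shift ζ) x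

theorem shOp_conv (ζ : G) (x y : XW μ ω) :
    shOp μ ω ζ (convOp μ ω x y) = convOp μ ω (shOp μ ω ζ x) y := by
  refine XW_ext ?_
  filter_upwards [(shOp_spec ζ (convOp μ ω x y)).1, (convOp_spec (shOp μ ω ζ x) y).1,
    (measurePreserving_sub_right μ ζ).quasiMeasurePreserving.ae_eq_comp (convOp_spec x y).1]
    with a h1 h2 h3
  rw [h1, h2, show convOp μ ω x y (a - ζ) = convF μ x y (a - ζ) from h3,
    convF_congr (shOp_spec ζ x).1 (ae_eq_refl _), convF_comm (x : G → ℂ), convF_comm _ (y : G → ℂ)]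
  unfold convF
  simp_rw [sub_right_comm a ζ]

theorem shOp_st (ζ : G) (x : XW μ ω) :
    shOp μ ω ζ (stOp μ ω x) = stOp μ ω (shOp μ ω (-ζ) x) := by
  refine XW_ext ?_
  filter_upwards [(shOp_spec ζ (stOp μ ω x)).1, (stOp_spec (shOp μ ω (-ζ) x)).1,
    (measurePreserving_sub_right μ ζ).quasiMeasurePreserving.ae_eq_comp (stOp_spec x).1,
    stF_congr (shOp_spec (-ζ) x).1] with a h1 h2 h3 h4
  rw [h1, h2, show stOp μ ω x (a - ζ) = stF x (a - ζ) from h3, h4]
  unfold stF
  rw [show -(a - ζ) = -a - -ζ by abel]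

theorem XConvAux_exp (a t : ℝ) : ‖cexp (-I * a * t)‖ = 1 := by
  rw [show -I * a * t = ((-(a * t) : ℝ) : ℂ) * I by push_cast; ring, norm_exp_ofReal_mul_I]

omit [MeasurableAdd₂ G] [MeasurableNeg G] [SFinite μ] [μ.IsAddLeftInvariant]
  [μ.IsAddRightInvariant] [μ.IsNegInvariant] in
theorem freeOp_spec {σ : G → ℝ} (hσ : Measurable σ) (t : ℝ) (x : XW μ ω) :
    freeOp μ ω σ t x =ᵐ[μ] (fun a => cexp (-I * σ a * t) * x a) ∧ ‖freeOp μ ω σ t x‖ ≤ ‖x‖ := by
  have := mulOp_spec (μ := μ) (ω₁ := ω) (ω₂ := ω) (φ := fun a => cexp (-I * σ a * t)) (C := 1)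
    (Measurable.aestronglyMeasurable (by fun_prop)) (fun a => by rw [XConvAux_exp]) x
  rw [one_mul] at this
  exact this

/-- the weighted convolution algebra with the free flow of symbol `σ` -/
def algW (μ : Measure G) [SFinite μ] [μ.IsAddLeftInvariant] [μ.IsAddRightInvariant]
    [μ.IsNegInvariant] (ω : Wt G) (σ : G → ℝ) (hσ : Measurable σ) : Alg (XW μ ω) where
  mul := convOp μ ω
  st := stOp μ ω
  U := freeOp μ ω σ
  comm := by
    intro x y
    refine XW_ext ?_
    filter_upwards [(convOp_spec x y).1, (convOp_spec y x).1] with a h1 h2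
    rw [h1, h2, convF_comm]
  norm_mul x y := (convOp_spec x y).2
  norm_st x := (stOp_spec x).2.le
  norm_U t x := (freeOp_spec hσ t x).2
  U_zero := by
    intro x
    refine XW_ext ?_
    filter_upwards [(freeOp_spec hσ 0 x).1] with a h1
    rw [h1]
    simp
  U_add := by
    intro s t x
    refine XW_ext ?_
    filter_upwards [(freeOp_spec hσ (s + t) x).1, (freeOp_spec hσ s (freeOp μ ω σ t x)).1,
      (freeOp_spec hσ t x).1] with a h1 h2 h3
    rw [h1, h2, h3, ← mul_assoc, ← Complex.exp_add]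
    congr 2
    push_cast
    ring
  U_cont := by
    intro x
    exact mulOp_cont (φ := fun (t : ℝ) a => cexp (-I * σ a * t)) (C := 1)
      (fun t => Measurable.aestronglyMeasurable (by fun_prop)) (fun a => by fun_prop)
      (fun t a => by rw [XConvAux_exp]) x

/-- inclusions are homomorphisms and commute with the flows -/
theorem incl_conv {C : ℝ} (h : ∀ x, ω₂.w x ≤ C * ω₁.w x) (x y : XW μ ω₁) :
    incl μ ω₁ ω₂ (convOp μ ω₁ x y) = convOp μ ω₂ (incl μ ω₁ ω₂ x) (incl μ ω₁ ω₂ y) := by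
  refine XW_ext ?_
  filter_upwards [(incl_spec h (convOp μ ω₁ x y)).1, (convOp_spec x y).1,
    (convOp_spec (incl μ ω₁ ω₂ x) (incl μ ω₁ ω₂ y)).1] with a h1 h2 h3
  rw [h1, h2, h3, convF_congr (incl_spec h x).1 (incl_spec h y).1]

theorem incl_st {C : ℝ} (h : ∀ x, ω₂.w x ≤ C * ω₁.w x) (x : XW μ ω₁) :
    incl μ ω₁ ω₂ (stOp μ ω₁ x) = stOp μ ω₂ (incl μ ω₁ ω₂ x) := by
  refine XW_ext ?_
  filter_upwards [(incl_spec h (stOp μ ω₁ x)).1, (stOp_spec x).1,
    (stOp_spec (incl μ ω₁ ω₂ x)).1, stF_congr (incl_spec h x).1] with a h1 h2 h3 h4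
  rw [h1, h2, h3, h4]

omit [MeasurableAdd₂ G] [MeasurableNeg G] [SFinite μ] [μ.IsAddLeftInvariant]
  [μ.IsAddRightInvariant] [μ.IsNegInvariant] in
theorem incl_free {C : ℝ} (h : ∀ x, ω₂.w x ≤ C * ω₁.w x) {σ : G → ℝ} (hσ : Measurable σ)
    (t : ℝ) (x : XW μ ω₁) :
    incl μ ω₁ ω₂ (freeOp μ ω₁ σ t x) = freeOp μ ω₂ σ t (incl μ ω₁ ω₂ x) := by
  refine XW_ext ?_
  filter_upwards [(incl_spec h (freeOp μ ω₁ σ t x)).1, (freeOp_spec hσ t x).1,
    (freeOp_spec hσ t (incl μ ω₁ ω₂ x)).1, (incl_spec h x).1] with a h1 h2 h3 h4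
  rw [h1, h2, h3, h4]

/-- the algebra on `ℝ^12` -/
def algR (K : ℕ) (l : ℝ) : Alg (XR K l) :=
  algW volume (wR K l) (fun ξ => ‖ξ‖ ^ 2) (by fun_prop)

/-- the algebra on the lattice of mesh `h` -/
def algZ (K : ℕ) (l h : ℝ) : Alg (XZ K l) :=
  algW Measure.count (wZ K l) (fun k => h ^ 2 * nsq k) (measurable_of_countable _)

theorem XConvAux_cv {ω : Wt Z12} (x y : XW Measure.count ω) :
    ((convOp Measure.count ω x y : XW Measure.count ω) : Z12 → ℂ) = cv x y := by
  funext k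
  rw [ae_count.1 (convOp_spec x y).1 k]
  unfold convF cv
  have hi : Integrable (fun j => x j * y (k - j)) (Measure.count : Measure Z12) :=
    ae_count.1 ((memW_coe x).integrable.ae_convolution_exists (ContinuousLinearMap.mul ℂ ℂ)
      (memW_coe y).integrable) k
  rw [integral_countable hi]
  simp

theorem XConvAux_cj {ω : Wt Z12} (x : XW Measure.count ω) :
    ((stOp Measure.count ω x : XW Measure.count ω) : Z12 → ℂ) = cj x :=
  funext fun k => ae_count.1 (stOp_spec x).1 k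

/-- on the lattice the abstract nonlinearity is `nl` -/
theorem algZ_N (K : ℕ) (l h : ℝ) (m : ℕ) (x : XZ K l) (k : Z12) :
    ((algZ K l h).N m x : Z12 → ℂ) k = nl m x k := by
  induction m generalizing k with
  | zero => rfl
  | succ m ih =>
    show (convOp Measure.count (wZ K l) (convOp Measure.count (wZ K l) x
      (stOp Measure.count (wZ K l) x)) ((algZ K l h).N m x) : Z12 → ℂ) k = _
    rw [XConvAux_cv, XConvAux_cv, XConvAux_cj, funext ih]
    rfl

theorem algZ_U (K : ℕ) (l h t : ℝ) (x : XZ K l) (k : Z12) :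
    ((algZ K l h).U t x : Z12 → ℂ) k = cexp (-I * (h ^ 2 * nsq k : ℝ) * t) * x k := by
  exact ae_count.1 (freeOp_spec (σ := fun k => h ^ 2 * nsq k) (measurable_of_countable _) t x).1 k

end P139
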