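import Vale.Agent.P139.XConv

/-! P139: polynomial weights, dilations and shifts on `ℝ^12`. -/

open Complex Set Filter Topology MeasureTheory
open scoped ComplexConjugate

noncomputable section
namespace P139

variable {f g : E → ℂ} {K : ℕ} {l σ : ℝ}

theorem wR_mono {K K' : ℕ} {l l' : ℝ} (hK : K ≤ K') (hl : |l| ≤ |l'|) (ξ : E) :
    (wR K l).w ξ ≤ (wR K' l').w ξ := by
  have h0 := norm_nonneg ξ
  have h1 := abs_nonneg l
  have h2 : |l| * ‖ξ‖ ≤ |l'| * ‖ξ‖ := mul_le_mul_of_nonneg_right hl h0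
  show (1 + |l| * ‖ξ‖) ^ K ≤ (1 + |l'| * ‖ξ‖) ^ K'
  have h3 : 0 ≤ |l| * ‖ξ‖ := mul_nonneg h1 h0
  exact (pow_le_pow_left₀ (by linarith) (by linarith) K).trans
    (pow_le_pow_right₀ (by linarith) hK)

theorem wR_le (K : ℕ) {l l' C : ℝ} (hC : 1 ≤ C) (hl : |l| ≤ C * |l'|) (ξ : E) :
    (wR K l).w ξ ≤ C ^ K * (wR K l').w ξ := by
  have h0 := norm_nonneg ξ
  have h2 : |l| * ‖ξ‖ ≤ C * |l'| * ‖ξ‖ := mul_le_mul_of_nonneg_right hl h0
  have h3 : 0 ≤ |l| * ‖ξ‖ := mul_nonneg (abs_nonneg l) h0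
  show (1 + |l| * ‖ξ‖) ^ K ≤ C ^ K * (1 + |l'| * ‖ξ‖) ^ K
  rw [← mul_pow]
  exact pow_le_pow_left₀ (by linarith) (by linarith) K

theorem wR_smul (K : ℕ) (l σ : ℝ) (ξ : E) : (wR K l).w (σ • ξ) = (wR K (l * σ)).w ξ := by
  show (1 + |l| * ‖σ • ξ‖) ^ K = (1 + |l * σ| * ‖ξ‖) ^ K
  rw [norm_smul, abs_mul, Real.norm_eq_abs, mul_assoc]

theorem wZ_eq (K : ℕ) (l : ℝ) (k : Z12) : (wZ K l).w k = (wR K l).w (emb k) := rfl

theorem wZ_one (K : ℕ) (k : Z12) : (wZ K 1).w k = wA K k := by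
  show (1 + |(1 : ℝ)| * ‖emb k‖) ^ K = (1 + √(nsq k)) ^ K
  rw [abs_one, one_mul, norm_emb]

/-- Lasota-Yorke splitting of the top weight after a dilation by `σ` -/
theorem wR_split (K : ℕ) {l σ : ℝ} (hσ : 0 < σ) (ξ : E) :
    (wR K (l * σ)).w ξ ≤ (2 * σ) ^ K * (wR K l).w ξ + 2 ^ K := by
  show (1 + |l * σ| * ‖ξ‖) ^ K ≤ (2 * σ) ^ K * (1 + |l| * ‖ξ‖) ^ K + 2 ^ K
  have h3 : 0 ≤ |l| * ‖ξ‖ := mul_nonneg (abs_nonneg l) (norm_nonneg ξ)
  have e : |l * σ| * ‖ξ‖ = σ * (|l| * ‖ξ‖) := by rw [abs_mul, abs_of_pos hσ]; ring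
  have h4 : 0 ≤ σ * (|l| * ‖ξ‖) := mul_nonneg hσ.le h3
  rw [e, ← mul_pow]
  rcases le_total (σ * (|l| * ‖ξ‖)) 1 with h | h
  · have h5 : 0 ≤ (2 * σ * (1 + |l| * ‖ξ‖)) ^ K := by positivity
    have h6 : (1 + σ * (|l| * ‖ξ‖)) ^ K ≤ 2 ^ K := pow_le_pow_left₀ (by linarith) (by linarith) K
    linarith
  · have h5 : (0 : ℝ) ≤ 2 ^ K := by positivity
    have h6 : (1 + σ * (|l| * ‖ξ‖)) ^ K ≤ (2 * σ * (1 + |l| * ‖ξ‖)) ^ K :=
      pow_le_pow_left₀ (by linarith) (by nlinarith) K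
    linarith

/-- the weighted norm tends to the unweighted one when the scale tends to zero -/
theorem nw_small (hf : MemW volume (wR K 1) f) {ε : ℝ} (hε : 0 < ε) :
    ∃ l₀ : ℝ, 0 < l₀ ∧ ∀ l : ℝ, |l| ≤ l₀ → nw volume (wR K l) f ≤ (∫ ξ, ‖f ξ‖) + ε := by
  have hc : ContinuousAt (fun l : ℝ => nw volume (wR K l) f) 0 := by
    refine continuousAt_of_dominated (bound := fun ξ => (wR K 1).w ξ * ‖f ξ‖)
      (Eventually.of_forall fun l => (wR K l).meas.aestronglyMeasurable.mul hf.1.norm) ?_ hf.2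
      (Eventually.of_forall fun ξ => ?_)
    · filter_upwards [Metric.closedBall_mem_nhds (0 : ℝ) one_pos] with l hl
      refine Eventually.of_forall fun ξ => ?_
      rw [Real.norm_of_nonneg (mul_nonneg ((wR K l).pos ξ).le (norm_nonneg _))]
      refine mul_le_mul_of_nonneg_right (wR_mono le_rfl ?_ ξ) (norm_nonneg _)
      simpa using hl
    · show ContinuousAt (fun l : ℝ => (1 + |l| * ‖ξ‖) ^ K * ‖f ξ‖) 0
      fun_prop
  have e : nw volume (wR K 0) f = ∫ ξ, ‖f ξ‖ := by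
    simp [nw, wR]
  obtain ⟨δ, hδ, h⟩ := Metric.continuousAt_iff.1 hc ε hε
  refine ⟨δ / 2, by linarith, fun l hl => ?_⟩
  have h1 := h (x := l) (by rw [Real.dist_eq, sub_zero]; linarith)
  rw [Real.dist_eq, e] at h1
  linarith [(abs_lt.1 h1).2]

theorem dilF_congr (hσ : 0 < σ) (h : f =ᵐ[volume] g) : dilF σ f =ᵐ[volume] dilF σ g := by
  filter_upwards [(Measure.quasiMeasurePreserving_smul (volume : Measure E) hσ.ne').ae_eq_comp h]
    with ξ hξ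
  unfold dilF
  rw [show f (σ • ξ) = g (σ • ξ) from hξ]

theorem dilF_one (f : E → ℂ) : dilF 1 f = f := by
  funext ξ
  simp [dilF]

theorem dilF_dilF (σ ρ : ℝ) (f : E → ℂ) : dilF σ (dilF ρ f) = dilF (σ * ρ) f := by
  funext ξ
  simp only [dilF, smul_smul, mul_comm ρ σ]
  push_cast
  ring

theorem XRAux_norm (hσ : 0 < σ) (f : E → ℂ) (ξ : E) : ‖dilF σ f ξ‖ = σ ^ 12 * ‖f (σ • ξ)‖ := by
  unfold dilF
  rw [norm_mul, norm_pow, Complex.norm_real, Real.norm_of_nonneg hσ.le]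

theorem XRAux_int (hσ : 0 < σ) (h : E → ℝ) : ∫ ξ, σ ^ 12 * h (σ • ξ) = ∫ ξ, h ξ := by
  have hs : (0 : ℝ) < σ ^ 12 := pow_pos hσ 12
  rw [integral_const_mul, Measure.integral_comp_smul (volume : Measure E) h σ,
    finrank_euclideanSpace_fin, abs_of_pos (inv_pos.2 hs), smul_eq_mul, ← mul_assoc,
    mul_inv_cancel₀ hs.ne', one_mul]

theorem XRAux_same (hσ : 0 < σ) (ξ : E) :
    (wR K l).w ξ ≤ max 1 σ⁻¹ ^ K * (wR K l).w (σ • ξ) := by
  rw [wR_smul]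
  refine wR_le K (le_max_left _ _) ?_ ξ
  have h : |l| = σ⁻¹ * |l * σ| := by
    rw [abs_mul, abs_of_pos hσ]
    field_simp
  exact h.le.trans (mul_le_mul_of_nonneg_right (le_max_right _ _) (abs_nonneg _))

theorem MemW.dil {ω₁ ω₂ : Wt E} {C : ℝ} (hσ : 0 < σ) (h : ∀ ξ, ω₂.w ξ ≤ C * ω₁.w (σ • ξ))
    (hf : MemW volume ω₁ f) :
    MemW volume ω₂ (dilF σ f) ∧ nw volume ω₂ (dilF σ f) ≤ C * nw volume ω₁ f := by
  have hm : AEStronglyMeasurable (dilF σ f) volume :=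
    (hf.1.comp_quasiMeasurePreserving
      (Measure.quasiMeasurePreserving_smul (volume : Measure E) hσ.ne')).const_mul _
  have h2 : Integrable (fun ξ => C * (σ ^ 12 * (ω₁.w (σ • ξ) * ‖f (σ • ξ)‖))) volume :=
    ((hf.2.comp_smul hσ.ne').const_mul _).const_mul _
  have h0 : ∀ ξ, 0 ≤ ω₂.w ξ * ‖dilF σ f ξ‖ := fun ξ => mul_nonneg (ω₂.pos ξ).le (norm_nonneg _)
  have h4 : ∀ ξ, ω₂.w ξ * ‖dilF σ f ξ‖ ≤ C * (σ ^ 12 * (ω₁.w (σ • ξ) * ‖f (σ • ξ)‖)) := fun ξ => by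
    refine (mul_le_mul_of_nonneg_right (h ξ) (norm_nonneg _)).trans (le_of_eq ?_)
    rw [XRAux_norm hσ]
    ring
  refine ⟨⟨hm, h2.mono' (ω₂.meas.aestronglyMeasurable.mul hm.norm)
    (Eventually.of_forall fun ξ => ?_)⟩, ?_⟩
  · rw [Real.norm_of_nonneg (h0 ξ)]; exact h4 ξ
  · refine (integral_mono_of_nonneg (Eventually.of_forall h0) h2 (Eventually.of_forall h4)).trans ?_
    rw [integral_const_mul, XRAux_int hσ fun ξ => ω₁.w ξ * ‖f ξ‖]
    rfl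

theorem nw_dil (hσ : 0 < σ) (f : E → ℂ) :
    nw volume (wR K (l * σ)) (dilF σ f) = nw volume (wR K l) f := by
  unfold nw
  rw [← XRAux_int hσ fun ξ => (wR K l).w ξ * ‖f ξ‖]
  refine integral_congr_ae (Eventually.of_forall fun ξ => ?_)
  simp only
  rw [XRAux_norm hσ, wR_smul]
  ring

theorem MemW.dil_same (hσ : 0 < σ) (hf : MemW volume (wR K l) f) :
    MemW volume (wR K l) (dilF σ f) ∧
      nw volume (wR K l) (dilF σ f) ≤ max 1 σ⁻¹ ^ K * nw volume (wR K l) f := by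
  exact hf.dil hσ (XRAux_same hσ)

theorem dilOp_spec {ω₁ ω₂ : Wt E} {C : ℝ} (hσ : 0 < σ) (h : ∀ ξ, ω₂.w ξ ≤ C * ω₁.w (σ • ξ))
    (x : XW volume ω₁) :
    dilOp ω₁ ω₂ σ x =ᵐ[volume] dilF σ x ∧ ‖dilOp ω₁ ω₂ σ x‖ ≤ C * ‖x‖ := by
  refine liftOp_spec (Φ := dilF σ) (fun _ _ _ hfg => dilF_congr hσ hfg)
    (fun _ _ _ _ => Eventually.of_forall fun ξ => mul_add _ _ _)
    (fun _ _ _ => Eventually.of_forall fun ξ => mul_left_comm _ _ _) (fun _ hf => hf.dil hσ h) x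

theorem dilOp_same (hσ : 0 < σ) (x : XR K l) :
    dilOp (wR K l) (wR K l) σ x =ᵐ[volume] dilF σ x ∧
      ‖dilOp (wR K l) (wR K l) σ x‖ ≤ max 1 σ⁻¹ ^ K * ‖x‖ := by
  exact dilOp_spec hσ (XRAux_same hσ) x

theorem dilOp_toW (hσ : 0 < σ) (hf : MemW volume (wR K l) f) :
    dilOp (wR K l) (wR K l) σ (toW volume (wR K l) f) = toW volume (wR K l) (dilF σ f) := by
  exact eq_toW ((dilOp_same hσ _).1.trans (dilF_congr hσ (toW_coe hf)))

theorem dilOp_one (x : XR K l) : dilOp (wR K l) (wR K l) 1 x = x := by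
  refine XW_ext ((dilOp_same one_pos x).1.trans ?_)
  rw [dilF_one]

theorem dilOp_mul {ρ : ℝ} (hσ : 0 < σ) (hρ : 0 < ρ) (x : XR K l) :
    dilOp (wR K l) (wR K l) σ (dilOp (wR K l) (wR K l) ρ x)
      = dilOp (wR K l) (wR K l) (σ * ρ) x := by
  refine XW_ext ((dilOp_same hσ _).1.trans ((dilF_congr hσ (dilOp_same hρ x).1).trans ?_))
  rw [dilF_dilF]
  exact (dilOp_same (mul_pos hσ hρ) x).1.symm

theorem dilF_conv (hσ : 0 < σ) (f g : E → ℂ) :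
    dilF σ (convF volume f g) = convF volume (dilF σ f) (dilF σ g) := by
  funext ξ
  have h := Measure.integral_comp_smul (volume : Measure E) (fun η => f η * g (σ • ξ - η)) σ
  have hs : (0 : ℝ) < σ ^ 12 := pow_pos hσ 12
  have hc : (σ : ℂ) ≠ 0 := by exact_mod_cast hσ.ne'
  rw [finrank_euclideanSpace_fin, abs_of_pos (inv_pos.2 hs)] at h
  have e : ∀ η : E, dilF σ f η * dilF σ g (ξ - η) =
      ((σ : ℂ) ^ 12 * (σ : ℂ) ^ 12) * (f (σ • η) * g (σ • ξ - σ • η)) := fun η => by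
    simp only [dilF, smul_sub]
    ring
  unfold convF
  simp only [e]
  rw [integral_const_mul, h, Complex.real_smul]
  unfold dilF
  push_cast
  field_simp

theorem dilF_st (σ : ℝ) (f : E → ℂ) : dilF σ (stF f) = stF (dilF σ f) := by
  funext ξ
  simp [dilF, stF]

theorem dilOp_conv (hσ : 0 < σ) (x y : XR K l) :
    dilOp (wR K l) (wR K l) σ ((algR K l).mul x y)
      = (algR K l).mul (dilOp (wR K l) (wR K l) σ x) (dilOp (wR K l) (wR K l) σ y) := by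
  refine XW_ext ((dilOp_same hσ _).1.trans ((dilF_congr hσ (convOp_spec x y).1).trans ?_))
  rw [dilF_conv hσ, ← convF_congr (dilOp_same hσ x).1 (dilOp_same hσ y).1]
  exact (convOp_spec _ _).1.symm

theorem dilOp_st (hσ : 0 < σ) (x : XR K l) :
    dilOp (wR K l) (wR K l) σ ((algR K l).st x)
      = (algR K l).st (dilOp (wR K l) (wR K l) σ x) := by
  refine XW_ext ((dilOp_same hσ _).1.trans ((dilF_congr hσ (stOp_spec x).1).trans ?_))
  rw [dilF_st]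
  exact ((stOp_spec _).1.trans (stF_congr (dilOp_same hσ x).1)).symm

theorem dilOp_U (hσ : 0 < σ) (t : ℝ) (x : XR K l) :
    dilOp (wR K l) (wR K l) σ ((algR K l).U t x)
      = (algR K l).U (σ ^ 2 * t) (dilOp (wR K l) (wR K l) σ x) := by
  have hm : Measurable fun ξ : E => ‖ξ‖ ^ 2 := by fun_prop
  refine XW_ext ((dilOp_same hσ _).1.trans ((dilF_congr hσ (freeOp_spec hm t x).1).trans ?_))
  filter_upwards [(freeOp_spec hm (σ ^ 2 * t) (dilOp (wR K l) (wR K l) σ x)).1,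
    (dilOp_same hσ x).1] with ξ h1 h2
  refine Eq.trans ?_ h1.symm
  rw [h2]
  unfold dilF
  beta_reduce
  rw [norm_smul, Real.norm_eq_abs, mul_pow, sq_abs, mul_left_comm]
  congr 2
  push_cast
  ring

end P139
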